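import Vale.Agent.P240.MathlibUsed
import Mathlib.LinearAlgebra.Matrix.ProjectiveSpecialLinearGroup

/-!
The groups `PSL_n(F)` covered by the main theorem for the prime `2`.
-/

namespace Vale.Agent.P240.R2.H487

open Matrix

/-- `L` is isomorphic to `PSL_n(F)` for some `n` and some finite field `F`; if `n ≥ 4` is a power of
`2` and `|F|` is `3`, `5`, `9` or `25`, then the characteristic of `F` is `l` or the characteristic of
`𝕜`, or `l = 2`, `|F| = 3` and `n ≠ 8`. -/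
def LinTwo (𝕜 : Type*) [Field 𝕜] (l : ℕ) (L : Type*) [Group L] : Prop :=
  ∃ (n : ℕ) (F : Type) (_ : Field F) (_ : Finite F),
    (∀ a : ℕ, 2 ≤ a → n = 2 ^ a → Nat.card F ∈ ({3, 5, 9, 25} : Set ℕ) →
      (l : F) = 0 ∨ (∃ r : ℕ, r.Prime ∧ (r : F) = 0 ∧ (r : 𝕜) = 0) ∨
        (l = 2 ∧ Nat.card F = 3 ∧ n ≠ 8)) ∧
    Nonempty (L ≃* ProjectiveSpecialLinearGroup (Fin n) F)

end Vale.Agent.P240.R2.H487
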