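import Vale.Agent.P240.R2.H487.NT2

/-!
Families of simple groups all of whose embeddings satisfy `LocTopF`.
-/

set_option linter.all false

namespace Vale.Agent.P240.R2.H487

open Finsupp Subgroup Vale.Agent.P240.K Vale.Agent.P240.H195
open Vale.Agent.P240.R2.H63 Vale.Agent.P240.R2.H275

universe u v

/-- every subgroup isomorphic to `L` of a finite group satisfies `LocTopF` -/
def TopFac (𝕜 : Type v) [Field 𝕜] (p : ℕ) (L : Type u) [Group L] : Prop :=
  ∀ (G : Type u) [Group G] [Finite G] (M : Subgroup G), Nonempty (L ≃* M) → LocTopF 𝕜 p M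

section
variable {G : Type u} [Group G] {p : ℕ}

lemma TopFac.top {𝕜 : Type v} [Field 𝕜] [Finite G] {L : Subgroup G} (h : TopFac 𝕜 p L) :
    LocTopF 𝕜 p L := h G L ⟨MulEquiv.refl _⟩

lemma TopFac.congr {𝕜 : Type v} [Field 𝕜] {L L' : Type u} [Group L] [Group L'] (e : L' ≃* L)
    (h : TopFac 𝕜 p L) : TopFac 𝕜 p L' := fun G _ _ M ⟨f⟩ => h G M ⟨e.symm.trans f⟩

/-- **Main theorem**, groups with `O_p(G) = 1`. -/
theorem comp_mainT [hp : Fact p.Prime] [Finite G] {𝕜 : Type v} [Field 𝕜] {l : ℕ} (hl : l.Prime)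
    (hO : OpTrivial p G) (N : Subgroup G) [N.Normal] (hN : ¬ p ∣ Nat.card N)
    (hmax : ∀ X : Subgroup G, X.Normal → ¬ p ∣ Nat.card X → X ≤ N)
    (h : ∀ L ∈ Q.Comp (Reduced N), LocTopF 𝕜 p L ∨ ListedP 𝕜 p l L) : HQ 𝕜 p G := by
  have hO1 := reduced_op hO N hN
  have hO2 := reduced_op' N hN hmax
  refine reduce_all' N hN (handled_mainP hO1 hO2 hl fun L hL => ?_)
  rcases h L hL with h1 | h1
  · exact Or.inl (Or.inr h1)
  · exact listed_handledP hO1 hO2 hL h1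

/-- **Main theorem** for composition factors: no condition on those of order prime to `p`. -/
theorem factor_mainT [hp : Fact p.Prime] [Finite G] {𝕜 : Type v} [Field 𝕜] {l : ℕ} (hl : l.Prime)
    (hO : OpTrivial p G)
    (h : ∀ (L : Type u) [Group L], CompFactor G L → p ∣ Nat.card L →
      (IsSimpleGroup L → TopFac 𝕜 p L) ∨ ListedFactorP 𝕜 p l L) :
    HQ 𝕜 p G := by
  obtain ⟨N, hNn, hN, hmax⟩ := l2_exists_pprime (p := p) (H := G)
  have hO1 := reduced_op hO N hN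
  have hO2 := reduced_op' N hN hmax
  refine comp_mainT hl hO N hN hmax fun L hL => ?_
  have h1 : CompFactor (Reduced N) L := comp_factor hO1 hO2 hL
  have h2 : CompFactor (centralizer (N : Set G)) L :=
    h1.of_map (QuotientGroup.mk' _) (QuotientGroup.mk'_surjective _)
  have h3 : CompFactor G L :=
    h2.of_sub (inferInstance : (centralizer (N : Set G)).Normal).isSubnormal
  have hd := l2_dvd hO2 L hL
  have hF := comp_family hO1 hO2
  rcases h L h3 hd with h4 | h4 | h4 | h4 | h4 | ⟨h4, r, hr, h5⟩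
  · exact Or.inl (h4 h1.1).top
  · exact Or.inr (Or.inl h4)
  · exact Or.inr (Or.inr (Or.inr (Or.inl (h4.treated hd))))
  · exact Or.inr (Or.inr (Or.inl (h4.sub (hF.centre L hL))))
  · exact Or.inr (Or.inr (Or.inr (Or.inr (Or.inl ⟨h4.1, h4.2.sub⟩))))
  · exact Or.inr (Or.inr (Or.inr (Or.inr (Or.inr (Or.inr ⟨r, hr, Or.inl ⟨h4, h5⟩⟩)))))

/-- Family elimination: a conjugation-stable set of commuting subgroups. -/
theorem family_elimT {𝕜 : Type v} [Field 𝕜] [hp : Fact p.Prime] [Finite G] {D : Set (Subgroup G)}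
    (hconj : ∀ L ∈ D, ∀ g : G, L.map (MulAut.conj g).toMonoidHom ∈ D)
    (hcomm : ∀ L ∈ D, ∀ M ∈ D, L ≠ M → ∀ x ∈ L, ∀ y ∈ M, x * y = y * x)
    (hcen : ∀ L ∈ D, ∀ x ∈ L, (∀ y ∈ L, x * y = y * x) → x = 1)
    (hdvd : ∀ L ∈ D, p ∣ Nat.card L)
    (h : ∀ L ∈ D, TopFac 𝕜 p L ∨ LocN p L ∨ Removable 𝕜 p L ∨ RigidLie p L ∨
      ((p : 𝕜) = 0 ∧ JumpSub 𝕜 p L) ∨ (p = 2 ∧ IsSimpleGroup L ∧ PauliPSL L))
    (hC : HQ 𝕜 p (CenAll D)) : HQ 𝕜 p G := by
  refine family_elimF hconj hcomm hcen hdvd (fun L hL => ?_) hC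
  rcases h L hL with h | h | h | h | h | ⟨h1, h2, h3⟩
  · exact Or.inl (Or.inr h.top)
  · exact Or.inl (Or.inl h)
  · exact Or.inr (Or.inl h)
  · exact Or.inr (Or.inr (Or.inl h))
  · exact Or.inr (Or.inr (Or.inr h))
  · subst h1
    exact Or.inl (Or.inr (pauli_locTopF h2 h3))

end

end Vale.Agent.P240.R2.H487
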