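import Vale.Agent.P240.MathlibUsed
import Mathlib.LinearAlgebra.Matrix.ProjectiveSpecialLinearGroup

/-!
The groups `PSL_n(F)`, `n` a power of `2`, with `|F|` odd.
-/

namespace Vale.Agent.P240.R2.H487

open Matrix

/-- `L` is isomorphic to `PSL_n(F)` where `n = 2 ^ a ≥ 4` and `F` is a finite field with `q` elements,
`q` odd, and `q` is not `3`, `5`, `9` or `25`. -/
def PauliPSL (L : Type*) [Group L] : Prop :=
  ∃ (n a : ℕ) (F : Type) (_ : Field F) (_ : Finite F), n = 2 ^ a ∧ 2 ≤ a ∧ Nat.card F % 2 = 1 ∧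
    Nat.card F ∉ ({3, 5, 9, 25} : Set ℕ) ∧
      Nonempty (ProjectiveSpecialLinearGroup (Fin n) F ≃* L)

/-- `L` is isomorphic to `PSL_n(F)` where `n = 2 ^ a ≥ 4` and `F` is a finite field with `q` elements,
`q = 1` modulo `4`, and `q` is not `5`, `9`, `17`, `25`, `49` or `81`. -/
def PauliPSL1 (L : Type*) [Group L] : Prop :=
  ∃ (n a : ℕ) (F : Type) (_ : Field F) (_ : Finite F), n = 2 ^ a ∧ 2 ≤ a ∧ Nat.card F % 4 = 1 ∧
    Nat.card F ∉ ({5, 9, 17, 25, 49, 81} : Set ℕ) ∧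
      Nonempty (ProjectiveSpecialLinearGroup (Fin n) F ≃* L)

end Vale.Agent.P240.R2.H487
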