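import Mathlib.GroupTheory.SpecificGroups.Alternating
import Mathlib.LinearAlgebra.SymplecticGroup
import Vale.Agent.P240.R2.H432.QDefs
import Vale.Agent.P240.R2.H487.CG.Defs
import Vale.Agent.P240.R2.H487.PDefs
import Vale.Agent.P240.R2.H487.TwoD

/-!
The simple classical groups.
-/

set_option autoImplicit false

namespace Vale.Agent.P240.R2.H487

open Matrix

/-- `L` is isomorphic to `PSp_{2m}(F)`, `m ≥ 2`. -/
def IsPSp (F : Type*) [Field F] (L : Type*) [Group L] : Prop :=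
  ∃ m : ℕ, 2 ≤ m ∧
    Nonempty (L ≃* (symplecticGroup (Fin m) F ⧸ Subgroup.center (symplecticGroup (Fin m) F)))

/-- `L` is isomorphic to `PSU_n(q)`, where `F` has `q ^ 2` elements and `σ` is the automorphism of `F`
of order `2`. -/
def PSUn (n : ℕ) (F : Type*) [Field F] (L : Type*) [Group L] : Prop :=
  ∃ σ : F ≃+* F, (∀ x, σ (σ x) = x) ∧ (∃ x, σ x ≠ x) ∧ Nonempty (L ≃* CG.PGJ n σ)

/-- `PSU_n(q)`, where `n ≥ 3` is odd, or `n ≥ 3` and `q` is even. -/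
def IsPSU (F : Type*) [Field F] (L : Type*) [Group L] : Prop :=
  ∃ n : ℕ, 3 ≤ n ∧ (n % 2 = 1 ∨ (2 : F) = 0) ∧ PSUn n F L

/-- `PSU_n(q)`, where `n ≥ 4` is even, and `n = 4` or `q ≠ 7`. -/
def IsPSUe (F : Type*) [Field F] (L : Type*) [Group L] : Prop :=
  ∃ n : ℕ, 4 ≤ n ∧ n % 2 = 0 ∧ (n = 4 ∨ Nat.card F ≠ 49) ∧ PSUn n F L

/-- `L` is isomorphic to `PΩ(Q)`, where `Q` is a quadratic form on `F ^ n`, `n ≥ 5`, whose polar form
is nondegenerate. -/
def IsPOm (F : Type*) [Field F] (L : Type*) [Group L] : Prop :=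
  ∃ (n : ℕ) (Q : QuadraticForm F (Fin n → F)), 5 ≤ n ∧
    (∀ v, (∀ w, QuadraticMap.polar Q v w = 0) → v = 0) ∧ Nonempty (L ≃* H432.Q.POQ Q)

/-- If `|F|` lies in `S`, then the characteristic of `F` is `l` or the characteristic of `𝕜`. -/
def Adm (𝕜 : Type*) [Field 𝕜] (l : ℕ) (S : Set ℕ) (F : Type*) [Field F] : Prop :=
  Nat.card F ∈ S → (l : F) = 0 ∨ ∃ r : ℕ, r.Prime ∧ (r : F) = 0 ∧ (r : 𝕜) = 0

/-- `L` is an alternating group or a classical group. -/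
def AltClas (L : Type*) [Group L] : Prop :=
  (∃ n : ℕ, 5 ≤ n ∧ Nonempty (L ≃* alternatingGroup (Fin n))) ∨
    ∃ (F : Type) (_ : Field F) (_ : Finite F),
      (∃ n : ℕ, Nonempty (L ≃* ProjectiveSpecialLinearGroup (Fin n) F)) ∨ IsPSp F L ∨
        IsPSU F L ∨ IsPSUe F L ∨ IsPOm F L

/-- `L` is an alternating group or a classical group, and the groups over certain small fields are as
in `LinTwo` and `Adm`. -/
def AltClasAt (𝕜 : Type*) [Field 𝕜] (l : ℕ) (L : Type*) [Group L] : Prop :=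
  (∃ n : ℕ, 5 ≤ n ∧ Nonempty (L ≃* alternatingGroup (Fin n))) ∨ LinTwo 𝕜 l L ∨
    ∃ (F : Type) (_ : Field F) (_ : Finite F), IsPSp F L ∨
      (Adm 𝕜 l {3, 5, 9, 25} F ∧ (IsPSU F L ∨ IsPOm F L)) ∨
      (Adm 𝕜 l {9, 25, 81} F ∧ IsPSUe F L)

/-- `L` is an alternating group, or a symplectic group, or a unitary or orthogonal group over a field
that is not one of certain small fields, or `PSL_n(F)`, where `|F|` is even, or `n ≥ 4` is a power of
`2` and `|F|` is not `3`, `5`, `9` or `25`. -/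
def AltClasE (L : Type*) [Group L] : Prop :=
  (∃ n : ℕ, 5 ≤ n ∧ Nonempty (L ≃* alternatingGroup (Fin n))) ∨ PauliPSL L ∨
    ∃ (F : Type) (_ : Field F) (_ : Finite F),
      ((2 : F) = 0 ∧ ∃ n : ℕ, Nonempty (L ≃* ProjectiveSpecialLinearGroup (Fin n) F)) ∨
      IsPSp F L ∨ (Nat.card F ∉ ({3, 5, 9, 25} : Set ℕ) ∧ (IsPSU F L ∨ IsPOm F L)) ∨
      (Nat.card F ∉ ({9, 25, 81} : Set ℕ) ∧ IsPSUe F L)

end Vale.Agent.P240.R2.H487
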