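import Vale.Agent.P240.R2.H112.I2
import Vale.Agent.P240.R2.H296.OInv
import Vale.Agent.P240.R2.H387.PSU7
import Vale.Agent.P240.R2.H487.AD
import Vale.Agent.P240.R2.H487.CG.B1
import Vale.Agent.P240.R2.H487.TF
import Vale.Agent.P240.R2.H613.I1
import Vale.Agent.P240.R2.H715.SpTF

/-!
The groups `PSp_{2m}(F)` and `PSU_n(F)` as composition factors, for the prime `2`.
-/

set_option autoImplicit false
set_option linter.all false

namespace Vale.Agent.P240.R2.H487

open Subgroup Matrix Vale.Agent.P240.K Vale.Agent.P240.H195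
open Vale.Agent.P240.R2.H63 Vale.Agent.P240.R2.H275

universe u v

/-- a finite field of characteristic `r` -/
lemma exists_char' (F : Type*) [Field F] [Finite F] : ∃ r : ℕ, r.Prime ∧ (r : F) = 0 := by
  obtain ⟨r, hr, hc⟩ := exists_char F
  exact ⟨r, hr.out, CharP.cast_eq_zero F r⟩

lemma char_unique {F : Type*} [Field F] {r s : ℕ} (hr : r.Prime) (hs : s.Prime) (h : (r : F) = 0)
    (h' : (s : F) = 0) : r = s := by
  have := CG.charP_of hr h
  exact (Nat.prime_dvd_prime_iff_eq hr hs).1 ((CharP.cast_eq_zero_iff F r s).1 h')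

/-- the characteristic of an admissible small field -/
lemma Adm.cases {𝕜 : Type v} [Field 𝕜] {l : ℕ} {S : Set ℕ} {F : Type*} [Field F]
    (h : Adm 𝕜 l S F) (hq : Nat.card F ∈ S) (hl : l.Prime) {r : ℕ} (hr : r.Prime)
    (hrF : (r : F) = 0) : r = l ∨ (r : 𝕜) = 0 := by
  rcases h hq with h1 | ⟨s, hs, h1, h2⟩
  · exact Or.inl (char_unique hr hl hrF h1)
  · rw [char_unique hr hs hrF h1]
    exact Or.inr h2

lemma card_odd {F : Type*} [Field F] [Finite F] {r : ℕ} (hr : r.Prime) (hrF : (r : F) = 0)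
    (hr2 : r ≠ 2) : Nat.card F % 2 = 1 := by
  have : Fintype F := Fintype.ofFinite F
  have := CG.charP_of hr hrF
  rw [Nat.card_eq_fintype_card]
  refine FiniteField.odd_card_of_char_ne_two ?_
  rwa [ringChar.eq F r]

/-- the automorphism of order two of a finite field -/
lemma inv_pow {F : Type u} [Field F] [Finite F] {σ : F ≃+* F} (hσ : ∀ x, σ (σ x) = x)
    (hne : ∃ x, σ x ≠ x) : ∃ q : ℕ, Nat.card F = q ^ 2 ∧ ∀ x : F, σ x = x ^ q := by
  have : Fintype F := Fintype.ofFinite F
  letI : StarRing F :=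
    { star := id
      star_involutive := fun _ => rfl
      star_mul := fun a b => mul_comm a b
      star_add := fun _ _ => rfl }
  refine H296.O.inv_data (K := F) (fun _ => rfl) σ ?_ ?_
  · ext x
    exact hσ x
  · rintro rfl
    obtain ⟨x, hx⟩ := hne
    exact hx rfl

end Vale.Agent.P240.R2.H487
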