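import Vale.Agent.P240.R2.H487.NT1

/-!
The main theorems with `LocTopF` and `PauliPSL` as additional alternatives.
-/

set_option linter.all false

namespace Vale.Agent.P240.R2.H487

open Finsupp Subgroup Vale.Agent.P240.K Vale.Agent.P240.H195
open Vale.Agent.P240.R2.H63 Vale.Agent.P240.R2.H275

universe u v

section
variable {G : Type u} [Group G] {p : ℕ}

/-- Family elimination: a conjugation-stable set of commuting subgroups. -/
theorem family_elimF {𝕜 : Type v} [Field 𝕜] [hp : Fact p.Prime] [Finite G] {D : Set (Subgroup G)}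
    (hconj : ∀ L ∈ D, ∀ g : G, L.map (MulAut.conj g).toMonoidHom ∈ D)
    (hcomm : ∀ L ∈ D, ∀ M ∈ D, L ≠ M → ∀ x ∈ L, ∀ y ∈ M, x * y = y * x)
    (hcen : ∀ L ∈ D, ∀ x ∈ L, (∀ y ∈ L, x * y = y * x) → x = 1)
    (hdvd : ∀ L ∈ D, p ∣ Nat.card L)
    (h : ∀ L ∈ D, LN 𝕜 p L ∨ Removable 𝕜 p L ∨ RigidLie p L ∨ ((p : 𝕜) = 0 ∧ JumpSub 𝕜 p L))
    (hC : HQ 𝕜 p (CenAll D)) : HQ 𝕜 p G := by
  classical
  have hc : ∀ L ∈ D, L ⊓ centralizer (L : Set G) = ⊥ := by
    intro L hL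
    rw [eq_bot_iff]
    intro x hx
    obtain ⟨h1, h2⟩ := mem_inf.1 hx
    rw [mem_centralizer_iff] at h2
    exact mem_bot.2 (hcen L hL x h1 fun y hy => (h2 y hy).symm)
  have hF : Family p D := ⟨hconj, hcomm, hc, hdvd⟩
  rw [CenAll_eq, HQ_sub_iff] at hC
  rw [HQ_iff]
  set VV : Set (Subgroup G) := {L | L ∈ D ∧ LN 𝕜 p L} with hVV
  set RR : Set (Subgroup G) := {L | L ∈ D ∧ ¬ LN 𝕜 p L ∧ RigidLie p L} with hRR
  set QQ : Set (Subgroup G) := {L | L ∈ D ∧ ¬ LN 𝕜 p L ∧ ¬ RigidLie p L ∧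
    ((p : 𝕜) = 0 ∧ QDL 𝕜 p L)} with hQQ
  set TT : Set (Subgroup G) := {L | L ∈ D ∧ ¬ LN 𝕜 p L ∧ ¬ RigidLie p L ∧
    ¬ ((p : 𝕜) = 0 ∧ QDL 𝕜 p L)} with hTT
  have hTsub : TT ⊆ D := fun L hL => hL.1
  refine remove hF (T := TT) hTsub (fun L hL => ?_) ?_
  · rcases h L hL.1 with h1 | h1 | h1 | h1
    · exact absurd h1 hL.2.1
    · exact h1
    · exact absurd h1 hL.2.2.1
    · exact absurd ⟨h1.1, h1.2.qdl⟩ hL.2.2.2
  refine rigid_step (R := RR) (fun L hL => hF.le_Cen hTsub hL.1 fun hcon => hcon.2.2.1 hL.2.2)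
    (fun g _ L hL => ⟨hF.conj L hL.1 g, fun hcon => hL.2.1 (LN_cj_iff.1 hcon),
      rigidLie_cj hL.2.2⟩)
    (fun L hL M hM => hF.comm L hL.1 M hM.1) (fun L hL => hL.2.2) ?_
  rw [← Cen_union]
  have hUR : TT ∪ RR ⊆ D := Set.union_subset hTsub fun L hL => hL.1
  have hqq : NA 𝕜 (Ain p (Cen (TT ∪ RR) ⊓ Cen QQ)) → NA 𝕜 (Ain p (Cen (TT ∪ RR))) := by
    intro hNA
    by_cases hchar : (p : 𝕜) = 0
    · refine qd_step hchar (R := QQ) (fun L hL => hF.le_Cen hUR hL.1 ?_) (fun g _ M hM => ?_)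
        (fun L hL M hM => hF.comm L hL.1 M hM.1) (fun L hL => hF.centre L hL.1)
        (fun L hL => hF.dvd L hL.1) (fun L hL => hL.2.2.2.2) hNA
      · rintro (hcon | hcon)
        · exact hcon.2.2.2 hL.2.2.2
        · exact hL.2.2.1 hcon.2.2
      · exact ⟨hF.conj M hM.1 g, fun hcon => hM.2.1 (LN_cj_iff.1 hcon),
          fun hcon => hM.2.2.1 (rigidLie_cj_iff.1 hcon), hchar, QDL_cj hM.2.2.2.2 g⟩
    · have h0 : QQ = ∅ := by
        ext L
        simp only [Set.mem_empty_iff_false, iff_false]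
        intro hL
        exact hchar hL.2.2.2.1
      have h1 : Cen QQ = ⊤ := by
        rw [h0, eq_top_iff]
        intro x _
        exact mem_Cen.2 fun L hL => absurd hL (Set.notMem_empty L)
      rwa [h1, inf_top_eq] at hNA
  refine hqq ?_
  rw [← Cen_union]
  have hUQ : TT ∪ RR ∪ QQ ⊆ D := Set.union_subset hUR fun L hL => hL.1
  refine ln_step (D := VV) (fun L hL => hF.le_Cen hUQ hL.1 ?_)
    (fun g _ L hL => ⟨hF.conj L hL.1 g, hL.2.cj g⟩)
    (fun L hL M hM => hF.comm L hL.1 M hM.1) (fun L hL => hF.centre L hL.1)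
    (fun L hL => hL.2) ?_
  · rintro ((hcon | hcon) | hcon)
    · exact hcon.2.1 hL.2
    · exact hcon.2.1 hL.2
    · exact hcon.2.1 hL.2
  rw [← Cen_union]
  have hU : TT ∪ RR ∪ QQ ∪ VV = D := by
    ext L
    constructor
    · rintro (h1 | h1)
      · exact hUQ h1
      · exact h1.1
    · intro hL
      by_cases h0 : LN 𝕜 p L
      · exact Or.inr ⟨hL, h0⟩
      by_cases h1 : RigidLie p L
      · exact Or.inl (Or.inl (Or.inr ⟨hL, h0, h1⟩))
      · by_cases h2 : (p : 𝕜) = 0 ∧ QDL 𝕜 p L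
        · exact Or.inl (Or.inr ⟨hL, h0, h1, h2⟩)
        · exact Or.inl (Or.inl (Or.inl ⟨hL, h0, h1, h2⟩))
  rw [hU]
  exact hC

/-- Family elimination: a conjugation-stable set of commuting subgroups. -/
theorem family_elimP {𝕜 : Type v} [Field 𝕜] [hp : Fact p.Prime] [Finite G] {D : Set (Subgroup G)}
    (hconj : ∀ L ∈ D, ∀ g : G, L.map (MulAut.conj g).toMonoidHom ∈ D)
    (hcomm : ∀ L ∈ D, ∀ M ∈ D, L ≠ M → ∀ x ∈ L, ∀ y ∈ M, x * y = y * x)
    (hcen : ∀ L ∈ D, ∀ x ∈ L, (∀ y ∈ L, x * y = y * x) → x = 1)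
    (hdvd : ∀ L ∈ D, p ∣ Nat.card L)
    (h : ∀ L ∈ D, LocN p L ∨ Removable 𝕜 p L ∨ RigidLie p L ∨ ((p : 𝕜) = 0 ∧ JumpSub 𝕜 p L) ∨
      (p = 2 ∧ IsSimpleGroup L ∧ PauliPSL L))
    (hC : HQ 𝕜 p (CenAll D)) : HQ 𝕜 p G := by
  refine family_elimF hconj hcomm hcen hdvd (fun L hL => ?_) hC
  rcases h L hL with h | h | h | h | ⟨h1, h2, h3⟩
  · exact Or.inl (Or.inl h)
  · exact Or.inr (Or.inl h)
  · exact Or.inr (Or.inr (Or.inl h))
  · exact Or.inr (Or.inr (Or.inr h))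
  · subst h1
    exact Or.inl (Or.inr (pauli_locTopF h2 h3))

/-- the conditions on components -/
def ListedP (𝕜 : Type v) [Field 𝕜] (p l : ℕ) (L : Subgroup G) : Prop :=
  (p = 2 ∧ PauliPSL L) ∨ Listed 𝕜 p l L

lemma listed_handledP [hp : Fact p.Prime] [Finite G] {𝕜 : Type v} [Field 𝕜] {l : ℕ}
    (hO : OpTrivial p G) (hO' : OpPrimeTrivial p G) {L : Subgroup G} (hL : L ∈ Q.Comp G)
    (h : ListedP 𝕜 p l L) : HandledP 𝕜 p l L := by
  rcases h with h | h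
  · obtain ⟨h1, h2⟩ := h
    subst h1
    exact Or.inl (Or.inr (pauli_locTopF (comp_factor hO hO' hL).1 h2))
  · rcases listed_handled hO hO' hL h with h | h | h
    · exact Or.inl (Or.inl h)
    · exact Or.inr (Or.inl h)
    · exact Or.inr (Or.inr h)

/-- **Main theorem**, groups with `O_p(G) = 1`. -/
theorem comp_mainP [hp : Fact p.Prime] [Finite G] {𝕜 : Type v} [Field 𝕜] {l : ℕ} (hl : l.Prime)
    (hO : OpTrivial p G) (N : Subgroup G) [N.Normal] (hN : ¬ p ∣ Nat.card N)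
    (hmax : ∀ X : Subgroup G, X.Normal → ¬ p ∣ Nat.card X → X ≤ N)
    (h : ∀ L ∈ Q.Comp (Reduced N), ListedP 𝕜 p l L) : HQ 𝕜 p G := by
  have hO1 := reduced_op hO N hN
  have hO2 := reduced_op' N hN hmax
  exact reduce_all' N hN (handled_mainP hO1 hO2 hl fun L hL => listed_handledP hO1 hO2 hL (h L hL))

/-- the conditions on composition factors of order divisible by `p` -/
def ListedFactorP (𝕜 : Type v) [Field 𝕜] (p l : ℕ) (L : Type u) [Group L] : Prop :=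
  (p = 2 ∧ PauliPSL L) ∨ ListedFactor 𝕜 p l L

/-- **Main theorem** for composition factors: no condition on those of order prime to `p`. -/
theorem factor_mainP [hp : Fact p.Prime] [Finite G] {𝕜 : Type v} [Field 𝕜] {l : ℕ} (hl : l.Prime)
    (hO : OpTrivial p G)
    (h : ∀ (L : Type u) [Group L], CompFactor G L → p ∣ Nat.card L → ListedFactorP 𝕜 p l L) :
    HQ 𝕜 p G := by
  obtain ⟨N, hNn, hN, hmax⟩ := l2_exists_pprime (p := p) (H := G)
  have hO1 := reduced_op hO N hN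
  have hO2 := reduced_op' N hN hmax
  refine comp_mainP hl hO N hN hmax fun L hL => ?_
  have h1 : CompFactor (Reduced N) L := comp_factor hO1 hO2 hL
  have h2 : CompFactor (centralizer (N : Set G)) L :=
    h1.of_map (QuotientGroup.mk' _) (QuotientGroup.mk'_surjective _)
  have h3 : CompFactor G L :=
    h2.of_sub (inferInstance : (centralizer (N : Set G)).Normal).isSubnormal
  have hd := l2_dvd hO2 L hL
  have hF := comp_family hO1 hO2
  rcases h L h3 hd with h4 | h4 | h4 | h4 | ⟨h4, r, hr, h5⟩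
  · exact Or.inl h4
  · exact Or.inr (Or.inr (Or.inl (h4.treated hd)))
  · exact Or.inr (Or.inl (h4.sub (hF.centre L hL)))
  · exact Or.inr (Or.inr (Or.inr (Or.inl ⟨h4.1, h4.2.sub⟩)))
  · exact Or.inr (Or.inr (Or.inr (Or.inr (Or.inr ⟨r, hr, Or.inl ⟨h4, h5⟩⟩))))

end

end Vale.Agent.P240.R2.H487
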