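import Vale.Agent.P240.R2.H487.TwoD
import Vale.Agent.P240.R2.H487.NT2

/-!
The main theorem for the prime `2`.
-/

namespace Vale.Agent.P240.R2.H487

open Subgroup Vale.Agent.P240.K Vale.Agent.P240.H195
open Vale.Agent.P240.R2.H63 Vale.Agent.P240.R2.H275

universe u v

lemma sl_subsingleton {n : ℕ} (hn : n ≤ 1) (F : Type) [Field F]
    (x y : Matrix.SpecialLinearGroup (Fin n) F) : x = y := by
  apply Subtype.ext
  rcases Nat.le_one_iff_eq_zero_or_eq_one.1 hn with rfl | rfl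
  · exact Subsingleton.elim _ _
  · have h1 := x.2
    have h2 := y.2
    rw [Matrix.det_fin_one] at h1 h2
    ext i j
    have hi : i = 0 := Subsingleton.elim _ _
    have hj : j = 0 := Subsingleton.elim _ _
    rw [hi, hj, h1, h2]

lemma psl_two_le {L : Type*} [Group L] (hn : ∃ x y : L, x * y ≠ y * x) {n : ℕ} {F : Type} [Field F]
    (e : L ≃* Matrix.ProjectiveSpecialLinearGroup (Fin n) F) : 2 ≤ n := by
  by_contra hcon
  obtain ⟨x, y, hxy⟩ := hn
  apply hxy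
  apply e.injective
  obtain ⟨a, ha⟩ := QuotientGroup.mk_surjective (e (x * y))
  obtain ⟨b, hb⟩ := QuotientGroup.mk_surjective (e (y * x))
  rw [← ha, ← hb, sl_subsingleton (by omega) F a b]

lemma odd_geom {q d : ℕ} (hq : q % 2 = 1) (hq1 : q ≠ 1) (hd : Odd d) :
    ¬ 2 ∣ (q ^ d - 1) / (q - 1) := by
  have h2 : 2 ≤ q := by omega
  rw [← Nat.geomSum_eq h2]
  intro h
  rw [Nat.dvd_iff_mod_eq_zero] at h
  rw [Finset.sum_nat_mod] at h
  have h3 : ∀ i ∈ Finset.range d, q ^ i % 2 = 1 := by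
    intro i _
    rw [Nat.pow_mod, hq, one_pow, Nat.mod_eq_of_lt (by norm_num)]
  rw [Finset.sum_congr rfl h3] at h
  simp only [Finset.sum_const, Finset.card_range, smul_eq_mul, mul_one] at h
  obtain ⟨k, hk⟩ := hd
  omega

/-- the groups `PSL_n(F)` for `p = 2` -/
theorem LinTwo.listed {𝕜 : Type v} [Field 𝕜] {G : Type u} [Group G] {L : Type u} [Group L] {l : ℕ}
    (hl : l.Prime) (hL : CompFactor G L) (h : LinTwo 𝕜 l L) : ListedFactorP 𝕜 2 l L := by
  obtain ⟨n, F, hF1, hF2, hex, ⟨e⟩⟩ := h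
  have hp2 : Fact (Nat.Prime 2) := ⟨Nat.prime_two⟩
  have hn2 := psl_two_le hL.2.1 e
  obtain ⟨r, hrc⟩ := CharP.exists F
  have hr : r.Prime := (CharP.char_is_prime_or_zero F r).resolve_right
    (CharP.char_ne_zero_of_finite F r)
  have hg : Explicit 𝕜 2 l L → ListedFactorP 𝕜 2 l L := fun h => Or.inr (Or.inl (h.good hL))
  rcases Nat.eq_or_lt_of_le hn2 with h2 | h3
  · subst h2
    exact hg (Or.inr (Or.inl ⟨F, hF1, hF2, ⟨e⟩⟩))
  by_cases hr2 : r = 2
  · subst hr2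
    exact hg (Or.inr (Or.inr (Or.inr (Or.inl ⟨2, hr, ⟨n, F, hF1, hF2, hn2, Or.inl h3, hrc, ⟨e⟩⟩,
      Or.inl rfl⟩))))
  have hodd : Nat.card F % 2 = 1 := by
    have : Fintype F := Fintype.ofFinite F
    rw [Nat.card_eq_fintype_card]
    refine FiniteField.odd_card_of_char_ne_two ?_
    rwa [ringChar.eq F r]
  have hq1 : Nat.card F ≠ 1 := by
    intro h1
    exact not_subsingleton F ((Nat.card_eq_one_iff_unique.1 h1).1)
  obtain ⟨k, m, hm, hnk⟩ := Nat.exists_eq_two_pow_mul_odd (n := n) (by omega)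
  by_cases hm1 : m = 1
  · have hn' : n = 2 ^ k := by rw [hnk, hm1, mul_one]
    have hk2 : 2 ≤ k := by
      by_contra hcon
      have h4 : k ≤ 1 := by omega
      have h5 : n ≤ 2 ^ 1 := by rw [hn']; exact Nat.pow_le_pow_right (by norm_num) h4
      omega
    by_cases hq : Nat.card F ∈ ({3, 5, 9, 25} : Set ℕ)
    · rcases hex k hk2 hn' hq with h4 | ⟨r', hr', h4, h5⟩ | ⟨h4, h5, h6⟩
      · have h5 : r = l := (Nat.prime_dvd_prime_iff_eq hr hl).1 ((CharP.cast_eq_zero_iff F r l).1 h4)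
        exact hg (Or.inr (Or.inr (Or.inr (Or.inl ⟨r, hr, ⟨n, F, hF1, hF2, hn2, Or.inl h3, hrc,
          ⟨e⟩⟩, Or.inr (Or.inl h5)⟩))))
      · have h6 : r = r' :=
          (Nat.prime_dvd_prime_iff_eq hr hr').1 ((CharP.cast_eq_zero_iff F r r').1 h4)
        subst h6
        exact hg (Or.inr (Or.inr (Or.inr (Or.inl ⟨r, hr, ⟨n, F, hF1, hF2, hn2, Or.inl h3, hrc,
          ⟨e⟩⟩, Or.inr (Or.inr (Or.inl h5))⟩))))
      · refine hg (Or.inr (Or.inr (Or.inr (Or.inr ⟨h4, rfl, n, k, F, hF1, hF2, hn', hk2,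
          by rw [h5], fun h => h6 h.1, ⟨e⟩⟩))))
    · exact Or.inl ⟨rfl, n, k, F, hF1, hF2, hn', hk2, hodd, hq, ⟨e.symm⟩⟩
  · have hm3 : 3 ≤ m := by
      obtain ⟨j, hj⟩ := hm
      omega
    refine hg (Or.inr (Or.inr (Or.inl ⟨n, m, F, hF1, hF2, hn2, ⟨2 ^ k, by rw [hnk, mul_comm]⟩,
      hm3, odd_geom hodd hq1 hm, ?_, ⟨e⟩⟩)))
    rintro ⟨-, h4⟩
    rw [h4] at hodd
    norm_num at hodd

/-- **The main theorem for the prime `2`**: alternating groups and groups `PSL_n(F)`. -/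
theorem lin_two [Fact (Nat.Prime 2)] {𝕜 : Type v} [Field 𝕜] {l : ℕ} (hl : l.Prime)
    {G : Type u} [Group G] [Finite G] (hO : OpTrivial 2 G)
    (h : ∀ (L : Type u) [Group L], CompFactor G L → 2 ∣ Nat.card L →
      (∃ n : ℕ, 5 ≤ n ∧ Nonempty (L ≃* alternatingGroup (Fin n))) ∨ LinTwo 𝕜 l L) :
    HQ 𝕜 2 G := by
  refine factor_mainP (l := l) hl hO fun L _ hL hd => ?_
  rcases h L hL hd with h1 | h1
  · exact Or.inr (Or.inl (Or.inl h1))
  · exact h1.listed hl hL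

/-- no exceptions if the characteristic of `𝕜` is `3` -/
lemma LinTwo.of_three {𝕜 : Type v} [Field 𝕜] (h3 : (3 : 𝕜) = 0) {L : Type u} [Group L] {n : ℕ}
    {F : Type} [Field F] [Finite F] (e : L ≃* Matrix.ProjectiveSpecialLinearGroup (Fin n) F) :
    LinTwo 𝕜 5 L := by
  refine ⟨n, F, inferInstance, inferInstance, fun a ha hn hq => ?_, ⟨e⟩⟩
  have : Fintype F := Fintype.ofFinite F
  obtain ⟨r, hrc⟩ := CharP.exists F
  have hr : Fact r.Prime := ⟨(CharP.char_is_prime_or_zero F r).resolve_right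
    (CharP.char_ne_zero_of_finite F r)⟩
  obtain ⟨k, -, hk⟩ := FiniteField.card F r
  rw [← Nat.card_eq_fintype_card] at hk
  have hdvd : ∀ s : ℕ, s.Prime → ∀ t : ℕ, Nat.card F = s ^ t → r = s := by
    intro s hs t ht
    have h1 : r ∣ s ^ t := by
      rw [← ht, hk]
      exact dvd_pow_self r k.ne_zero
    exact (Nat.prime_dvd_prime_iff_eq hr.out hs).1 (hr.out.dvd_of_dvd_pow h1)
  simp only [Set.mem_insert_iff, Set.mem_singleton_iff] at hq
  rcases hq with hq | hq | hq | hq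
  · have h1 := hdvd 3 Nat.prime_three 1 (by rw [hq, pow_one])
    subst h1
    exact Or.inr (Or.inl ⟨3, Nat.prime_three, CharP.cast_eq_zero F 3, by exact_mod_cast h3⟩)
  · have h1 := hdvd 5 Nat.prime_five 1 (by rw [hq, pow_one])
    subst h1
    exact Or.inl (CharP.cast_eq_zero F 5)
  · have h1 := hdvd 3 Nat.prime_three 2 (by rw [hq]; norm_num)
    subst h1
    exact Or.inr (Or.inl ⟨3, Nat.prime_three, CharP.cast_eq_zero F 3, by exact_mod_cast h3⟩)
  · have h1 := hdvd 5 Nat.prime_five 2 (by rw [hq]; norm_num)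
    subst h1
    exact Or.inl (CharP.cast_eq_zero F 5)

/-- **The main theorem for the prime `2`**, without exceptions: if `𝕜` has characteristic `3`, then
the poset is not `𝕜`-acyclic. -/
theorem lin_three [Fact (Nat.Prime 2)] {𝕜 : Type v} [Field 𝕜] (h3 : (3 : 𝕜) = 0)
    {G : Type u} [Group G] [Finite G] (hO : OpTrivial 2 G)
    (h : ∀ (L : Type u) [Group L], CompFactor G L → 2 ∣ Nat.card L →
      (∃ n : ℕ, 5 ≤ n ∧ Nonempty (L ≃* alternatingGroup (Fin n))) ∨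
      ∃ (n : ℕ) (F : Type) (_ : Field F) (_ : Finite F),
        Nonempty (L ≃* Matrix.ProjectiveSpecialLinearGroup (Fin n) F)) :
    HQ 𝕜 2 G := by
  refine lin_two (l := 5) Nat.prime_five hO fun L _ hL hd => ?_
  rcases h L hL hd with h1 | ⟨n, F, hF1, hF2, ⟨e⟩⟩
  · exact Or.inl h1
  · exact Or.inr (LinTwo.of_three h3 e)

end Vale.Agent.P240.R2.H487
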