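import Vale.Agent.P240.R2.H487.CM4

/-!
Matrices of half tori.
-/

set_option linter.all false

namespace Vale.Agent.P240.R2.H487

open Matrix

section
variable {F : Type*} [Field F] {a : ℕ} {ι : Type*} [Fintype ι] [DecidableEq ι]

/-- the matrices of the half tori -/
def HM (i0 : F) (σ : ι ≃ Vv a) (w : Ww a) (μ : Fˣ) : Matrix ι ι F :=
  ((1 + (μ : F)) / 2) • (1 : Matrix ι ι F) + ((1 - (μ : F)) / 2) • PP i0 σ w

lemma HM_one (h2 : (2 : F) ≠ 0) (i0 : F) (σ : ι ≃ Vv a) (w : Ww a) : HM i0 σ w 1 = 1 := by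
  rw [HM, Units.val_one, one_add_one_eq_two, div_self h2, sub_self, zero_div, zero_smul, add_zero,
    one_smul]

lemma HM_mul (h2 : (2 : F) ≠ 0) {i0 : F} (hi : i0 * i0 = -1) (σ : ι ≃ Vv a) (w : Ww a)
    (μ ν : Fˣ) : HM i0 σ w (μ * ν) = HM i0 σ w μ * HM i0 σ w ν := by
  simp only [HM, Matrix.add_mul, Matrix.mul_add, Matrix.smul_mul, Matrix.mul_smul, Matrix.one_mul,
    Matrix.mul_one, PP_sq hi, Units.val_mul]
  match_scalars
  · field_simp
    ring
  · field_simp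
    ring

lemma HM_neg_one (h2 : (2 : F) ≠ 0) (i0 : F) (σ : ι ≃ Vv a) (w : Ww a) :
    HM i0 σ w (-1) = PP i0 σ w := by
  rw [HM, Units.val_neg, Units.val_one, add_neg_cancel, zero_div, zero_smul, zero_add,
    sub_neg_eq_add, one_add_one_eq_two, div_self h2, one_smul]

lemma HM_sq (h2 : (2 : F) ≠ 0) (i0 : F) (σ : ι ≃ Vv a) (w : Ww a) (μ : Fˣ) :
    HM i0 σ w (μ ^ 2) = (μ : F) • TM i0 σ w μ := by
  have hμ : (μ : F) ≠ 0 := μ.ne_zero
  rw [HM, TM, smul_add, smul_smul, smul_smul, cc, ss, Units.val_pow_eq_pow_val,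
    Units.val_inv_eq_inv_val]
  congr 2
  · field_simp
  · field_simp

end

end Vale.Agent.P240.R2.H487
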