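import Vale.Agent.P240.R2.H487.DP7
import Vale.Agent.P240.R2.H979.Mx
import Mathlib.RingTheory.AdjoinRoot
import Mathlib.Algebra.Polynomial.SpecificDegree
import Mathlib.FieldTheory.Finiteness

/-!
The property `AutTop` for `PSL_n(F)`, `n` a power of `2`, `|F| = 3` modulo `4`.
-/

set_option linter.all false

namespace Vale.Agent.P240.R2.H487

open Matrix hiding single
open Subgroup Vale.Agent.P240.K Vale.Agent.P240.H195

universe u v w

section
variable {F : Type w} [Field F] {a m : ℕ}

/-- the quadratic extension -/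
theorem exists_quad [Finite F] (h4 : Nat.card F % 4 = 3) : ∃ (K : Type w) (_ : Field K) (_ : Finite K)
    (_ : F →+* K) (i : K), i * i = -1 ∧ Nat.card K = Nat.card F ^ 2 := by
  open Polynomial in
  obtain ⟨p, hp⟩ : ∃ p : F[X], p = X ^ 2 + C 1 := ⟨_, rfl⟩
  have hdeg : p.natDegree = 2 := by
    rw [hp]
    exact Polynomial.natDegree_X_pow_add_C
  have hp0 : p ≠ 0 := by
    intro h0
    rw [h0, Polynomial.natDegree_zero] at hdeg
    omega
  have hirr : Irreducible p := by
    rw [Polynomial.irreducible_iff_roots_eq_zero_of_degree_le_three (by omega) (by omega)]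
    refine Multiset.eq_zero_of_forall_notMem fun x hx => ?_
    rw [Polynomial.mem_roots hp0, Polynomial.IsRoot.def, hp] at hx
    simp only [Polynomial.eval_add, Polynomial.eval_pow, Polynomial.eval_X, Polynomial.eval_C] at hx
    refine neg_one_ns h4 x ?_
    rw [← pow_two]
    exact eq_neg_of_add_eq_zero_left hx
  have : Fact (Irreducible p) := ⟨hirr⟩
  have hpb := (AdjoinRoot.powerBasis hp0).finrank
  rw [AdjoinRoot.powerBasis_dim, hdeg] at hpb
  have hfin : Module.Finite F (AdjoinRoot p) := (AdjoinRoot.powerBasis hp0).finite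
  refine ⟨AdjoinRoot p, inferInstance, Module.finite_of_finite F, AdjoinRoot.of p,
    AdjoinRoot.root p, ?_, ?_⟩
  · have h1 : Polynomial.eval₂ (AdjoinRoot.of p) (AdjoinRoot.root p) p = 0 :=
      AdjoinRoot.eval₂_root p
    have h3 : ∀ (q : Polynomial F), q = Polynomial.X ^ 2 + Polynomial.C 1 →
        Polynomial.eval₂ (AdjoinRoot.of p) (AdjoinRoot.root p) q =
          AdjoinRoot.root p ^ 2 + 1 := by
      rintro _ rfl
      rw [Polynomial.eval₂_add, Polynomial.eval₂_pow, Polynomial.eval₂_X, Polynomial.eval₂_C,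
        map_one]
    rw [h3 p hp] at h1
    rw [← pow_two]
    exact eq_neg_of_add_eq_zero_left h1
  · rw [Module.natCard_eq_pow_finrank (K := F), hpb]

/-- **The property `AutTop` for `PSL_n(F)`**, `n` a power of `2`, `|F| = 3` modulo `4`. -/
theorem psl_autTop3 [Finite F] {𝕜 : Type v} [Field 𝕜] (hma : m + 1 = 2 ^ a)
    (ha : 2 ≤ a) (h4 : Nat.card F % 4 = 3) (h7 : 7 ≤ Nat.card F)
    (hsimple : IsSimpleGroup (PL m F)) : AutTop 𝕜 (PL m F) := by
  obtain ⟨K, hKf, hKfin, φ, i0, hi0, hK⟩ := exists_quad h4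
  obtain ⟨r, hr, hchar⟩ := exists_char F
  have hcharK : CharP K r := charP_of_injective_ringHom φ.injective r
  have hm2 : 2 ≤ m := by
    have : 2 ^ 2 ≤ 2 ^ a := Nat.pow_le_pow_right (by norm_num) ha
    omega
  obtain ⟨k, hk⟩ : ∃ k, Nat.card F = 4 * k + 3 := ⟨Nat.card F / 4, by omega⟩
  have hK4 : Nat.card K % 4 = 1 := by
    rw [hK, hk]
    have : (4 * k + 3) ^ 2 = 4 * (4 * k ^ 2 + 6 * k + 2) + 1 := by ring
    omega
  have hK49 : 49 ≤ Nat.card K := by
    rw [hK]
    nlinarith
  have h2 : (2 : K) ≠ 0 := two_ne (by omega)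
  have hi00 : i0 ≠ 0 := by
    rintro rfl
    rw [mul_zero, zero_eq_neg] at hi0
    exact one_ne_zero hi0
  obtain ⟨i, hi'⟩ : ∃ i : Kˣ, (i : K) = i0 := ⟨Units.mk0 i0 hi00, rfl⟩
  have hi : (i : K) * i = -1 := by rw [hi', hi0]
  have σ : Fin (m + 1) ≃ Vv a := (Fintype.equivFinOfCardEq (by
    rw [Fintype.card_fun, ZMod.card, Fintype.card_fin, hma])).symm
  have num : NumA K := H979.numA hK4 ⟨by omega, by omega, by omega⟩
  refine autTop_of_mx φ h2 hi σ (r := r) ha hma num ?_ ?_
  · intro b Z X c hb hX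
    exact H979.mx φ h4 h7 hma ha hi σ hb hX
  · intro f hf
    obtain ⟨M, τ, h⟩ := aut_psl (r := r) hm2 hsimple f
    have hτ2 : τ ^ 2 = 1 := by
      rcases h with h | h
      · rw [h] at hf
        obtain ⟨N, hN⟩ := sem_pow' M τ 2
        rw [hN] at hf
        exact (sem_trivial (r := r) hf (by omega)).1
      · rw [h] at hf
        have h5 : (sem M τ * ind (itA m F)) ^ 2 = sem (M * gla τ (gt M)) (τ ^ 2) := by
          rw [pow_two τ, ← sem_mul, ← it_sem, pow_two]
          group
        rw [h5] at hf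
        exact (sem_trivial (r := r) hf (by omega)).1
    have hτ : τ = 1 := by
      by_contra hne
      obtain ⟨k', -, h5, -⟩ := ff_quad (r := r) hne hτ2
      have h6 : Nat.card F % 4 = 0 ∨ Nat.card F % 4 = 1 := by
        rw [h5]
        rcases Nat.even_or_odd' (r ^ k') with ⟨l, hl | hl⟩
        · left
          rw [hl]
          have : (2 * l) ^ 2 = 4 * l ^ 2 := by ring
          omega
        · right
          rw [hl]
          have : (2 * l + 1) ^ 2 = 4 * (l ^ 2 + l) + 1 := by ring
          omega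
      omega
    subst hτ
    exact ⟨M, h⟩

end

end Vale.Agent.P240.R2.H487
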