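import Mathlib.LinearAlgebra.Matrix.SchurComplement
import Vale.Agent.P240.H195.SN5

/-!
Semilinear maps stabilizing a subspace: the elements of `SL_n(F)` that are trivial on `U` and on `V / U`.
-/

namespace Vale.Agent.P240.R2.H487

open Matrix Vale.Agent.P240.K Vale.Agent.P240.H195

section
variable {F : Type*} [Field F] {m : ℕ}

/-- the semilinear map `v ↦ M τ(v)` -/
def sl (M : GLm m F) (τ : RingAut F) (v : Fin (m + 1) → F) : Fin (m + 1) → F :=
  M.1 *ᵥ fun i => τ (v i)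

lemma map_mulVec' (τ : RingAut F) (A : Matrix (Fin (m + 1)) (Fin (m + 1)) F)
    (v : Fin (m + 1) → F) : (A.map τ) *ᵥ (fun i => τ (v i)) = fun i => τ ((A *ᵥ v) i) := by
  ext i
  simp only [Matrix.mulVec, dotProduct, Matrix.map_apply, map_sum, map_mul]

lemma inv_mul_val (M : GLm m F) : (M⁻¹).1 * M.1 = 1 := by
  rw [← Units.val_mul, inv_mul_cancel, Units.val_one]

lemma mul_inv_val (M : GLm m F) : M.1 * (M⁻¹).1 = 1 := by
  rw [← Units.val_mul, mul_inv_cancel, Units.val_one]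

lemma actf_sl (M : GLm m F) (τ : RingAut F) (x : SLm m F) (v : Fin (m + 1) → F) :
    (actf M τ x).1 *ᵥ sl M τ v = sl M τ (x.1 *ᵥ v) := by
  rw [actf_val, sl, sl, Matrix.mulVec_mulVec, Matrix.mul_assoc, inv_mul_val, Matrix.mul_one,
    ← Matrix.mulVec_mulVec, map_mulVec']

lemma sl_add (M : GLm m F) (τ : RingAut F) (v w : Fin (m + 1) → F) :
    sl M τ (v + w) = sl M τ v + sl M τ w := by
  rw [sl, sl, sl, ← Matrix.mulVec_add]
  congr 1
  ext i
  simp

lemma sl_smul (M : GLm m F) (τ : RingAut F) (c : F) (v : Fin (m + 1) → F) :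
    sl M τ (c • v) = τ c • sl M τ v := by
  rw [sl, sl, ← Matrix.mulVec_smul]
  congr 1
  ext i
  simp

lemma sl_sub (M : GLm m F) (τ : RingAut F) (v w : Fin (m + 1) → F) :
    sl M τ (v - w) = sl M τ v - sl M τ w := by
  rw [sl, sl, sl, ← Matrix.mulVec_sub]
  congr 1
  ext i
  simp

lemma sl_zero (M : GLm m F) (τ : RingAut F) : sl M τ 0 = 0 := by
  have := sl_smul M τ 0 0
  rwa [zero_smul, map_zero, zero_smul] at this

lemma sl_injective (M : GLm m F) (τ : RingAut F) : Function.Injective (sl M τ) := by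
  intro v w h
  have h1 : (M⁻¹).1 *ᵥ sl M τ v = (M⁻¹).1 *ᵥ sl M τ w := by rw [h]
  rw [sl, sl, Matrix.mulVec_mulVec, Matrix.mulVec_mulVec, inv_mul_val, Matrix.one_mulVec,
    Matrix.one_mulVec] at h1
  ext i
  exact τ.injective (congrFun h1 i)

lemma sl_bijective [Finite F] (M : GLm m F) (τ : RingAut F) : Function.Bijective (sl M τ) :=
  Finite.injective_iff_bijective.1 (sl_injective M τ)

/-- the elements that are trivial on `U` and on `V / U` -/
def Wg (U : Submodule F (Fin (m + 1) → F)) : Subgroup (SLm m F) where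
  carrier := {g | (∀ v, g.1 *ᵥ v - v ∈ U) ∧ ∀ u ∈ U, g.1 *ᵥ u = u}
  one_mem' := ⟨fun v => by
    have : (1 : SLm m F).1 = 1 := rfl
    rw [this, Matrix.one_mulVec, sub_self]
    exact U.zero_mem, fun u _ => by
    have : (1 : SLm m F).1 = 1 := rfl
    rw [this, Matrix.one_mulVec]⟩
  mul_mem' := by
    rintro a b ⟨ha, ha'⟩ ⟨hb, hb'⟩
    have e : (a * b).1 = a.1 * b.1 := rfl
    refine ⟨fun v => ?_, fun u hu => ?_⟩
    · rw [e, ← Matrix.mulVec_mulVec]
      have h1 := U.add_mem (ha (b.1 *ᵥ v)) (hb v)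
      rwa [sub_add_sub_cancel] at h1
    · rw [e, ← Matrix.mulVec_mulVec, hb' u hu, ha' u hu]
  inv_mem' := by
    rintro a ⟨ha, ha'⟩
    have e : ∀ v, (a⁻¹).1 *ᵥ (a.1 *ᵥ v) = v := by
      intro v
      have h1 : (a⁻¹ * a).1 = (a⁻¹).1 * a.1 := rfl
      rw [Matrix.mulVec_mulVec, ← h1, inv_mul_cancel]
      exact Matrix.one_mulVec v
    have hinv : ∀ u ∈ U, (a⁻¹).1 *ᵥ u = u := by
      intro u hu
      have h1 := e u
      rwa [ha' u hu] at h1
    refine ⟨fun v => ?_, hinv⟩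
    have h1 := ha v
    have h2 := hinv _ h1
    rw [Matrix.mulVec_sub, e] at h2
    have h3 := U.neg_mem h1
    rw [← h2, neg_sub] at h3
    exact h3

lemma mem_Wg {U : Submodule F (Fin (m + 1) → F)} {g : SLm m F} :
    g ∈ Wg U ↔ (∀ v, g.1 *ᵥ v - v ∈ U) ∧ ∀ u ∈ U, g.1 *ᵥ u = u := Iff.rfl

lemma sl_ext_vec {g h : SLm m F} (H : ∀ v, g.1 *ᵥ v = h.1 *ᵥ v) : g = h := by
  apply Subtype.ext
  exact Matrix.ext_of_mulVec_single fun i => H _

lemma Wg_comm {U : Submodule F (Fin (m + 1) → F)} {g h : SLm m F} (hg : g ∈ Wg U)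
    (hh : h ∈ Wg U) : g * h = h * g := by
  have e : ∀ a b : SLm m F, ∀ v, (a * b).1 *ᵥ v = a.1 *ᵥ (b.1 *ᵥ v) := by
    intro a b v
    have : (a * b).1 = a.1 * b.1 := rfl
    rw [this, ← Matrix.mulVec_mulVec]
  have key : ∀ a ∈ Wg U, ∀ b ∈ Wg U, ∀ v, a.1 *ᵥ (b.1 *ᵥ v) = (a.1 *ᵥ v - v) + (b.1 *ᵥ v - v) + v := by
    intro a ha b hb v
    have h1 := ha.2 _ (hb.1 v)
    rw [Matrix.mulVec_sub] at h1
    have h2 : a.1 *ᵥ (b.1 *ᵥ v) = (a.1 *ᵥ (b.1 *ᵥ v) - a.1 *ᵥ v) + a.1 *ᵥ v := by abel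
    rw [h2, h1]
    abel
  refine sl_ext_vec fun v => ?_
  rw [e, e, key g hg h hh, key h hh g hg]
  abel

lemma Wg_pow {U : Submodule F (Fin (m + 1) → F)} {g : SLm m F} (hg : g ∈ Wg U) (k : ℕ)
    (v : Fin (m + 1) → F) : (g ^ k).1 *ᵥ v = v + (k : F) • (g.1 *ᵥ v - v) := by
  induction k with
  | zero =>
    rw [pow_zero, Nat.cast_zero, zero_smul, add_zero]
    exact Matrix.one_mulVec v
  | succ k ih =>
    have e : (g ^ (k + 1)).1 = g.1 * (g ^ k).1 := by
      have : g ^ (k + 1) = g * g ^ k := pow_succ' g k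
      rw [this]
      rfl
    rw [e, ← Matrix.mulVec_mulVec, ih, Matrix.mulVec_add, Matrix.mulVec_smul, hg.2 _ (hg.1 v)]
    rw [Nat.cast_succ, add_smul, one_smul]
    abel

lemma Wg_pow_char {r : ℕ} [CharP F r] {U : Submodule F (Fin (m + 1) → F)} {g : SLm m F}
    (hg : g ∈ Wg U) : g ^ r = 1 := by
  refine sl_ext_vec fun v => ?_
  rw [Wg_pow hg, CharP.cast_eq_zero, zero_smul, add_zero]
  exact (Matrix.one_mulVec v).symm

/-- the elements `1 + u ⊗ f` -/
lemma exists_trans {U : Submodule F (Fin (m + 1) → F)} {u : Fin (m + 1) → F} (hu : u ∈ U)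
    (f : (Fin (m + 1) → F) →ₗ[F] F) (hf : U ≤ LinearMap.ker f) :
    ∃ g ∈ Wg U, ∀ v, g.1 *ᵥ v = v + f v • u := by
  set ξ : Fin (m + 1) → F := fun i => f (Pi.single i 1) with hξ
  have hdot : ∀ v, ξ ⬝ᵥ v = f v := by
    intro v
    have h1 : v = ∑ i, v i • (Pi.single i (1 : F) : Fin (m + 1) → F) := by
      ext j
      simp [Finset.sum_apply, Pi.single_apply]
    conv_rhs => rw [h1]
    rw [map_sum, dotProduct]
    refine Finset.sum_congr rfl fun i _ => ?_
    rw [map_smul, smul_eq_mul, hξ, mul_comm]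
  have hact : ∀ v, (1 + replicateCol Unit u * replicateRow Unit ξ) *ᵥ v = v + f v • u := by
    intro v
    rw [Matrix.add_mulVec, Matrix.one_mulVec, ← Matrix.mulVec_mulVec]
    congr 1
    ext i
    have h1 : (replicateRow Unit ξ *ᵥ v) () = f v := by
      rw [← hdot]
      rfl
    simp only [Matrix.mulVec, dotProduct, Finset.univ_unique, Finset.sum_singleton,
      replicateCol_apply, Pi.smul_apply, smul_eq_mul]
    have h2 : (default : Unit) = () := rfl
    rw [mul_comm]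
    congr 1
  refine ⟨⟨1 + replicateCol Unit u * replicateRow Unit ξ, ?_⟩, ⟨fun v => ?_, fun w hw => ?_⟩, hact⟩
  · rw [det_one_add_replicateCol_mul_replicateRow, hdot]
    have : f u = 0 := hf hu
    rw [this, add_zero]
  · rw [hact, add_sub_cancel_left]
    exact U.smul_mem _ hu
  · rw [hact]
    have : f w = 0 := hf hw
    rw [this, zero_smul, add_zero]

end

end Vale.Agent.P240.R2.H487
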