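import Mathlib.LinearAlgebra.Dual.Lemmas
import Vale.Agent.P240.R2.H487.LP1

/-!
Semilinear automorphisms of `PSL_n(F)` stabilizing a subspace `U` act faithfully on the image of
`Wg U`.
-/

namespace Vale.Agent.P240.R2.H487

open Matrix Vale.Agent.P240.K Vale.Agent.P240.H195

section
variable {F : Type*} [Field F] {m : ℕ}

lemma pow_char_one {r : ℕ} [Fact r.Prime] [CharP F r] {c : F} (h : c ^ r = 1) : c = 1 := by
  have h1 : (c - 1) ^ r = 0 := by rw [sub_pow_char, h, one_pow, sub_self]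
  exact sub_eq_zero.1 (pow_eq_zero_iff (Fact.out (p := r.Prime)).ne_zero |>.1 h1)

lemma exists_functional {U : Submodule F (Fin (m + 1) → F)} {v : Fin (m + 1) → F} (hv : v ∉ U) :
    ∃ f : (Fin (m + 1) → F) →ₗ[F] F, U ≤ LinearMap.ker f ∧ f v = 1 := by
  obtain ⟨f, hf1, hf2⟩ := Submodule.exists_le_ker_of_notMem hv
  refine ⟨(f v)⁻¹ • f, fun u hu => ?_, ?_⟩
  · rw [LinearMap.mem_ker, LinearMap.smul_apply, hf2 hu, smul_zero]
  · rw [LinearMap.smul_apply, smul_eq_mul, inv_mul_cancel₀ hf1]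

/-- the relation in `SL` -/
lemma rel_of_fix {M : GLm m F} {τ : RingAut F} {g : SLm m F}
    (h : sem M τ (pr m F g) = pr m F g) :
    ∃ c : F, c ^ (m + 1) = 1 ∧ (∀ v, c • (g.1 *ᵥ v) = (actf M τ g).1 *ᵥ v) ∧
      ∀ v, c • (g.1 *ᵥ sl M τ v) = sl M τ (g.1 *ᵥ v) := by
  obtain ⟨c, hc, h1⟩ := pr_eq_iff (x := actf M τ g) (y := g) h
  have h2 : ∀ v, c • (g.1 *ᵥ v) = (actf M τ g).1 *ᵥ v := by
    intro v
    rw [h1, ← Matrix.mulVec_mulVec, Matrix.algebraMap_eq_diagonal]
    ext i
    rw [Matrix.mulVec_diagonal]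
    rfl
  exact ⟨c, hc, h2, fun v => by rw [h2, actf_sl]⟩

lemma sem_eigen {r : ℕ} [Fact r.Prime] [CharP F r] {N : GLm m F} {τ : RingAut F}
    (hN : sem N τ = 1) (hm : 1 ≤ m) {w : Fin (m + 1) → F} (hw : w ≠ 0) :
    ∃ c : F, sl N τ w = c • w := by
  have hlt : Submodule.span F {w} ≠ ⊤ := by
    intro h
    have h1 := finrank_span_le_card (R := F) ({w} : Set (Fin (m + 1) → F))
    rw [h, finrank_top, Module.finrank_fintype_fun_eq_card, Fintype.card_fin] at h1
    simp at h1
    omega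
  obtain ⟨v, hv⟩ : ∃ v, v ∉ Submodule.span F {w} := by
    by_contra hcon
    push Not at hcon
    exact hlt (Submodule.eq_top_iff'.2 hcon)
  obtain ⟨f, hf, hfv⟩ := exists_functional hv
  obtain ⟨g, hg, hgv⟩ := exists_trans (Submodule.mem_span_singleton_self w) f hf
  have hfix : sem N τ (pr m F g) = pr m F g := by rw [hN]; rfl
  obtain ⟨c, -, h1, h2⟩ := rel_of_fix hfix
  have hc : c = 1 := by
    refine pow_char_one (r := r) ?_
    have h3 : ∀ k : ℕ, ∀ x, (actf N τ g ^ k).1 *ᵥ x = c ^ k • ((g ^ k).1 *ᵥ x) := by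
      intro k
      induction k with
      | zero => intro x; rw [pow_zero, pow_zero, pow_zero, one_smul]
      | succ k ih =>
        intro x
        have e1 : (actf N τ g ^ (k + 1)).1 = (actf N τ g ^ k).1 * (actf N τ g).1 := by
          rw [pow_succ]; rfl
        have e2 : (g ^ (k + 1)).1 = (g ^ k).1 * g.1 := by
          rw [pow_succ]; rfl
        rw [e1, e2, ← Matrix.mulVec_mulVec, ih, ← Matrix.mulVec_mulVec, ← h1,
          Matrix.mulVec_smul, smul_smul, pow_succ]
    have h4 : actf N τ g ^ r = 1 := by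
      have : act N τ (g ^ r) = act N τ g ^ r := map_pow _ _ _
      rw [Wg_pow_char hg, map_one] at this
      exact this.symm
    have h5 := h3 r w
    rw [h4, Wg_pow_char hg] at h5
    have h6 : ((1 : SLm m F)).1 *ᵥ w = w := Matrix.one_mulVec w
    rw [h6] at h5
    have h7 : (c ^ r - 1) • w = 0 := by rw [sub_smul, one_smul, ← h5, sub_self]
    rcases smul_eq_zero.1 h7 with h8 | h8
    · exact sub_eq_zero.1 h8
    · exact absurd h8 hw
  have h3 := h2 v
  rw [hc, one_smul, hgv, hgv, hfv, one_smul, sl_add] at h3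
  exact ⟨f (sl N τ v), (add_left_cancel h3).symm⟩

lemma sem_one_eigen {r : ℕ} [Fact r.Prime] [CharP F r] {N : GLm m F} (hN : sem N 1 = 1)
    (hm : 1 ≤ m) {w : Fin (m + 1) → F} (hw : w ≠ 0) : ∃ c : F, N.1 *ᵥ w = c • w :=
  sem_eigen (r := r) hN hm hw

/-- if `M` and `τ` give the trivial automorphism, then `τ = 1` and `M` is a scalar -/
theorem sem_trivial {r : ℕ} [Fact r.Prime] [CharP F r] {N : GLm m F} {τ : RingAut F}
    (hN : sem N τ = 1) (hm : 1 ≤ m) :
    τ = 1 ∧ ∃ a : F, a ≠ 0 ∧ N.1 = algebraMap F (Matrix (Fin (m + 1)) (Fin (m + 1)) F) a := by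
  have hslne : ∀ v, v ≠ 0 → sl N τ v ≠ 0 := by
    intro v hv h
    rw [← sl_zero N τ] at h
    exact hv (sl_injective N τ h)
  have key : ∀ i j : Fin (m + 1), i ≠ j → ∃ a : F, a ≠ 0 ∧ sl N τ (Pi.single i 1) = a • Pi.single i 1 ∧
      sl N τ (Pi.single j 1) = a • Pi.single j 1 ∧ τ = 1 := by
    intro i j hij
    have hi0 : (Pi.single i (1 : F) : Fin (m + 1) → F) ≠ 0 := by
      intro h
      have := congrFun h i
      rw [Pi.single_eq_same] at this
      exact one_ne_zero this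
    have hj0 : (Pi.single j (1 : F) : Fin (m + 1) → F) ≠ 0 := by
      intro h
      have := congrFun h j
      rw [Pi.single_eq_same] at this
      exact one_ne_zero this
    obtain ⟨a, ha⟩ := sem_eigen (r := r) hN hm hi0
    obtain ⟨b, hb⟩ := sem_eigen (r := r) hN hm hj0
    have hc : ∀ c : F, a * c = τ c * b := by
      intro c
      have hne : (Pi.single i (1 : F) + c • Pi.single j (1 : F) : Fin (m + 1) → F) ≠ 0 := by
        intro h
        have := congrFun h i
        simp [Pi.single_eq_of_ne hij] at this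
      obtain ⟨d, hd⟩ := sem_eigen (r := r) hN hm hne
      rw [sl_add, sl_smul, ha, hb] at hd
      have h1 := congrFun hd i
      have h2 := congrFun hd j
      simp [Pi.single_eq_of_ne hij] at h1
      simp [Pi.single_eq_of_ne (Ne.symm hij)] at h2
      rw [h1, h2]
    have hab : a = b := by
      have := hc 1
      rwa [mul_one, map_one, one_mul] at this
    subst hab
    have ha0 : a ≠ 0 := by
      intro h
      rw [h, zero_smul] at ha
      exact hslne _ hi0 ha
    refine ⟨a, ha0, ha, hb, ?_⟩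
    ext c
    have h1 := hc c
    rw [mul_comm] at h1
    exact (mul_right_cancel₀ ha0 h1).symm
  obtain ⟨a, ha0, ha, -, hτ⟩ := key ⟨0, by omega⟩ ⟨1, by omega⟩ (by simp)
  refine ⟨hτ, a, ha0, ?_⟩
  refine Matrix.ext_of_mulVec_single fun i => ?_
  have hi : sl N τ (Pi.single i 1) = a • Pi.single i 1 := by
    by_cases hi : i = ⟨0, by omega⟩
    · rw [hi]; exact ha
    · obtain ⟨b, -, hb1, hb2, -⟩ := key i ⟨0, by omega⟩ hi
      have h1 : a = b := by
        rw [ha] at hb2
        have h2 := congrFun hb2 ⟨0, by omega⟩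
        simpa using h2
      rw [h1]
      exact hb1
  rw [hτ] at hi
  change N.1 *ᵥ Pi.single i 1 = a • Pi.single i 1 at hi
  rw [hi, Matrix.algebraMap_eq_diagonal]
  ext j
  rw [Matrix.mulVec_diagonal]
  rfl

/-- **Faithfulness.** -/
theorem wg_faithful {r : ℕ} [Fact r.Prime] [CharP F r] {p : ℕ} (hp0 : (p : F) ≠ 0)
    {U : Submodule F (Fin (m + 1) → F)} (hU : U ≠ ⊥) (hU' : U ≠ ⊤) {M : GLm m F} {τ : RingAut F}
    (hst : ∀ u ∈ U, sl M τ u ∈ U) (hfix : ∀ g ∈ Wg U, sem M τ (pr m F g) = pr m F g)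
    (hp : sem M τ ^ p = 1) : sem M τ = 1 := by
  obtain ⟨u₀, hu₀, hu₀0⟩ := (Submodule.ne_bot_iff _).1 hU
  obtain ⟨v₀, hv₀⟩ : ∃ v, v ∉ U := by
    by_contra hcon
    push Not at hcon
    exact hU' (Submodule.eq_top_iff'.2 hcon)
  have hm : 1 ≤ m := by
    by_contra h0
    have h0' : m = 0 := by omega
    subst h0'
    have hs : Subsingleton (Fin (0 + 1)) := by rw [zero_add]; infer_instance
    refine hU' ?_
    refine Submodule.eq_top_iff'.2 fun v => ?_
    have h1 : u₀ 0 ≠ 0 := by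
      intro h
      refine hu₀0 ?_
      ext i
      rw [Subsingleton.elim i 0, h]
      rfl
    have h2 : v = (v 0 * (u₀ 0)⁻¹) • u₀ := by
      ext i
      have h3 : i = 0 := Subsingleton.elim i 0
      subst h3
      simp [h1]
    rw [h2]
    exact U.smul_mem _ hu₀
  have hslne : ∀ v, v ≠ 0 → sl M τ v ≠ 0 := by
    intro v hv h
    rw [← sl_zero M τ] at h
    exact hv (sl_injective M τ h)
  have hcomm : ∀ g ∈ Wg U, ∀ v, g.1 *ᵥ sl M τ v = sl M τ (g.1 *ᵥ v) := by
    intro g hg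
    obtain ⟨c, -, -, h2⟩ := rel_of_fix (hfix g hg)
    have h3 := h2 u₀
    rw [hg.2 _ hu₀, hg.2 _ (hst _ hu₀)] at h3
    have h4 : (c - 1) • sl M τ u₀ = 0 := by rw [sub_smul, one_smul, h3, sub_self]
    have h5 : c = 1 := by
      rcases smul_eq_zero.1 h4 with h | h
      · exact sub_eq_zero.1 h
      · exact absurd h (hslne _ hu₀0)
    intro v
    have := h2 v
    rwa [h5, one_smul] at this
  have hrel : ∀ f : (Fin (m + 1) → F) →ₗ[F] F, U ≤ LinearMap.ker f → ∀ u ∈ U, ∀ v,
      f (sl M τ v) • u = τ (f v) • sl M τ u := by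
    intro f hf u hu v
    obtain ⟨g, hg, hgv⟩ := exists_trans hu f hf
    have h1 := hcomm g hg v
    rw [hgv, hgv, sl_add, sl_smul] at h1
    exact add_left_cancel h1
  obtain ⟨f₀, hf₀, hf₀v⟩ := exists_functional hv₀
  set a := f₀ (sl M τ v₀) with ha
  have hua : ∀ u ∈ U, sl M τ u = a • u := by
    intro u hu
    have h1 := hrel f₀ hf₀ u hu v₀
    rw [hf₀v, map_one, one_smul] at h1
    exact h1.symm
  have ha0 : a ≠ 0 := by
    intro h
    have h1 := hua u₀ hu₀
    rw [h, zero_smul] at h1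
    exact hslne _ hu₀0 h1
  have hτ : τ = 1 := by
    ext c
    have h1 := hua (c • u₀) (U.smul_mem c hu₀)
    rw [sl_smul, hua _ hu₀, smul_smul, smul_smul] at h1
    have h2 : (τ c * a - a * c) • u₀ = 0 := by rw [sub_smul, h1, sub_self]
    rcases smul_eq_zero.1 h2 with h | h
    · have h3 : τ c * a = c * a := by rw [sub_eq_zero.1 h, mul_comm]
      exact mul_right_cancel₀ ha0 h3
    · exact absurd h hu₀0
  subst hτ
  have hsl : ∀ v, sl M 1 v = M.1 *ᵥ v := fun v => rfl
  have hMU : ∀ v, M.1 *ᵥ v - a • v ∈ U := by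
    intro v
    by_contra hcon
    obtain ⟨f, hf, hfv⟩ := exists_functional hcon
    have h1 := hrel f hf u₀ hu₀ v
    rw [hua _ hu₀, smul_smul, hsl] at h1
    have h2 : (f (M.1 *ᵥ v) - f v * a) • u₀ = 0 := by
      rw [sub_smul, h1]
      exact sub_self _
    rcases smul_eq_zero.1 h2 with h | h
    · rw [map_sub, map_smul, smul_eq_mul, mul_comm, h] at hfv
      exact zero_ne_one hfv
    · exact hu₀0 h
  have hpow : ∀ k : ℕ, ∀ v, (M ^ k).1 *ᵥ v = a ^ k • v + (k * a ^ (k - 1) : F) • (M.1 *ᵥ v - a • v) := by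
    intro k
    induction k with
    | zero =>
      intro v
      rw [pow_zero, pow_zero, Nat.cast_zero, zero_mul, zero_smul, add_zero, one_smul]
      exact Matrix.one_mulVec v
    | succ k ih =>
      intro v
      have e1 : (M ^ (k + 1)).1 = (M ^ k).1 * M.1 := by rw [pow_succ]; rfl
      have e2 : M.1 *ᵥ (M.1 *ᵥ v) - a • (M.1 *ᵥ v) = a • (M.1 *ᵥ v - a • v) := by
        have h3 : M.1 *ᵥ (M.1 *ᵥ v - a • v) = a • (M.1 *ᵥ v - a • v) := by
          rw [← hsl]
          exact hua _ (hMU v)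
        rwa [Matrix.mulVec_sub, Matrix.mulVec_smul] at h3
      rw [e1, ← Matrix.mulVec_mulVec, ih (M.1 *ᵥ v), e2]
      have e3 : M.1 *ᵥ v = a • v + (M.1 *ᵥ v - a • v) := by abel
      have e4 : a ^ k • (M.1 *ᵥ v) = a ^ (k + 1) • v + a ^ k • (M.1 *ᵥ v - a • v) := by
        conv_lhs => rw [e3]
        rw [smul_add, smul_smul, ← pow_succ]
      rw [e4, smul_smul, add_assoc, ← add_smul]
      congr 2
      rw [Nat.add_sub_cancel, Nat.cast_succ]
      rcases Nat.eq_zero_or_pos k with hk | hk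
      · subst hk
        simp
      · have h5 : a ^ k = a ^ (k - 1) * a := by rw [← pow_succ, Nat.sub_add_cancel hk]
        rw [add_mul, one_mul, mul_assoc, ← h5]
        ring
  have hNp : sem (M ^ p) 1 = 1 := by rw [← sem_one_pow, hp]
  have hw : ∀ v, M.1 *ᵥ v = a • v := by
    intro v
    by_cases hv : v ∈ U
    · rw [← hsl]
      exact hua v hv
    · have hv0 : v ≠ 0 := fun h => hv (h ▸ U.zero_mem)
      obtain ⟨c, hc⟩ := sem_one_eigen (r := r) hNp hm hv0
      rw [hpow] at hc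
      have h1 : (c - a ^ p) • v ∈ U := by
        rw [sub_smul, ← hc, add_sub_cancel_left]
        exact U.smul_mem _ (hMU v)
      have h2 : c = a ^ p := by
        by_contra hne
        refine hv ?_
        have h3 := U.smul_mem (c - a ^ p)⁻¹ h1
        rwa [smul_smul, inv_mul_cancel₀ (sub_ne_zero.2 hne), one_smul] at h3
      rw [h2] at hc
      have h4 : ((p : F) * a ^ (p - 1)) • (M.1 *ᵥ v - a • v) = 0 :=
        add_left_cancel (hc.trans (add_zero _).symm)
      rcases smul_eq_zero.1 h4 with h | h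
      · exact absurd h (mul_ne_zero hp0 (pow_ne_zero _ ha0))
      · exact sub_eq_zero.1 h
  refine sem_scalar (c := a) ?_
  refine Matrix.ext_of_mulVec_single fun i => ?_
  rw [hw, Matrix.algebraMap_eq_diagonal]
  ext j
  rw [Matrix.mulVec_diagonal]
  rfl

end

end Vale.Agent.P240.R2.H487
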