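import Vale.Agent.P240.R2.H487.LDefs
import Vale.Agent.P240.R2.H487.LP2

/-!
Semilinear automorphisms of `PSL_n(F)` commuting with an element `t` leave the largest eigenspace of
`t` invariant.
-/

namespace Vale.Agent.P240.R2.H487

open Matrix Vale.Agent.P240.K Vale.Agent.P240.H195

section
variable {F : Type*} [Field F] {m : ℕ}

lemma sl_surj_on [Finite F] {U : Submodule F (Fin (m + 1) → F)} {M : GLm m F} {τ : RingAut F}
    (hst : ∀ u ∈ U, sl M τ u ∈ U) : ∀ u ∈ U, ∃ u' ∈ U, sl M τ u' = u := by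
  intro u hu
  let φ : U → U := fun x => ⟨sl M τ x.1, hst _ x.2⟩
  have hinj : Function.Injective φ := by
    intro x y hxy
    exact Subtype.ext (sl_injective M τ (congrArg Subtype.val hxy))
  obtain ⟨u', h⟩ := (Finite.injective_iff_surjective.1 hinj) ⟨u, hu⟩
  exact ⟨u'.1, u'.2, congrArg Subtype.val h⟩

lemma wg_inv [Finite F] {U : Submodule F (Fin (m + 1) → F)} {M : GLm m F} {τ : RingAut F}
    (hst : ∀ u ∈ U, sl M τ u ∈ U) {g : SLm m F} (hg : g ∈ Wg U) : actf M τ g ∈ Wg U := by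
  refine ⟨fun v => ?_, fun u hu => ?_⟩
  · obtain ⟨v', rfl⟩ := (sl_bijective M τ).2 v
    rw [actf_sl, ← sl_sub]
    exact hst _ (hg.1 _)
  · obtain ⟨u', hu', rfl⟩ := sl_surj_on hst u hu
    rw [actf_sl, hg.2 _ hu']

lemma exists_char (F : Type*) [Field F] [Finite F] : ∃ r : ℕ, ∃ _ : Fact r.Prime, CharP F r := by
  obtain ⟨r, hr⟩ := CharP.exists F
  exact ⟨r, ⟨(CharP.char_is_prime_or_zero F r).resolve_right (CharP.char_ne_zero_of_finite F r)⟩, hr⟩

/-- **The subgroup given by a subspace.** -/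
theorem wg_core [Finite F] {p : ℕ} (hp : p.Prime) (hp0 : (p : F) ≠ 0)
    {U : Submodule F (Fin (m + 1) → F)} (hU : U ≠ ⊥) (hU' : U ≠ ⊤) :
    ∃ W : Subgroup (PL m F), Group.IsSolvable W ∧ ¬ p ∣ Nat.card W ∧
      ∀ (M : GLm m F) (τ : RingAut F), (∀ u ∈ U, sl M τ u ∈ U) →
        (∀ w ∈ W, sem M τ w ∈ W) ∧
          (sem M τ ^ p = 1 → (∀ w ∈ W, sem M τ w = w) → sem M τ = 1) := by
  obtain ⟨r, hrp, hr⟩ := exists_char F
  refine ⟨(Wg U).map (pr m F), ?_, ?_, fun M τ hst => ⟨?_, fun h1 h2 => ?_⟩⟩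
  · refine Group.isSolvable_of_comm ?_
    rintro ⟨_, a, ha, rfl⟩ ⟨_, b, hb, rfl⟩
    refine Subtype.ext ?_
    change pr m F a * pr m F b = pr m F b * pr m F a
    rw [← map_mul, Wg_comm ha hb, map_mul]
  · have h1 : IsPGroup r ((Wg U).map (pr m F)) := by
      rintro ⟨_, a, ha, rfl⟩
      refine ⟨1, Subtype.ext ?_⟩
      change (pr m F a) ^ r ^ 1 = 1
      rw [pow_one, ← map_pow, Wg_pow_char ha, map_one]
    obtain ⟨k, hk⟩ := IsPGroup.iff_card.1 h1
    rw [hk]
    intro hdvd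
    have h2 := (Nat.prime_dvd_prime_iff_eq hp hrp.out).1 (hp.dvd_of_dvd_pow hdvd)
    exact hp0 (by rw [h2]; exact CharP.cast_eq_zero F r)
  · rintro _ ⟨a, ha, rfl⟩
    exact ⟨actf M τ a, wg_inv hst ha, rfl⟩
  · exact wg_faithful (r := r) hp0 hU hU' hst (fun g hg => h2 _ ⟨g, hg, rfl⟩) h1

/-- the eigenspaces -/
def Eg (t : SLm m F) (b : F) : Submodule F (Fin (m + 1) → F) where
  carrier := {v | t.1 *ᵥ v = b • v}
  zero_mem' := by
    change t.1 *ᵥ 0 = b • (0 : Fin (m + 1) → F)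
    rw [Matrix.mulVec_zero, smul_zero]
  add_mem' := by
    intro v w hv hw
    change t.1 *ᵥ (v + w) = b • (v + w)
    rw [Matrix.mulVec_add, hv, hw, smul_add]
  smul_mem' := by
    intro c v hv
    change t.1 *ᵥ (c • v) = b • (c • v)
    rw [Matrix.mulVec_smul, hv, smul_comm]

lemma mem_Eg {t : SLm m F} {b : F} {v : Fin (m + 1) → F} : v ∈ Eg t b ↔ t.1 *ᵥ v = b • v := Iff.rfl

lemma sl_Eg {M : GLm m F} {τ : RingAut F} {t : SLm m F}
    (hfix : sem M τ (pr m F t) = pr m F t) : ∃ c : F, c ^ (m + 1) = 1 ∧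
      ∀ b, ∀ v ∈ Eg t b, sl M τ v ∈ Eg t (c * τ b) := by
  obtain ⟨c, hc, -, h2⟩ := rel_of_fix hfix
  have hc0 : c ≠ 0 := by
    rintro rfl
    rw [zero_pow (by omega)] at hc
    exact zero_ne_one hc
  refine ⟨c⁻¹, by rw [inv_pow, hc, inv_one], fun b v hv => ?_⟩
  rw [mem_Eg] at hv ⊢
  have h3 := h2 v
  rw [hv, sl_smul] at h3
  rw [mul_smul, ← h3, smul_smul, inv_mul_cancel₀ hc0, one_smul]

/-- the largest eigenspace is stable -/
lemma stable_of_card [Finite F] {M : GLm m F} {τ : RingAut F} {t : SLm m F}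
    (hfix : sem M τ (pr m F t) = pr m F t) {b : F}
    (hb : ∀ c, c ≠ b → Nat.card (Eg t c) < Nat.card (Eg t b)) :
    ∀ u ∈ Eg t b, sl M τ u ∈ Eg t b := by
  obtain ⟨c, -, hc⟩ := sl_Eg hfix
  have h1 := hc b
  have h2 : c * τ b = b := by
    by_contra hne
    have h3 := hb _ hne
    have h4 : Nat.card (Eg t b) ≤ Nat.card (Eg t (c * τ b)) := by
      refine Nat.card_le_card_of_injective (fun x : Eg t b => (⟨sl M τ x.1, h1 _ x.2⟩ :
        Eg t (c * τ b))) ?_
      intro x y hxy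
      exact Subtype.ext (sl_injective M τ (congrArg Subtype.val hxy))
    omega
  rwa [h2] at h1

end

section
open Subgroup
variable {F : Type*} [Field F] [Finite F] {m : ℕ} {G : Type*} [Group G]

/-- `LocSub` for subgroups isomorphic to `PSL_n(F)` -/
theorem locSub_of {p : ℕ} (hp : p.Prime) (hp0 : (p : F) ≠ 0) {L : Subgroup G} (e : PL m F ≃* L)
    {t : SLm m F} (ht : pr m F t ^ p = 1) (ht1 : pr m F t ≠ 1) {b : F} (hb0 : Eg t b ≠ ⊥)
    (hst : ∀ (M : GLm m F) (τ : RingAut F), sem M τ ^ p = 1 → sem M τ (pr m F t) = pr m F t →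
      ∀ u ∈ Eg t b, sl M τ u ∈ Eg t b)
    (hlin : ∀ x ∈ normalizer (L : Set G), x ^ p ∈ centralizer (L : Set G) →
      ∃ (M : GLm m F) (τ : RingAut F), ∀ y : PL m F, x * (e y : G) * x⁻¹ = e (sem M τ y)) :
    LocSub p L := by
  have hb1 : Eg t b ≠ ⊤ := by
    intro h
    refine ht1 ?_
    have h1 : t.1 = algebraMap F (Matrix (Fin (m + 1)) (Fin (m + 1)) F) b := by
      refine Matrix.ext_of_mulVec_single fun i => ?_
      have h2 : (Pi.single i (1 : F) : Fin (m + 1) → F) ∈ Eg t b := by rw [h]; trivial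
      rw [mem_Eg] at h2
      rw [h2, Matrix.algebraMap_eq_diagonal]
      ext j
      rw [Matrix.mulVec_diagonal]
      rfl
    have h3 : t ∈ center (SLm m F) := by
      rw [Subgroup.mem_center_iff]
      intro g
      apply Subtype.ext
      change g.1 * t.1 = t.1 * g.1
      rw [h1, Algebra.commutes]
    exact (QuotientGroup.eq_one_iff t).2 h3
  obtain ⟨W, hW1, hW2, hW3⟩ := wg_core hp hp0 hb0 hb1
  refine ⟨zpowers (e (pr m F t) : G), ?_, ⟨?_, ?_, ?_⟩, fun E hEN hE hAE => ?_⟩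
  · rw [zpowers_le]
    exact (e (pr m F t)).2
  · rw [Ne, zpowers_eq_bot]
    intro h
    refine ht1 (e.injective (Subtype.ext ?_))
    rw [h, map_one]
    rfl
  · rintro _ ⟨i, rfl⟩ _ ⟨j, rfl⟩
    change (_ : G) ^ i * _ ^ j = _ ^ j * _ ^ i
    rw [← zpow_add, ← zpow_add, add_comm i j]
  · rintro _ ⟨i, rfl⟩
    change ((e (pr m F t) : G) ^ i) ^ p = 1
    have h1 : (e (pr m F t) : G) ^ p = 1 := by
      rw [← Subgroup.coe_pow, ← map_pow, ht, map_one]
      rfl
    rw [← zpow_natCast, ← zpow_mul, mul_comm, zpow_mul, zpow_natCast, h1, one_zpow]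
  · have hte : (e (pr m F t) : G) ∈ E := hAE (mem_zpowers _)
    have key : ∀ x ∈ E, ∃ (M : GLm m F) (τ : RingAut F),
        (∀ y : PL m F, x * (e y : G) * x⁻¹ = e (sem M τ y)) ∧ sem M τ ^ p = 1 ∧
          ∀ u ∈ Eg t b, sl M τ u ∈ Eg t b := by
      intro x hx
      obtain ⟨M, τ, h1⟩ := hlin x (hEN hx) (by rw [hE.2.2 x hx]; exact one_mem _)
      have h2 : ∀ k : ℕ, ∀ y : PL m F, x ^ k * (e y : G) * (x ^ k)⁻¹ = e ((sem M τ ^ k) y) := by
        intro k
        induction k with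
        | zero => intro y; simp
        | succ k ih =>
          intro y
          have e1 : (sem M τ ^ (k + 1)) y = (sem M τ ^ k) (sem M τ y) := by
            rw [pow_succ]; rfl
          rw [e1, ← ih, ← h1, pow_succ]
          group
      have h3 : sem M τ ^ p = 1 := by
        ext1 y
        have h4 := h2 p y
        rw [hE.2.2 x hx, one_mul, inv_one, mul_one] at h4
        exact (e.injective (Subtype.ext h4)).symm
      refine ⟨M, τ, h1, h3, hst M τ h3 ?_⟩
      refine e.injective (Subtype.ext ?_)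
      rw [← h1, hE.2.1 x hx _ hte, mul_inv_cancel_right]
    refine ⟨W.map (L.subtype.comp e.toMonoidHom), ?_, ?_, ?_, ?_, ?_⟩
    · rintro _ ⟨w, -, rfl⟩
      exact (e w).2
    · have h1 : Function.Surjective ((L.subtype.comp e.toMonoidHom).subgroupMap W) :=
        MonoidHom.subgroupMap_surjective _ _
      exact Group.isSolvable_of_surjective h1
    · intro h
      refine hW2 ?_
      have h1 : Nat.card (W.map (L.subtype.comp e.toMonoidHom)) = Nat.card W :=
        Subgroup.card_map_of_injective (f := L.subtype.comp e.toMonoidHom)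
          (L.subtype_injective.comp e.injective)
      rwa [← h1]
    · rintro x hx _ ⟨w, hw, rfl⟩
      obtain ⟨M, τ, h1, -, h3⟩ := key x hx
      exact ⟨sem M τ w, (hW3 M τ h3).1 w hw, (h1 w).symm⟩
    · intro x hx hxw
      obtain ⟨M, τ, h1, h2, h3⟩ := key x hx
      have h4 : sem M τ = 1 := by
        refine (hW3 M τ h3).2 h2 fun w hw => ?_
        refine e.injective (Subtype.ext ?_)
        rw [← h1]
        have h5 := hxw (e w : G) ⟨w, hw, rfl⟩
        rw [h5, mul_inv_cancel_right]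
      rw [mem_centralizer_iff]
      intro l hl
      obtain ⟨y, hy⟩ := e.surjective ⟨l, hl⟩
      have h5 := h1 y
      rw [h4, hy] at h5
      change x * l * x⁻¹ = (e y : G) at h5
      rw [hy] at h5
      change x * l * x⁻¹ = l at h5
      calc l * x = (x * l * x⁻¹) * x := by rw [h5]
        _ = x * l := by group

end

end Vale.Agent.P240.R2.H487
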