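import Vale.Agent.P240.R2.H112.Cn
import Vale.Agent.P240.R2.H195.Not3
import Vale.Agent.P240.R2.H296.OFam2
import Vale.Agent.P240.R2.H401.D5
import Vale.Agent.P240.R2.H432.QT
import Vale.Agent.P240.R2.H487.AD
import Vale.Agent.P240.R2.H487.AM1
import Vale.Agent.P240.R2.H487.CG.B3
import Vale.Agent.P240.R2.H487.TwoM
import Vale.Agent.P240.R2.H667.Fa
import Vale.Agent.P240.R2.H715.OrI
import Vale.Agent.P240.R2.H923.PU2
import Vale.Agent.P240.R2.H945.U4F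
import Vale.Agent.P240.R2.H986.ETF

/-!
Classical groups as composition factors, for the prime `2`.
-/

set_option autoImplicit false
set_option linter.all false

namespace Vale.Agent.P240.R2.H487

open Subgroup Matrix Vale.Agent.P240.K Vale.Agent.P240.H195
open Vale.Agent.P240.R2.H63 Vale.Agent.P240.R2.H275

universe u v

/-- the alternatives of `factor_mainT` -/
def FacT (𝕜 : Type v) [Field 𝕜] (p l : ℕ) (L : Type u) [Group L] : Prop :=
  (IsSimpleGroup L → TopFac 𝕜 p L) ∨ ListedFactorP 𝕜 p l L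

/-- groups that can be eliminated, for every field `𝕜` -/
def TopR (𝕜 : Type v) [Field 𝕜] (p : ℕ) (L : Type u) [Group L] : Prop :=
  TopFac 𝕜 p L ∨ RigidLie p L ∨ (FewAut p L ∧ ∃ r : ℕ, r.Prime ∧ AutFree p r L)

lemma TopR.facT {𝕜 : Type v} [Field 𝕜] {p : ℕ} (l : ℕ) {L : Type u} [Group L]
    (h : TopR 𝕜 p L) : FacT 𝕜 p l L := by
  rcases h with h3 | h3 | ⟨h3, r, hr, h4⟩
  · exact Or.inl fun _ => h3
  · exact Or.inr (Or.inr (Or.inl (Or.inr (Or.inl h3))))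
  · exact Or.inr (Or.inr (Or.inl (Or.inr (Or.inr (Or.inr (Or.inl
      ⟨r, hr, h4, Or.inr (Or.inr (Or.inl h3))⟩))))))

/-- elimination, or an `AutFree` group for `l` or `char 𝕜` -/
theorem facT_of {𝕜 : Type v} [Field 𝕜] {p l : ℕ} (hl : l.Prime) {L : Type u} [Group L]
    {S : Set ℕ} {F : Type} [Field F] (ha : Adm 𝕜 l S F) (h1 : Nat.card F ∉ S → TopR 𝕜 p L)
    (h2 : Nat.card F ∈ S → ∃ r : ℕ, r.Prime ∧ r ≠ p ∧ (r : F) = 0 ∧ AutFree p r L) :
    FacT 𝕜 p l L := by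
  by_cases hq : Nat.card F ∈ S
  · obtain ⟨r, hr, hrp, hrF, hlie⟩ := h2 hq
    refine Or.inr (Or.inr (Or.inl (Or.inr (Or.inr (Or.inr (Or.inl ⟨r, hr, hlie, ?_⟩))))))
    rcases ha.cases hq hl hr hrF with h1 | h1
    · exact Or.inl h1
    · exact Or.inr (Or.inl ⟨hrp, h1⟩)
  · exact (h1 hq).facT l

lemma r_ne_two {F : Type*} [Field F] {r : ℕ} (h : Nat.card F % 2 = 1)
    [Finite F] (hrF : (r : F) = 0) : r ≠ 2 := by
  rintro rfl
  have : Fintype F := Fintype.ofFinite F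
  have := CG.charP_of Nat.prime_two hrF
  obtain ⟨k, -, hk⟩ := FiniteField.card F 2
  rw [← Nat.card_eq_fintype_card] at hk
  have h1 : 2 ∣ Nat.card F := by rw [hk]; exact dvd_pow_self 2 k.ne_zero
  omega

section
variable {L : Type u} [Group L] {F : Type} [Field F] [Finite F]

/-- symplectic groups are groups with a BN-pair -/
lemma IsPSp.isCG (h : IsPSp F L) {r : ℕ} (hrF : (r : F) = 0) : CG.IsCG r L := by
  obtain ⟨m, hm, ⟨e⟩⟩ := h
  exact ⟨2 * m, F, inferInstance, inferInstance, RingEquiv.refl F, hrF, fun _ => rfl, by omega,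
    Or.inl (by omega), ⟨e.trans (H112.pspPGJ m F)⟩⟩

/-- unitary groups are groups with a BN-pair -/
lemma PSUn.isCG {n : ℕ} (hn : 3 ≤ n) (h : PSUn n F L) {r : ℕ} (hrF : (r : F) = 0) :
    CG.IsCG r L := by
  obtain ⟨σ, h1, h2, ⟨e⟩⟩ := h
  exact ⟨n, F, inferInstance, inferInstance, σ, hrF, h1, by omega, Or.inr h2, ⟨e⟩⟩

lemma cg_finite {r : ℕ} (h : CG.IsCG r L) : Finite L := by
  obtain ⟨n, F, hF1, hF2, σ, -, -, -, -, ⟨e⟩⟩ := h
  exact Finite.of_equiv _ e.symm.toEquiv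

lemma IsPOm.finite (h : IsPOm F L) : Finite L := by
  obtain ⟨n, Q, -, -, ⟨e⟩⟩ := h
  exact Finite.of_equiv _ e.symm.toEquiv

/-- `PSp_{2m}(F)`, `m ≥ 2` -/
theorem IsPSp.topR (𝕜 : Type v) [Field 𝕜] (hs : IsSimpleGroup L) (hn : ∃ x y : L, x * y ≠ y * x)
    (h : IsPSp F L) : TopR 𝕜 2 L := by
  obtain ⟨r, hr, hrF⟩ := exists_char' F
  by_cases hr2 : r = 2
  · subst hr2
    exact Or.inr (Or.inl ((h.isCG hrF).rigidLie hr hs hn fun F _ _ σ h1 h2 h3 =>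
      H195.not_simple_three h1 h2 h3))
  · have h2 : (2 : F) ≠ 0 := fun h2 => hr2 (char_unique hr Nat.prime_two hrF (by exact_mod_cast h2))
    have hfin := cg_finite (h.isCG hrF)
    refine Or.inr (Or.inr ⟨?_, r, hr, ((h.isCG hrF).lieType hr hs hn).autFree hr Nat.prime_two
      (Ne.symm hr2)⟩)
    obtain ⟨m, hm, ⟨e⟩⟩ := h
    have hs' : IsSimpleGroup (H715.Sy F m ⧸ center (H715.Sy F m)) := e.symm.isSimpleGroup
    exact H667.Fa.fewAut_PSp_two_of h2 hm e (H112.Cn.conn_PSp h2 hm (MulEquiv.refl _) hs')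

/-- `PΩ` of quadratic forms -/
theorem IsPOm.topR (𝕜 : Type v) [Field 𝕜] (hs : IsSimpleGroup L) (hn : ∃ x y : L, x * y ≠ y * x)
    (h : IsPOm F L) (hq : Nat.card F ∉ ({3, 5, 9, 25} : Set ℕ)) : TopR 𝕜 2 L := by
  have : Fact (Nat.Prime 2) := ⟨Nat.prime_two⟩
  obtain ⟨r, hr, hrF⟩ := exists_char' F
  obtain ⟨n, Q, hn5, hQ, ⟨e⟩⟩ := h
  by_cases hr2 : r = 2
  · subst hr2
    have : CharP F 2 := CG.charP_of hr hrF
    exact Or.inr (Or.inl ((H432.Q.poq_rigid_two hn5 (by exact_mod_cast hrF) Q hQ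
      e.symm.isSimpleGroup (centreless_tr e (centreless_of_simple hs hn))).tr e.symm))
  have h2 : (2 : F) ≠ 0 := fun h2 => hr2 (char_unique hr Nat.prime_two hrF (by exact_mod_cast h2))
  obtain ⟨A, hA, hA0, ⟨f⟩⟩ := H432.Q.poq_pom h2 Q hQ
  simp only [Set.mem_insert_iff, Set.mem_singleton_iff, not_or] at hq
  obtain ⟨h3, h5, h9, h25⟩ := hq
  exact Or.inl (OF.topFac_of H401.D.stmtD 𝕜 hn5 (card_odd hr hrF hr2) h3 h5 h9 h25 hA hA0
    (e.trans f))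

/-- data for unitary groups in odd characteristic -/
lemma PSUn.data {n : ℕ} (h : PSUn n F L) {r : ℕ} (hr : r.Prime) (hrF : (r : F) = 0) (hr2 : r ≠ 2) :
    ∃ (q : ℕ) (_ : Fintype F) (_ : StarRing F), Odd q ∧ 3 ≤ q ∧ Nat.card F = q ^ 2 ∧
      (∀ x : F, star x = x ^ q) ∧ Nonempty (L ≃* AS.PSU F n) := by
  have hft : Fintype F := Fintype.ofFinite F
  obtain ⟨σ, hσ, hne, ⟨e⟩⟩ := h
  obtain ⟨q, hK, hsq⟩ := inv_pow hσ hne
  have hoF := card_odd hr hrF hr2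
  have hqo : q % 2 = 1 := by
    rcases Nat.mod_two_eq_zero_or_one q with h0 | h0
    · rw [hK, Nat.pow_mod, h0] at hoF
      norm_num at hoF
    · exact h0
  have hq1 : q ≠ 1 := by
    intro h1
    have h2 : 1 < Nat.card F := Finite.one_lt_card
    rw [hK, h1] at h2
    norm_num at h2
  let S : StarRing F :=
    { star := σ
      star_involutive := hσ
      star_mul := fun a b => by
        show σ (a * b) = σ b * σ a
        rw [map_mul, mul_comm]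
      star_add := fun a b => map_add σ a b }
  have hs : ∀ x : F, star x = x ^ q := hsq
  have hK' : Fintype.card F = q ^ 2 := by rw [← Nat.card_eq_fintype_card]; exact hK
  obtain ⟨e'⟩ := H613.I1.psu_equiv (K := F) (n := n) hK' hs (σ := σ) (fun _ => rfl)
  exact ⟨q, hft, S, Nat.odd_iff.2 hqo, by omega, hK, hs, ⟨e.trans e'.symm⟩⟩

/-- `PSU_n(q)` in characteristic `2` -/
lemma PSUn.rigid (hs : IsSimpleGroup L) (hnab : ∃ x y : L, x * y ≠ y * x) {n : ℕ} (hn : 3 ≤ n)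
    (h : PSUn n F L) (h2 : ((2 : ℕ) : F) = 0) : RigidLie 2 L :=
  (h.isCG hn h2).rigidLie Nat.prime_two hs hnab fun F _ _ σ h1 h2 h3 =>
    H195.not_simple_three h1 h2 h3

/-- `PSU_n(q)`, `n` odd or `q` even -/
theorem IsPSU.topR (𝕜 : Type v) [Field 𝕜] (hs : IsSimpleGroup L)
    (hnab : ∃ x y : L, x * y ≠ y * x) (h : IsPSU F L)
    (hq : Nat.card F ∉ ({3, 5, 9, 25} : Set ℕ)) : TopR 𝕜 2 L := by
  have : Fact (Nat.Prime 2) := ⟨Nat.prime_two⟩
  obtain ⟨r, hr, hrF⟩ := exists_char' F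
  obtain ⟨n, hn, hodd, h⟩ := h
  by_cases hr2 : r = 2
  · subst hr2
    exact Or.inr (Or.inl (h.rigid hs hnab hn hrF))
  have h2 : (2 : F) ≠ 0 := fun h2 => hr2 (char_unique hr Nat.prime_two hrF (by exact_mod_cast h2))
  replace hodd := hodd.resolve_right h2
  left
  obtain ⟨q, hft, hstar, hqo, hq3, hK, hst, ⟨e⟩⟩ := h.data hr hrF hr2
  have hq7 : 7 ≤ q := by
    by_contra hcon
    have h3 : q = 3 ∨ q = 5 := by
      obtain ⟨k, rfl⟩ := hqo
      omega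
    apply hq
    rcases h3 with h3 | h3 <;> rw [hK, h3] <;> simp
  have hgcd : 2 * n.gcd (q + 1) ∣ q + 1 := by
    have hqo' := Nat.odd_iff.1 hqo
    refine Nat.Coprime.mul_dvd_of_dvd_of_dvd ?_ (by omega) (Nat.gcd_dvd_right _ _)
    rw [Nat.coprime_two_left]
    have h1 : n.gcd (q + 1) ∣ n := Nat.gcd_dvd_left _ _
    obtain ⟨c, hc⟩ := h1
    by_contra hcon
    rw [Nat.not_odd_iff_even] at hcon
    obtain ⟨d, hd⟩ := hcon
    have : 2 ∣ n := by rw [hc, hd]; exact ⟨d * c, by ring⟩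
    omega
  intro G' _ _ M ⟨f⟩
  exact H387.locTopF_PSU7 (p := 2) 𝕜 hn (by omega) hK hst hgcd (by omega)
    (fun _ => ⟨Nat.odd_iff.2 hodd, hq7⟩) ⟨f.symm.trans e⟩

/-- `PSU_n(q)`, `n ≥ 4` even -/
theorem IsPSUe.topR (𝕜 : Type v) [Field 𝕜] (hs : IsSimpleGroup L)
    (hnab : ∃ x y : L, x * y ≠ y * x) (h : IsPSUe F L)
    (hq : Nat.card F ∉ ({9, 25, 81} : Set ℕ)) : TopR 𝕜 2 L := by
  obtain ⟨r, hr, hrF⟩ := exists_char' F
  obtain ⟨n, hn, hev, h49, h⟩ := h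
  by_cases hr2 : r = 2
  · subst hr2
    exact Or.inr (Or.inl (h.rigid hs hnab (by omega) hrF))
  left
  obtain ⟨q, hft, hstar, hqo, hq3, hK, hst, ⟨e⟩⟩ := h.data hr hrF hr2
  by_cases h7 : q = 7
  · have hn4 : n = 4 := by
      rcases h49 with h49 | h49
      · exact h49
      · exact absurd (by rw [hK, h7]; norm_num) h49
    subst hn4
    exact H945.U4.topFac_three 𝕜 ⟨hqo, hK, hst⟩ (by omega) (by omega) hs e
  have hq11 : 11 ≤ q := by
    by_contra hcon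
    have h3 : q = 3 ∨ q = 5 ∨ q = 9 := by
      obtain ⟨k, rfl⟩ := hqo
      omega
    apply hq
    rcases h3 with h3 | h3 | h3 <;> rw [hK, h3] <;> simp
  by_cases hn4 : n = 4
  · exact H923.PU.PSU2PowFac.topFac 𝕜 ⟨n, 2, q, F, inferInstance, hft, hstar, hK, hst, le_refl _,
      hn4, by omega, hqo, ⟨e⟩⟩
  · exact H986.PSUFacE.topFac 𝕜 ⟨n, q, F, inferInstance, hft, hstar, Nat.even_iff.2 hev,
      Or.inl (by omega), hqo, hq11, hK, hst, ⟨e⟩⟩

lemma small_odd {S : Set ℕ} (h : Nat.card F ∈ S) (hS : ∀ x ∈ S, x % 2 = 1) : Nat.card F % 2 = 1 :=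
  hS _ h

/-- the small fields -/
theorem PSUn.autFree (hs : IsSimpleGroup L) (hn : ∃ x y : L, x * y ≠ y * x) {n : ℕ}
    (hn3 : 3 ≤ n) (h : PSUn n F L) (hq : Nat.card F % 2 = 1) :
    ∃ r : ℕ, r.Prime ∧ r ≠ 2 ∧ (r : F) = 0 ∧ AutFree 2 r L := by
  obtain ⟨r, hr, hrF⟩ := exists_char' F
  have hr2 := r_ne_two hq hrF
  have hfin := cg_finite (h.isCG hn3 hrF)
  exact ⟨r, hr, hr2, hrF, ((h.isCG hn3 hrF).lieType hr hs hn).autFree hr Nat.prime_two hr2.symm⟩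

/-- the small fields -/
theorem IsPOm.autFree (hs : IsSimpleGroup L) (hn : ∃ x y : L, x * y ≠ y * x)
    (h : IsPOm F L) (hq : Nat.card F % 2 = 1) :
    ∃ r : ℕ, r.Prime ∧ r ≠ 2 ∧ (r : F) = 0 ∧ AutFree 2 r L := by
  have hfin := h.finite
  obtain ⟨r, hr, hrF⟩ := exists_char' F
  have hr2 := r_ne_two hq hrF
  obtain ⟨n, Q, hn5, hQ, ⟨e⟩⟩ := h
  have h2 : (2 : F) ≠ 0 := fun h2 => hr2 (char_unique hr Nat.prime_two hrF (by exact_mod_cast h2))
  obtain ⟨A, hA, hA0, ⟨f⟩⟩ := H432.Q.poq_pom h2 Q hQ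
  have : CharP F r := CG.charP_of hr hrF
  exact ⟨r, hr, hr2, hrF, H715.Or.autFree_O h2 hn5 hA hA0 (O := OF.OA A) (fun _ => Iff.rfl)
    (e.trans f).symm hr Nat.prime_two hr2.symm hs (centreless_of_simple hs hn)⟩

/-- unitary and orthogonal groups as composition factors -/
theorem clas_facT {𝕜 : Type v} [Field 𝕜] {l : ℕ} (hl : l.Prime) (hs : IsSimpleGroup L)
    (hn : ∃ x y : L, x * y ≠ y * x) (h : IsPSU F L ∨ IsPOm F L)
    (ha : Adm 𝕜 l {3, 5, 9, 25} F) : FacT 𝕜 2 l L := by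
  rcases h with h | h
  · refine facT_of hl ha (h.topR 𝕜 hs hn) fun hq => ?_
    obtain ⟨n, hn3, -, h⟩ := h
    exact h.autFree hs hn hn3 (small_odd hq (by simp))
  · exact facT_of hl ha (h.topR 𝕜 hs hn) fun hq => h.autFree hs hn (small_odd hq (by simp))

/-- `PSU_n(q)`, `n ≥ 4` even, as composition factors -/
theorem IsPSUe.facT {𝕜 : Type v} [Field 𝕜] {l : ℕ} (hl : l.Prime) (hs : IsSimpleGroup L)
    (hn : ∃ x y : L, x * y ≠ y * x) (h : IsPSUe F L) (ha : Adm 𝕜 l {9, 25, 81} F) :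
    FacT 𝕜 2 l L := by
  refine facT_of hl ha (h.topR 𝕜 hs hn) fun hq => ?_
  obtain ⟨n, hn6, -, -, h⟩ := h
  exact h.autFree hs hn (by omega) (small_odd hq (by simp))

end

end Vale.Agent.P240.R2.H487
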