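import Vale.Agent.P240.R2.H487.DP6
import Mathlib.NumberTheory.LegendreSymbol.QuadraticChar.Basic

/-!
The counts of elements of half tori in conjugates of `PSL_n(F)`.
-/

set_option linter.all false

namespace Vale.Agent.P240.R2.H487

open Matrix hiding single
open Subgroup Vale.Agent.P240.K Vale.Agent.P240.H195

universe u v w

section
variable {F : Type u} [Field F] [Finite F]

lemma char_ne_two (h4 : Nat.card F % 2 = 1) : ringChar F ≠ 2 := by
  have := Fintype.ofFinite F
  intro h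
  have h1 := FiniteField.even_card_of_char_two h
  rw [← Nat.card_eq_fintype_card] at h1
  omega

lemma two_ne (h4 : Nat.card F % 2 = 1) : (2 : F) ≠ 0 := Ring.two_ne_zero (char_ne_two h4)

lemma neg_one_ns (h4 : Nat.card F % 4 = 3) (x : F) : x * x ≠ -1 := by
  have := Fintype.ofFinite F
  intro h
  have h1 : IsSquare (-1 : F) := ⟨x, h.symm⟩
  rw [FiniteField.isSquare_neg_one_iff, ← Nat.card_eq_fintype_card] at h1
  exact h1 h4

lemma sq_or (h4 : Nat.card F % 4 = 3) {u : F} (hu : u ≠ 0) : ∃ t : F, t * t = u ∨ t * t = -u := by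
  have := Fintype.ofFinite F
  have h2 := char_ne_two (F := F) (by omega)
  rcases FiniteField.pow_dichotomy h2 hu with h | h
  · obtain ⟨t, ht⟩ := (FiniteField.isSquare_iff h2 hu).2 h
    exact ⟨t, Or.inl ht.symm⟩
  · have h3 : (-u) ^ (Fintype.card F / 2) = 1 := by
      rw [← Nat.card_eq_fintype_card] at h ⊢
      rw [Odd.neg_pow (Nat.odd_iff.2 (by omega)), h, neg_neg]
    obtain ⟨t, ht⟩ := (FiniteField.isSquare_iff h2 (neg_ne_zero.2 hu)).2 h3
    exact ⟨t, Or.inr ht.symm⟩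

variable {K : Type w} [Field K] [Finite K] (φ : F →+* K)

lemma sq_ext (h4 : Nat.card F % 2 = 1) (hK : Nat.card K = Nat.card F ^ 2) (x : F) :
    ∃ s : K, s * s = φ x := by
  have := Fintype.ofFinite F
  have := Fintype.ofFinite K
  by_cases hx : x = 0
  · exact ⟨0, by rw [hx, map_zero, mul_zero]⟩
  have h2 := char_ne_two (F := K) (by
    rw [hK]
    exact Nat.odd_iff.1 ((Nat.odd_iff.2 h4).pow))
  have hx' : φ x ≠ 0 := by
    rw [Ne, map_eq_zero]
    exact hx
  obtain ⟨s, hs⟩ := (FiniteField.isSquare_iff h2 hx').2 (by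
    rw [← Nat.card_eq_fintype_card, hK]
    obtain ⟨k, hk⟩ : ∃ k, Nat.card F = 2 * k + 1 := ⟨Nat.card F / 2, by omega⟩
    have h3 : Nat.card F ^ 2 / 2 = (Nat.card F - 1) * (k + 1) := by
      rw [hk]
      have h5 : (2 * k + 1) ^ 2 = 2 * ((2 * k) * (k + 1)) + 1 := by ring
      rw [h5, Nat.add_sub_cancel]
      omega
    have h5 : x ^ (Nat.card F - 1) = 1 := by
      rw [Nat.card_eq_fintype_card]
      exact FiniteField.pow_card_sub_one_eq_one x hx
    rw [h3, pow_mul, ← map_pow, h5, map_one, one_pow])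
  exact ⟨s, hs.symm⟩

end

section
variable {K : Type w} [Field K] {a : ℕ}

lemma tr_PP {ι : Type*} [Fintype ι] [DecidableEq ι] (h2 : (2 : K) ≠ 0) (i0 : K)
    (σ : ι ≃ Vv a) {b : Ww a} (hb : b ≠ 0) : (PP i0 σ b).trace = 0 := by
  obtain ⟨v, hv⟩ := exists_wf_one hb
  have h1 : PM K σ v * PP i0 σ b = s2 K 1 • (PP i0 σ b * PM K σ v) := by
    rw [PM_PP_comm, hv]
  have h3 : (PM K σ v * PP i0 σ b * PM K σ v).trace = s2 K (Qf v) * (PP i0 σ b).trace := by
    rw [Matrix.trace_mul_comm, ← Matrix.mul_assoc, PM_sq, Matrix.smul_mul, Matrix.one_mul,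
      Matrix.trace_smul, smul_eq_mul]
  rw [h1, s2_one, Matrix.smul_mul, Matrix.mul_assoc, PM_sq, Matrix.mul_smul, Matrix.mul_one,
    Matrix.trace_smul, Matrix.trace_smul, smul_eq_mul, smul_eq_mul, neg_one_mul] at h3
  have h4 : (2 : K) * (s2 K (Qf v) * (PP i0 σ b).trace) = 0 := by linear_combination -h3
  exact (mul_eq_zero.1 ((mul_eq_zero.1 h4).resolve_left h2)).resolve_left (s2_ne K _)

end

end Vale.Agent.P240.R2.H487
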