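import Vale.Agent.P240.R2.H487.LE2
import Vale.Agent.P240.H195.CFTop

/-!
The main theorem for components, with components satisfying `LocSub`.
-/

namespace Vale.Agent.P240.R2.H487

open Finsupp Subgroup Vale.Agent.P240.K Vale.Agent.P240.H195

universe u v

section
variable {G : Type u} [Group G] {p : ℕ}

/-- `LocSub` is invariant under conjugation -/
lemma LocSub.cj {L : Subgroup G} (h : LocSub p L) (g : G) : LocSub p (cj g L) := by
  obtain ⟨A, hAL, hA, hE⟩ := h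
  have hinv : ∀ x : G, g⁻¹ * (g * x * g⁻¹) * g = x := fun x => by group
  refine ⟨K.cj g A, cj_le.2 hAL, cj_mem_ApS.2 hA, fun E hEn hES hAE => ?_⟩
  have hE1 : K.cj g⁻¹ E ≤ normalizer (L : Set G) := by
    intro x hx
    rw [mem_cj, inv_inv] at hx
    have h1 : K.cj (g * x * g⁻¹) (K.cj g L) = K.cj g L := cj_eq_iff.2 (hEn hx)
    rw [← cj_eq_iff]
    have h2 : K.cj g (K.cj x L) = K.cj g L := by
      rw [← cj_mul, ← h1, ← cj_mul]
      congr 1
      group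
    exact cj_injective g h2
  obtain ⟨W, hWL, hWs, hWp, hWn, hWf⟩ := hE (K.cj g⁻¹ E) hE1 (cj_mem_ApS.2 hES) (by
    intro x hx
    rw [mem_cj, inv_inv]
    refine hAE ?_
    rw [mem_cj, hinv]
    exact hx)
  have e : W ≃* K.cj g W :=
    W.equivMapOfInjective (MulAut.conj g).toMonoidHom (MulAut.conj g).injective
  refine ⟨K.cj g W, cj_le.2 hWL, Group.isSolvable_of_surjective (f := e.toMonoidHom) e.surjective, ?_, ?_, ?_⟩
  · rwa [← Nat.card_congr e.toEquiv]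
  · intro x hx w hw
    rw [mem_cj] at hw ⊢
    have h1 := hWn (g⁻¹ * x * g) (by
      rw [mem_cj, inv_inv]
      have : g * (g⁻¹ * x * g) * g⁻¹ = x := by group
      rwa [this]) _ hw
    have h2 : g⁻¹ * x * g * (g⁻¹ * w * g) * (g⁻¹ * x * g)⁻¹ = g⁻¹ * (x * w * x⁻¹) * g := by group
    rwa [h2] at h1
  · intro x hx hxW
    have h1 := hWf (g⁻¹ * x * g) (by
      rw [mem_cj, inv_inv]
      have : g * (g⁻¹ * x * g) * g⁻¹ = x := by group
      rwa [this]) (fun w hw => by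
        have h2 := hxW (g * w * g⁻¹) (cj_mul_mem hw)
        have h3 : g⁻¹ * (x * (g * w * g⁻¹)) * g = g⁻¹ * (g * w * g⁻¹ * x) * g := by rw [h2]
        have h4 : g⁻¹ * (x * (g * w * g⁻¹)) * g = g⁻¹ * x * g * w := by group
        have h5 : g⁻¹ * (g * w * g⁻¹ * x) * g = w * (g⁻¹ * x * g) := by group
        rw [← h4, h3, h5])
    rw [mem_centralizer_iff] at h1 ⊢
    intro y hy
    have h2 := h1 (g⁻¹ * y * g) (mem_cj.1 hy)
    have h3 : g * (g⁻¹ * y * g * (g⁻¹ * x * g)) * g⁻¹ = g * (g⁻¹ * x * g * (g⁻¹ * y * g)) * g⁻¹ := by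
      rw [h2]
    have h4 : g * (g⁻¹ * y * g * (g⁻¹ * x * g)) * g⁻¹ = y * x := by group
    have h5 : g * (g⁻¹ * x * g * (g⁻¹ * y * g)) * g⁻¹ = x * y := by group
    rw [← h4, h3, h5]

lemma locSub_cj_iff {L : Subgroup G} {g : G} : LocSub p (K.cj g L) ↔ LocSub p L := by
  refine ⟨fun h => ?_, fun h => h.cj g⟩
  have h1 := h.cj g⁻¹
  rwa [cj_inv_cj] at h1

/-- removing three sets of components -/
theorem elim3 {𝕜 : Type v} [Field 𝕜] [hp : Fact p.Prime] [Finite G] {F T R D : Set (Subgroup G)}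
    (hF : Family p F) (hTF : T ⊆ F) (hRF : R ⊆ F) (hDF : D ⊆ F) (hRT : ∀ L ∈ R, L ∉ T)
    (hDT : ∀ L ∈ D, L ∉ T) (hDR : ∀ L ∈ D, L ∉ R) (hRc : ∀ g : G, ∀ L ∈ R, K.cj g L ∈ R)
    (hDc : ∀ g : G, ∀ L ∈ D, K.cj g L ∈ D) (hT : ∀ L ∈ T, Removable 𝕜 p L)
    (hR : ∀ L ∈ R, RigidLie p L) (hD : ∀ L ∈ D, LocSub p L)
    (h : NA 𝕜 (Ain p (Cen (T ∪ R ∪ D)))) : NA 𝕜 (ApS p G) := by
  refine remove hF hTF hT ?_
  refine rigid_step (R := R) (fun L hL => hF.le_Cen hTF (hRF hL) (hRT L hL)) (fun g _ => hRc g)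
    (fun L hL M hM => hF.comm L (hRF hL) M (hRF hM)) hR ?_
  rw [← Cen_union]
  refine loc_step (D := D) (fun L hL => hF.le_Cen (Set.union_subset hTF hRF) (hDF hL) ?_)
    (fun g _ => hDc g) (fun L hL M hM => hF.comm L (hDF hL) M (hDF hM))
    (fun L hL => hF.centre L (hDF hL)) hD ?_
  · rintro (h1 | h1)
    · exact hDT L hL h1
    · exact hDR L hL h1
  · rw [← Cen_union]
    exact h

end

end Vale.Agent.P240.R2.H487
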