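import Vale.Agent.P240.R2.H487.CO4
import Vale.Agent.P240.R2.H487.LE3

/-!
Elimination of families of commuting subgroups satisfying `LocTop`.
-/

set_option linter.all false

namespace Vale.Agent.P240.R2.H487

open Finsupp hiding cons
open Subgroup Vale.Agent.P240.K Vale.Agent.P240.H195

universe u v

section
variable {G : Type u} [Group G]

/-- products -/
lemma mem_sup_norm {A B : Subgroup G} (h : ∀ b ∈ B, ∀ a ∈ A, b * a * b⁻¹ ∈ A) {x : G}
    (hx : x ∈ A ⊔ B) : ∃ a ∈ A, ∃ b ∈ B, a * b = x := by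
  let C : Subgroup G :=
    { carrier := {x | ∃ a ∈ A, ∃ b ∈ B, a * b = x}
      one_mem' := ⟨1, one_mem _, 1, one_mem _, mul_one 1⟩
      mul_mem' := by
        rintro _ _ ⟨a, ha, b, hb, rfl⟩ ⟨a', ha', b', hb', rfl⟩
        exact ⟨a * (b * a' * b⁻¹), mul_mem ha (h b hb a' ha'), b * b', mul_mem hb hb', by group⟩
      inv_mem' := by
        rintro _ ⟨a, ha, b, hb, rfl⟩
        refine ⟨b⁻¹ * a⁻¹ * b, ?_, b⁻¹, inv_mem hb, by group⟩
        have h1 := h b⁻¹ (inv_mem hb) a⁻¹ (inv_mem ha)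
        rwa [inv_inv] at h1 }
  have h1 : A ⊔ B ≤ C := sup_le (fun a ha => ⟨a, ha, 1, one_mem _, mul_one a⟩)
    fun b hb => ⟨1, one_mem _, b, hb, one_mul b⟩
  exact h1 hx

/-- the modular law -/
lemma inf_sup_cen {L E B : Subgroup G} (hBE : B ≤ E) (hEN : E ≤ normalizer (L : Set G))
    (hC : E ⊓ centralizer (L : Set G) ≤ B) : E ⊓ (centralizer (L : Set G) ⊔ B) ≤ B := by
  intro x hx
  obtain ⟨hxE, hx⟩ := mem_inf.1 hx
  obtain ⟨c, hc, b, hb, rfl⟩ := mem_sup_norm (fun b hb c hc => by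
    rw [mem_centralizer_iff] at hc ⊢
    intro l hl
    have hbN := hEN (hBE hb)
    have h1 : b⁻¹ * l * b ∈ L := by
      have h2 := (mem_normalizer_iff.1 hbN (b⁻¹ * l * b)).2
      apply h2
      have h3 : b * (b⁻¹ * l * b) * b⁻¹ = l := by group
      rwa [h3]
    have h4 := hc _ h1
    calc l * (b * c * b⁻¹) = b * ((b⁻¹ * l * b) * c) * b⁻¹ := by group
      _ = b * (c * (b⁻¹ * l * b)) * b⁻¹ := by rw [h4]
      _ = b * c * b⁻¹ * l := by group) hx
  refine mul_mem (hC (mem_inf.2 ⟨?_, hc⟩)) hb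
  have h1 := mul_mem hxE (inv_mem (hBE hb))
  rwa [mul_inv_cancel_right] at h1

end

section
variable {𝕜 : Type v} [Field 𝕜] {G : Type u} [Group G] {p : ℕ}

/-- **Top cycles** for commuting subgroups satisfying `LocTop`. -/
theorem fam_top [hp : Fact p.Prime] [Finite G] {D : Set (Subgroup G)}
    (hcomm : ∀ L ∈ D, ∀ M ∈ D, L ≠ M → ∀ x ∈ L, ∀ y ∈ M, x * y = y * x)
    {A : Subgroup G → Subgroup G} (hAL : ∀ L ∈ D, A L ≤ L) (hAS : ∀ L ∈ D, A L ∈ ApS p G)
    (hA : ∀ L ∈ D, ∀ E ∈ ApS p G, E ≤ normalizer (L : Set G) → ∀ E₁ ≤ E, A L ≤ E₁ →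
      E₁ ⊓ centralizer (L : Set G) = ⊥ → ∃ B ≤ E, E₁ ⊔ B = E ∧ E₁ ⊓ B = ⊥ ∧
        E ⊓ centralizer (L : Set G) ≤ B ∧ ∃ (α : Ch 𝕜 (Subgroup G)) (φ : List (Subgroup G)),
          TopCycle 𝕜 p ((L ⊔ E₁) ⊓ centralizer (B : Set G)) E₁ α φ) :
    ∀ E ∈ ApB p G, (∀ L ∈ D, E ≤ normalizer (L : Set G)) → (∀ L ∈ D, A L ≤ E) →
      E ⊓ Cen D = ⊥ → ∃ (α : Ch 𝕜 (Subgroup G)) (φ : List (Subgroup G)),
        TopCycle 𝕜 p ((⨆ L ∈ D, L) ⊔ E) E α φ := by
  have key : ∀ s : Set (Subgroup G), s.Finite → s ⊆ D → ∀ E ∈ ApB p G,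
      (∀ L ∈ s, E ≤ normalizer (L : Set G)) → (∀ L ∈ s, A L ≤ E) →
      E ⊓ Cen s = ⊥ → ∃ (α : Ch 𝕜 (Subgroup G)) (φ : List (Subgroup G)),
        TopCycle 𝕜 p ((⨆ L ∈ s, L) ⊔ E) E α φ := by
    intro s hs'
    induction s, hs' using Set.Finite.induction_on with
    | empty =>
      intro _ E _ _ _ hE
      rw [Cen_empty, inf_top_eq] at hE
      subst hE
      exact ⟨single [] 1, [], single_mem_Sp ⟨⟨List.Pairwise.nil, by simp⟩, rfl⟩ _, by simp,
        by simp, Or.inl ⟨rfl, rfl⟩, by simp⟩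
    | @insert L s hL _ ih =>
      intro hsD E hEB hEN hAE hEC
      have hLD := hsD (Set.mem_insert L s)
      have hsD' : s ⊆ D := fun M hM => hsD (Set.mem_insert_of_mem L hM)
      have hAL' := hAE L (Set.mem_insert L s)
      have hE : E ∈ ApS p G := by
        rcases hEB with h0 | h0
        · exfalso
          rw [h0, le_bot_iff] at hAL'
          exact (hAS L hLD).1 hAL'
        · exact h0
      have hne : ∀ M ∈ s, M ≠ L := fun M hM h0 => hL (h0 ▸ hM)
      have hALs : A L ≤ Cen s := by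
        intro x hx
        rw [mem_Cen]
        intro M hM
        rw [mem_centralizer_iff]
        intro y hy
        exact hcomm M (hsD' hM) L hLD (hne M hM) y hy x (hAL L hLD hx)
      have hENL := hEN L (Set.mem_insert L s)
      obtain ⟨B, hBE, hB1, hB2, hB3, α₁, φ₁, hT₁⟩ := hA L hLD E hE hENL (E ⊓ Cen s) inf_le_left
        (le_inf hAL' hALs) (by rw [inf_assoc, ← Cen_insert, hEC])
      have hBB : B ∈ ApB p G := by
        by_cases h0 : B = ⊥
        · exact Or.inl h0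
        · exact Or.inr (mem_ApS_of_le hE hBE h0)
      obtain ⟨α₂, φ₂, hT₂⟩ := ih hsD' B hBB
        (fun M hM => hBE.trans (hEN M (Set.mem_insert_of_mem L hM))) (fun M hM => by
          refine le_trans (le_inf (hAE M (Set.mem_insert_of_mem L hM)) fun x hx => ?_) hB3
          rw [mem_centralizer_iff]
          intro y hy
          exact (hcomm M (hsD' hM) L hLD (hne M hM) x (hAL M (hsD' hM) hx) y hy).symm) (by
          rw [← hB2]
          refine le_antisymm (fun x hx => ?_) fun x hx => ?_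
          · exact mem_inf.2 ⟨mem_inf.2 ⟨hBE hx.1, hx.2⟩, hx.1⟩
          · exact mem_inf.2 ⟨hx.2, hx.1.2⟩)
      have hLs : ∀ x ∈ L ⊔ (E ⊓ Cen s), ∀ y ∈ ⨆ M ∈ s, M, x * y = y * x := by
        intro x hx y hy
        have h1 : ⨆ M ∈ s, M ≤ centralizer ((L ⊔ (E ⊓ Cen s) : Subgroup G) : Set G) := by
          refine iSup₂_le fun M hM => ?_
          rw [le_centralizer_iff]
          refine sup_le (fun z hz => ?_) fun z hz => mem_Cen.1 hz.2 M hM
          rw [mem_centralizer_iff]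
          exact fun w hw => hcomm M (hsD' hM) L hLD (hne M hM) w hw z hz
        exact (mem_centralizer_iff.1 (h1 hy)) x hx
      obtain ⟨α, φ, hT⟩ := topCycle_join hT₁ hT₂ (fun x hx y hy => by
        have h1 : (⨆ M ∈ s, M) ⊔ B ≤ centralizer {x} := by
          refine sup_le (fun z hz => ?_) fun z hz => ?_
          · rw [mem_centralizer_singleton_iff]
            exact (hLs x hx.1 z hz).symm
          · rw [mem_centralizer_singleton_iff]
            exact (mem_centralizer_iff.1 hx.2) z hz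
        exact (mem_centralizer_singleton_iff.1 (h1 hy)).symm) (by
        rw [eq_bot_iff, ← hB2]
        refine le_inf inf_le_left ?_
        have h1 : (⨆ M ∈ s, M) ⊔ B ≤ centralizer (L : Set G) ⊔ B := by
          refine sup_le_sup_right (iSup₂_le fun M hM x hx => ?_) B
          rw [mem_centralizer_iff]
          intro y hy
          exact (hcomm M (hsD' hM) L hLD (hne M hM) x hx y hy).symm
        exact (inf_le_inf inf_le_left h1).trans (inf_sup_cen hBE hENL hB3))
      rw [hB1] at hT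
      refine ⟨α, φ, r5_mono ?_ hT⟩
      rw [iSup_insert]
      refine sup_le (inf_le_left.trans (sup_le (le_sup_left.trans le_sup_left)
        (inf_le_left.trans le_sup_right))) (sup_le (le_sup_right.trans le_sup_left)
        (hBE.trans le_sup_right))
  exact key D (Set.toFinite D) subset_rfl

/-- **Elimination** of a set `D` of commuting subgroups of `X` satisfying `LocTop`. -/
theorem top_step [hp : Fact p.Prime] [Finite G] {X : Subgroup G} {D : Set (Subgroup G)}
    (hDX : ∀ L ∈ D, L ≤ X) (hconj : ∀ g ∈ X, ∀ L ∈ D, K.cj g L ∈ D)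
    (hcomm : ∀ L ∈ D, ∀ M ∈ D, L ≠ M → ∀ x ∈ L, ∀ y ∈ M, x * y = y * x)
    (hc : ∀ L ∈ D, L ⊓ centralizer (L : Set G) = ⊥) (hloc : ∀ L ∈ D, LocTop 𝕜 p L)
    (hC : NA 𝕜 (Ain p (X ⊓ Cen D))) : NA 𝕜 (Ain p X) := by
  choose! A hAL hAE hAW using hloc
  have hAD : ⨆ L ∈ D, A L ≤ ⨆ L ∈ D, L := iSup₂_mono fun L hL => hAL L hL
  have hDX' : ⨆ L ∈ D, L ≤ X := iSup₂_le hDX
  have hcen : ∀ x ∈ ⨆ L ∈ D, L, ∀ y ∈ Cen D, x * y = y * x := by
    intro x hx y hy
    have h1 : ⨆ L ∈ D, L ≤ centralizer {y} := by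
      refine iSup₂_le fun L hL z hz => ?_
      rw [mem_centralizer_singleton_iff]
      exact (mem_centralizer_iff.1 (mem_Cen.1 hy L hL)) z hz
    exact mem_centralizer_singleton_iff.1 (h1 hx)
  have hApB : (⨆ L ∈ D, A L) ∈ ApB p G := by
    refine fam_induction (P := fun B => B ∈ ApB p G) (Or.inl rfl) ?_ hcomm
      (fun L hL => ⟨hAL L hL, Or.inr (hAE L hL)⟩)
    intro B B' h hB hB'
    rcases hB with hB | hB
    · rwa [hB, bot_sup_eq]
    · rcases hB' with hB' | hB'
      · rw [hB', sup_bot_eq]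
        exact Or.inr hB
      · exact Or.inr (sup_mem_ApS hB hB' h)
  refine local_top (C := X ⊓ Cen D) (A := ⨆ L ∈ D, A L) inf_le_left (hAD.trans hDX') hApB ?_ ?_
    (fun E hE hEX hAE' hEC _ => ?_) hC
  · rw [eq_bot_iff]
    intro x hx
    obtain ⟨h1, h2⟩ := mem_inf.1 hx
    exact mem_bot.2 (fam_centre hcomm hc (hAD h1) fun L hL => mem_Cen.1 (mem_inf.1 h2).2 L hL)
  · intro y hy
    rw [mem_centralizer_iff]
    exact fun x hx => hcen x (hAD hx) y (mem_inf.1 hy).2
  · -- `E` normalizes the members of `D`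
    have hEn : ∀ L ∈ D, E ≤ normalizer (L : Set G) := by
      intro L hL x hx
      rw [← cj_eq_iff]
      by_contra hne
      have h1 := hconj x (hEX hx) L hL
      have hALE : A L ≤ E := (le_biSup A hL).trans hAE'
      have hEab : ∀ a ∈ E, ∀ b ∈ E, a * b = b * a := by
        rcases hE with h | h
        · intro a ha b hb
          rw [h, mem_bot] at ha hb
          rw [ha, hb]
        · exact h.2.1
      apply (hAE L hL).1
      rw [eq_bot_iff, ← hc L hL]
      intro a ha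
      refine mem_inf.2 ⟨hAL L hL ha, mem_centralizer_iff.2 fun y hy => ?_⟩
      have h2 : a ∈ K.cj x L := by
        rw [K.mem_cj]
        have : x⁻¹ * a * x = a := by
          rw [mul_assoc, hEab a (hALE ha) x hx, inv_mul_cancel_left]
        rw [this]
        exact hAL L hL ha
      exact hcomm L hL _ h1 (Ne.symm hne) y hy a h2
    have hEC' : E ⊓ Cen D = ⊥ := by
      rw [eq_bot_iff, ← hEC]
      exact fun x hx => mem_inf.2 ⟨hx.1, mem_inf.2 ⟨hEX hx.1, hx.2⟩⟩
    obtain ⟨α, φ, hT⟩ := fam_top hcomm hAL hAE hAW E hE hEn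
      (fun L hL => (le_biSup A hL).trans hAE') hEC'
    refine ⟨(⨆ L ∈ D, L) ⊔ E, α, φ, hT, sup_le hDX' hEX, fun x hx y hy => ?_⟩
    have h1 : (⨆ L ∈ D, L) ⊔ E ≤ centralizer {y} := by
      refine sup_le (fun a ha => ?_) fun a ha => ?_
      · rw [mem_centralizer_singleton_iff]
        exact hcen a ha y (mem_inf.1 (mem_inf.1 hy).1).2
      · rw [mem_centralizer_singleton_iff]
        exact (mem_centralizer_iff.1 (mem_inf.1 hy).2) a ha
    exact mem_centralizer_singleton_iff.1 (h1 hx)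

end

end Vale.Agent.P240.R2.H487
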