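import Vale.Agent.P240.R2.H487.DD2
import Vale.Agent.P240.R2.H487.CP1

/-!
Top cycles for elementary abelian groups that contain a member of a family.
-/

set_option linter.all false

namespace Vale.Agent.P240.R2.H487

open Finsupp hiding cons
open Subgroup Vale.Agent.P240.K Vale.Agent.P240.H195

universe u v

section
variable {G : Type u} [Group G]

/-- a subgroup `L` with a family of elementary abelian subgroups such that the elementary abelian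
groups containing a member of the family have top cycles, up to replacement by another such group -/
def LocTopF (𝕜 : Type v) [Field 𝕜] (p : ℕ) (L : Subgroup G) : Prop :=
  ∃ 𝒜 : Set (Subgroup G), 𝒜.Nonempty ∧ (∀ A ∈ 𝒜, A ≤ L ∧ A ∈ ApS p G) ∧
    ∀ E ∈ ApS p G, E ≤ normalizer (L : Set G) → ∀ E₁ ≤ E, (∃ A ∈ 𝒜, A ≤ E₁) →
      E₁ ⊓ centralizer (L : Set G) = ⊥ → ∃ B ≤ E, E₁ ⊔ B = E ∧ E₁ ⊓ B = ⊥ ∧
        E ⊓ centralizer (L : Set G) ≤ B ∧ ∃ E' ≤ (L ⊔ E₁) ⊓ centralizer (B : Set G),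
          E' ∈ ApS p G ∧ (∃ A ∈ 𝒜, A ≤ E') ∧ E' ⊓ (centralizer (L : Set G) ⊔ B) = ⊥ ∧
          L ⊔ E' = L ⊔ E₁ ∧ Nat.card E₁ ≤ Nat.card E' ∧
          ∃ (α : Ch 𝕜 (Subgroup G)) (φ : List (Subgroup G)),
            TopCycle 𝕜 p ((L ⊔ E₁) ⊓ centralizer (B : Set G)) E' α φ

end

/-- the corresponding property of the automorphism group, for the prime `2` -/
def AutTop (𝕜 : Type v) [Field 𝕜] (Λ : Type u) [Group Λ] : Prop :=
  ∃ 𝒜 : Set (Subgroup (MulAut Λ)), 𝒜.Nonempty ∧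
    (∀ A ∈ 𝒜, A ≤ (MulAut.conj (G := Λ)).range ∧ A ∈ ApS 2 (MulAut Λ) ∧
      ∀ x ∈ (MulAut.conj (G := Λ)).range, (∀ y ∈ A, x * y = y * x) → x ∈ A) ∧
    ∀ E : Subgroup (MulAut Λ), (∀ x ∈ E, ∀ y ∈ E, x * y = y * x) → (∀ x ∈ E, x ^ 2 = 1) →
      ∀ E₁ ≤ E, (∃ A ∈ 𝒜, A ≤ E₁) → ∃ B ≤ E, E₁ ⊔ B = E ∧ E₁ ⊓ B = ⊥ ∧
        ∃ E' ≤ ((MulAut.conj (G := Λ)).range ⊔ E₁) ⊓ centralizer (B : Set (MulAut Λ)),
          E' ∈ ApS 2 (MulAut Λ) ∧ (∃ A ∈ 𝒜, A ≤ E') ∧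
          (MulAut.conj (G := Λ)).range ⊔ E' = (MulAut.conj (G := Λ)).range ⊔ E₁ ∧
          Nat.card E₁ ≤ Nat.card E' ∧
          ∃ (α : Ch 𝕜 (Subgroup (MulAut Λ))) (φ : List (Subgroup (MulAut Λ))),
            TopCycle 𝕜 2 (((MulAut.conj (G := Λ)).range ⊔ E₁) ⊓
              centralizer (B : Set (MulAut Λ))) E' α φ

end Vale.Agent.P240.R2.H487
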