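import Vale.Agent.P240.H195.BNSplit

/-!
BN-pairs of normal subgroups containing `U`.
-/

set_option autoImplicit false
set_option linter.all false

namespace Vale.Agent.P240.R2.H487.CG

open Subgroup Vale.Agent.P240.H195

section
variable {L : Type*} [Group L] {B N U : Subgroup L} {S : Set L} {r : ℕ}

/-- the representatives in `H` of the simple reflections -/
def subS (B N : Subgroup L) (S : Set L) (H : Subgroup L) : Set ↥H :=
  {s | s.1 ∈ N ∧ ∃ a ∈ S, a⁻¹ * s.1 ∈ B}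

/-- representatives in `H` -/
lemma sub_rep_simple (h : SB r B N U S) {H : Subgroup L} [hHn : H.Normal] (hU : U ≤ H) {s : L}
    (hs : s ∈ S) : ∃ t ∈ B, t ∈ N ∧ s * t ∈ H := by
  have hsN := h.sub s hs
  obtain ⟨b, hb, hbs⟩ := h.thick s hs
  obtain ⟨u, hu, t, htB, htN, rfl⟩ := h.split b hb
  have h1 : s⁻¹ * u * s ∉ B := by
    intro h2
    apply hbs
    have : s⁻¹ * (u * t) * s = (s⁻¹ * u * s) * (s⁻¹ * t * s) := by group
    rw [this]
    exact mul_mem h2 (h.norm' hsN htB htN)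
  have h2 : s⁻¹ * u * s ∈ Par B s :=
    mul_mem (mul_mem (inv_mem self_mem_Par) (le_Par (h.le hu))) self_mem_Par
  obtain ⟨a, ha, c, hc, hac⟩ := ((h.toBN.mem_Par hs).1 h2).resolve_left h1
  obtain ⟨v, hv, t1, ht1B, ht1N, rfl⟩ := h.split a ha
  obtain ⟨v', hv', t2, ht2B, ht2N, rfl⟩ := h.split c hc
  have h3 : s⁻¹ * u * s ∈ H := by
    have := hHn.conj_mem u (hU hu) s⁻¹
    rwa [inv_inv] at this
  -- `t1 s v' t2 ∈ H`
  have h4 : t1 * s * v' * t2 ∈ H := by
    have : t1 * s * v' * t2 = v⁻¹ * (s⁻¹ * u * s) := by rw [hac]; group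
    rw [this]
    exact mul_mem (inv_mem (hU hv)) h3
  have h5 : t1 * s * t2 ∈ H := by
    have : t1 * s * t2 = (t1 * s * v' * t2) * (t2⁻¹ * v'⁻¹ * t2) := by group
    rw [this]
    refine mul_mem h4 ?_
    have := hHn.conj_mem v'⁻¹ (inv_mem (hU hv')) t2⁻¹
    rwa [inv_inv] at this
  refine ⟨(s⁻¹ * t1 * s) * t2, mul_mem (h.norm' hsN ht1B ht1N) ht2B,
    mul_mem (mul_mem (mul_mem (inv_mem hsN) ht1N) hsN) ht2N, ?_⟩
  have : s * ((s⁻¹ * t1 * s) * t2) = t1 * s * t2 := by group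
  rw [this]
  exact h5

lemma sub_rep (h : SB r B N U S) {H : Subgroup L} [hHn : H.Normal] (hU : U ≤ H) {n : L}
    (hn : n ∈ N) : ∃ t ∈ B, t ∈ N ∧ n * t ∈ H := by
  obtain ⟨k, hk⟩ := h.exists_wd hn
  clear hn
  induction hk with
  | @zero t h1 h2 => exact ⟨t⁻¹, inv_mem h1, inv_mem h2, by rw [mul_inv_cancel]; exact one_mem _⟩
  | @succ s m k hs hm ih =>
    have hmN := h.wd_mem hm
    obtain ⟨t, htB, htN, ht⟩ := ih
    obtain ⟨t', ht'B, ht'N, ht'⟩ := sub_rep_simple h hU hs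
    refine ⟨(m⁻¹ * t' * m) * t, mul_mem (h.norm' hmN ht'B ht'N) htB,
      mul_mem (mul_mem (mul_mem (inv_mem hmN) ht'N) hmN) htN, ?_⟩
    have : s * m * ((m⁻¹ * t' * m) * t) = (s * t') * (m * t) := by group
    rw [this]
    exact mul_mem ht' ht

/-- double cosets -/
lemma sub_DC (h : SB r B N U S) {H : Subgroup L} (hU : U ≤ H) {n x : ↥H} (hn : n.1 ∈ N)
    (hd : DC B n.1 x.1) : DC (B.subgroupOf H) n x := by
  obtain ⟨a, ha, b, hb, hx⟩ := hd
  obtain ⟨u, hu, t, htB, htN, rfl⟩ := h.split a ha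
  have hb' : n.1⁻¹ * t * n.1 * b ∈ B := mul_mem (h.norm' hn htB htN) hb
  have hx' : x.1 = u * n.1 * (n.1⁻¹ * t * n.1 * b) := by rw [hx]; group
  have hH : n.1⁻¹ * t * n.1 * b ∈ H := by
    have : n.1⁻¹ * t * n.1 * b = n.1⁻¹ * u⁻¹ * x.1 := by rw [hx']; group
    rw [this]
    exact mul_mem (mul_mem (inv_mem n.2) (inv_mem (hU hu))) x.2
  exact ⟨⟨u, hU hu⟩, h.le hu, ⟨_, hH⟩, hb', Subtype.ext hx'⟩

/-- **the split BN-pair of a normal subgroup containing `U`** -/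
theorem SB.subgroup [Finite L] (h : SB r B N U S) {H : Subgroup L} [hHn : H.Normal] (hU : U ≤ H) :
    SB r (B.subgroupOf H) (N.subgroupOf H) (U.subgroupOf H) (subS B N S H) where
  norm := by
    intro n hn t ht htN
    exact h.norm n.1 hn t.1 ht htN
  sub := fun s hs => hs.1
  span := by
    refine le_antisymm ?_ (sup_le ((closure_le _).2 fun s hs => hs.1) inf_le_right)
    intro n hn
    have hn' : n.1 ∈ N := hn
    obtain ⟨k, hk⟩ := h.exists_wd hn'
    have key : ∀ (k : ℕ) (n : L), Wd B N S k n → ∀ hnH : n ∈ H,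
        (⟨n, hnH⟩ : ↥H) ∈ closure (subS B N S H) ⊔ (B.subgroupOf H ⊓ N.subgroupOf H) := by
      intro k
      induction k with
      | zero =>
        intro n hw hnH
        cases hw with
        | zero h1 h2 => exact mem_sup_right ⟨h1, h2⟩
      | succ k ih =>
        intro n hw hnH
        cases hw with
        | @succ s m k hs hm =>
          have hsN := h.sub s hs
          obtain ⟨t, htB, htN, ht⟩ := sub_rep_simple h hU hs
          have h1 : Wd B N S k (t⁻¹ * m) := h.wd_left hm _ (inv_mem htB) (inv_mem htN)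
          have h2 : t⁻¹ * m ∈ H := by
            have : t⁻¹ * m = (s * t)⁻¹ * (s * m) := by group
            rw [this]
            exact mul_mem (inv_mem ht) hnH
          have h3 := ih _ h1 h2
          have h4 : (⟨s * t, ht⟩ : ↥H) ∈ subS B N S H :=
            ⟨mul_mem hsN htN, s, hs, by simpa using htB⟩
          have h5 : (⟨s * m, hnH⟩ : ↥H) = ⟨s * t, ht⟩ * ⟨t⁻¹ * m, h2⟩ := by
            apply Subtype.ext
            change s * m = s * t * (t⁻¹ * m)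
            group
          rw [h5]
          exact mul_mem (mem_sup_left (subset_closure h4)) h3
    exact key k n.1 hk n.2
  sq := by
    rintro s ⟨hsN, a, ha, has⟩
    have haN := h.sub a ha
    have htN : a⁻¹ * s.1 ∈ N := mul_mem (inv_mem haN) hsN
    have h1 := h.norm' haN has htN
    have : s.1 * s.1 = (a * a) * (a⁻¹ * (a⁻¹ * s.1) * a) * (a⁻¹ * s.1) := by group
    change s.1 * s.1 ∈ B
    rw [this]
    exact mul_mem (mul_mem (h.sq a ha) h1) has
  mul := by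
    rintro s ⟨hsN, a, ha, has⟩ b hb n hn
    have hn' : n.1 ∈ N := hn
    have haN := h.sub a ha
    have htN : a⁻¹ * s.1 ∈ N := mul_mem (inv_mem haN) hsN
    have e : s.1 * b.1 * n.1 = a * ((a⁻¹ * s.1) * b.1) * n.1 := by group
    rcases h.mul a ha _ (mul_mem has hb) n.1 hn with h1 | h1
    · left
      refine sub_DC h hU hn' ?_
      change DC B n.1 (s.1 * b.1 * n.1)
      rw [e]
      exact h1
    · right
      refine sub_DC h hU (mul_mem hsN hn') ?_
      change DC B (s.1 * n.1) (s.1 * b.1 * n.1)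
      rw [e]
      refine DC.trans (DC.symm ?_) h1
      refine ⟨1, one_mem _, n.1⁻¹ * (a⁻¹ * s.1) * n.1, h.norm' hn' has htN, ?_⟩
      group
  thick := by
    rintro s ⟨hsN, a, ha, has⟩
    have haN := h.sub a ha
    have htN : a⁻¹ * s.1 ∈ N := mul_mem (inv_mem haN) hsN
    obtain ⟨b, hb, hbs⟩ := h.thick a ha
    obtain ⟨u, hu, t, htB, htN', rfl⟩ := h.split b hb
    refine ⟨⟨u, hU hu⟩, h.le hu, fun hcon => hbs ?_⟩
    have hcon' : s.1⁻¹ * u * s.1 ∈ B := hcon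
    have e : a⁻¹ * (u * t) * a = ((a⁻¹ * s.1) * (s.1⁻¹ * u * s.1) * (a⁻¹ * s.1)⁻¹) *
        (a⁻¹ * t * a) := by group
    rw [e]
    exact mul_mem (mul_mem (mul_mem has hcon') (inv_mem has)) (h.norm' haN htB htN')
  gen := by
    rw [eq_top_iff]
    intro x _
    obtain ⟨n, hn, hd⟩ := h.bruhat x.1
    obtain ⟨t, htB, htN, ht⟩ := sub_rep h hU hn
    have hd' : DC B (n * t) x.1 := by
      refine DC.trans ?_ hd
      exact ⟨1, one_mem _, t⁻¹, inv_mem htB, by group⟩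
    obtain ⟨a, ha, b, hb, hx⟩ := sub_DC h hU (n := ⟨n * t, ht⟩) (x := x) (mul_mem hn htN) hd'
    rw [hx]
    exact mul_mem (mul_mem (mem_sup_left ha) (mem_sup_right (mul_mem hn htN : n * t ∈ N)))
      (mem_sup_left hb)
  le := fun x hx => h.le hx
  pgroup := h.pgroup.comap_of_injective H.subtype Subtype.val_injective
  normal := fun b hb u hu => h.normal b.1 hb u.1 hu
  split := by
    intro b hb
    obtain ⟨u, hu, t, htB, htN, hbe⟩ := h.split b.1 hb
    have htH : t ∈ H := by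
      have : t = u⁻¹ * b.1 := by rw [hbe]; group
      rw [this]
      exact mul_mem (inv_mem (hU hu)) b.2
    exact ⟨⟨u, hU hu⟩, hu, ⟨t, htH⟩, htB, htN, Subtype.ext hbe⟩
  coprime := by
    intro hdvd
    apply h.coprime
    refine hdvd.trans ?_
    have : (B.subgroupOf H ⊓ N.subgroupOf H : Subgroup _) = (B ⊓ N).comap H.subtype := rfl
    rw [this]
    exact Subgroup.card_comap_dvd_of_injective _ _ Subtype.val_injective
  strong := by
    rintro s ⟨hsN, a, ha, has⟩ x hx hsx u hu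
    have hx' : x.1 ∈ U := hx
    have hu' : u.1 ∈ U := hu
    have hsx' : s.1 * x.1 * s.1⁻¹ ∈ U := hsx
    have e1 : s.1 * x.1 * s.1⁻¹ = a * ((a⁻¹ * s.1) * x.1 * (a⁻¹ * s.1)⁻¹) * a⁻¹ := by group
    rw [e1] at hsx'
    have h1 := h.strong a ha _ (h.normal _ has _ hx') hsx' _ (h.normal _ has _ hu')
    have e2 : s.1 * (u.1 * x.1 * u.1⁻¹) * s.1⁻¹ =
        a * ((a⁻¹ * s.1) * u.1 * (a⁻¹ * s.1)⁻¹ * ((a⁻¹ * s.1) * x.1 * (a⁻¹ * s.1)⁻¹) *
          ((a⁻¹ * s.1) * u.1 * (a⁻¹ * s.1)⁻¹)⁻¹) * a⁻¹ := by group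
    change s.1 * (u.1 * x.1 * u.1⁻¹) * s.1⁻¹ ∈ U
    rw [e2]
    exact h1
  opp := by
    obtain ⟨n, hn, hx⟩ := h.opp
    obtain ⟨t, htB, htN, ht⟩ := sub_rep h hU hn
    refine ⟨⟨n * t, ht⟩, mul_mem hn htN, fun x hxU hnx => Subtype.ext ?_⟩
    have hxU' : x.1 ∈ U := hxU
    have hnx' : n * t * x.1 * (n * t)⁻¹ ∈ U := hnx
    have e : n * t * x.1 * (n * t)⁻¹ = n * (t * x.1 * t⁻¹) * n⁻¹ := by group
    rw [e] at hnx'
    have h1 := hx _ (h.normal t htB _ hxU') hnx'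
    have : x.1 = t⁻¹ * (t * x.1 * t⁻¹) * t := by group
    rw [this, h1]
    change t⁻¹ * 1 * t = 1
    group
  nonempty := by
    obtain ⟨s, hs⟩ := h.nonempty
    obtain ⟨t, htB, htN, ht⟩ := sub_rep_simple h hU hs
    exact ⟨⟨s * t, ht⟩, mul_mem (h.sub s hs) htN, s, hs, by simpa using htB⟩

/-- connected diagrams -/
theorem SplitBN.subgroup [Finite L] (h : SplitBN r B N U S) {H : Subgroup L} [hHn : H.Normal]
    (hU : U ≤ H) :
    SplitBN r (B.subgroupOf H) (N.subgroupOf H) (U.subgroupOf H) (subS B N S H) where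
  toSB := SB.subgroup h.toSB hU
  irr := by
    intro J hJ hne hne' hJB
    set J0 : Set L := {a | a ∈ S ∧ ∃ s ∈ J, a⁻¹ * s.1 ∈ B} with hJ0
    have hSB := h.toSB
    have hcong : ∀ {a s : L}, a ∈ S → s ∈ N → a⁻¹ * s ∈ B → ∀ {a' : L}, a' ∈ S → a'⁻¹ * s ∈ B →
        a⁻¹ * a' ∈ B := by
      intro a s _ _ h1 a' _ h2
      have : a⁻¹ * a' = (a⁻¹ * s) * (a'⁻¹ * s)⁻¹ := by group
      rw [this]
      exact mul_mem h1 (inv_mem h2)
    obtain ⟨a, ha, b, hb, hab⟩ := h.irr J0 (fun a ha => ha.1) (by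
      obtain ⟨s, hs⟩ := hne
      obtain ⟨hsN, a, ha, has⟩ := hJ hs
      exact ⟨a, ha, s, hs, has⟩) (by
      obtain ⟨s, hs, hsJ⟩ := hne'
      obtain ⟨hsN, a, ha, has⟩ := hs
      refine ⟨a, ha, fun hcon => ?_⟩
      obtain ⟨-, s', hs'J, has'⟩ := hcon
      refine hJB s' hs'J s ⟨⟨hsN, a, ha, has⟩, hsJ⟩ ?_
      change s'.1⁻¹ * s.1 ∈ B
      have : s'.1⁻¹ * s.1 = (a⁻¹ * s'.1)⁻¹ * (a⁻¹ * s.1) := by group
      rw [this]
      exact mul_mem (inv_mem has') has) (by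
      rintro a ⟨ha, s, hs, has⟩ b ⟨hb, hbJ⟩ hcon
      apply hbJ
      refine ⟨hb, s, hs, ?_⟩
      have : b⁻¹ * s.1 = (a⁻¹ * b)⁻¹ * (a⁻¹ * s.1) := by group
      rw [this]
      exact mul_mem (inv_mem hcon) has)
    obtain ⟨haS, s, hs, has⟩ := ha
    obtain ⟨hbS, hbJ⟩ := hb
    obtain ⟨t, htB, htN, ht⟩ := sub_rep_simple h.toSB hU hbS
    have hbt : (⟨b * t, ht⟩ : ↥H) ∈ subS B N S H :=
      ⟨mul_mem (h.sub b hbS) htN, b, hbS, by simpa using htB⟩
    refine ⟨s, hs, ⟨b * t, ht⟩, ⟨hbt, fun hcon => hbJ ⟨hbS, _, hcon, by simpa using htB⟩⟩, ?_⟩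
    intro hcon
    apply hab
    have hcon' : (b * t * s.1)⁻¹ * (s.1 * (b * t)) ∈ B := hcon
    obtain ⟨x, hx⟩ : ∃ x, x = a⁻¹ * s.1 := ⟨_, rfl⟩
    have hxB : x ∈ B := by rw [hx]; exact has
    have hxN : x ∈ N := by
      rw [hx]
      exact mul_mem (inv_mem (h.sub a haS)) (hJ hs).1
    have hse : s.1 = a * x := by rw [hx]; group
    rw [hse] at hcon'
    have haN := h.sub a haS
    have hbN := h.sub b hbS
    -- everything modulo `T`
    have e : (b * a)⁻¹ * (a * b) =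
        ((a⁻¹ * t * a) * x) * ((b * t * (a * x))⁻¹ * (a * x * (b * t))) *
          ((b⁻¹ * x * b) * t)⁻¹ := by group
    rw [e]
    exact mul_mem (mul_mem (mul_mem (h.norm' haN htB htN) hxB) hcon')
      (inv_mem (mul_mem (h.norm' hbN hxB hxN) htB))

end

end Vale.Agent.P240.R2.H487.CG
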