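import Vale.Agent.P240.R2.H487.AD2
import Vale.Agent.P240.R2.H487.AM3
import Vale.Agent.P240.R2.H612.MinC

/-!
The main theorem for the prime `2`: alternating groups and classical groups.
-/

set_option autoImplicit false
set_option linter.all false

namespace Vale.Agent.P240.R2.H487

open Subgroup Matrix Vale.Agent.P240.K Vale.Agent.P240.H195
open Vale.Agent.P240.R2.H63 Vale.Agent.P240.R2.H275

universe u v

/-- the alternatives for composition factors -/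
def FacS (𝕜 : Type v) [Field 𝕜] (p l : ℕ) (L : Type u) [Group L] : Prop :=
  FacT 𝕜 p l L ∨ (FewAut p L ∧ AlmHQ 𝕜 p L)

section
variable {G : Type u} [Group G] {p : ℕ}

/-- components -/
lemma FacS.listed {𝕜 : Type v} [Field 𝕜] [hp : Fact p.Prime] [Finite G] {l : ℕ}
    (hO : OpTrivial p G) (hO' : OpPrimeTrivial p G) {L : Subgroup G} (hL : L ∈ Q.Comp G)
    (h : FacS 𝕜 p l L) : LocTopF 𝕜 p L ∨ ListedP 𝕜 p l L := by
  have hd := l2_dvd hO' L hL
  have hF := comp_family hO hO'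
  rcases h with (h4 | h4 | h4 | h4 | h4 | ⟨h4, r, hr, h5⟩) | ⟨h4, h5⟩
  · exact Or.inl (h4 (comp_factor hO hO' hL).1).top
  · exact Or.inr (Or.inl h4)
  · exact Or.inr (Or.inr (Or.inr (Or.inl (h4.treated hd))))
  · exact Or.inr (Or.inr (Or.inl (h4.sub (hF.centre L hL))))
  · exact Or.inr (Or.inr (Or.inr (Or.inr (Or.inl ⟨h4.1, h4.2.sub⟩))))
  · exact Or.inr (Or.inr (Or.inr (Or.inr (Or.inr (Or.inr ⟨r, hr, Or.inl ⟨h4, h5⟩⟩)))))
  · exact Or.inr (Or.inr (Or.inr (Or.inl (Or.inr (Or.inl (Or.inr (Or.inr (Or.inr (Or.inl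
      ⟨h4.fewOuter, Or.inr fun A _ hA => h5 A hA⟩)))))))))

/-- **Main theorem** for components -/
theorem comp_mainS [hp : Fact p.Prime] [Finite G] {𝕜 : Type v} [Field 𝕜] {l : ℕ} (hl : l.Prime)
    (hO : OpTrivial p G) (N : Subgroup G) [N.Normal] (hN : ¬ p ∣ Nat.card N)
    (hmax : ∀ X : Subgroup G, X.Normal → ¬ p ∣ Nat.card X → X ≤ N)
    (h : ∀ L ∈ Q.Comp (Reduced N), CompFactor (Reduced N) L → FacS 𝕜 p l L) : HQ 𝕜 p G := by
  have hO1 := reduced_op hO N hN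
  have hO2 := reduced_op' N hN hmax
  exact comp_mainT hl hO N hN hmax fun L hL => (h L hL (comp_factor hO1 hO2 hL)).listed hO1 hO2 hL

/-- **Main theorem** for composition factors -/
theorem factor_mainS [hp : Fact p.Prime] [Finite G] {𝕜 : Type v} [Field 𝕜] {l : ℕ} (hl : l.Prime)
    (hO : OpTrivial p G)
    (h : ∀ (L : Type u) [Group L], CompFactor G L → p ∣ Nat.card L → FacS 𝕜 p l L) :
    HQ 𝕜 p G := by
  obtain ⟨N, hNn, hN, hmax⟩ := l2_exists_pprime (p := p) (H := G)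
  have hO1 := reduced_op hO N hN
  have hO2 := reduced_op' N hN hmax
  refine comp_mainS hl hO N hN hmax fun L hL h1 => ?_
  have h2 : CompFactor (centralizer (N : Set G)) L :=
    h1.of_map (QuotientGroup.mk' _) (QuotientGroup.mk'_surjective _)
  have h3 : CompFactor G L :=
    h2.of_sub (inferInstance : (centralizer (N : Set G)).Normal).isSubnormal
  exact h L h3 (l2_dvd hO2 L hL)

/-- **Minimal counterexamples** -/
theorem minimal_top {𝕜 : Type v} [Field 𝕜] [hp : Fact p.Prime] [Finite G]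
    (hO : OpTrivial p G) (hG : ¬ HQ 𝕜 p G)
    (hmin : ∀ (H : Type u) [Group H] [Finite H], Nat.card H < Nat.card G → OpTrivial p H →
      HQ 𝕜 p H) {L : Subgroup G} (hL : L ∈ Q.Comp G)
    (h : TopFac 𝕜 p L ∨ LocN p L ∨ Removable 𝕜 p L ∨ RigidLie p L ∨
      ((p : 𝕜) = 0 ∧ JumpSub 𝕜 p L) ∨ (p = 2 ∧ IsSimpleGroup L ∧ PauliPSL L)) : False := by
  have hO' := (H612.minimal_main hO hG hmin).1
  have hF := comp_family hO hO'
  set D : Set (Subgroup G) := {M | ∃ g : G, M = K.cj g L} with hD'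
  have hD : D ⊆ Q.Comp G := by
    rintro _ ⟨g, rfl⟩
    exact hF.conj L hL g
  have hLD : L ∈ D := ⟨1, (K.cj_one L).symm⟩
  have hconj : ∀ M ∈ D, ∀ g : G, M.map (MulAut.conj g).toMonoidHom ∈ D := by
    rintro _ ⟨g, rfl⟩ h
    exact ⟨h * g, (K.cj_mul h g L).symm⟩
  have hcen : ∀ L ∈ D, ∀ x ∈ L, (∀ y ∈ L, x * y = y * x) → x = 1 := by
    intro L hL x hx h
    have h1 : x ∈ L ⊓ centralizer (L : Set G) :=
      mem_inf.2 ⟨hx, mem_centralizer_iff.2 fun y hy => (h y hy).symm⟩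
    rw [hF.centre L (hD hL)] at h1
    exact mem_bot.1 h1
  refine hG (family_elimT hconj (fun L hL M hM => hF.comm L (hD hL) M (hD hM)) hcen
    (fun L hL => hF.dvd L (hD hL)) ?_ ?_)
  · rintro _ ⟨g, rfl⟩
    have e : L ≃* K.cj g L :=
      L.equivMapOfInjective (MulAut.conj g).toMonoidHom (MulAut.conj g).injective
    rcases h with h | h | h | h | h | h
    · exact Or.inl (h.congr e.symm)
    · exact Or.inr (Or.inl (h.cj g))
    · exact Or.inr (Or.inr (Or.inl (H612.removable_cj h g)))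
    · exact Or.inr (Or.inr (Or.inr (Or.inl (rigidLie_cj h))))
    · exact Or.inr (Or.inr (Or.inr (Or.inr (Or.inl ⟨h.1, H612.jumpSub_cj h.2 g⟩))))
    · exact Or.inr (Or.inr (Or.inr (Or.inr (Or.inr
        ⟨h.1, (comp_factor hO hO' (hD ⟨g, rfl⟩)).1, h.2.2.congr e⟩))))
  · have hCn := H612.cenAll_normal hconj
    refine hmin (CenAll D) (H612.card_lt_of_ne_top fun htop => ?_) ?_
    · have h1 : L ≤ ⊥ := by
        intro x hx
        have h2 : x ∈ CenAll D := by rw [htop]; exact mem_top x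
        rw [CenAll_eq, mem_Cen] at h2
        exact mem_bot.2 (hcen L hLD x hx fun y hy =>
          ((mem_centralizer_iff.1 (h2 L hLD)) y hy).symm)
      have h3 := hF.dvd L hL
      rw [le_bot_iff.1 h1, Subgroup.card_bot] at h3
      exact hp.out.one_lt.ne' (Nat.dvd_one.1 h3)
    · exact opTrivial_of_opIn
        (OpIn.descend le_top (fun m _ h hh => hCn.conj_mem _ hh m) (opIn_top hO))

end

section
variable {G : Type u} [Group G]

/-- the groups in the main theorem -/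
lemma AltClasAt.facS {𝕜 : Type v} [Field 𝕜] {l : ℕ} (hl : l.Prime) {L : Type u} [Group L]
    (hL : CompFactor G L) (h : AltClasAt 𝕜 l L ∨ Other 𝕜 2 l L) : FacS 𝕜 2 l L := by
  rcases h with (h | h | ⟨F, hF1, hF2, h | ⟨ha, h⟩ | ⟨ha, h⟩⟩) | h | h
  · exact Or.inl (Or.inr (Or.inr (Or.inl (Or.inl h))))
  · exact Or.inl (Or.inr (h.listed hl hL))
  · exact Or.inl ((h.topR 𝕜 hL.1 hL.2.1).facT l)
  · exact Or.inl (clas_facT hl hL.1 hL.2.1 h ha)
  · exact Or.inl (h.facT hl hL.1 hL.2.1 ha)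
  · exact Or.inl (Or.inr (Or.inr (Or.inl h)))
  · exact Or.inr h

/-- small fields of characteristic `3` and `5` -/
lemma adm_three {𝕜 : Type v} [Field 𝕜] (h3 : (3 : 𝕜) = 0) {S : Set ℕ} {F : Type} [Field F]
    [Finite F] (hS : Nat.card F ∈ S → ∃ t : ℕ, Nat.card F = 3 ^ t ∨ Nat.card F = 5 ^ t) :
    Adm 𝕜 5 S F := by
  intro hq
  obtain ⟨t, ht⟩ := hS hq
  have : Fintype F := Fintype.ofFinite F
  obtain ⟨r, hrc⟩ := CharP.exists F
  have hr : Fact r.Prime := ⟨(CharP.char_is_prime_or_zero F r).resolve_right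
    (CharP.char_ne_zero_of_finite F r)⟩
  obtain ⟨k, -, hk⟩ := FiniteField.card F r
  rw [← Nat.card_eq_fintype_card] at hk
  have hdvd : ∀ s : ℕ, s.Prime → Nat.card F = s ^ t → r = s := by
    intro s hs ht
    have h1 : r ∣ s ^ t := by
      rw [← ht, hk]
      exact dvd_pow_self r k.ne_zero
    exact (Nat.prime_dvd_prime_iff_eq hr.out hs).1 (hr.out.dvd_of_dvd_pow h1)
  rcases ht with ht | ht
  · have h1 := hdvd 3 Nat.prime_three ht
    subst h1
    exact Or.inr ⟨3, Nat.prime_three, CharP.cast_eq_zero F 3, by exact_mod_cast h3⟩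
  · have h1 := hdvd 5 Nat.prime_five ht
    subst h1
    exact Or.inl (CharP.cast_eq_zero F 5)

lemma AltClas.at {𝕜 : Type v} [Field 𝕜] (h3 : (3 : 𝕜) = 0) {L : Type u} [Group L]
    (h : AltClas L) : AltClasAt 𝕜 5 L := by
  rcases h with h | ⟨F, hF1, hF2, ⟨n, ⟨e⟩⟩ | h | h⟩
  · exact Or.inl h
  · exact Or.inr (Or.inl (LinTwo.of_three h3 e))
  · exact Or.inr (Or.inr ⟨F, hF1, hF2, Or.inl h⟩)
  have ha : Adm 𝕜 5 {3, 5, 9, 25} F := by
    refine adm_three h3 fun hq => ?_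
    simp only [Set.mem_insert_iff, Set.mem_singleton_iff] at hq
    rcases hq with hq | hq | hq | hq
    · exact ⟨1, Or.inl (by rw [hq, pow_one])⟩
    · exact ⟨1, Or.inr (by rw [hq, pow_one])⟩
    · exact ⟨2, Or.inl (by rw [hq]; norm_num)⟩
    · exact ⟨2, Or.inr (by rw [hq]; norm_num)⟩
  rcases h with h | h | h
  · exact Or.inr (Or.inr ⟨F, hF1, hF2, Or.inr (Or.inl ⟨ha, Or.inl h⟩)⟩)
  · refine Or.inr (Or.inr ⟨F, hF1, hF2, Or.inr (Or.inr ⟨adm_three h3 fun hq => ?_, h⟩)⟩)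
    simp only [Set.mem_insert_iff, Set.mem_singleton_iff] at hq
    rcases hq with hq | hq | hq
    · exact ⟨2, Or.inl (by rw [hq]; norm_num)⟩
    · exact ⟨2, Or.inr (by rw [hq]; norm_num)⟩
    · exact ⟨4, Or.inl (by rw [hq]; norm_num)⟩
  · exact Or.inr (Or.inr ⟨F, hF1, hF2, Or.inr (Or.inl ⟨ha, Or.inr h⟩)⟩)

/-- **Main theorem**, `p = 2`, composition factors, any field `𝕜`, any prime `l` -/
theorem clas_factor [Fact (Nat.Prime 2)] [Finite G] {𝕜 : Type v} [Field 𝕜] {l : ℕ} (hl : l.Prime)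
    (hO : OpTrivial 2 G) (h : ∀ (L : Type u) [Group L], CompFactor G L → 2 ∣ Nat.card L →
      AltClasAt 𝕜 l L ∨ Other 𝕜 2 l L) : HQ 𝕜 2 G :=
  factor_mainS hl hO fun L _ hL hd => AltClasAt.facS hl hL (h L hL hd)

/-- **Main theorem**, `p = 2`, composition factors, without exceptions -/
theorem clas_three [Fact (Nat.Prime 2)] [Finite G] {𝕜 : Type v} [Field 𝕜] (h3 : (3 : 𝕜) = 0)
    (hO : OpTrivial 2 G) (h : ∀ (L : Type u) [Group L], CompFactor G L → 2 ∣ Nat.card L →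
      AltClas L ∨ Other 𝕜 2 5 L) : HQ 𝕜 2 G :=
  clas_factor Nat.prime_five hO fun L _ hL hd => (h L hL hd).imp (fun h => h.at h3) id

/-- **Main theorem**, `p = 2`, components -/
theorem clas_comp [Fact (Nat.Prime 2)] [Finite G] {𝕜 : Type v} [Field 𝕜] {l : ℕ} (hl : l.Prime)
    (hO : OpTrivial 2 G) (N : Subgroup G) [N.Normal] (hN : ¬ 2 ∣ Nat.card N)
    (hmax : ∀ X : Subgroup G, X.Normal → ¬ 2 ∣ Nat.card X → X ≤ N)
    (h : ∀ L ∈ Q.Comp (Reduced N), AltClasAt 𝕜 l L ∨ Other 𝕜 2 l L) : HQ 𝕜 2 G :=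
  comp_mainS hl hO N hN hmax fun L hL hc => AltClasAt.facS hl hc (h L hL)

/-- elimination -/
lemma TopR.elim {𝕜 : Type v} [Field 𝕜] [Finite G] {p : ℕ} {L : Subgroup G} (h : TopR 𝕜 p L) :
    TopFac 𝕜 p L ∨ LocN p L ∨ Removable 𝕜 p L ∨ RigidLie p L ∨
      ((p : 𝕜) = 0 ∧ JumpSub 𝕜 p L) ∨ (p = 2 ∧ IsSimpleGroup L ∧ PauliPSL L) := by
  rcases h with h1 | h1 | ⟨h1, r, hr, h2⟩
  · exact Or.inl h1
  · exact Or.inr (Or.inr (Or.inr (Or.inl h1)))
  · exact Or.inr (Or.inr (Or.inl (Or.inl ⟨h1.fewOuter, h2.almostSimpleHQ hr⟩)))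

/-- the groups that can be eliminated -/
lemma AltClasE.elim (𝕜 : Type v) [Field 𝕜] [Finite G] [Fact (Nat.Prime 2)] {L : Subgroup G}
    (hs : IsSimpleGroup L) (hn : ∃ x y : L, x * y ≠ y * x) (h : AltClasE L) :
    TopFac 𝕜 2 L ∨ LocN 2 L ∨ Removable 𝕜 2 L ∨ RigidLie 2 L ∨
      (((2 : ℕ) : 𝕜) = 0 ∧ JumpSub 𝕜 2 L) ∨ ((2 : ℕ) = 2 ∧ IsSimpleGroup L ∧ PauliPSL L) := by
  rcases h with h | h | ⟨F, hF1, hF2, ⟨h2, n, ⟨e⟩⟩ | h | ⟨hq, h | h⟩ | ⟨hq, h⟩⟩
  · exact Or.inr (Or.inr (Or.inl (removable_alt h)))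
  · exact Or.inr (Or.inr (Or.inr (Or.inr (Or.inr ⟨rfl, hs, h⟩))))
  · have hn2 := psl_two_le hn e
    obtain ⟨m, rfl⟩ : ∃ m, n = m + 1 := ⟨n - 1, by omega⟩
    have : CharP F 2 := CG.charP_of Nat.prime_two (by exact_mod_cast h2)
    have hc := centreless_of_simple hs hn
    have hs' : IsSimpleGroup (PL m F) := e.symm.isSimpleGroup
    have hc' : ∀ x : PL m F, (∀ y, x * y = y * x) → x = 1 := centreless_tr e hc
    exact Or.inr (Or.inr (Or.inr (Or.inl ((psl_rigidLie (by omega) hs' hc').tr e.symm))))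
  · exact (h.topR 𝕜 hs hn).elim
  · exact (h.topR 𝕜 hs hn hq).elim
  · exact (h.topR 𝕜 hs hn hq).elim
  · exact (h.topR 𝕜 hs hn hq).elim

/-- **Elimination** -/
theorem clas_family [Fact (Nat.Prime 2)] [Finite G] {𝕜 : Type v} [Field 𝕜] {D : Set (Subgroup G)}
    (hconj : ∀ L ∈ D, ∀ g : G, L.map (MulAut.conj g).toMonoidHom ∈ D)
    (hcomm : ∀ L ∈ D, ∀ M ∈ D, L ≠ M → ∀ x ∈ L, ∀ y ∈ M, x * y = y * x)
    (h : ∀ L ∈ D, IsSimpleGroup L ∧ (∃ x y : L, x * y ≠ y * x) ∧ 2 ∣ Nat.card L ∧ AltClasE L)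
    (hC : HQ 𝕜 2 (CenAll D)) : HQ 𝕜 2 G := by
  refine family_elimT hconj hcomm (fun L hL x hx hxy => ?_) (fun L hL => (h L hL).2.2.1)
    (fun L hL => (h L hL).2.2.2.elim 𝕜 (h L hL).1 (h L hL).2.1) hC
  have h1 := centreless_of_simple (h L hL).1 (h L hL).2.1 ⟨x, hx⟩ fun y =>
    Subtype.ext (hxy y y.2)
  exact congrArg Subtype.val h1

/-- **Minimal counterexamples** -/
theorem clas_minimal [Fact (Nat.Prime 2)] [Finite G] {𝕜 : Type v} [Field 𝕜] (hO : OpTrivial 2 G)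
    (hG : ¬ HQ 𝕜 2 G)
    (hmin : ∀ (H : Type u) [Group H] [Finite H], Nat.card H < Nat.card G → OpTrivial 2 H →
      HQ 𝕜 2 H) : ∀ L ∈ Q.Comp G, ¬ AltClasE L := by
  intro L hL h
  have hO' := (H612.minimal_main hO hG hmin).1
  have hf := comp_factor hO hO' hL
  exact minimal_top hO hG hmin hL (h.elim 𝕜 hf.1 hf.2.1)

end

end Vale.Agent.P240.R2.H487
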