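import Vale.Agent.P240.H195.CF
import Vale.Agent.P240.R2.H487.AD

/-!
Conditions on composition factors and components.
-/

set_option autoImplicit false

namespace Vale.Agent.P240.R2.H487

open Subgroup Vale.Agent.P240 Vale.Agent.P240.H195

universe u v

/-- All groups `A` with `Inn(L) ≤ A ≤ Aut(L)` satisfy `HQ`. -/
def AlmHQ (𝕜 : Type*) [Field 𝕜] (p : ℕ) (L : Type*) [Group L] : Prop :=
  ∀ A : Subgroup (MulAut L), (∀ x : L, MulAut.conj x ∈ A) → K.HQ 𝕜 p A

/-- `L` satisfies `GoodFactor`; or `L` satisfies `FewAut` and all almost simple groups with socle `L`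
satisfy `HQ`. -/
def Other (𝕜 : Type*) [Field 𝕜] (p l : ℕ) (L : Type*) [Group L] : Prop :=
  GoodFactor 𝕜 p l L ∨ (FewAut p L ∧ AlmHQ 𝕜 p L)

end Vale.Agent.P240.R2.H487
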