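import Vale.Agent.P240.H195.RLink

/-!
Arrangement homology: cycles on the complete flags of an elementary abelian group `E` whose largest member
lies in a set `R` of maximal subgroups.
-/

namespace Vale.Agent.P240.R2.H487

open Finsupp hiding cons
open Subgroup Vale.Agent.P240.K

universe u v

section
variable {G : Type u} [Group G]

/-- complete flags of nontrivial proper subgroups of `E` (decreasing) -/
def Fl (E : Subgroup G) (n : ℕ) (l : List (Subgroup G)) : Prop :=
  l.length = n ∧ (E :: l).Pairwise (· > ·) ∧ ∀ x ∈ l, x ≠ ⊥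

lemma Fl.tail {E K : Subgroup G} {n : ℕ} {l : List (Subgroup G)} (h : Fl E (n + 1) (K :: l)) :
    Fl K n l :=
  ⟨Nat.succ.inj h.1, (List.pairwise_cons.1 h.2.1).2, fun x hx => h.2.2 x (List.mem_cons_of_mem _ hx)⟩

lemma Fl.lt {E K : Subgroup G} {n : ℕ} {l : List (Subgroup G)} (h : Fl E n (K :: l)) :
    K < E := (List.pairwise_cons.1 h.2.1).1 K (by simp)

lemma Fl.cons {E K : Subgroup G} {n : ℕ} {l : List (Subgroup G)} (h : Fl K n l) (hKE : K < E)
    (hK : K ≠ ⊥) : Fl E (n + 1) (K :: l) := by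
  refine ⟨by rw [List.length_cons, h.1], List.pairwise_cons.2 ⟨?_, h.2.1⟩, ?_⟩
  · intro a ha
    rcases List.mem_cons.1 ha with rfl | ha
    · exact hKE
    · exact lt_trans ((List.pairwise_cons.1 h.2.1).1 a ha) hKE
  · intro a ha
    rcases List.mem_cons.1 ha with rfl | ha
    · exact hK
    · exact h.2.2 a ha

lemma Fl.ne_nil {E : Subgroup G} {n : ℕ} {l : List (Subgroup G)} (h : Fl E (n + 1) l) :
    ∃ K l', l = K :: l' := by
  rcases l with _ | ⟨K, l'⟩
  · exact absurd h.1 (by simp)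
  · exact ⟨K, l', rfl⟩

lemma card_of_lt [Finite G] {p k : ℕ} (hp : p.Prime) {E K : Subgroup G} (hE : Nat.card E = p ^ k)
    (h : K < E) : ∃ j, j < k ∧ Nat.card K = p ^ j := by
  have h1 : Nat.card K ∣ p ^ k := hE ▸ card_dvd_of_le h.le
  obtain ⟨j, hj, hj'⟩ := (Nat.dvd_prime_pow hp).1 h1
  refine ⟨j, lt_of_le_of_ne hj ?_, hj'⟩
  rintro rfl
  exact h.ne (eq_of_le_of_card_ge h.le (by rw [hE, hj']))

lemma len_le [Finite G] {p : ℕ} (hp : p.Prime) (l : List (Subgroup G)) : ∀ (k : ℕ) (E : Subgroup G),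
    E ≠ ⊥ → Nat.card E = p ^ k → (E :: l).Pairwise (· > ·) → (∀ x ∈ l, x ≠ ⊥) →
      l.length + 1 ≤ k := by
  induction l with
  | nil =>
    intro k E hE hk _ _
    rw [List.length_nil, zero_add]
    by_contra hlt
    have h0 : k = 0 := by omega
    rw [h0, pow_zero] at hk
    exact hE (eq_bot_of_card_le _ (by rw [hk]))
  | cons K l ih =>
    intro k E hE hk hp' hb
    have h1 := List.pairwise_cons.1 hp'
    obtain ⟨j, hj, hj'⟩ := card_of_lt hp hk (h1.1 K (by simp))
    have h2 := ih j K (hb K (by simp)) hj' h1.2 fun x hx => hb x (List.mem_cons_of_mem _ hx)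
    rw [List.length_cons]
    omega

lemma Fl.head_card [Finite G] {p : ℕ} (hp : p.Prime) {E : Subgroup G} {n : ℕ}
    {l : List (Subgroup G)} (h : Fl E n l) (hE : Nat.card E = p ^ (n + 1)) :
    Nat.card (l.headD ⊥ : Subgroup G) = p ^ n := by
  rcases l with _ | ⟨K, l⟩
  · have h1 : n = 0 := by rw [← h.1]; rfl
    subst h1
    rw [List.headD_nil, Subgroup.card_bot, pow_zero]
  · rw [List.headD_cons]
    obtain ⟨j, hj, hj'⟩ := card_of_lt hp hE h.lt
    have h1 := List.pairwise_cons.1 h.2.1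
    have h2 := len_le hp l j K (h.2.2 K (by simp)) hj' h1.2
      fun x hx => h.2.2 x (List.mem_cons_of_mem _ hx)
    have h3 := h.1
    rw [List.length_cons] at h3
    have h4 : j = n := by omega
    rw [hj', h4]

lemma Fl.head_le {E : Subgroup G} {n : ℕ} {l : List (Subgroup G)} (h : Fl E n l) :
    (l.headD ⊥ : Subgroup G) ≤ E := by
  rcases l with _ | ⟨K, l⟩
  · exact bot_le
  · exact h.lt.le

variable (𝕜 : Type v) [Field 𝕜]

/-- cycles on the complete flags of `E` whose largest member lies in `R` -/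
noncomputable def UU (E : Subgroup G) (R : Set (Subgroup G)) (n : ℕ) : Submodule 𝕜 (Ch 𝕜 (Subgroup G)) :=
  Sp 𝕜 (fun l => Fl E n l ∧ l.headD ⊥ ∈ R) ⊓ LinearMap.ker bd

variable {𝕜}

lemma mem_UU {E : Subgroup G} {R : Set (Subgroup G)} {n : ℕ} {c : Ch 𝕜 (Subgroup G)} :
    c ∈ UU 𝕜 E R n ↔ (∀ l ∈ c.support, Fl E n l ∧ l.headD ⊥ ∈ R) ∧ bd c = 0 := by
  rw [UU, Submodule.mem_inf, mem_Sp, LinearMap.mem_ker]

lemma UU_mono {E : Subgroup G} {R R' : Set (Subgroup G)} (h : R ⊆ R') (n : ℕ) :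
    UU 𝕜 E R n ≤ UU 𝕜 E R' n := by
  intro c hc
  rw [mem_UU] at hc ⊢
  exact ⟨fun l hl => ⟨(hc.1 l hl).1, h (hc.1 l hl).2⟩, hc.2⟩

instance UU_finite [Finite G] (E : Subgroup G) (R : Set (Subgroup G)) (n : ℕ) :
    Module.Finite 𝕜 (UU 𝕜 E R n) := by
  have hs : {l : List (Subgroup G) | l.length = n}.Finite := List.finite_length_eq _ n
  have : Finite {l : List (Subgroup G) | l.length = n} := hs
  have h1 : Module.Finite 𝕜 (Finsupp.supported 𝕜 𝕜 {l : List (Subgroup G) | l.length = n}) :=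
    Module.Finite.equiv (Finsupp.supportedEquivFinsupp (M := 𝕜) (R := 𝕜)
      {l : List (Subgroup G) | l.length = n}).symm
  refine Submodule.finiteDimensional_of_le
    (S₂ := Finsupp.supported 𝕜 𝕜 {l : List (Subgroup G) | l.length = n}) ?_
  exact inf_le_left.trans (Finsupp.supported_mono fun l hl => hl.1.1)

instance UU_free (E : Subgroup G) (R : Set (Subgroup G)) (n : ℕ) : Module.Free 𝕜 (UU 𝕜 E R n) :=
  Module.Free.of_divisionRing 𝕜 (UU 𝕜 E R n)

/-- the tails of the lists with head `K` -/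
noncomputable def tl {α : Type*} (K : α) : Ch 𝕜 α →ₗ[𝕜] Ch 𝕜 α :=
  Finsupp.lcomapDomain (List.cons K) List.cons_injective

lemma tl_apply {α : Type*} (K : α) (c : Ch 𝕜 α) (l : List α) : tl K c l = c (K :: l) := rfl

lemma cons_apply {α : Type*} (K : α) (c : Ch 𝕜 α) (l : List α) : cons K c (K :: l) = c l := by
  rw [cons, Finsupp.lmapDomain_apply]
  exact Finsupp.mapDomain_apply List.cons_injective c l

lemma cons_apply_ne {α : Type*} {K K' : α} (h : K' ≠ K) (c : Ch 𝕜 α) (l : List α) :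
    cons K c (K' :: l) = 0 := by
  rw [cons, Finsupp.lmapDomain_apply]
  refine Finsupp.mapDomain_of_notMem_range _ _ ?_
  rintro ⟨m, hm⟩
  exact h (List.cons.inj hm).1.symm

lemma cons_apply_nil {α : Type*} (K : α) (c : Ch 𝕜 α) : cons K c [] = 0 := by
  rw [cons, Finsupp.lmapDomain_apply]
  refine Finsupp.mapDomain_of_notMem_range _ _ ?_
  rintro ⟨m, hm⟩
  exact absurd hm (by simp)

lemma tl_cons {α : Type*} (K : α) (c : Ch 𝕜 α) : tl K (cons K c) = c := by
  ext l
  rw [tl_apply, cons_apply]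

lemma tl_cons_ne {α : Type*} {K K' : α} (h : K' ≠ K) (c : Ch 𝕜 α) : tl K' (cons K c) = 0 := by
  ext l
  rw [tl_apply, cons_apply_ne h, Finsupp.zero_apply]

lemma sum_cons_tl {α : Type*} [Fintype α] {c : Ch 𝕜 α} (h : c [] = 0) :
    c = ∑ K, cons K (tl K c) := by
  ext l
  rw [Finsupp.finsetSum_apply]
  rcases l with _ | ⟨K, l⟩
  · rw [h]
    exact (Finset.sum_eq_zero fun K _ => cons_apply_nil K _).symm
  · rw [Finset.sum_eq_single K]
    · rw [cons_apply, tl_apply]
    · intro K' _ hne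
      exact cons_apply_ne (Ne.symm hne) _ _
    · intro h
      exact absurd (Finset.mem_univ _) h

/-- the maximal subgroups of `K` induced by `R` -/
def RH (R : Set (Subgroup G)) (K : Subgroup G) : Set (Subgroup G) :=
  {N | ∃ K' ∈ R, K' ≠ K ∧ N = K ⊓ K'}

lemma UU_nil {E : Subgroup G} {R : Set (Subgroup G)} {n : ℕ} {c : Ch 𝕜 (Subgroup G)}
    (hc : c ∈ UU 𝕜 E R (n + 1)) : c [] = 0 := by
  by_contra h
  obtain ⟨K, l', hl⟩ := ((mem_UU.1 hc).1 [] (Finsupp.mem_support_iff.2 h)).1.ne_nil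
  exact absurd hl (by simp)

section
variable [Finite G] {p : ℕ}

lemma UU_head (hp : p.Prime) {E : Subgroup G} {R : Set (Subgroup G)} {n : ℕ}
    {c : Ch 𝕜 (Subgroup G)} (hE : Nat.card E = p ^ (n + 2)) (hc : c ∈ UU 𝕜 E R (n + 1))
    {K : Subgroup G} {l : List (Subgroup G)} (h : c (K :: l) ≠ 0) :
    Nat.card K = p ^ (n + 1) ∧ K < E ∧ K ∈ R ∧ Fl K n l := by
  have h1 := (mem_UU.1 hc).1 (K :: l) (Finsupp.mem_support_iff.2 h)
  have h2 := h1.1.head_card hp (by rw [hE])
  rw [List.headD_cons] at h2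
  exact ⟨h2, h1.1.lt, h1.2, h1.1.tail⟩

lemma sum_tl_eq [Fintype (Subgroup G)] (hp : p.Prime) {E : Subgroup G} {R : Set (Subgroup G)}
    {n : ℕ} {c : Ch 𝕜 (Subgroup G)} (hE : Nat.card E = p ^ (n + 2)) (hc : c ∈ UU 𝕜 E R (n + 1)) :
    ∑ K, tl K c = 0 ∧ ∀ K, bd (tl K c) = 0 := by
  have e1 : ∑ K, tl K c = ∑ K, Vale.Agent.P240.K.cons K (bd (tl K c)) := by
    have h1 := (mem_UU.1 hc).2
    rw [sum_cons_tl (UU_nil hc), map_sum] at h1
    simp only [bd_cons, Finset.sum_sub_distrib] at h1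
    exact sub_eq_zero.1 h1
  have hz : ∀ l, (∑ K, tl K c) l ≠ 0 → Nat.card (l.headD ⊥ : Subgroup G) = p ^ n := by
    intro l hl
    rw [Finsupp.finsetSum_apply] at hl
    obtain ⟨K, -, hK⟩ := Finset.exists_ne_zero_of_sum_ne_zero hl
    rw [tl_apply] at hK
    obtain ⟨h1, h2, h3, h4⟩ := UU_head hp hE hc hK
    exact h4.head_card hp h1
  have hz' : ∀ l, (∑ K, Vale.Agent.P240.K.cons K (bd (tl K c))) l ≠ 0 →
      Nat.card (l.headD ⊥ : Subgroup G) = p ^ (n + 1) := by
    intro l hl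
    rw [Finsupp.finsetSum_apply] at hl
    obtain ⟨K, -, hK⟩ := Finset.exists_ne_zero_of_sum_ne_zero hl
    rcases l with _ | ⟨K', m⟩
    · exact absurd (cons_apply_nil K _) hK
    · by_cases hKK : K' = K
      · subst hKK
        rw [List.headD_cons]
        have h1 : tl K' c ≠ 0 := by
          intro h0
          rw [h0, map_zero, map_zero] at hK
          exact hK rfl
        obtain ⟨l'', hl''⟩ := Finsupp.ne_iff.1 h1
        rw [tl_apply, Finsupp.zero_apply] at hl''
        exact (UU_head hp hE hc hl'').1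
      · exact absurd (cons_apply_ne hKK _ _) hK
  have e2 : ∑ K, tl K c = 0 := by
    ext l
    by_contra hl
    have h1 := hz l hl
    have h2 := hz' l (by rw [← e1]; exact hl)
    rw [h1] at h2
    exact absurd (Nat.pow_right_injective hp.two_le h2) (by omega)
  refine ⟨e2, fun K => ?_⟩
  ext m
  rw [e2] at e1
  have h1 := DFunLike.congr_fun e1 (K :: m)
  rw [Finsupp.zero_apply, Finsupp.finsetSum_apply, Finset.sum_eq_single K, cons_apply] at h1
  · exact h1.symm
  · intro K' _ hne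
    exact cons_apply_ne (Ne.symm hne) _ _
  · intro h
    exact absurd (Finset.mem_univ _) h

lemma inf_eq (hp : p.Prime) {K K' N : Subgroup G} {n : ℕ} (hK : Nat.card K = p ^ (n + 1))
    (hK' : Nat.card K' = p ^ (n + 1)) (hne : K' ≠ K) (hN : Nat.card N = p ^ n) (h : N ≤ K)
    (h' : N ≤ K') : N = K ⊓ K' := by
  have hlt : K ⊓ K' < K := by
    refine lt_of_le_of_ne inf_le_left fun h0 => hne ?_
    exact (eq_of_le_of_card_ge (inf_eq_left.1 h0) (by rw [hK, hK'])).symm
  obtain ⟨j, hj, hj'⟩ := card_of_lt hp hK hlt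
  refine eq_of_le_of_card_ge (le_inf h h') ?_
  rw [hN, hj']
  exact Nat.pow_le_pow_right hp.pos (by omega)

/-- the tails of a cycle -/
theorem tl_mem (hp : p.Prime) {E : Subgroup G} {R : Set (Subgroup G)} {n : ℕ}
    {c : Ch 𝕜 (Subgroup G)} (hE : Nat.card E = p ^ (n + 2)) (hc : c ∈ UU 𝕜 E R (n + 1))
    (K : Subgroup G) : tl K c ∈ UU 𝕜 K (RH R K) n := by
  have : Fintype (Subgroup G) := Fintype.ofFinite _
  obtain ⟨h0, hb⟩ := sum_tl_eq hp hE hc
  rw [mem_UU]
  refine ⟨fun l hl => ?_, hb K⟩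
  have hl1 : tl K c l ≠ 0 := Finsupp.mem_support_iff.1 hl
  have hl' : c (K :: l) ≠ 0 := hl1
  obtain ⟨h1, h2, h3, h4⟩ := UU_head hp hE hc hl'
  refine ⟨h4, ?_⟩
  obtain ⟨K', hne, hK'⟩ : ∃ K' ≠ K, c (K' :: l) ≠ 0 := by
    by_contra hcon
    push Not at hcon
    have h5 := DFunLike.congr_fun h0 l
    rw [Finsupp.finsetSum_apply, Finset.sum_eq_single K] at h5
    · exact hl' h5
    · intro K' _ hK'
      exact hcon K' hK'
    · intro h
      exact absurd (Finset.mem_univ _) h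
  obtain ⟨h1', h2', h3', h4'⟩ := UU_head hp hE hc hK'
  exact ⟨K', h3', hne, inf_eq hp h1 h1' hne (h4.head_card hp h1) h4.head_le h4'.head_le⟩

lemma tl_eq_zero (hp : p.Prime) {E : Subgroup G} {R : Set (Subgroup G)} {n : ℕ}
    {c : Ch 𝕜 (Subgroup G)} (hE : Nat.card E = p ^ (n + 2)) (hc : c ∈ UU 𝕜 E R (n + 1))
    {K : Subgroup G} (hK : K ∉ R) : tl K c = 0 := by
  ext l
  by_contra h
  exact hK (UU_head hp hE hc h).2.2.1

/-- **Injectivity**: a cycle all of whose lists start with a subgroup containing `ρ` is zero. -/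
theorem star_inj (hp : p.Prime) {ρ : G} (hρ : ρ ≠ 1) (n : ℕ) : ∀ (E : Subgroup G)
    (R : Set (Subgroup G)) (c : Ch 𝕜 (Subgroup G)), Nat.card E = p ^ (n + 1) → c ∈ UU 𝕜 E R n →
      (∀ l ∈ c.support, ρ ∈ (l.headD ⊥ : Subgroup G)) → c = 0 := by
  have : Fintype (Subgroup G) := Fintype.ofFinite _
  induction n with
  | zero =>
    intro E R c _ hc hl
    ext l
    by_contra h
    have h1 := ((mem_UU.1 hc).1 l (Finsupp.mem_support_iff.2 h)).1
    have h2 : l = [] := List.length_eq_zero_iff.1 h1.1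
    have h3 := hl l (Finsupp.mem_support_iff.2 h)
    rw [h2, List.headD_nil, mem_bot] at h3
    exact hρ h3
  | succ n ih =>
    intro E R c hE hc hl
    obtain ⟨h0, -⟩ := sum_tl_eq hp hE hc
    have key : ∀ K, tl K c = 0 := by
      intro K
      by_cases hK : tl K c = 0
      · exact hK
      obtain ⟨m, hm⟩ := Finsupp.ne_iff.1 hK
      refine ih K (RH R K) _ (UU_head hp hE hc hm).1 (tl_mem hp hE hc K) fun l hl' => ?_
      by_contra hρl
      have hne1 : tl K c l ≠ 0 := Finsupp.mem_support_iff.1 hl'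
      have hne : c (K :: l) ≠ 0 := hne1
      obtain ⟨h1, h2, h3, h4⟩ := UU_head hp hE hc hne
      have hρK : ρ ∈ K := hl _ (Finsupp.mem_support_iff.2 hne)
      have h5 := DFunLike.congr_fun h0 l
      rw [Finsupp.finsetSum_apply, Finset.sum_eq_single K] at h5
      · exact hne h5
      · intro K' _ hne'
        by_contra hc'
        have hc'' : c (K' :: l) ≠ 0 := hc'
        obtain ⟨h1', h2', h3', h4'⟩ := UU_head hp hE hc hc''
        have hρK' : ρ ∈ K' := hl _ (Finsupp.mem_support_iff.2 hc'')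
        have h6 := inf_eq hp h1 h1' hne' (h4.head_card hp h1) h4.head_le h4'.head_le
        apply hρl
        rw [h6]
        exact ⟨hρK, hρK'⟩
      · intro h
        exact absurd (Finset.mem_univ _) h
    rw [sum_cons_tl (UU_nil hc)]
    exact Finset.sum_eq_zero fun K _ => by rw [key K, map_zero]

end

end

end Vale.Agent.P240.R2.H487
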