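import Vale.Agent.P240.R2.H487.CA

/-!
Surjectivity in the star lemma, dimensions.
-/

namespace Vale.Agent.P240.R2.H487

open Finsupp hiding cons
open Subgroup Vale.Agent.P240.K

universe u v

section
variable {G : Type u} [Group G] [Finite G] {p : ℕ} {𝕜 : Type v} [Field 𝕜]

omit [Finite G] in
lemma zp_commute {E : Subgroup G} {ρ : G} (hc : ∀ x ∈ E, x * ρ = ρ * x) :
    ∀ x ∈ E, ∀ y ∈ zpowers ρ, x * y = y * x := by
  intro x hx y hy
  obtain ⟨k, rfl⟩ := mem_zpowers_iff.1 hy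
  exact (show Commute x ρ from hc x hx).zpow_right k

lemma zp_notMem (hp : p.Prime) {ρ : G} (hρp : ρ ^ p = 1) {H : Subgroup G} (hρ : ρ ∉ H) :
    ∀ y ∈ zpowers ρ, y ∈ H → y = 1 := by
  intro y hy hyH
  by_contra hne
  have : Fact p.Prime := ⟨hp⟩
  have h1 : orderOf ρ = p := orderOf_eq_prime hρp (fun h => hρ (h ▸ one_mem H))
  have h2 : Nat.card (zpowers ρ) = p := by rw [Nat.card_zpowers, h1]
  have h3 : zpowers y = zpowers ρ := by
    refine eq_of_le_of_card_ge (zpowers_le.2 hy) ?_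
    have h4 : Nat.card (zpowers y) ∣ Nat.card (zpowers ρ) := card_dvd_of_le (zpowers_le.2 hy)
    rw [h2] at h4 ⊢
    rcases (Nat.dvd_prime hp).1 h4 with h5 | h5
    · exact absurd (zpowers_eq_bot.1 (eq_bot_of_card_eq _ h5)) hne
    · rw [h5]
  apply hρ
  have h4 : ρ ∈ zpowers y := by rw [h3]; exact mem_zpowers ρ
  exact (zpowers_le.2 hyH) h4

lemma zp_inf (hp : p.Prime) {ρ : G} (hρp : ρ ^ p = 1) {H : Subgroup G} (hρ : ρ ∉ H) :
    H ⊓ zpowers ρ = ⊥ := by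
  rw [eq_bot_iff]
  rintro y ⟨hy, hy'⟩
  exact mem_bot.2 (zp_notMem hp hρp hρ y hy' hy)

lemma mem_of_sup (hp : p.Prime) {ρ : G} (hρp : ρ ^ p = 1) {H K : Subgroup G} (hρ : ρ ∉ H)
    (hc : ∀ x ∈ H, x * ρ = ρ * x) (hK : K ≤ H) {x : G} (hx : x ∈ H) (hx' : x ∈ K ⊔ zpowers ρ) :
    x ∈ K := by
  obtain ⟨k, hk, z, hz, rfl⟩ := mem_sup_comm (fun a ha b hb => zp_commute hc a (hK ha) b hb) hx'
  have h1 : z ∈ H := by
    have := H.mul_mem (H.inv_mem (hK hk)) hx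
    rwa [inv_mul_cancel_left] at this
  rw [zp_notMem hp hρp hρ z hz h1, mul_one]
  exact hk

lemma sup_lt (hp : p.Prime) {ρ : G} (hρp : ρ ^ p = 1) {H K : Subgroup G} (hρ : ρ ∉ H)
    (hc : ∀ x ∈ H, x * ρ = ρ * x) (hK : K < H) : K ⊔ zpowers ρ < H ⊔ zpowers ρ := by
  refine lt_of_le_of_ne (sup_le_sup_right hK.le _) fun h => hK.not_ge fun x hx => ?_
  refine mem_of_sup hp hρp hρ hc hK.le hx ?_
  rw [h]
  exact mem_sup_left hx

/-- the lists of a shuffle product with `[zpowers ρ]` -/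
lemma shL_z (hp : p.Prime) {ρ : G} (hρ1 : ρ ≠ 1) (hρp : ρ ^ p = 1) (l : List (Subgroup G)) :
    ∀ (n : ℕ) (H : Subgroup G), H ≠ ⊥ → ρ ∉ H → (∀ x ∈ H, x * ρ = ρ * x) → Fl H n l →
      shL (𝕜 := 𝕜) l [zpowers ρ] ∈ Sp 𝕜 (fun m => Fl (H ⊔ zpowers ρ) (n + 1) m ∧
        m.headD ⊥ = l.headD ⊥ ⊔ zpowers ρ) := by
  have hz : zpowers ρ ≠ ⊥ := fun h => hρ1 (zpowers_eq_bot.1 h)
  induction l with
  | nil =>
    intro n H hH hρH hc hl
    have h1 : n = 0 := by rw [← hl.1]; rfl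
    subst h1
    rw [shL]
    refine single_mem_Sp ⟨⟨rfl, ?_, ?_⟩, ?_⟩ _
    · rw [List.pairwise_cons]
      refine ⟨fun a ha => ?_, by simp⟩
      rw [List.mem_singleton.1 ha]
      have h2 := sup_lt hp hρp hρH hc (bot_lt_iff_ne_bot.2 hH)
      rwa [bot_sup_eq] at h2
    · intro a ha
      rw [List.mem_singleton.1 ha]
      exact hz
    · rw [List.headD_cons, List.headD_nil, bot_sup_eq]
  | cons a s ih =>
    intro n H hH hρH hc hl
    obtain ⟨n, rfl⟩ : ∃ k, n = k + 1 := ⟨s.length, by rw [← hl.1]; rfl⟩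
    have ha : a ≠ ⊥ := hl.2.2 a (by simp)
    have hρa : ρ ∉ a := fun h => hρH (hl.lt.le h)
    have hca : ∀ x ∈ a, x * ρ = ρ * x := fun x hx => hc x (hl.lt.le hx)
    have h1 := ih n a ha hρa hca hl.tail
    have hlt := sup_lt hp hρp hρH hc hl.lt
    have hne : a ⊔ zpowers ρ ≠ ⊥ := fun h => hz (le_bot_iff.1 (h ▸ le_sup_right))
    have hlt' : a < a ⊔ zpowers ρ := by
      refine lt_of_le_of_ne le_sup_left fun h => hρa ?_
      rw [h]
      exact mem_sup_right (mem_zpowers ρ)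
    have e : shL (𝕜 := 𝕜) (a :: s) [zpowers ρ] = Vale.Agent.P240.K.cons (a ⊔ zpowers ρ)
        (shL s [zpowers ρ] + (-1 : 𝕜) ^ (s.length + 1) • single (a :: s) 1) := by
      rw [shL, shL]
    rw [e]
    refine cons_mem (P := Fl (a ⊔ zpowers ρ) (n + 1)) (fun m hm => ⟨hm.cons hlt hne, rfl⟩) ?_
    exact Submodule.add_mem _ (Sp_mono (fun m hm => hm.1) h1)
        (Submodule.smul_mem _ _ (single_mem_Sp (hl.tail.cons hlt' ha) _))

/-- **Surjectivity.** -/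
theorem star_surj (hp : p.Prime) {E : Subgroup G} {R : Set (Subgroup G)} {n : ℕ}
    (hE : Nat.card E = p ^ (n + 2)) (hEc : ∀ x ∈ E, ∀ y ∈ E, x * y = y * x) {ρ : G} (hρ1 : ρ ≠ 1)
    (hρp : ρ ^ p = 1) (hρE : ρ ∈ E) {H : Subgroup G} (hHR : H ∈ R) (hHE : H ≤ E)
    (hHc : Nat.card H = p ^ (n + 1)) (hρH : ρ ∉ H)
    (hR : ∀ H' ∈ R, H' ≠ H → (H ⊓ H') ⊔ zpowers ρ ∈ R) {d : Ch 𝕜 (Subgroup G)}
    (hd : d ∈ UU 𝕜 H (RH R H) n) :
    ∃ c ∈ UU 𝕜 E R (n + 1), tl H c = d ∧ ∀ K, K ≠ H → ρ ∉ K → tl K c = 0 := by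
  have : Fact p.Prime := ⟨hp⟩
  have hc : ∀ x ∈ H, x * ρ = ρ * x := fun x hx => hEc x (hHE hx) ρ hρE
  have hHb : H ≠ ⊥ := by
    rintro rfl
    rw [Subgroup.card_bot] at hHc
    exact absurd hHc.symm (Nat.one_lt_pow (by omega) hp.one_lt).ne'
  have hEH : H ⊔ zpowers ρ = E := by
    refine eq_of_le_of_card_ge (sup_le hHE (zpowers_le.2 hρE)) ?_
    rw [r5_card hc (zp_inf hp hρp hρH) hρ1 hρp, hHc, hE, ← pow_succ]
  have hlt : H < E := lt_of_le_of_ne hHE fun h => hρH (h ▸ hρE)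
  rw [mem_UU] at hd
  have hs : sh d (single [zpowers ρ] (1 : 𝕜)) ∈ Sp 𝕜 (fun m => (Fl E (n + 1) m ∧ m.headD ⊥ ∈ R) ∧
      ρ ∈ (m.headD ⊥ : Subgroup G)) := by
    have h1 : d ∈ Sp 𝕜 (fun l => Fl H n l ∧ l.headD ⊥ ∈ RH R H) := mem_Sp.2 hd.1
    refine map_mem ((sh (𝕜 := 𝕜) (α := Subgroup G)).flip (single [zpowers ρ] 1))
      (fun l hl => ?_) h1
    rw [LinearMap.flip_apply, sh_single]
    refine Sp_mono (fun m hm => ?_) (shL_z hp hρ1 hρp l n H hHb hρH hc hl.1)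
    rw [hEH] at hm
    obtain ⟨H', hH', hne, h2⟩ := hl.2
    refine ⟨⟨hm.1, ?_⟩, ?_⟩
    · rw [hm.2, h2]
      exact hR H' hH' hne
    · rw [hm.2]
      exact mem_sup_right (mem_zpowers ρ)
  have hb : bd (sh d (single [zpowers ρ] (1 : 𝕜))) = (-1 : 𝕜) ^ n • d := by
    rw [bd_sh, hd.2, map_zero, LinearMap.zero_apply, zero_add, bd_single_cons, bd_single_nil,
      map_zero, sub_zero, sh_nil_right]
    have h1 : d ∈ Sp 𝕜 (fun l : List (Subgroup G) => l.length = n) :=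
      mem_Sp.2 fun l hl => (hd.1 l hl).1.1
    exact eq_of_Sp (F := sg) (G := (-1 : 𝕜) ^ n • LinearMap.id) (fun l hl => by
      rw [sg_single, hl]
      rfl) h1
  have hcd : Vale.Agent.P240.K.cons H d ∈ Sp 𝕜 (fun m => Fl E (n + 1) m ∧ m.headD ⊥ ∈ R) :=
    cons_mem (P := Fl H n) (fun l hl => ⟨hl.cons hlt hHb, by rw [List.headD_cons]; exact hHR⟩)
      (mem_Sp.2 fun l hl => (hd.1 l hl).1)
  have htl : ∀ K : Subgroup G, ρ ∉ K → tl K (sh d (single [zpowers ρ] (1 : 𝕜))) = 0 := by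
    intro K hK
    ext l
    rw [tl_apply, Finsupp.zero_apply]
    by_contra h
    have h1 := (mem_Sp.1 hs _ (Finsupp.mem_support_iff.2 h)).2
    rw [List.headD_cons] at h1
    exact hK h1
  refine ⟨Vale.Agent.P240.K.cons H d - (-1 : 𝕜) ^ n • sh d (single [zpowers ρ] (1 : 𝕜)),
    mem_UU.2 ⟨?_, ?_⟩, ?_, ?_⟩
  · refine mem_Sp.1 (Submodule.sub_mem _ hcd (Submodule.smul_mem _ _ ?_))
    exact Sp_mono (fun m hm => hm.1) hs
  · rw [map_sub, map_smul, hb, bd_cons, hd.2, map_zero, sub_zero, smul_smul, ← pow_add, ← two_mul,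
      pow_mul, neg_one_sq, one_pow, one_smul, sub_self]
  · rw [map_sub, map_smul, htl H hρH, smul_zero, sub_zero, tl_cons]
  · intro K hK hρK
    rw [map_sub, map_smul, htl K hρK, smul_zero, sub_zero, tl_cons_ne hK]

/-- the tails at the members of `R` that do not contain `ρ` -/
noncomputable def TL (hp : p.Prime) {E : Subgroup G} (R : Set (Subgroup G)) (n : ℕ)
    (hE : Nat.card E = p ^ (n + 2)) (T : Set (Subgroup G)) :
    UU 𝕜 E R (n + 1) →ₗ[𝕜] (∀ K : T, UU 𝕜 (K : Subgroup G) (RH R K) n) :=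
  LinearMap.pi fun K => LinearMap.codRestrict _ ((tl (K : Subgroup G)).comp (Submodule.subtype _))
    fun c => tl_mem hp hE c.2 K

lemma TL_apply (hp : p.Prime) {E : Subgroup G} (R : Set (Subgroup G)) (n : ℕ)
    (hE : Nat.card E = p ^ (n + 2)) (T : Set (Subgroup G)) (c : UU 𝕜 E R (n + 1)) (K : T) :
    ((TL hp R n hE T c K : UU 𝕜 (K : Subgroup G) (RH R K) n) : Ch 𝕜 (Subgroup G)) =
      tl (K : Subgroup G) c.1 := rfl

lemma TL_inj (hp : p.Prime) {E : Subgroup G} (R : Set (Subgroup G)) (n : ℕ)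
    (hE : Nat.card E = p ^ (n + 2)) {ρ : G} (hρ1 : ρ ≠ 1) {T : Set (Subgroup G)}
    (hT : ∀ K ∈ R, ρ ∉ K → K ∈ T) :
    Function.Injective (TL (𝕜 := 𝕜) hp R n hE T) := by
  intro c c' hc
  apply Subtype.ext
  rw [← sub_eq_zero]
  have hm : c.1 - c'.1 ∈ UU 𝕜 E R (n + 1) := Submodule.sub_mem _ c.2 c'.2
  refine star_inj hp hρ1 (n + 1) E R _ hE hm fun l hl => ?_
  by_contra hρ
  have h1 := (mem_UU.1 hm).1 l hl
  obtain ⟨K, l', rfl⟩ := h1.1.ne_nil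
  rw [List.headD_cons] at hρ h1
  have h2 := congrArg Subtype.val (congrFun hc ⟨K, hT K h1.2 hρ⟩)
  rw [TL_apply, TL_apply, ← sub_eq_zero, ← map_sub] at h2
  have h3 := DFunLike.congr_fun h2 l'
  exact Finsupp.mem_support_iff.1 hl h3

/-- **Upper bound.** -/
theorem finrank_le (hp : p.Prime) {E : Subgroup G} {R : Set (Subgroup G)} {n : ℕ}
    (hE : Nat.card E = p ^ (n + 2)) {ρ : G} (hρ1 : ρ ≠ 1) (T : Finset (Subgroup G))
    (hT : ∀ K ∈ R, ρ ∉ K → K ∈ T) :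
    Module.finrank 𝕜 (UU 𝕜 E R (n + 1)) ≤
      ∑ K ∈ T, Module.finrank 𝕜 (UU 𝕜 K (RH R K) n) := by
  have h1 := LinearMap.finrank_le_finrank_of_injective
    (TL_inj (𝕜 := 𝕜) hp R n hE hρ1 (T := (T : Set (Subgroup G))) hT)
  rw [Module.finrank_pi_fintype] at h1
  refine h1.trans (le_of_eq ?_)
  exact Finset.sum_coe_sort T fun K => Module.finrank 𝕜 (UU 𝕜 K (RH R K) n)

/-- **Lower bound.** -/
theorem le_finrank (hp : p.Prime) {E : Subgroup G} {R : Set (Subgroup G)} {n : ℕ}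
    (hE : Nat.card E = p ^ (n + 2)) (hEc : ∀ x ∈ E, ∀ y ∈ E, x * y = y * x) {ρ : G} (hρ1 : ρ ≠ 1)
    (hρp : ρ ^ p = 1) (hρE : ρ ∈ E) (T : Finset (Subgroup G))
    (hT : ∀ H ∈ T, H ∈ R ∧ H ≤ E ∧ Nat.card H = p ^ (n + 1) ∧ ρ ∉ H ∧
      ∀ H' ∈ R, H' ≠ H → (H ⊓ H') ⊔ zpowers ρ ∈ R) :
    ∑ K ∈ T, Module.finrank 𝕜 (UU 𝕜 K (RH R K) n) ≤ Module.finrank 𝕜 (UU 𝕜 E R (n + 1)) := by
  classical
  have hsurj : Function.Surjective (TL (𝕜 := 𝕜) hp R n hE (T : Set (Subgroup G))) := by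
    rw [← LinearMap.range_eq_top, eq_top_iff]
    intro f _
    have h1 : f = ∑ K : (T : Set (Subgroup G)), Pi.single K (f K) := (Finset.univ_sum_single f).symm
    rw [h1]
    refine Submodule.sum_mem _ fun K _ => ?_
    obtain ⟨hR, hle, hc, hρ, hst⟩ := hT K K.2
    obtain ⟨c, hc, h2, h3⟩ := star_surj hp hE hEc hρ1 hρp hρE hR hle hc hρ hst (f K).2
    refine ⟨⟨c, hc⟩, ?_⟩
    ext K' : 2
    rw [TL_apply]
    by_cases hK : K' = K
    · subst hK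
      rw [Pi.single_eq_same]
      exact h2
    · rw [Pi.single_eq_of_ne hK]
      exact h3 K' (fun h => hK (Subtype.ext h)) (hT K' K'.2).2.2.2.1
  have h1 := LinearMap.finrank_le_finrank_of_surjective hsurj
  rw [Module.finrank_pi_fintype] at h1
  refine le_trans (le_of_eq ?_) h1
  exact (Finset.sum_coe_sort T fun K => Module.finrank 𝕜 (UU 𝕜 K (RH R K) n)).symm

/-- **Deletion.** -/
theorem finrank_delete (hp : p.Prime) {E : Subgroup G} {R : Set (Subgroup G)} {n : ℕ}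
    (hE : Nat.card E = p ^ (n + 2)) (K : Subgroup G) :
    Module.finrank 𝕜 (UU 𝕜 E R (n + 1)) ≤ Module.finrank 𝕜 (UU 𝕜 E (R \ {K}) (n + 1)) +
      Module.finrank 𝕜 (UU 𝕜 K (RH R K) n) := by
  set f : UU 𝕜 E R (n + 1) →ₗ[𝕜] UU 𝕜 K (RH R K) n :=
    LinearMap.codRestrict _ ((tl K).comp (Submodule.subtype _)) fun c => tl_mem hp hE c.2 K with hf
  have h1 := LinearMap.finrank_range_add_finrank_ker (K := 𝕜) (V := UU 𝕜 E R (n + 1))
    (V₂ := UU 𝕜 K (RH R K) n) f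
  have h2 : Module.finrank 𝕜 (LinearMap.range f) ≤ Module.finrank 𝕜 (UU 𝕜 K (RH R K) n) :=
    Submodule.finrank_le _
  have h3 : Module.finrank 𝕜 (LinearMap.ker f) ≤
      Module.finrank 𝕜 (UU 𝕜 E (R \ {K}) (n + 1)) := by
    have hmem : ∀ c : LinearMap.ker f, (c.1.1 : Ch 𝕜 (Subgroup G)) ∈ UU 𝕜 E (R \ {K}) (n + 1) := by
      intro c
      have hc := mem_UU.1 c.1.2
      refine mem_UU.2 ⟨fun l hl => ⟨(hc.1 l hl).1, (hc.1 l hl).2, fun hK => ?_⟩, hc.2⟩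
      obtain ⟨K', l', rfl⟩ := (hc.1 l hl).1.ne_nil
      rw [List.headD_cons] at hK
      have hK' : K' = K := hK
      subst hK'
      have h4 : f c.1 = 0 := LinearMap.mem_ker.1 c.2
      have h5 : tl K' c.1.1 = 0 := congrArg Subtype.val h4
      have h6 := DFunLike.congr_fun h5 l'
      exact Finsupp.mem_support_iff.1 hl h6
    refine LinearMap.finrank_le_finrank_of_injective
      (f := LinearMap.codRestrict (UU 𝕜 E (R \ {K}) (n + 1))
        ((Submodule.subtype _).comp (Submodule.subtype _)) hmem) ?_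
    intro c c' h
    have h5 : (c.1.1 : Ch 𝕜 (Subgroup G)) = c'.1.1 := congrArg (fun x => x.1) h
    exact Subtype.ext (Subtype.ext h5)
  omega

omit [Finite G] in
/-- the case of order `p` -/
lemma finrank_zero {E : Subgroup G} {R : Set (Subgroup G)} (hR : (⊥ : Subgroup G) ∈ R) :
    Module.finrank 𝕜 (UU 𝕜 E R 0) = 1 := by
  refine (finrank_eq_one_iff_of_nonzero' (V := UU 𝕜 E R 0)
    ⟨single [] 1, mem_UU.2 ⟨fun l hl => ?_, ?_⟩⟩ ?_).2 fun c => ?_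
  · have h1 : l = [] := by
      have := Finsupp.support_single_subset hl
      rwa [Finset.mem_singleton] at this
    subst h1
    exact ⟨⟨rfl, by simp, by simp⟩, hR⟩
  · rw [bd_single_nil]
  · intro h
    have h1 := DFunLike.congr_fun (congrArg Subtype.val h) ([] : List (Subgroup G))
    simp at h1
  · refine ⟨c.1 [], ?_⟩
    apply Subtype.ext
    ext l
    change (c.1 [] • single ([] : List (Subgroup G)) (1 : 𝕜)) l = c.1 l
    by_cases hl : l = []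
    · subst hl
      simp
    · rw [Finsupp.smul_apply, Finsupp.single_eq_of_ne hl, smul_zero]
      by_contra h
      have h1 := ((mem_UU.1 c.2).1 l (Finsupp.mem_support_iff.2 (Ne.symm h))).1.1
      exact hl (List.length_eq_zero_iff.1 h1)

lemma finrank_zero_le {E : Subgroup G} {R : Set (Subgroup G)} :
    Module.finrank 𝕜 (UU 𝕜 E R 0) ≤ 1 := by
  have h1 := Submodule.finrank_mono (UU_mono (𝕜 := 𝕜) (E := E) (Set.subset_univ R) 0)
  rwa [finrank_zero (Set.mem_univ _)] at h1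

end

end Vale.Agent.P240.R2.H487
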