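import Vale.Agent.P240.R2.H487.CB

/-!
Arrangements of maximal subgroups of an elementary abelian `2`-group given by functionals.
-/

set_option linter.all false

namespace Vale.Agent.P240.R2.H487

open Finsupp hiding cons
open Subgroup Vale.Agent.P240.K

universe u v

section
variable {G : Type u} [Group G]

/-- `χ` is additive on `E` -/
def IsAdd (E : Subgroup G) (χ : G → ZMod 2) : Prop := ∀ x ∈ E, ∀ y ∈ E, χ (x * y) = χ x + χ y

lemma IsAdd.one {E : Subgroup G} {χ : G → ZMod 2} (h : IsAdd E χ) : χ 1 = 0 := by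
  have h1 := h 1 (one_mem E) 1 (one_mem E)
  rw [mul_one] at h1
  exact left_eq_add.1 h1

lemma IsAdd.mono {E H : Subgroup G} {χ : G → ZMod 2} (h : IsAdd E χ) (hle : H ≤ E) : IsAdd H χ :=
  fun x hx y hy => h x (hle hx) y (hle hy)

lemma IsAdd.add {E : Subgroup G} {χ χ' : G → ZMod 2} (h : IsAdd E χ) (h' : IsAdd E χ') :
    IsAdd E (χ + χ') := by
  intro x hx y hy
  simp only [Pi.add_apply]
  rw [h x hx y hy, h' x hx y hy]
  ring

lemma IsAdd.smul {E : Subgroup G} {χ : G → ZMod 2} (h : IsAdd E χ) (t : ZMod 2) :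
    IsAdd E (t • χ) := by
  intro x hx y hy
  simp only [Pi.smul_apply, smul_eq_mul]
  rw [h x hx y hy]
  ring

lemma zmod2_self (a : ZMod 2) : a + a = 0 := CharTwo.add_self_eq_zero a

lemma zmod2_cases (a : ZMod 2) : a = 0 ∨ a = 1 := by
  revert a
  decide

lemma IsAdd.inv {E : Subgroup G} {χ : G → ZMod 2} (h : IsAdd E χ) {x : G} (hx : x ∈ E) :
    χ x⁻¹ = χ x := by
  have h1 := h x⁻¹ (inv_mem hx) x hx
  rw [inv_mul_cancel, h.one] at h1
  have h2 : χ x⁻¹ = χ x⁻¹ + χ x + χ x := by rw [add_assoc, zmod2_self, add_zero]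
  rw [h2, ← h1, zero_add]

/-- the kernel of a functional -/
def kr (E : Subgroup G) (χ : G → ZMod 2) : Subgroup G := closure {x | x ∈ E ∧ χ x = 0}

lemma mem_kr {E : Subgroup G} {χ : G → ZMod 2} (h : IsAdd E χ) {x : G} :
    x ∈ kr E χ ↔ x ∈ E ∧ χ x = 0 := by
  constructor
  · intro hx
    refine closure_induction (p := fun x _ => x ∈ E ∧ χ x = 0) (fun x hx => hx)
      ⟨one_mem E, h.one⟩ (fun x y _ _ hx hy => ⟨mul_mem hx.1 hy.1, ?_⟩)
      (fun x _ hx => ⟨inv_mem hx.1, ?_⟩) hx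
    · rw [h x hx.1 y hy.1, hx.2, hy.2, add_zero]
    · rw [h.inv hx.1, hx.2]
  · intro hx
    exact subset_closure hx

lemma kr_le {E : Subgroup G} {χ : G → ZMod 2} : kr E χ ≤ E :=
  (closure_le E).2 fun _ hx => hx.1

lemma kr_kr {E : Subgroup G} {χ χ' : G → ZMod 2} (h : IsAdd E χ) (h' : IsAdd E χ') :
    kr (kr E χ) χ' = kr E χ ⊓ kr E χ' := by
  ext x
  rw [mem_kr (h'.mono kr_le), mem_inf, mem_kr h, mem_kr h']
  tauto

lemma kr_inf_congr {E : Subgroup G} {χ χ' χ'' : G → ZMod 2} (h : IsAdd E χ) (h' : IsAdd E χ')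
    (h'' : IsAdd E χ'') (he : ∀ x ∈ E, χ x = 0 → χ' x = χ'' x) :
    kr E χ ⊓ kr E χ' = kr E χ ⊓ kr E χ'' := by
  ext x
  rw [mem_inf, mem_inf, mem_kr h, mem_kr h', mem_kr h'']
  constructor
  · rintro ⟨⟨h1, h2⟩, -, h3⟩
    exact ⟨⟨h1, h2⟩, h1, by rw [← he x h1 h2, h3]⟩
  · rintro ⟨⟨h1, h2⟩, -, h3⟩
    exact ⟨⟨h1, h2⟩, h1, by rw [he x h1 h2, h3]⟩

/-- the join with `ρ` -/
lemma star_eq {E : Subgroup G} {φ φ' : G → ZMod 2} (h : IsAdd E φ) (h' : IsAdd E φ') {ρ : G}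
    (hρ : ρ ∈ E) (h1 : φ ρ = 1) (h0 : φ' ρ = 0) : (kr E φ ⊓ kr E φ') ⊔ zpowers ρ = kr E φ' := by
  refine le_antisymm (sup_le inf_le_right (zpowers_le.2 ((mem_kr h').2 ⟨hρ, h0⟩))) fun x hx => ?_
  rw [mem_kr h'] at hx
  rcases zmod2_cases (φ x) with h2 | h2
  · exact mem_sup_left ⟨(mem_kr h).2 ⟨hx.1, h2⟩, (mem_kr h').2 hx⟩
  · have h3 : x * ρ ∈ kr E φ ⊓ kr E φ' := by
      refine ⟨(mem_kr h).2 ⟨mul_mem hx.1 hρ, ?_⟩, (mem_kr h').2 ⟨mul_mem hx.1 hρ, ?_⟩⟩
      · rw [h x hx.1 ρ hρ, h1, h2]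
        decide
      · rw [h' x hx.1 ρ hρ, h0, hx.2, add_zero]
    have h4 : x = x * ρ * ρ⁻¹ := by group
    rw [h4]
    exact mul_mem (mem_sup_left h3) (mem_sup_right (inv_mem (mem_zpowers ρ)))

variable {ι : Type*} [DecidableEq ι]

/-- the functionals `χ i`, `i ∈ s`, and `ψ` form coordinates of `E`; here `T` is the set of values of
`ψ` -/
structure Bas (E : Subgroup G) (s : Finset ι) (T : Finset (ZMod 2)) (χ : ι → G → ZMod 2)
    (ψ : G → ZMod 2) : Prop where
  hT : T = {0} ∨ T = Finset.univ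
  comm : ∀ x ∈ E, ∀ y ∈ E, x * y = y * x
  sq : ∀ x ∈ E, x ^ 2 = 1
  add : ∀ i ∈ s, IsAdd E (χ i)
  addψ : IsAdd E ψ
  val : ∀ x ∈ E, ψ x ∈ T
  sur : ∀ a : ι → ZMod 2, ∀ b ∈ T, ∃ x ∈ E, (∀ i ∈ s, χ i x = a i) ∧ ψ x = b
  inj : ∀ x ∈ E, (∀ i ∈ s, χ i x = 0) → ψ x = 0 → x = 1

namespace Bas
variable {E : Subgroup G} {s : Finset ι} {T : Finset (ZMod 2)} {χ : ι → G → ZMod 2}
  {ψ : G → ZMod 2}

lemma zero_mem (h : Bas E s T χ ψ) : (0 : ZMod 2) ∈ T := by
  rcases h.hT with h | h <;> rw [h] <;> decide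

lemma add_mem (h : Bas E s T χ ψ) {a b : ZMod 2} (ha : a ∈ T) (hb : b ∈ T) : a + b ∈ T := by
  rcases h.hT with h | h <;> rw [h] at ha hb ⊢
  · rw [Finset.mem_singleton] at *
    rw [ha, hb, add_zero]
  · exact Finset.mem_univ _

lemma mul_mem' (h : Bas E s T χ ψ) {a b : ZMod 2} (ha : a ∈ T) (hb : b ∈ T) : a * b ∈ T := by
  rcases h.hT with h | h <;> rw [h] at ha hb ⊢
  · rw [Finset.mem_singleton] at *
    rw [ha, zero_mul]
  · exact Finset.mem_univ _

/-- the cardinality -/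
lemma card (h : Bas E s T χ ψ) : Nat.card E = T.card * 2 ^ s.card := by
  have e : Function.Bijective (fun x : E => ((fun i : s => χ i x), (⟨ψ x, h.val x x.2⟩ : T))) := by
    constructor
    · intro x y hxy
      have h1 : ∀ i ∈ s, χ i x = χ i y := fun i hi => congrFun (congrArg Prod.fst hxy) ⟨i, hi⟩
      have h2 : ψ x = ψ y := congrArg (fun z => (z.2 : ZMod 2)) hxy
      have h3 : (x : G) * (y : G)⁻¹ = 1 := by
        refine h.inj _ (mul_mem x.2 (inv_mem y.2)) (fun i hi => ?_) ?_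
        · rw [h.add i hi _ x.2 _ (inv_mem y.2), (h.add i hi).inv y.2, h1 i hi, zmod2_self]
        · rw [h.addψ _ x.2 _ (inv_mem y.2), h.addψ.inv y.2, h2, zmod2_self]
      exact Subtype.ext (mul_inv_eq_one.1 h3)
    · rintro ⟨a, b⟩
      obtain ⟨x, hx, h1, h2⟩ := h.sur (fun i => if hi : i ∈ s then a ⟨i, hi⟩ else 0) b b.2
      refine ⟨⟨x, hx⟩, ?_⟩
      refine Prod.ext ?_ (Subtype.ext h2)
      ext i
      change χ i x = a i
      rw [h1 i i.2, dif_pos i.2]
  rw [Nat.card_eq_of_bijective _ e, Nat.card_prod, Nat.card_pi]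
  simp [mul_comm]

/-- the functional `χ i + t ψ` -/
lemma add1 (h : Bas E s T χ ψ) {i : ι} (hi : i ∈ s) (t : ZMod 2) : IsAdd E (χ i + t • ψ) :=
  (h.add i hi).add (h.addψ.smul t)

lemma add2 (h : Bas E s T χ ψ) {i j : ι} (hi : i ∈ s) (hj : j ∈ s) (t : ZMod 2) :
    IsAdd E (χ i + χ j + t • ψ) :=
  ((h.add i hi).add (h.add j hj)).add (h.addψ.smul t)

/-- restriction to the kernel of a functional that involves `χ i` -/
lemma restrict (h : Bas E s T χ ψ) {i : ι} (hi : i ∈ s) {φ : G → ZMod 2} (hφ : IsAdd E φ)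
    (hφT : ∀ a : ι → ZMod 2, ∀ b ∈ T, ∃ c : ZMod 2, ∀ x ∈ E, (∀ j ∈ s, j ≠ i → χ j x = a j) →
      ψ x = b → (φ x = 0 ↔ χ i x = c))
    (hφ0 : ∀ x ∈ E, (∀ j ∈ s, j ≠ i → χ j x = 0) → ψ x = 0 → φ x = 0 → χ i x = 0) :
    Bas (kr E φ) (s.erase i) T χ ψ where
  hT := h.hT
  comm := fun x hx y hy => h.comm x (kr_le hx) y (kr_le hy)
  sq := fun x hx => h.sq x (kr_le hx)
  add := fun j hj => (h.add j (Finset.mem_of_mem_erase hj)).mono kr_le
  addψ := h.addψ.mono kr_le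
  val := fun x hx => h.val x (kr_le hx)
  sur := by
    intro a b hb
    obtain ⟨c, hc⟩ := hφT a b hb
    obtain ⟨x, hx, h1, h2⟩ := h.sur (fun j => if j = i then c else a j) b hb
    have h3 : ∀ j ∈ s, j ≠ i → χ j x = a j := by
      intro j hj hji
      rw [h1 j hj, if_neg hji]
    have h4 : χ i x = c := by
      rw [h1 i hi, if_pos rfl]
    refine ⟨x, (mem_kr hφ).2 ⟨hx, (hc x hx h3 h2).2 h4⟩, fun j hj => ?_, h2⟩
    rw [Finset.mem_erase] at hj
    exact h3 j hj.2 hj.1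
  inj := by
    intro x hx h1 h2
    rw [mem_kr hφ] at hx
    refine h.inj x hx.1 (fun j hj => ?_) h2
    by_cases hji : j = i
    · rw [hji]
      exact hφ0 x hx.1 (fun k hk hki => h1 k (Finset.mem_erase.2 ⟨hki, hk⟩)) h2 hx.2
    · exact h1 j (Finset.mem_erase.2 ⟨hji, hj⟩)

lemma zadd_eq_zero {a b : ZMod 2} : a + b = 0 ↔ a = b := by
  revert a b
  decide

lemma restrict1 (h : Bas E s T χ ψ) {i : ι} (hi : i ∈ s) (t : ZMod 2) :
    Bas (kr E (χ i + t • ψ)) (s.erase i) T χ ψ := by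
  refine h.restrict hi (h.add1 hi t) (fun a b _ => ⟨t * b, fun x _ _ hb => ?_⟩)
    fun x _ _ hb hx => ?_
  · simp only [Pi.add_apply, Pi.smul_apply, smul_eq_mul]
    rw [hb]
    exact zadd_eq_zero
  · simp only [Pi.add_apply, Pi.smul_apply, smul_eq_mul] at hx
    rw [hb, mul_zero, add_zero] at hx
    exact hx

lemma restrict2 (h : Bas E s T χ ψ) {i j : ι} (hi : i ∈ s) (hj : j ∈ s) (hij : i ≠ j)
    (t : ZMod 2) : Bas (kr E (χ i + χ j + t • ψ)) (s.erase j) T χ ψ := by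
  refine h.restrict hj (h.add2 hi hj t) (fun a b _ => ⟨a i + t * b, fun x _ ha hb => ?_⟩)
    fun x _ ha hb hx => ?_
  · simp only [Pi.add_apply, Pi.smul_apply, smul_eq_mul]
    rw [hb, ha i hi hij]
    have : a i + χ j x + t * b = χ j x + (a i + t * b) := by ring
    rw [this]
    exact zadd_eq_zero
  · simp only [Pi.add_apply, Pi.smul_apply, smul_eq_mul] at hx
    rw [hb, mul_zero, add_zero, ha i hi hij, zero_add] at hx
    exact hx

/-- restriction to the kernel of `ψ` -/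
lemma restrict3 (h : Bas E s Finset.univ χ ψ) : Bas (kr E ψ) s {0} χ ψ where
  hT := Or.inl rfl
  comm := fun x hx y hy => h.comm x (kr_le hx) y (kr_le hy)
  sq := fun x hx => h.sq x (kr_le hx)
  add := fun j hj => (h.add j hj).mono kr_le
  addψ := h.addψ.mono kr_le
  val := fun x hx => by
    rw [mem_kr h.addψ] at hx
    rw [Finset.mem_singleton]
    exact hx.2
  sur := by
    intro a b hb
    obtain ⟨x, hx, h1, h2⟩ := h.sur a b (Finset.mem_univ _)
    rw [Finset.mem_singleton] at hb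
    exact ⟨x, (mem_kr h.addψ).2 ⟨hx, by rw [h2, hb]⟩, h1, h2⟩
  inj := fun x hx h1 h2 => h.inj x (kr_le hx) h1 h2

end Bas

/-- the arrangement -/
def Ar (E : Subgroup G) (s : Finset ι) (T : Finset (ZMod 2)) (χ : ι → G → ZMod 2)
    (ψ : G → ZMod 2) : Set (Subgroup G) :=
  {H | (∃ i ∈ s, ∃ t ∈ T, H = kr E (χ i + t • ψ)) ∨
    (∃ i ∈ s, ∃ j ∈ s, i ≠ j ∧ ∃ t ∈ T, H = kr E (χ i + χ j + t • ψ)) ∨
      (T = Finset.univ ∧ H = kr E ψ)}

section
variable {E : Subgroup G} {s : Finset ι} {T : Finset (ZMod 2)} {χ : ι → G → ZMod 2}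
  {ψ : G → ZMod 2}

lemma one_mem_T (h : Bas E s T χ ψ) {t t' : ZMod 2} (ht : t ∈ T) (ht' : t' ∈ T) (hne : t ≠ t') :
    T = Finset.univ := by
  rcases h.hT with h | h
  · rw [h, Finset.mem_singleton] at ht ht'
    exact absurd (ht.trans ht'.symm) hne
  · exact h

lemma zmod2_ne {t t' : ZMod 2} (h : t ≠ t') : t + t' = 1 := by
  revert t t'
  decide

/-- the arrangement induced on the kernel of `χ i + t ψ` -/
lemma contract1 (h : Bas E s T χ ψ) {i : ι} (hi : i ∈ s) {t : ZMod 2} (ht : t ∈ T) :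
    RH (Ar E s T χ ψ) (kr E (χ i + t • ψ)) ⊆ Ar (kr E (χ i + t • ψ)) (s.erase i) T χ ψ := by
  have hφ := h.add1 hi t
  -- values on the kernel
  have hv : ∀ x ∈ E, (χ i + t • ψ) x = 0 → χ i x = t * ψ x := by
    intro x _ hx
    simp only [Pi.add_apply, Pi.smul_apply, smul_eq_mul] at hx
    exact Bas.zadd_eq_zero.1 hx
  rintro N ⟨K', hK', hne, rfl⟩
  rcases hK' with ⟨j, hj, t', ht', rfl⟩ | ⟨j, hj, k, hk, hjk, t', ht', rfl⟩ | ⟨hT, rfl⟩
  · by_cases hji : j = i
    · subst hji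
      have htt : t' ≠ t := fun h0 => hne (by rw [h0])
      refine Or.inr (Or.inr ⟨one_mem_T h ht' ht htt, ?_⟩)
      rw [kr_kr hφ h.addψ]
      refine kr_inf_congr hφ (h.add1 hj t') h.addψ fun x hx hx0 => ?_
      simp only [Pi.add_apply, Pi.smul_apply, smul_eq_mul]
      rw [hv x hx hx0, ← add_mul, add_comm, zmod2_ne htt, one_mul]
    · refine Or.inl ⟨j, Finset.mem_erase.2 ⟨hji, hj⟩, t', ht', ?_⟩
      rw [kr_kr hφ (h.add1 hj t')]
  · by_cases hji : j = i
    · subst hji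
      refine Or.inl ⟨k, Finset.mem_erase.2 ⟨Ne.symm hjk, hk⟩, t + t', h.add_mem ht ht', ?_⟩
      rw [kr_kr hφ (h.add1 hk _)]
      refine kr_inf_congr hφ (h.add2 hj hk t') (h.add1 hk _) fun x hx hx0 => ?_
      simp only [Pi.add_apply, Pi.smul_apply, smul_eq_mul]
      rw [hv x hx hx0]
      ring
    · by_cases hki : k = i
      · subst hki
        refine Or.inl ⟨j, Finset.mem_erase.2 ⟨hjk, hj⟩, t + t', h.add_mem ht ht', ?_⟩
        rw [kr_kr hφ (h.add1 hj _)]
        refine kr_inf_congr hφ (h.add2 hj hk t') (h.add1 hj _) fun x hx hx0 => ?_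
        simp only [Pi.add_apply, Pi.smul_apply, smul_eq_mul]
        rw [hv x hx hx0]
        ring
      · refine Or.inr (Or.inl ⟨j, Finset.mem_erase.2 ⟨hji, hj⟩, k, Finset.mem_erase.2 ⟨hki, hk⟩,
          hjk, t', ht', ?_⟩)
        rw [kr_kr hφ (h.add2 hj hk t')]
  · refine Or.inr (Or.inr ⟨hT, ?_⟩)
    rw [kr_kr hφ h.addψ]

/-- the arrangement induced on the kernel of `χ i + χ j + t ψ` -/
lemma contract2 (h : Bas E s T χ ψ) {i j : ι} (hi : i ∈ s) (hj : j ∈ s) (hij : i ≠ j)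
    {t : ZMod 2} (ht : t ∈ T) :
    RH (Ar E s T χ ψ) (kr E (χ i + χ j + t • ψ)) ⊆
      Ar (kr E (χ i + χ j + t • ψ)) (s.erase j) T χ ψ := by
  have hφ := h.add2 hi hj t
  have hv : ∀ x ∈ E, (χ i + χ j + t • ψ) x = 0 → χ j x = χ i x + t * ψ x := by
    intro x _ hx
    simp only [Pi.add_apply, Pi.smul_apply, smul_eq_mul] at hx
    have h1 : χ i x + t * ψ x + χ j x = 0 := by rw [← hx]; ring
    exact (Bas.zadd_eq_zero.1 h1).symm
  have hi' : i ∈ s.erase j := Finset.mem_erase.2 ⟨hij, hi⟩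
  rintro N ⟨K', hK', hne, rfl⟩
  rcases hK' with ⟨k, hk, t', ht', rfl⟩ | ⟨k, hk, l, hl, hkl, t', ht', rfl⟩ | ⟨hT, rfl⟩
  · by_cases hkj : k = j
    · subst hkj
      refine Or.inl ⟨i, hi', t + t', h.add_mem ht ht', ?_⟩
      rw [kr_kr hφ (h.add1 hi _)]
      refine kr_inf_congr hφ (h.add1 hk t') (h.add1 hi _) fun x hx hx0 => ?_
      simp only [Pi.add_apply, Pi.smul_apply, smul_eq_mul]
      rw [hv x hx hx0]
      ring
    · refine Or.inl ⟨k, Finset.mem_erase.2 ⟨hkj, hk⟩, t', ht', ?_⟩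
      rw [kr_kr hφ (h.add1 hk t')]
  · -- the functional `χ k + χ l + t' ψ` with one index `j`
    have key : ∀ m ∈ s, m ≠ j → kr E (χ j + χ m + t' • ψ) ≠ kr E (χ i + χ j + t • ψ) →
        kr E (χ i + χ j + t • ψ) ⊓ kr E (χ j + χ m + t' • ψ) ∈
          Ar (kr E (χ i + χ j + t • ψ)) (s.erase j) T χ ψ := by
      intro m hm hmj hne'
      by_cases hmi : m = i
      · subst hmi
        have htt : t' ≠ t := by
          intro h0
          apply hne'
          rw [h0, add_comm (χ j) (χ m)]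
        refine Or.inr (Or.inr ⟨one_mem_T h ht' ht htt, ?_⟩)
        rw [kr_kr hφ h.addψ]
        refine kr_inf_congr hφ (h.add2 hj hm t') h.addψ fun x hx hx0 => ?_
        simp only [Pi.add_apply, Pi.smul_apply, smul_eq_mul]
        rw [hv x hx hx0]
        have e : χ m x + t * ψ x + χ m x + t' * ψ x = (χ m x + χ m x) + (t' + t) * ψ x := by ring
        rw [e, zmod2_self, zmod2_ne htt, zero_add, one_mul]
      · refine Or.inr (Or.inl ⟨i, hi', m, Finset.mem_erase.2 ⟨hmj, hm⟩, Ne.symm hmi, t + t',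
          h.add_mem ht ht', ?_⟩)
        rw [kr_kr hφ (h.add2 hi hm _)]
        refine kr_inf_congr hφ (h.add2 hj hm t') (h.add2 hi hm _) fun x hx hx0 => ?_
        simp only [Pi.add_apply, Pi.smul_apply, smul_eq_mul]
        rw [hv x hx hx0]
        ring
    by_cases hkj : k = j
    · subst hkj
      exact key l hl (Ne.symm hkl) hne
    · by_cases hlj : l = j
      · subst hlj
        rw [add_comm (χ k) (χ l)] at hne ⊢
        exact key k hk hkl hne
      · refine Or.inr (Or.inl ⟨k, Finset.mem_erase.2 ⟨hkj, hk⟩, l, Finset.mem_erase.2 ⟨hlj, hl⟩,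
          hkl, t', ht', ?_⟩)
        rw [kr_kr hφ (h.add2 hk hl t')]
  · refine Or.inr (Or.inr ⟨hT, ?_⟩)
    rw [kr_kr hφ h.addψ]

/-- the arrangement induced on the kernel of `ψ` -/
lemma contract3 (h : Bas E s Finset.univ χ ψ) :
    RH (Ar E s Finset.univ χ ψ) (kr E ψ) ⊆ Ar (kr E ψ) s {0} χ ψ := by
  have hφ := h.addψ
  rintro N ⟨K', hK', hne, rfl⟩
  rcases hK' with ⟨k, hk, t', ht', rfl⟩ | ⟨k, hk, l, hl, hkl, t', ht', rfl⟩ | ⟨hT, rfl⟩
  · refine Or.inl ⟨k, hk, 0, Finset.mem_singleton_self _, ?_⟩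
    rw [kr_kr hφ (h.add1 hk 0)]
    refine kr_inf_congr hφ (h.add1 hk t') (h.add1 hk 0) fun x hx hx0 => ?_
    simp only [Pi.add_apply, Pi.smul_apply, smul_eq_mul]
    rw [hx0, mul_zero, mul_zero]
  · refine Or.inr (Or.inl ⟨k, hk, l, hl, hkl, 0, Finset.mem_singleton_self _, ?_⟩)
    rw [kr_kr hφ (h.add2 hk hl 0)]
    refine kr_inf_congr hφ (h.add2 hk hl t') (h.add2 hk hl 0) fun x hx hx0 => ?_
    simp only [Pi.add_apply, Pi.smul_apply, smul_eq_mul]
    rw [hx0, mul_zero, mul_zero]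
  · exact absurd rfl hne

/-- the induced arrangement is everything -/
lemma contract1_ge (h : Bas E s T χ ψ) {i : ι} (hi : i ∈ s) {t : ZMod 2} (ht : t ∈ T) :
    Ar (kr E (χ i + t • ψ)) (s.erase i) T χ ψ ⊆ RH (Ar E s T χ ψ) (kr E (χ i + t • ψ)) := by
  have hφ := h.add1 hi t
  obtain ⟨x, hx, hx1, hx2⟩ := h.sur (fun j => if j = i then 1 else 0) 0 h.zero_mem
  have hxi : χ i x = 1 := by rw [hx1 i hi, if_pos rfl]
  have hxj : ∀ j ∈ s, j ≠ i → χ j x = 0 := fun j hj hji => by rw [hx1 j hj, if_neg hji]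
  have hnot : x ∉ kr E (χ i + t • ψ) := by
    rw [mem_kr hφ]
    rintro ⟨-, h0⟩
    simp only [Pi.add_apply, Pi.smul_apply, smul_eq_mul] at h0
    rw [hxi, hx2, mul_zero, add_zero] at h0
    exact one_ne_zero h0
  have key : ∀ φ' : G → ZMod 2, IsAdd E φ' → φ' x = 0 → kr E φ' ≠ kr E (χ i + t • ψ) := by
    intro φ' hφ' h0 he
    apply hnot
    rw [← he, mem_kr hφ']
    exact ⟨hx, h0⟩
  rintro N (⟨j, hj, t', ht', rfl⟩ | ⟨j, hj, k, hk, hjk, t', ht', rfl⟩ | ⟨hT, rfl⟩)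
  · rw [Finset.mem_erase] at hj
    refine ⟨_, Or.inl ⟨j, hj.2, t', ht', rfl⟩, key _ (h.add1 hj.2 t') ?_,
      kr_kr hφ (h.add1 hj.2 t')⟩
    simp only [Pi.add_apply, Pi.smul_apply, smul_eq_mul]
    rw [hxj j hj.2 hj.1, hx2, mul_zero, add_zero]
  · rw [Finset.mem_erase] at hj hk
    refine ⟨_, Or.inr (Or.inl ⟨j, hj.2, k, hk.2, hjk, t', ht', rfl⟩),
      key _ (h.add2 hj.2 hk.2 t') ?_, kr_kr hφ (h.add2 hj.2 hk.2 t')⟩
    simp only [Pi.add_apply, Pi.smul_apply, smul_eq_mul]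
    rw [hxj j hj.2 hj.1, hxj k hk.2 hk.1, hx2, mul_zero, add_zero, add_zero]
  · exact ⟨_, Or.inr (Or.inr ⟨hT, rfl⟩), key _ h.addψ hx2, kr_kr hφ h.addψ⟩

end

/-! ### Dimensions -/

section
variable [Finite G] {𝕜 : Type v} [Field 𝕜] {T : Finset (ZMod 2)} {χ : ι → G → ZMod 2}
  {ψ : G → ZMod 2}

/-- the dimension count for the star -/
lemma ar_card {E : Subgroup G} {s : Finset ι} (h : Bas E s T χ ψ) {n : ℕ}
    (hE : Nat.card E = 2 ^ (n + 2)) {i : ι} (hi : i ∈ s) (t : ZMod 2) :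
    Nat.card (kr E (χ i + t • ψ)) = 2 ^ (n + 1) := by
  have h1 := (h.restrict1 hi t).card
  have h2 := h.card
  rw [hE] at h2
  rw [Finset.card_erase_of_mem hi] at h1
  have h3 : 0 < s.card := Finset.card_pos.2 ⟨i, hi⟩
  obtain ⟨m, hm⟩ : ∃ m, s.card = m + 1 := ⟨s.card - 1, by omega⟩
  rw [hm, pow_succ, pow_succ 2 m, ← mul_assoc] at h2
  rw [h1, hm, Nat.add_sub_cancel]
  exact (Nat.eq_of_mul_eq_mul_right two_pos h2).symm

lemma ar_card2 {E : Subgroup G} {s : Finset ι} (h : Bas E s T χ ψ) {n : ℕ}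
    (hE : Nat.card E = 2 ^ (n + 2)) {i j : ι} (hi : i ∈ s) (hj : j ∈ s) (hij : i ≠ j)
    (t : ZMod 2) : Nat.card (kr E (χ i + χ j + t • ψ)) = 2 ^ (n + 1) := by
  have h1 := (h.restrict2 hi hj hij t).card
  have h2 := h.card
  rw [hE] at h2
  rw [Finset.card_erase_of_mem hj] at h1
  have h3 : 0 < s.card := Finset.card_pos.2 ⟨i, hi⟩
  obtain ⟨m, hm⟩ : ∃ m, s.card = m + 1 := ⟨s.card - 1, by omega⟩
  rw [hm, pow_succ, pow_succ 2 m, ← mul_assoc] at h2
  rw [h1, hm, Nat.add_sub_cancel]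
  exact (Nat.eq_of_mul_eq_mul_right two_pos h2).symm

/-- the element `ρ` -/
lemma exists_rho {E : Subgroup G} {s : Finset ι} (h : Bas E s T χ ψ) {n : ℕ}
    (hE : Nat.card E = 2 ^ (n + 2)) :
    ∃ ρ ∈ E, (∀ i ∈ s, χ i ρ = 1) ∧ ψ ρ = 0 ∧ ρ ≠ 1 ∧ s.Nonempty := by
  obtain ⟨ρ, hρ, h1, h2⟩ := h.sur (fun _ => 1) 0 h.zero_mem
  have hs : s.Nonempty := by
    by_contra hcon
    rw [Finset.not_nonempty_iff_eq_empty] at hcon
    have h3 := h.card
    rw [hE, hcon, Finset.card_empty, pow_zero, mul_one] at h3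
    have h4 : T.card ≤ 2 := by
      have := Finset.card_le_univ T
      rwa [ZMod.card] at this
    have h5 : 4 ≤ 2 ^ (n + 2) := by
      have := Nat.pow_le_pow_right (n := 2) two_pos (show 2 ≤ n + 2 by omega)
      simpa using this
    omega
  refine ⟨ρ, hρ, h1, h2, ?_, hs⟩
  rintro rfl
  obtain ⟨i, hi⟩ := hs
  have h3 := h1 i hi
  rw [(h.add i hi).one] at h3
  exact zero_ne_one h3

lemma bot_of_card_two {E : Subgroup G} (hE : Nat.card E = 2) {φ : G → ZMod 2} (hφ : IsAdd E φ)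
    {x : G} (hx : x ∈ E) (h1 : φ x ≠ 0) : kr E φ = ⊥ := by
  refine eq_bot_of_card_eq _ ?_
  have h2 : Nat.card (kr E φ) ∣ 2 := hE ▸ card_dvd_of_le kr_le
  rcases (Nat.dvd_prime Nat.prime_two).1 h2 with h3 | h3
  · exact h3
  · have h4 : kr E φ = E := eq_of_le_of_card_ge kr_le (by rw [h3, hE])
    rw [← h4, mem_kr hφ] at hx
    exact absurd hx.2 h1

/-- **Lower bound for the dimension.** -/
theorem ar_lower (n : ℕ) : ∀ (s : Finset ι) (E : Subgroup G), Bas E s T χ ψ →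
    Nat.card E = 2 ^ (n + 1) →
      T.card ^ s.card * s.card.factorial ≤ Module.finrank 𝕜 (UU 𝕜 E (Ar E s T χ ψ) n) := by
  classical
  induction n with
  | zero =>
    intro s E h hE
    have h1 := h.card
    have hbot : (⊥ : Subgroup G) ∈ Ar E s T χ ψ := by
      rcases s.eq_empty_or_nonempty with hs | ⟨i, hi⟩
      · have hT : T = Finset.univ := by
          rcases h.hT with h0 | h0
          · rw [hE, hs, h0] at h1
            simp at h1
          · exact h0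
        obtain ⟨x, hx, -, hx2⟩ := h.sur (fun _ => 0) 1 (by rw [hT]; exact Finset.mem_univ _)
        refine Or.inr (Or.inr ⟨hT, ?_⟩)
        refine (bot_of_card_two (by rw [hE]; norm_num) h.addψ hx ?_).symm
        rw [hx2]
        exact one_ne_zero
      · obtain ⟨x, hx, hx1, hx2⟩ := h.sur (fun _ => 1) 0 h.zero_mem
        refine Or.inl ⟨i, hi, 0, h.zero_mem, ?_⟩
        refine (bot_of_card_two (by rw [hE]; norm_num) (h.add1 hi 0) hx ?_).symm
        simp only [Pi.add_apply, Pi.smul_apply, smul_eq_mul]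
        rw [hx1 i hi, zero_mul, add_zero]
        exact one_ne_zero
    rw [finrank_zero hbot]
    rw [hE, zero_add, pow_one] at h1
    have h2 : s.card ≤ 1 := by
      by_contra hcon
      have h3 : 2 ^ 2 ≤ 2 ^ s.card := Nat.pow_le_pow_right two_pos (by omega)
      have h4 : 0 < T.card := Finset.card_pos.2 ⟨0, h.zero_mem⟩
      have h5 : 1 * 2 ^ 2 ≤ T.card * 2 ^ s.card := Nat.mul_le_mul h4 h3
      omega
    rcases Nat.le_one_iff_eq_zero_or_eq_one.1 h2 with h3 | h3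
    · rw [h3]
      simp
    · rw [h3] at h1 ⊢
      have h4 : T.card = 1 := by omega
      rw [h4]
      simp
  | succ n ih =>
    intro s E h hE
    obtain ⟨ρ, hρ, hρ1, hρ2, hρne, hs⟩ := exists_rho h hE
    have hval : ∀ i ∈ s, ∀ t : ZMod 2, (χ i + t • ψ) ρ = 1 := by
      intro i hi t
      simp only [Pi.add_apply, Pi.smul_apply, smul_eq_mul]
      rw [hρ1 i hi, hρ2, mul_zero, add_zero]
    set P : Finset (Subgroup G) := (s ×ˢ T).image fun z => kr E (χ z.1 + z.2 • ψ) with hP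
    have hmem : ∀ H ∈ P, ∃ i ∈ s, ∃ t ∈ T, H = kr E (χ i + t • ψ) := by
      intro H hH
      rw [hP, Finset.mem_image] at hH
      obtain ⟨⟨i, t⟩, hz, rfl⟩ := hH
      rw [Finset.mem_product] at hz
      exact ⟨i, hz.1, t, hz.2, rfl⟩
    have hlow := le_finrank (𝕜 := 𝕜) Nat.prime_two hE h.comm hρne (h.sq ρ hρ) hρ
      (R := Ar E s T χ ψ) P (fun H hH => by
        obtain ⟨i, hi, t, ht, rfl⟩ := hmem H hH
        have hφ := h.add1 hi t
        refine ⟨Or.inl ⟨i, hi, t, ht, rfl⟩, kr_le, ar_card h hE hi t, ?_, ?_⟩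
        · rw [mem_kr hφ, hval i hi t]
          exact fun h0 => one_ne_zero h0.2
        · intro H' hH' hne
          rcases hH' with ⟨j, hj, t', ht', rfl⟩ | ⟨j, hj, k, hk, hjk, t', ht', rfl⟩ | ⟨hT, rfl⟩
          · by_cases hji : j = i
            · subst hji
              have htt : t' ≠ t := fun h0 => hne (by rw [h0])
              rw [kr_inf_congr hφ (h.add1 hj t') h.addψ fun x hx hx0 => ?_,
                star_eq hφ h.addψ hρ (hval j hj t) hρ2]
              · exact Or.inr (Or.inr ⟨one_mem_T h ht' ht htt, rfl⟩)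
              · simp only [Pi.add_apply, Pi.smul_apply, smul_eq_mul] at hx0 ⊢
                rw [Bas.zadd_eq_zero.1 hx0, ← add_mul, add_comm, zmod2_ne htt, one_mul]
            · rw [kr_inf_congr hφ (h.add1 hj t') (h.add2 hi hj (t + t')) fun x hx hx0 => ?_,
                star_eq hφ (h.add2 hi hj (t + t')) hρ (hval i hi t) ?_]
              · exact Or.inr (Or.inl ⟨i, hi, j, hj, Ne.symm hji, t + t', h.add_mem ht ht', rfl⟩)
              · simp only [Pi.add_apply, Pi.smul_apply, smul_eq_mul]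
                rw [hρ1 i hi, hρ1 j hj, hρ2, mul_zero, add_zero]
                decide
              · simp only [Pi.add_apply, Pi.smul_apply, smul_eq_mul] at hx0 ⊢
                rw [Bas.zadd_eq_zero.1 hx0]
                have e : t * ψ x + χ j x + (t + t') * ψ x =
                  (t * ψ x + t * ψ x) + (χ j x + t' * ψ x) := by ring
                rw [e, zmod2_self, zero_add]
          · rw [star_eq hφ (h.add2 hj hk t') hρ (hval i hi t) ?_]
            · exact Or.inr (Or.inl ⟨j, hj, k, hk, hjk, t', ht', rfl⟩)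
            · simp only [Pi.add_apply, Pi.smul_apply, smul_eq_mul]
              rw [hρ1 j hj, hρ1 k hk, hρ2, mul_zero, add_zero]
              decide
          · rw [star_eq hφ h.addψ hρ (hval i hi t) hρ2]
            exact Or.inr (Or.inr ⟨hT, rfl⟩))
    refine le_trans ?_ hlow
    have hterm : ∀ K ∈ P, T.card ^ (s.card - 1) * (s.card - 1).factorial ≤
        Module.finrank 𝕜 (UU 𝕜 K (RH (Ar E s T χ ψ) K) n) := by
      intro K hK
      obtain ⟨i, hi, t, ht, rfl⟩ := hmem K hK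
      have h1 := ih (s.erase i) _ (h.restrict1 hi t) (ar_card h hE hi t)
      rw [Finset.card_erase_of_mem hi] at h1
      exact h1.trans (Submodule.finrank_mono (UU_mono (contract1_ge h hi ht) n))
    have hPc : P.card = s.card * T.card := by
      rw [hP, Finset.card_image_of_injOn, Finset.card_product]
      rintro ⟨i, t⟩ hz ⟨j, t'⟩ hz' he
      rw [Finset.mem_coe, Finset.mem_product] at hz hz'
      change kr E (χ i + t • ψ) = kr E (χ j + t' • ψ) at he
      have hz1 : i ∈ s := hz.1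
      have hz2 : j ∈ s := hz'.1
      have hij : i = j := by
        by_contra hij
        obtain ⟨x, hx, hx1, hx2⟩ := h.sur (fun k => if k = i then 1 else 0) 0 h.zero_mem
        have h3 : x ∈ kr E (χ j + t' • ψ) := by
          rw [mem_kr (h.add1 hz2 t')]
          refine ⟨hx, ?_⟩
          simp only [Pi.add_apply, Pi.smul_apply, smul_eq_mul]
          rw [hx1 j hz2, if_neg (Ne.symm hij), hx2, mul_zero, add_zero]
        rw [← he, mem_kr (h.add1 hz1 t)] at h3
        have h4 := h3.2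
        simp only [Pi.add_apply, Pi.smul_apply, smul_eq_mul] at h4
        rw [hx1 i hz1, if_pos rfl, hx2, mul_zero, add_zero] at h4
        exact one_ne_zero h4
      subst hij
      have htt : t = t' := by
        by_contra htt
        have hT := one_mem_T h hz.2 hz'.2 htt
        obtain ⟨x, hx, hx1, hx2⟩ := h.sur (fun _ => t) 1 (by rw [hT]; exact Finset.mem_univ _)
        have h3 : x ∈ kr E (χ i + t • ψ) := by
          rw [mem_kr (h.add1 hz1 t)]
          refine ⟨hx, ?_⟩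
          simp only [Pi.add_apply, Pi.smul_apply, smul_eq_mul]
          rw [hx1 i hz1, hx2, mul_one, zmod2_self]
        rw [he, mem_kr (h.add1 hz1 t')] at h3
        have h4 := h3.2
        simp only [Pi.add_apply, Pi.smul_apply, smul_eq_mul] at h4
        rw [hx1 i hz1, hx2, mul_one] at h4
        exact htt (Bas.zadd_eq_zero.1 h4)
      rw [htt]
    have h5 : T.card ^ s.card * s.card.factorial =
        P.card * (T.card ^ (s.card - 1) * (s.card - 1).factorial) := by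
      rw [hPc]
      obtain ⟨m, hm⟩ : ∃ m, s.card = m + 1 := ⟨s.card - 1, by
        have := Finset.card_pos.2 hs
        omega⟩
      rw [hm, Nat.add_sub_cancel, Nat.factorial_succ, pow_succ]
      ring
    rw [h5, ← smul_eq_mul]
    exact Finset.card_nsmul_le_sum P _ _ hterm

/-- **Upper bound for the dimension.** -/
theorem ar_upper (n : ℕ) : ∀ (s : Finset ι) (E : Subgroup G), Bas E s T χ ψ →
    Nat.card E = 2 ^ (n + 1) →
      Module.finrank 𝕜 (UU 𝕜 E (Ar E s T χ ψ) n) ≤ T.card ^ s.card * s.card.factorial := by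
  classical
  induction n with
  | zero =>
    intro s E h hE
    refine finrank_zero_le.trans ?_
    have h4 : 0 < T.card := Finset.card_pos.2 ⟨0, h.zero_mem⟩
    exact Nat.mul_pos (pow_pos h4 _) (Nat.factorial_pos _)
  | succ n ih =>
    intro s E h hE
    obtain ⟨ρ, hρ, hρ1, hρ2, hρne, hs⟩ := exists_rho h hE
    set P : Finset (Subgroup G) := (s ×ˢ T).image fun z => kr E (χ z.1 + z.2 • ψ) with hP
    have hmem : ∀ H ∈ P, ∃ i ∈ s, ∃ t ∈ T, H = kr E (χ i + t • ψ) := by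
      intro H hH
      rw [hP, Finset.mem_image] at hH
      obtain ⟨⟨i, t⟩, hz, rfl⟩ := hH
      rw [Finset.mem_product] at hz
      exact ⟨i, hz.1, t, hz.2, rfl⟩
    have hup := finrank_le (𝕜 := 𝕜) Nat.prime_two hE hρne (R := Ar E s T χ ψ) P (fun K hK hρK => by
      rcases hK with ⟨j, hj, t', ht', rfl⟩ | ⟨j, hj, k, hk, hjk, t', ht', rfl⟩ | ⟨hT, rfl⟩
      · rw [hP, Finset.mem_image]
        exact ⟨⟨j, t'⟩, Finset.mem_product.2 ⟨hj, ht'⟩, rfl⟩
      · exfalso
        apply hρK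
        rw [mem_kr (h.add2 hj hk t')]
        refine ⟨hρ, ?_⟩
        simp only [Pi.add_apply, Pi.smul_apply, smul_eq_mul]
        rw [hρ1 j hj, hρ1 k hk, hρ2, mul_zero, add_zero]
        decide
      · exfalso
        apply hρK
        rw [mem_kr h.addψ]
        exact ⟨hρ, hρ2⟩)
    refine hup.trans ?_
    have hterm : ∀ K ∈ P, Module.finrank 𝕜 (UU 𝕜 K (RH (Ar E s T χ ψ) K) n) ≤
        T.card ^ (s.card - 1) * (s.card - 1).factorial := by
      intro K hK
      obtain ⟨i, hi, t, ht, rfl⟩ := hmem K hK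
      have h1 := ih (s.erase i) _ (h.restrict1 hi t) (ar_card h hE hi t)
      rw [Finset.card_erase_of_mem hi] at h1
      exact (Submodule.finrank_mono (UU_mono (contract1 h hi ht) n)).trans h1
    refine (Finset.sum_le_card_nsmul P _ _ hterm).trans ?_
    have hPc : P.card ≤ s.card * T.card := by
      rw [← Finset.card_product]
      exact Finset.card_image_le
    rw [smul_eq_mul]
    refine (Nat.mul_le_mul_right _ hPc).trans (le_of_eq ?_)
    obtain ⟨m, hm⟩ : ∃ m, s.card = m + 1 := ⟨s.card - 1, by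
      have := Finset.card_pos.2 hs
      omega⟩
    rw [hm, Nat.add_sub_cancel, Nat.factorial_succ, pow_succ]
    ring

/-- the dimension on the members of the arrangement -/
theorem ar_contract {n : ℕ} {s : Finset ι} {E : Subgroup G} (h : Bas E s T χ ψ)
    (hE : Nat.card E = 2 ^ (n + 2)) {R : Set (Subgroup G)} (hR : R ⊆ Ar E s T χ ψ) {K : Subgroup G}
    (hK : K ∈ Ar E s T χ ψ) (hKψ : K ≠ kr E ψ ∨ T ≠ Finset.univ) :
    Module.finrank 𝕜 (UU 𝕜 K (RH R K) n) ≤ T.card ^ (s.card - 1) * (s.card - 1).factorial := by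
  have h0 : RH R K ⊆ RH (Ar E s T χ ψ) K := by
    rintro N ⟨K', hK', h1⟩
    exact ⟨K', hR hK', h1⟩
  refine (Submodule.finrank_mono (UU_mono h0 n)).trans ?_
  rcases hK with ⟨i, hi, t, ht, rfl⟩ | ⟨i, hi, j, hj, hij, t, ht, rfl⟩ | ⟨hT, rfl⟩
  · have h1 := ar_upper (𝕜 := 𝕜) n (s.erase i) _ (h.restrict1 hi t) (ar_card h hE hi t)
    rw [Finset.card_erase_of_mem hi] at h1
    exact (Submodule.finrank_mono (UU_mono (contract1 h hi ht) n)).trans h1
  · have h1 := ar_upper (𝕜 := 𝕜) n (s.erase j) _ (h.restrict2 hi hj hij t)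
      (ar_card2 h hE hi hj hij t)
    rw [Finset.card_erase_of_mem hj] at h1
    exact (Submodule.finrank_mono (UU_mono (contract2 h hi hj hij ht) n)).trans h1
  · rcases hKψ with h1 | h1
    · exact absurd rfl h1
    · exact absurd hT h1

/-- the arrangement without the kernel of `ψ` -/
theorem dr_lower {n : ℕ} {s : Finset ι} {E : Subgroup G} (h : Bas E s Finset.univ χ ψ)
    (hE : Nat.card E = 2 ^ (n + 2)) :
    2 ^ s.card * s.card.factorial ≤ Module.finrank 𝕜
      (UU 𝕜 E (Ar E s Finset.univ χ ψ \ {kr E ψ}) (n + 1)) + s.card.factorial := by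
  have h1 := ar_lower (𝕜 := 𝕜) (n + 1) s E h hE
  have h2 := finrank_delete (𝕜 := 𝕜) (R := Ar E s Finset.univ χ ψ) Nat.prime_two hE (kr E ψ)
  have hc : Nat.card (kr E ψ) = 2 ^ (n + 1) := by
    have h3 := h.restrict3.card
    have h4 := h.card
    rw [hE, Finset.card_univ, ZMod.card, pow_succ, mul_comm] at h4
    rw [h3, Finset.card_singleton, one_mul]
    exact (Nat.eq_of_mul_eq_mul_left two_pos h4).symm
  have h3 := ar_upper (𝕜 := 𝕜) n s _ h.restrict3 hc
  have h4 := (Submodule.finrank_mono (UU_mono (𝕜 := 𝕜) (contract3 h) n)).trans h3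
  rw [Finset.card_univ, ZMod.card] at h1
  rw [Finset.card_singleton, one_pow, one_mul] at h4
  omega

end

end

end Vale.Agent.P240.R2.H487
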