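import Vale.Agent.P240.R2.H487.CC

/-!
The count lemma: many conjugates of an elementary abelian group give a top cycle.
-/

set_option linter.all false

namespace Vale.Agent.P240.R2.H487

open Finsupp hiding cons
open Subgroup Vale.Agent.P240.K

universe u v

section
variable {G : Type u} [Group G]

/-- conjugation by `y` -/
def cj (y : G) : Subgroup G ≃o Subgroup G := (MulAut.conj y).mapSubgroup

lemma mem_cj {y x : G} {E : Subgroup G} : x ∈ cj y E ↔ y⁻¹ * x * y ∈ E := by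
  change x ∈ E.map (MulAut.conj y).toMonoidHom ↔ _
  rw [Subgroup.mem_map]
  constructor
  · rintro ⟨z, hz, rfl⟩
    have e : y⁻¹ * ((MulAut.conj y).toMonoidHom z) * y = z := by
      change y⁻¹ * (y * z * y⁻¹) * y = z
      group
    rw [e]
    exact hz
  · intro hx
    refine ⟨_, hx, ?_⟩
    change y * (y⁻¹ * x * y) * y⁻¹ = x
    group

lemma cj_mul (y z : G) (E : Subgroup G) : cj (y * z) E = cj y (cj z E) := by
  ext x
  rw [mem_cj, mem_cj, mem_cj]
  have e : (y * z)⁻¹ * x * (y * z) = z⁻¹ * (y⁻¹ * x * y) * z := by group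
  rw [e]

lemma cj_one (E : Subgroup G) : cj 1 E = E := by
  ext x
  rw [mem_cj]
  simp

lemma cj_inv (y : G) (E : Subgroup G) : cj y⁻¹ (cj y E) = E := by
  rw [← cj_mul, inv_mul_cancel, cj_one]

lemma cj_inv' (y : G) (E : Subgroup G) : cj y (cj y⁻¹ E) = E := by
  rw [← cj_mul, mul_inv_cancel, cj_one]

lemma card_cj (y : G) (E : Subgroup G) : Nat.card (cj y E) = Nat.card E :=
  card_map_of_injective (MulAut.conj y).injective

lemma cj_bot (y : G) : cj y (⊥ : Subgroup G) = ⊥ := (cj y).map_bot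

lemma cj_of_le {y : G} {E : Subgroup G} (h : ∀ x ∈ E, y * x = x * y) : cj y E = E := by
  ext x
  rw [mem_cj]
  constructor
  · intro hx
    have h1 := h _ hx
    have h2 : x = y * (y⁻¹ * x * y) * y⁻¹ := by group
    rw [h2, h1, mul_assoc, mul_inv_cancel, mul_one]
    exact hx
  · intro hx
    have h1 := h _ hx
    rw [mul_assoc, ← h1, inv_mul_cancel_left]
    exact hx

lemma Fl.map {E : Subgroup G} {n : ℕ} {l : List (Subgroup G)} (h : Fl E n l) (y : G) :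
    Fl (cj y E) n (l.map (cj y)) := by
  refine ⟨by rw [List.length_map, h.1], ?_, ?_⟩
  · have h1 : (cj y E :: l.map (cj y)) = (E :: l).map (cj y) := rfl
    rw [h1, List.pairwise_map]
    exact h.2.1.imp fun {a b} hab => (cj y).lt_iff_lt.2 hab
  · intro x hx
    obtain ⟨z, hz, rfl⟩ := List.mem_map.1 hx
    intro h0
    have h1 : cj y z = cj y ⊥ := by rw [h0, cj_bot]
    exact h.2.2 z hz ((cj y).injective h1)

lemma headD_map (y : G) (l : List (Subgroup G)) :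
    ((l.map (cj y)).headD ⊥ : Subgroup G) = cj y (l.headD ⊥) := by
  rcases l with _ | ⟨K, l⟩
  · rw [List.map_nil, List.headD_nil, cj_bot]
  · rfl

variable {𝕜 : Type v} [Field 𝕜]

lemma mp_id_of {α : Type*} {f : α → α} (hf : ∀ x, f x = x) (c : Ch 𝕜 α) : mp f c = c := by
  have h1 : f = id := funext hf
  have := lin_ext_apply (f := mp f) (g := (LinearMap.id : Ch 𝕜 α →ₗ[𝕜] Ch 𝕜 α))
    (fun l => by rw [mp_single, h1, List.map_id]; rfl) c
  simpa using this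

lemma UU_map {E : Subgroup G} {R : Set (Subgroup G)} {n : ℕ} {c : Ch 𝕜 (Subgroup G)}
    (hc : c ∈ UU 𝕜 E R n) (y : G) : mp (cj y) c ∈ UU 𝕜 (cj y E) (cj y '' R) n := by
  rw [UU, Submodule.mem_inf, LinearMap.mem_ker] at hc ⊢
  refine ⟨mp_mem (fun l hl => ⟨hl.1.map y, by rw [headD_map]; exact ⟨_, hl.2, rfl⟩⟩) hc.1, ?_⟩
  rw [bd_mp, hc.2, map_zero]

variable [Finite G]

lemma finrank_map_le (E : Subgroup G) (R : Set (Subgroup G)) (n : ℕ) (y : G) :
    Module.finrank 𝕜 (UU 𝕜 E R n) ≤ Module.finrank 𝕜 (UU 𝕜 (cj y E) (cj y '' R) n) := by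
  refine LinearMap.finrank_le_finrank_of_injective
    (f := LinearMap.codRestrict (UU 𝕜 (cj y E) (cj y '' R) n)
      ((mp (cj y)).comp (Submodule.subtype _)) fun c => UU_map c.2 y) ?_
  intro c c' h
  have h1 : mp (cj y) c.1 = mp (cj y) c'.1 := congrArg (fun x => x.1) h
  have h2 : mp (cj y⁻¹) (mp (cj y) c.1) = mp (cj y⁻¹) (mp (cj y) c'.1) := by rw [h1]
  have h3 : ∀ x : Subgroup G, (⇑(cj y⁻¹) ∘ ⇑(cj y)) x = x := fun x => cj_inv y x
  rw [mp_mp, mp_mp, mp_id_of h3, mp_id_of h3] at h2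
  exact Subtype.ext h2

lemma image_cj_inv (y : G) (R : Set (Subgroup G)) : cj y⁻¹ '' (cj y '' R) = R := by
  rw [Set.image_image]
  have : (fun x => cj y⁻¹ (cj y x)) = id := funext fun x => cj_inv y x
  rw [this, Set.image_id]

lemma finrank_map (E : Subgroup G) (R : Set (Subgroup G)) (n : ℕ) (y : G) :
    Module.finrank 𝕜 (UU 𝕜 (cj y E) (cj y '' R) n) = Module.finrank 𝕜 (UU 𝕜 E R n) := by
  refine le_antisymm ?_ (finrank_map_le E R n y)
  have h1 := finrank_map_le (𝕜 := 𝕜) (cj y E) (cj y '' R) n y⁻¹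
  rwa [image_cj_inv, cj_inv] at h1

/-! ### The arrangement on the conjugates -/

omit [Finite G] in
lemma cj_mono {y : G} {E F : Subgroup G} (h : E ≤ F) : cj y E ≤ cj y F := (cj y).monotone h

/-- the arrangements on the conjugates of `E₀` -/
def RR (E₀ : Subgroup G) (R₀ : Set (Subgroup G)) (Y : Subgroup G) (E : Subgroup G) :
    Set (Subgroup G) := {H | ∃ y ∈ Y, E = cj y E₀ ∧ H ∈ cj y '' R₀}

/-- the conjugates of `E` under elements of `Y` centralizing `H` -/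
def orb (Y H E : Subgroup G) : Set (Subgroup G) :=
  {E' | ∃ c ∈ Y, (∀ h ∈ H, c * h = h * c) ∧ E' = cj c E}

section
variable {E₀ : Subgroup G} {R₀ : Set (Subgroup G)} {Y : Subgroup G}

omit [Finite G] in
lemma RR_eq (hinv : ∀ y ∈ Y, cj y E₀ = E₀ → ∀ H ∈ R₀, cj y H ∈ R₀) {y : G} (hy : y ∈ Y) :
    RR E₀ R₀ Y (cj y E₀) = cj y '' R₀ := by
  ext H
  constructor
  · rintro ⟨z, hz, he, H₀, hH₀, rfl⟩
    refine ⟨cj (y⁻¹ * z) H₀, hinv _ (mul_mem (inv_mem hy) hz) ?_ H₀ hH₀, ?_⟩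
    · rw [cj_mul, ← he, cj_inv]
    · rw [cj_mul, cj_inv']
  · intro hH
    exact ⟨y, hy, rfl, hH⟩

omit [Finite G] in
lemma RR_cj {E : Subgroup G} {c : G} (hc : c ∈ Y) :
    RR E₀ R₀ Y (cj c E) = cj c '' RR E₀ R₀ Y E := by
  ext H
  constructor
  · rintro ⟨z, hz, he, H₀, hH₀, rfl⟩
    refine ⟨cj (c⁻¹ * z) H₀, ⟨c⁻¹ * z, mul_mem (inv_mem hc) hz, ?_, H₀, hH₀, rfl⟩, ?_⟩
    · rw [cj_mul, ← he, cj_inv]
    · rw [cj_mul, cj_inv']
  · rintro ⟨_, ⟨z, hz, rfl, H₀, hH₀, rfl⟩, rfl⟩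
    exact ⟨c * z, mul_mem hc hz, (cj_mul c z E₀).symm, H₀, hH₀, cj_mul c z H₀⟩

omit [Finite G] in
lemma RH_cj {R : Set (Subgroup G)} {H : Subgroup G} {c : G} (hc : ∀ h ∈ H, c * h = h * c) :
    RH (cj c '' R) H = RH R H := by
  have h1 : cj c H = H := cj_of_le hc
  have h2 : ∀ K : Subgroup G, H ⊓ cj c K = H ⊓ K := by
    intro K
    have h3 : cj c (H ⊓ K) = H ⊓ K := cj_of_le fun h hh => hc h hh.1
    rw [← h3, (cj c).map_inf, h1]
  ext N
  constructor
  · rintro ⟨_, ⟨K, hK, rfl⟩, hne, rfl⟩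
    refine ⟨K, hK, fun h => hne ?_, h2 K⟩
    rw [h, h1]
  · rintro ⟨K, hK, hne, rfl⟩
    refine ⟨cj c K, ⟨K, hK, rfl⟩, fun h => hne ?_, (h2 K).symm⟩
    rw [← h1] at h
    exact (cj c).injective h

omit [Finite G] in
lemma RH_map (R : Set (Subgroup G)) (H : Subgroup G) (y : G) :
    RH (cj y '' R) (cj y H) = cj y '' RH R H := by
  ext N
  constructor
  · rintro ⟨_, ⟨K, hK, rfl⟩, hne, rfl⟩
    refine ⟨H ⊓ K, ⟨K, hK, fun h => hne (by rw [h]), rfl⟩, (cj y).map_inf _ _⟩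
  · rintro ⟨_, ⟨K, hK, hne, rfl⟩, rfl⟩
    refine ⟨cj y K, ⟨K, hK, rfl⟩, fun h => hne ((cj y).injective h), (cj y).map_inf _ _⟩

omit [Finite G] in
lemma orb_map (H E : Subgroup G) {y : G} (hy : y ∈ Y) :
    orb Y (cj y H) (cj y E) = cj y '' orb Y H E := by
  ext E'
  constructor
  · rintro ⟨c, hc, hch, rfl⟩
    refine ⟨cj (y⁻¹ * c * y) E, ⟨y⁻¹ * c * y, mul_mem (mul_mem (inv_mem hy) hc) hy, fun h hh => ?_,
      rfl⟩, ?_⟩
    · have h1 : y * h * y⁻¹ ∈ cj y H := by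
        rw [mem_cj]
        have : y⁻¹ * (y * h * y⁻¹) * y = h := by group
        rwa [this]
      have h2 := hch _ h1
      calc y⁻¹ * c * y * h = y⁻¹ * (c * (y * h * y⁻¹)) * y := by group
        _ = y⁻¹ * (y * h * y⁻¹ * c) * y := by rw [h2]
        _ = h * (y⁻¹ * c * y) := by group
    · rw [← cj_mul, ← cj_mul]
      congr 1
      group
  · rintro ⟨_, ⟨c, hc, hch, rfl⟩, rfl⟩
    refine ⟨y * c * y⁻¹, mul_mem (mul_mem hy hc) (inv_mem hy), fun h hh => ?_, ?_⟩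
    · rw [mem_cj] at hh
      have h2 := hch _ hh
      calc y * c * y⁻¹ * h = y * (c * (y⁻¹ * h * y)) * y⁻¹ := by group
        _ = y * (y⁻¹ * h * y * c) * y⁻¹ := by rw [h2]
        _ = h * (y * c * y⁻¹) := by group
    · rw [← cj_mul, ← cj_mul]
      congr 1
      group

end

/-- a sum over classes -/
lemma sum_classes {β : Type*} [Fintype β] [DecidableEq β] (P : Finset β) (S : β → Finset β)
    (h1 : ∀ x ∈ P, x ∈ S x) (h2 : ∀ x ∈ P, ∀ z ∈ S x, z ∈ P ∧ S z = S x) :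
    ∑ x ∈ P, (1 / ((S x).card : ℚ)) = (P.image S).card := by
  rw [Finset.sum_comp (fun k : Finset β => 1 / (k.card : ℚ)) S]
  have h3 : ∀ k ∈ P.image S, ({a ∈ P | S a = k} : Finset β).card • (1 / (k.card : ℚ)) = 1 := by
    intro k hk
    obtain ⟨x, hx, rfl⟩ := Finset.mem_image.1 hk
    have h4 : ({a ∈ P | S a = S x} : Finset β) = S x := by
      ext z
      rw [Finset.mem_filter]
      constructor
      · rintro ⟨hz, hzx⟩
        rw [← hzx]
        exact h1 z hz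
      · intro hz
        exact h2 x hx z hz
    rw [h4, nsmul_eq_mul, mul_one_div_cancel]
    have h5 : 0 < (S x).card := Finset.card_pos.2 ⟨x, h1 x hx⟩
    exact_mod_cast h5.ne'
  rw [Finset.sum_congr rfl h3, Finset.sum_const, nsmul_eq_mul, mul_one]

end

end Vale.Agent.P240.R2.H487
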