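import Vale.Agent.P240.R2.H487.CD2

/-!
The join of top cycles in commuting subgroups.
-/

set_option linter.all false

namespace Vale.Agent.P240.R2.H487

open Finsupp hiding cons
open Subgroup Vale.Agent.P240.K

universe u v

section
variable {G : Type u} [Group G] {𝕜 : Type v} [Field 𝕜] {p : ℕ}

lemma sgi_mem {α : Type*} {P : List α → Prop} (r : ℕ) {c : Ch 𝕜 α} (hc : c ∈ Sp 𝕜 P) :
    (⇑(sg (𝕜 := 𝕜) (α := α)))^[r] c ∈ Sp 𝕜 P := by
  induction r with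
  | zero => exact hc
  | succ r ih =>
    rw [Function.iterate_succ_apply']
    exact sg_mem ih

lemma sgi_bd {α : Type*} (r : ℕ) {c : Ch 𝕜 α} (hc : bd c = 0) :
    bd ((⇑(sg (𝕜 := 𝕜) (α := α)))^[r] c) = 0 := by
  induction r with
  | zero => exact hc
  | succ r ih =>
    rw [Function.iterate_succ_apply', bd_sg, ih, map_zero, neg_zero]

lemma topCycle_le {M F : Subgroup G} {α : Ch 𝕜 (Subgroup G)} {φ : List (Subgroup G)}
    (h : TopCycle 𝕜 p M F α φ) : F ≤ M := by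
  have h1 := (mem_Sp.1 h.mem φ (Finsupp.mem_support_iff.2 h.ne)).1
  rcases h.top with ⟨-, h2⟩ | ⟨φ', h2⟩
  · rw [h2]
    exact bot_le
  · exact (h1.2 F (by rw [h2]; simp)).2

/-- **The join lemma.** -/
theorem topCycle_join [hp : Fact p.Prime] [Finite G] {M₁ M₂ F₁ F₂ : Subgroup G}
    {α₁ α₂ : Ch 𝕜 (Subgroup G)} {φ₁ φ₂ : List (Subgroup G)} (h₁ : TopCycle 𝕜 p M₁ F₁ α₁ φ₁)
    (h₂ : TopCycle 𝕜 p M₂ F₂ α₂ φ₂) (hcomm : ∀ x ∈ M₁, ∀ y ∈ M₂, x * y = y * x)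
    (hF : F₁ ⊓ M₂ = ⊥) :
    ∃ (α : Ch 𝕜 (Subgroup G)) (φ : List (Subgroup G)),
      TopCycle 𝕜 p (M₁ ⊔ M₂) (F₁ ⊔ F₂) α φ := by
  have hF₁ := topCycle_le h₁
  have hF₂ := topCycle_le h₂
  have hM₂ : M₂ ≤ centralizer (F₁ : Set G) := by
    intro y hy
    rw [mem_centralizer_iff]
    exact fun x hx => hcomm x (hF₁ hx) y hy
  set b := (⇑(sg (𝕜 := 𝕜) (α := Subgroup G)))^[φ₁.length] α₂ with hb
  have hα₂ : α₂ ∈ Sp 𝕜 (st (Ain p M₂)) := Sp_mono (fun l hl => hl.1) h₂.mem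
  have hcf := cf_sh (𝕜 := 𝕜) hF h₁ (b := α₂) (by rw [inf_eq_left.2 hM₂]; exact hα₂)
  rw [← hb] at hcf
  have hz : sh α₁ b ∈ Sp 𝕜 (wk (Ain p (M₁ ⊔ M₂))) := by
    refine sh_mem (A := Ain p M₁) (B := Ain p M₂) (S := Ain p (M₁ ⊔ M₂))
      (fun E hE => ⟨hE.1, hE.2.trans le_sup_left⟩) (fun E hE => ⟨hE.1, hE.2.trans le_sup_right⟩) ?_
      (Sp_mono (fun l hl => st_wk l hl.1) h₁.mem) (sgi_mem _ (Sp_mono (fun l hl => st_wk l hl) hα₂))
    intro E hE B hB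
    exact ⟨sup_mem_ApS hE.1 hB.1 fun x hx y hy => hcomm x (hE.2 hx) y (hB.2 hy),
      sup_le_sup hE.2 hB.2⟩
  have hinj : Set.InjOn (fun B : Subgroup G => F₁ ⊔ B) {B | B ≤ M₂} := by
    have key : ∀ B ≤ M₂, ∀ B' ≤ M₂, F₁ ⊔ B = F₁ ⊔ B' → B ≤ B' := by
      intro B hB B' hB' he x hx
      have h1 : x ∈ F₁ ⊔ B' := by rw [← he]; exact mem_sup_right hx
      obtain ⟨f, hf, y, hy, rfl⟩ := r3_mem_sup (hB'.trans hM₂) h1
      have h2 : f ∈ F₁ ⊓ M₂ := by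
        refine ⟨hf, ?_⟩
        have h3 := M₂.mul_mem (hB hx) (M₂.inv_mem (hB' hy))
        rwa [mul_inv_cancel_right] at h3
      rw [hF, mem_bot] at h2
      rw [h2, one_mul]
      exact hy
    intro B hB B' hB' he
    exact le_antisymm (key B hB B' hB' he) (key B' hB' B hB he.symm)
  have hcoef : pi (sh α₁ b) (φ₂.map (fun B => F₁ ⊔ B) ++ φ₁) = α₁ φ₁ * α₂ φ₂ := by
    have h1 := DFunLike.congr_fun hcf (φ₂.map (fun B => F₁ ⊔ B))
    rw [cf_apply, Finsupp.smul_apply, smul_eq_mul] at h1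
    rw [h1]
    congr 1
    rw [mp, Finsupp.lmapDomain_apply]
    refine Finsupp.mapDomain_apply' {l | ∀ B ∈ l, B ≤ M₂} α₂ ?_ ?_ ?_
    · intro l hl
      exact fun B hB => ((mem_Sp.1 hα₂ l hl).2 B hB).2
    · intro l hl l' hl' he
      have h2 : ∀ (l l' : List (Subgroup G)), (∀ B ∈ l, B ≤ M₂) → (∀ B ∈ l', B ≤ M₂) →
          l.map (fun B => F₁ ⊔ B) = l'.map (fun B => F₁ ⊔ B) → l = l' := by
        intro l
        induction l with
        | nil =>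
          intro l' _ _ h
          exact (List.map_eq_nil_iff.1 h.symm).symm
        | cons a l ih =>
          intro l' h1 h2 h
          rcases l' with _ | ⟨a', l'⟩
          · simp at h
          · rw [List.map_cons, List.map_cons, List.cons.injEq] at h
            rw [hinj (h1 a (by simp)) (h2 a' (by simp)) h.1,
              ih l' (fun B hB => h1 B (List.mem_cons_of_mem _ hB))
                (fun B hB => h2 B (List.mem_cons_of_mem _ hB)) h.2]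
      exact h2 l l' hl hl' he
    · exact fun B hB => ((mem_Sp.1 hα₂ φ₂ (Finsupp.mem_support_iff.2 h₂.ne)).2 B hB).2
  have hlen : sh α₁ b ∈ Sp 𝕜 (fun l => l.length = φ₁.length + φ₂.length) := by
    have h1 : α₁ ∈ Sp 𝕜 (fun l => l.length = φ₁.length) := Sp_mono (fun l hl => hl.2) h₁.mem
    have h2 : b ∈ Sp 𝕜 (fun l => l.length = φ₂.length) :=
      sgi_mem _ (Sp_mono (fun l hl => hl.2) h₂.mem)
    refine map_mem ((sh (𝕜 := 𝕜) (α := Subgroup G)).flip b) (fun s hs => ?_) h1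
    rw [LinearMap.flip_apply]
    refine map_mem (sh (𝕜 := 𝕜) (single s 1)) (fun t ht => ?_) h2
    rw [sh_single]
    exact r5_shL_len _ s t (by rw [hs, ht])
  have hdisj : F₁ ⊓ F₂ = ⊥ := by
    rw [eq_bot_iff, ← hF]
    exact inf_le_inf_left _ hF₂
  have hφlen : (φ₂.map (fun B => F₁ ⊔ B) ++ φ₁).length = φ₁.length + φ₂.length := by
    rw [List.length_append, List.length_map, add_comm]
  refine ⟨pi (sh α₁ b), φ₂.map (fun B => F₁ ⊔ B) ++ φ₁, ⟨?_, ?_, ?_, ?_, ?_⟩⟩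
  · rw [hφlen]
    exact mem_Sp_inf (pi_mem hz) (pi_mem' hlen)
  · rw [bd_pi hz, bd_sh, h₁.cyc, sgi_bd _ h₂.cyc]
    simp
  · rw [hcoef]
    exact mul_ne_zero h₁.ne h₂.ne
  · rcases h₂.top with ⟨h3, h4⟩ | ⟨φ', h3⟩
    · rw [h3, h4, sup_bot_eq]
      exact h₁.top
    · right
      rw [h3]
      exact ⟨φ'.map (fun B => F₁ ⊔ B) ++ φ₁, rfl⟩
  · have hcc : ∀ x ∈ F₁, ∀ y ∈ F₂, x * y = y * x := fun x hx y hy =>
      hcomm x (hF₁ hx) y (hF₂ hy)
    have hinj2 : Function.Injective (fun g : F₁ × F₂ => (g.1 * g.2 : G)) :=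
      Subgroup.mul_injective_of_disjoint (disjoint_iff.2 hdisj)
    have hbij : Function.Bijective (fun g : F₁ × F₂ =>
        (⟨(g.1 * g.2 : G), mul_mem (mem_sup_left g.1.2) (mem_sup_right g.2.2)⟩ :
          (F₁ ⊔ F₂ : Subgroup G))) := by
      constructor
      · intro g g' h
        exact hinj2 (congrArg Subtype.val h)
      · rintro ⟨x, hx⟩
        obtain ⟨h, hh, b, hb, rfl⟩ := mem_sup_comm hcc hx
        exact ⟨(⟨h, hh⟩, ⟨b, hb⟩), rfl⟩
    rw [← Nat.card_congr (Equiv.ofBijective _ hbij), Nat.card_prod, h₁.card, h₂.card, hφlen,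
      pow_add]

end

end Vale.Agent.P240.R2.H487
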