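import Vale.Agent.P240.R2.H487.CE

/-!
Top cycles from arrangements.
-/

set_option linter.all false

namespace Vale.Agent.P240.R2.H487

open Finsupp hiding cons
open Subgroup Vale.Agent.P240.K

universe u v

section
variable {G : Type u} [Group G] {ι : Type*} [LinearOrder ι]

/-- pairs of elements of `s` -/
def prs (s : Finset ι) : Finset (ι × ι) := (s ×ˢ s).filter fun z => z.1 < z.2

lemma mem_prs {s : Finset ι} {z : ι × ι} : z ∈ prs s ↔ z.1 ∈ s ∧ z.2 ∈ s ∧ z.1 < z.2 := by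
  rw [prs, Finset.mem_filter, Finset.mem_product, and_assoc]

open Classical in
/-- the arrangement as a finite set -/
noncomputable def RF (E : Subgroup G) (s : Finset ι) (T : Finset (ZMod 2)) (χ : ι → G → ZMod 2)
    (ψ : G → ZMod 2) : Finset (Subgroup G) :=
  (s ×ˢ T).image (fun z => kr E (χ z.1 + z.2 • ψ)) ∪
    ((prs s) ×ˢ T).image (fun z => kr E (χ z.1.1 + χ z.1.2 + z.2 • ψ))

variable {E : Subgroup G} {s : Finset ι} {T : Finset (ZMod 2)} {χ : ι → G → ZMod 2}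
  {ψ : G → ZMod 2}

lemma mem_RF {H : Subgroup G} : H ∈ RF E s T χ ψ ↔
    (∃ i ∈ s, ∃ t ∈ T, H = kr E (χ i + t • ψ)) ∨
      ∃ i ∈ s, ∃ j ∈ s, i ≠ j ∧ ∃ t ∈ T, H = kr E (χ i + χ j + t • ψ) := by
  classical
  rw [RF, Finset.mem_union, Finset.mem_image, Finset.mem_image]
  constructor
  · rintro (⟨⟨i, t⟩, h, rfl⟩ | ⟨⟨⟨i, j⟩, t⟩, h, rfl⟩)
    · rw [Finset.mem_product] at h
      exact Or.inl ⟨i, h.1, t, h.2, rfl⟩
    · rw [Finset.mem_product, mem_prs] at h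
      exact Or.inr ⟨i, h.1.1, j, h.1.2.1, h.1.2.2.ne, t, h.2, rfl⟩
  · rintro (⟨i, hi, t, ht, rfl⟩ | ⟨i, hi, j, hj, hij, t, ht, rfl⟩)
    · exact Or.inl ⟨⟨i, t⟩, Finset.mem_product.2 ⟨hi, ht⟩, rfl⟩
    · right
      rcases lt_or_gt_of_ne hij with h | h
      · exact ⟨⟨⟨i, j⟩, t⟩, Finset.mem_product.2 ⟨mem_prs.2 ⟨hi, hj, h⟩, ht⟩, rfl⟩
      · refine ⟨⟨⟨j, i⟩, t⟩, Finset.mem_product.2 ⟨mem_prs.2 ⟨hj, hi, h⟩, ht⟩, ?_⟩
        change kr E (χ j + χ i + t • ψ) = _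
        rw [add_comm (χ j)]

lemma RF_sub : (RF E s T χ ψ : Set (Subgroup G)) ⊆ Ar E s T χ ψ := by
  intro H hH
  rcases mem_RF.1 (Finset.mem_coe.1 hH) with h | h
  · exact Or.inl h
  · exact Or.inr (Or.inl h)

lemma RF_single (h : Bas E s {0} χ ψ) : (RF E s {0} χ ψ : Set (Subgroup G)) = Ar E s {0} χ ψ := by
  refine subset_antisymm RF_sub ?_
  rintro H (h1 | h1 | ⟨h1, -⟩)
  · exact Finset.mem_coe.2 (mem_RF.2 (Or.inl h1))
  · exact Finset.mem_coe.2 (mem_RF.2 (Or.inr h1))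
  · exact absurd h1 (by decide)

lemma kr_ne_psi (h : Bas E s Finset.univ χ ψ) {i : ι} (hi : i ∈ s) {φ : G → ZMod 2}
    (hφ : IsAdd E φ) (hφ1 : ∀ x ∈ E, (∀ j ∈ s, j ≠ i → χ j x = 0) → χ i x = 1 → ψ x = 0 → φ x = 1) :
    kr E φ ≠ kr E ψ := by
  obtain ⟨x, hx, hx1, hx2⟩ := h.sur (fun j => if j = i then 1 else 0) 0 (Finset.mem_univ _)
  intro he
  have h1 : x ∈ kr E φ := by
    rw [he, mem_kr h.addψ]
    exact ⟨hx, hx2⟩
  rw [mem_kr hφ] at h1
  have h2 := hφ1 x hx (fun j hj hji => by rw [hx1 j hj, if_neg hji]) (by rw [hx1 i hi, if_pos rfl])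
    hx2
  rw [h1.2] at h2
  exact zero_ne_one h2

lemma RF_univ (h : Bas E s Finset.univ χ ψ) :
    (RF E s Finset.univ χ ψ : Set (Subgroup G)) = Ar E s Finset.univ χ ψ \ {kr E ψ} := by
  refine subset_antisymm ?_ ?_
  · intro H hH
    refine ⟨RF_sub hH, ?_⟩
    rcases mem_RF.1 (Finset.mem_coe.1 hH) with ⟨i, hi, t, ht, rfl⟩ | ⟨i, hi, j, hj, hij, t, ht, rfl⟩
    · refine kr_ne_psi h hi (h.add1 hi t) fun x hx h1 h2 h3 => ?_
      simp only [Pi.add_apply, Pi.smul_apply, smul_eq_mul]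
      rw [h2, h3, mul_zero, add_zero]
    · refine kr_ne_psi h hi (h.add2 hi hj t) fun x hx h1 h2 h3 => ?_
      simp only [Pi.add_apply, Pi.smul_apply, smul_eq_mul]
      rw [h2, h1 j hj (Ne.symm hij), h3, mul_zero, add_zero, add_zero]
  · rintro H ⟨h1 | h1 | ⟨-, h1⟩, h2⟩
    · exact Finset.mem_coe.2 (mem_RF.2 (Or.inl h1))
    · exact Finset.mem_coe.2 (mem_RF.2 (Or.inr h1))
    · exact absurd h1 h2

lemma sum_prod_le {β γ : Type*} (P : Finset β) (T : Finset γ) (g : β → γ → ℚ) (q : ℚ)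
    (h : ∀ x ∈ P, ∑ t ∈ T, g x t ≤ q) : ∑ z ∈ P ×ˢ T, g z.1 z.2 ≤ P.card * q := by
  rw [Finset.sum_product, ← nsmul_eq_mul]
  exact Finset.sum_le_card_nsmul _ _ _ h

lemma RF_sum (f : Subgroup G → ℚ) (hf : ∀ H, 0 ≤ f H) (q : ℚ)
    (hq1 : ∀ i ∈ s, ∑ t ∈ T, f (kr E (χ i + t • ψ)) ≤ q)
    (hq2 : ∀ i ∈ s, ∀ j ∈ s, i ≠ j → ∑ t ∈ T, f (kr E (χ i + χ j + t • ψ)) ≤ q) :
    ∑ H ∈ RF E s T χ ψ, f H ≤ (s.card + (prs s).card) * q := by
  classical
  have h1 : ∑ x ∈ s ×ˢ T, f (kr E (χ x.1 + x.2 • ψ)) ≤ s.card * q :=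
    sum_prod_le s T (fun i t => f (kr E (χ i + t • ψ))) q hq1
  have h2 : ∑ x ∈ prs s ×ˢ T, f (kr E (χ x.1.1 + χ x.1.2 + x.2 • ψ)) ≤ (prs s).card * q := by
    refine sum_prod_le (prs s) T (fun z t => f (kr E (χ z.1 + χ z.2 + t • ψ))) q fun z hz => ?_
    rw [mem_prs] at hz
    exact hq2 _ hz.1 _ hz.2.1 hz.2.2.ne
  have h3 : ∑ H ∈ RF E s T χ ψ, f H ≤
      ∑ H ∈ (s ×ˢ T).image (fun z => kr E (χ z.1 + z.2 • ψ)), f H +
      ∑ H ∈ ((prs s) ×ˢ T).image (fun z => kr E (χ z.1.1 + χ z.1.2 + z.2 • ψ)), f H := by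
    rw [RF, ← Finset.sum_union_inter]
    exact le_add_of_nonneg_right (Finset.sum_nonneg fun H _ => hf H)
  have h4 : ∑ H ∈ (s ×ˢ T).image (fun z => kr E (χ z.1 + z.2 • ψ)), f H ≤
      ∑ x ∈ s ×ˢ T, f (kr E (χ x.1 + x.2 • ψ)) :=
    Finset.sum_image_le_of_nonneg fun x _ => hf _
  have h5 : ∑ H ∈ ((prs s) ×ˢ T).image (fun z => kr E (χ z.1.1 + χ z.1.2 + z.2 • ψ)), f H ≤
      ∑ x ∈ prs s ×ˢ T, f (kr E (χ x.1.1 + χ x.1.2 + x.2 • ψ)) :=
    Finset.sum_image_le_of_nonneg fun x _ => hf _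
  rw [add_mul]
  linarith

variable [Finite G] {𝕜 : Type v} [Field 𝕜]

/-- **Top cycles from arrangements.** -/
theorem head (h : Bas E s T χ ψ) {n : ℕ} (hE : Nat.card E = 2 ^ (n + 2)) {Y M : Subgroup G}
    (hinv : ∀ y ∈ Y, cj y E = E → ∀ H ∈ RF E s T χ ψ, cj y H ∈ RF E s T χ ψ) (q : ℚ)
    (hq1 : ∀ i ∈ s, ∑ t ∈ T, (1 / ((orb Y (kr E (χ i + t • ψ)) E).ncard : ℚ)) ≤ q)
    (hq2 : ∀ i ∈ s, ∀ j ∈ s, i ≠ j →
      ∑ t ∈ T, (1 / ((orb Y (kr E (χ i + χ j + t • ψ)) E).ncard : ℚ)) ≤ q)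
    (hnum : ((T.card ^ (s.card - 1) * (s.card - 1).factorial : ℕ) : ℚ) *
      ((s.card + (prs s).card) * q) + (((T.card - 1) * s.card.factorial : ℕ) : ℚ) ≤
        ((T.card ^ s.card * s.card.factorial : ℕ) : ℚ))
    (hEM : E ≤ M) (hYM : Y ≤ M) :
    ∃ (α : Ch 𝕜 (Subgroup G)) (φ : List (Subgroup G)), TopCycle 𝕜 2 M E α φ := by
  classical
  have : Fact (Nat.Prime 2) := ⟨Nat.prime_two⟩
  have hEa : E ∈ ApS 2 G := by
    refine ⟨?_, h.comm, h.sq⟩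
    rintro rfl
    rw [Subgroup.card_bot] at hE
    exact absurd hE.symm (Nat.one_lt_pow (by omega) one_lt_two).ne'
  have hlow : ((T.card ^ s.card * s.card.factorial : ℕ) : ℚ) ≤
      Module.finrank 𝕜 (UU 𝕜 E (RF E s T χ ψ : Set (Subgroup G)) (n + 1)) +
        (((T.card - 1) * s.card.factorial : ℕ) : ℚ) := by
    rcases h.hT with hT | hT
    · subst hT
      rw [RF_single h]
      have h1 := ar_lower (𝕜 := 𝕜) (n + 1) s E h hE
      rw [Finset.card_singleton, Nat.sub_self, zero_mul, Nat.cast_zero, add_zero]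
      rw [Finset.card_singleton] at h1
      exact_mod_cast h1
    · subst hT
      rw [RF_univ h]
      have h1 := dr_lower (𝕜 := 𝕜) h hE
      rw [Finset.card_univ, ZMod.card]
      have e : (2 - 1) * s.card.factorial = s.card.factorial := by norm_num
      rw [e]
      exact_mod_cast h1
  have hf : 0 < s.card.factorial := Nat.factorial_pos _
  have hgt : (T.card - 1) * s.card.factorial < T.card ^ s.card * s.card.factorial := by
    refine Nat.mul_lt_mul_of_pos_right ?_ hf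
    rcases h.hT with hT | hT
    · rw [hT, Finset.card_singleton]
      simp
    · rw [hT, Finset.card_univ, ZMod.card]
      have h1 := h.card
      rw [hE, hT, Finset.card_univ, ZMod.card] at h1
      have h2 : s.card ≠ 0 := by
        intro h0
        rw [h0, pow_zero, mul_one] at h1
        have h3 : 2 ^ (n + 2) = 4 * 2 ^ n := by ring
        have h4 : 0 < 2 ^ n := by positivity
        omega
      have h3 : 2 ^ 1 ≤ 2 ^ s.card := Nat.pow_le_pow_right (by norm_num) (by omega)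
      omega
  have hgt' : (((T.card - 1) * s.card.factorial : ℕ) : ℚ) <
      ((T.card ^ s.card * s.card.factorial : ℕ) : ℚ) := by exact_mod_cast hgt
  refine count_lemma hE hEa (RF E s T χ ψ) hinv
    (T.card ^ (s.card - 1) * (s.card - 1).factorial) (fun H hH => ?_) ?_ ?_ hEM hYM
  · refine ar_contract h hE RF_sub (RF_sub (Finset.mem_coe.2 hH)) ?_
    by_cases hT : T = Finset.univ
    · subst hT
      left
      have h1 : H ∈ (RF E s Finset.univ χ ψ : Set (Subgroup G)) := Finset.mem_coe.2 hH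
      rw [RF_univ h] at h1
      exact h1.2
    · exact Or.inr hT
  · have hsum := RF_sum (E := E) (s := s) (T := T) (χ := χ) (ψ := ψ)
      (fun H => 1 / ((orb Y H E).ncard : ℚ)) (fun H => div_nonneg zero_le_one (Nat.cast_nonneg _))
      q hq1 hq2
    have hw : (0 : ℚ) ≤ ((T.card ^ (s.card - 1) * (s.card - 1).factorial : ℕ) : ℚ) :=
      Nat.cast_nonneg _
    have h6 := mul_le_mul_of_nonneg_left hsum hw
    linarith
  · have h7 : (0 : ℚ) < Module.finrank 𝕜 (UU 𝕜 E (RF E s T χ ψ : Set (Subgroup G)) (n + 1)) := by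
      linarith
    exact_mod_cast h7

end

end Vale.Agent.P240.R2.H487
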