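import Vale.Agent.P240.R2.H487.CF

/-!
Blocks: an elementary abelian `2`-group acting on one-dimensional tori.
-/

set_option linter.all false

namespace Vale.Agent.P240.R2.H487

open Finsupp hiding cons
open Subgroup Vale.Agent.P240.K

universe u v

section
variable {G : Type u} [Group G] {ι : Type*} [LinearOrder ι] {F : Type*} [Field F]
  {W : Type*} [AddCommGroup W]

/-- a sign -/
def sgn (c : ZMod 2) : ℤ := if c = 0 then 1 else -1

lemma sgn_zero : sgn 0 = 1 := rfl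

lemma sgn_one : sgn 1 = -1 := rfl

lemma sgn_add (a b : ZMod 2) : sgn (a + b) = sgn a * sgn b := by
  revert a b
  decide

lemma sgn_mul_self (a : ZMod 2) : sgn a * sgn a = 1 := by
  revert a
  decide

/-- the orbit of `E` under a torus -/
theorem orb_count [Finite F] {Y E H : Subgroup G} (tor : Fˣ →* G) (U : Subgroup Fˣ)
    (hE2 : ∀ x ∈ E, x ^ 2 = 1) (h1 : ∀ μ, tor μ = 1 → μ ^ 2 = 1)
    (hY : ∀ μ ∈ U, tor μ ∈ Y) (hc : ∀ μ ∈ U, ∀ h ∈ H, tor μ * h = h * tor μ) {x : G} (hx : x ∈ E)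
    (hxi : ∀ μ ∈ U, x * tor μ * x⁻¹ = (tor μ)⁻¹) [Finite G] :
    Nat.card U ≤ Nat.card {μ : Fˣ // μ ∈ U ∧ μ ^ 8 = 1} * (orb Y H E).ncard := by
  classical
  have : Fintype Fˣ := Fintype.ofFinite _
  set UF : Finset Fˣ := Finset.univ.filter fun μ => μ ∈ U with hUF
  have hUc : Nat.card U = UF.card := by
    rw [hUF, Nat.card_eq_fintype_card, Fintype.card_subtype]
  have hGc : Nat.card {μ : Fˣ // μ ∈ U ∧ μ ^ 8 = 1} =
      (Finset.univ.filter fun μ : Fˣ => μ ∈ U ∧ μ ^ 8 = 1).card := by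
    rw [Nat.card_eq_fintype_card, Fintype.card_subtype]
  rw [hUc, hGc]
  have hfix : ∀ ν ∈ U, cj (tor ν) E = E → ν ^ 8 = 1 := by
    intro ν hν he
    have h2 : tor ν * x * (tor ν)⁻¹ ∈ E := by
      rw [← he, mem_cj]
      have : (tor ν)⁻¹ * (tor ν * x * (tor ν)⁻¹) * tor ν = x := by group
      rw [this]
      exact hx
    have h3 : tor ν * x * (tor ν)⁻¹ = tor (ν ^ 2) * x := by
      have h4 := hxi ν hν
      have h5 : x * (tor ν)⁻¹ = tor ν * x := by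
        have h6 : x * (tor ν)⁻¹ * x⁻¹ = tor ν := by
          calc x * (tor ν)⁻¹ * x⁻¹ = (x * tor ν * x⁻¹)⁻¹ := by group
            _ = tor ν := by rw [h4, inv_inv]
        calc x * (tor ν)⁻¹ = x * (tor ν)⁻¹ * x⁻¹ * x := by group
          _ = _ := by rw [h6]
      rw [mul_assoc, h5, ← mul_assoc, ← map_mul, pow_two]
    rw [h3] at h2
    have h4 : tor (ν ^ 2) ∈ E := by
      have := E.mul_mem h2 (E.inv_mem hx)
      rwa [mul_inv_cancel_right] at this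
    have h5 := hE2 _ h4
    rw [← map_pow, ← pow_mul] at h5
    have h6 := h1 _ h5
    rw [← pow_mul] at h6
    exact h6
  have himg : (UF.image fun μ => cj (tor μ) E).card ≤ (orb Y H E).ncard := by
    rw [← Set.ncard_coe_finset]
    refine Set.ncard_le_ncard ?_ (Set.toFinite _)
    intro E' hE'
    rw [Finset.coe_image] at hE'
    obtain ⟨μ, hμ, rfl⟩ := hE'
    have hμ' : μ ∈ U := by
      rw [Finset.mem_coe, hUF, Finset.mem_filter] at hμ
      exact hμ.2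
    exact ⟨tor μ, hY μ hμ', hc μ hμ', rfl⟩
  refine (Finset.card_le_mul_card_image UF
    (Finset.univ.filter fun μ : Fˣ => μ ∈ U ∧ μ ^ 8 = 1).card (f := fun μ => cj (tor μ) E)
    fun E' hE' => ?_).trans (Nat.mul_le_mul_left _ himg)
  obtain ⟨μ₀, hμ₀, rfl⟩ := Finset.mem_image.1 hE'
  have hμ₀' : μ₀ ∈ U := (Finset.mem_filter.1 hμ₀).2
  refine Finset.card_le_card_of_injOn (fun μ => μ₀⁻¹ * μ) (fun μ hμ => ?_)
    (fun a _ b _ h => mul_left_cancel h)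
  rw [Finset.mem_coe, Finset.mem_filter] at hμ
  have hμ' : μ ∈ U := (Finset.mem_filter.1 hμ.1).2
  have hm : μ₀⁻¹ * μ ∈ U := mul_mem (inv_mem hμ₀') hμ'
  rw [Finset.mem_coe, Finset.mem_filter]
  refine ⟨Finset.mem_univ _, hm, hfix _ hm ?_⟩
  have h2 : cj (tor μ) E = cj (tor μ₀) E := hμ.2
  rw [map_mul, cj_mul, h2, map_inv, cj_inv]

/-- the vectors of a block -/
def VB (s : Finset ι) (g : ι → W) : Set W :=
  {b | (∃ i ∈ s, b = g i) ∨ ∃ i ∈ s, ∃ j ∈ s, i ≠ j ∧ b = g i + g j}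

/-- a block -/
structure Blk (L E : Subgroup G) (s : Finset ι) (T : Finset (ZMod 2)) (U : ZMod 2 → Subgroup Fˣ)
    (tor : W → Fˣ →* G) (P : W → G) (c : W → G → ZMod 2) (f : G → ZMod 2) (η : ZMod 2)
    (g : ι → W) : Prop where
  bas : Bas E s T (fun i => c (g i)) f
  addc : ∀ b ∈ VB s g, IsAdd E (c b)
  act : ∀ x ∈ E, ∀ b ∈ VB s g, ∀ t ∈ T, ∀ μ ∈ U t,
    x * tor b μ * x⁻¹ = (tor b μ) ^ sgn (c b x + t * f x)
  rel : ∀ i ∈ s, ∀ j ∈ s, i ≠ j → ∀ x ∈ E, c (g i + g j) x = c (g i) x + c (g j) x + η * f x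
  ηT : η ∈ T
  big : ∀ t ∈ T, ∃ μ ∈ U t, μ ^ 4 ≠ 1
  tor1 : ∀ b ∈ VB s g, ∀ μ, tor b μ = 1 → μ ^ 2 = 1
  torL : ∀ b ∈ VB s g, ∀ μ, tor b μ ∈ L
  PE : ∀ b ∈ VB s g, P b ∈ E ∧ P b ∈ L ∧ P b ≠ 1
  CL : ∀ x ∈ E, x ∈ L → x ≠ 1 → ∃ b ∈ VB s g, x = P b
  conj : ∀ y ∈ L, ∀ b ∈ VB s g, ∀ b' ∈ VB s g, y * P b * y⁻¹ = P b' →
    ∃ e : ZMod 2, ∀ μ, y * tor b μ * y⁻¹ = (tor b' μ) ^ sgn e

namespace Blk
variable {L E : Subgroup G} {s : Finset ι} {T : Finset (ZMod 2)} {U : ZMod 2 → Subgroup Fˣ}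
  {tor : W → Fˣ →* G} {P : W → G} {c : W → G → ZMod 2} {f : G → ZMod 2} {η : ZMod 2} {g : ι → W}

lemma isAdd (h : Blk L E s T U tor P c f η g) {b : W} (hb : b ∈ VB s g) (t : ZMod 2) :
    IsAdd E (c b + t • f) := (h.addc b hb).add (h.bas.addψ.smul t)

lemma kr_two (h : Blk L E s T U tor P c f η g) {i j : ι} (hi : i ∈ s) (hj : j ∈ s) (hij : i ≠ j)
    (t : ZMod 2) : kr E (c (g i) + c (g j) + t • f) = kr E (c (g i + g j) + (t + η) • f) := by
  have hb : g i + g j ∈ VB s g := Or.inr ⟨i, hi, j, hj, hij, rfl⟩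
  ext x
  rw [mem_kr (h.bas.add2 hi hj t), mem_kr (h.isAdd hb (t + η))]
  refine and_congr_right fun hx => ?_
  simp only [Pi.add_apply, Pi.smul_apply, smul_eq_mul]
  rw [h.rel i hi j hj hij x hx]
  have e : c (g i) x + c (g j) x + η * f x + (t + η) * f x =
      c (g i) x + c (g j) x + t * f x + (η * f x + η * f x) := by ring
  rw [e, zmod2_self, add_zero]

lemma T_add (h : Blk L E s T U tor P c f η g) {t : ZMod 2} (ht : t ∈ T) : t + η ∈ T :=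
  h.bas.add_mem ht h.ηT

lemma eta2 (η t : ZMod 2) : t + η + η = t := by
  rw [add_assoc, zmod2_self, add_zero]

/-- the functionals of the arrangement -/
lemma mem_RF' (h : Blk L E s T U tor P c f η g) {H : Subgroup G} :
    H ∈ RF E s T (fun i => c (g i)) f ↔ ∃ b ∈ VB s g, ∃ t ∈ T, H = kr E (c b + t • f) := by
  rw [mem_RF]
  constructor
  · rintro (⟨i, hi, t, ht, rfl⟩ | ⟨i, hi, j, hj, hij, t, ht, rfl⟩)
    · exact ⟨_, Or.inl ⟨i, hi, rfl⟩, t, ht, rfl⟩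
    · exact ⟨_, Or.inr ⟨i, hi, j, hj, hij, rfl⟩, t + η, h.T_add ht, h.kr_two hi hj hij t⟩
  · rintro ⟨b, ⟨i, hi, rfl⟩ | ⟨i, hi, j, hj, hij, rfl⟩, t, ht, rfl⟩
    · exact Or.inl ⟨i, hi, t, ht, rfl⟩
    · refine Or.inr ⟨i, hi, j, hj, hij, t + η, h.T_add ht, ?_⟩
      rw [h.kr_two hi hj hij, eta2]

lemma card_kr (h : Blk L E s T U tor P c f η g) {n : ℕ} (hE : Nat.card E = 2 ^ (n + 2)) [Finite G]
    {b : W} (hb : b ∈ VB s g) {t : ZMod 2} (ht : t ∈ T) :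
    Nat.card (kr E (c b + t • f)) = 2 ^ (n + 1) := by
  rcases hb with ⟨i, hi, rfl⟩ | ⟨i, hi, j, hj, hij, rfl⟩
  · exact ar_card h.bas hE hi t
  · have h1 := h.kr_two hi hj hij (t + η)
    rw [eta2] at h1
    rw [← h1]
    exact ar_card2 h.bas hE hi hj hij (t + η)

lemma exists_one (h : Blk L E s T U tor P c f η g) {b : W} (hb : b ∈ VB s g) (t : ZMod 2) :
    ∃ x ∈ E, c b x + t * f x = 1 := by
  rcases hb with ⟨i, hi, rfl⟩ | ⟨i, hi, j, hj, hij, rfl⟩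
  · obtain ⟨x, hx, h1, h2⟩ := h.bas.sur (fun _ => 1) 0 h.bas.zero_mem
    exact ⟨x, hx, by rw [h1 i hi, h2, mul_zero, add_zero]⟩
  · obtain ⟨x, hx, h1, h2⟩ := h.bas.sur (fun k => if k = i then 1 else 0) 0 h.bas.zero_mem
    refine ⟨x, hx, ?_⟩
    rw [h.rel i hi j hj hij x hx, h1 i hi, h1 j hj, if_pos rfl, if_neg (Ne.symm hij), h2]
    simp

/-- elements of the kernel commute with the torus -/
lemma commute (h : Blk L E s T U tor P c f η g) {b : W} (hb : b ∈ VB s g) {t : ZMod 2}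
    (ht : t ∈ T) {x : G} (hx : x ∈ kr E (c b + t • f)) {μ : Fˣ} (hμ : μ ∈ U t) :
    tor b μ * x = x * tor b μ := by
  rw [mem_kr (h.isAdd hb t)] at hx
  have h1 := h.act x hx.1 b hb t ht μ hμ
  have h2 : c b x + t * f x = 0 := hx.2
  rw [h2, sgn_zero, zpow_one] at h1
  calc tor b μ * x = x * tor b μ * x⁻¹ * x := by rw [h1]
    _ = x * tor b μ := by group

lemma orb_le (h : Blk L E s T U tor P c f η g) [Finite G] [Finite F] {Y : Subgroup G} {b : W}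
    (hb : b ∈ VB s g) {t : ZMod 2} (ht : t ∈ T) (hY : ∀ μ ∈ U t, tor b μ ∈ Y) :
    (1 / ((orb Y (kr E (c b + t • f)) E).ncard : ℚ)) ≤
      (Nat.card {μ : Fˣ // μ ∈ U t ∧ μ ^ 8 = 1} : ℚ) / Nat.card (U t) := by
  obtain ⟨x, hx, hx1⟩ := h.exists_one hb t
  have h1 := orb_count (Y := Y) (E := E) (H := kr E (c b + t • f)) (tor b) (U t) h.bas.sq
    (h.tor1 b hb) hY (fun μ hμ y hy => h.commute hb ht hy hμ) hx (fun μ hμ => by
      rw [h.act x hx b hb t ht μ hμ, hx1, sgn_one, zpow_neg_one])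
  have h2 : 0 < (orb Y (kr E (c b + t • f)) E).ncard := by
    rw [Set.ncard_pos (Set.toFinite _)]
    exact ⟨E, orb_self _ _ _⟩
  have h3 : 0 < Nat.card (U t) := Nat.card_pos
  rw [div_le_div_iff₀ (by exact_mod_cast h2) (by exact_mod_cast h3), one_mul]
  exact_mod_cast h1

/-- invariance of the arrangement -/
lemma inv (h : Blk L E s T U tor P c f η g) [Finite G] {n : ℕ} (hE : Nat.card E = 2 ^ (n + 2))
    {y : G} (hy : y ∈ L) (hyE : cj y E = E) {H : Subgroup G}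
    (hH : H ∈ RF E s T (fun i => c (g i)) f) : cj y H ∈ RF E s T (fun i => c (g i)) f := by
  rw [h.mem_RF'] at hH ⊢
  obtain ⟨b, hb, t, ht, rfl⟩ := hH
  obtain ⟨hPE, hPL, hP1⟩ := h.PE b hb
  have h1 : y * P b * y⁻¹ ∈ E := by
    rw [← hyE, mem_cj]
    have : y⁻¹ * (y * P b * y⁻¹) * y = P b := by group
    rw [this]
    exact hPE
  have h2 : y * P b * y⁻¹ ∈ L := mul_mem (mul_mem hy hPL) (inv_mem hy)
  have h3 : y * P b * y⁻¹ ≠ 1 := fun h0 => hP1 (conj_eq_one_iff.1 h0)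
  obtain ⟨b', hb', h4⟩ := h.CL _ h1 h2 h3
  obtain ⟨e, he⟩ := h.conj y hy b hb b' hb' h4
  refine ⟨b', hb', t, ht, ?_⟩
  refine eq_of_le_of_card_ge (fun z hz => ?_) ?_
  · have hz' := mem_cj.1 hz
    have hzE : z ∈ E := by
      rw [← hyE, mem_cj]
      exact kr_le hz'
    rw [mem_kr (h.isAdd hb' t)]
    refine ⟨hzE, ?_⟩
    obtain ⟨μ, hμ, hμ4⟩ := h.big t ht
    have h5 := h.commute hb ht hz' hμ
    have h6 : z * (y * tor b μ * y⁻¹) * z⁻¹ = y * tor b μ * y⁻¹ := by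
      calc z * (y * tor b μ * y⁻¹) * z⁻¹ = y * ((y⁻¹ * z * y) * tor b μ) * (y⁻¹ * z * y)⁻¹ * y⁻¹ := by
            group
        _ = y * (tor b μ * (y⁻¹ * z * y)) * (y⁻¹ * z * y)⁻¹ * y⁻¹ := by rw [h5]
        _ = y * tor b μ * y⁻¹ := by group
    rw [he μ] at h6
    have h7 : z * tor b' μ * z⁻¹ = tor b' μ := by
      have h8 : (z * tor b' μ * z⁻¹) ^ sgn e = (tor b' μ) ^ sgn e := by
        rw [conj_zpow]
        exact h6
      have h9 := congrArg (fun w => w ^ sgn e) h8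
      simp only [← zpow_mul, sgn_mul_self, zpow_one] at h9
      exact h9
    have h8 := h.act z hzE b' hb' t ht μ hμ
    rw [h7] at h8
    rcases zmod2_cases (c b' z + t * f z) with h9 | h9
    · exact h9
    · exfalso
      rw [h9, sgn_one, zpow_neg_one] at h8
      apply hμ4
      have h10 : tor b' (μ ^ 2) = 1 := by
        rw [map_pow, pow_two]
        nth_rewrite 1 [h8]
        exact inv_mul_cancel _
      have h11 := h.tor1 b' hb' _ h10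
      rw [← pow_mul] at h11
      exact h11
  · rw [card_cj, h.card_kr hE hb ht, h.card_kr hE hb' ht]

/-- **The block theorem.** -/
theorem top (h : Blk L E s T U tor P c f η g) [Finite G] [Finite F] {𝕜 : Type v} [Field 𝕜] {n : ℕ}
    (hE : Nat.card E = 2 ^ (n + 2)) (q : ℚ)
    (hq : ∑ t ∈ T, ((Nat.card {μ : Fˣ // μ ∈ U t ∧ μ ^ 8 = 1} : ℚ) / Nat.card (U t)) ≤ q)
    (hnum : ((T.card ^ (s.card - 1) * (s.card - 1).factorial : ℕ) : ℚ) *
      ((s.card + (prs s).card) * q) + (((T.card - 1) * s.card.factorial : ℕ) : ℚ) ≤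
        ((T.card ^ s.card * s.card.factorial : ℕ) : ℚ))
    {M : Subgroup G} (hEM : E ≤ M) (hM : ∀ b ∈ VB s g, ∀ t ∈ T, ∀ μ ∈ U t, tor b μ ∈ M) :
    ∃ (α : Ch 𝕜 (Subgroup G)) (φ : List (Subgroup G)), TopCycle 𝕜 2 M E α φ := by
  set Y : Subgroup G := closure {y | ∃ b ∈ VB s g, ∃ t ∈ T, ∃ μ ∈ U t, y = tor b μ} with hY
  have hYm : ∀ b ∈ VB s g, ∀ t ∈ T, ∀ μ ∈ U t, tor b μ ∈ Y := fun b hb t ht μ hμ =>
    subset_closure ⟨b, hb, t, ht, μ, hμ, rfl⟩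
  have hYM : Y ≤ M := by
    rw [hY, closure_le]
    rintro y ⟨b, hb, t, ht, μ, hμ, rfl⟩
    exact hM b hb t ht μ hμ
  have hYL : Y ≤ L := by
    rw [hY, closure_le]
    rintro y ⟨b, hb, t, ht, μ, hμ, rfl⟩
    exact h.torL b hb μ
  refine head h.bas hE (Y := Y) (M := M) (fun y hy hyE H hH => h.inv hE (hYL hy) hyE hH) q
    (fun i hi => ?_) (fun i hi j hj hij => ?_) hnum hEM hYM
  · refine (Finset.sum_le_sum fun t ht => ?_).trans hq
    exact h.orb_le (Or.inl ⟨i, hi, rfl⟩) ht fun μ hμ => hYm _ (Or.inl ⟨i, hi, rfl⟩) t ht μ hμ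
  · have hb : g i + g j ∈ VB s g := Or.inr ⟨i, hi, j, hj, hij, rfl⟩
    refine le_trans ?_ hq
    have h1 : ∑ t ∈ T, ((Nat.card {μ : Fˣ // μ ∈ U t ∧ μ ^ 8 = 1} : ℚ) / Nat.card (U t)) =
        ∑ t ∈ T, ((Nat.card {μ : Fˣ // μ ∈ U (t + η) ∧ μ ^ 8 = 1} : ℚ) /
          Nat.card (U (t + η))) := by
      refine (Finset.sum_nbij (fun t => t + η) (fun t ht => h.T_add ht) ?_ ?_ fun t _ => rfl).symm
      · intro a _ b _ hab
        exact add_right_cancel hab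
      · intro t ht
        exact ⟨t + η, h.T_add ht, eta2 η t⟩
    rw [h1]
    refine Finset.sum_le_sum fun t ht => ?_
    rw [h.kr_two hi hj hij t]
    exact h.orb_le hb (h.T_add ht) fun μ hμ => hYm _ hb _ (h.T_add ht) μ hμ

end Blk

end

end Vale.Agent.P240.R2.H487
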