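import Vale.Agent.P240.R2.H487.CG

/-!
Systems of tori attached to a Pauli group.
-/

set_option linter.all false

namespace Vale.Agent.P240.R2.H487

open Finsupp hiding cons
open Subgroup Vale.Agent.P240.K

universe u v

section
variable {G : Type u} [Group G] {F : Type*} [Field F] {W : Type*} [AddCommGroup W]

/-- application of an automorphism to units -/
def um (τ : RingAut F) : Fˣ →* Fˣ := Units.map (τ : F →* F)

lemma um_val (τ : RingAut F) (μ : Fˣ) : ((um τ μ : Fˣ) : F) = τ (μ : F) := rfl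

lemma um_one (μ : Fˣ) : um (1 : RingAut F) μ = μ := rfl

lemma um_mul (τ σ : RingAut F) (μ : Fˣ) : um (τ * σ) μ = um τ (um σ μ) := rfl

/-- systems of tori attached to a Pauli group -/
structure PTS (L : Subgroup G) (a : ℕ) (ω : W → W → ZMod 2) (Q : W → ZMod 2)
    (e : Fin a → Bool → W) (κ : RingAut F → ZMod 2) (tor : W → Fˣ →* G) (P : W → G) : Prop where
  card : Nat.card W = 4 ^ a
  two : ∀ w : W, w + w = 0
  ωadd : ∀ w w' v, ω (w + w') v = ω w v + ω w' v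
  ωself : ∀ w, ω w w = 0
  ωsymm : ∀ w v, ω w v = ω v w
  Qadd : ∀ w w', Q (w + w') = Q w + Q w' + ω w w'
  ωe : ∀ j, ω (e j false) (e j true) = 1
  ωe' : ∀ j k α β, j ≠ k → ω (e j α) (e k β) = 0
  sep : ∀ w, (∀ j α, ω w (e j α) = 0) → w = 0
  κone : κ 1 = 0
  torL : ∀ b μ, tor b μ ∈ L
  tor1 : ∀ b, b ≠ 0 → ∀ μ, tor b μ = 1 ↔ μ ^ 2 = 1
  Pmul : ∀ w w', P (w + w') = P w * P w'
  PL : ∀ w, P w ∈ L
  P1 : ∀ w, P w = 1 → w = 0
  comm : ∀ b b', b ≠ 0 → b' ≠ 0 → ω b b' = 0 → ∀ μ μ', tor b μ * tor b' μ' = tor b' μ' * tor b μ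
  Ptor : ∀ w b, b ≠ 0 → ∀ μ, P w * tor b μ * (P w)⁻¹ = tor b μ ^ sgn (ω w b)
  cent : ∀ x ∈ normalizer (L : Set G), (∀ w, x * P w = P w * x) → ∃ (w₀ : W) (ε : ZMod 2)
    (τ : RingAut F), (∀ b, b ≠ 0 → ∀ μ, x * tor b μ * x⁻¹ =
      (tor b (um τ μ)) ^ sgn (ω w₀ b + ε * (Q b + 1) + κ τ * Q b)) ∧ (x ^ 2 = 1 → τ ^ 2 = 1) ∧
        (w₀ = 0 → ε = 0 → τ = 1 → x ∈ centralizer (L : Set G))
  CL : ∀ x ∈ L, (∀ w, x * P w = P w * x) → ∃ w, x = P w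
  conj : ∀ y ∈ L, ∀ b b', b ≠ 0 → b' ≠ 0 → y * P b * y⁻¹ = P b' →
    ∃ e : ZMod 2, ∀ μ, y * tor b μ * y⁻¹ = (tor b' μ) ^ sgn e

/-- the data on an elementary abelian group -/
structure EData (L : Subgroup G) (ω : W → W → ZMod 2) (Q : W → ZMod 2) (tor : W → Fˣ →* G)
    (P : W → G) (E : Subgroup G) (T : Finset (ZMod 2)) (U : ZMod 2 → Subgroup Fˣ)
    (c : W → G → ZMod 2) (f : G → ZMod 2) (η : ZMod 2) : Prop where
  hT : T = {0} ∨ T = Finset.univ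
  comm : ∀ x ∈ E, ∀ y ∈ E, x * y = y * x
  sq : ∀ x ∈ E, x ^ 2 = 1
  PE : ∀ w, P w ∈ E
  addc : ∀ b, b ≠ 0 → IsAdd E (c b)
  addf : IsAdd E f
  val : ∀ x ∈ E, f x ∈ T
  ηT : η ∈ T
  nonT : T = Finset.univ → ∃ x ∈ E, f x = 1
  act : ∀ x ∈ E, ∀ b, b ≠ 0 → ∀ t ∈ T, ∀ μ ∈ U t,
    x * tor b μ * x⁻¹ = (tor b μ) ^ sgn (c b x + t * f x)
  rep : ∀ x ∈ E, ∃ (w₀ : W) (ε : ZMod 2), (∀ b, b ≠ 0 → c b x = ω w₀ b + ε * (Q b + 1) +
    η * f x * Q b) ∧ (w₀ = 0 → ε = 0 → f x = 0 → x = 1)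
  cP : ∀ w b, b ≠ 0 → c b (P w) = ω w b
  fP : ∀ w, f (P w) = 0
  big : ∀ t ∈ T, ∃ μ ∈ U t, μ ^ 4 ≠ 1

namespace PTS
variable {L : Subgroup G} {a : ℕ} {ω : W → W → ZMod 2} {Q : W → ZMod 2} {e : Fin a → Bool → W}
  {κ : RingAut F → ZMod 2} {tor : W → Fˣ →* G} {P : W → G}

lemma ωzero (h : PTS L a ω Q e κ tor P) (v : W) : ω 0 v = 0 := by
  have h1 := h.ωadd 0 0 v
  rw [add_zero] at h1
  exact left_eq_add.1 h1

lemma ωadd' (h : PTS L a ω Q e κ tor P) (w v v' : W) : ω w (v + v') = ω w v + ω w v' := by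
  rw [h.ωsymm, h.ωadd, h.ωsymm v, h.ωsymm v']

lemma P0 (h : PTS L a ω Q e κ tor P) : P 0 = 1 := by
  have h1 := h.Pmul 0 0
  rw [add_zero] at h1
  exact left_eq_mul.1 h1

lemma Psq (h : PTS L a ω Q e κ tor P) (w : W) : P w * P w = 1 := by
  rw [← h.Pmul, h.two, h.P0]

lemma Pcomm (h : PTS L a ω Q e κ tor P) (w w' : W) : P w * P w' = P w' * P w := by
  rw [← h.Pmul, add_comm, h.Pmul]

lemma Pinj (h : PTS L a ω Q e κ tor P) {w w' : W} (he : P w = P w') : w = w' := by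
  have h1 : P (w + w') = 1 := by rw [h.Pmul, he, h.Psq]
  have h2 := h.P1 _ h1
  have h3 : w = w + w' + w' := by rw [add_assoc, h.two, add_zero]
  rw [h3, h2, zero_add]

lemma e_ne (h : PTS L a ω Q e κ tor P) (j : Fin a) (α : Bool) : e j α ≠ 0 := by
  intro h0
  cases α with
  | false =>
    have h1 := h.ωe j
    rw [h0, h.ωzero] at h1
    exact zero_ne_one h1
  | true =>
    have h1 := h.ωe j
    rw [h0, h.ωsymm, h.ωzero] at h1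
    exact zero_ne_one h1

/-- **Uniqueness of the action.** -/
lemma uniq (h : PTS L a ω Q e κ tor P) {b : W} (hb : b ≠ 0) {τ σ : RingAut F}
    (h4 : ∃ μ : Fˣ, μ ^ 4 ≠ 1)
    (hτσ : τ ≠ σ → ∀ t : ZMod 2, ∃ μ : Fˣ, (um τ μ) ^ 2 ≠ (um σ μ ^ 2) ^ sgn t)
    {c c' : ZMod 2} (hc : ∀ μ, (tor b (um τ μ)) ^ sgn c = (tor b (um σ μ)) ^ sgn c') :
    τ = σ ∧ c = c' := by
  have h1 : ∀ μ, (um τ μ) ^ 2 = (um σ μ ^ 2) ^ (sgn (c + c')) := by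
    intro μ
    have h2 := congrArg (fun w => w ^ sgn c) (hc μ)
    simp only [← zpow_mul, sgn_mul_self, zpow_one] at h2
    rw [← map_zpow] at h2
    have h3 : tor b (um τ μ * (um σ μ ^ (sgn c' * sgn c))⁻¹) = 1 := by
      rw [map_mul, map_inv, h2, mul_inv_cancel]
    have h5 := (h.tor1 b hb _).1 h3
    rw [mul_pow, inv_pow] at h5
    have h6 := mul_inv_eq_one.1 h5
    rw [h6, sgn_add, mul_comm (sgn c), ← zpow_natCast (um σ μ ^ (sgn c' * sgn c)), ← zpow_mul,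
      ← zpow_natCast (um σ μ), ← zpow_mul]
    congr 1
    ring
  have h2 : τ = σ := by
    by_contra hne
    obtain ⟨μ, hμ⟩ := hτσ hne (c + c')
    exact hμ (h1 μ)
  refine ⟨h2, ?_⟩
  subst h2
  by_contra hne
  obtain ⟨μ, hμ⟩ := h4
  have h3 : c + c' = 1 := zmod2_ne hne
  apply hμ
  have h5 := h1 (um τ⁻¹ μ)
  rw [h3, sgn_one, zpow_neg_one, ← um_mul, mul_inv_cancel, um_one] at h5
  have h6 : μ ^ 4 = μ ^ 2 * μ ^ 2 := by rw [← pow_add]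
  rw [h6]
  nth_rewrite 1 [h5]
  exact inv_mul_cancel _

end PTS

end

end Vale.Agent.P240.R2.H487
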