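import Vale.Agent.P240.H195.FF
import Vale.Agent.P240.R2.H487.CH

/-!
The data on an elementary abelian group that contains the Pauli group.
-/

set_option linter.all false

namespace Vale.Agent.P240.R2.H487

open Finsupp hiding cons
open Subgroup Vale.Agent.P240.K Vale.Agent.P240.H195

universe u v

section
variable {G : Type u} [Group G] {F : Type*} [Field F] {W : Type*} [AddCommGroup W]

/-- units on which `τ` is the power map `± sgn t` -/
def Ut (τ : RingAut F) (t : ZMod 2) : Subgroup Fˣ where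
  carrier := {μ | (um τ μ) ^ 2 = (μ ^ 2) ^ sgn t}
  one_mem' := by
    change (um τ 1) ^ 2 = (1 ^ 2) ^ sgn t
    rw [map_one, one_pow, one_zpow]
  mul_mem' := by
    intro x y hx hy
    change (um τ (x * y)) ^ 2 = ((x * y) ^ 2) ^ sgn t
    rw [map_mul, mul_pow, mul_pow, mul_zpow, hx, hy]
  inv_mem' := by
    intro x hx
    change (um τ x⁻¹) ^ 2 = (x⁻¹ ^ 2) ^ sgn t
    rw [map_inv, inv_pow, inv_pow, inv_zpow, hx]

lemma mem_Ut {τ : RingAut F} {t : ZMod 2} {μ : Fˣ} :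
    μ ∈ Ut τ t ↔ (um τ μ) ^ 2 = (μ ^ 2) ^ sgn t := Iff.rfl

variable {L : Subgroup G} {a : ℕ} {ω : W → W → ZMod 2} {Q : W → ZMod 2} {e : Fin a → Bool → W}
  {κ : RingAut F → ZMod 2} {tor : W → Fˣ →* G} {P : W → G}

lemma PTS.mul_act (h : PTS L a ω Q e κ tor P) {S : Set (RingAut F)}
    (hSmul : ∀ τ ∈ S, ∀ σ ∈ S, τ * σ ∈ S)
    (hSu : ∀ τ ∈ S, ∀ σ ∈ S, τ ≠ σ → ∀ t : ZMod 2, ∃ μ : Fˣ, (um τ μ) ^ 2 ≠ (um σ μ ^ 2) ^ sgn t)
    (h4 : ∃ μ : Fˣ, μ ^ 4 ≠ 1) {b : W} (hb : b ≠ 0) {x y : G} {τx τy τxy : RingAut F}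
    (hx : τx ∈ S) (hy : τy ∈ S) (hxy : τxy ∈ S) {cx cy cxy : ZMod 2}
    (h1 : ∀ μ, x * tor b μ * x⁻¹ = (tor b (um τx μ)) ^ sgn cx)
    (h2 : ∀ μ, y * tor b μ * y⁻¹ = (tor b (um τy μ)) ^ sgn cy)
    (h3 : ∀ μ, (x * y) * tor b μ * (x * y)⁻¹ = (tor b (um τxy μ)) ^ sgn cxy) :
    τxy = τx * τy ∧ cxy = cx + cy := by
  refine h.uniq hb h4 (hSu _ hxy _ (hSmul _ hx _ hy)) fun μ => ?_
  rw [← h3]
  calc x * y * tor b μ * (x * y)⁻¹ = x * (y * tor b μ * y⁻¹) * x⁻¹ := by group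
    _ = (x * tor b (um τy μ) * x⁻¹) ^ sgn cy := by rw [h2, ← conj_zpow]
    _ = (tor b (um (τx * τy) μ)) ^ sgn (cx + cy) := by
        rw [h1, ← zpow_mul, sgn_add, um_mul]

open Classical in
/-- **The data on `E`.** -/
theorem PTS.edata [Finite F] (h : PTS L a ω Q e κ tor P) {E : Subgroup G} (hE : E ∈ ApS 2 G)
    (hEN : E ≤ normalizer (L : Set G)) (hEC : E ⊓ centralizer (L : Set G) = ⊥)
    (hPE : ∀ w, P w ∈ E) (h4 : ∃ μ : Fˣ, μ ^ 4 ≠ 1) (hW : ∃ b : W, b ≠ 0)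
    (hτ : ∀ τ : RingAut F, τ ≠ 1 → τ ^ 2 = 1 → ∀ t : ZMod 2,
      (∃ μ, μ ∉ Ut τ t) ∧ ∃ μ ∈ Ut τ t, μ ^ 4 ≠ 1) :
    ∃ (T : Finset (ZMod 2)) (U : ZMod 2 → Subgroup Fˣ) (c : W → G → ZMod 2) (f : G → ZMod 2)
      (η : ZMod 2), EData L ω Q tor P E T U c f η ∧ ((T = {0} ∧ U = fun _ => ⊤) ∨
        (T = Finset.univ ∧ ∃ τ : RingAut F, τ ≠ 1 ∧ τ ^ 2 = 1 ∧ U = Ut τ)) := by
  obtain ⟨b₀, hb₀⟩ := hW
  have hrep : ∀ x : G, ∃ (w₀ : W) (ε : ZMod 2) (τ : RingAut F), x ∈ E →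
      ((∀ b, b ≠ 0 → ∀ μ, x * tor b μ * x⁻¹ =
        (tor b (um τ μ)) ^ sgn (ω w₀ b + ε * (Q b + 1) + κ τ * Q b)) ∧ τ ^ 2 = 1 ∧
          (w₀ = 0 → ε = 0 → τ = 1 → x = 1)) := by
    intro x
    by_cases hx : x ∈ E
    · obtain ⟨w₀, ε, τ, h1, h2, h3⟩ := h.cent x (hEN hx) fun w => hE.2.1 x hx _ (hPE w)
      refine ⟨w₀, ε, τ, fun _ => ⟨h1, h2 (hE.2.2 x hx), fun e1 e2 e3 => ?_⟩⟩
      have h4 : x ∈ E ⊓ centralizer (L : Set G) := ⟨hx, h3 e1 e2 e3⟩
      rw [hEC, mem_bot] at h4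
      exact h4
    · exact ⟨0, 0, 1, fun h0 => absurd h0 hx⟩
  choose wx εx τx hx using hrep
  -- the possible field automorphisms
  obtain ⟨S, hS1, hSmul, hSu, hSE, hS⟩ : ∃ S : Set (RingAut F), (1 : RingAut F) ∈ S ∧
      (∀ τ ∈ S, ∀ σ ∈ S, τ * σ ∈ S) ∧
      (∀ τ ∈ S, ∀ σ ∈ S, τ ≠ σ → ∀ t : ZMod 2, ∃ μ : Fˣ,
        (um τ μ) ^ 2 ≠ (um σ μ ^ 2) ^ sgn t) ∧ (∀ x ∈ E, τx x ∈ S) ∧
      (S = {1} ∨ ∃ τ, S = {1, τ} ∧ τ ≠ 1 ∧ τ ^ 2 = 1 ∧ ∃ x ∈ E, τx x = τ) := by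
    by_cases hall : ∀ x ∈ E, τx x = 1
    · refine ⟨{1}, rfl, ?_, ?_, fun x hx => hall x hx, Or.inl rfl⟩
      · rintro τ hτ σ hσ
        rw [Set.mem_singleton_iff.1 hτ, Set.mem_singleton_iff.1 hσ, mul_one]
        rfl
      · rintro τ hτ σ hσ hne
        exact absurd ((Set.mem_singleton_iff.1 hτ).trans (Set.mem_singleton_iff.1 hσ).symm) hne
    · push Not at hall
      obtain ⟨x₁, hx₁, hne⟩ := hall
      have h2 := (hx x₁ hx₁).2.1
      have hsq : τx x₁ * τx x₁ = 1 := by rw [← pow_two, h2]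
      refine ⟨{1, τx x₁}, Or.inl rfl, ?_, ?_, ?_, Or.inr ⟨_, rfl, hne, h2, x₁, hx₁, rfl⟩⟩
      · rintro τ (rfl | hτ') σ (rfl | hσ)
        · exact Or.inl (mul_one _)
        · rw [Set.mem_singleton_iff.1 hσ, one_mul]
          exact Or.inr rfl
        · rw [Set.mem_singleton_iff.1 hτ', mul_one]
          exact Or.inr rfl
        · rw [Set.mem_singleton_iff.1 hτ', Set.mem_singleton_iff.1 hσ, hsq]
          exact Or.inl rfl
      · rintro τ (rfl | hτ') σ (rfl | hσ) hne' t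
        · exact absurd rfl hne'
        · rw [Set.mem_singleton_iff.1 hσ]
          obtain ⟨⟨μ, hμ⟩, -⟩ := hτ _ hne h2 t
          refine ⟨μ, fun h0 => hμ ?_⟩
          rw [mem_Ut]
          have h5 := congrArg (fun w => w ^ sgn t) h0
          simp only [← zpow_mul, sgn_mul_self, zpow_one] at h5
          rw [um_one] at h5
          exact h5.symm
        · rw [Set.mem_singleton_iff.1 hτ']
          obtain ⟨⟨μ, hμ⟩, -⟩ := hτ _ hne h2 t
          exact ⟨μ, fun h0 => hμ h0⟩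
        · exact absurd ((Set.mem_singleton_iff.1 hτ').trans (Set.mem_singleton_iff.1 hσ).symm) hne'
      · intro x hxE
        obtain ⟨k, hk⟩ := ff_prime Nat.prime_two h2 hne (hx x hxE).2.1
        rcases Nat.even_or_odd' k with ⟨j, hj | hj⟩
        · left
          rw [hk, hj, pow_mul, h2, one_pow]
        · right
          rw [hk, hj, pow_succ, pow_mul, h2, one_pow, one_mul]
          rfl
  obtain ⟨c, hc⟩ : ∃ c : W → G → ZMod 2, c = fun b x =>
    ω (wx x) b + εx x * (Q b + 1) + κ (τx x) * Q b := ⟨_, rfl⟩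
  have hact : ∀ x ∈ E, ∀ b, b ≠ 0 → ∀ μ, x * tor b μ * x⁻¹ = (tor b (um (τx x) μ)) ^ sgn (c b x) :=
    fun x hxE b hb μ => by rw [hc]; exact (hx x hxE).1 b hb μ
  have hadd : ∀ x ∈ E, ∀ y ∈ E, ∀ b, b ≠ 0 → τx (x * y) = τx x * τx y ∧
      c b (x * y) = c b x + c b y := by
    intro x hxE y hyE b hb
    exact h.mul_act hSmul hSu h4 hb (hSE x hxE) (hSE y hyE) (hSE _ (mul_mem hxE hyE))
      (hact x hxE b hb) (hact y hyE b hb) (hact _ (mul_mem hxE hyE) b hb)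
  have hP : ∀ w b, b ≠ 0 → τx (P w) = 1 ∧ c b (P w) = ω w b := by
    intro w b hb
    have h1 := h.uniq hb (τ := τx (P w)) (σ := 1) (c := c b (P w)) (c' := ω w b) h4
      (hSu _ (hSE _ (hPE w)) _ hS1) fun μ => ?_
    · exact h1
    · rw [← hact _ (hPE w) b hb, h.Ptor w b hb, um_one]
  rcases hS with hS | ⟨τ₀, hS, hne, h2, x₁, hx₁, hx₁τ⟩
  · have hτ1 : ∀ x ∈ E, τx x = 1 := by
      intro x hxE
      have := hSE x hxE
      rw [hS] at this
      exact this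
    refine ⟨{0}, fun _ => ⊤, c, fun _ => 0, 0, ?_, Or.inl ⟨rfl, rfl⟩⟩
    exact {
      hT := Or.inl rfl
      comm := hE.2.1
      sq := hE.2.2
      PE := hPE
      addc := fun b hb x hx y hy => (hadd x hx y hy b hb).2
      addf := fun _ _ _ _ => by simp
      val := fun _ _ => Finset.mem_singleton_self _
      ηT := Finset.mem_singleton_self _
      nonT := fun h0 => absurd h0 (by decide)
      act := fun x hxE b hb t _ μ _ => by
        rw [hact x hxE b hb, hτ1 x hxE, um_one, mul_zero, add_zero]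
      rep := fun x hxE => ⟨wx x, εx x, fun b hb => by
        rw [hc]
        simp only [hτ1 x hxE, h.κone]
        ring, fun e1 e2 _ => (hx x hxE).2.2 e1 e2 (hτ1 x hxE)⟩
      cP := fun w b hb => (hP w b hb).2
      fP := fun _ => rfl
      big := fun _ _ => by
        obtain ⟨μ, hμ⟩ := h4
        exact ⟨μ, mem_top μ, hμ⟩ }
  · have hτ1 : ∀ x ∈ E, τx x = 1 ∨ τx x = τ₀ := by
      intro x hxE
      have := hSE x hxE
      rw [hS] at this
      exact this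
    have hsq : τ₀ * τ₀ = 1 := by rw [← pow_two, h2]
    refine ⟨Finset.univ, Ut τ₀, c, fun x => if τx x = 1 then 0 else 1, κ τ₀, ?_,
      Or.inr ⟨rfl, τ₀, hne, h2, rfl⟩⟩
    have hκ : ∀ x ∈ E, κ (τx x) = κ τ₀ * (if τx x = 1 then (0 : ZMod 2) else 1) := by
      intro x hxE
      rcases hτ1 x hxE with h5 | h5
      · rw [h5, if_pos rfl, mul_zero, h.κone]
      · rw [h5, if_neg hne, mul_one]
    exact {
      hT := Or.inr rfl
      comm := hE.2.1
      sq := hE.2.2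
      PE := hPE
      addc := fun b hb x hx y hy => (hadd x hx y hy b hb).2
      addf := by
        intro x hxE y hyE
        change (if τx (x * y) = 1 then (0 : ZMod 2) else 1) = (if τx x = 1 then 0 else 1) +
          (if τx y = 1 then 0 else 1)
        rw [(hadd x hxE y hyE b₀ hb₀).1]
        rcases hτ1 x hxE with h5 | h5 <;> rcases hτ1 y hyE with h6 | h6
        · rw [h5, h6, mul_one, if_pos rfl, add_zero]
        · rw [h5, h6, one_mul, if_neg hne, if_pos rfl, zero_add]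
        · rw [h5, h6, mul_one, if_neg hne, if_pos rfl, add_zero]
        · rw [h5, h6, hsq, if_neg hne, if_pos rfl]
          decide
      val := fun _ _ => Finset.mem_univ _
      ηT := Finset.mem_univ _
      nonT := fun _ => ⟨x₁, hx₁, by rw [hx₁τ, if_neg hne]⟩
      act := fun x hxE b hb t _ μ hμ => by
        rw [hact x hxE b hb]
        rcases hτ1 x hxE with h5 | h5
        · simp only [h5, if_true]
          rw [um_one, mul_zero, add_zero]
        · simp only [h5, if_neg hne]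
          rw [mul_one, sgn_add, mul_comm (sgn (c b x)), zpow_mul]
          congr 1
          rw [mem_Ut] at hμ
          have h6 : tor b (um τ₀ μ * (μ ^ sgn t)⁻¹) = 1 := by
            rw [h.tor1 b hb, mul_pow, inv_pow, hμ, ← zpow_natCast (μ ^ sgn t), ← zpow_mul,
              mul_comm (sgn t), zpow_mul, zpow_natCast, mul_inv_cancel]
          rw [map_mul, map_inv, map_zpow] at h6
          exact mul_inv_eq_one.1 h6
      rep := fun x hxE => ⟨wx x, εx x, fun b hb => by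
        rw [hc]
        simp only [hκ x hxE], fun e1 e2 e3 => (hx x hxE).2.2 e1 e2 (by
        by_contra h0
        rw [if_neg h0] at e3
        exact one_ne_zero e3)⟩
      cP := fun w b hb => (hP w b hb).2
      fP := fun w => by rw [(hP w b₀ hb₀).1, if_pos rfl]
      big := fun t _ => (hτ τ₀ hne h2 t).2 }

end

end Vale.Agent.P240.R2.H487
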