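import Vale.Agent.P240.R2.H487.CH2

/-!
Assembly of the blocks.
-/

set_option linter.all false

namespace Vale.Agent.P240.R2.H487

open Finsupp hiding cons
open Subgroup Vale.Agent.P240.K Vale.Agent.P240.H195

universe u v

section
variable {G : Type u} [Group G]

lemma card_kr_ge [Finite G] {E : Subgroup G} {χ : G → ZMod 2} (h : IsAdd E χ) :
    Nat.card E ≤ 2 * Nat.card (kr E χ) := by
  classical
  by_cases h1 : ∃ x₀ ∈ E, χ x₀ = 1
  · obtain ⟨x₀, hx₀, h1⟩ := h1
    have hm : ∀ x : E, (if χ x = 0 then (x : G) else x * x₀) ∈ kr E χ := by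
      intro x
      rw [mem_kr h]
      split_ifs with h2
      · exact ⟨x.2, h2⟩
      · refine ⟨mul_mem x.2 hx₀, ?_⟩
        rw [h x x.2 x₀ hx₀, h1]
        rcases zmod2_cases (χ x) with h3 | h3
        · exact absurd h3 h2
        · rw [h3]
          decide
    have hinj : Function.Injective (fun x : E =>
        ((⟨_, hm x⟩, χ x) : kr E χ × ZMod 2)) := by
      intro x y hxy
      have h2 : (if χ x = 0 then (x : G) else x * x₀) = if χ y = 0 then (y : G) else y * x₀ :=
        congrArg (fun z => (z.1 : G)) hxy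
      have h3 : χ x = χ y := congrArg Prod.snd hxy
      apply Subtype.ext
      rw [h3] at h2
      split_ifs at h2 with h4
      · exact h2
      · exact mul_right_cancel h2
    have h2 := Nat.card_le_card_of_injective _ hinj
    rw [Nat.card_prod, Nat.card_eq_fintype_card (α := ZMod 2), ZMod.card, mul_comm] at h2
    exact h2
  · push Not at h1
    have h2 : kr E χ = E := by
      refine le_antisymm kr_le fun x hx => (mem_kr h).2 ⟨hx, ?_⟩
      exact (zmod2_cases _).resolve_right (h1 x hx)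
    rw [h2]
    omega

lemma card_kr_two [Finite G] {E : Subgroup G} {χ : G → ZMod 2} (h : IsAdd E χ) {x : G} (hx : x ∈ E)
    (hx1 : χ x = 1) : 2 * Nat.card (kr E χ) ≤ Nat.card E := by
  have h1 : Nat.card (kr E χ) ∣ Nat.card E := card_dvd_of_le kr_le
  obtain ⟨k, hk⟩ := h1
  have h2 : k ≠ 0 := by
    rintro rfl
    rw [mul_zero] at hk
    exact Nat.card_pos.ne' hk
  have h3 : k ≠ 1 := by
    rintro rfl
    rw [mul_one] at hk
    have h4 : kr E χ = E := eq_of_le_of_card_ge kr_le hk.le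
    rw [← h4, mem_kr h] at hx
    rw [hx.2] at hx1
    exact zero_ne_one hx1
  rw [hk, mul_comm]
  exact Nat.mul_le_mul_left _ (by omega)

/-- coordinates from injectivity and cardinality -/
theorem Bas.mk' [Finite G] {ι : Type*} [DecidableEq ι] {E : Subgroup G} {s : Finset ι}
    {T : Finset (ZMod 2)}
    {χ : ι → G → ZMod 2} {ψ : G → ZMod 2} (hT : T = {0} ∨ T = Finset.univ)
    (comm : ∀ x ∈ E, ∀ y ∈ E, x * y = y * x) (sq : ∀ x ∈ E, x ^ 2 = 1)
    (add : ∀ i ∈ s, IsAdd E (χ i)) (addψ : IsAdd E ψ) (val : ∀ x ∈ E, ψ x ∈ T)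
    (inj : ∀ x ∈ E, (∀ i ∈ s, χ i x = 0) → ψ x = 0 → x = 1)
    (hcard : T.card * 2 ^ s.card ≤ Nat.card E) : Bas E s T χ ψ where
  hT := hT
  comm := comm
  sq := sq
  add := add
  addψ := addψ
  val := val
  inj := inj
  sur := by
    classical
    have hinj : Function.Injective
        (fun x : E => ((fun i : s => χ i x), (⟨ψ x, val x x.2⟩ : T))) := by
      intro x y hxy
      have h1 : ∀ i ∈ s, χ i x = χ i y := fun i hi => congrFun (congrArg Prod.fst hxy) ⟨i, hi⟩
      have h2 : ψ x = ψ y := congrArg (fun z => (z.2 : ZMod 2)) hxy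
      have h3 : (x : G) * (y : G)⁻¹ = 1 := by
        refine inj _ (mul_mem x.2 (inv_mem y.2)) (fun i hi => ?_) ?_
        · rw [add i hi _ x.2 _ (inv_mem y.2), (add i hi).inv y.2, h1 i hi, zmod2_self]
        · rw [addψ _ x.2 _ (inv_mem y.2), addψ.inv y.2, h2, zmod2_self]
      exact Subtype.ext (mul_inv_eq_one.1 h3)
    have hfin : Nat.card ((s → ZMod 2) × T) = T.card * 2 ^ s.card := by
      rw [Nat.card_prod, Nat.card_pi]
      simp [mul_comm]
    have hb := (Nat.bijective_iff_injective_and_card _).2 ⟨hinj, le_antisymm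
      (Nat.card_le_card_of_injective _ hinj) (by rw [hfin]; exact hcard)⟩
    intro a b hb'
    obtain ⟨x, hx⟩ := hb.2 (fun i => a i, ⟨b, hb'⟩)
    refine ⟨x, x.2, fun i hi => congrFun (congrArg Prod.fst hx) ⟨i, hi⟩,
      congrArg (fun z => (z.2 : ZMod 2)) hx⟩

variable {F : Type*} [Field F] {W : Type*} [AddCommGroup W]

/-- the multiple of a vector by an element of `ZMod 2` -/
def vs (t : ZMod 2) (w : W) : W := if t = 0 then 0 else w

lemma vs_zero (w : W) : vs 0 w = 0 := rfl

lemma vs_one (w : W) : vs 1 w = w := rfl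

variable {L : Subgroup G} {a : ℕ} {ω : W → W → ZMod 2} {Q : W → ZMod 2} {e : Fin a → Bool → W}
  {κ : RingAut F → ZMod 2} {tor : W → Fˣ →* G} {P : W → G}

lemma PTS.vs_add (h : PTS L a ω Q e κ tor P) (s t : ZMod 2) (w : W) :
    vs (s + t) w = vs s w + vs t w := by
  rcases zmod2_cases s with rfl | rfl <;> rcases zmod2_cases t with rfl | rfl
  · simp [vs]
  · simp [vs]
  · simp [vs]
  · have : (1 : ZMod 2) + 1 = 0 := by decide
    rw [this, vs_zero, vs_one, h.two]

lemma PTS.ω_vs (h : PTS L a ω Q e κ tor P) (t : ZMod 2) (w v : W) : ω (vs t w) v = t * ω w v := by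
  rcases zmod2_cases t with rfl | rfl
  · rw [vs_zero, h.ωzero, zero_mul]
  · rw [vs_one, one_mul]

lemma PTS.ωe_symm (h : PTS L a ω Q e κ tor P) (j : Fin a) : ω (e j true) (e j false) = 1 := by
  rw [h.ωsymm, h.ωe]

/-- the subgroup of a slot -/
def SV (h : PTS L a ω Q e κ tor P) (k : Fin a) : Subgroup G where
  carrier := {x | ∃ s t : ZMod 2, x = P (vs s (e k false) + vs t (e k true))}
  one_mem' := ⟨0, 0, by rw [vs_zero, vs_zero, add_zero, h.P0]⟩
  mul_mem' := by
    rintro _ _ ⟨s, t, rfl⟩ ⟨s', t', rfl⟩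
    refine ⟨s + s', t + t', ?_⟩
    rw [← h.Pmul, h.vs_add, h.vs_add]
    congr 1
    abel
  inv_mem' := by
    rintro _ ⟨s, t, rfl⟩
    refine ⟨s, t, ?_⟩
    rw [inv_eq_iff_mul_eq_one]
    exact h.Psq _

lemma mem_SV (h : PTS L a ω Q e κ tor P) {k : Fin a} {x : G} :
    x ∈ SV h k ↔ ∃ s t : ZMod 2, x = P (vs s (e k false) + vs t (e k true)) := Iff.rfl

lemma SV_card (h : PTS L a ω Q e κ tor P) (k : Fin a) : Nat.card (SV h k) = 4 := by
  have hb : Function.Bijective (fun z : ZMod 2 × ZMod 2 =>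
      (⟨P (vs z.1 (e k false) + vs z.2 (e k true)), ⟨z.1, z.2, rfl⟩⟩ : SV h k)) := by
    constructor
    · rintro ⟨s, t⟩ ⟨s', t'⟩ hst
      have h1 := h.Pinj (congrArg Subtype.val hst)
      change vs s (e k false) + vs t (e k true) = vs s' (e k false) + vs t' (e k true) at h1
      have h2 := congrArg (fun w => ω w (e k true)) h1
      have h3 := congrArg (fun w => ω w (e k false)) h1
      simp only [h.ωadd, h.ω_vs, h.ωself, h.ωe, h.ωe_symm, mul_one, mul_zero, add_zero,
        zero_add] at h2 h3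
      rw [h2, h3]
    · rintro ⟨x, s, t, rfl⟩
      exact ⟨⟨s, t⟩, rfl⟩
  rw [← Nat.card_eq_of_bijective _ hb]
  simp

variable {E : Subgroup G} {T : Finset (ZMod 2)} {U : ZMod 2 → Subgroup Fˣ} {c : W → G → ZMod 2}
  {f : G → ZMod 2} {η : ZMod 2}

/-- the functional of a slot -/
def chi (c : W → G → ZMod 2) (f : G → ZMod 2) (η : ZMod 2) (e : Fin a → Bool → W) (j : Fin a)
    (α : Bool) : G → ZMod 2 := fun x => c (e j α) x + η * f x

lemma chi_add (h : PTS L a ω Q e κ tor P) (d : EData L ω Q tor P E T U c f η) (j : Fin a)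
    (α : Bool) : IsAdd E (chi c f η e j α) :=
  (d.addc _ (h.e_ne j α)).add (d.addf.smul η)

/-- the elements that commute with the tori of the slots `j ≥ k` -/
def FK (h : PTS L a ω Q e κ tor P) (d : EData L ω Q tor P E T U c f η) (k : ℕ) : Subgroup G where
  carrier := {x | x ∈ E ∧ ∀ j : Fin a, k ≤ (j : ℕ) → ∀ α, chi c f η e j α x = 0}
  one_mem' := ⟨one_mem E, fun j _ α => (chi_add h d j α).one⟩
  mul_mem' := fun {x y} hx hy => ⟨mul_mem hx.1 hy.1, fun j hj α => by
    rw [chi_add h d j α x hx.1 y hy.1, hx.2 j hj α, hy.2 j hj α, add_zero]⟩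
  inv_mem' := fun {x} hx => ⟨inv_mem hx.1, fun j hj α => by
    rw [(chi_add h d j α).inv hx.1, hx.2 j hj α]⟩

lemma mem_FK (h : PTS L a ω Q e κ tor P) (d : EData L ω Q tor P E T U c f η) {k : ℕ} {x : G} :
    x ∈ FK h d k ↔ x ∈ E ∧ ∀ j : Fin a, k ≤ (j : ℕ) → ∀ α, chi c f η e j α x = 0 := Iff.rfl

lemma FK_le (h : PTS L a ω Q e κ tor P) (d : EData L ω Q tor P E T U c f η) (k : ℕ) :
    FK h d k ≤ E := fun _ hx => hx.1

lemma FK_top (h : PTS L a ω Q e κ tor P) (d : EData L ω Q tor P E T U c f η) : FK h d a = E :=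
  le_antisymm (FK_le h d a) fun x hx => ⟨hx, fun j hj => absurd j.2 (by omega)⟩

lemma FK_mono (h : PTS L a ω Q e κ tor P) (d : EData L ω Q tor P E T U c f η) {k l : ℕ}
    (hkl : k ≤ l) : FK h d k ≤ FK h d l :=
  fun x hx => ⟨hx.1, fun j hj => hx.2 j (hkl.trans hj)⟩

/-- elements of the Pauli group -/
lemma P_mem_FK (h : PTS L a ω Q e κ tor P) (d : EData L ω Q tor P E T U c f η) {k : ℕ} {w : W} :
    P w ∈ FK h d k ↔ ∀ j : Fin a, k ≤ (j : ℕ) → ∀ α, ω w (e j α) = 0 := by
  rw [mem_FK]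
  have h1 : ∀ j α, chi c f η e j α (P w) = ω w (e j α) := by
    intro j α
    rw [chi, d.cP w _ (h.e_ne j α), d.fP, mul_zero, add_zero]
  simp only [h1]
  exact ⟨fun hx => hx.2, fun hx => ⟨d.PE w, hx⟩⟩

lemma FK_sup (h : PTS L a ω Q e κ tor P) (d : EData L ω Q tor P E T U c f η) (k : Fin a) :
    FK h d k ⊔ SV h k = FK h d (k + 1) := by
  refine le_antisymm (sup_le (FK_mono h d (Nat.le_succ _)) ?_) fun x hx => ?_
  · rintro _ ⟨s, t, rfl⟩
    rw [P_mem_FK]
    intro j hj α
    have hne : k ≠ j := by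
      rintro rfl
      omega
    rw [h.ωadd, h.ω_vs, h.ω_vs, h.ωe' k j _ _ hne, h.ωe' k j _ _ hne, mul_zero, mul_zero, add_zero]
  · obtain ⟨w, hw⟩ : ∃ w, w = vs (chi c f η e k true x) (e k false) +
        vs (chi c f η e k false x) (e k true) := ⟨_, rfl⟩
    have hPw : P w ∈ SV h k := ⟨_, _, by rw [hw]⟩
    have hchiP : ∀ j α, chi c f η e j α (P w) = ω w (e j α) := by
      intro j α
      rw [chi, d.cP w _ (h.e_ne j α), d.fP, mul_zero, add_zero]
    have h1 : x * P w ∈ FK h d k := by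
      refine ⟨mul_mem hx.1 (d.PE w), fun j hj α => ?_⟩
      rw [chi_add h d j α x hx.1 _ (d.PE w), hchiP]
      rcases Nat.lt_or_ge (k : ℕ) j with h2 | h2
      · have hne : k ≠ j := by
          rintro rfl
          omega
        rw [hx.2 j (by omega) α, hw, h.ωadd, h.ω_vs, h.ω_vs, h.ωe' k j _ _ hne,
          h.ωe' k j _ _ hne, mul_zero, mul_zero, add_zero, add_zero]
      · have hkj : j = k := Fin.ext (by omega)
        subst hkj
        cases α with
        | false =>
          rw [hw, h.ωadd, h.ω_vs, h.ω_vs, h.ωself, h.ωe_symm, mul_zero, zero_add, mul_one,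
            zmod2_self]
        | true =>
          rw [hw, h.ωadd, h.ω_vs, h.ω_vs, h.ωself, h.ωe, mul_zero, add_zero, mul_one,
            zmod2_self]
    have h2 : x = x * P w * P w := by rw [mul_assoc, h.Psq, mul_one]
    rw [h2]
    exact mul_mem (mem_sup_left h1) (mem_sup_right hPw)

lemma FK_card_step [Finite G] (h : PTS L a ω Q e κ tor P) (d : EData L ω Q tor P E T U c f η)
    (k : Fin a) : Nat.card (FK h d (k + 1)) ≤ 4 * Nat.card (FK h d k) := by
  have h1 : IsAdd (FK h d (k + 1)) (chi c f η e k false) := (chi_add h d k false).mono (FK_le h d _)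
  have h2 : IsAdd (kr (FK h d (k + 1)) (chi c f η e k false)) (chi c f η e k true) :=
    (chi_add h d k true).mono (kr_le.trans (FK_le h d _))
  have h3 := card_kr_ge h1
  have h4 := card_kr_ge h2
  have h5 : kr (kr (FK h d (k + 1)) (chi c f η e k false)) (chi c f η e k true) ≤ FK h d k := by
    intro x hx
    rw [mem_kr h2, mem_kr h1] at hx
    refine ⟨hx.1.1.1, fun j hj α => ?_⟩
    rcases Nat.lt_or_ge (k : ℕ) j with h6 | h6
    · exact hx.1.1.2 j (by omega) α
    · have hkj : j = k := Fin.ext (by omega)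
      subst hkj
      cases α with
      | false => exact hx.1.2
      | true => exact hx.2
  have h6 := Nat.card_le_card_of_injective _ (inclusion_injective h5)
  omega

lemma FK_card [Finite G] (h : PTS L a ω Q e κ tor P) (d : EData L ω Q tor P E T U c f η)
    (i : ℕ) : ∀ k, k + i = a → Nat.card E ≤ 4 ^ i * Nat.card (FK h d k) := by
  induction i with
  | zero =>
    intro k hk
    rw [add_zero] at hk
    subst hk
    rw [FK_top, pow_zero, one_mul]
  | succ i ih =>
    intro k hk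
    have h1 := ih (k + 1) (by omega)
    have h2 := FK_card_step h d ⟨k, by omega⟩
    change Nat.card (FK h d (k + 1)) ≤ 4 * Nat.card (FK h d k) at h2
    calc Nat.card E ≤ 4 ^ i * Nat.card (FK h d (k + 1)) := h1
      _ ≤ 4 ^ i * (4 * Nat.card (FK h d k)) := Nat.mul_le_mul_left _ h2
      _ = 4 ^ (i + 1) * Nat.card (FK h d k) := by rw [pow_succ, mul_assoc]

/-- the Pauli group -/
def PG (h : PTS L a ω Q e κ tor P) : Subgroup G where
  carrier := Set.range P
  one_mem' := ⟨0, h.P0⟩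
  mul_mem' := by
    rintro _ _ ⟨w, rfl⟩ ⟨w', rfl⟩
    exact ⟨w + w', h.Pmul w w'⟩
  inv_mem' := by
    rintro _ ⟨w, rfl⟩
    exact ⟨w, (inv_eq_of_mul_eq_one_right (h.Psq w)).symm⟩

lemma mem_PG (h : PTS L a ω Q e κ tor P) {x : G} : x ∈ PG h ↔ ∃ w, P w = x := Iff.rfl

lemma PG_card (h : PTS L a ω Q e κ tor P) : Nat.card (PG h) = 4 ^ a := by
  rw [← h.card]
  refine (Nat.card_eq_of_bijective (fun w : W => (⟨P w, w, rfl⟩ : PG h)) ⟨?_, ?_⟩).symm
  · intro w w' hw
    exact h.Pinj (congrArg Subtype.val hw)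
  · rintro ⟨x, w, rfl⟩
    exact ⟨w, rfl⟩

/-- lower bounds for the order of `E` -/
lemma E_card [Finite G] (h : PTS L a ω Q e κ tor P) (d : EData L ω Q tor P E T U c f η) :
    T.card * Nat.card (kr E f) ≤ Nat.card E := by
  rcases d.hT with hT | hT
  · rw [hT, Finset.card_singleton, one_mul]
    exact Nat.card_le_card_of_injective _ (inclusion_injective kr_le)
  · obtain ⟨x, hx, hx1⟩ := d.nonT hT
    rw [hT, Finset.card_univ, ZMod.card]
    exact card_kr_two d.addf hx hx1

lemma PG_le (h : PTS L a ω Q e κ tor P) (d : EData L ω Q tor P E T U c f η) : PG h ≤ kr E f := by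
  rintro _ ⟨w, rfl⟩
  exact (mem_kr d.addf).2 ⟨d.PE w, d.fP w⟩

end

end Vale.Agent.P240.R2.H487
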