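import Vale.Agent.P240.R2.H487.CI

/-!
Assembly of the blocks, part 2.
-/

set_option linter.all false

namespace Vale.Agent.P240.R2.H487

open Finsupp hiding cons
open Subgroup Vale.Agent.P240.K Vale.Agent.P240.H195

universe u v

section
variable {G : Type u} [Group G] {F : Type*} [Field F] {W : Type*} [AddCommGroup W]
variable {L : Subgroup G} {a : ℕ} {ω : W → W → ZMod 2} {Q : W → ZMod 2} {e : Fin a → Bool → W}
  {κ : RingAut F → ZMod 2} {tor : W → Fˣ →* G} {P : W → G}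
variable {E : Subgroup G} {T : Finset (ZMod 2)} {U : ZMod 2 → Subgroup Fˣ} {c : W → G → ZMod 2}
  {f : G → ZMod 2} {η : ZMod 2}

lemma c_add (h : PTS L a ω Q e κ tor P) (d : EData L ω Q tor P E T U c f η) {b b' : W}
    (hb : b ≠ 0) (hb' : b' ≠ 0) (hbb : b + b' ≠ 0) (hω : ω b b' = 1) {x : G} (hx : x ∈ E) :
    c (b + b') x = c b x + c b' x + η * f x := by
  obtain ⟨w₀, ε, h1, -⟩ := d.rep x hx
  rw [h1 b hb, h1 b' hb', h1 _ hbb, h.ωadd', h.Qadd, hω]
  have e2 : (2 : ZMod 2) = 0 := by decide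
  have e3 : ω w₀ b + ω w₀ b' + ε * (Q b + Q b' + 1 + 1) + η * f x * (Q b + Q b' + 1) =
    ω w₀ b + ε * (Q b + 1) + η * f x * Q b + (ω w₀ b' + ε * (Q b' + 1) + η * f x * Q b') +
      η * f x := by ring
  exact e3

lemma ne_of_ω (h : PTS L a ω Q e κ tor P) {b b' : W} (hω : ω b b' = 1) :
    b ≠ 0 ∧ b' ≠ 0 ∧ b + b' ≠ 0 := by
  refine ⟨?_, ?_, ?_⟩
  · rintro rfl
    rw [h.ωzero] at hω
    exact zero_ne_one hω
  · rintro rfl
    rw [h.ωsymm, h.ωzero] at hω
    exact zero_ne_one hω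
  · intro h0
    have h1 : b = b' := by
      have h2 : b = b + b' + b' := by rw [add_assoc, h.two, add_zero]
      rw [h2, h0, zero_add]
    rw [h1, h.ωself] at hω
    exact zero_ne_one hω

/-- construction of blocks -/
theorem mkBlk (h : PTS L a ω Q e κ tor P) (d : EData L ω Q tor P E T U c f η) {E' : Subgroup G}
    (hE' : E' ≤ E) {m : ℕ} {g : Fin m → W} {T' : Finset (ZMod 2)} {U' : ZMod 2 → Subgroup Fˣ}
    {η' : ZMod 2} (hg : ∀ i j, i ≠ j → ω (g i) (g j) = 1) (hg0 : ∀ i, g i ≠ 0)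
    (bas : Bas E' Finset.univ T' (fun i => c (g i)) f)
    (hU : ∀ t ∈ T', ∃ t' ∈ T, U' t = U t' ∧ ∀ x ∈ E', t * f x = t' * f x)
    (hη : η' ∈ T') (hη' : ∀ x ∈ E', η' * f x = η * f x)
    (hPE : ∀ b ∈ VB Finset.univ g, P b ∈ E')
    (hCL : ∀ w, w ≠ 0 → P w ∈ E' → w ∈ VB Finset.univ g) :
    Blk L E' Finset.univ T' U' tor P c f η' g := by
  have hne : ∀ b ∈ VB Finset.univ g, b ≠ 0 := by
    rintro b (⟨i, -, rfl⟩ | ⟨i, -, j, -, hij, rfl⟩)
    · exact hg0 i
    · exact (ne_of_ω h (hg i j hij)).2.2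
  exact {
    bas := bas
    addc := fun b hb => (d.addc b (hne b hb)).mono hE'
    act := by
      intro x hx b hb t ht μ hμ
      obtain ⟨t', ht', hUt, hft⟩ := hU t ht
      rw [hUt] at hμ
      rw [d.act x (hE' hx) b (hne b hb) t' ht' μ hμ, hft x hx]
    rel := by
      intro i _ j _ hij x hx
      obtain ⟨h1, h2, h3⟩ := ne_of_ω h (hg i j hij)
      rw [c_add h d h1 h2 h3 (hg i j hij) (hE' hx), hη' x hx]
    ηT := hη
    big := by
      intro t ht
      obtain ⟨t', ht', hUt, -⟩ := hU t ht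
      rw [hUt]
      exact d.big t' ht'
    tor1 := fun b hb μ hμ => (h.tor1 b (hne b hb) μ).1 hμ
    torL := fun b _ μ => h.torL b μ
    PE := fun b hb => ⟨hPE b hb, h.PL b, fun h0 => hne b hb (h.P1 b h0)⟩
    CL := by
      intro x hx hxL hx1
      obtain ⟨w, rfl⟩ := h.CL x hxL fun w => d.comm x (hE' hx) _ (d.PE w)
      refine ⟨w, hCL w ?_ hx, rfl⟩
      rintro rfl
      exact hx1 h.P0
    conj := fun y hy b hb b' hb' he => h.conj y hy b b' (hne b hb) (hne b' hb') he }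

/-- the vectors of a slot -/
def gS (e : Fin a → Bool → W) (k : Fin a) : Fin 2 → W := ![e k false, e k true]

lemma mem_VB_gS {k : Fin a} {b : W} : b ∈ VB Finset.univ (gS e k) ↔
    b = e k false ∨ b = e k true ∨ b = e k false + e k true := by
  constructor
  · rintro (⟨i, -, rfl⟩ | ⟨i, -, j, -, hij, rfl⟩)
    · fin_cases i
      · exact Or.inl rfl
      · exact Or.inr (Or.inl rfl)
    · fin_cases i <;> fin_cases j
      · exact absurd rfl hij
      · exact Or.inr (Or.inr rfl)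
      · exact Or.inr (Or.inr (add_comm _ _))
      · exact absurd rfl hij
  · rintro (rfl | rfl | rfl)
    · exact Or.inl ⟨0, Finset.mem_univ _, rfl⟩
    · exact Or.inl ⟨1, Finset.mem_univ _, rfl⟩
    · exact Or.inr ⟨0, Finset.mem_univ _, 1, Finset.mem_univ _, by decide, rfl⟩

lemma gS_ω (h : PTS L a ω Q e κ tor P) (k : Fin a) (i j : Fin 2) (hij : i ≠ j) :
    ω (gS e k i) (gS e k j) = 1 := by
  fin_cases i <;> fin_cases j
  · exact absurd rfl hij
  · exact h.ωe k
  · exact h.ωe_symm k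
  · exact absurd rfl hij

lemma gS_ne (h : PTS L a ω Q e κ tor P) (k : Fin a) (i : Fin 2) : gS e k i ≠ 0 := by
  fin_cases i
  · exact h.e_ne k false
  · exact h.e_ne k true

lemma P_mem_SV (h : PTS L a ω Q e κ tor P) {k : Fin a} {w : W} (hw : w ≠ 0) :
    P w ∈ SV h k ↔ w ∈ VB Finset.univ (gS e k) := by
  rw [mem_VB_gS, mem_SV]
  constructor
  · rintro ⟨s, t, h1⟩
    have h2 := h.Pinj h1
    rcases zmod2_cases s with rfl | rfl <;> rcases zmod2_cases t with rfl | rfl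
    · rw [vs_zero, vs_zero, add_zero] at h2
      exact absurd h2 hw
    · rw [vs_zero, vs_one, zero_add] at h2
      exact Or.inr (Or.inl h2)
    · rw [vs_zero, vs_one, add_zero] at h2
      exact Or.inl h2
    · rw [vs_one, vs_one] at h2
      exact Or.inr (Or.inr h2)
  · rintro (rfl | rfl | rfl)
    · exact ⟨1, 0, by rw [vs_one, vs_zero, add_zero]⟩
    · exact ⟨0, 1, by rw [vs_one, vs_zero, zero_add]⟩
    · exact ⟨1, 1, by rw [vs_one, vs_one]⟩

lemma SV_le (h : PTS L a ω Q e κ tor P) (d : EData L ω Q tor P E T U c f η) (k : Fin a) :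
    SV h k ≤ E := by
  rintro _ ⟨s, t, rfl⟩
  exact d.PE _

lemma SV_f (h : PTS L a ω Q e κ tor P) (d : EData L ω Q tor P E T U c f η) (k : Fin a) :
    ∀ x ∈ SV h k, f x = 0 := by
  rintro _ ⟨s, t, rfl⟩
  exact d.fP _

/-- the block of a slot -/
theorem slotBlk [Finite G] (h : PTS L a ω Q e κ tor P) (d : EData L ω Q tor P E T U c f η)
    (k : Fin a) : Blk L (SV h k) Finset.univ {0} (fun _ => U η) tor P c f 0 (gS e k) := by
  have hf := SV_f h d k
  refine mkBlk h d (SV_le h d k) (gS_ω h k) (gS_ne h k) ?_ (fun t ht => ⟨η, d.ηT, rfl, fun x hx => by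
    rw [hf x hx, mul_zero, mul_zero]⟩) (Finset.mem_singleton_self _) (fun x hx => by
    rw [hf x hx, mul_zero, mul_zero]) (fun b hb => ?_) fun w hw hPw => (P_mem_SV h hw).1 hPw
  · refine Bas.mk' (Or.inl rfl) (fun x hx y hy => d.comm x (SV_le h d k hx) y (SV_le h d k hy))
      (fun x hx => d.sq x (SV_le h d k hx))
      (fun i _ => (d.addc _ (gS_ne h k i)).mono (SV_le h d k)) (d.addf.mono (SV_le h d k))
      (fun x hx => by rw [hf x hx]; exact Finset.mem_singleton_self _) ?_ ?_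
    · rintro _ ⟨s, t, rfl⟩ h1 -
      have h2 := h1 0 (Finset.mem_univ _)
      have h3 := h1 1 (Finset.mem_univ _)
      change c (e k false) _ = 0 at h2
      change c (e k true) _ = 0 at h3
      rw [d.cP _ _ (h.e_ne k false)] at h2
      rw [d.cP _ _ (h.e_ne k true)] at h3
      simp only [h.ωadd, h.ω_vs, h.ωself, h.ωe, h.ωe_symm, mul_one, mul_zero, add_zero,
        zero_add] at h2 h3
      rw [h2, h3, vs_zero, vs_zero, add_zero, h.P0]
    · rw [SV_card]
      decide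
  · have hb0 : b ≠ 0 := by
      rcases mem_VB_gS.1 hb with rfl | rfl | rfl
      · exact h.e_ne k false
      · exact h.e_ne k true
      · exact (ne_of_ω h (h.ωe k)).2.2
    exact (P_mem_SV h hb0).2 hb

/-- the generators of the slots `j ≥ k` -/
def SS (U : ZMod 2 → Subgroup Fˣ) (tor : W → Fˣ →* G) (P : W → G) (η : ZMod 2)
    (e : Fin a → Bool → W) (k : ℕ) : Set G :=
  {y | ∃ j : Fin a, k ≤ (j : ℕ) ∧ ∃ b ∈ VB Finset.univ (gS e j), y = P b ∨ ∃ μ ∈ U η, y = tor b μ}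

/-- the group of a slot -/
def NK (U : ZMod 2 → Subgroup Fˣ) (tor : W → Fˣ →* G) (P : W → G) (η : ZMod 2)
    (e : Fin a → Bool → W) (k : Fin a) : Subgroup G :=
  closure {y | ∃ b ∈ VB Finset.univ (gS e k), y = P b ∨ ∃ μ ∈ U η, y = tor b μ}

/-- the group that commutes with the slots `j ≥ k` -/
def MK (X : Subgroup G) (U : ZMod 2 → Subgroup Fˣ) (tor : W → Fˣ →* G) (P : W → G) (η : ZMod 2)
    (e : Fin a → Bool → W) (k : ℕ) : Subgroup G :=
  X ⊓ centralizer (SS U tor P η e k)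

lemma gS_perp (h : PTS L a ω Q e κ tor P) {j k : Fin a} (hjk : j ≠ k) {b b' : W}
    (hb : b ∈ VB Finset.univ (gS e j)) (hb' : b' ∈ VB Finset.univ (gS e k)) : ω b b' = 0 := by
  rw [mem_VB_gS] at hb hb'
  rcases hb with rfl | rfl | rfl <;> rcases hb' with rfl | rfl | rfl <;>
    simp only [h.ωadd, h.ωadd', h.ωe' j k _ _ hjk, add_zero]

lemma VB_ne (h : PTS L a ω Q e κ tor P) {k : Fin a} {b : W}
    (hb : b ∈ VB Finset.univ (gS e k)) : b ≠ 0 := by
  rcases mem_VB_gS.1 hb with rfl | rfl | rfl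
  · exact h.e_ne k false
  · exact h.e_ne k true
  · exact (ne_of_ω h (h.ωe k)).2.2

/-- commutation of generators -/
lemma gen_comm (h : PTS L a ω Q e κ tor P) {b b' : W} (hb : b ≠ 0) (hb' : b' ≠ 0)
    (hω : ω b b' = 0) {y y' : G} (hy : y = P b ∨ ∃ μ, y = tor b μ)
    (hy' : y' = P b' ∨ ∃ μ, y' = tor b' μ) : y * y' = y' * y := by
  have hP : ∀ w b, b ≠ 0 → ω w b = 0 → ∀ μ, P w * tor b μ = tor b μ * P w := by
    intro w b hb hω μ
    have h1 := h.Ptor w b hb μ
    rw [hω, sgn_zero, zpow_one] at h1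
    exact mul_inv_eq_iff_eq_mul.1 h1
  rcases hy with rfl | ⟨μ, rfl⟩ <;> rcases hy' with rfl | ⟨μ', rfl⟩
  · exact h.Pcomm _ _
  · exact hP _ _ hb' hω _
  · exact (hP _ _ hb (by rw [h.ωsymm]; exact hω) _).symm
  · exact h.comm b b' hb hb' hω _ _

lemma NK_le_MK (h : PTS L a ω Q e κ tor P) (d : EData L ω Q tor P E T U c f η) {X : Subgroup G}
    (hEX : E ≤ X) (k : Fin a) (hsl : ∀ b ∈ VB Finset.univ (gS e k), ∀ μ ∈ U η, tor b μ ∈ X)
    {l : ℕ} (hl : (k : ℕ) < l) :
    NK U tor P η e k ≤ MK X U tor P η e l := by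
  rw [NK, closure_le]
  rintro y ⟨b, hb, hy⟩
  refine mem_inf.2 ⟨?_, ?_⟩
  · rcases hy with rfl | ⟨μ, hμ, rfl⟩
    · exact hEX (d.PE b)
    · exact hsl b hb μ hμ
  · rw [mem_centralizer_iff]
    rintro y' ⟨j, hj, b', hb', hy'⟩
    have hjk : j ≠ k := by
      rintro rfl
      omega
    exact gen_comm h (VB_ne h hb') (VB_ne h hb) (gS_perp h hjk hb' hb)
      (hy'.imp id fun ⟨μ, _, h⟩ => ⟨μ, h⟩) (hy.imp id fun ⟨μ, _, h⟩ => ⟨μ, h⟩)

lemma MK_mono {X : Subgroup G} {k l : ℕ} (hkl : k ≤ l) :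
    MK X U tor P η e k ≤ MK X U tor P η e l := by
  refine inf_le_inf_left _ (centralizer_le ?_)
  rintro y ⟨j, hj, h⟩
  exact ⟨j, hkl.trans hj, h⟩

lemma MK_NK {X : Subgroup G} {k : Fin a} :
    ∀ x ∈ MK X U tor P η e k, ∀ y ∈ NK U tor P η e k, x * y = y * x := by
  intro x hx y hy
  have h1 : NK U tor P η e k ≤ centralizer {x} := by
    rw [NK, closure_le]
    rintro z ⟨b, hb, hz⟩
    rw [SetLike.mem_coe, mem_centralizer_singleton_iff]
    exact (mem_centralizer_iff.1 hx.2) z ⟨k, le_rfl, b, hb, hz⟩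
  exact (mem_centralizer_singleton_iff.1 (h1 hy)).symm

/-- triviality of the intersection -/
lemma FK_NK (h : PTS L a ω Q e κ tor P) (d : EData L ω Q tor P E T U c f η) (k : Fin a) :
    FK h d k ⊓ NK U tor P η e k = ⊥ := by
  rw [eq_bot_iff]
  rintro x ⟨hx, hxN⟩
  have hxL : x ∈ L := by
    have h1 : NK U tor P η e k ≤ L := by
      rw [NK, closure_le]
      rintro y ⟨b, -, rfl | ⟨μ, -, rfl⟩⟩
      · exact h.PL b
      · exact h.torL b μ
    exact h1 hxN
  obtain ⟨w, rfl⟩ := h.CL x hxL fun w => d.comm x (FK_le h d _ hx) _ (d.PE w)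
  rw [mem_bot]
  have hw : w = 0 := by
    refine h.sep w fun j α => ?_
    by_cases hjk : k ≤ j
    · exact (P_mem_FK h d).1 hx j hjk α
    · -- `P w` commutes with the torus of `e j α`
      have hlt : j ≠ k := by
        rintro rfl
        exact hjk le_rfl
      obtain ⟨μ, hμ, hμ4⟩ := d.big η d.ηT
      have h1 : NK U tor P η e k ≤ centralizer {tor (e j α) μ} := by
        rw [NK, closure_le]
        rintro z ⟨b, hb, hz⟩
        rw [SetLike.mem_coe, mem_centralizer_singleton_iff]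
        have hje : e j α ∈ VB Finset.univ (gS e j) := by
          rw [mem_VB_gS]
          cases α
          · exact Or.inl rfl
          · exact Or.inr (Or.inl rfl)
        exact gen_comm h (VB_ne h hb) (h.e_ne j α) (gS_perp h (Ne.symm hlt) hb hje)
          (hz.imp id fun ⟨μ, _, h⟩ => ⟨μ, h⟩) (Or.inr ⟨μ, rfl⟩)
      have h2 := mem_centralizer_singleton_iff.1 (h1 hxN)
      have h3 := h.Ptor w _ (h.e_ne j α) μ
      rw [h2, mul_inv_cancel_right] at h3
      rcases zmod2_cases (ω w (e j α)) with h4 | h4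
      · exact h4
      · exfalso
        rw [h4, sgn_one, zpow_neg_one] at h3
        apply hμ4
        have h5 : tor (e j α) (μ ^ 2) = 1 := by
          rw [map_pow, pow_two]
          nth_rewrite 1 [h3]
          exact inv_mul_cancel _
        have h6 := (h.tor1 _ (h.e_ne j α) _).1 h5
        rw [← pow_mul] at h6
        exact h6
  rw [hw, h.P0]

/-- `F_k` lies in `M_k` -/
lemma FK_le_MK (h : PTS L a ω Q e κ tor P) (d : EData L ω Q tor P E T U c f η) {X : Subgroup G}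
    (hEX : E ≤ X) (k : ℕ) : FK h d k ≤ MK X U tor P η e k := by
  intro x hx
  have hxE := FK_le h d k hx
  refine mem_inf.2 ⟨hEX hxE, ?_⟩
  rw [mem_centralizer_iff]
  rintro y ⟨j, hj, b, hb, rfl | ⟨μ, hμ, rfl⟩⟩
  · exact d.comm _ (d.PE b) x hxE
  · have hc0 : c b x + η * f x = 0 := by
      have h1 := hx.2 j hj false
      have h2 := hx.2 j hj true
      rw [chi] at h1 h2
      rcases mem_VB_gS.1 hb with rfl | rfl | rfl
      · exact h1
      · exact h2
      · obtain ⟨e1, e2, e3⟩ := ne_of_ω h (h.ωe j)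
        rw [c_add h d e1 e2 e3 (h.ωe j) hxE]
        have e4 : c (e j false) x + c (e j true) x + η * f x + η * f x =
          (c (e j false) x + η * f x) + (c (e j true) x + η * f x) := by ring
        rw [e4, h1, h2, add_zero]
    have h3 := d.act x hxE b (VB_ne h hb) η d.ηT μ hμ
    rw [hc0, sgn_zero, zpow_one] at h3
    exact (mul_inv_eq_iff_eq_mul.1 h3).symm

/-- **The induction over the slots.** -/
theorem assemble [Finite G] [Finite F] {𝕜 : Type v} [Field 𝕜] (h : PTS L a ω Q e κ tor P)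
    (d : EData L ω Q tor P E T U c f η) {X : Subgroup G} (hEX : E ≤ X)
    (hsl : ∀ k, ∀ b ∈ VB Finset.univ (gS e k), ∀ μ ∈ U η, tor b μ ∈ X)
    (hη : (Nat.card {μ : Fˣ // μ ∈ U η ∧ μ ^ 8 = 1} : ℚ) / Nat.card (U η) < 2 / 3) {k₀ : ℕ}
    (hk₀ : k₀ ≤ a) (hhead : ∃ (α : Ch 𝕜 (Subgroup G)) (φ : List (Subgroup G)),
      TopCycle 𝕜 2 (MK X U tor P η e k₀) (FK h d k₀) α φ) :
    ∃ (α : Ch 𝕜 (Subgroup G)) (φ : List (Subgroup G)), TopCycle 𝕜 2 X E α φ := by
  have : Fact (Nat.Prime 2) := ⟨Nat.prime_two⟩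
  have key : ∀ i, k₀ + i ≤ a → ∃ (α : Ch 𝕜 (Subgroup G)) (φ : List (Subgroup G)),
      TopCycle 𝕜 2 (MK X U tor P η e (k₀ + i)) (FK h d (k₀ + i)) α φ := by
    intro i
    induction i with
    | zero => exact fun _ => hhead
    | succ i ih =>
      intro hi
      obtain ⟨α, φ, hT⟩ := ih (by omega)
      obtain ⟨k, hk⟩ : ∃ k : Fin a, (k : ℕ) = k₀ + i := ⟨⟨k₀ + i, by omega⟩, rfl⟩
      rw [← hk] at hT
      obtain ⟨α', φ', hT'⟩ := (slotBlk h d k).top (𝕜 := 𝕜) (n := 0) (by rw [SV_card]; norm_num)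
        ((Nat.card {μ : Fˣ // μ ∈ U η ∧ μ ^ 8 = 1} : ℚ) / Nat.card (U η))
        (by rw [Finset.sum_singleton]) (by
          have e1 : ((Finset.univ : Finset (Fin 2)).card : ℕ) = 2 := by decide
          have e2 : (prs (Finset.univ : Finset (Fin 2))).card = 1 := by decide
          rw [e1, e2, Finset.card_singleton]
          norm_num
          linarith)
        (M := NK U tor P η e k) (by
          rintro x hx
          by_cases hx1 : x = 1
          · rw [hx1]
            exact one_mem _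
          · obtain ⟨s, t, rfl⟩ := id hx
            have hw : vs s (e k false) + vs t (e k true) ≠ 0 := fun h0 => hx1 (by rw [h0, h.P0])
            exact subset_closure ⟨_, (P_mem_SV h hw).1 hx, Or.inl rfl⟩)
        (fun b hb t _ μ hμ => subset_closure ⟨b, hb, Or.inr ⟨μ, hμ, rfl⟩⟩)
      obtain ⟨α'', φ'', hT''⟩ := topCycle_join hT hT' (fun x hx y hy => MK_NK x hx y hy)
        (FK_NK h d k)
      rw [FK_sup] at hT''
      refine ⟨α'', φ'', ?_⟩
      have h1 : k₀ + (i + 1) = (k : ℕ) + 1 := by omega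
      rw [h1]
      exact r5_mono (sup_le (MK_mono (Nat.le_succ _)) (NK_le_MK h d hEX k (hsl k) (Nat.lt_succ_self _))) hT''
  obtain ⟨i, hi⟩ := Nat.exists_eq_add_of_le hk₀
  obtain ⟨α, φ, hT⟩ := key i (by omega)
  rw [← hi, FK_top] at hT
  exact ⟨α, φ, r5_mono inf_le_left hT⟩

end

end Vale.Agent.P240.R2.H487
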