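import Vale.Agent.P240.R2.H487.CI2

/-!
The head blocks.
-/

set_option linter.all false

namespace Vale.Agent.P240.R2.H487

open Finsupp hiding cons
open Subgroup Vale.Agent.P240.K Vale.Agent.P240.H195

universe u v

section
variable {G : Type u} [Group G] {F : Type*} [Field F] {W : Type*} [AddCommGroup W]
variable {L : Subgroup G} {a : ℕ} {ω : W → W → ZMod 2} {Q : W → ZMod 2} {e : Fin a → Bool → W}
  {κ : RingAut F → ZMod 2} {tor : W → Fˣ →* G} {P : W → G}
variable {E : Subgroup G} {T : Finset (ZMod 2)} {U : ZMod 2 → Subgroup Fˣ} {c : W → G → ZMod 2}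
  {f : G → ZMod 2} {η : ZMod 2}

/-- the ratio of a torus -/
noncomputable def rat (U : ZMod 2 → Subgroup Fˣ) (t : ZMod 2) : ℚ :=
  (Nat.card {μ : Fˣ // μ ∈ U t ∧ μ ^ 8 = 1} : ℚ) / Nat.card (U t)

lemma rat_nonneg (U : ZMod 2 → Subgroup Fˣ) (t : ZMod 2) : 0 ≤ rat U t :=
  div_nonneg (Nat.cast_nonneg _) (Nat.cast_nonneg _)

/-- top cycles for head blocks -/
theorem headTop [Finite G] [Finite F] {𝕜 : Type v} [Field 𝕜] (h : PTS L a ω Q e κ tor P)
    (d : EData L ω Q tor P E T U c f η) {X : Subgroup G} (hEX : E ≤ X) {k₀ m : ℕ} {g : Fin m → W}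
    (hgX : ∀ b ∈ VB Finset.univ g, ∀ t ∈ T, ∀ μ ∈ U t, tor b μ ∈ X)
    (hg : ∀ i j, i ≠ j → ω (g i) (g j) = 1) (hg0 : ∀ i, g i ≠ 0)
    (hperp : ∀ i, ∀ j : Fin a, k₀ ≤ (j : ℕ) → ∀ α, ω (g i) (e j α) = 0)
    (hCL : ∀ w, w ≠ 0 → (∀ j : Fin a, k₀ ≤ (j : ℕ) → ∀ α, ω w (e j α) = 0) →
      w ∈ VB Finset.univ g)
    (bas : Bas (FK h d k₀) Finset.univ T (fun i => c (g i)) f) {n : ℕ}
    (hn : Nat.card (FK h d k₀) = 2 ^ (n + 2))
    (hnum : ((T.card ^ (m - 1) * (m - 1).factorial : ℕ) : ℚ) *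
      ((m + (prs (Finset.univ : Finset (Fin m))).card) * ∑ t ∈ T, rat U t) +
        (((T.card - 1) * m.factorial : ℕ) : ℚ) ≤ ((T.card ^ m * m.factorial : ℕ) : ℚ)) :
    ∃ (α : Ch 𝕜 (Subgroup G)) (φ : List (Subgroup G)),
      TopCycle 𝕜 2 (MK X U tor P η e k₀) (FK h d k₀) α φ := by
  have hVBp : ∀ b ∈ VB Finset.univ g, ∀ j : Fin a, k₀ ≤ (j : ℕ) → ∀ α, ω b (e j α) = 0 := by
    rintro b (⟨i, -, rfl⟩ | ⟨i, -, i', -, -, rfl⟩) j hj α
    · exact hperp i j hj α
    · rw [h.ωadd, hperp i j hj α, hperp i' j hj α, add_zero]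
  have hVB0 : ∀ b ∈ VB Finset.univ g, b ≠ 0 := by
    rintro b (⟨i, -, rfl⟩ | ⟨i, -, j, -, hij, rfl⟩)
    · exact hg0 i
    · exact (ne_of_ω h (hg i j hij)).2.2
  have hB : Blk L (FK h d k₀) Finset.univ T U tor P c f η g :=
    mkBlk h d (FK_le h d k₀) hg hg0 bas (fun t ht => ⟨t, ht, rfl, fun _ _ => rfl⟩) d.ηT
      (fun _ _ => rfl) (fun b hb => (P_mem_FK h d).2 (hVBp b hb))
      (fun w hw hPw => hCL w hw ((P_mem_FK h d).1 hPw))
  have ecard : (Finset.univ : Finset (Fin m)).card = m := by rw [Finset.card_univ, Fintype.card_fin]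
  refine hB.top hn (∑ t ∈ T, rat U t) le_rfl (by rw [ecard]; exact hnum) (FK_le_MK h d hEX k₀) ?_
  intro b hb t ht μ hμ
  refine mem_inf.2 ⟨hgX b hb t ht μ hμ, ?_⟩
  rw [mem_centralizer_iff]
  rintro y ⟨j, hj, b', hb', hy⟩
  refine gen_comm h (VB_ne h hb') (hVB0 b hb) ?_ (hy.imp id fun ⟨μ, _, h⟩ => ⟨μ, h⟩)
    (Or.inr ⟨μ, rfl⟩)
  rw [mem_VB_gS] at hb'
  rw [h.ωsymm]
  rcases hb' with rfl | rfl | rfl
  · exact hVBp b hb j hj _
  · exact hVBp b hb j hj _
  · rw [h.ωadd', hVBp b hb j hj, hVBp b hb j hj, add_zero]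

/-- the sizes -/
lemma kr_ge (h : PTS L a ω Q e κ tor P) [Finite G] (d : EData L ω Q tor P E T U c f η) :
    4 ^ a ≤ Nat.card (kr E f) := by
  rw [← PG_card h]
  exact Nat.card_le_card_of_injective _ (inclusion_injective (PG_le h d))

lemma kr_ge' (h : PTS L a ω Q e κ tor P) [Finite G] (d : EData L ω Q tor P E T U c f η) {x : G}
    (hx : x ∈ E) (hx1 : x ≠ 1) (hf : f x = 0) (hc : ∀ j α, c (e j α) x = 0) :
    2 * 4 ^ a ≤ Nat.card (kr E f) := by
  have h1 : Nat.card (PG h) ∣ Nat.card (kr E f) := card_dvd_of_le (PG_le h d)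
  obtain ⟨k, hk⟩ := h1
  rw [PG_card] at hk
  have h2 : k ≠ 0 := by
    rintro rfl
    rw [mul_zero] at hk
    exact Nat.card_pos.ne' hk
  have h3 : k ≠ 1 := by
    rintro rfl
    rw [mul_one] at hk
    have h4 : PG h = kr E f := eq_of_le_of_card_ge (PG_le h d) (by rw [hk, PG_card])
    have h5 : x ∈ PG h := by
      rw [h4, mem_kr d.addf]
      exact ⟨hx, hf⟩
    obtain ⟨w, rfl⟩ := (mem_PG h).1 h5
    apply hx1
    have h6 : w = 0 := h.sep w fun j α => by rw [← d.cP w _ (h.e_ne j α), hc]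
    rw [h6, h.P0]
  rw [hk, mul_comm]
  exact Nat.mul_le_mul_left _ (by omega)

/-- the head block without special elements -/
theorem head1 [Finite G] [Finite F] {𝕜 : Type v} [Field 𝕜] (h : PTS L a ω Q e κ tor P)
    (d : EData L ω Q tor P E T U c f η) {X : Subgroup G} (hEX : E ≤ X) (ha : 1 ≤ a)
    (hgX : ∀ k, ∀ b ∈ VB Finset.univ (gS e k), ∀ t ∈ T, ∀ μ ∈ U t, tor b μ ∈ X)
    (hNG : ∀ x ∈ E, f x = 0 → (∀ j α, c (e j α) x = 0) → x = 1)
    (h0 : T = {0} → rat U 0 < 2 / 3) (h1 : T = Finset.univ → rat U 0 + rat U 1 < 1) :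
    ∃ (α : Ch 𝕜 (Subgroup G)) (φ : List (Subgroup G)),
      TopCycle 𝕜 2 (MK X U tor P η e 1) (FK h d 1) α φ := by
  obtain ⟨z, hz⟩ : ∃ z : Fin a, (z : ℕ) = 0 := ⟨⟨0, by omega⟩, rfl⟩
  have hzne : ∀ j : Fin a, 1 ≤ (j : ℕ) → z ≠ j := by
    rintro j hj rfl
    omega
  have bas : Bas (FK h d 1) Finset.univ T (fun i => c (gS e z i)) f := by
    refine Bas.mk' d.hT (fun x hx y hy => d.comm x (FK_le h d 1 hx) y (FK_le h d 1 hy))
      (fun x hx => d.sq x (FK_le h d 1 hx))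
      (fun i _ => (d.addc _ (gS_ne h z i)).mono (FK_le h d 1)) (d.addf.mono (FK_le h d 1))
      (fun x hx => d.val x (FK_le h d 1 hx)) ?_ ?_
    · intro x hx h2 h3
      refine hNG x (FK_le h d 1 hx) h3 fun j α => ?_
      rcases Nat.eq_zero_or_pos (j : ℕ) with hj | hj
      · have : j = z := Fin.ext (by rw [hj, hz])
        subst this
        cases α with
        | false => exact h2 0 (Finset.mem_univ _)
        | true => exact h2 1 (Finset.mem_univ _)
      · have h4 := hx.2 j hj α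
        rw [chi, h3, mul_zero, add_zero] at h4
        exact h4
    · rw [Finset.card_univ, Fintype.card_fin]
      have h2 := FK_card h d (a - 1) 1 (by omega)
      have h3 := E_card h d
      have h4 := kr_ge h d
      have h5 : 4 ^ a = 4 ^ (a - 1) * 4 := by rw [← pow_succ]; congr 1; omega
      have h6 : T.card * 4 ^ a ≤ 4 ^ (a - 1) * Nat.card (FK h d 1) :=
        (Nat.mul_le_mul_left _ h4).trans (h3.trans h2)
      rw [h5] at h6
      have h7 : 4 ^ (a - 1) * (T.card * 2 ^ 2) ≤ 4 ^ (a - 1) * Nat.card (FK h d 1) := by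
        calc 4 ^ (a - 1) * (T.card * 2 ^ 2) = T.card * (4 ^ (a - 1) * 4) := by ring
          _ ≤ _ := h6
      exact Nat.le_of_mul_le_mul_left h7 (by positivity)
  have hprs : (prs (Finset.univ : Finset (Fin 2))).card = 1 := by decide
  have hcard := bas.card
  rw [Finset.card_univ, Fintype.card_fin] at hcard
  have hperp : ∀ i, ∀ j : Fin a, 1 ≤ (j : ℕ) → ∀ α, ω (gS e z i) (e j α) = 0 := by
    intro i j hj α
    refine gS_perp h (hzne j hj) (Or.inl ⟨i, Finset.mem_univ _, rfl⟩) ?_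
    rw [mem_VB_gS]
    cases α
    · exact Or.inl rfl
    · exact Or.inr (Or.inl rfl)
  have hCL : ∀ w, w ≠ 0 → (∀ j : Fin a, 1 ≤ (j : ℕ) → ∀ α, ω w (e j α) = 0) →
      w ∈ VB Finset.univ (gS e z) := by
    intro w hw hp
    have h2 : w + (vs (ω w (e z true)) (e z false) + vs (ω w (e z false)) (e z true)) = 0 := by
      refine h.sep _ fun j α => ?_
      rw [h.ωadd, h.ωadd, h.ω_vs, h.ω_vs]
      rcases Nat.eq_zero_or_pos (j : ℕ) with hj | hj
      · have : j = z := Fin.ext (by rw [hj, hz])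
        subst this
        cases α with
        | false =>
          rw [h.ωself, h.ωe_symm, mul_zero, zero_add, mul_one, zmod2_self]
        | true =>
          rw [h.ωself, h.ωe, mul_zero, add_zero, mul_one, zmod2_self]
      · rw [hp j hj α, h.ωe' z j _ _ (hzne j hj), h.ωe' z j _ _ (hzne j hj)]
        simp
    have h3 : w = vs (ω w (e z true)) (e z false) + vs (ω w (e z false)) (e z true) := by
      have h4 := congrArg (fun v => v +
        (vs (ω w (e z true)) (e z false) + vs (ω w (e z false)) (e z true))) h2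
      simp only [add_assoc, zero_add] at h4
      rw [← add_assoc (vs (ω w (e z true)) (e z false)), h.two, add_zero] at h4
      exact h4
    have h4 : P w ∈ SV h z := ⟨_, _, by rw [← h3]⟩
    exact (P_mem_SV h hw).1 h4
  rcases d.hT with hT | hT
  · refine headTop h d hEX (n := 0) (hgX z) (gS_ω h z) (gS_ne h z) hperp hCL bas
      (by rw [hcard, hT]; rfl) ?_
    rw [hT, hprs, Finset.card_singleton, Finset.sum_singleton]
    have := h0 hT
    norm_num
    linarith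
  · refine headTop h d hEX (n := 1) (hgX z) (gS_ω h z) (gS_ne h z) hperp hCL bas
      (by rw [hcard, hT]; rfl) ?_
    have e1 : ∑ t ∈ (Finset.univ : Finset (ZMod 2)), rat U t = rat U 0 + rat U 1 :=
      Fin.sum_univ_two (fun t : Fin 2 => rat U t)
    rw [hT, hprs, e1, Finset.card_univ, ZMod.card]
    have := h1 hT
    norm_num [Nat.factorial]
    linarith

end

end Vale.Agent.P240.R2.H487
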