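import Vale.Agent.P240.R2.H487.CJ

/-!
The head block with five anticommuting vectors.
-/

set_option linter.all false

namespace Vale.Agent.P240.R2.H487

open Finsupp hiding cons
open Subgroup Vale.Agent.P240.K Vale.Agent.P240.H195

universe u v

section
variable {G : Type u} [Group G] {F : Type*} [Field F] {W : Type*} [AddCommGroup W]
variable {L : Subgroup G} {a : ℕ} {ω : W → W → ZMod 2} {Q : W → ZMod 2} {e : Fin a → Bool → W}
  {κ : RingAut F → ZMod 2} {tor : W → Fˣ →* G} {P : W → G}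
variable {E : Subgroup G} {T : Finset (ZMod 2)} {U : ZMod 2 → Subgroup Fˣ} {c : W → G → ZMod 2}
  {f : G → ZMod 2} {η : ZMod 2}

/-- combinations of the four vectors of two slots -/
def cmb (e : Fin a → Bool → W) (y z : Fin a) (v : Fin 4 → ZMod 2) : W :=
  vs (v 0) (e y false) + vs (v 1) (e y true) + vs (v 2) (e z false) + vs (v 3) (e z true)

/-- five anticommuting vectors -/
def gam : Fin 5 → Fin 4 → ZMod 2 :=
  ![![1, 0, 0, 0], ![0, 1, 0, 0], ![1, 1, 1, 0], ![1, 1, 0, 1], ![1, 1, 1, 1]]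

/-- the symplectic form -/
def om4 (v v' : Fin 4 → ZMod 2) : ZMod 2 := v 0 * v' 1 + v 1 * v' 0 + v 2 * v' 3 + v 3 * v' 2

lemma gam_om : ∀ i j : Fin 5, i ≠ j → om4 (gam i) (gam j) = 1 := by decide

lemma gam_cover : ∀ v : Fin 4 → ZMod 2, v ≠ 0 →
    (∃ i : Fin 5, v = gam i) ∨ ∃ i j : Fin 5, i ≠ j ∧ v = gam i + gam j := by decide

lemma cmb_add (h : PTS L a ω Q e κ tor P) (y z : Fin a) (v v' : Fin 4 → ZMod 2) :
    cmb e y z (v + v') = cmb e y z v + cmb e y z v' := by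
  simp only [cmb, Pi.add_apply, h.vs_add]
  abel

lemma cmb_om (h : PTS L a ω Q e κ tor P) {y z : Fin a} (hyz : y ≠ z) (v v' : Fin 4 → ZMod 2) :
    ω (cmb e y z v) (cmb e y z v') = om4 v v' := by
  have h' : ∀ t w u, ω w (vs t u) = t * ω w u := fun t w u => by
    rw [h.ωsymm, h.ω_vs, h.ωsymm]
  simp only [cmb, h.ωadd, h.ωadd', h.ω_vs, h', h.ωself, h.ωe, h.ωe_symm, h.ωe' y z _ _ hyz,
    h.ωe' z y _ _ (Ne.symm hyz), om4]
  ring

lemma cmb_e (h : PTS L a ω Q e κ tor P) {y z : Fin a} (hyz : y ≠ z) (v : Fin 4 → ZMod 2) :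
    ω (cmb e y z v) (e y false) = v 1 ∧ ω (cmb e y z v) (e y true) = v 0 ∧
      ω (cmb e y z v) (e z false) = v 3 ∧ ω (cmb e y z v) (e z true) = v 2 := by
  simp only [cmb, h.ωadd, h.ω_vs, h.ωself, h.ωe, h.ωe_symm, h.ωe' y z _ _ hyz,
    h.ωe' z y _ _ (Ne.symm hyz)]
  refine ⟨by ring, by ring, by ring, by ring⟩

lemma cmb_far (h : PTS L a ω Q e κ tor P) {y z j : Fin a} (hy : y ≠ j) (hz : z ≠ j)
    (v : Fin 4 → ZMod 2) (α : Bool) : ω (cmb e y z v) (e j α) = 0 := by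
  simp only [cmb, h.ωadd, h.ω_vs, h.ωe' y j _ _ hy, h.ωe' z j _ _ hz]
  ring

lemma eq_of_add_zero (h : PTS L a ω Q e κ tor P) {v w : W} (h0 : v + w = 0) : v = w := by
  have h2 : v = v + w + w := by rw [add_assoc, h.two, add_zero]
  rw [h2, h0, zero_add]

/-- **The head block with special elements.** -/
theorem head2 [Finite G] [Finite F] {𝕜 : Type v} [Field 𝕜] (h : PTS L a ω Q e κ tor P)
    (d : EData L ω Q tor P E T U c f η) {X : Subgroup G} (hEX : E ≤ X) (ha : 2 ≤ a)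
    (hgX : ∀ b, b ≠ 0 → ∀ t ∈ T, ∀ μ ∈ U t, tor b μ ∈ X)
    (hG : ∃ x ∈ E, x ≠ 1 ∧ f x = 0 ∧ ∀ j α, c (e j α) x = 0)
    (h0 : T = {0} → rat U 0 ≤ 1 / 3) (h1 : T = Finset.univ → rat U 0 + rat U 1 ≤ 31 / 48) :
    ∃ (α : Ch 𝕜 (Subgroup G)) (φ : List (Subgroup G)),
      TopCycle 𝕜 2 (MK X U tor P η e 2) (FK h d 2) α φ := by
  obtain ⟨y, hy⟩ : ∃ y : Fin a, (y : ℕ) = 0 := ⟨⟨0, by omega⟩, rfl⟩
  obtain ⟨z, hz⟩ : ∃ z : Fin a, (z : ℕ) = 1 := ⟨⟨1, by omega⟩, rfl⟩
  have hyz : y ≠ z := by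
    intro h2
    have := congrArg Fin.val h2
    omega
  have hfar : ∀ j : Fin a, 2 ≤ (j : ℕ) → y ≠ j ∧ z ≠ j := by
    intro j hj
    constructor <;> rintro rfl <;> omega
  have hnear : ∀ j : Fin a, ¬ 2 ≤ (j : ℕ) → j = y ∨ j = z := by
    intro j hj
    rcases Nat.eq_zero_or_pos (j : ℕ) with h2 | h2
    · exact Or.inl (Fin.ext (by rw [h2, hy]))
    · exact Or.inr (Fin.ext (by omega))
  set g : Fin 5 → W := fun i => cmb e y z (gam i) with hg
  have hgω : ∀ i j, i ≠ j → ω (g i) (g j) = 1 := fun i j hij => by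
    rw [hg]
    change ω (cmb e y z (gam i)) (cmb e y z (gam j)) = 1
    rw [cmb_om h hyz, gam_om i j hij]
  have hg0 : ∀ i, g i ≠ 0 := by
    intro i
    obtain ⟨j, hij⟩ : ∃ j : Fin 5, i ≠ j := ⟨i + 1, by revert i; decide⟩
    exact (ne_of_ω h (hgω i j hij)).1
  have hgX' : ∀ b ∈ VB Finset.univ g, ∀ t ∈ T, ∀ μ ∈ U t, tor b μ ∈ X := by
    rintro b (⟨i, -, rfl⟩ | ⟨i, -, j, -, hij, rfl⟩)
    · exact hgX _ (hg0 i)
    · exact hgX _ (ne_of_ω h (hgω i j hij)).2.2
  have hperp : ∀ i, ∀ j : Fin a, 2 ≤ (j : ℕ) → ∀ α, ω (g i) (e j α) = 0 := fun i j hj α =>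
    cmb_far h (hfar j hj).1 (hfar j hj).2 _ α
  have hVB : ∀ v : Fin 4 → ZMod 2, v ≠ 0 → cmb e y z v ∈ VB Finset.univ g := by
    intro v hv
    rcases gam_cover v hv with ⟨i, rfl⟩ | ⟨i, j, hij, rfl⟩
    · exact Or.inl ⟨i, Finset.mem_univ _, rfl⟩
    · exact Or.inr ⟨i, Finset.mem_univ _, j, Finset.mem_univ _, hij, cmb_add h y z _ _⟩
  have hcmb0 : cmb e y z 0 = 0 := by simp [cmb, vs]
  have hCL : ∀ w, w ≠ 0 → (∀ j : Fin a, 2 ≤ (j : ℕ) → ∀ α, ω w (e j α) = 0) →
      w ∈ VB Finset.univ g := by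
    intro w hw hp
    obtain ⟨v, hv⟩ : ∃ v : Fin 4 → ZMod 2, v = ![ω w (e y true), ω w (e y false),
      ω w (e z true), ω w (e z false)] := ⟨_, rfl⟩
    have h2 : w + cmb e y z v = 0 := by
      refine h.sep _ fun j α => ?_
      rw [h.ωadd]
      obtain ⟨e1, e2, e3, e4⟩ := cmb_e h hyz v
      by_cases hj : 2 ≤ (j : ℕ)
      · rw [hp j hj α, cmb_far h (hfar j hj).1 (hfar j hj).2, add_zero]
      · rcases hnear j hj with rfl | rfl <;> cases α
        · rw [e1, hv]; exact zmod2_self _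
        · rw [e2, hv]; exact zmod2_self _
        · rw [e3, hv]; exact zmod2_self _
        · rw [e4, hv]; exact zmod2_self _
    have h3 := eq_of_add_zero h h2
    rw [h3]
    refine hVB v ?_
    rintro rfl
    rw [hcmb0] at h3
    exact hw h3
  have bas : Bas (FK h d 2) Finset.univ T (fun i => c (g i)) f := by
    refine Bas.mk' d.hT (fun x hx y hy => d.comm x (FK_le h d 2 hx) y (FK_le h d 2 hy))
      (fun x hx => d.sq x (FK_le h d 2 hx))
      (fun i _ => (d.addc _ (hg0 i)).mono (FK_le h d 2)) (d.addf.mono (FK_le h d 2))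
      (fun x hx => d.val x (FK_le h d 2 hx)) ?_ ?_
    · intro x hx h2 h3
      have hxE := FK_le h d 2 hx
      have hall : ∀ v : Fin 4 → ZMod 2, v ≠ 0 → cmb e y z v ≠ 0 ∧ c (cmb e y z v) x = 0 := by
        intro v hv
        rcases gam_cover v hv with ⟨i, rfl⟩ | ⟨i, j, hij, rfl⟩
        · exact ⟨hg0 i, h2 i (Finset.mem_univ _)⟩
        · obtain ⟨n1, n2, n3⟩ := ne_of_ω h (hgω i j hij)
          rw [cmb_add h]
          refine ⟨n3, ?_⟩
          have h4 := c_add h d n1 n2 n3 (hgω i j hij) hxE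
          rw [h2 i (Finset.mem_univ _), h2 j (Finset.mem_univ _), h3] at h4
          change c (g i + g j) x = 0
          rw [h4]
          ring
      obtain ⟨w₀, ε, h4, h5⟩ := d.rep x hxE
      have h6 : ∀ v : Fin 4 → ZMod 2, v ≠ 0 →
          ω w₀ (cmb e y z v) + ε * (Q (cmb e y z v) + 1) = 0 := by
        intro v hv
        obtain ⟨h7, h8⟩ := hall v hv
        rw [h4 _ h7, h3, mul_zero, zero_mul, add_zero] at h8
        exact h8
      have q1 := h6 ![1, 0, 0, 0] (by decide)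
      have q2 := h6 ![0, 0, 1, 0] (by decide)
      have q3 := h6 (![1, 0, 0, 0] + ![0, 0, 1, 0]) (by decide)
      rw [cmb_add h, h.ωadd', h.Qadd, cmb_om h hyz] at q3
      have q4 : om4 ![1, 0, 0, 0] ![0, 0, 1, 0] = 0 := by decide
      rw [q4, add_zero] at q3
      have hε : ε = 0 := by
        have e5 : ∀ p q r s t : ZMod 2, p + t * (r + 1) = 0 → q + t * (s + 1) = 0 →
            p + q + t * (r + s + 1) = 0 → t = 0 := by decide
        exact e5 _ _ _ _ _ q1 q2 q3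
      rw [hε] at h6 h4
      have h7 : ∀ v : Fin 4 → ZMod 2, v ≠ 0 → ω w₀ (cmb e y z v) = 0 := by
        intro v hv
        have := h6 v hv
        rwa [zero_mul, add_zero] at this
      have a1 : cmb e y z ![1, 0, 0, 0] = e y false := by simp [cmb, vs]
      have a2 : cmb e y z ![0, 1, 0, 0] = e y true := by simp [cmb, vs]
      have a3 : cmb e y z ![0, 0, 1, 0] = e z false := by simp [cmb, vs]
      have a4 : cmb e y z ![0, 0, 0, 1] = e z true := by simp [cmb, vs]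
      have b1 := h7 ![1, 0, 0, 0] (by decide)
      have b2 := h7 ![0, 1, 0, 0] (by decide)
      have b3 := h7 ![0, 0, 1, 0] (by decide)
      have b4 := h7 ![0, 0, 0, 1] (by decide)
      rw [a1] at b1
      rw [a2] at b2
      rw [a3] at b3
      rw [a4] at b4
      refine h5 (h.sep w₀ fun j α => ?_) hε h3
      by_cases hj : 2 ≤ (j : ℕ)
      · have h8 := hx.2 j hj α
        rw [chi, h3, mul_zero, add_zero, h4 _ (h.e_ne j α), h3, mul_zero, zero_mul, zero_mul,
          add_zero, add_zero] at h8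
        exact h8
      · rcases hnear j hj with rfl | rfl <;> cases α
        · exact b1
        · exact b2
        · exact b3
        · exact b4
    · rw [Finset.card_univ, Fintype.card_fin]
      obtain ⟨x, hx, hx1, hxf, hxc⟩ := hG
      have h2 := FK_card h d (a - 2) 2 (by omega)
      have h3 := E_card h d
      have h4 := kr_ge' h d hx hx1 hxf hxc
      have h5 : 4 ^ a = 4 ^ (a - 2) * 16 := by
        have : (16 : ℕ) = 4 ^ 2 := by norm_num
        rw [this, ← pow_add]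
        congr 1
        omega
      have h6 : T.card * (2 * 4 ^ a) ≤ 4 ^ (a - 2) * Nat.card (FK h d 2) :=
        (Nat.mul_le_mul_left _ h4).trans (h3.trans h2)
      rw [h5] at h6
      have h7 : 4 ^ (a - 2) * (T.card * 2 ^ 5) ≤ 4 ^ (a - 2) * Nat.card (FK h d 2) := by
        calc 4 ^ (a - 2) * (T.card * 2 ^ 5) = T.card * (2 * (4 ^ (a - 2) * 16)) := by ring
          _ ≤ _ := h6
      exact Nat.le_of_mul_le_mul_left h7 (by positivity)
  have hprs : (prs (Finset.univ : Finset (Fin 5))).card = 10 := by decide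
  have hcard := bas.card
  rw [Finset.card_univ, Fintype.card_fin] at hcard
  rcases d.hT with hT | hT
  · refine headTop h d hEX (n := 3) hgX' hgω hg0 hperp hCL bas (by rw [hcard, hT]; rfl) ?_
    rw [hT, hprs, Finset.card_singleton, Finset.sum_singleton]
    have := h0 hT
    norm_num [Nat.factorial]
    linarith
  · refine headTop h d hEX (n := 4) hgX' hgω hg0 hperp hCL bas (by rw [hcard, hT]; rfl) ?_
    have e1 : ∑ t ∈ (Finset.univ : Finset (ZMod 2)), rat U t = rat U 0 + rat U 1 :=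
      Fin.sum_univ_two (fun t : Fin 2 => rat U t)
    rw [hT, hprs, e1, Finset.card_univ, ZMod.card]
    have := h1 hT
    norm_num [Nat.factorial]
    linarith

/-- **Top cycles for elementary abelian groups containing a Pauli group.** -/
theorem pauli_top [Finite G] [Finite F] {𝕜 : Type v} [Field 𝕜] (h : PTS L a ω Q e κ tor P)
    (d : EData L ω Q tor P E T U c f η) {X : Subgroup G} (hEX : E ≤ X) (ha : 2 ≤ a)
    (hX : ∀ b, b ≠ 0 → ((∃ x ∈ E, x ≠ 1 ∧ f x = 0 ∧ ∀ j α, c (e j α) x = 0) ∨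
      ∃ k, b ∈ VB Finset.univ (gS e k)) → ∀ t ∈ T, ∀ μ ∈ U t, tor b μ ∈ X)
    (h0 : T = {0} → rat U 0 ≤ 1 / 3) (h1 : T = Finset.univ → rat U 0 + rat U 1 ≤ 31 / 48) :
    ∃ (α : Ch 𝕜 (Subgroup G)) (φ : List (Subgroup G)), TopCycle 𝕜 2 X E α φ := by
  have hη : rat U η < 2 / 3 := by
    rcases d.hT with hT | hT
    · have h2 := h0 hT
      have h3 := d.ηT
      rw [hT, Finset.mem_singleton] at h3
      rw [h3]
      linarith
    · have h2 := h1 hT
      have h3 := rat_nonneg U 0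
      have h4 := rat_nonneg U 1
      rcases zmod2_cases η with h5 | h5 <;> rw [h5] <;> linarith
  have hsl : ∀ k, ∀ b ∈ VB Finset.univ (gS e k), ∀ t ∈ T, ∀ μ ∈ U t, tor b μ ∈ X :=
    fun k b hb => hX b (VB_ne h hb) (Or.inr ⟨k, hb⟩)
  by_cases hG : ∃ x ∈ E, x ≠ 1 ∧ f x = 0 ∧ ∀ j α, c (e j α) x = 0
  · exact assemble h d hEX (fun k b hb => hsl k b hb η d.ηT) hη ha
      (head2 h d hEX ha (fun b hb => hX b hb (Or.inl hG)) hG h0 h1)
  · refine assemble h d hEX (fun k b hb => hsl k b hb η d.ηT) hη (k₀ := 1) (by omega)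
      (head1 h d hEX (by omega) hsl ?_ (fun hT => ?_) fun hT => ?_)
    · intro x hx hf hc
      by_contra hne
      exact hG ⟨x, hx, hne, hf, hc⟩
    · have := h0 hT
      linarith
    · have := h1 hT
      linarith

end

end Vale.Agent.P240.R2.H487
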