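import Mathlib.LinearAlgebra.Matrix.NonsingularInverse
import Vale.Agent.P240.R2.H487.CC

/-!
Pauli matrices.
-/

set_option linter.all false

namespace Vale.Agent.P240.R2.H487

open Matrix

section
variable (F : Type*) [Field F]

/-- signs -/
def s2 (x : ZMod 2) : F := if x = 0 then 1 else -1

lemma s2_zero : s2 F 0 = 1 := if_pos rfl

lemma s2_one : s2 F 1 = -1 := if_neg one_ne_zero

lemma s2_add (x y : ZMod 2) : s2 F (x + y) = s2 F x * s2 F y := by
  rcases zmod2_cases x with rfl | rfl <;> rcases zmod2_cases y with rfl | rfl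
  · rw [add_zero, s2_zero, mul_one]
  · rw [zero_add, s2_zero, one_mul]
  · rw [add_zero, s2_zero, mul_one]
  · rw [zmod2_self, s2_zero, s2_one, neg_mul_neg, one_mul]

lemma s2_sq (x : ZMod 2) : s2 F x * s2 F x = 1 := by
  rw [← s2_add, zmod2_self, s2_zero]

lemma s2_ne (x : ZMod 2) : s2 F x ≠ 0 := by
  intro h
  have := s2_sq F x
  rw [h, zero_mul] at this
  exact zero_ne_one this

lemma s2_map {K : Type*} [Field K] (τ : F →+* K) (x : ZMod 2) : τ (s2 F x) = s2 K x := by
  rcases zmod2_cases x with rfl | rfl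
  · rw [s2_zero, s2_zero, map_one]
  · rw [s2_one, s2_one, map_neg, map_one]

variable {F}

lemma s2_inj (h2 : (2 : F) ≠ 0) {x y : ZMod 2} (h : s2 F x = s2 F y) : x = y := by
  have h1 : (1 : F) ≠ -1 := by
    intro h1
    apply h2
    rw [← one_add_one_eq_two]
    nth_rewrite 1 [h1]
    exact neg_add_cancel 1
  rcases zmod2_cases x with rfl | rfl <;> rcases zmod2_cases y with rfl | rfl
  · rfl
  · rw [s2_zero, s2_one] at h
    exact absurd h h1
  · rw [s2_zero, s2_one] at h
    exact absurd h.symm h1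
  · rfl

lemma exists_s2 {c : F} (h : c * c = 1) : ∃ x, c = s2 F x := by
  rcases mul_self_eq_one_iff.1 h with h | h
  · exact ⟨0, by rw [s2_zero, h]⟩
  · exact ⟨1, by rw [s2_one, h]⟩

end

section
variable {F : Type*} [Field F] {a : ℕ} {ι : Type*} [Fintype ι] [DecidableEq ι]

/-- the space of vectors -/
abbrev Vv (a : ℕ) : Type := Fin a → ZMod 2

/-- the symplectic space -/
abbrev Ww (a : ℕ) : Type := Vv a × Vv a

lemma vv_two (v : Vv a) : v + v = 0 := by
  ext i
  exact zmod2_self _

lemma ww_two (w : Ww a) : w + w = 0 := by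
  ext i
  · exact zmod2_self _
  · exact zmod2_self _

/-- the quadratic form -/
def Qf (w : Ww a) : ZMod 2 := w.1 ⬝ᵥ w.2

/-- the symplectic form -/
def wf (w v : Ww a) : ZMod 2 := w.2 ⬝ᵥ v.1 + w.1 ⬝ᵥ v.2

lemma wf_add (w w' v : Ww a) : wf (w + w') v = wf w v + wf w' v := by
  simp only [wf, Prod.fst_add, Prod.snd_add, add_dotProduct]
  ring

lemma wf_self (w : Ww a) : wf w w = 0 := by
  rw [wf, dotProduct_comm, zmod2_self]

lemma wf_symm (w v : Ww a) : wf w v = wf v w := by
  rw [wf, wf, dotProduct_comm w.2, dotProduct_comm w.1, add_comm]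

lemma Qf_add (w w' : Ww a) : Qf (w + w') = Qf w + Qf w' + wf w w' := by
  simp only [wf, Qf, Prod.fst_add, Prod.snd_add, add_dotProduct, dotProduct_add]
  rw [dotProduct_comm w'.1 w.2]
  ring

/-- the basis -/
def be (j : Fin a) (α : Bool) : Ww a := if α then (0, Pi.single j 1) else (Pi.single j 1, 0)

lemma wf_be_false (w : Ww a) (j : Fin a) : wf w (be j false) = w.2 j := by
  simp [wf, be]

lemma wf_be_true (w : Ww a) (j : Fin a) : wf w (be j true) = w.1 j := by
  simp [wf, be]

lemma wf_sep {w : Ww a} (h : ∀ j α, wf w (be j α) = 0) : w = 0 := by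
  ext j
  · have := h j true
    rwa [wf_be_true] at this
  · have := h j false
    rwa [wf_be_false] at this

/-- additive functions are of the form `wf w₀` -/
lemma exists_wf {l : Ww a → ZMod 2} (h : ∀ w w', l (w + w') = l w + l w') :
    ∃ w₀, ∀ w, l w = wf w₀ w := by
  set L : Ww a →+ ZMod 2 := AddMonoidHom.mk' l h with hL
  refine ⟨(fun j => l (be j true), fun j => l (be j false)), fun w => ?_⟩
  have h1 : w = ∑ j, (w.1 j • be j false + w.2 j • be j true) := by
    ext k
    · simp only [Prod.fst_sum, Finset.sum_apply, Prod.fst_add, Pi.add_apply, be]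
      simp [Pi.single_apply]
    · simp only [Prod.snd_sum, Finset.sum_apply, Prod.snd_add, Pi.add_apply, be]
      simp [Pi.single_apply]
  have h2 : ∀ (c : ZMod 2) (w : Ww a), l (c • w) = c * l w := by
    intro c w
    rcases zmod2_cases c with rfl | rfl
    · rw [zero_smul, zero_mul]
      exact map_zero L
    · rw [one_smul, one_mul]
  have h3 : l w = ∑ j, (w.1 j * l (be j false) + w.2 j * l (be j true)) := by
    conv_lhs => rw [h1]
    change L _ = _
    rw [map_sum]
    refine Finset.sum_congr rfl fun j _ => ?_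
    rw [map_add]
    change l _ + l _ = _
    rw [h2, h2]
  rw [h3, wf, Finset.sum_add_distrib]
  simp only [dotProduct]
  congr 1
  · exact Finset.sum_congr rfl fun j _ => mul_comm _ _
  · exact Finset.sum_congr rfl fun j _ => mul_comm _ _

variable (F) in
/-- the Pauli matrices -/
def PM (σ : ι ≃ Vv a) (w : Ww a) : Matrix ι ι F :=
  Matrix.of fun i j => if σ i = σ j + w.1 then s2 F (w.2 ⬝ᵥ σ j) else 0

lemma PM_apply (σ : ι ≃ Vv a) (w : Ww a) (i j : ι) :
    PM F σ w i j = if σ i = σ j + w.1 then s2 F (w.2 ⬝ᵥ σ j) else 0 := rfl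

lemma PM_mul (σ : ι ≃ Vv a) (w w' : Ww a) :
    PM F σ w * PM F σ w' = s2 F (w.2 ⬝ᵥ w'.1) • PM F σ (w + w') := by
  ext i j
  rw [Matrix.mul_apply, Finset.sum_eq_single (σ.symm (σ j + w'.1))]
  · rw [Matrix.smul_apply, PM_apply, PM_apply, PM_apply, Equiv.apply_symm_apply, if_pos rfl,
      smul_eq_mul, Prod.fst_add, Prod.snd_add, add_assoc, add_comm w'.1 w.1]
    by_cases h : σ i = σ j + (w.1 + w'.1)
    · rw [if_pos h, if_pos h, dotProduct_add, add_dotProduct, s2_add, s2_add]
      ring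
    · rw [if_neg h, if_neg h, zero_mul, mul_zero]
  · intro k _ hk
    have h1 : ¬ σ k = σ j + w'.1 := fun h => hk (by rw [← h, Equiv.symm_apply_apply])
    rw [PM_apply σ w' k j, if_neg h1, mul_zero]
  · intro h
    exact absurd (Finset.mem_univ _) h

lemma PM_zero (σ : ι ≃ Vv a) : PM F σ 0 = 1 := by
  ext i j
  rw [PM_apply, Prod.fst_zero, Prod.snd_zero, add_zero, zero_dotProduct, s2_zero,
    Matrix.one_apply]
  by_cases h : i = j
  · rw [if_pos h, if_pos (by rw [h])]
  · rw [if_neg h, if_neg (fun h1 => h (σ.injective h1))]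

lemma PM_sq (σ : ι ≃ Vv a) (w : Ww a) : PM F σ w * PM F σ w = s2 F (Qf w) • 1 := by
  rw [PM_mul, ww_two, PM_zero, Qf, dotProduct_comm]

lemma PM_comm (σ : ι ≃ Vv a) (w w' : Ww a) :
    PM F σ w * PM F σ w' = s2 F (wf w w') • (PM F σ w' * PM F σ w) := by
  rw [PM_mul, PM_mul, smul_smul, ← s2_add, add_comm w' w, wf, dotProduct_comm w'.2 w.1, add_assoc,
    zmod2_self, add_zero]

lemma PM_tr (σ : ι ≃ Vv a) (w : Ww a) : (PM F σ w)ᵀ = s2 F (Qf w) • PM F σ w := by
  ext i j
  rw [Matrix.transpose_apply, Matrix.smul_apply, PM_apply, PM_apply, smul_eq_mul]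
  by_cases h : σ i = σ j + w.1
  · have h1 : σ j = σ i + w.1 := by rw [h, add_assoc, vv_two, add_zero]
    rw [if_pos h, if_pos h1, h, dotProduct_add, s2_add, Qf, dotProduct_comm w.1]
    ring
  · have h1 : ¬ σ j = σ i + w.1 := fun h1 => h (by rw [h1, add_assoc, vv_two, add_zero])
    rw [if_neg h, if_neg h1, mul_zero]

lemma PM_map {K : Type*} [Field K] (τ : F →+* K) (σ : ι ≃ Vv a) (w : Ww a) :
    (PM F σ w).map τ = PM K σ w := by
  ext i j
  rw [Matrix.map_apply, PM_apply, PM_apply]
  by_cases h : σ i = σ j + w.1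
  · rw [if_pos h, if_pos h, s2_map]
  · rw [if_neg h, if_neg h, map_zero]

/-- the commutant is trivial -/
lemma PM_scalar (h2 : (2 : F) ≠ 0) (σ : ι ≃ Vv a) {A : Matrix ι ι F}
    (h : ∀ w, A * PM F σ w = PM F σ w * A) : ∃ c : F, A = c • 1 := by
  have hl : ∀ w i j, (A * PM F σ w) i j = A i (σ.symm (σ j + w.1)) * s2 F (w.2 ⬝ᵥ σ j) := by
    intro w i j
    rw [Matrix.mul_apply, Finset.sum_eq_single (σ.symm (σ j + w.1))]
    · rw [PM_apply, Equiv.apply_symm_apply, if_pos rfl]
    · intro k _ hk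
      have h1 : ¬ σ k = σ j + w.1 := fun h => hk (by rw [← h, Equiv.symm_apply_apply])
      rw [PM_apply, if_neg h1, mul_zero]
    · intro h
      exact absurd (Finset.mem_univ _) h
  have hr : ∀ w i j, (PM F σ w * A) i j =
      s2 F (w.2 ⬝ᵥ (σ i + w.1)) * A (σ.symm (σ i + w.1)) j := by
    intro w i j
    rw [Matrix.mul_apply, Finset.sum_eq_single (σ.symm (σ i + w.1))]
    · rw [PM_apply, Equiv.apply_symm_apply, if_pos (by rw [add_assoc, vv_two, add_zero])]
    · intro k _ hk
      have h1 : ¬ σ i = σ k + w.1 := fun h => hk (by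
        rw [h, add_assoc, vv_two, add_zero, Equiv.symm_apply_apply])
      rw [PM_apply, if_neg h1, zero_mul]
    · intro h
      exact absurd (Finset.mem_univ _) h
  have hoff : ∀ i j, i ≠ j → A i j = 0 := by
    intro i j hij
    obtain ⟨k, hk⟩ : ∃ k, σ i k ≠ σ j k := by
      by_contra hcon
      push Not at hcon
      exact hij (σ.injective (funext hcon))
    have h1 := congrFun (congrFun (h ((0 : Vv a), Pi.single k 1)) i) j
    rw [hl, hr] at h1
    simp only [add_zero, Equiv.symm_apply_apply, single_dotProduct, one_mul] at h1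
    by_contra h0
    rw [mul_comm (A i j)] at h1
    exact hk (s2_inj h2 (mul_right_cancel₀ h0 h1)).symm
  have hdiag : ∀ i j, A i i = A j j := by
    intro i j
    have h1 := congrFun (congrFun (h ((σ i + σ j : Vv a), 0)) i) j
    rw [hl, hr] at h1
    simp only [zero_dotProduct, s2_zero, mul_one, one_mul] at h1
    have e1 : σ j + (σ i + σ j) = σ i := by
      rw [add_comm (σ i), ← add_assoc, vv_two, zero_add]
    have e2 : σ i + (σ i + σ j) = σ j := by
      rw [← add_assoc, vv_two, zero_add]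
    rw [e1, e2, Equiv.symm_apply_apply, Equiv.symm_apply_apply] at h1
    exact h1
  rcases isEmpty_or_nonempty ι with he | ⟨⟨i₀⟩⟩
  · exact ⟨0, by ext i; exact he.elim i⟩
  · refine ⟨A i₀ i₀, ?_⟩
    ext i j
    rw [Matrix.smul_apply, Matrix.one_apply, smul_eq_mul]
    by_cases hij : i = j
    · rw [if_pos hij, mul_one, hij]
      exact hdiag _ _
    · rw [if_neg hij, mul_zero]
      exact hoff i j hij

end

end Vale.Agent.P240.R2.H487
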