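import Mathlib.FieldTheory.IsAlgClosed.AlgebraicClosure
import Vale.Agent.P240.R2.H487.CH2
import Vale.Agent.P240.R2.H487.CM1

/-!
The tori attached to Pauli matrices.
-/

set_option linter.all false

namespace Vale.Agent.P240.R2.H487

open Matrix

section
variable {F : Type*} [Field F] {a : ℕ} {ι : Type*} [Fintype ι] [DecidableEq ι]

lemma exists_wf_one {w : Ww a} (hw : w ≠ 0) : ∃ v, wf v w = 1 := by
  by_contra hcon
  push Not at hcon
  refine hw (wf_sep fun j α => ?_)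
  rw [wf_symm]
  rcases zmod2_cases (wf (be j α) w) with h | h
  · exact h
  · exact absurd h (hcon _)

/-- square root of `s2 F (Qf w)` -/
def bt (i0 : F) (w : Ww a) : F := if Qf w = 0 then 1 else i0

lemma bt_sq {i0 : F} (hi : i0 * i0 = -1) (w : Ww a) : bt i0 w * bt i0 w = s2 F (Qf w) := by
  rcases zmod2_cases (Qf w) with h | h
  · rw [bt, if_pos h, h, s2_zero, one_mul]
  · rw [bt, if_neg (by rw [h]; exact one_ne_zero), h, s2_one, hi]

lemma bt_ne {i0 : F} (hi : i0 * i0 = -1) (w : Ww a) : bt i0 w ≠ 0 := by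
  intro h
  have h1 := bt_sq hi w
  rw [h, zero_mul] at h1
  exact s2_ne F _ h1.symm

/-- the normalised Pauli matrices -/
def PP (i0 : F) (σ : ι ≃ Vv a) (w : Ww a) : Matrix ι ι F := (bt i0 w)⁻¹ • PM F σ w

lemma PM_eq {i0 : F} (hi : i0 * i0 = -1) (σ : ι ≃ Vv a) (w : Ww a) :
    PM F σ w = bt i0 w • PP i0 σ w := by
  rw [PP, smul_smul, mul_inv_cancel₀ (bt_ne hi w), one_smul]

lemma PP_sq {i0 : F} (hi : i0 * i0 = -1) (σ : ι ≃ Vv a) (w : Ww a) :
    PP i0 σ w * PP i0 σ w = 1 := by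
  rw [PP, Matrix.smul_mul, Matrix.mul_smul, PM_sq, smul_smul, smul_smul, ← bt_sq hi]
  have := bt_ne hi w
  have h1 : (bt i0 w)⁻¹ * (bt i0 w)⁻¹ * (bt i0 w * bt i0 w) = 1 := by field_simp
  rw [h1, one_smul]

lemma PP_tr (i0 : F) (σ : ι ≃ Vv a) (w : Ww a) :
    (PP i0 σ w)ᵀ = s2 F (Qf w) • PP i0 σ w := by
  rw [PP, Matrix.transpose_smul, PM_tr, smul_comm]

lemma PP_comm (i0 : F) (σ : ι ≃ Vv a) (w w' : Ww a) :
    PP i0 σ w * PP i0 σ w' = s2 F (wf w w') • (PP i0 σ w' * PP i0 σ w) := by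
  simp only [PP, Matrix.smul_mul, Matrix.mul_smul]
  rw [PM_comm]
  module

lemma PM_PP_comm (i0 : F) (σ : ι ≃ Vv a) (w w' : Ww a) :
    PM F σ w * PP i0 σ w' = s2 F (wf w w') • (PP i0 σ w' * PM F σ w) := by
  simp only [PP, Matrix.smul_mul, Matrix.mul_smul]
  rw [PM_comm, smul_comm]

/-- the even part -/
def cc (μ : Fˣ) : F := (((μ⁻¹ : Fˣ) : F) + μ) / 2

/-- the odd part -/
def ss (μ : Fˣ) : F := (((μ⁻¹ : Fˣ) : F) - μ) / 2

lemma cc_mul (h2 : (2 : F) ≠ 0) (μ ν : Fˣ) : cc (μ * ν) = cc μ * cc ν + ss μ * ss ν := by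
  simp only [cc, ss, _root_.mul_inv_rev, Units.val_mul]
  field_simp
  ring

lemma ss_mul (h2 : (2 : F) ≠ 0) (μ ν : Fˣ) : ss (μ * ν) = cc μ * ss ν + ss μ * cc ν := by
  simp only [cc, ss, _root_.mul_inv_rev, Units.val_mul]
  field_simp
  ring

lemma cc_one (h2 : (2 : F) ≠ 0) : cc (1 : Fˣ) = 1 := by
  simp only [cc, inv_one, Units.val_one]
  rw [one_add_one_eq_two, div_self h2]

lemma ss_one : ss (1 : Fˣ) = 0 := by
  simp only [ss, inv_one, Units.val_one]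
  rw [sub_self, zero_div]

lemma cc_sgn (μ : Fˣ) (e : ZMod 2) : cc (μ ^ sgn e) = cc μ := by
  rcases zmod2_cases e with rfl | rfl
  · rw [sgn_zero, zpow_one]
  · rw [sgn_one, zpow_neg_one]
    simp only [cc, inv_inv]
    rw [add_comm]

lemma ss_sgn (μ : Fˣ) (e : ZMod 2) : ss (μ ^ sgn e) = s2 F e * ss μ := by
  rcases zmod2_cases e with rfl | rfl
  · rw [sgn_zero, zpow_one, s2_zero, one_mul]
  · rw [sgn_one, zpow_neg_one, s2_one]
    simp only [ss, inv_inv]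
    ring

lemma ss_eq_zero (h2 : (2 : F) ≠ 0) {μ : Fˣ} : ss μ = 0 ↔ μ ^ 2 = 1 := by
  rw [ss, div_eq_zero_iff, or_iff_left h2, sub_eq_zero]
  constructor
  · intro h
    have h1 : μ⁻¹ = μ := Units.ext h
    rw [pow_two]
    nth_rewrite 1 [← h1]
    exact inv_mul_cancel _
  · intro h
    have h1 : μ⁻¹ = μ := by
      rw [inv_eq_iff_mul_eq_one, ← pow_two, h]
    rw [h1]

/-- the tori -/
def TM (i0 : F) (σ : ι ≃ Vv a) (w : Ww a) (μ : Fˣ) : Matrix ι ι F :=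
  cc μ • (1 : Matrix ι ι F) + ss μ • PP i0 σ w

lemma TM_one (h2 : (2 : F) ≠ 0) (i0 : F) (σ : ι ≃ Vv a) (w : Ww a) : TM i0 σ w 1 = 1 := by
  rw [TM, cc_one h2, ss_one, one_smul, zero_smul, add_zero]

lemma TM_mul (h2 : (2 : F) ≠ 0) {i0 : F} (hi : i0 * i0 = -1) (σ : ι ≃ Vv a) (w : Ww a)
    (μ ν : Fˣ) : TM i0 σ w (μ * ν) = TM i0 σ w μ * TM i0 σ w ν := by
  simp only [TM, Matrix.add_mul, Matrix.mul_add, Matrix.smul_mul, Matrix.mul_smul, Matrix.one_mul,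
    Matrix.mul_one, PP_sq hi, cc_mul h2, ss_mul h2]
  module

lemma TM_conj {i0 : F} {σ : ι ≃ Vv a} {w w' : Ww a} {M : Matrix ι ι F} {e : ZMod 2}
    (h : M * PP i0 σ w = s2 F e • (PP i0 σ w' * M)) (μ : Fˣ) :
    M * TM i0 σ w μ = TM i0 σ w' (μ ^ sgn e) * M := by
  simp only [TM, Matrix.add_mul, Matrix.mul_add, Matrix.smul_mul, Matrix.mul_smul, Matrix.one_mul,
    Matrix.mul_one, cc_sgn, ss_sgn, h]
  rw [smul_smul, mul_comm (s2 F e)]

lemma TM_tr (i0 : F) (σ : ι ≃ Vv a) (w : Ww a) (μ : Fˣ) :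
    (TM i0 σ w μ)ᵀ = TM i0 σ w (μ ^ sgn (Qf w)) := by
  simp only [TM, Matrix.transpose_add, Matrix.transpose_smul, Matrix.transpose_one, PP_tr,
    cc_sgn, ss_sgn]
  rw [smul_smul, mul_comm (s2 F _)]

lemma TM_map {K : Type*} [Field K] (τ : F →+* K) (i0 : F) (σ : ι ≃ Vv a) (w : Ww a) (μ : Fˣ) :
    (TM i0 σ w μ).map τ = TM (τ i0) σ w (Units.map (τ : F →* K) μ) := by
  have hb : τ (bt i0 w) = bt (τ i0) w := by
    rcases zmod2_cases (Qf w) with h | h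
    · rw [bt, bt, if_pos h, if_pos h, map_one]
    · rw [bt, bt, if_neg (by rw [h]; exact one_ne_zero), if_neg (by rw [h]; exact one_ne_zero)]
  have hc : τ (cc μ) = cc (Units.map (τ : F →* K) μ) := by
    simp only [cc, map_div₀, map_add, map_inv₀, Units.val_inv_eq_inv_val, Units.coe_map,
      MonoidHom.coe_coe, map_ofNat]
  have hs : τ (ss μ) = ss (Units.map (τ : F →* K) μ) := by
    simp only [ss, map_div₀, map_sub, map_inv₀, Units.val_inv_eq_inv_val, Units.coe_map,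
      MonoidHom.coe_coe, map_ofNat]
  have hp := PM_map τ σ w
  ext i j
  have hp' := congrFun (congrFun hp i) j
  rw [Matrix.map_apply] at hp'
  simp only [Matrix.map_apply, TM, PP, Matrix.add_apply, Matrix.smul_apply, smul_eq_mul, map_add,
    map_mul, map_inv₀, hb, hc, hs, hp', Matrix.one_apply]
  congr 2
  split_ifs
  · rw [map_one]
  · rw [map_zero]

lemma TM_i0 {i0 : F} {k : ZMod 2} (σ : ι ≃ Vv a) (w : Ww a) (μ : Fˣ) :
    TM (s2 F k * i0) σ w μ = TM i0 σ w (μ ^ sgn (k * Qf w)) := by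
  have h1 : (bt (s2 F k * i0) w)⁻¹ = s2 F (k * Qf w) * (bt i0 w)⁻¹ := by
    rcases zmod2_cases (Qf w) with h | h
    · rw [bt, bt, if_pos h, if_pos h, h, mul_zero, s2_zero, one_mul]
    · rw [bt, bt, if_neg (by rw [h]; exact one_ne_zero), if_neg (by rw [h]; exact one_ne_zero),
        h, mul_one, mul_inv]
      congr 1
      exact inv_eq_of_mul_eq_one_left (s2_sq F k)
  rw [TM, TM, cc_sgn, ss_sgn, PP, PP, h1]
  module

lemma TM_det_sq (h2 : (2 : F) ≠ 0) {i0 : F} (hi : i0 * i0 = -1) (σ : ι ≃ Vv a) {w : Ww a}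
    (hw : w ≠ 0) (μ : Fˣ) : (TM i0 σ w μ).det * (TM i0 σ w μ).det = 1 := by
  obtain ⟨v, hv⟩ := exists_wf_one hw
  have h1 : PM F σ v * PP i0 σ w = s2 F 1 • (PP i0 σ w * PM F σ v) := by
    rw [PM_PP_comm, hv]
  have h3 := congrArg Matrix.det (TM_conj h1 μ)
  rw [Matrix.det_mul, Matrix.det_mul, sgn_one, zpow_neg_one, mul_comm] at h3
  have hne : (PM F σ v).det ≠ 0 := by
    intro h0
    have h4 := congrArg Matrix.det (PM_sq (F := F) σ v)
    rw [Matrix.det_mul, h0, zero_mul, Matrix.det_smul, Matrix.det_one, mul_one] at h4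
    exact pow_ne_zero _ (s2_ne F _) h4.symm
  have h4 := mul_right_cancel₀ hne h3
  nth_rewrite 1 [h4]
  rw [← Matrix.det_mul, ← TM_mul h2 hi, inv_mul_cancel, TM_one h2, Matrix.det_one]

theorem TM_det (h2 : (2 : F) ≠ 0) {i0 : F} (hi : i0 * i0 = -1) (σ : ι ≃ Vv a) {w : Ww a}
    (hw : w ≠ 0) (μ : Fˣ) : (TM i0 σ w μ).det = 1 := by
  let K := AlgebraicClosure F
  let τ : F →+* K := algebraMap F K
  obtain ⟨ν, hν⟩ := IsAlgClosed.exists_pow_nat_eq (τ μ) (n := 2) (by norm_num)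
  have hν0 : ν ≠ 0 := by
    rintro rfl
    rw [zero_pow (by norm_num)] at hν
    exact μ.ne_zero (τ.injective (by rw [← hν, map_zero]))
  have hμ : Units.map (τ : F →* K) μ = Units.mk0 ν hν0 * Units.mk0 ν hν0 := by
    apply Units.ext
    rw [Units.coe_map, Units.val_mul, Units.val_mk0, ← pow_two, hν]
    rfl
  have h2K : (2 : K) ≠ 0 := by
    intro h
    apply h2
    apply τ.injective
    rw [map_ofNat, map_zero, h]
  have hiK : τ i0 * τ i0 = -1 := by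
    rw [← map_mul, hi, map_neg, map_one]
  have h1 : ((TM i0 σ w μ).map τ).det = 1 := by
    rw [TM_map, hμ, TM_mul h2K hiK, Matrix.det_mul]
    exact TM_det_sq h2K hiK σ hw _
  have h3 : ((TM i0 σ w μ).map τ).det = τ (TM i0 σ w μ).det := (RingHom.map_det τ _).symm
  apply τ.injective
  rw [← h3, h1, map_one]

end

end Vale.Agent.P240.R2.H487
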