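import Vale.Agent.P240.R2.H487.LP6

/-!
The groups `PSL_n(F)` for odd primes `p`.
-/

namespace Vale.Agent.P240.R2.H487

open Matrix Subgroup Vale.Agent.P240.K Vale.Agent.P240.H195

section
variable {F : Type*} [Field F] {m : ℕ}

/-- refinement for elements `t` with `t ^ p = 1` -/
lemma stable_of_root {p : ℕ} {M : GLm m F} {τ : RingAut F} {t : SLm m F} (ht : t ^ p = 1)
    (hroot : ∀ c : F, c ^ p = 1 → c ^ (m + 1) = 1 → c = 1)
    (hfix : sem M τ (pr m F t) = pr m F t) : ∀ u ∈ Eg t 1, sl M τ u ∈ Eg t 1 := by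
  obtain ⟨c, hc, h1, h2⟩ := rel_of_fix hfix
  have h3 : ∀ k : ℕ, ∀ x, (actf M τ t ^ k).1 *ᵥ x = c ^ k • ((t ^ k).1 *ᵥ x) := by
    intro k
    induction k with
    | zero => intro x; rw [pow_zero, pow_zero, pow_zero, one_smul]
    | succ k ih =>
      intro x
      have e1 : (actf M τ t ^ (k + 1)).1 = (actf M τ t ^ k).1 * (actf M τ t).1 := by
        rw [pow_succ]; rfl
      have e2 : (t ^ (k + 1)).1 = (t ^ k).1 * t.1 := by
        rw [pow_succ]; rfl
      rw [e1, e2, ← Matrix.mulVec_mulVec, ih, ← Matrix.mulVec_mulVec, ← h1,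
        Matrix.mulVec_smul, smul_smul, pow_succ]
  have h4 : actf M τ t ^ p = 1 := by
    have : act M τ (t ^ p) = act M τ t ^ p := map_pow _ _ _
    rw [ht, map_one] at this
    exact this.symm
  have h5 := h3 p (Pi.single 0 1)
  rw [h4, ht] at h5
  have h6 : ((1 : SLm m F)).1 *ᵥ (Pi.single 0 1) = Pi.single 0 1 := Matrix.one_mulVec _
  rw [h6] at h5
  have h7 := congrFun h5 0
  rw [Pi.smul_apply, Pi.single_eq_same, smul_eq_mul, mul_one] at h7
  have hc1 : c = 1 := hroot c h7.symm hc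
  intro u hu
  rw [mem_Eg] at hu ⊢
  have h8 := h2 u
  rw [hc1, one_smul, hu, one_smul] at h8
  rw [h8, one_smul]

/-- permutation matrices of order `p` -/
theorem exists_perm {p : ℕ} (hp : p.Prime) (hp2 : p ≠ 2) (hpm : p ≤ m + 1) :
    ∃ t : SLm m F, t ^ p = 1 ∧ pr m F t ≠ 1 ∧ Eg t 1 ≠ ⊥ := by
  classical
  have : Fact p.Prime := ⟨hp⟩
  obtain ⟨σ, hσ⟩ := exists_prime_orderOf_dvd_card (G := Equiv.Perm (Fin (m + 1))) p (by
    rw [Fintype.card_perm, Fintype.card_fin, hp.dvd_factorial]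
    exact hpm)
  have hσp : σ ^ p = 1 := by rw [← hσ]; exact pow_orderOf_eq_one σ
  have hσ1 : σ ≠ 1 := by
    rintro rfl
    rw [orderOf_one] at hσ
    exact hp.one_lt.ne hσ
  have hsign : Equiv.Perm.sign σ = 1 := by
    have h1 : Equiv.Perm.sign σ ^ p = 1 := by rw [← map_pow, hσp, map_one]
    rcases Int.units_eq_one_or (Equiv.Perm.sign σ) with h | h
    · exact h
    · rw [h, (hp.odd_of_ne_two hp2).neg_one_pow] at h1
      exact absurd h1 (by decide)
  have hdet : (Equiv.Perm.permMatrix F σ).det = 1 := by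
    rw [Matrix.det_permutation, hsign]
    simp
  obtain ⟨t, ht⟩ : ∃ t : SLm m F, t.1 = Equiv.Perm.permMatrix F σ := ⟨⟨_, hdet⟩, rfl⟩
  have hv : ∀ v : Fin (m + 1) → F, t.1 *ᵥ v = v ∘ σ := by
    intro v
    rw [ht]
    exact Matrix.permMatrix_mulVec σ
  refine ⟨t, ?_, ?_, ?_⟩
  · refine sl_ext_vec fun v => ?_
    have h1 : ∀ k : ℕ, ∀ v : Fin (m + 1) → F, (t ^ k).1 *ᵥ v = v ∘ (σ ^ k : Equiv.Perm _) := by
      intro k
      induction k with
      | zero =>
        intro v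
        rw [pow_zero, pow_zero]
        exact Matrix.one_mulVec v
      | succ k ih =>
        intro v
        have e1 : (t ^ (k + 1)).1 = (t ^ k).1 * t.1 := by
          rw [pow_succ]; rfl
        rw [e1, ← Matrix.mulVec_mulVec, ih, hv, pow_succ']
        rfl
    rw [h1, hσp]
    exact (Matrix.one_mulVec v).symm
  · intro h
    obtain ⟨c, -, h1⟩ := center_val (mem_center_pr h)
    refine hσ1 (Equiv.ext fun i => ?_)
    have h2 := hv (Pi.single (σ i) 1)
    have h3 : t.1 *ᵥ (Pi.single (σ i) 1) = c • Pi.single (σ i) 1 := by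
      rw [h1, Matrix.algebraMap_eq_diagonal]
      ext j
      rw [Matrix.mulVec_diagonal]
      rfl
    rw [h3] at h2
    have h4 := congrFun h2 i
    rw [Function.comp_apply, Pi.single_eq_same, Pi.smul_apply, smul_eq_mul] at h4
    change σ i = i
    by_contra hne
    rw [Pi.single_eq_of_ne (Ne.symm hne), mul_zero] at h4
    exact zero_ne_one h4
  · intro h
    have h1 : (fun _ => 1 : Fin (m + 1) → F) ∈ Eg t 1 := by
      rw [mem_Eg, one_smul]
      exact hv _
    rw [h, Submodule.mem_bot] at h1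
    exact one_ne_zero (congrFun h1 0)

open Classical in
/-- elements of order `p` with a largest eigenspace -/
theorem exists_odd [Finite F] (hm : 3 ≤ m) {p : ℕ} {ω : F} (hω : ω ^ p = 1) (hω1 : ω ≠ 1)
    (hodd : Odd p) :
    ∃ (t : SLm m F) (b : F), pr m F t ^ p = 1 ∧ pr m F t ≠ 1 ∧ Eg t b ≠ ⊥ ∧
      ∀ c, c ≠ b → Nat.card (Eg t c) < Nat.card (Eg t b) := by
  have hω0 : ω ≠ 0 := by
    rintro rfl
    obtain ⟨k, hk⟩ := hodd
    rw [hk, pow_succ, mul_zero] at hω
    exact zero_ne_one hω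
  have hinv : ω ≠ ω⁻¹ := by
    intro h
    have h1 : ω ^ 2 = 1 := by
      rw [pow_two]
      nth_rewrite 2 [h]
      exact mul_inv_cancel₀ hω0
    obtain ⟨k, hk⟩ := hodd
    rw [hk, pow_succ, pow_mul, h1, one_pow, one_mul] at hω
    exact hω1 hω
  let d : Fin (m + 1) → F := fun i => if i = ⟨0, by omega⟩ then ω else
    if i = ⟨1, by omega⟩ then ω⁻¹ else 1
  have hprod : ∏ i, d i = 1 := by
    have h1 : d = fun i => (if i = ⟨0, by omega⟩ then ω else 1) *
        (if i = ⟨1, by omega⟩ then ω⁻¹ else 1) := by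
      ext i
      simp only [d]
      by_cases h : i = ⟨0, by omega⟩
      · rw [if_pos h, if_pos h, if_neg, mul_one]
        rw [h]
        simp
      · rw [if_neg h, if_neg h, one_mul]
    rw [h1, Finset.prod_mul_distrib, Finset.prod_ite_eq', Finset.prod_ite_eq', if_pos (by simp),
      if_pos (by simp), mul_inv_cancel₀ hω0]
  have hpow : ∀ i, d i ^ p = 1 := by
    intro i
    simp only [d]
    split_ifs
    · exact hω
    · rw [inv_pow, hω, inv_one]
    · exact one_pow p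
  have hij : d ⟨0, by omega⟩ ≠ d ⟨2, by omega⟩ := by
    simp only [d]
    simp
    exact hω1
  refine exists_of_diag (b := 1) hprod hpow hij fun c hc => ?_
  have h1 : (Finset.univ.filter fun i => d i = c).card ≤ 1 := by
    rw [Finset.card_le_one]
    intro i hi j hj
    rw [Finset.mem_filter] at hi hj
    have h2 : ∀ i, d i = c → (i = ⟨0, by omega⟩ ∧ c = ω) ∨ (i = ⟨1, by omega⟩ ∧ c = ω⁻¹) := by
      intro i hi
      simp only [d] at hi
      split_ifs at hi with h3 h4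
      · exact Or.inl ⟨h3, hi.symm⟩
      · exact Or.inr ⟨h4, hi.symm⟩
      · exact absurd hi.symm hc
    rcases h2 i hi.2 with ⟨h3, h4⟩ | ⟨h3, h4⟩ <;> rcases h2 j hj.2 with ⟨h5, h6⟩ | ⟨h5, h6⟩
    · rw [h3, h5]
    · exact absurd (h4.symm.trans h6) hinv
    · exact absurd (h6.symm.trans h4) hinv
    · rw [h3, h5]
  have h2 : 1 < (Finset.univ.filter fun i => d i = 1).card := by
    rw [Finset.one_lt_card]
    refine ⟨⟨2, by omega⟩, ?_, ⟨3, by omega⟩, ?_, by simp⟩
    · rw [Finset.mem_filter]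
      refine ⟨Finset.mem_univ _, ?_⟩
      simp [d]
    · rw [Finset.mem_filter]
      refine ⟨Finset.mem_univ _, ?_⟩
      simp [d]
  omega

open Classical in
/-- elements of order `3` for `n = 3` -/
theorem exists_nine [Finite F] {μ : F} (hμ : μ ^ 9 = 1) (hμ1 : μ ^ 3 ≠ 1) :
    ∃ (t : SLm 2 F) (b : F), pr 2 F t ^ 3 = 1 ∧ pr 2 F t ≠ 1 ∧ Eg t b ≠ ⊥ ∧
      ∀ c, c ≠ b → Nat.card (Eg t c) < Nat.card (Eg t b) := by
  have hμ0 : μ ≠ 0 := by
    rintro rfl
    rw [zero_pow (by norm_num)] at hμ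
    exact zero_ne_one hμ
  have hne : μ⁻¹ ^ 2 ≠ μ := by
    intro h
    apply hμ1
    calc μ ^ 3 = μ ^ 2 * μ := by ring
      _ = μ ^ 2 * μ⁻¹ ^ 2 := by rw [h]
      _ = 1 := by rw [← mul_pow, mul_inv_cancel₀ hμ0, one_pow]
  have e1 : ((1 : Fin (2 + 1)) = 0) = False := by simp
  have e2 : ((2 : Fin (2 + 1)) = 0) = False := by simp
  have hcard : ∀ c, (Finset.univ.filter fun i : Fin (2 + 1) =>
      (if i = 0 then μ⁻¹ ^ 2 else μ) = c).card =
        (if μ⁻¹ ^ 2 = c then 1 else 0) + (if μ = c then 2 else 0) := by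
    intro c
    rw [Finset.card_filter, Fin.sum_univ_three]
    simp only [e1, e2, if_false, if_true]
    split_ifs <;> rfl
  refine exists_of_diag (d := fun i => if i = 0 then μ⁻¹ ^ 2 else μ) (b := μ) (c := μ ^ 3) (i := 0)
    (j := 1) ?_ ?_ ?_ ?_
  · rw [Fin.prod_univ_three]
    simp only [e1, e2, if_false, if_true]
    rw [mul_assoc, ← pow_two, ← mul_pow, inv_mul_cancel₀ hμ0, one_pow]
  · intro i
    by_cases hi : i = 0
    · rw [if_pos hi, ← pow_mul]
      have h1 : μ⁻¹ ^ (2 * 3) * μ ^ 6 = 1 := by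
        rw [← mul_pow, inv_mul_cancel₀ hμ0, one_pow]
      calc μ⁻¹ ^ (2 * 3) = μ⁻¹ ^ (2 * 3) * μ ^ 9 := by rw [hμ, mul_one]
        _ = (μ⁻¹ ^ (2 * 3) * μ ^ 6) * μ ^ 3 := by ring
        _ = μ ^ 3 := by rw [h1, one_mul]
    · rw [if_neg hi]
  · simp only [e1, if_false, if_true]
    exact hne
  · intro c hc
    rw [hcard, hcard, if_neg hne, if_pos rfl, if_neg (Ne.symm hc)]
    split_ifs <;> omega

end

end Vale.Agent.P240.R2.H487
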