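import Vale.Agent.P240.H195.SLE
import Vale.Agent.P240.R2.H487.LP7

/-!
Few outer automorphisms of order `p` of `PSL_n(F)` for `p > n` and for `p = n = 3`.
-/

namespace Vale.Agent.P240.R2.H487

open Matrix Subgroup Vale.Agent.P240.K Vale.Agent.P240.H195

section
variable {F : Type*} [Field F] {m : ℕ} [Finite F]

theorem few_large {p r : ℕ} (hp : p.Prime) (hp2 : p ≠ 2) [hr : Fact r.Prime] [CharP F r]
    (hm : 2 ≤ m) (hpm : m + 1 < p) (hsimple : IsSimpleGroup (PL m F)) : FewAut p (PL m F) := by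
  have hodd : Odd p := hp.odd_of_ne_two hp2
  have key : ∀ f : MulAut (PL m F), OutAut p f → ∃ (y : PL m F) (τ : RingAut F),
      f = MulAut.conj y * fa τ ∧ τ ^ p = 1 ∧ τ ≠ 1 := by
    intro f hf
    obtain ⟨M, τ, rfl⟩ := lin_of_odd (r := r) hm hsimple hodd hf.1
    obtain ⟨h2, w, hw⟩ := det_class (r := r) (by omega) hp hpm hf.1
    obtain ⟨y, hy⟩ := inner_of_det hw
    refine ⟨y, τ, by rw [sem_eq, hy], h2, ?_⟩
    rintro rfl
    exact hf.2 ⟨y, hy.symm⟩
  have hall : ∀ f g : MulAut (PL m F), OutAut p f → OutAut p g →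
      g ∈ zpowers f ⊔ (MulAut.conj (G := PL m F)).range := by
    intro f g hf hg
    obtain ⟨y, τ, h1, h2, h3⟩ := key f hf
    obtain ⟨y', τ', h1', h2', -⟩ := key g hg
    obtain ⟨k, hk⟩ := ff_prime hp h2 h3 h2'
    exact fa_class h1 h1' (by rw [hk, map_pow])
  exact ⟨fun f g h hf hg hh => Or.inl (hall f g hf hg), Or.inl hall⟩

/-- primitive cube roots of unity are cubes in fields with an automorphism of order three -/
lemma cube_of_aut {r : ℕ} [hr : Fact r.Prime] [CharP F r] {ω : F} (hω : ω ^ 3 = 1) (hω1 : ω ≠ 1)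
    {τ : RingAut F} (h1 : τ ≠ 1) (h3 : τ ^ 3 = 1) : ∃ μ : F, μ ^ 3 = ω := by
  classical
  have := Fintype.ofFinite F
  have hω0 : ω ≠ 0 := by
    rintro rfl
    rw [zero_pow (by norm_num)] at hω
    exact zero_ne_one hω
  obtain ⟨n, k, hkn, hcard, hτ, hdvd⟩ := ff_aut' (r := r) τ
  have h4 : n ∣ 3 * k := by
    refine hdvd _ fun x => ?_
    have h4 : (τ ^ 3) x = x := by rw [h3]; rfl
    rw [pow_succ, pow_two, RingAut.mul_apply, RingAut.mul_apply, hτ, hτ, hτ, ← pow_mul, ← pow_mul,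
      ← pow_add, ← pow_add] at h4
    have e : k + k + k = 3 * k := by omega
    have e' : k + (k + k) = 3 * k := by omega
    first
      | rwa [e] at h4
      | rwa [e'] at h4
  have hk : 0 < k := by
    rcases Nat.eq_zero_or_pos k with h5 | h5
    · exfalso
      apply h1
      ext x
      rw [hτ, h5, pow_zero, pow_one]
      rfl
    · exact h5
  have hn3 : 3 ∣ n := by
    by_contra hcon
    have h5 : Nat.Coprime n 3 := ((Nat.Prime.coprime_iff_not_dvd Nat.prime_three).2 hcon).symm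
    have h6 := Nat.le_of_dvd hk (h5.dvd_of_dvd_mul_left h4)
    omega
  obtain ⟨l, rfl⟩ := hn3
  -- the order of `ω`
  set w : Fˣ := Units.mk0 ω hω0 with hw
  have hw3 : orderOf w = 3 := by
    have : Fact (Nat.Prime 3) := ⟨Nat.prime_three⟩
    refine orderOf_eq_prime (Units.ext ?_) fun h => hω1 ?_
    · rw [Units.val_pow_eq_pow_val, hw, Units.val_mk0, hω, Units.val_one]
    · have h5 := congrArg Units.val h
      rwa [hw, Units.val_mk0, Units.val_one] at h5
  have hcu : Nat.card Fˣ = Nat.card F - 1 := Nat.card_units F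
  have hd3 : 3 ∣ Nat.card Fˣ := by
    rw [← hw3]
    exact orderOf_dvd_natCard w
  have h9 : 9 ∣ Nat.card Fˣ := by
    rw [hcu, hcard, mul_comm, pow_mul] at hd3 ⊢
    set q := r ^ l with hq
    have hqpos : 1 ≤ q := Nat.one_le_pow _ _ hr.out.pos
    have hq1 : q % 3 = 1 := by
      have h5 : q ^ 3 % 3 = 1 := by
        have : 1 ≤ q ^ 3 := Nat.one_le_pow _ _ hqpos
        omega
      have h6 : q % 3 = 0 ∨ q % 3 = 1 ∨ q % 3 = 2 := by omega
      rcases h6 with h6 | h6 | h6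
      · rw [Nat.pow_mod, h6] at h5; norm_num at h5
      · exact h6
      · rw [Nat.pow_mod, h6] at h5; norm_num at h5
    obtain ⟨j, hj⟩ : ∃ j, q = 3 * j + 1 := ⟨q / 3, by omega⟩
    rw [hj]
    refine ⟨3 * j ^ 3 + 3 * j ^ 2 + j, ?_⟩
    have : (3 * j + 1) ^ 3 = 9 * (3 * j ^ 3 + 3 * j ^ 2 + j) + 1 := by ring
    omega
  obtain ⟨c, hc⟩ := h9
  obtain ⟨g, hg⟩ := IsCyclic.exists_ofOrder_eq_natCard (α := Fˣ)
  have hc0 : 0 < c := by
    rcases Nat.eq_zero_or_pos c with h | h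
    · rw [h, mul_zero] at hc
      exact absurd hc Nat.card_pos.ne'
    · exact h
  obtain ⟨j, hj⟩ : ∃ j : ℕ, g ^ j = w := by
    have h4 : w ∈ Submonoid.powers g := by
      rw [mem_powers_iff_mem_zpowers]
      have h5 : zpowers g = ⊤ := by
        rw [← Subgroup.card_eq_iff_eq_top, Nat.card_zpowers, hg]
      rw [h5]
      trivial
    exact h4
  have h5 : 9 * c ∣ j * 3 := by
    rw [← hc, ← hg, orderOf_dvd_iff_pow_eq_one, pow_mul, hj, ← hw3, pow_orderOf_eq_one]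
  obtain ⟨i, hi⟩ := h5
  refine ⟨((g ^ (c * i) : Fˣ) : F), ?_⟩
  have h6 : (g ^ (c * i)) ^ 3 = w := by
    rw [← hj, ← pow_mul]
    congr 1
    have : 3 * (c * i * 3) = 3 * j := by
      calc 3 * (c * i * 3) = 9 * c * i := by ring
        _ = j * 3 := hi.symm
        _ = 3 * j := by ring
    omega
  rw [← Units.val_pow_eq_pow_val, h6, hw, Units.val_mk0]

theorem few_three {r : ℕ} [hr : Fact r.Prime] [CharP F r] (hsimple : IsSimpleGroup (PL 2 F))
    {ω : F} (hω : ω ^ 3 = 1) (hω1 : ω ≠ 1) (hno : ∀ μ : F, μ ^ 3 ≠ ω) : FewAut 3 (PL 2 F) := by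
  classical
  have := Fintype.ofFinite F
  obtain ⟨γ, hγ⟩ := IsCyclic.exists_ofOrder_eq_natCard (α := Fˣ)
  have hgen : ∀ M : GLm 2 F, ∃ j : ℕ, (γ : F) ^ j = M.1.det := by
    intro M
    have h4 : Units.mk0 _ (det_ne' M) ∈ Submonoid.powers γ := by
      rw [mem_powers_iff_mem_zpowers]
      have h5 : zpowers γ = ⊤ := by
        rw [← Subgroup.card_eq_iff_eq_top, Nat.card_zpowers, hγ]
      rw [h5]
      trivial
    obtain ⟨j, hj⟩ := h4
    change γ ^ j = _ at hj
    exact ⟨j, by rw [← Units.val_pow_eq_pow_val, hj, Units.val_mk0]⟩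
  have key : ∀ f : MulAut (PL 2 F), OutAut 3 f → ∃ (M : GLm 2 F) (j : ℕ), f = sem M 1 ∧
      (γ : F) ^ j = M.1.det ∧ ¬ 3 ∣ j := by
    intro f hf
    obtain ⟨M, τ, rfl⟩ := lin_of_odd (r := r) (le_refl 2) hsimple (by decide) hf.1
    obtain ⟨M', h1⟩ := sem_pow' M τ 3
    obtain ⟨h2, -⟩ := sem_trivial (r := r) (h1.symm.trans hf.1) (by norm_num)
    have hτ : τ = 1 := by
      by_contra hne
      obtain ⟨μ, hμ⟩ := cube_of_aut (r := r) hω hω1 hne h2
      exact hno μ hμ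
    subst hτ
    obtain ⟨j, hj⟩ := hgen M
    refine ⟨M, j, rfl, hj, ?_⟩
    rintro ⟨i, rfl⟩
    obtain ⟨y, hy⟩ := inner_of_det (M := M) (d := (γ : F) ^ i) (by
      rw [← hj, ← pow_mul, mul_comm])
    exact hf.2 ⟨y, hy.symm⟩
  have hall : ∀ f g : MulAut (PL 2 F), OutAut 3 f → OutAut 3 g →
      g ∈ zpowers f ⊔ (MulAut.conj (G := PL 2 F)).range := by
    intro f g hf hg
    obtain ⟨M, a, h1, h2, h3⟩ := key f hf
    obtain ⟨N, b, h4, h5, h6⟩ := key g hg
    obtain ⟨i, c, hi⟩ : ∃ i c : ℕ, b + a * i = c * 3 := by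
      have ha : a % 3 = 1 ∨ a % 3 = 2 := by omega
      have hb : b % 3 = 1 ∨ b % 3 = 2 := by omega
      have h7 : 3 ∣ b + a * 1 ∨ 3 ∣ b + a * 2 := by
        rcases ha with ha | ha <;> rcases hb with hb | hb
        · right; omega
        · left; omega
        · left; omega
        · right; omega
      rcases h7 with ⟨c, hc⟩ | ⟨c, hc⟩
      · exact ⟨1, c, by rw [hc, mul_comm]⟩
      · exact ⟨2, c, by rw [hc, mul_comm]⟩
    obtain ⟨y, hy⟩ := inner_of_det (M := N * M ^ i) (d := (γ : F) ^ c) (by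
      rw [Units.val_mul, Units.val_pow_eq_pow_val, Matrix.det_mul, Matrix.det_pow, ← h2, ← h5,
        ← pow_mul, ← pow_add, hi, pow_mul])
    have h7 : g * f ^ i = MulAut.conj y := by
      rw [h1, h4, sem_one_pow, sem_mul, gla_one, mul_one, hy]
    have h8 : g = MulAut.conj y * (f ^ i)⁻¹ := by rw [← h7, mul_inv_cancel_right]
    rw [h8]
    exact mul_mem ((le_sup_right : (MulAut.conj (G := PL 2 F)).range ≤ _) ⟨y, rfl⟩)
      ((le_sup_left : zpowers f ≤ _) (inv_mem (pow_mem (mem_zpowers f) i)))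
  exact ⟨fun f g h hf hg hh => Or.inl (hall f g hf hg), Or.inl hall⟩

end

end Vale.Agent.P240.R2.H487
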