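import Vale.Agent.P240.H195.Few
import Vale.Agent.P240.R2.H487.LP8

/-!
Subgroups `L ≅ PSL_n(F)`, `n ≥ 3`: `LocSub p L` or `FewOuter p L`, if no graph automorphisms are
induced by elements of order `p`.
-/

namespace Vale.Agent.P240.R2.H487

open Matrix Subgroup Vale.Agent.P240.K Vale.Agent.P240.H195

universe u v

section
variable {F : Type v} [Field F] {m : ℕ} [Finite F] {G : Type u} [Group G]

omit [Finite F] in
/-- the induced automorphism -/
lemma induced {L : Subgroup G} (e : PL m F ≃* L) {x : G} (hx : x ∈ normalizer (L : Set G)) :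
    ∃ f : MulAut (PL m F), (∀ y, x * (e y : G) * x⁻¹ = e (f y)) ∧
      ∀ k : ℕ, x ^ k ∈ centralizer (L : Set G) → f ^ k = 1 := by
  refine ⟨MulAut.congr e.symm (L.normalizerMonoidHom ⟨x, hx⟩), fun y => ?_, fun k hk => ?_⟩
  · have h1 : e (MulAut.congr e.symm (L.normalizerMonoidHom ⟨x, hx⟩) y) =
        L.normalizerMonoidHom ⟨x, hx⟩ (e y) := by
      change e (e.symm (L.normalizerMonoidHom ⟨x, hx⟩ (e y))) = _
      rw [e.apply_symm_apply]
    rw [h1]
    rfl
  · rw [← map_pow, ← map_pow]
    have h1 : (⟨x, hx⟩ : normalizer (L : Set G)) ^ k ∈ L.normalizerMonoidHom.ker := by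
      rw [normalizerMonoidHom_ker, Subgroup.mem_subgroupOf]
      exact hk
    rw [MonoidHom.mem_ker.1 h1, map_one]

theorem lin_auto {r : ℕ} [hr : Fact r.Prime] [CharP F r] (hm : 2 ≤ m)
    (hsimple : IsSimpleGroup (PL m F)) {p : ℕ} (hp : Odd p) {L : Subgroup G} (e : PL m F ≃* L) :
    ∀ x ∈ normalizer (L : Set G), x ^ p ∈ centralizer (L : Set G) →
      ∃ (M : GLm m F) (τ : RingAut F), ∀ y : PL m F, x * (e y : G) * x⁻¹ = e (sem M τ y) := by
  intro x hx hxp
  obtain ⟨f, h1, h2⟩ := induced e hx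
  obtain ⟨M, τ, rfl⟩ := lin_of_odd (r := r) hm hsimple hp (h2 p hxp)
  exact ⟨M, τ, h1⟩

/-- **The groups `PSL_n(F)`.** -/
theorem loc_or_few {p r : ℕ} (hp : p.Prime) [hr : Fact r.Prime] [CharP F r] (hrp : r ≠ p)
    (hm : 2 ≤ m) (hsimple : IsSimpleGroup (PL m F)) {L : Subgroup G} (e : PL m F ≃* L)
    (hlin : ∀ x ∈ normalizer (L : Set G), x ^ p ∈ centralizer (L : Set G) →
      ∃ (M : GLm m F) (τ : RingAut F), ∀ y : PL m F, x * (e y : G) * x⁻¹ = e (sem M τ y)) :
    LocSub p L ∨ FewOuter p L := by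
  have hp0 : (p : F) ≠ 0 := by
    intro h
    exact hrp ((Nat.prime_dvd_prime_iff_eq hr.out hp).1 ((CharP.cast_eq_zero_iff F r p).1 h))
  by_cases hp2 : p = 2
  · subst hp2
    by_cases h4 : m = 3 ∧ ∀ μ : F, μ ^ 4 ≠ -1
    · obtain ⟨rfl, hno⟩ := h4
      exact Or.inr (few_four (r := r) hrp hno e hlin)
    · left
      obtain ⟨t, b, ht, ht1, hb0, hb⟩ := exists_two (F := F) hm (by exact_mod_cast hp0) (by
        intro hm3
        by_contra hcon
        push Not at hcon
        exact h4 ⟨hm3, hcon⟩)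
      exact locSub_of hp hp0 e ht ht1 hb0 (fun M τ _ hfix => stable_of_card hfix hb) hlin
  · by_cases hpm : p ≤ m + 1
    · by_cases hω : ∃ ω : F, ω ^ p = 1 ∧ ω ^ (m + 1) = 1 ∧ ω ≠ 1
      · obtain ⟨ω, h1, h2, h3⟩ := hω
        rcases Nat.lt_or_ge 2 m with h4 | h4
        · left
          obtain ⟨t, b, ht, ht1, hb0, hb⟩ := exists_odd (F := F) (m := m) (by omega) h1 h3
            (hp.odd_of_ne_two hp2)
          exact locSub_of hp hp0 e ht ht1 hb0 (fun M τ _ hfix => stable_of_card hfix hb) hlin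
        · have hm2 : m = 2 := by omega
          subst hm2
          have h5 : Fact p.Prime := ⟨hp⟩
          have h6 : orderOf ω = p := orderOf_eq_prime h1 h3
          have h7 : p ∣ 3 := by
            rw [← h6]
            exact orderOf_dvd_of_pow_eq_one h2
          have h8 : p = 3 := (Nat.prime_dvd_prime_iff_eq hp Nat.prime_three).1 h7
          subst h8
          by_cases hμ : ∃ μ : F, μ ^ 3 = ω
          · left
            obtain ⟨μ, hμ⟩ := hμ
            obtain ⟨t, b, ht, ht1, hb0, hb⟩ := exists_nine (F := F) (μ := μ) (by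
              have : μ ^ 9 = (μ ^ 3) ^ 3 := by ring
              rw [this, hμ, h1]) (by rw [hμ]; exact h3)
            exact locSub_of hp hp0 e ht ht1 hb0 (fun M τ _ hfix => stable_of_card hfix hb) hlin
          · right
            push Not at hμ
            exact ((few_three (r := r) hsimple h1 h3 hμ).congr e).fewOuter
      · left
        push Not at hω
        obtain ⟨t, ht, ht1, hb0⟩ := exists_perm (F := F) (m := m) hp hp2 hpm
        refine locSub_of hp hp0 e (by rw [← map_pow, ht, map_one]) ht1 hb0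
          (fun M τ _ hfix => stable_of_root ht hω hfix) hlin
    · right
      exact ((few_large (r := r) hp hp2 hm (by omega) hsimple).congr e).fewOuter

end

end Vale.Agent.P240.R2.H487
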