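import Vale.Agent.P240.R2.H487.CM2
import Vale.Agent.P240.R2.H487.LP9

/-!
The tori attached to Pauli matrices in `SL_n(F)` and `PSL_n(F)`.
-/

set_option linter.all false

namespace Vale.Agent.P240.R2.H487

open Matrix Subgroup Vale.Agent.P240.K Vale.Agent.P240.H195

section
variable {F : Type*} [Field F] {a m : ℕ}

lemma pr_smul {X Y : SLm m F} {c : F} (h : X.1 = c • Y.1) : pr m F X = pr m F Y := by
  have h1 : (Y⁻¹ * X).1 = c • 1 := by
    have h3 : (Y⁻¹ * X).1 = (Y⁻¹).1 * X.1 := rfl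
    have h4 : (Y⁻¹).1 * Y.1 = 1 := congrArg (fun y : SLm m F => y.1) (inv_mul_cancel Y)
    rw [h3, h, Matrix.mul_smul, h4]
  have h2 : Y⁻¹ * X ∈ center (SLm m F) := by
    rw [Matrix.SpecialLinearGroup.mem_center_iff]
    refine ⟨c, ?_, ?_⟩
    · have h3 : (Y⁻¹ * X).1.det = 1 := (Y⁻¹ * X).2
      rwa [h1, Matrix.det_smul, Matrix.det_one, mul_one] at h3
    · rw [Matrix.scalar_apply, ← Matrix.smul_one_eq_diagonal]
      exact h1.symm
  exact (QuotientGroup.eq.2 h2).symm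

lemma pr_eq_smul {X Y : SLm m F} (h : pr m F X = pr m F Y) : ∃ c : F, c ≠ 0 ∧ X.1 = c • Y.1 := by
  obtain ⟨c, hc, h1⟩ := pr_eq_iff h
  refine ⟨c, ?_, by rw [h1, Algebra.smul_def]⟩
  rintro rfl
  rw [zero_pow (by omega)] at hc
  exact zero_ne_one hc

open Classical in
/-- the tori in `SL` -/
noncomputable def TS (h2 : (2 : F) ≠ 0) {i : Fˣ} (hi : (i : F) * i = -1)
    (σ : Fin (m + 1) ≃ Vv a) (w : Ww a) : Fˣ →* SLm m F :=
  if hw : w = 0 then 1 else
    { toFun := fun μ => ⟨TM (i : F) σ w μ, TM_det h2 hi σ hw μ⟩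
      map_one' := Subtype.ext (TM_one h2 _ σ w)
      map_mul' := fun μ ν => Subtype.ext (TM_mul h2 hi σ w μ ν) }

variable (h2 : (2 : F) ≠ 0) {i : Fˣ} (hi : (i : F) * i = -1) (σ : Fin (m + 1) ≃ Vv a)

lemma TS_zero (μ : Fˣ) : TS h2 hi σ 0 μ = 1 := by
  rw [TS, dif_pos rfl]
  rfl

lemma TS_val {w : Ww a} (hw : w ≠ 0) (μ : Fˣ) : (TS h2 hi σ w μ).1 = TM (i : F) σ w μ := by
  rw [TS, dif_neg hw]
  rfl

lemma TS_i (w : Ww a) : ∃ c : F, c ≠ 0 ∧ (TS h2 hi σ w i).1 = c • PM F σ w := by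
  classical
  by_cases hw : w = 0
  · subst hw
    refine ⟨1, one_ne_zero, ?_⟩
    rw [TS_zero, PM_zero, one_smul]
    rfl
  · have hinv : ((i⁻¹ : Fˣ) : F) = -i := by
      have h1 : i * (-i) = 1 := by
        apply Units.ext
        rw [Units.val_mul, Units.val_neg, mul_neg, hi, neg_neg, Units.val_one]
      rw [← eq_inv_of_mul_eq_one_right h1, Units.val_neg]
    have hc : cc i = 0 := by
      rw [cc, hinv, neg_add_cancel, zero_div]
    have hs : ss i = -i := by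
      rw [ss, hinv]
      field_simp
      ring
    refine ⟨-i * (bt (i : F) w)⁻¹, ?_, ?_⟩
    · exact mul_ne_zero (neg_ne_zero.2 i.ne_zero) (inv_ne_zero (bt_ne hi w))
    · rw [TS_val h2 hi σ hw, TM, hc, hs, zero_smul, zero_add, PP, smul_smul]

/-- the action of semilinear maps -/
lemma sem_pr_iff {M : GLm m F} {τ : RingAut F} {X Y : SLm m F} :
    sem M τ (pr m F X) = pr m F Y ↔ ∃ c : F, c ≠ 0 ∧ M.1 * X.1.map τ = c • (Y.1 * M.1) := by
  have h0 : sem M τ (pr m F X) = pr m F (actf M τ X) := rfl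
  rw [h0]
  constructor
  · intro h
    obtain ⟨c, hc, h1⟩ := pr_eq_smul h
    refine ⟨c, hc, ?_⟩
    rw [← Matrix.smul_mul, ← h1, actf_val, Matrix.mul_assoc, Matrix.mul_assoc,
      inv_mul_val, Matrix.mul_one]
  · rintro ⟨c, hc, h1⟩
    refine pr_smul (c := c) ?_
    rw [actf_val, h1, Matrix.smul_mul, Matrix.mul_assoc, mul_inv_val, Matrix.mul_one]

lemma map_smul' (τ : RingAut F) (c : F) (A : Matrix (Fin (m + 1)) (Fin (m + 1)) F) :
    (c • A).map τ = τ c • A.map τ := by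
  ext i j
  exact map_mul τ _ _

lemma PM_map' (τ : RingAut F) (w : Ww a) : (PM F σ w).map τ = PM F σ w :=
  PM_map (τ : F →+* F) σ w

lemma PM_ne (w : Ww a) {M : GLm m F} : PM F σ w * M.1 ≠ 0 := by
  intro h
  have h1 : PM F σ w * (PM F σ w * M.1) * (M⁻¹).1 = 0 := by rw [h, Matrix.mul_zero, Matrix.zero_mul]
  rw [← Matrix.mul_assoc, PM_sq, Matrix.smul_mul, Matrix.one_mul, Matrix.smul_mul, mul_inv_val] at h1
  rcases smul_eq_zero.1 h1 with h3 | h3
  · exact s2_ne F _ h3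
  · exact one_ne_zero h3

/-- scaling relations have signs -/
lemma sign_rel {M : GLm m F} {w : Ww a} {c : F} (h : M.1 * PM F σ w = c • (PM F σ w * M.1)) :
    ∃ x : ZMod 2, c = s2 F x := by
  refine exists_s2 ?_
  have h1 : M.1 * (PM F σ w * PM F σ w) = (c * c) • ((PM F σ w * PM F σ w) * M.1) := by
    rw [← Matrix.mul_assoc, h, Matrix.smul_mul, Matrix.mul_assoc, h, Matrix.mul_smul, smul_smul,
      ← Matrix.mul_assoc]
  rw [PM_sq, Matrix.smul_mul, Matrix.one_mul, Matrix.mul_smul, Matrix.mul_one,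
    smul_comm (c * c)] at h1
  have h3 : (1 : F) • M.1 = (c * c) • M.1 := by
    have h4 := congrArg (fun A => s2 F (Qf w) • A) h1
    simp only [smul_smul, ← mul_assoc, s2_sq, one_mul] at h4
    exact h4
  have h4 : (1 - c * c) • M.1 = 0 := by rw [sub_smul, h3, sub_self]
  rcases smul_eq_zero.1 h4 with h5 | h5
  · exact (sub_eq_zero.1 h5).symm
  · exfalso
    have h6 := mul_inv_val M
    rw [h5, Matrix.zero_mul] at h6
    exact zero_ne_one h6

include h2 in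
lemma sem_fix {M : GLm m F} {τ : RingAut F}
    (h : ∀ w, sem M τ (pr m F (TS h2 hi σ w i)) = pr m F (TS h2 hi σ w i)) :
    ∃ w₀ : Ww a, ∀ w, M.1 * PM F σ w = s2 F (wf w₀ w) • (PM F σ w * M.1) := by
  have h1 : ∀ w, ∃ x : ZMod 2, M.1 * PM F σ w = s2 F x • (PM F σ w * M.1) := by
    intro w
    obtain ⟨c, hc, h3⟩ := sem_pr_iff.1 (h w)
    obtain ⟨d, hd, h4⟩ := TS_i h2 hi σ w
    rw [h4, map_smul', PM_map', Matrix.mul_smul, Matrix.smul_mul, smul_smul] at h3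
    have hτd : τ d ≠ 0 := by
      intro h0
      exact hd (τ.injective (by rw [h0, map_zero]))
    have h5 : M.1 * PM F σ w = ((τ d)⁻¹ * (c * d)) • (PM F σ w * M.1) := by
      rw [mul_smul, ← h3, smul_smul, inv_mul_cancel₀ hτd, one_smul]
    obtain ⟨x, hx⟩ := sign_rel σ h5
    exact ⟨x, by rw [h5, hx]⟩
  choose l hl using h1
  have hadd : ∀ w w', l (w + w') = l w + l w' := by
   intro w w'
   apply s2_inj h2
   rw [s2_add]
   have h3 : M.1 * (PM F σ w * PM F σ w') =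
       (s2 F (l w) * s2 F (l w')) • ((PM F σ w * PM F σ w') * M.1) := by
     rw [← Matrix.mul_assoc, hl, Matrix.smul_mul, Matrix.mul_assoc, hl, Matrix.mul_smul, smul_smul,
       ← Matrix.mul_assoc]
   rw [PM_mul, Matrix.mul_smul, Matrix.smul_mul, hl, smul_comm _ (s2 F (w.2 ⬝ᵥ w'.1))] at h3
   have h4 : (s2 F (l (w + w')) - s2 F (l w) * s2 F (l w')) • (PM F σ (w + w') * M.1) = 0 := by
     have h5 := congrArg (fun A => s2 F (w.2 ⬝ᵥ w'.1) • A) h3
     simp only [smul_smul, ← mul_assoc, s2_sq, one_mul] at h5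
     rw [sub_smul, h5, sub_self]
   rcases smul_eq_zero.1 h4 with h5 | h5
   · exact sub_eq_zero.1 h5
   · exact absurd h5 (PM_ne σ _)
  obtain ⟨w₀, hw₀⟩ := exists_wf hadd
  exact ⟨w₀, fun w => by rw [hl, hw₀]⟩

open Classical in
/-- the action on `i` -/
noncomputable def kapF (i : Fˣ) (τ : RingAut F) : ZMod 2 := if τ (i : F) = i then 0 else 1

lemma kapF_one : kapF i (1 : RingAut F) = 0 := if_pos rfl

include hi in
lemma kapF_spec (τ : RingAut F) : τ (i : F) = s2 F (kapF i τ) * i := by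
  have h1 : τ (i : F) * τ (i : F) = i * i := by
    rw [← map_mul, hi, map_neg, map_one]
  rcases mul_self_eq_mul_self_iff.1 h1 with h | h
  · rw [kapF, if_pos h, s2_zero, one_mul, h]
  · by_cases h3 : τ (i : F) = i
    · rw [kapF, if_pos h3, s2_zero, one_mul, h3]
    · rw [kapF, if_neg h3, s2_one, neg_one_mul, h]

lemma PP_rel {M : GLm m F} {b b' : Ww a} {l : ZMod 2} {d : F}
    (h : M.1 * PM F σ b = d • (PM F σ b' * M.1))
    (hd : d * (bt (i : F) b)⁻¹ * (bt (i : F) b') = s2 F l) (hi : (i : F) * i = -1) :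
    M.1 * PP (i : F) σ b = s2 F l • (PP (i : F) σ b' * M.1) := by
  rw [PP, Matrix.mul_smul, h, PM_eq hi σ b', Matrix.smul_mul, smul_smul, smul_smul, ← hd]
  congr 1
  ring

lemma sem_tor {M : GLm m F} (τ : RingAut F) {b : Ww a} (hb : b ≠ 0) {l : ZMod 2}
    (h : M.1 * PM F σ b = s2 F l • (PM F σ b * M.1)) (μ : Fˣ) :
    sem M τ (pr m F (TS h2 hi σ b μ)) =
      pr m F (TS h2 hi σ b (um τ μ)) ^ sgn (l + kapF i τ * Qf b) := by
  have h0 : sem M τ (pr m F (TS h2 hi σ b μ)) = pr m F (actf M τ (TS h2 hi σ b μ)) := rfl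
  rw [h0, ← map_zpow, ← map_zpow]
  congr 1
  apply Subtype.ext
  have h3 : (TM (i : F) σ b μ).map τ = TM (i : F) σ b (um τ μ ^ sgn (kapF i τ * Qf b)) := by
    have h4 := TM_map (τ : F →+* F) (i : F) σ b μ
    have h5 : ((τ : F →+* F) (i : F)) = s2 F (kapF i τ) * i := kapF_spec hi τ
    rw [h5, TM_i0] at h4
    exact h4
  have h4 : M.1 * PP (i : F) σ b = s2 F l • (PP (i : F) σ b * M.1) := by
    refine PP_rel σ h ?_ hi
    rw [mul_assoc, inv_mul_cancel₀ (bt_ne hi b), mul_one]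
  rw [actf_val, TS_val h2 hi σ hb, TS_val h2 hi σ hb, h3, TM_conj h4, Matrix.mul_assoc, mul_inv_val,
    Matrix.mul_one, ← zpow_mul, sgn_add, mul_comm (sgn l)]

lemma it_tor {b : Ww a} (hb : b ≠ 0) (μ : Fˣ) :
    ind (itA m F) (pr m F (TS h2 hi σ b μ)) =
      pr m F (TS h2 hi σ b μ) ^ sgn (Qf b + 1) := by
  rw [ind_apply, itA_apply, ← map_zpow, ← map_zpow]
  congr 1
  apply Subtype.ext
  rw [itf_val, ← map_inv, TS_val h2 hi σ hb, TS_val h2 hi σ hb, TM_tr, sgn_add, mul_comm, sgn_one,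
    zpow_mul, zpow_neg_one]

/-- scalars -/
lemma sem_trivial' {M : GLm m F} (h : ∀ w : Ww a, M.1 * PM F σ w = PM F σ w * M.1) (h2 : (2 : F) ≠ 0) :
    sem M 1 = 1 := by
  obtain ⟨c, hc⟩ := PM_scalar h2 σ h
  refine sem_scalar (c := c) ?_
  rw [hc, Algebra.algebraMap_eq_smul_one]

lemma torP_add (w w' : Ww a) : pr m F (TS h2 hi σ (w + w') i) =
    pr m F (TS h2 hi σ w i) * pr m F (TS h2 hi σ w' i) := by
  rw [← map_mul]
  obtain ⟨c, hc, h3⟩ := TS_i h2 hi σ w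
  obtain ⟨c', hc', h4⟩ := TS_i h2 hi σ w'
  obtain ⟨d, hd, h5⟩ := TS_i h2 hi σ (w + w')
  have h6 : (TS h2 hi σ w i * TS h2 hi σ w' i).1 = (c * c' * s2 F (w.2 ⬝ᵥ w'.1)) • PM F σ (w + w') := by
    have h7 : (TS h2 hi σ w i * TS h2 hi σ w' i).1 = (TS h2 hi σ w i).1 * (TS h2 hi σ w' i).1 := rfl
    rw [h7, h3, h4, Matrix.smul_mul, Matrix.mul_smul, PM_mul, smul_smul, smul_smul, mul_assoc]
  symm
  refine pr_smul (c := c * c' * s2 F (w.2 ⬝ᵥ w'.1) * d⁻¹) ?_
  rw [h5, smul_smul, mul_assoc _ d⁻¹ d, inv_mul_cancel₀ hd, mul_one, h6]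

include h2 in
lemma PM_not_scalar {w : Ww a} (hw : w ≠ 0) (c : F) : PM F σ w ≠ c • 1 := by
  intro h
  obtain ⟨v, hv⟩ := exists_wf_one hw
  have h3 := PM_comm (F := F) σ v w
  rw [hv, s2_one, h, Matrix.mul_smul, Matrix.smul_mul, Matrix.one_mul, Matrix.mul_one,
    neg_one_smul] at h3
  have h4 : (2 : F) • (c • PM F σ v) = 0 := by
    rw [two_smul]
    nth_rewrite 1 [h3]
    exact neg_add_cancel _
  have h5 : c • PM F σ v = 0 := (smul_eq_zero.1 h4).resolve_left h2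
  have h6 := PM_sq (F := F) σ w
  rw [h, Matrix.smul_mul, Matrix.one_mul, smul_smul] at h6
  rcases smul_eq_zero.1 h5 with h7 | h7
  · rw [h7, zero_mul, zero_smul] at h6
    have h8 := congrFun (congrFun h6 0) 0
    rw [Matrix.zero_apply, Matrix.smul_apply, Matrix.one_apply_eq, smul_eq_mul, mul_one] at h8
    exact s2_ne F _ h8.symm
  · have h9 := PM_sq (F := F) σ v
    rw [h7, Matrix.zero_mul] at h9
    have h8 := congrFun (congrFun h9 0) 0
    rw [Matrix.zero_apply, Matrix.smul_apply, Matrix.one_apply_eq, smul_eq_mul, mul_one] at h8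
    exact s2_ne F _ h8.symm

lemma torP_one {w : Ww a} (h : pr m F (TS h2 hi σ w i) = 1) : w = 0 := by
  by_contra hw
  rw [← map_one (pr m F)] at h
  obtain ⟨c, hc, h3⟩ := pr_eq_smul h
  obtain ⟨d, hd, h4⟩ := TS_i h2 hi σ w
  refine PM_not_scalar h2 σ hw (d⁻¹ * c) ?_
  rw [h4] at h3
  have h5 : ((1 : SLm m F)).1 = 1 := rfl
  rw [h5] at h3
  rw [mul_smul, ← h3, smul_smul, inv_mul_cancel₀ hd, one_smul]

lemma tor_one_iff {b : Ww a} (hb : b ≠ 0) (μ : Fˣ) :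
    pr m F (TS h2 hi σ b μ) = 1 ↔ μ ^ 2 = 1 := by
  have h5 : ((1 : SLm m F)).1 = 1 := rfl
  rw [← ss_eq_zero h2]
  constructor
  · intro h
    rw [← map_one (pr m F)] at h
    obtain ⟨c, hc, h3⟩ := pr_eq_smul h
    rw [h5, TS_val h2 hi σ hb, TM, PP] at h3
    by_contra h0
    have h6 : PM F σ b = ((ss μ * (bt (i : F) b)⁻¹)⁻¹ * (c - cc μ)) • 1 := by
      have h7 : (ss μ * (bt (i : F) b)⁻¹) • PM F σ b = (c - cc μ) • 1 := by
        rw [sub_smul, ← h3, add_sub_cancel_left, smul_smul]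
      rw [mul_smul, ← h7, smul_smul, inv_mul_cancel₀ (mul_ne_zero h0 (inv_ne_zero (bt_ne hi b))),
        one_smul]
    exact PM_not_scalar h2 σ hb _ h6
  · intro h
    rw [← map_one (pr m F)]
    refine pr_smul (c := cc μ) ?_
    rw [h5, TS_val h2 hi σ hb, TM, h, zero_smul, add_zero]

lemma tor_comm {b b' : Ww a} (hb : b ≠ 0) (hb' : b' ≠ 0) (h : wf b b' = 0) (μ μ' : Fˣ) :
    TS h2 hi σ b μ * TS h2 hi σ b' μ' = TS h2 hi σ b' μ' * TS h2 hi σ b μ := by
  apply Subtype.ext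
  change (TS h2 hi σ b μ).1 * (TS h2 hi σ b' μ').1 = (TS h2 hi σ b' μ').1 * (TS h2 hi σ b μ).1
  rw [TS_val h2 hi σ hb, TS_val h2 hi σ hb', TM, TM]
  have h3 := PP_comm (i : F) σ b b'
  rw [h, s2_zero, one_smul] at h3
  simp only [Matrix.add_mul, Matrix.mul_add, Matrix.smul_mul, Matrix.mul_smul, Matrix.one_mul,
    Matrix.mul_one, h3]
  module

end

end Vale.Agent.P240.R2.H487
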