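import Vale.Agent.P240.R2.H487.CM3

/-!
The system of tori of `PSL_n(F)`, `n` a power of `2`, with `-1` a square.
-/

set_option linter.all false

namespace Vale.Agent.P240.R2.H487

open Matrix Subgroup Vale.Agent.P240.K Vale.Agent.P240.H195

section
variable {F : Type*} [Field F] {a m : ℕ}

lemma conj_pr (X Y : SLm m F) :
    pr m F X * pr m F Y * (pr m F X)⁻¹ = sem (tog X) 1 (pr m F Y) := by
  rw [← conj_eq_sem]
  rfl

lemma wf_zero (v : Ww a) : wf 0 v = 0 := by
  simp [wf]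

variable (h2 : (2 : F) ≠ 0) {i : Fˣ} (hi : (i : F) * i = -1) (σ : Fin (m + 1) ≃ Vv a)

lemma torP_sq (w : Ww a) : pr m F (TS h2 hi σ w i) * pr m F (TS h2 hi σ w i) = 1 := by
  rw [← torP_add, ww_two, TS_zero, map_one]

lemma torP_sgn (w : Ww a) (e : ZMod 2) :
    pr m F (TS h2 hi σ w i) ^ sgn e = pr m F (TS h2 hi σ w i) := by
  rcases zmod2_cases e with rfl | rfl
  · rw [sgn_zero, zpow_one]
  · rw [sgn_one, zpow_neg_one]
    exact inv_eq_of_mul_eq_one_left (torP_sq h2 hi σ w)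

lemma it_fix (w : Ww a) : ind (itA m F) (pr m F (TS h2 hi σ w i)) = pr m F (TS h2 hi σ w i) := by
  by_cases hw : w = 0
  · subst hw
    rw [TS_zero, map_one, map_one]
  · rw [it_tor h2 hi σ hw, torP_sgn]

/-- commutation with the Pauli group -/
lemma CL_pr {X : SLm m F} (h : ∀ w, sem (tog X) 1 (pr m F (TS h2 hi σ w i)) =
    pr m F (TS h2 hi σ w i)) : ∃ w, pr m F X = pr m F (TS h2 hi σ w i) := by
  obtain ⟨w₀, hw₀⟩ := sem_fix h2 hi σ h
  have htog : (tog X).1 = X.1 := rfl
  rw [htog] at hw₀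
  obtain ⟨c, hc⟩ := PM_scalar h2 σ (A := PM F σ w₀ * X.1) (by
    intro w
    rw [Matrix.mul_assoc, hw₀, Matrix.mul_smul, ← Matrix.mul_assoc, PM_comm σ w₀ w, Matrix.smul_mul,
      smul_smul, s2_sq, one_smul, Matrix.mul_assoc])
  obtain ⟨d, hd, h3⟩ := TS_i h2 hi σ w₀
  refine ⟨w₀, pr_smul (c := s2 F (Qf w₀) * c * d⁻¹) ?_⟩
  have h4 : PM F σ w₀ * (PM F σ w₀ * X.1) = c • PM F σ w₀ := by
    rw [hc, Matrix.mul_smul, Matrix.mul_one]
  rw [← Matrix.mul_assoc, PM_sq, Matrix.smul_mul, Matrix.one_mul] at h4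
  rw [h3, smul_smul, mul_assoc _ d⁻¹ d, inv_mul_cancel₀ hd, mul_one, mul_smul, ← h4, smul_smul,
    s2_sq, one_smul]

/-- conjugation of Pauli elements -/
lemma conj_tor {X : SLm m F} {b b' : Ww a} (hb : b ≠ 0) (hb' : b' ≠ 0)
    (h : sem (tog X) 1 (pr m F (TS h2 hi σ b i)) = pr m F (TS h2 hi σ b' i)) :
    ∃ e : ZMod 2, ∀ μ, sem (tog X) 1 (pr m F (TS h2 hi σ b μ)) =
      pr m F (TS h2 hi σ b' μ) ^ sgn e := by
  obtain ⟨c, hc, h3⟩ := sem_pr_iff.1 h
  obtain ⟨d, hd, h4⟩ := TS_i h2 hi σ b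
  obtain ⟨d', hd', h5⟩ := TS_i h2 hi σ b'
  have h6 : (tog X).1 * PM F σ b = (d⁻¹ * (c * d')) • (PM F σ b' * (tog X).1) := by
    have h7 : d • ((tog X).1 * PM F σ b) = (c * d') • (PM F σ b' * (tog X).1) := by
      rw [mul_smul, ← Matrix.smul_mul d', ← h5, ← h3, h4, map_smul', PM_map', Matrix.mul_smul]
      rfl
    rw [mul_smul, ← h7, smul_smul, inv_mul_cancel₀ hd, one_smul]
  obtain ⟨D, hD⟩ : ∃ D : F, D = (d⁻¹ * (c * d')) * (bt (i : F) b)⁻¹ * (bt (i : F) b') := ⟨_, rfl⟩
  have h7 : (tog X).1 * PP (i : F) σ b = D • (PP (i : F) σ b' * (tog X).1) := by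
    rw [PP, Matrix.mul_smul, h6, PM_eq hi σ b', Matrix.smul_mul, smul_smul, smul_smul, hD]
    congr 1
    ring
  have h8 : D * D = 1 := by
    have h9 : (tog X).1 * (PP (i : F) σ b * PP (i : F) σ b) =
        (D * D) • ((PP (i : F) σ b' * PP (i : F) σ b') * (tog X).1) := by
      rw [← Matrix.mul_assoc, h7, Matrix.smul_mul, Matrix.mul_assoc, h7, Matrix.mul_smul, smul_smul,
        ← Matrix.mul_assoc]
    rw [PP_sq hi, PP_sq hi, Matrix.mul_one, Matrix.one_mul] at h9
    have h10 : (1 - D * D) • (tog X).1 = 0 := by rw [sub_smul, one_smul, ← h9, sub_self]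
    rcases smul_eq_zero.1 h10 with h11 | h11
    · exact (sub_eq_zero.1 h11).symm
    · exfalso
      have h12 := mul_inv_val (tog X)
      rw [h11, Matrix.zero_mul] at h12
      exact zero_ne_one h12
  obtain ⟨e, he⟩ := exists_s2 h8
  refine ⟨e, fun μ => ?_⟩
  have h0 : sem (tog X) 1 (pr m F (TS h2 hi σ b μ)) = pr m F (actf (tog X) 1 (TS h2 hi σ b μ)) := rfl
  rw [h0, ← map_zpow, ← map_zpow]
  congr 1
  apply Subtype.ext
  have h13 : (TM (i : F) σ b μ).map (1 : RingAut F) = TM (i : F) σ b μ := by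
    ext u v
    rfl
  rw [he] at h7
  rw [actf_val, TS_val h2 hi σ hb, TS_val h2 hi σ hb', h13, TM_conj h7, Matrix.mul_assoc,
    mul_inv_val, Matrix.mul_one]

variable {G : Type*} [Group G] {L : Subgroup G}

/-- the tori in `L` -/
noncomputable def tL (e : PL m F ≃* L) (b : Ww a) : Fˣ →* G :=
  L.subtype.comp (e.toMonoidHom.comp ((pr m F).comp (TS h2 hi σ b)))

lemma tL_apply (e : PL m F ≃* L) (b : Ww a) (μ : Fˣ) :
    tL h2 hi σ e b μ = (e (pr m F (TS h2 hi σ b μ)) : G) := rfl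

/-- **The system of tori.** -/
theorem pts [Finite F] {r : ℕ} [hr : Fact r.Prime] [CharP F r] (hm : 2 ≤ m)
    (hsimple : IsSimpleGroup (PL m F)) (e : PL m F ≃* L) :
    PTS L a wf Qf be (kapF i) (tL h2 hi σ e) (fun w => tL h2 hi σ e w i) where
  card := by
    rw [Nat.card_prod, Nat.card_fun, Nat.card_eq_fintype_card, Nat.card_eq_fintype_card, ZMod.card,
      Fintype.card_fin, ← mul_pow]
    norm_num
  two := ww_two
  ωadd := wf_add
  ωself := wf_self
  ωsymm := wf_symm
  Qadd := Qf_add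
  ωe := fun j => by
    rw [wf_be_true]
    simp [be]
  ωe' := fun j k α β hjk => by
    cases β with
    | false =>
      rw [wf_be_false]
      cases α <;> simp [be, Pi.single_eq_of_ne (Ne.symm hjk)]
    | true =>
      rw [wf_be_true]
      cases α <;> simp [be, Pi.single_eq_of_ne (Ne.symm hjk)]
  sep := fun w h => wf_sep h
  κone := kapF_one
  torL := fun b μ => SetLike.coe_mem _
  tor1 := fun b hb μ => by
    rw [tL_apply, OneMemClass.coe_eq_one, map_eq_one_iff e e.injective]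
    exact tor_one_iff h2 hi σ hb μ
  Pmul := fun w w' => by
    rw [tL_apply, tL_apply, tL_apply, torP_add, map_mul, Subgroup.coe_mul]
  PL := fun w => SetLike.coe_mem _
  P1 := fun w h => by
    rw [tL_apply, OneMemClass.coe_eq_one, map_eq_one_iff e e.injective] at h
    exact torP_one h2 hi σ h
  comm := fun b b' hb hb' h μ μ' => by
    rw [tL_apply, tL_apply, ← Subgroup.coe_mul, ← Subgroup.coe_mul, ← map_mul, ← map_mul,
      ← map_mul, ← map_mul, tor_comm h2 hi σ hb hb' h]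
  Ptor := fun w b hb μ => by
    rw [tL_apply, tL_apply, ← Subgroup.coe_mul, ← Subgroup.coe_inv, ← Subgroup.coe_mul,
      ← map_mul, ← map_inv, ← map_mul, conj_pr]
    obtain ⟨c, hc, h3⟩ := TS_i h2 hi σ w
    have h4 : (tog (TS h2 hi σ w i)).1 * PM F σ b =
        s2 F (wf w b) • (PM F σ b * (tog (TS h2 hi σ w i)).1) := by
      have h5 : (tog (TS h2 hi σ w i)).1 = (TS h2 hi σ w i).1 := rfl
      rw [h5, h3, Matrix.smul_mul, PM_comm, Matrix.mul_smul, smul_comm]
    rw [sem_tor h2 hi σ 1 hb h4, um_one, kapF_one, zero_mul, add_zero, map_zpow, Subgroup.coe_zpow]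
  cent := by
    intro x hx hxP
    obtain ⟨f, h1, h3⟩ := induced e hx
    have hfix : ∀ w, f (pr m F (TS h2 hi σ w i)) = pr m F (TS h2 hi σ w i) := by
      intro w
      apply e.injective
      apply Subtype.ext
      rw [← h1]
      have h4 := hxP w
      rw [tL_apply] at h4
      rw [h4, mul_inv_cancel_right]
    obtain ⟨M, τ, hf⟩ := aut_psl (r := r) hm hsimple f
    have hsem : ∀ w, sem M τ (pr m F (TS h2 hi σ w i)) = pr m F (TS h2 hi σ w i) := by
      intro w
      have h4 := hfix w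
      rcases hf with hf | hf
      · rwa [hf] at h4
      · rwa [hf, MulAut.mul_apply, it_fix] at h4
    obtain ⟨w₀, hw₀⟩ := sem_fix h2 hi σ hsem
    rcases hf with hf | hf
    · refine ⟨w₀, 0, τ, fun b hb μ => ?_, fun hx2 => ?_, fun e1 _ e3 => ?_⟩
      · rw [tL_apply, tL_apply, h1, hf, sem_tor h2 hi σ τ hb (hw₀ b), zero_mul, add_zero,
          map_zpow, Subgroup.coe_zpow]
      · have h4 := h3 2 (by rw [hx2]; exact one_mem _)
        obtain ⟨N, hN⟩ := sem_pow' M τ 2
        rw [hf, hN] at h4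
        exact (sem_trivial (r := r) h4 (by omega)).1
      · subst e1
        subst e3
        have h4 : sem M 1 = 1 := sem_trivial' σ (fun w => by
          rw [hw₀, wf_zero, s2_zero, one_smul]) h2
        rw [mem_centralizer_iff]
        intro y hy
        obtain ⟨z, hz⟩ := e.surjective ⟨y, hy⟩
        have h5 := h1 z
        rw [hf, h4, MulAut.one_apply, hz] at h5
        exact (mul_inv_eq_iff_eq_mul.1 h5).symm
    · refine ⟨w₀, 1, τ, fun b hb μ => ?_, fun hx2 => ?_, fun _ e2 _ => absurd e2 one_ne_zero⟩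
      · rw [tL_apply, tL_apply, h1, hf, MulAut.mul_apply, it_tor h2 hi σ hb, map_zpow,
          sem_tor h2 hi σ τ hb (hw₀ b), ← zpow_mul, map_zpow, Subgroup.coe_zpow]
        congr 1
        rw [← sgn_add, one_mul]
        congr 1
        ring
      · have h4 := h3 2 (by rw [hx2]; exact one_mem _)
        have h5 : (sem M τ * ind (itA m F)) ^ 2 = sem (M * gla τ (gt M)) (τ ^ 2) := by
          rw [pow_two τ, ← sem_mul, ← it_sem, pow_two]
          group
        rw [hf, h5] at h4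
        exact (sem_trivial (r := r) h4 (by omega)).1
  CL := by
    intro x hx hxP
    obtain ⟨y, hy⟩ := e.surjective ⟨x, hx⟩
    obtain ⟨X, rfl⟩ := QuotientGroup.mk'_surjective _ y
    have hy' : x = (e (pr m F X) : G) := (congrArg Subtype.val hy).symm
    obtain ⟨w, hw⟩ := CL_pr h2 hi σ (X := X) (by
      intro w
      rw [← conj_pr]
      apply e.injective
      apply Subtype.ext
      have h4 := hxP w
      rw [tL_apply, hy'] at h4
      rw [map_mul, map_mul, map_inv, Subgroup.coe_mul, Subgroup.coe_mul, Subgroup.coe_inv, h4,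
        mul_inv_cancel_right])
    exact ⟨w, by rw [tL_apply, hy', hw]⟩
  conj := by
    intro x hx b b' hb hb' h
    obtain ⟨y, hy⟩ := e.surjective ⟨x, hx⟩
    obtain ⟨X, rfl⟩ := QuotientGroup.mk'_surjective _ y
    have hy' : x = (e (pr m F X) : G) := (congrArg Subtype.val hy).symm
    obtain ⟨k, hk⟩ := conj_tor h2 hi σ (X := X) hb hb' (by
      rw [← conj_pr]
      apply e.injective
      apply Subtype.ext
      rw [tL_apply, tL_apply, hy'] at h
      rw [map_mul, map_mul, map_inv, Subgroup.coe_mul, Subgroup.coe_mul, Subgroup.coe_inv, h])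
    refine ⟨k, fun μ => ?_⟩
    rw [tL_apply, tL_apply, hy', ← Subgroup.coe_mul, ← Subgroup.coe_inv, ← Subgroup.coe_mul,
      ← map_mul, ← map_inv, ← map_mul, conj_pr, hk, map_zpow, Subgroup.coe_zpow]

end

end Vale.Agent.P240.R2.H487
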