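import Mathlib.GroupTheory.SpecificGroups.Cyclic
import Vale.Agent.P240.R2.H487.CJ2

/-!
Numbers.
-/

set_option linter.all false

namespace Vale.Agent.P240.R2.H487

open Subgroup Vale.Agent.P240.K Vale.Agent.P240.H195

section
variable {F : Type*} [Field F] [Finite F]

lemma card_ker (d : ℕ) : Nat.card (powMonoidHom d : Fˣ →* Fˣ).ker = (Nat.card F - 1).gcd d := by
  rw [IsCyclic.card_powMonoidHom_ker, Nat.card_units]

lemma card_ker_le {d : ℕ} (hd : 0 < d) : Nat.card (powMonoidHom d : Fˣ →* Fˣ).ker ≤ d := by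
  rw [card_ker]
  exact Nat.gcd_le_right _ hd

lemma rat_le {U : ZMod 2 → Subgroup Fˣ} {t : ZMod 2} {n : ℕ} (hn : 0 < n)
    (h : ∀ μ ∈ U t, μ ^ 8 = 1 → μ ^ n = 1) : rat U t ≤ n / Nat.card (U t) := by
  rw [rat]
  have h1 : Nat.card {μ : Fˣ // μ ∈ U t ∧ μ ^ 8 = 1} ≤ n := by
    refine le_trans ?_ (card_ker_le (F := F) hn)
    refine Nat.card_le_card_of_injective (fun μ => ⟨μ.1, h μ.1 μ.2.1 μ.2.2⟩) ?_
    intro x y hxy
    exact Subtype.ext (congrArg (fun z : (powMonoidHom n : Fˣ →* Fˣ).ker => (z : Fˣ)) hxy)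
  have h2 : (Nat.card {μ : Fˣ // μ ∈ U t ∧ μ ^ 8 = 1} : ℚ) ≤ n := by exact_mod_cast h1
  have h3 : (0 : ℚ) ≤ Nat.card (U t) := Nat.cast_nonneg _
  exact div_le_div_of_nonneg_right h2 h3

lemma pow_four {μ : Fˣ} {s n : ℕ} (hn : n = 8 * s + 4) (h2 : μ ^ n = 1) (h3 : μ ^ 8 = 1) :
    μ ^ 4 = 1 := by
  rw [hn, pow_add, pow_mul, h3, one_pow, one_mul] at h2
  exact h2

lemma num0 (h4 : Nat.card F % 4 = 1) (h : 13 ≤ Nat.card F) (h17 : Nat.card F ≠ 17) :
    rat (fun _ => (⊤ : Subgroup Fˣ)) 0 ≤ 1 / 3 := by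
  have h1 : Nat.card (⊤ : Subgroup Fˣ) = Nat.card F - 1 := by
    rw [Subgroup.card_top, Nat.card_units]
  by_cases h5 : Nat.card F % 8 = 5
  · refine le_trans (rat_le (U := fun _ => (⊤ : Subgroup Fˣ)) (t := 0) (n := 4) (by norm_num)
      fun μ _ h => ?_) ?_
    · have h6 : μ ^ (Nat.card F - 1) = 1 := by
        rw [← Nat.card_units]
        exact pow_card_eq_one'
      exact pow_four (s := Nat.card F / 8) (by omega) h6 h
    · have h2 : (12 : ℚ) ≤ Nat.card (⊤ : Subgroup Fˣ) := by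
        rw [h1]
        exact_mod_cast (by omega : 12 ≤ Nat.card F - 1)
      rw [div_le_iff₀ (by linarith)]
      push_cast
      linarith
  · refine le_trans (rat_le (U := fun _ => (⊤ : Subgroup Fˣ)) (t := 0) (n := 8) (by norm_num)
      fun μ _ h => h) ?_
    have h2 : (24 : ℚ) ≤ Nat.card (⊤ : Subgroup Fˣ) := by
      rw [h1]
      exact_mod_cast (by omega : 24 ≤ Nat.card F - 1)
    rw [div_le_iff₀ (by linarith)]
    push_cast
    linarith

lemma ex_pow {U : Subgroup Fˣ} {n : ℕ} (hn : 0 < n) (h : n < Nat.card U) : ∃ μ ∈ U, μ ^ n ≠ 1 := by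
  by_contra hcon
  push Not at hcon
  have h1 : U ≤ (powMonoidHom n : Fˣ →* Fˣ).ker := fun μ hμ => hcon μ hμ
  have h2 := Nat.card_le_card_of_injective _ (inclusion_injective h1)
  have h3 := card_ker_le (F := F) hn
  omega

lemma ex0 (h : 13 ≤ Nat.card F) : ∃ μ : Fˣ, μ ^ 4 ≠ 1 := by
  obtain ⟨μ, -, hμ⟩ := ex_pow (F := F) (U := ⊤) (n := 4) (by norm_num) (by
    rw [Subgroup.card_top, Nat.card_units]
    omega)
  exact ⟨μ, hμ⟩

/-- the subgroups `Ut` -/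
lemma Ut_ker {τ : RingAut F} {q : ℕ} (hq : 1 ≤ q) (hτ : ∀ x, τ x = x ^ q) :
    Ut τ 0 = (powMonoidHom (2 * (q - 1)) : Fˣ →* Fˣ).ker ∧
      Ut τ 1 = (powMonoidHom (2 * (q + 1)) : Fˣ →* Fˣ).ker := by
  have hum : ∀ μ : Fˣ, um τ μ = μ ^ q := fun μ => Units.ext (by
    rw [um_val, hτ, Units.val_pow_eq_pow_val])
  constructor
  · ext μ
    rw [mem_Ut, MonoidHom.mem_ker, powMonoidHom_apply, hum, sgn_zero, zpow_one, ← pow_mul]
    have e : q * 2 = 2 * (q - 1) + 2 := by omega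
    rw [e, pow_add]
    exact mul_eq_right
  · ext μ
    rw [mem_Ut, MonoidHom.mem_ker, powMonoidHom_apply, hum, sgn_one, zpow_neg_one, ← pow_mul,
      eq_inv_iff_mul_eq_one, ← pow_add]
    have e : q * 2 + 2 = 2 * (q + 1) := by omega
    rw [e]

lemma card_Ut {τ : RingAut F} {q : ℕ} (hq : 3 ≤ q) (hodd : Odd q) (hτ : ∀ x, τ x = x ^ q)
    (hF : Nat.card F = q ^ 2) :
    Nat.card (Ut τ 0) = 2 * (q - 1) ∧ Nat.card (Ut τ 1) = 2 * (q + 1) := by
  obtain ⟨h0, h1⟩ := Ut_ker (by omega) hτ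
  obtain ⟨k, rfl⟩ := hodd
  have e : Nat.card F - 1 = (2 * k + 1 - 1) * (2 * k + 1 + 1) := by
    rw [hF]
    have : (2 * k + 1) ^ 2 = (2 * k) * (2 * k + 2) + 1 := by ring
    rw [this, Nat.add_sub_cancel, Nat.add_sub_cancel]
  rw [h0, h1, card_ker, card_ker, e]
  constructor
  · apply Nat.gcd_eq_right
    rw [mul_comm 2]
    exact mul_dvd_mul_left _ ⟨k + 1, by ring⟩
  · apply Nat.gcd_eq_right
    exact mul_dvd_mul_right ⟨k, by omega⟩ _

lemma num1 {τ : RingAut F} {q : ℕ} (hq : 11 ≤ q) (hodd : Odd q) (hτ : ∀ x, τ x = x ^ q)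
    (hF : Nat.card F = q ^ 2) :
    (∀ t, rat (Ut τ) t ≤ 1 / 3) ∧ rat (Ut τ) 0 + rat (Ut τ) 1 ≤ 31 / 48 := by
  obtain ⟨h0, h1⟩ := Ut_ker (by omega) hτ
  obtain ⟨c0, c1⟩ := card_Ut (by omega) hodd hτ hF
  have hq' : (11 : ℚ) ≤ q := by exact_mod_cast hq
  have e0 : ((Nat.card (Ut τ 0) : ℕ) : ℚ) = 2 * (q - 1) := by
    rw [c0, Nat.cast_mul, Nat.cast_sub (by omega)]
    norm_num
  have e1 : ((Nat.card (Ut τ 1) : ℕ) : ℚ) = 2 * (q + 1) := by
    rw [c1]
    push_cast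
    ring
  have p0 : (0 : ℚ) < 2 * (q - 1) := by linarith
  have p1 : (0 : ℚ) < 2 * (q + 1) := by linarith
  obtain ⟨k, hk⟩ := hodd
  have key : ∃ a b : ℚ, rat (Ut τ) 0 ≤ a ∧ rat (Ut τ) 1 ≤ b ∧ a ≤ 1 / 3 ∧ b ≤ 1 / 3 ∧
      a + b ≤ 31 / 48 := by
    rcases Nat.even_or_odd' k with ⟨s, hs | hs⟩
    · -- `q = 4 s + 1`
      have hq2 : 13 ≤ q := by omega
      have hq2' : (13 : ℚ) ≤ q := by exact_mod_cast hq2
      have r0 := rat_le (U := Ut τ) (t := 0) (n := 8) (by norm_num) fun μ _ h => h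
      have r1 := rat_le (U := Ut τ) (t := 1) (n := 4) (by norm_num) fun μ hμ h => by
        rw [h1, MonoidHom.mem_ker, powMonoidHom_apply] at hμ
        exact pow_four (s := s) (by omega) hμ h
      rw [e0] at r0
      rw [e1] at r1
      refine ⟨8 / 24, 4 / 28, r0.trans ?_, r1.trans ?_, by norm_num, by norm_num, by norm_num⟩
      · rw [div_le_div_iff₀ p0 (by norm_num)]
        push_cast
        linarith
      · rw [div_le_div_iff₀ p1 (by norm_num)]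
        push_cast
        linarith
    · have r0 := rat_le (U := Ut τ) (t := 0) (n := 4) (by norm_num) fun μ hμ h => by
        rw [h0, MonoidHom.mem_ker, powMonoidHom_apply] at hμ
        exact pow_four (s := s) (by omega) hμ h
      have r1 := rat_le (U := Ut τ) (t := 1) (n := 8) (by norm_num) fun μ _ h => h
      rw [e0] at r0
      rw [e1] at r1
      refine ⟨4 / 20, 8 / 24, r0.trans ?_, r1.trans ?_, by norm_num, by norm_num, by norm_num⟩
      · rw [div_le_div_iff₀ p0 (by norm_num)]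
        push_cast
        linarith
      · rw [div_le_div_iff₀ p1 (by norm_num)]
        push_cast
        linarith
  obtain ⟨a, b, h2, h3, h4, h5, h6⟩ := key
  refine ⟨fun t => ?_, by linarith⟩
  rcases zmod2_cases t with rfl | rfl
  · linarith
  · linarith

lemma ex1 {τ : RingAut F} {q : ℕ} (hq : 11 ≤ q) (hodd : Odd q) (hτ : ∀ x, τ x = x ^ q)
    (hF : Nat.card F = q ^ 2) (t : ZMod 2) :
    (∃ μ, μ ∉ Ut τ t) ∧ ∃ μ ∈ Ut τ t, μ ^ 4 ≠ 1 := by
  obtain ⟨c0, c1⟩ := card_Ut (by omega) hodd hτ hF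
  have hc : 4 < Nat.card (Ut τ t) ∧ Nat.card (Ut τ t) < Nat.card F - 1 := by
    have h1 : 11 * q ≤ q ^ 2 := by
      rw [pow_two]
      exact Nat.mul_le_mul_right _ hq
    rw [hF]
    rcases zmod2_cases t with rfl | rfl
    · rw [c0]
      omega
    · rw [c1]
      omega
  refine ⟨?_, ex_pow (by norm_num) hc.1⟩
  by_contra hcon
  push Not at hcon
  have h1 : Ut τ t = ⊤ := eq_top_iff.2 fun μ _ => hcon μ
  have h2 := hc.2
  rw [h1, Subgroup.card_top, Nat.card_units] at h2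
  exact lt_irrefl _ h2

end

end Vale.Agent.P240.R2.H487
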