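import Vale.Agent.P240.R2.H487.CO1

/-!
Elementary abelian groups that contain the Pauli group and that do not act faithfully: complements.
-/

set_option linter.all false

namespace Vale.Agent.P240.R2.H487

open Finsupp hiding cons
open Subgroup Vale.Agent.P240.K Vale.Agent.P240.H195

universe u v

section
variable {G : Type u} [Group G] {F : Type*} [Field F] {W : Type*} [AddCommGroup W]
variable {L : Subgroup G} {a : ℕ} {ω : W → W → ZMod 2} {Q : W → ZMod 2} {e : Fin a → Bool → W}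
  {κ : RingAut F → ZMod 2} {tor : W → Fˣ →* G} {P : W → G}

/-- vectors with given values -/
lemma PTS.exists_w (h : PTS L a ω Q e κ tor P) (v : Fin a → Bool → ZMod 2) :
    ∃ w, ∀ j α, ω w (e j α) = v j α := by
  have hfin : Finite W := by
    apply Nat.finite_of_card_ne_zero
    rw [h.card]
    positivity
  have hinj : Function.Injective (fun (w : W) (z : Fin a × Bool) => ω w (e z.1 z.2)) := by
    intro w w' hw
    have h1 : w + w' = 0 := by
      refine h.sep _ fun j α => ?_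
      have h2 := congrFun hw (j, α)
      change ω w (e j α) = ω w' (e j α) at h2
      rw [h.ωadd, h2, zmod2_self]
    exact eq_of_add_zero h h1
  have hb := (Nat.bijective_iff_injective_and_card _).2 ⟨hinj, by
    rw [h.card, Nat.card_fun, Nat.card_prod]
    simp only [Nat.card_eq_fintype_card, ZMod.card, Fintype.card_fin, Fintype.card_bool]
    rw [mul_comm, pow_mul]
    norm_num⟩
  obtain ⟨w, hw⟩ := hb.2 (fun z => v z.1 z.2)
  exact ⟨w, fun j α => congrFun hw (j, α)⟩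

/-- relative data -/
structure RData (L : Subgroup G) (ω : W → W → ZMod 2) (Q : W → ZMod 2) (tor : W → Fˣ →* G)
    (P : W → G) (E E₁ : Subgroup G) (T : Finset (ZMod 2)) (U : ZMod 2 → Subgroup Fˣ)
    (c : W → G → ZMod 2) (f : G → ZMod 2) (η : ZMod 2) : Prop where
  d : EData L ω Q tor P E₁ T U c f η
  le : E₁ ≤ E
  comm : ∀ x ∈ E, ∀ y ∈ E, x * y = y * x
  addc : ∀ b, b ≠ 0 → IsAdd E (c b)
  addf : IsAdd E f
  act : ∀ x ∈ E, ∀ b, b ≠ 0 → ∀ t ∈ T, ∀ μ ∈ U t,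
    x * tor b μ * x⁻¹ = (tor b μ) ^ sgn (c b x + t * f x)
  rep : ∀ x ∈ E, ∃ (w₀ : W) (ε : ZMod 2), ∀ b, b ≠ 0 → c b x = ω w₀ b + ε * (Q b + 1) +
    η * f x * Q b
  sur : ∀ x ∈ E, ∃ y ∈ E₁, f y = f x
  val : ∀ x ∈ E, f x ∈ T

variable {E E₁ : Subgroup G} {T : Finset (ZMod 2)} {U : ZMod 2 → Subgroup Fˣ}
  {c : W → G → ZMod 2} {f : G → ZMod 2} {η : ZMod 2}

lemma c_add' (h : PTS L a ω Q e κ tor P) (d : RData L ω Q tor P E E₁ T U c f η) {b b' : W}
    (hb : b ≠ 0) (hb' : b' ≠ 0) (hbb : b + b' ≠ 0) (hω : ω b b' = 1) {x : G} (hx : x ∈ E) :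
    c (b + b') x = c b x + c b' x + η * f x := by
  obtain ⟨w₀, ε, h1⟩ := d.rep x hx
  rw [h1 b hb, h1 b' hb', h1 _ hbb, h.ωadd', h.Qadd, hω]
  have e2 : (2 : ZMod 2) = 0 := by decide
  have e3 : ω w₀ b + ω w₀ b' + ε * (Q b + Q b' + 1 + 1) + η * f x * (Q b + Q b' + 1) =
    ω w₀ b + ε * (Q b + 1) + η * f x * Q b + (ω w₀ b' + ε * (Q b' + 1) + η * f x * Q b') +
      η * f x := by ring
  exact e3

/-- elements of the centralizer of `L` -/
lemma RData.cen_zero (h : PTS L a ω Q e κ tor P) (d : RData L ω Q tor P E E₁ T U c f η)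
    (ha : 1 ≤ a) {x : G} (hx : x ∈ E) (hxL : x ∈ centralizer (L : Set G)) :
    f x = 0 ∧ ∀ b, b ≠ 0 → c b x = 0 := by
  have key : ∀ b, b ≠ 0 → ∀ t ∈ T, c b x + t * f x = 0 := by
    intro b hb t ht
    obtain ⟨μ, hμ, hμ4⟩ := d.d.big t ht
    have h1 := d.act x hx b hb t ht μ hμ
    have h2 : tor b μ * x = x * tor b μ := (mem_centralizer_iff.1 hxL) _ (h.torL b μ)
    rw [← h2, mul_inv_cancel_right] at h1
    rcases zmod2_cases (c b x + t * f x) with h3 | h3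
    · exact h3
    · exfalso
      rw [h3, sgn_one, zpow_neg_one] at h1
      apply hμ4
      have h5 : tor b (μ ^ 2) = 1 := by
        rw [map_pow, pow_two]
        nth_rewrite 1 [h1]
        exact inv_mul_cancel _
      have h6 := (h.tor1 _ hb _).1 h5
      rw [← pow_mul] at h6
      exact h6
  have hc : ∀ b, b ≠ 0 → c b x = 0 := by
    intro b hb
    have h0 : (0 : ZMod 2) ∈ T := by
      rcases d.d.hT with hT | hT
      · rw [hT]
        exact Finset.mem_singleton_self _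
      · rw [hT]
        exact Finset.mem_univ _
    have h1 := key b hb 0 h0
    rwa [zero_mul, add_zero] at h1
  refine ⟨?_, hc⟩
  rcases d.d.hT with hT | hT
  · have h1 := d.val x hx
    rw [hT, Finset.mem_singleton] at h1
    exact h1
  · have hb := h.e_ne ⟨0, by omega⟩ false
    have h1 := key _ hb 1 (by rw [hT]; exact Finset.mem_univ _)
    rw [hc _ hb, zero_add, one_mul] at h1
    exact h1

/-- complements -/
theorem rel_core (h : PTS L a ω Q e κ tor P) (d : RData L ω Q tor P E E₁ T U c f η)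
    (ha : 1 ≤ a) {V : Set W} (hV0 : ∀ b ∈ V, b ≠ 0)
    (hker : ∀ x ∈ E₁, f x = 0 → (∀ b ∈ V, c b x = 0) → x = 1)
    (hsur : ∀ x ∈ E, ∃ y ∈ E₁, f y = f x ∧ ∀ b ∈ V, c b y = c b x) :
    ∃ B ≤ E, E₁ ⊔ B = E ∧ E₁ ⊓ B = ⊥ ∧ E ⊓ centralizer (L : Set G) ≤ B ∧
      ∀ x ∈ B, f x = 0 ∧ ∀ b ∈ V, c b x = 0 := by
  let B : Subgroup G :=
    { carrier := {x | x ∈ E ∧ f x = 0 ∧ ∀ b ∈ V, c b x = 0}
      one_mem' := ⟨one_mem E, d.addf.one, fun b hb => (d.addc b (hV0 b hb)).one⟩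
      mul_mem' := fun {x y} hx hy => ⟨mul_mem hx.1 hy.1, by
        rw [d.addf x hx.1 y hy.1, hx.2.1, hy.2.1, add_zero], fun b hb => by
        rw [d.addc b (hV0 b hb) x hx.1 y hy.1, hx.2.2 b hb, hy.2.2 b hb, add_zero]⟩
      inv_mem' := fun {x} hx => ⟨inv_mem hx.1, by rw [d.addf.inv hx.1, hx.2.1], fun b hb => by
        rw [(d.addc b (hV0 b hb)).inv hx.1, hx.2.2 b hb]⟩ }
  have hB : ∀ x, x ∈ B ↔ x ∈ E ∧ f x = 0 ∧ ∀ b ∈ V, c b x = 0 := fun x => Iff.rfl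
  refine ⟨B, fun x hx => hx.1, le_antisymm (sup_le d.le fun x hx => hx.1) fun x hx => ?_, ?_, ?_,
    fun x hx => hx.2⟩
  · obtain ⟨y, hy, hfy, hcy⟩ := hsur x hx
    have hyE := d.le hy
    have h1 : y⁻¹ * x ∈ B := by
      rw [hB]
      refine ⟨mul_mem (inv_mem hyE) hx, ?_, fun b hb => ?_⟩
      · rw [d.addf _ (inv_mem hyE) _ hx, d.addf.inv hyE, hfy, zmod2_self]
      · rw [d.addc b (hV0 b hb) _ (inv_mem hyE) _ hx, (d.addc b (hV0 b hb)).inv hyE, hcy b hb,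
          zmod2_self]
    have h2 : x = y * (y⁻¹ * x) := by group
    rw [h2]
    exact mul_mem (mem_sup_left hy) (mem_sup_right h1)
  · rw [eq_bot_iff]
    intro x hx
    obtain ⟨hx, hxB⟩ := mem_inf.1 hx
    rw [hB] at hxB
    exact mem_bot.2 (hker x hx hxB.2.1 hxB.2.2)
  · rintro x ⟨hx, hxL⟩
    obtain ⟨h1, h2⟩ := d.cen_zero h ha hx hxL
    exact ⟨hx, h1, fun b hb => h2 b (hV0 b hb)⟩

/-- **The relative theorem.** -/
theorem rel_top [Finite G] [Finite F] {𝕜 : Type v} [Field 𝕜] (h : PTS L a ω Q e κ tor P)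
    (d : RData L ω Q tor P E E₁ T U c f η) (ha : 2 ≤ a)
    (hEC : E₁ ⊓ centralizer (L : Set G) = ⊥)
    (h0 : T = {0} → rat U 0 ≤ 1 / 3) (h1 : T = Finset.univ → rat U 0 + rat U 1 ≤ 31 / 48) :
    ∃ B ≤ E, E₁ ⊔ B = E ∧ E₁ ⊓ B = ⊥ ∧ E ⊓ centralizer (L : Set G) ≤ B ∧
      ∃ (α : Ch 𝕜 (Subgroup G)) (φ : List (Subgroup G)),
        TopCycle 𝕜 2 ((L ⊔ E₁) ⊓ centralizer (B : Set G)) E₁ α φ := by
  have hcP : ∀ w b, b ≠ 0 → c b (P w) = ω w b := d.d.cP
  have hPE : ∀ w, P w ∈ E₁ := d.d.PE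
  have hfin : ∀ {B : Subgroup G}, B ≤ E → ∀ {S : Set W}, (∀ x ∈ B, f x = 0 ∧ ∀ b ∈ S, c b x = 0) →
      (∀ b, b ≠ 0 → ((∃ x ∈ E₁, x ≠ 1 ∧ f x = 0 ∧ ∀ j α, c (e j α) x = 0) ∨
      ∃ k, b ∈ VB Finset.univ (gS e k)) → ∀ x ∈ B, c b x = 0) →
      ∃ (α : Ch 𝕜 (Subgroup G)) (φ : List (Subgroup G)),
        TopCycle 𝕜 2 ((L ⊔ E₁) ⊓ centralizer (B : Set G)) E₁ α φ := by
    intro B hB S hS hb0
    refine pauli_top h d.d (le_inf le_sup_right fun x hx => ?_) ha (fun b hb hor t ht μ hμ => ?_)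
      h0 h1
    · rw [mem_centralizer_iff]
      exact fun y hy => d.comm y (hB hy) x (d.le hx)
    · refine mem_inf.2 ⟨mem_sup_left (h.torL b μ), ?_⟩
      rw [mem_centralizer_iff]
      intro y hy
      have h2 := d.act y (hB hy) b hb t ht μ hμ
      rw [hb0 b hb hor y hy, (hS y hy).1, mul_zero, add_zero, sgn_zero, zpow_one] at h2
      exact mul_inv_eq_iff_eq_mul.1 h2
  by_cases hG : ∃ x ∈ E₁, x ≠ 1 ∧ f x = 0 ∧ ∀ j α, c (e j α) x = 0
  · obtain ⟨y, hy⟩ : ∃ y : Fin a, (y : ℕ) = 0 := ⟨⟨0, by omega⟩, rfl⟩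
    obtain ⟨z, hz⟩ : ∃ z : Fin a, (z : ℕ) = 1 := ⟨⟨1, by omega⟩, rfl⟩
    have hyz : y ≠ z := by
      intro h2
      have := congrArg Fin.val h2
      omega
    have hker : ∀ x ∈ E₁, f x = 0 → (∀ b ∈ {b : W | b ≠ 0}, c b x = 0) → x = 1 := by
      intro x hx hfx hcx
      obtain ⟨w₀, ε, h4, h5⟩ := d.d.rep x hx
      have h6 : ∀ b, b ≠ 0 → ω w₀ b + ε * (Q b + 1) = 0 := by
        intro b hb
        have h7 := h4 b hb
        rw [hcx b hb, hfx, mul_zero, zero_mul, add_zero] at h7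
        exact h7.symm
      have hne : e y false + e z false ≠ 0 := by
        intro h7
        have h8 := congrArg (fun v => ω v (e y true)) h7
        simp only [h.ωadd, h.ωe, h.ωe' z y _ _ (Ne.symm hyz), h.ωzero] at h8
        exact one_ne_zero h8
      have q1 := h6 _ (h.e_ne y false)
      have q2 := h6 _ (h.e_ne z false)
      have q3 := h6 _ hne
      rw [h.ωadd', h.Qadd, h.ωe' y z _ _ hyz, add_zero] at q3
      have hε : ε = 0 := by
        have e5 : ∀ p q r s t : ZMod 2, p + t * (r + 1) = 0 → q + t * (s + 1) = 0 →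
            p + q + t * (r + s + 1) = 0 → t = 0 := by decide
        exact e5 _ _ _ _ _ q1 q2 q3
      have hw : w₀ = 0 := h.sep w₀ fun j α => by
        have h7 := h6 _ (h.e_ne j α)
        rwa [hε, zero_mul, add_zero] at h7
      exact h5 hw hε hfx
    have hsur : ∀ x ∈ E, ∃ y ∈ E₁, f y = f x ∧ ∀ b ∈ {b : W | b ≠ 0}, c b y = c b x := by
      intro x hx
      obtain ⟨g, hg, hg1, hgf, hgc⟩ := hG
      obtain ⟨w₁, ε₁, h4, h5⟩ := d.d.rep g hg
      have hε1 : ε₁ = 1 := by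
        rcases zmod2_cases ε₁ with h6 | h6
        · exfalso
          refine hg1 (h5 (h.sep w₁ fun j α => ?_) h6 hgf)
          have h7 := h4 _ (h.e_ne j α)
          rw [hgc, hgf, h6, mul_zero, zero_mul, zero_mul, add_zero, add_zero] at h7
          exact h7.symm
        · exact h6
      obtain ⟨y₁, hy₁, hfy₁⟩ := d.sur x hx
      obtain ⟨w₂, ε₂, h6, -⟩ := d.d.rep y₁ hy₁
      obtain ⟨w₀, ε, h7⟩ := d.rep x hx
      rcases zmod2_cases (ε + ε₂) with h8 | h8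
      · refine ⟨y₁ * P (w₀ + w₂), mul_mem hy₁ (hPE _), ?_, fun b hb => ?_⟩
        · rw [d.d.addf _ hy₁ _ (hPE _), d.d.fP, add_zero, hfy₁]
        · rw [d.d.addc b hb _ hy₁ _ (hPE _), hcP _ b hb, h6 b hb, h7 b hb, h.ωadd, hfy₁]
          have h9 : ε = ε₂ := by
            have e1 : ε = ε + ε₂ + ε₂ := by rw [add_assoc, zmod2_self, add_zero]
            rw [e1, h8, zero_add]
          rw [h9]
          have e2 : (2 : ZMod 2) = 0 := by decide
          linear_combination (ω w₂ b) * e2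
      · refine ⟨y₁ * (g * P (w₀ + w₁ + w₂)), mul_mem hy₁ (mul_mem hg (hPE _)), ?_,
          fun b hb => ?_⟩
        · rw [d.d.addf _ hy₁ _ (mul_mem hg (hPE _)), d.d.addf _ hg _ (hPE _), d.d.fP, add_zero,
            hfy₁, hgf, add_zero]
        · rw [d.d.addc b hb _ hy₁ _ (mul_mem hg (hPE _)), d.d.addc b hb _ hg _ (hPE _),
            hcP _ b hb, h6 b hb, h7 b hb, h4 b hb, h.ωadd, h.ωadd, hfy₁, hgf, hε1]
          have h9 : ε₂ = ε + 1 := by
            have e1 : ε₂ = ε + (ε + ε₂) := by rw [← add_assoc, zmod2_self, zero_add]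
            rw [e1, h8]
          rw [h9]
          have e2 : (2 : ZMod 2) = 0 := by decide
          linear_combination (ω w₂ b + ω w₁ b + Q b + 1) * e2
    obtain ⟨B, hBE, hB1, hB2, hB3, hB4⟩ := rel_core h d (by omega) (V := {b | b ≠ 0})
      (fun b hb => hb) hker hsur
    exact ⟨B, hBE, hB1, hB2, hB3, hfin hBE hB4 fun b hb _ x hx => (hB4 x hx).2 b hb⟩
  · have hker : ∀ x ∈ E₁, f x = 0 → (∀ b ∈ {b : W | ∃ j α, b = e j α}, c b x = 0) → x = 1 := by
      intro x hx hfx hcx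
      by_contra hne
      exact hG ⟨x, hx, hne, hfx, fun j α => hcx _ ⟨j, α, rfl⟩⟩
    have hsur : ∀ x ∈ E, ∃ y ∈ E₁, f y = f x ∧
        ∀ b ∈ {b : W | ∃ j α, b = e j α}, c b y = c b x := by
      intro x hx
      obtain ⟨y₁, hy₁, hfy₁⟩ := d.sur x hx
      obtain ⟨w, hw⟩ := h.exists_w fun j α => c (e j α) x + c (e j α) y₁
      refine ⟨y₁ * P w, mul_mem hy₁ (hPE _), ?_, ?_⟩
      · rw [d.d.addf _ hy₁ _ (hPE _), d.d.fP, add_zero, hfy₁]
      · rintro b ⟨j, α, rfl⟩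
        rw [d.d.addc _ (h.e_ne j α) _ hy₁ _ (hPE _), hcP _ _ (h.e_ne j α), hw]
        have e2 : (2 : ZMod 2) = 0 := by decide
        linear_combination (c (e j α) y₁) * e2
    obtain ⟨B, hBE, hB1, hB2, hB3, hB4⟩ := rel_core h d (by omega)
      (V := {b | ∃ j α, b = e j α}) (fun b ⟨j, α, hb⟩ => by rw [hb]; exact h.e_ne j α) hker hsur
    refine ⟨B, hBE, hB1, hB2, hB3, hfin hBE hB4 fun b hb hor x hx => ?_⟩
    rcases hor with hor | ⟨k, hk⟩
    · exact absurd hor hG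
    · obtain ⟨h2, h3⟩ := hB4 x hx
      rcases mem_VB_gS.1 hk with rfl | rfl | rfl
      · exact h3 _ ⟨_, _, rfl⟩
      · exact h3 _ ⟨_, _, rfl⟩
      · obtain ⟨e1, e2, e3⟩ := ne_of_ω h (h.ωe k)
        rw [c_add' h d e1 e2 e3 (h.ωe k) (hBE hx), h2, h3 _ ⟨_, _, rfl⟩, h3 _ ⟨_, _, rfl⟩]
        ring

end

end Vale.Agent.P240.R2.H487
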