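import Vale.Agent.P240.R2.H487.CO2
import Vale.Agent.P240.R2.H487.CM4

/-!
The property `LocTop`; groups `PSL_n(F)`, `n` a power of `2`.
-/

set_option linter.all false

namespace Vale.Agent.P240.R2.H487

open Finsupp hiding cons
open Subgroup Vale.Agent.P240.K Vale.Agent.P240.H195

universe u v

section
variable {G : Type u} [Group G] {F : Type*} [Field F] {W : Type*} [AddCommGroup W]
variable {L : Subgroup G} {a : ℕ} {ω : W → W → ZMod 2} {Q : W → ZMod 2} {e : Fin a → Bool → W}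
  {κ : RingAut F → ZMod 2} {tor : W → Fˣ →* G} {P : W → G}
variable {E E₁ : Subgroup G} {U : ZMod 2 → Subgroup Fˣ}
  {c : W → G → ZMod 2} {f : G → ZMod 2} {η : ZMod 2}

/-- `E₁` contains elements with field part -/
lemma EData0.rel1 (d : EData0 L ω Q tor P E U c f η) (hE₁ : E₁ ≤ E) (hPE : ∀ w, P w ∈ E₁)
    (hEC : E₁ ⊓ centralizer (L : Set G) = ⊥) (hf : ∃ x ∈ E₁, f x = 1) :
    RData L ω Q tor P E E₁ Finset.univ U c f η where
  d := {
    hT := Or.inr rfl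
    comm := fun x hx y hy => d.comm x (hE₁ hx) y (hE₁ hy)
    sq := fun x hx => d.sq x (hE₁ hx)
    PE := hPE
    addc := fun b hb => (d.addc b hb).mono hE₁
    addf := d.addf.mono hE₁
    val := fun _ _ => Finset.mem_univ _
    ηT := Finset.mem_univ _
    nonT := fun _ => hf
    act := fun x hx b hb t _ μ hμ => d.act x (hE₁ hx) b hb t μ hμ
    rep := fun x hx => by
      obtain ⟨w₀, ε, h1, h2⟩ := d.rep x (hE₁ hx)
      refine ⟨w₀, ε, h1, fun e1 e2 e3 => ?_⟩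
      have h3 : x ∈ E₁ ⊓ centralizer (L : Set G) := ⟨hx, h2 e1 e2 e3⟩
      rw [hEC] at h3
      exact mem_bot.1 h3
    cP := d.cP
    fP := d.fP
    big := fun t _ => d.big t }
  le := hE₁
  comm := d.comm
  addc := d.addc
  addf := d.addf
  act := fun x hx b hb t _ μ hμ => d.act x hx b hb t μ hμ
  rep := fun x hx => by
    obtain ⟨w₀, ε, h1, -⟩ := d.rep x hx
    exact ⟨w₀, ε, h1⟩
  sur := fun x _ => by
    rcases zmod2_cases (f x) with h1 | h1
    · exact ⟨1, one_mem _, by rw [h1, d.addf.one]⟩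
    · obtain ⟨y, hy, h2⟩ := hf
      exact ⟨y, hy, by rw [h1, h2]⟩
  val := fun _ _ => Finset.mem_univ _

/-- `E₁` contains no elements with field part -/
lemma EData0.rel0 (d : EData0 L ω Q tor P E U c f η) (hE₁ : E₁ ≤ E) (hPE : ∀ w, P w ∈ E₁)
    (hEC : E₁ ⊓ centralizer (L : Set G) = ⊥) (hf : ∀ x ∈ E₁, f x = 0) :
    RData L ω Q tor P E E₁ {0} (fun _ => U η) (fun b x => c b x + η * f x) (fun _ => 0) 0 where
  d := {
    hT := Or.inl rfl
    comm := fun x hx y hy => d.comm x (hE₁ hx) y (hE₁ hy)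
    sq := fun x hx => d.sq x (hE₁ hx)
    PE := hPE
    addc := fun b hb => ((d.addc b hb).add (d.addf.smul η)).mono hE₁
    addf := fun _ _ _ _ => by simp
    val := fun _ _ => Finset.mem_singleton_self _
    ηT := Finset.mem_singleton_self _
    nonT := fun h0 => absurd h0 (by decide)
    act := fun x hx b hb t _ μ hμ => by
      rw [mul_zero, add_zero]
      exact d.act x (hE₁ hx) b hb η μ hμ
    rep := fun x hx => by
      obtain ⟨w₀, ε, h1, h2⟩ := d.rep x (hE₁ hx)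
      refine ⟨w₀, ε, fun b hb => ?_, fun e1 e2 e3 => ?_⟩
      · rw [h1 b hb, hf x hx]
        ring
      · have h3 : x ∈ E₁ ⊓ centralizer (L : Set G) := ⟨hx, h2 e1 e2 (hf x hx)⟩
        rw [hEC] at h3
        exact mem_bot.1 h3
    cP := fun w b hb => by rw [d.cP w b hb, d.fP, mul_zero, add_zero]
    fP := fun _ => rfl
    big := fun _ _ => d.big η }
  le := hE₁
  comm := d.comm
  addc := fun b hb => (d.addc b hb).add (d.addf.smul η)
  addf := fun _ _ _ _ => by simp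
  act := fun x hx b hb t _ μ hμ => by
    rw [mul_zero, add_zero]
    exact d.act x hx b hb η μ hμ
  rep := fun x hx => by
    obtain ⟨w₀, ε, h1, -⟩ := d.rep x hx
    refine ⟨w₀, ε + η * f x, fun b hb => ?_⟩
    rw [h1 b hb]
    ring
  sur := fun _ _ => ⟨1, one_mem _, rfl⟩
  val := fun _ _ => Finset.mem_singleton_self _

/-- a subgroup `L` with an elementary abelian subgroup `A` such that the elementary abelian groups
containing `A` have top cycles -/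
def LocTop (𝕜 : Type v) [Field 𝕜] (p : ℕ) (L : Subgroup G) : Prop :=
  ∃ A ≤ L, A ∈ ApS p G ∧ ∀ E ∈ ApS p G, E ≤ normalizer (L : Set G) → ∀ E₁ ≤ E, A ≤ E₁ →
    E₁ ⊓ centralizer (L : Set G) = ⊥ → ∃ B ≤ E, E₁ ⊔ B = E ∧ E₁ ⊓ B = ⊥ ∧
      E ⊓ centralizer (L : Set G) ≤ B ∧ ∃ (α : Ch 𝕜 (Subgroup G)) (φ : List (Subgroup G)),
        TopCycle 𝕜 p ((L ⊔ E₁) ⊓ centralizer (B : Set G)) E₁ α φ

/-- systems of tori give `LocTop` -/
theorem PTS.locTop [Finite G] [Finite F] {𝕜 : Type v} [Field 𝕜] (h : PTS L a ω Q e κ tor P)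
    (ha : 2 ≤ a) (h4 : ∃ μ : Fˣ, μ ^ 4 ≠ 1)
    (hτ : ∀ τ : RingAut F, τ ≠ 1 → τ ^ 2 = 1 → ∀ t : ZMod 2,
      (∃ μ, μ ∉ Ut τ t) ∧ ∃ μ ∈ Ut τ t, μ ^ 4 ≠ 1)
    (n0 : rat (fun _ => (⊤ : Subgroup Fˣ)) 0 ≤ 1 / 3)
    (n1 : ∀ τ : RingAut F, τ ≠ 1 → τ ^ 2 = 1 → (∀ t, rat (Ut τ) t ≤ 1 / 3) ∧
      rat (Ut τ) 0 + rat (Ut τ) 1 ≤ 31 / 48) : LocTop 𝕜 2 L := by
  have hW : ∃ b : W, b ≠ 0 := ⟨_, h.e_ne ⟨0, by omega⟩ false⟩
  refine ⟨PG h, ?_, ⟨?_, ?_, ?_⟩, ?_⟩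
  · rintro _ ⟨w, rfl⟩
    exact h.PL w
  · intro h0
    have h1 := PG_card h
    rw [h0, Subgroup.card_bot] at h1
    have h2 : 1 < 4 ^ a := Nat.one_lt_pow (by omega) (by norm_num)
    omega
  · rintro _ ⟨w, rfl⟩ _ ⟨w', rfl⟩
    exact h.Pcomm w w'
  · rintro _ ⟨w, rfl⟩
    rw [pow_two, h.Psq]
  · intro E hE hEN E₁ hE₁ hA hEC
    have hPE : ∀ w, P w ∈ E₁ := fun w => hA ⟨w, rfl⟩
    obtain ⟨U, c, f, η, d, hU⟩ := h.edata0 hE hEN (fun w => hE₁ (hPE w)) h4 hW hτ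
    by_cases hf : ∃ x ∈ E₁, f x = 1
    · refine rel_top h (d.rel1 hE₁ hPE hEC hf) ha hEC (fun h0 => absurd h0 (by decide)) fun _ => ?_
      rcases hU with ⟨-, hU⟩ | ⟨τ, h1, h2, rfl⟩
      · obtain ⟨x, hx, hx1⟩ := hf
        rw [hU x (hE₁ hx)] at hx1
        exact absurd hx1 zero_ne_one
      · exact (n1 τ h1 h2).2
    · push Not at hf
      have hf' : ∀ x ∈ E₁, f x = 0 := fun x hx => (zmod2_cases _).resolve_right (hf x hx)
      refine rel_top h (d.rel0 hE₁ hPE hEC hf') ha hEC (fun _ => ?_) fun h0 => absurd h0 (by decide)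
      rcases hU with ⟨rfl, -⟩ | ⟨τ, h1, h2, rfl⟩
      · exact n0
      · exact (n1 τ h1 h2).1 η

end

end Vale.Agent.P240.R2.H487
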