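import Mathlib.FieldTheory.Finite.Basic
import Mathlib.NumberTheory.LegendreSymbol.QuadraticChar.Basic
import Vale.Agent.P240.R2.H487.CO3

/-!
The property `LocTop` for `PSL_n(F)`, `n` a power of `2`.
-/

set_option linter.all false

namespace Vale.Agent.P240.R2.H487

open Finsupp hiding cons
open Subgroup Vale.Agent.P240.K Vale.Agent.P240.H195

universe u v w

section
variable {G : Type u} [Group G] {F : Type w} [Field F] {L : Subgroup G}

/-- **The groups `PSL_n(F)`, `n` a power of `2`.** -/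
theorem psl_locTop [Finite G] [Finite F] {𝕜 : Type v} [Field 𝕜] {m a : ℕ} (hm : m + 1 = 2 ^ a)
    (ha : 2 ≤ a) (h4 : Nat.card F % 4 = 1) (h13 : 13 ≤ Nat.card F)
    (h17 : Nat.card F ≠ 17) (hsq : ∀ q, Nat.card F = q ^ 2 → 11 ≤ q) (hsimple : IsSimpleGroup (PL m F))
    (e : PL m F ≃* L) : LocTop 𝕜 2 L := by
  obtain ⟨r, hr, hchar⟩ := exists_char F
  have := Fintype.ofFinite F
  have hm2 : 2 ≤ m := by
    have : 2 ^ 2 ≤ 2 ^ a := Nat.pow_le_pow_right (by norm_num) ha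
    omega
  have hodd : Odd (Nat.card F) := Nat.odd_iff.2 (by omega)
  obtain ⟨n, -, hn⟩ := FiniteField.card F r
  have hrodd : Odd r := by
    rw [← Nat.card_eq_fintype_card] at hn
    rw [hn] at hodd
    exact (Nat.odd_pow_iff n.ne_zero).1 hodd
  have h2 : (2 : F) ≠ 0 := by
    intro h0
    have h1 : r ∣ 2 := (CharP.cast_eq_zero_iff F r 2).1 (by exact_mod_cast h0)
    have h3 : r = 2 := (Nat.prime_dvd_prime_iff_eq hr.out Nat.prime_two).1 h1
    rw [h3] at hrodd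
    exact absurd hrodd (by decide)
  obtain ⟨i0, hi0⟩ : IsSquare (-1 : F) := by
    rw [FiniteField.isSquare_neg_one_iff, ← Nat.card_eq_fintype_card, h4]
    decide
  have hi00 : i0 ≠ 0 := by
    rintro rfl
    rw [mul_zero, neg_eq_zero] at hi0
    exact one_ne_zero hi0
  have hi : ((Units.mk0 i0 hi00 : Fˣ) : F) * (Units.mk0 i0 hi00 : Fˣ) = -1 := hi0.symm
  have σ : Fin (m + 1) ≃ Vv a := (Fintype.equivFinOfCardEq (by
    rw [Fintype.card_fun, ZMod.card, Fintype.card_fin, hm])).symm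
  have h := pts h2 hi σ (r := r) hm2 hsimple e
  have hτ : ∀ τ : RingAut F, τ ≠ 1 → τ ^ 2 = 1 → ∃ q, 11 ≤ q ∧ Odd q ∧ (∀ x, τ x = x ^ q) ∧
      Nat.card F = q ^ 2 := by
    intro τ h1 h3
    obtain ⟨k, -, h5, h6⟩ := ff_quad (r := r) h1 h3
    exact ⟨r ^ k, hsq _ h5, hrodd.pow, h6, h5⟩
  refine h.locTop ha (ex0 h13) (fun τ h1 h3 t => ?_) (num0 h4 h13 h17) fun τ h1 h3 => ?_
  · obtain ⟨q, h5, h6, h7, h8⟩ := hτ τ h1 h3
    exact ex1 h5 h6 h7 h8 t
  · obtain ⟨q, h5, h6, h7, h8⟩ := hτ τ h1 h3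
    exact num1 h5 h6 h7 h8

end

end Vale.Agent.P240.R2.H487
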