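import Vale.Agent.P240.R2.H487.PDefs
import Vale.Agent.P240.R2.H487.CP1

/-!
Elimination of families of commuting subgroups satisfying `LocSub` or `PauliPSL1`.
-/

set_option linter.all false

namespace Vale.Agent.P240.R2.H487

open Finsupp hiding cons
open Subgroup Vale.Agent.P240.K Vale.Agent.P240.H195

universe u v

section
variable {G : Type u} [Group G] {p : ℕ}

/-- `LocSub` or `PauliPSL1` -/
def LT (p : ℕ) (L : Subgroup G) : Prop := LocSub p L ∨ (p = 2 ∧ IsSimpleGroup L ∧ PauliPSL1 L)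

lemma PauliPSL1.congr {L : Type*} {M : Type*} [Group L] [Group M] (h : PauliPSL1 L) (e : L ≃* M) :
    PauliPSL1 M := by
  obtain ⟨n, a, F, i1, i2, h0, h1, h2, h3, ⟨f⟩⟩ := h
  exact ⟨n, a, F, i1, i2, h0, h1, h2, h3, ⟨f.trans e⟩⟩

lemma LT.cj {L : Subgroup G} (h : LT p L) (g : G) : LT p (K.cj g L) := by
  rcases h with h | ⟨h1, h2, h3⟩
  · exact Or.inl (h.cj g)
  · have e : L ≃* K.cj g L :=
      L.equivMapOfInjective (MulAut.conj g).toMonoidHom (MulAut.conj g).injective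
    exact Or.inr ⟨h1, e.symm.isSimpleGroup, h3.congr e⟩

lemma LT_cj_iff {L : Subgroup G} {g : G} : LT p (K.cj g L) ↔ LT p L := by
  refine ⟨fun h => ?_, fun h => h.cj g⟩
  have h1 := h.cj g⁻¹
  rwa [cj_inv_cj] at h1

lemma pauli_locTop [Finite G] {𝕜 : Type v} [Field 𝕜] {L : Subgroup G} (hs : IsSimpleGroup L)
    (h : PauliPSL1 L) : LocTop 𝕜 2 L := by
  obtain ⟨n, a, F, _, _, h0, h1, h2, h3, ⟨f⟩⟩ := h
  obtain ⟨m, rfl⟩ : ∃ m, n = m + 1 := ⟨n - 1, by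
    have : 0 < 2 ^ a := by positivity
    omega⟩
  have hs' : IsSimpleGroup (PL m F) := f.isSimpleGroup
  simp only [Set.mem_insert_iff, Set.mem_singleton_iff, not_or] at h3
  obtain ⟨e1, e2, e3, e4, e5, e6⟩ := h3
  have hq : 1 < Nat.card F := Finite.one_lt_card
  refine psl_locTop h0 h1 h2 (by omega) e3 (fun q hqF => ?_) hs' f
  by_contra hlt
  have hq11 : q < 11 := by omega
  interval_cases q <;> omega

/-- **Elimination** of a set `D` of commuting subgroups of `X` satisfying `LocSub` or `PauliPSL1`. -/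
theorem lt_step {𝕜 : Type v} [Field 𝕜] [hp : Fact p.Prime] [Finite G] {X : Subgroup G}
    {D : Set (Subgroup G)}
    (hDX : ∀ L ∈ D, L ≤ X) (hconj : ∀ g ∈ X, ∀ L ∈ D, K.cj g L ∈ D)
    (hcomm : ∀ L ∈ D, ∀ M ∈ D, L ≠ M → ∀ x ∈ L, ∀ y ∈ M, x * y = y * x)
    (hc : ∀ L ∈ D, L ⊓ centralizer (L : Set G) = ⊥) (hloc : ∀ L ∈ D, LT p L)
    (hC : NA 𝕜 (Ain p (X ⊓ Cen D))) : NA 𝕜 (Ain p X) := by
  set D₁ : Set (Subgroup G) := {L | L ∈ D ∧ LocSub p L} with hD₁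
  set D₂ : Set (Subgroup G) := {L | L ∈ D ∧ ¬ LocSub p L} with hD₂
  have hU : D₂ ∪ D₁ = D := by
    ext L
    by_cases h1 : LocSub p L <;> simp [hD₁, hD₂, h1]
  have hle : ∀ L ∈ D₁, L ≤ X ⊓ Cen D₂ := by
    rintro L ⟨hL, hL1⟩
    refine le_inf (hDX L hL) fun x hx => ?_
    rw [mem_Cen]
    rintro M ⟨hM, hM1⟩
    rw [mem_centralizer_iff]
    intro y hy
    refine hcomm M hM L hL ?_ y hy x hx
    rintro rfl
    exact hM1 hL1
  refine top_step (D := D₂) (fun L hL => hDX L hL.1)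
    (fun g hg L hL => ⟨hconj g hg L hL.1, fun hcon => hL.2 (locSub_cj_iff.1 hcon)⟩)
    (fun L hL M hM => hcomm L hL.1 M hM.1) (fun L hL => hc L hL.1) (fun L hL => ?_) ?_
  · obtain ⟨h1, h2, h3⟩ := (hloc L hL.1).resolve_left hL.2
    subst h1
    exact pauli_locTop h2 h3
  · refine loc_step (D := D₁) hle
      (fun g hg L hL => ⟨hconj g (mem_inf.1 hg).1 L hL.1, hL.2.cj g⟩)
      (fun L hL M hM => hcomm L hL.1 M hM.1) (fun L hL => hc L hL.1) (fun L hL => hL.2) ?_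
    rw [inf_assoc, ← Cen_union, hU]
    exact hC

/-- removing three sets of components -/
theorem elim4 {𝕜 : Type v} [Field 𝕜] [hp : Fact p.Prime] [Finite G] {F T R D : Set (Subgroup G)}
    (hF : Family p F) (hTF : T ⊆ F) (hRF : R ⊆ F) (hDF : D ⊆ F) (hRT : ∀ L ∈ R, L ∉ T)
    (hDT : ∀ L ∈ D, L ∉ T) (hDR : ∀ L ∈ D, L ∉ R) (hRc : ∀ g : G, ∀ L ∈ R, K.cj g L ∈ R)
    (hDc : ∀ g : G, ∀ L ∈ D, K.cj g L ∈ D) (hT : ∀ L ∈ T, Removable 𝕜 p L)
    (hR : ∀ L ∈ R, RigidLie p L) (hD : ∀ L ∈ D, LT p L)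
    (h : NA 𝕜 (Ain p (Cen (T ∪ R ∪ D)))) : NA 𝕜 (ApS p G) := by
  refine remove hF hTF hT ?_
  refine rigid_step (R := R) (fun L hL => hF.le_Cen hTF (hRF hL) (hRT L hL)) (fun g _ => hRc g)
    (fun L hL M hM => hF.comm L (hRF hL) M (hRF hM)) hR ?_
  rw [← Cen_union]
  refine lt_step (D := D) (fun L hL => hF.le_Cen (Set.union_subset hTF hRF) (hDF hL) ?_)
    (fun g _ => hDc g) (fun L hL M hM => hF.comm L (hDF hL) M (hDF hM))
    (fun L hL => hF.centre L (hDF hL)) hD ?_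
  · rintro (h1 | h1)
    · exact hDT L hL h1
    · exact hDR L hL h1
  · rw [← Cen_union]
    exact h

end

end Vale.Agent.P240.R2.H487
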