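import Vale.Agent.P240.H148.Defs
import Vale.Agent.P240.K.FamDefs

/-!
Subgroups isomorphic to `PSL_n(F)` on which no graph automorphisms are induced.
-/

namespace Vale.Agent.P240.R2.H487

open Subgroup Matrix

/-- `L` is isomorphic to `PSL_n(F)` for some `n ≥ 3` and some finite field `F` of characteristic `r`,
and the elements `x` of `N_G(L)` with `x ^ p ∈ C_G(L)` act on `L` by semilinear maps
`y ↦ M τ(y) M⁻¹`, where `M` is an invertible matrix and `τ` an automorphism of `F`: they do not induce
graph automorphisms. -/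
def SemPSL (p r : ℕ) {G : Type*} [Group G] (L : Subgroup G) : Prop :=
  ∃ (n : ℕ) (F : Type) (_ : Field F) (_ : Finite F)
    (e : ProjectiveSpecialLinearGroup (Fin n) F ≃* L), 3 ≤ n ∧ CharP F r ∧
    ∀ x ∈ normalizer (L : Set G), x ^ p ∈ centralizer (L : Set G) →
      ∃ (M : GL (Fin n) F) (τ : RingAut F), ∀ y z : SpecialLinearGroup (Fin n) F,
        z.1 = M.1 * y.1.map τ * (M⁻¹).1 →
          x * (e (QuotientGroup.mk y) : G) * x⁻¹ = e (QuotientGroup.mk z)

end Vale.Agent.P240.R2.H487
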