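import Vale.Agent.P240.R2.H487.LE3

/-!
The main theorem for components, with components satisfying `LocSub`.
-/

namespace Vale.Agent.P240.R2.H487

open Finsupp Subgroup Vale.Agent.P240.K Vale.Agent.P240.H195

universe u v

section
variable {G : Type u} [Group G] {p : ℕ}

/-- The main theorem with components satisfying `LocSub`, for an arbitrary prime `l`. -/
theorem all_eu_loc {𝕜 : Type v} [Field 𝕜] [hp : Fact p.Prime] [Finite G] {l : ℕ}
    (hO : OpTrivial p G) (hO' : OpPrimeTrivial p G) (hl : l.Prime)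
    (h : ∀ L ∈ Q.Comp G, LocSub p L ∨ RigidLie p L ∨ Treated 𝕜 p l L ∨ EuSub p L) :
    K.HQ 𝕜 p G := by
  classical
  have hlF : Fact l.Prime := ⟨hl⟩
  have hF := comp_family hO hO'
  rw [HQ_iff]
  set V : Set (Subgroup G) := {L | L ∈ Q.Comp G ∧ LocSub p L} with hV
  set R : Set (Subgroup G) := {L | L ∈ Q.Comp G ∧ ¬ LocSub p L ∧ RigidLie p L} with hR
  set D : Set (Subgroup G) := {L | L ∈ Q.Comp G ∧ ¬ LocSub p L ∧ ¬ RigidLie p L ∧
    ((AO p l L ∨ FreeSub p l L) ∨ EuSub p L)} with hD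
  set T : Set (Subgroup G) := {L | L ∈ Q.Comp G ∧ ¬ LocSub p L ∧ ¬ RigidLie p L ∧
    ¬ ((AO p l L ∨ FreeSub p l L) ∨ EuSub p L)} with hT
  have hAF : ∀ (L : Subgroup G) (g : G), (AO p l L ∨ FreeSub p l L) →
      (AO p l (cj g L) ∨ FreeSub p l (cj g L)) := by
    rintro L g (h3 | h3)
    · exact Or.inl (h3.cj g)
    · exact Or.inr (H148.freeSub_cj h3 g)
  have hVc : ∀ g : G, ∀ L ∈ V, cj g L ∈ V := fun g L hL => ⟨hF.conj L hL.1 g, hL.2.cj g⟩
  have hRc : ∀ g : G, ∀ L ∈ R, cj g L ∈ R := fun g L hL =>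
    ⟨hF.conj L hL.1 g, fun hcon => hL.2.1 (locSub_cj_iff.1 hcon), rigidLie_cj hL.2.2⟩
  have hDc : ∀ L ∈ D, ∀ g : G, L.map (MulAut.conj g).toMonoidHom ∈ D := by
    rintro L ⟨h1, h1', h2, h3⟩ g
    refine ⟨hF.conj L h1 g, fun hcon => h1' (locSub_cj_iff.1 hcon),
      fun hcon => h2 (rigidLie_cj_iff.1 hcon), ?_⟩
    rcases h3 with h3 | h3
    · exact Or.inl (hAF L g h3)
    · exact Or.inr (h3.cj g)
  have hrem : ∀ L ∈ T, Removable 𝕜 p L := by
    rintro L ⟨hL, h1', h1, h2⟩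
    rcases ((h L hL).resolve_left h1').resolve_left h1 with
      (h3 | ⟨h3, h4⟩ | ⟨r, hr, hrp, h3, h4⟩ | ⟨h3, h4⟩ | h3 | h3) | h3
    · exact removable_alt h3
    · rcases h4 with h4 | ⟨h4, h5⟩
      · exact Or.inl ⟨fewOuter_of_same h4, almostSimpleHQ_char h3 hp.out h4⟩
      · exact absurd (Or.inl (Or.inl (ao_char hl h4 h3 h5))) h2
    · have hfree : AutFree p r L := h3.autFree hr hp.out hrp.symm
      rcases h4 with h4 | h4 | h4
      · subst h4
        exact absurd (Or.inl (Or.inr hfree.freeSub)) h2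
      · exact Or.inr ⟨r, hr, hrp, h4, hfree.freeSub⟩
      · exact Or.inl ⟨h4, hfree.almostSimpleHQ hr⟩
    · rcases h4 with ⟨r, hr, h4⟩ | h4
      · exact Or.inl ⟨h3, h4.almostSimpleHQ hr⟩
      · exact Or.inl ⟨h3, h4⟩
    · exact absurd (Or.inl (Or.inr h3)) h2
    · exact Or.inr h3
    · exact absurd (Or.inr h3) h2
  -- the set of elements
  set S : Set G := {x | x ≠ 1 ∧ ∃ L ∈ D, x ∈ L ∧ ((AO p l L ∨ FreeSub p l L) ∨ x ∈ gdU p L)} with hS
  have hdisj : ∀ L ∈ D, ∀ M ∈ D, L ≠ M → ∀ x ∈ L, x ∈ M → x = 1 := by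
    intro L hL M hM hne x hxL hxM
    have h1 : x ∈ L ⊓ centralizer (L : Set G) := by
      refine ⟨hxL, mem_centralizer_iff.2 fun y hy => ?_⟩
      exact hF.comm L hL.1 M hM.1 hne y hy x hxM
    rw [hF.centre L hL.1] at h1
    exact h1
  have hScj : ∀ (g : G), ∀ x ∈ S, g * x * g⁻¹ ∈ S := by
    rintro g x ⟨hx1, L, hL, hxL, hx⟩
    refine ⟨fun h1 => hx1 ?_, cj g L, hDc L hL g, cj_mul_mem hxL, ?_⟩
    · have e : x = g⁻¹ * (g * x * g⁻¹) * g := by group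
      rw [e, h1]
      group
    · rcases hx with hx | hx
      · exact Or.inl (hAF L g hx)
      · refine Or.inr (gdU_cj.2 ?_)
        have e : g⁻¹ * (g * x * g⁻¹) * g = x := by group
        rwa [e]
  refine elim3 hF (T := T) (R := R) (D := V) (fun L hL => hL.1) (fun L hL => hL.1)
    (fun L hL => hL.1) (fun L hL hcon => hcon.2.2.1 hL.2.2) (fun L hL hcon => hcon.2.1 hL.2)
    (fun L hL hcon => hcon.2.1 hL.2) hRc hVc hrem (fun L hL => hL.2.2) (fun L hL => hL.2) ?_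
  refine adic_cen (S := S) hl hF (comp_rest hO hO') (D := D) (fun L hL => hL.1) hDc
    (fun L hL => ?_) (T := T ∪ R ∪ V) ?_ ?_ ?_
  · by_cases h1 : AO p l L ∨ FreeSub p l L
    · refine ne_one_adic hl (l2_dvd hO' L hL.1) (hF.centre L hL.1) h1 (fun x hx => ?_)
        fun g _ _ s hs _ => hScj g s hs
      exact ⟨fun hxS => hxS.1, fun hx1 => ⟨hx1, L, hL, hx, Or.inl h1⟩⟩
    · refine eu_adic hl (l2_dvd hO' L hL.1) (hF.centre L hL.1) (hL.2.2.2.resolve_left h1)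
        (fun x hx => ?_) fun g _ _ s hs _ => hScj g s hs
      constructor
      · rintro ⟨hx1, M, hM, hxM, h2⟩
        have hLM : L = M := by
          by_contra hne
          exact hx1 (hdisj L hL M hM hne x hx hxM)
        subst hLM
        exact h2.resolve_left h1
      · intro h2
        exact ⟨h2.1, L, hL, hx, Or.inr h2⟩
  · rintro L ((hL | hL) | hL)
    · exact hL.1
    · exact hL.1
    · exact hL.1
  · rintro L hL ((hL' | hL') | hL')
    · exact hL'.2.2.2 hL.2.2.2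
    · exact hL.2.2.1 hL'.2.2
    · exact hL.2.1 hL'.2
  · intro L hL
    by_cases h0 : LocSub p L
    · exact Or.inr (Or.inr ⟨hL, h0⟩)
    · by_cases h1 : RigidLie p L
      · exact Or.inr (Or.inl (Or.inr ⟨hL, h0, h1⟩))
      · by_cases h2 : (AO p l L ∨ FreeSub p l L) ∨ EuSub p L
        · exact Or.inl ⟨hL, h0, h1, h2⟩
        · exact Or.inr (Or.inl (Or.inl ⟨hL, h0, h1, h2⟩))

/-- The main theorem with components satisfying `LocSub` or `RegFree`. -/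
theorem all_reg_loc {𝕜 : Type v} [Field 𝕜] [hp : Fact p.Prime] [Finite G]
    (hO : OpTrivial p G) (hO' : OpPrimeTrivial p G)
    (h : ∀ L ∈ Q.Comp G, LocSub p L ∨ (RigidLie p L ∨ Treated 𝕜 p p L ∨ EuSub p L) ∨
      RegFree p L) : K.HQ 𝕜 p G := by
  classical
  have hF := comp_family hO hO'
  rw [HQ_iff]
  set V : Set (Subgroup G) := {L | L ∈ Q.Comp G ∧ LocSub p L} with hV
  set R : Set (Subgroup G) := {L | L ∈ Q.Comp G ∧ ¬ LocSub p L ∧ RigidLie p L} with hR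
  set DE : Set (Subgroup G) := {L | L ∈ Q.Comp G ∧ ¬ LocSub p L ∧ ¬ RigidLie p L ∧ EuSub p L}
    with hDE
  set DR : Set (Subgroup G) := {L | L ∈ Q.Comp G ∧ ¬ LocSub p L ∧ ¬ RigidLie p L ∧
    ¬ EuSub p L ∧ RegFree p L} with hDR
  set T : Set (Subgroup G) := {L | L ∈ Q.Comp G ∧ ¬ LocSub p L ∧ ¬ RigidLie p L ∧
    ¬ EuSub p L ∧ ¬ RegFree p L} with hT
  have hEi : ∀ (L : Subgroup G) (g : G), EuSub p (cj g L) → EuSub p L := by
    intro L g h3
    have h1 := h3.cj g⁻¹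
    rwa [cj_inv_cj] at h1
  have hRc : ∀ (L : Subgroup G) (g : G), RegFree p L → RegFree p (cj g L) := fun L g h3 =>
    h3.congr (L.equivMapOfInjective (MulAut.conj g).toMonoidHom (MulAut.conj g).injective)
  have hVc : ∀ g : G, ∀ L ∈ V, cj g L ∈ V := fun g L hL => ⟨hF.conj L hL.1 g, hL.2.cj g⟩
  have hRgc : ∀ g : G, ∀ L ∈ R, cj g L ∈ R := fun g L hL =>
    ⟨hF.conj L hL.1 g, fun hcon => hL.2.1 (locSub_cj_iff.1 hcon), rigidLie_cj hL.2.2⟩
  have hcE : ∀ L ∈ DE, ∀ g : G, cj g L ∈ DE := by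
    rintro L ⟨h1, h1', h2, h3⟩ g
    exact ⟨hF.conj L h1 g, fun hcon => h1' (locSub_cj_iff.1 hcon),
      fun hcon => h2 (rigidLie_cj_iff.1 hcon), h3.cj g⟩
  have hcR : ∀ L ∈ DR, ∀ g : G, cj g L ∈ DR := by
    rintro L ⟨h1, h1', h2, h3, h4⟩ g
    exact ⟨hF.conj L h1 g, fun hcon => h1' (locSub_cj_iff.1 hcon),
      fun hcon => h2 (rigidLie_cj_iff.1 hcon), fun hcon => h3 (hEi L g hcon), hRc L g h4⟩
  have hrem : ∀ L ∈ T, Removable 𝕜 p L := by
    rintro L ⟨hL, h1', h1, h2, h2'⟩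
    rcases ((h L hL).resolve_left h1').resolve_right h2' with h3 | (h3 | ⟨h3, h4⟩ |
      ⟨r, hr, hrp, h3, h4⟩ | ⟨h3, h4⟩ | h3 | h3) | h3
    · exact absurd h3 h1
    · exact removable_alt h3
    · rcases h4 with h4 | ⟨h4, -⟩
      · exact Or.inl ⟨fewOuter_of_same h4, almostSimpleHQ_char h3 hp.out h4⟩
      · exact absurd rfl h4
    · have hfree : AutFree p r L := h3.autFree hr hp.out hrp.symm
      rcases h4 with h4 | h4 | h4
      · exact absurd h4 hrp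
      · exact Or.inr ⟨r, hr, hrp, h4, hfree.freeSub⟩
      · exact Or.inl ⟨h4, hfree.almostSimpleHQ hr⟩
    · rcases h4 with ⟨r, hr, h4⟩ | h4
      · exact Or.inl ⟨h3, h4.almostSimpleHQ hr⟩
      · exact Or.inl ⟨h3, h4⟩
    · exact (freeSub_self (l2_dvd hO' L hL) (hF.centre L hL) h3).elim
    · exact Or.inr h3
    · exact absurd h3 h2
  have hDEF : DE ⊆ Q.Comp G := fun L hL => hL.1
  have hDRF : DR ⊆ Q.Comp G := fun L hL => hL.1
  have hDF : DE ∪ DR ⊆ Q.Comp G := Set.union_subset hDEF hDRF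
  have hdisj : ∀ L ∈ DE, L ∉ DR := fun L h1 h2 => h2.2.2.2.1 h1.2.2.2
  have hcD : ∀ L ∈ DE ∪ DR, ∀ g : G, cj g L ∈ DE ∪ DR := by
    rintro L (hL | hL) g
    · exact Or.inl (hcE L hL g)
    · exact Or.inr (hcR L hL g)
  obtain ⟨S₀, hS1, hS2, hS3⟩ := exists_classes hF hDRF hcR fun L hL => hL.2.2.2.2
  set S : Set G := {x | (x ≠ 1 ∧ ∃ L ∈ DE, x ∈ L ∧ x ∈ gdU p L) ∨ x ∈ S₀} with hS
  have hScj : ∀ (g : G), ∀ x ∈ S, g * x * g⁻¹ ∈ S := by
    rintro g x (⟨hx1, L, hL, hxL, hx⟩ | hx)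
    · refine Or.inl ⟨conj_ne_one hx1, cj g L, hcE L hL g, cj_mul_mem hxL, gdU_cj.2 ?_⟩
      have e : g⁻¹ * (g * x * g⁻¹) * g = x := by group
      rwa [e]
    · exact Or.inr (hS2 g x hx)
  have hSR : ∀ L ∈ DR, ∀ x ∈ L, x ∈ S → x ∈ S₀ := by
    rintro L hL x hxL (⟨hx1, M, hM, hxM, -⟩ | hx)
    · have h1 := family_disj hF (hDEF hM) (hDRF hL) hx1 hxM hxL
      subst h1
      exact absurd hL (hdisj _ hM)
    · exact hx
  have hSE : ∀ L ∈ DE, ∀ x ∈ L, x ∈ S → x ∈ gdU p L := by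
    rintro L hL x hxL (⟨hx1, M, hM, hxM, hx⟩ | hx)
    · have h1 := family_disj hF (hDEF hM) (hDEF hL) hx1 hxM hxL
      subst h1
      exact hx
    · obtain ⟨hx1, M, hM, hxM⟩ := hS1 x hx
      have h1 := family_disj hF (hDEF hL) (hDRF hM) hx1 hxL hxM
      subst h1
      exact absurd hM (hdisj _ hL)
  have hloc : ∀ L ∈ DR, LocalGood p S L := by
    intro L hL
    obtain ⟨h1, h2, h3⟩ := hS3 L hL
    refine local_of ?_ (fun s hs hsL => h2 s (hSR L hL s hsL hs) hsL)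
      (fun s hs hsL t ht htL => h3 s (hSR L hL s hsL hs) hsL t (hSR L hL t htL ht) htL) hScj
    obtain ⟨s, hs, hsL⟩ := h1
    exact ⟨s, Or.inr hs, hsL⟩
  obtain ⟨ε, hε⟩ := mixed_sign hF hDEF hDRF hdisj hcE hcR (comp_rest hO hO') hSE hloc
  refine elim3 hF (T := T) (R := R) (D := V) (fun L hL => hL.1) (fun L hL => hL.1)
    (fun L hL => hL.1) (fun L hL hcon => hcon.2.2.1 hL.2.2) (fun L hL hcon => hcon.2.1 hL.2)
    (fun L hL hcon => hcon.2.1 hL.2) hRgc hVc hrem (fun L hL => hL.2.2) (fun L hL => hL.2) ?_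
  refine prod_cen (S := S) hF (D := DE ∪ DR) hDF hcD (fun L _ h _ _ _ s hs _ => hScj h s hs) ?_
    (T := T ∪ R ∪ V) ?_ ?_ ?_
  · intro h0
    -- the set of elements is not empty
    have hne : ∀ L ∈ DE ∪ DR, ∃ x ∈ S, x ∈ L := by
      rintro L (hL | hL)
      · obtain ⟨s, hs⟩ := hL.2.2.2.nonempty (l2_dvd hO' L hL.1)
        exact ⟨s, Or.inl ⟨hs.1, L, hL, hs.2.1.1, hs⟩, hs.2.1.1⟩
      · obtain ⟨⟨s, hs, hsL⟩, -⟩ := hS3 L hL
        exact ⟨s, Or.inr hs, hsL⟩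
    choose! l hlS hlL using hne
    obtain ⟨d, hd, hdc⟩ := exists_prod hF hDF l hlL
    have hdS : d ∈ Sel (DE ∪ DR) S := by
      refine ⟨?_, fun L hL => ⟨l L, hlS L hL, hlL L hL, ?_⟩⟩
      · rw [sSup_eq_iSup] at hd
        exact hd
      · obtain ⟨c, hc, hdc⟩ := hdc L hL
        rw [hdc, inv_mul_cancel_left]
        exact hc
    have h1 : 0 < ∑ z ∈ (Set.toFinite (Sel (DE ∪ DR) S)).toFinset,
        ε * lam p (Rz (Rest (K.Comp G) (DE ∪ DR)) (DE ∪ DR)) z :=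
      Finset.sum_pos (fun z hz => hε z ((Set.Finite.mem_toFinset _).1 hz))
        ⟨d, (Set.Finite.mem_toFinset _).2 hdS⟩
    rw [← Finset.mul_sum, h0, mul_zero] at h1
    exact lt_irrefl _ h1
  · rintro L ((hL | hL) | hL)
    · exact hL.1
    · exact hL.1
    · exact hL.1
  · rintro L (hL | hL) ((hL' | hL') | hL')
    · exact hL'.2.2.2.1 hL.2.2.2
    · exact hL.2.2.1 hL'.2.2
    · exact hL.2.1 hL'.2
    · exact hL'.2.2.2.2 hL.2.2.2.2
    · exact hL.2.2.1 hL'.2.2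
    · exact hL.2.1 hL'.2
  · intro L hL
    by_cases h0 : LocSub p L
    · exact Or.inr (Or.inr ⟨hL, h0⟩)
    · by_cases h1 : RigidLie p L
      · exact Or.inr (Or.inl (Or.inr ⟨hL, h0, h1⟩))
      · by_cases h2 : EuSub p L
        · exact Or.inl (Or.inl ⟨hL, h0, h1, h2⟩)
        · by_cases h3 : RegFree p L
          · exact Or.inl (Or.inr ⟨hL, h0, h1, h2, h3⟩)
          · exact Or.inr (Or.inl (Or.inl ⟨hL, h0, h1, h2, h3⟩))

/-- **The main theorem** for groups with `O_p(G) = O_{p'}(G) = 1`, with components satisfying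
`LocSub`. -/
theorem all_good_loc {𝕜 : Type v} [Field 𝕜] [hp : Fact p.Prime] [Finite G] {l : ℕ}
    (hO : OpTrivial p G) (hO' : OpPrimeTrivial p G) (hl : l.Prime)
    (h : ∀ L ∈ Q.Comp G, LocSub p L ∨ GoodComp 𝕜 p l L) : K.HQ 𝕜 p G := by
  by_cases hlp : l = p
  · subst hlp
    refine all_reg_loc hO hO' fun L hL => ?_
    rcases h L hL with h | h | h | h | ⟨-, h⟩
    · exact Or.inl h
    · exact Or.inr (Or.inl (Or.inl h))
    · exact Or.inr (Or.inl (Or.inr (Or.inl h)))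
    · exact Or.inr (Or.inl (Or.inr (Or.inr h)))
    · exact Or.inr (Or.inr h)
  · refine all_eu_loc hO hO' hl fun L hL => ?_
    rcases h L hL with h | h | h | h | ⟨h, -⟩
    · exact Or.inl h
    · exact Or.inr (Or.inl h)
    · exact Or.inr (Or.inr (Or.inl h))
    · exact Or.inr (Or.inr (Or.inr h))
    · exact absurd h hlp

end

end Vale.Agent.P240.R2.H487
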