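import Vale.Agent.P240.R2.H487.Cond
import Vale.Agent.P240.R2.H487.LDefs2
import Vale.Agent.P240.R2.H487.LE4
import Vale.Agent.P240.R2.H487.LP9

/-!
The theorems for components `PSL_n(F)`.
-/

namespace Vale.Agent.P240.R2.H487

set_option linter.unusedSectionVars false

open Subgroup Vale.Agent.P240.K Vale.Agent.P240.H195

universe u v

section
variable {G : Type u} [Group G] {p : ℕ}

/-- `LocSub`, or few outer automorphisms and `AutFree` -/
def LocFew (p : ℕ) (L : Subgroup G) : Prop :=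
  LocSub p L ∨ (FewOuter p L ∧ ∃ r : ℕ, r.Prime ∧ AutFree p r L)

lemma LocFew.removable {𝕜 : Type v} [Field 𝕜] [Finite G] {L : Subgroup G} (h : LocFew p L) :
    LocSub p L ∨ Removable 𝕜 p L := by
  rcases h with h | ⟨h, r, hr, h'⟩
  · exact Or.inl h
  · exact Or.inr (Or.inl ⟨h, h'.almostSimpleHQ hr⟩)

lemma LocFew.goodComp {𝕜 : Type v} [Field 𝕜] {l : ℕ} [hp : Fact p.Prime] [Finite G]
    {L : Subgroup G} (h : LocFew p L) : LocSub p L ∨ GoodComp 𝕜 p l L := by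
  rcases h with h | ⟨h, r, hr, h'⟩
  · exact Or.inl h
  · exact Or.inr (Or.inr (Or.inl (Or.inr (Or.inr (Or.inr (Or.inl ⟨h, Or.inl ⟨r, hr, h'⟩⟩))))))

theorem semPSL_locFew [hp : Fact p.Prime] {r : ℕ} (hr : r.Prime) (hrp : r ≠ p) {L : Subgroup G}
    (hs : IsSimpleGroup L) (hn : ∃ x y : L, x * y ≠ y * x) (h : SemPSL p r L) : LocFew p L := by
  obtain ⟨n, F, _, _, e, hn3, hF, hx⟩ := h
  have : Fact r.Prime := ⟨hr⟩
  obtain ⟨m, rfl⟩ : ∃ m, n = m + 1 := ⟨n - 1, by omega⟩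
  have hm : 2 ≤ m := by omega
  have hs' : IsSimpleGroup (PL m F) := e.isSimpleGroup
  have hL : H148.IsPSL r L := ⟨m + 1, F, inferInstance, inferInstance, by omega, Or.inl hn3, hF, ⟨e.symm⟩⟩
  rcases loc_or_few (p := p) (r := r) hp.out hrp hm hs' e (fun x hxN hxp => by
    obtain ⟨M, τ, h1⟩ := hx x hxN hxp
    refine ⟨M, τ, fun y => ?_⟩
    obtain ⟨y, rfl⟩ := QuotientGroup.mk'_surjective _ y
    exact h1 y (actf M τ y) rfl) with h | h
  · exact Or.inl h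
  · exact Or.inr ⟨h, r, hr, (isPSL_lie hs hn hL).2 hp.out (Ne.symm hrp)⟩

theorem psl_locFew [hp : Fact p.Prime] (hp2 : p ≠ 2) {r : ℕ} (hr : r.Prime) (hrp : r ≠ p)
    {L : Subgroup G} (hs : IsSimpleGroup L) (hn : ∃ x y : L, x * y ≠ y * x)
    (h : H148.IsPSL r L) : LocFew p L := by
  have : Fact r.Prime := ⟨hr⟩
  have hfree := (isPSL_lie hs hn h).2 hp.out (Ne.symm hrp)
  obtain ⟨n, F, _, _, hn2, hn3, hF, ⟨e⟩⟩ := h
  by_cases h2 : n = 2
  · subst h2
    exact Or.inr ⟨(isPSL2_few hrp hs e).fewOuter, r, hr, hfree⟩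
  · obtain ⟨m, rfl⟩ : ∃ m, n = m + 1 := ⟨n - 1, by omega⟩
    have hm : 2 ≤ m := by omega
    have hs' : IsSimpleGroup (PL m F) := e.symm.isSimpleGroup
    rcases loc_or_few (p := p) (r := r) hp.out hrp hm hs' e.symm
      (lin_auto (r := r) hm hs' (hp.out.odd_of_ne_two hp2) e.symm) with h | h
    · exact Or.inl h
    · exact Or.inr ⟨h, r, hr, hfree⟩

/-- the components treated explicitly -/
theorem lin_goodComp [hp : Fact p.Prime] [Finite G] {𝕜 : Type v} [Field 𝕜] {l : ℕ}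
    (hO : OpTrivial p G) (hO' : OpPrimeTrivial p G) {L : Subgroup G} (hL : L ∈ Q.Comp G)
    (h : Explicit 𝕜 p l L ∨ ∃ r : ℕ, r.Prime ∧ ((p ≠ 2 ∧ H148.IsPSL r L) ∨ SemPSL p r L)) :
    LocSub p L ∨ GoodComp 𝕜 p l L := by
  have hcf := comp_factor hO hO' hL
  rcases h with h | ⟨r, hr, h⟩
  · exact Or.inr ((h.good hcf).treated (l2_dvd hO' L hL))
  · obtain ⟨hs, hn, -⟩ := hcf
    have : Fact r.Prime := ⟨hr⟩
    by_cases hrp : r = p
    · subst hrp
      have hL' : H148.IsPSL r L := by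
        rcases h with h | ⟨n, F, _, _, e, hn3, hF, -⟩
        · exact h.2
        · exact ⟨n, F, inferInstance, inferInstance, by omega, Or.inl hn3, hF, ⟨e.symm⟩⟩
      exact Or.inr (Or.inl (isPSL_lie (p := r) hs hn hL').1)
    · rcases h with ⟨hp2, h⟩ | h
      · exact (psl_locFew hp2 hr hrp hs hn h).goodComp
      · exact (semPSL_locFew hr hrp hs hn h).goodComp

/-- elimination -/
theorem HQ_loc [hp : Fact p.Prime] [Finite G] {𝕜 : Type v} [Field 𝕜] {D : Set (Subgroup G)}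
    (hconj : ∀ L ∈ D, ∀ g : G, L.map (MulAut.conj g).toMonoidHom ∈ D)
    (hcomm : ∀ L ∈ D, ∀ M ∈ D, L ≠ M → ∀ x ∈ L, ∀ y ∈ M, x * y = y * x)
    (hc : ∀ L ∈ D, ∀ x ∈ L, (∀ y ∈ L, x * y = y * x) → x = 1)
    (hloc : ∀ L ∈ D, LocSub p L) (h : HQ 𝕜 p (CenAll D)) : HQ 𝕜 p G := by
  rw [CenAll_eq, HQ_sub_iff] at h
  rw [HQ_iff, ← Ain_top]
  refine loc_step (D := D) (fun L _ => le_top) (fun g _ L hL => hconj L hL g) hcomm
    (fun L hL => ?_) hloc ?_
  · rw [eq_bot_iff]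
    intro x hx
    obtain ⟨h1, h2⟩ := mem_inf.1 hx
    rw [mem_centralizer_iff] at h2
    exact mem_bot.2 (hc L hL x h1 fun y hy => (h2 y hy).symm)
  · rw [top_inf_eq]
    exact h

/-- elimination of components -/
theorem HQ_comp_elim [hp : Fact p.Prime] [Finite G] {𝕜 : Type v} [Field 𝕜]
    (hO : OpTrivial p G) (hO' : OpPrimeTrivial p G) {S : Set (Subgroup G)} (hS : S ⊆ Q.Comp G)
    (hSc : ∀ L ∈ S, ∀ g : G, L.map (MulAut.conj g).toMonoidHom ∈ S)
    (h0 : ∀ L ∈ S, LocSub p L ∨ Removable 𝕜 p L ∨ RigidLie p L) (h : HQ 𝕜 p (CenAll S)) :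
    HQ 𝕜 p G := by
  classical
  have hF := comp_family hO hO'
  rw [CenAll_eq, HQ_sub_iff] at h
  rw [HQ_iff]
  refine elim3 (T := {L | L ∈ S ∧ ¬ LocSub p L ∧ ¬ RigidLie p L})
    (R := {L | L ∈ S ∧ ¬ LocSub p L ∧ RigidLie p L}) (D := {L | L ∈ S ∧ LocSub p L}) hF
    (fun L hL => hS hL.1) (fun L hL => hS hL.1) (fun L hL => hS hL.1)
    (fun L hL hcon => hcon.2.2 hL.2.2) (fun L hL hcon => hcon.2.1 hL.2)
    (fun L hL hcon => hcon.2.1 hL.2)
    (fun g L hL => ⟨hSc L hL.1 g, fun hcon => hL.2.1 (locSub_cj_iff.1 hcon), rigidLie_cj hL.2.2⟩)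
    (fun g L hL => ⟨hSc L hL.1 g, hL.2.cj g⟩)
    (fun L hL => ((h0 L hL.1).resolve_left hL.2.1).resolve_right hL.2.2)
    (fun L hL => hL.2.2) (fun L hL => hL.2) ?_
  have hU : {L | L ∈ S ∧ ¬ LocSub p L ∧ ¬ RigidLie p L} ∪
      {L | L ∈ S ∧ ¬ LocSub p L ∧ RigidLie p L} ∪ {L | L ∈ S ∧ LocSub p L} = S := by
    ext L
    by_cases h1 : LocSub p L <;> by_cases h2 : RigidLie p L <;> simp [h1, h2]
  rw [hU]
  exact h

/-- **The main theorem for components `PSL_n(F)`.** -/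
theorem lin_main [hp : Fact p.Prime] [Finite G] {𝕜 : Type v} [Field 𝕜] {l : ℕ} (hl : l.Prime)
    (hO : OpTrivial p G) (N : Subgroup G) [N.Normal] (hN : ¬ p ∣ Nat.card N)
    (hmax : ∀ X : Subgroup G, X.Normal → ¬ p ∣ Nat.card X → X ≤ N) (hsol : SolvableFaithful p N)
    (h : ∀ L ∈ Q.Comp (Reduced N), LocSub p L ∨ GoodComp 𝕜 p l L ∨ Explicit 𝕜 p l L ∨
      ∃ r : ℕ, r.Prime ∧ ((p ≠ 2 ∧ H148.IsPSL r L) ∨ SemPSL p r L)) : HQ 𝕜 p G := by
  have hO1 := reduced_op hO N hN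
  have hO2 := reduced_op' N hN hmax
  refine reduce_all N hN hsol (all_good_loc hO1 hO2 hl fun L hL => ?_)
  rcases h L hL with h | h | h
  · exact Or.inl h
  · exact Or.inr h
  · exact lin_goodComp hO1 hO2 hL h

/-- composition factors `A_n` and `PSL_n(F)`, for odd `p` -/
theorem lin_factor [hp : Fact p.Prime] [Finite G] {𝕜 : Type v} [Field 𝕜] {l : ℕ} (hl : l.Prime)
    (hO : OpTrivial p G)
    (h : ∀ (L : Type u) [Group L], CompFactor G L → GoodFactor 𝕜 p l L ∨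
      (p ≠ 2 ∧ ∃ r : ℕ, r.Prime ∧ H148.IsPSL r L)) : HQ 𝕜 p G := by
  obtain ⟨N, hNn, hN, hmax⟩ := l2_exists_pprime (p := p) (H := G)
  have hsol : SolvableFaithful p N := by
    refine solvableFaithful_of hN fun L _ hL => ?_
    have hfin : Finite L := by
      obtain ⟨-, -, A, f, -, hf⟩ := hL
      exact Finite.of_surjective f hf
    have hd : ¬ p ∣ Nat.card L := by
      obtain ⟨-, -, A, f, -, hf⟩ := hL
      intro hd
      exact hN (hd.trans ((Subgroup.card_dvd_of_surjective f hf).trans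
        (Subgroup.card_subgroup_dvd_card A)))
    rcases h L (hL.of_sub hNn.isSubnormal) with h1 | ⟨-, r, hr, h1⟩
    · exact h1.autFree hd
    · have h2 : GoodFactor 𝕜 p l L := Explicit.good hL
        (Or.inr (Or.inr (Or.inr (Or.inl ⟨r, hr, h1, Or.inr (Or.inr (Or.inr hd))⟩))))
      exact h2.autFree hd
  have hO1 := reduced_op hO N hN
  have hO2 := reduced_op' N hN hmax
  refine lin_main hl hO N hN hmax hsol fun L hL => ?_
  have h1 : CompFactor (Reduced N) L := comp_factor hO1 hO2 hL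
  have h2 : CompFactor (centralizer (N : Set G)) L :=
    h1.of_map (QuotientGroup.mk' _) (QuotientGroup.mk'_surjective _)
  have h3 : CompFactor G L :=
    h2.of_sub (inferInstance : (centralizer (N : Set G)).Normal).isSubnormal
  rcases h L h3 with h4 | ⟨h4, r, hr, h5⟩
  · exact Or.inr (Or.inl (h4.treated (l2_dvd hO2 L hL)))
  · exact Or.inr (Or.inr (Or.inr ⟨r, hr, Or.inl ⟨h4, h5⟩⟩))

end

end Vale.Agent.P240.R2.H487
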