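import Vale.Agent.P240.R2.H487.CP3
import Vale.Agent.P240.R2.H487.LQ

/-!
The theorems for components `PSL_n(F)`, `n` a power of `2`, for `p = 2`.
-/

set_option linter.all false

namespace Vale.Agent.P240.R2.H487

open Subgroup Vale.Agent.P240.K Vale.Agent.P240.H195

universe u v

section
variable {G : Type u} [Group G] {p : ℕ}

/-- elimination -/
theorem HQ_lt [hp : Fact p.Prime] [Finite G] {𝕜 : Type v} [Field 𝕜] {D : Set (Subgroup G)}
    (hconj : ∀ L ∈ D, ∀ g : G, L.map (MulAut.conj g).toMonoidHom ∈ D)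
    (hcomm : ∀ L ∈ D, ∀ M ∈ D, L ≠ M → ∀ x ∈ L, ∀ y ∈ M, x * y = y * x)
    (hc : ∀ L ∈ D, ∀ x ∈ L, (∀ y ∈ L, x * y = y * x) → x = 1)
    (hloc : ∀ L ∈ D, LocSub p L ∨ (p = 2 ∧ IsSimpleGroup L ∧ PauliPSL1 L))
    (h : HQ 𝕜 p (CenAll D)) : HQ 𝕜 p G := by
  rw [CenAll_eq, HQ_sub_iff] at h
  rw [HQ_iff, ← Ain_top]
  refine lt_step (D := D) (fun L _ => le_top) (fun g _ L hL => hconj L hL g) hcomm
    (fun L hL => ?_) hloc ?_
  · rw [eq_bot_iff]
    intro x hx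
    obtain ⟨h1, h2⟩ := mem_inf.1 hx
    rw [mem_centralizer_iff] at h2
    exact mem_bot.2 (hc L hL x h1 fun y hy => (h2 y hy).symm)
  · rw [top_inf_eq]
    exact h

/-- elimination of components -/
theorem HQ_comp_lt [hp : Fact p.Prime] [Finite G] {𝕜 : Type v} [Field 𝕜]
    (hO : OpTrivial p G) (hO' : OpPrimeTrivial p G) {S : Set (Subgroup G)} (hS : S ⊆ Q.Comp G)
    (hSc : ∀ L ∈ S, ∀ g : G, L.map (MulAut.conj g).toMonoidHom ∈ S)
    (h0 : ∀ L ∈ S, LocSub p L ∨ Removable 𝕜 p L ∨ RigidLie p L ∨ (p = 2 ∧ PauliPSL1 L))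
    (h : HQ 𝕜 p (CenAll S)) :
    HQ 𝕜 p G := by
  classical
  have hF := comp_family hO hO'
  have h0' : ∀ L ∈ S, LT p L ∨ Removable 𝕜 p L ∨ RigidLie p L := by
    intro L hL
    rcases h0 L hL with h1 | h1 | h1 | h1
    · exact Or.inl (Or.inl h1)
    · exact Or.inr (Or.inl h1)
    · exact Or.inr (Or.inr h1)
    · exact Or.inl (Or.inr ⟨h1.1, (comp_factor hO hO' (hS hL)).1, h1.2⟩)
  rw [CenAll_eq, HQ_sub_iff] at h
  rw [HQ_iff]
  refine elim4 (T := {L | L ∈ S ∧ ¬ LT p L ∧ ¬ RigidLie p L})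
    (R := {L | L ∈ S ∧ ¬ LT p L ∧ RigidLie p L}) (D := {L | L ∈ S ∧ LT p L}) hF
    (fun L hL => hS hL.1) (fun L hL => hS hL.1) (fun L hL => hS hL.1)
    (fun L hL hcon => hcon.2.2 hL.2.2) (fun L hL hcon => hcon.2.1 hL.2)
    (fun L hL hcon => hcon.2.1 hL.2)
    (fun g L hL => ⟨hSc L hL.1 g, fun hcon => hL.2.1 (LT_cj_iff.1 hcon), rigidLie_cj hL.2.2⟩)
    (fun g L hL => ⟨hSc L hL.1 g, hL.2.cj g⟩)
    (fun L hL => ((h0' L hL.1).resolve_left hL.2.1).resolve_right hL.2.2)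
    (fun L hL => hL.2.2) (fun L hL => hL.2) ?_
  have hU : {L | L ∈ S ∧ ¬ LT p L ∧ ¬ RigidLie p L} ∪
      {L | L ∈ S ∧ ¬ LT p L ∧ RigidLie p L} ∪ {L | L ∈ S ∧ LT p L} = S := by
    ext L
    by_cases h1 : LT p L <;> by_cases h2 : RigidLie p L <;> simp [h1, h2]
  rw [hU]
  exact h

/-- **The main theorem for components `PSL_n(F)`.** -/
theorem pauli_main [hp : Fact p.Prime] [Finite G] {𝕜 : Type v} [Field 𝕜] {l : ℕ} (hl : l.Prime)
    (hO : OpTrivial p G) (N : Subgroup G) [N.Normal] (hN : ¬ p ∣ Nat.card N)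
    (hmax : ∀ X : Subgroup G, X.Normal → ¬ p ∣ Nat.card X → X ≤ N) (hsol : SolvableFaithful p N)
    (h : ∀ L ∈ Q.Comp (Reduced N), (p = 2 ∧ PauliPSL1 L) ∨ LocSub p L ∨ GoodComp 𝕜 p l L ∨
      Explicit 𝕜 p l L ∨ ∃ r : ℕ, r.Prime ∧ ((p ≠ 2 ∧ H148.IsPSL r L) ∨ SemPSL p r L)) :
    HQ 𝕜 p G := by
  have hO1 := reduced_op hO N hN
  have hO2 := reduced_op' N hN hmax
  refine reduce_all N hN hsol (all_good_lt hO1 hO2 hl fun L hL => ?_)
  rcases h L hL with h | h | h | h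
  · exact Or.inl (Or.inr ⟨h.1, (comp_factor hO1 hO2 hL).1, h.2⟩)
  · exact Or.inl (Or.inl h)
  · exact Or.inr h
  · rcases lin_goodComp hO1 hO2 hL h with h1 | h1
    · exact Or.inl (Or.inl h1)
    · exact Or.inr h1

/-- `PauliPSL1` and `IsPSL` -/
lemma PauliPSL1.isPSL {L : Type*} [Group L] (h : PauliPSL1 L) : ∃ r : ℕ, r.Prime ∧ H148.IsPSL r L := by
  obtain ⟨n, a, F, _, _, h0, h1, h2, h3, ⟨f⟩⟩ := h
  obtain ⟨r, hr, hc⟩ := exists_char F
  have : 2 ^ 2 ≤ 2 ^ a := Nat.pow_le_pow_right (by norm_num) h1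
  exact ⟨r, hr.out, n, F, inferInstance, inferInstance, by omega, Or.inl (by omega), hc, ⟨f.symm⟩⟩

/-- composition factors -/
theorem pauli_factor [hp : Fact p.Prime] [Finite G] {𝕜 : Type v} [Field 𝕜] {l : ℕ} (hl : l.Prime)
    (hO : OpTrivial p G)
    (h : ∀ (L : Type u) [Group L], CompFactor G L → GoodFactor 𝕜 p l L ∨ Explicit 𝕜 p l L ∨
      (p = 2 ∧ PauliPSL1 L) ∨ (p ≠ 2 ∧ ∃ r : ℕ, r.Prime ∧ H148.IsPSL r L)) : HQ 𝕜 p G := by
  obtain ⟨N, hNn, hN, hmax⟩ := l2_exists_pprime (p := p) (H := G)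
  have hsol : SolvableFaithful p N := by
    refine solvableFaithful_of hN fun L _ hL => ?_
    have hfin : Finite L := by
      obtain ⟨-, -, A, f, -, hf⟩ := hL
      exact Finite.of_surjective f hf
    have hd : ¬ p ∣ Nat.card L := by
      obtain ⟨-, -, A, f, -, hf⟩ := hL
      intro hd
      exact hN (hd.trans ((Subgroup.card_dvd_of_surjective f hf).trans
        (Subgroup.card_subgroup_dvd_card A)))
    have key : ∀ r : ℕ, r.Prime → H148.IsPSL r L → ∃ r' : ℕ, r'.Prime ∧ AutFree p r' L := by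
      intro r hr h1
      have h2 : GoodFactor 𝕜 p l L := Explicit.good hL
        (Or.inr (Or.inr (Or.inr (Or.inl ⟨r, hr, h1, Or.inr (Or.inr (Or.inr hd))⟩))))
      exact h2.autFree hd
    rcases h L (hL.of_sub hNn.isSubnormal) with h1 | h1 | ⟨-, h1⟩ | ⟨-, r, hr, h1⟩
    · exact h1.autFree hd
    · exact (h1.good hL).autFree hd
    · obtain ⟨r, hr, h2⟩ := h1.isPSL
      exact key r hr h2
    · exact key r hr h1
  have hO1 := reduced_op hO N hN
  have hO2 := reduced_op' N hN hmax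
  refine pauli_main hl hO N hN hmax hsol fun L hL => ?_
  have h1 : CompFactor (Reduced N) L := comp_factor hO1 hO2 hL
  have h2 : CompFactor (centralizer (N : Set G)) L :=
    h1.of_map (QuotientGroup.mk' _) (QuotientGroup.mk'_surjective _)
  have h3 : CompFactor G L :=
    h2.of_sub (inferInstance : (centralizer (N : Set G)).Normal).isSubnormal
  rcases h L h3 with h4 | h4 | h4 | ⟨h4, r, hr, h5⟩
  · exact Or.inr (Or.inr (Or.inl (h4.treated (l2_dvd hO2 L hL))))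
  · exact Or.inr (Or.inr (Or.inr (Or.inl h4)))
  · exact Or.inl h4
  · exact Or.inr (Or.inr (Or.inr (Or.inr ⟨r, hr, Or.inl ⟨h4, h5⟩⟩)))

end

end Vale.Agent.P240.R2.H487
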