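import Vale.Agent.P240.R2.H487.Gen3

/-!
The conditions on the components used in the main theorem.
-/

namespace Vale.Agent.P240.R2.H487

set_option linter.unusedSectionVars false

open Subgroup Vale.Agent.P240.K Vale.Agent.P240.H195

universe u v w

section
variable {G : Type u} [Group G]

lemma CenAll_eq (S : Set (Subgroup G)) : CenAll S = Cen S := by
  ext x
  rw [mem_Cen, CenAll, Subgroup.mem_iInf]
  exact forall_congr' fun L => Subgroup.mem_iInf

lemma NClass_eq (l : Subgroup G → ℕ) (q : ℕ) : NClass l q = Nq (Q.Comp G) l q :=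
  CenAll_eq _

end

theorem GoodFor.good {𝕜 : Type v} [Field 𝕜] {p l : ℕ} {L : Type u} [Group L] (hl : l.Prime)
    (h : GoodFor p l L) : GoodFactor 𝕜 p l L := by
  rcases h with h | h | h | h
  · exact Or.inl h
  · exact Or.inr (Or.inl h)
  · exact Or.inr (Or.inr (Or.inl h))
  · exact Or.inr (Or.inr (Or.inr (Or.inl ⟨l, hl, h, Or.inl rfl⟩)))

theorem KnownType.goodFor {p : ℕ} [hp : Fact p.Prime] {L : Type u} [Group L]
    [Finite L] (hs : IsSimpleGroup L) (hn : ∃ x y : L, x * y ≠ y * x) (h : KnownType p L) :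
    ∃ l : ℕ, l.Prime ∧ GoodFor p l L := by
  rcases h with h | ⟨r, hr, h⟩ | ⟨r, hr, hrp, h⟩ | h
  · exact ⟨p, hp.out, Or.inl h⟩
  · have : Fact r.Prime := ⟨hr⟩
    by_cases hrp : r = p
    · subst hrp
      exact ⟨r, hr, Or.inr (Or.inl (isPSL_lie (p := r) hs hn h).1)⟩
    · exact ⟨r, hr, Or.inr (Or.inr (Or.inr ((isPSL_lie hs hn h).2 hp.out (Ne.symm hrp))))⟩
  · exact ⟨r, hr, Or.inr (Or.inr (Or.inr (h.autFree hr hp.out (Ne.symm hrp))))⟩
  · exact ⟨p, hp.out, Or.inr (Or.inl h)⟩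

theorem GoodFor.almost {𝕜 : Type v} [Field 𝕜] {p l : ℕ} [hp : Fact p.Prime] {L : Type u} [Group L]
    [Finite L] (hl : l.Prime) (hs : IsSimpleGroup L) (hn : ∃ x y : L, x * y ≠ y * x)
    (hd : p ∣ Nat.card L) (h : GoodFor p l L) (A : Subgroup (MulAut L))
    (hA : ∀ x : L, MulAut.conj x ∈ A) : HQ 𝕜 p A :=
  aut_good hs (centreless_of hs hn) hd hl (h.good hl) A hA

section
variable {G : Type u} [Group G] {p : ℕ} [hp : Fact p.Prime] [Finite G]

theorem comp_labelled {𝕜 : Type v} [Field 𝕜] (hO : OpTrivial p G) (hO' : OpPrimeTrivial p G)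
    (h : Labelled 𝕜 p G) : HQ 𝕜 p G := by
  obtain ⟨l, B, h1, h2, h3', h4, h5⟩ := h
  rw [CenAll_eq] at h5
  simp only [NClass_eq] at h4 h5
  have h3 : ∀ L ∈ Q.Comp G, l L ≠ 0 → (l L).Prime ∧ GoodFactor 𝕜 p (l L) L := fun L hL h =>
    ⟨(h3' L hL h).1, (h3' L hL h).2.good (h3' L hL h).1⟩
  refine family_main_omega (comp_family hO hO') (fun L hL => comp_simple hO hO' hL)
    (comp_faithful hO hO') h1 h2 h3 h4
    (h5.imp (fun h L hL M hM => h L hL.1 M hM.1 hL.2.1 hL.2.2 hM.2.1 hM.2.2) fun h => h)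

theorem comp_separated {𝕜 : Type v} [Field 𝕜] (hO : OpTrivial p G) (hO' : OpPrimeTrivial p G)
    (h : Separated 𝕜 p G) : HQ 𝕜 p G := by
  obtain ⟨hchar, S, h1, h2, h3, h4, h5⟩ := h
  rw [CenAll_eq] at h4
  exact family_omega hchar (comp_family hO hO') (fun L hL => comp_simple hO hO' hL)
    (comp_faithful hO hO') h1 h2 h3 h4 fun L hL => Or.inr (h5 L hL.1 hL.2)

end

end Vale.Agent.P240.R2.H487
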