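import Vale.Agent.P240.R2.H487.CD2

/-!
The count lemma for systems of elementary abelian groups with arrangements.
-/

set_option linter.all false

namespace Vale.Agent.P240.R2.H487

open Finsupp hiding cons
open Subgroup Vale.Agent.P240.K

universe u v

section
variable {G : Type u} [Group G] [Finite G] {𝕜 : Type v} [Field 𝕜] {p : ℕ}

/-- the members of the system that share the hyperplane `H` with `E` -/
def cls (O : Finset (Subgroup G)) (R : Subgroup G → Finset (Subgroup G)) (E H : Subgroup G) :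
    Set (Subgroup G) :=
  {E' | E' ∈ O ∧ H ∈ R E' ∧ RH (R E' : Set (Subgroup G)) H = RH (R E : Set (Subgroup G)) H}

open Classical in
/-- **The count lemma for systems.** -/
theorem frames_lemma [hp : Fact p.Prime] {M : Subgroup G} {n : ℕ} (O : Finset (Subgroup G))
    (R₁ : Subgroup G → Finset (Subgroup G)) (hO1 : 0 < O.card)
    (hOa : ∀ E ∈ O, E ∈ ApS p G) (hOM : ∀ E ∈ O, E ≤ M) (hOc : ∀ E ∈ O, Nat.card E = p ^ (n + 2))
    (w m : ℕ) (hm : 0 < m)
    (hmE : ∀ E ∈ O, m ≤ Module.finrank 𝕜 (UU 𝕜 E (R₁ E : Set (Subgroup G)) (n + 1)))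
    (hw : ∀ E ∈ O, ∀ H ∈ R₁ E,
      Module.finrank 𝕜 (UU 𝕜 H (RH (R₁ E : Set (Subgroup G)) H) n) ≤ w)
    (hd : ∀ E ∈ O, (w : ℚ) * ∑ H ∈ R₁ E, (1 / ((cls O R₁ E H).ncard : ℚ)) ≤ m) :
    ∃ E ∈ O, ∃ (α : Ch 𝕜 (Subgroup G)) (φ : List (Subgroup G)), TopCycle 𝕜 p M E α φ := by
  have : Fintype (Subgroup G) := Fintype.ofFinite _
  set R : Subgroup G → Set (Subgroup G) := fun E => {H | E ∈ O ∧ H ∈ R₁ E} with hR
  have hReq : ∀ E ∈ O, R E = (R₁ E : Set (Subgroup G)) := by
    intro E hE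
    ext H
    exact ⟨fun h => h.2, fun h => ⟨hE, h⟩⟩
  have hRO : ∀ E, E ∉ O → R E = ∅ := by
    intro E hEO
    rw [Set.eq_empty_iff_forall_notMem]
    rintro H ⟨h, -⟩
    exact hEO h
  have hcardR : ∀ E H, H ∈ R E → Nat.card E = p ^ (n + 2) := fun E H h => hOc E h.1
  set P : Finset (Subgroup G × Subgroup G) := Finset.univ.filter fun x => x.2 ∈ R x.1 with hP
  have hPmem : ∀ x, x ∈ P ↔ x.2 ∈ R x.1 := fun x => by simp [hP]
  set S : Subgroup G × Subgroup G → Finset (Subgroup G × Subgroup G) := fun x =>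
    Finset.univ.filter fun z => z.2 = x.2 ∧ z.1 ∈ cls O R₁ x.1 x.2 with hS
  have hSmem : ∀ x z, z ∈ S x ↔ z.2 = x.2 ∧ z.1 ∈ cls O R₁ x.1 x.2 := fun x z => by simp [hS]
  have hS1 : ∀ x ∈ P, x ∈ S x := fun x hx =>
    (hSmem x x).2 ⟨rfl, ((hPmem x).1 hx).1, ((hPmem x).1 hx).2, rfl⟩
  have hS2' : ∀ x ∈ P, ∀ z ∈ S x, z ∈ P ∧ S z = S x ∧ RH (R z.1) z.2 = RH (R x.1) x.2 := by
    rintro ⟨E, H⟩ hx ⟨E', H'⟩ hz
    obtain ⟨h1, h2, h3, h4⟩ := (hSmem _ _).1 hz
    rw [hPmem] at hx
    change H' = H at h1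
    change E' ∈ O at h2
    change H ∈ R₁ E' at h3
    change RH (R₁ E' : Set (Subgroup G)) H = RH (R₁ E : Set (Subgroup G)) H at h4
    subst h1
    change H' ∈ R E at hx
    refine ⟨(hPmem _).2 ⟨h2, h3⟩, ?_, ?_⟩
    · ext z
      rw [hSmem, hSmem]
      change (z.2 = H' ∧ z.1 ∈ cls O R₁ E' H') ↔ (z.2 = H' ∧ z.1 ∈ cls O R₁ E H')
      rw [cls, cls, h4]
    · change RH (R E') H' = RH (R E) H'
      rw [hReq E' h2, hReq E hx.1, h4]
  have hclass := sum_classes P S hS1 fun x hx z hz => ⟨(hS2' x hx z hz).1, (hS2' x hx z hz).2.1⟩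
  have hScard : ∀ x, (S x).card = (cls O R₁ x.1 x.2).ncard := by
    intro x
    have h1 : S x = ((cls O R₁ x.1 x.2).toFinite.toFinset).image fun E => (E, x.2) := by
      ext z
      rw [hSmem, Finset.mem_image]
      constructor
      · rintro ⟨h1, h2⟩
        exact ⟨z.1, by simpa using h2, Prod.ext rfl h1.symm⟩
      · rintro ⟨E, hE', rfl⟩
        exact ⟨rfl, by simpa using hE'⟩
    rw [h1, Finset.card_image_of_injective _ (fun a b h => congrArg Prod.fst h),
      Set.ncard_eq_toFinset_card _ (Set.toFinite _)]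
  -- the sum over the pairs
  have hsumP : (w : ℚ) * ∑ x ∈ P, (1 / ((S x).card : ℚ)) ≤ O.card * m := by
    have e1 : ∑ x ∈ P, (1 / ((S x).card : ℚ)) = ∑ E : Subgroup G,
        ∑ H ∈ Finset.univ.filter (fun H => H ∈ R E), (1 / ((cls O R₁ E H).ncard : ℚ)) := by
      rw [hP, Finset.sum_filter, Fintype.sum_prod_type]
      refine Finset.sum_congr rfl fun E _ => ?_
      rw [Finset.sum_filter]
      refine Finset.sum_congr rfl fun H _ => ?_
      rw [hScard]
    have e2 : ∀ E, ∑ H ∈ Finset.univ.filter (fun H => H ∈ R E), (1 / ((cls O R₁ E H).ncard : ℚ)) =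
        if E ∈ O then ∑ H ∈ R₁ E, (1 / ((cls O R₁ E H).ncard : ℚ)) else 0 := by
      intro E
      split_ifs with hEO
      · have h1 : Finset.univ.filter (fun H => H ∈ R E) = R₁ E := by
          ext H
          rw [Finset.mem_filter]
          exact ⟨fun h => h.2.2, fun h => ⟨Finset.mem_univ _, hEO, h⟩⟩
        rw [h1]
      · refine Finset.sum_eq_zero fun H hH => ?_
        exact absurd (Finset.mem_filter.1 hH).2.1 hEO
    rw [e1, Finset.sum_congr rfl fun E _ => e2 E, Finset.sum_ite_mem, Finset.univ_inter,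
      Finset.mul_sum, ← nsmul_eq_mul]
    exact Finset.sum_le_card_nsmul _ _ _ fun E hE => hd E hE
  -- representatives
  have hrep : ∀ k : (P.image S : Finset (Finset (Subgroup G × Subgroup G))),
      ∃ x ∈ P, S x = k.1 := fun k => Finset.mem_image.1 k.2
  choose rep hrepP hrepS using hrep
  have hmemΦ : ∀ (k : (P.image S : Finset (Finset (Subgroup G × Subgroup G))))
      (x : Subgroup G × Subgroup G), x ∈ k.1 → ∀ c ∈ UU 𝕜 x.1 (R x.1) (n + 1),
        tl x.2 c ∈ UU 𝕜 (rep k).2 (RH (R (rep k).1) (rep k).2) n := by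
    intro k x hx c hc
    rw [← hrepS k] at hx
    obtain ⟨h1, -, h2⟩ := hS2' _ (hrepP k) x hx
    have h3 := tl_mem hp.out (hcardR x.1 x.2 ((hPmem x).1 h1)) hc x.2
    rw [h2, ((hSmem _ _).1 hx).1] at h3
    rw [((hSmem _ _).1 hx).1]
    exact h3
  set Φ : (∀ E : Subgroup G, UU 𝕜 E (R E) (n + 1)) →ₗ[𝕜]
      (∀ k : (P.image S : Finset (Finset (Subgroup G × Subgroup G))),
        UU 𝕜 (rep k).2 (RH (R (rep k).1) (rep k).2) n) :=
    LinearMap.pi fun k => LinearMap.codRestrict _
      (∑ x ∈ k.1, (tl x.2).comp ((Submodule.subtype _).comp (LinearMap.proj x.1)))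
      (fun c => by
        rw [LinearMap.sum_apply]
        exact Submodule.sum_mem _ fun x hx => hmemΦ k x hx _ (c x.1).2) with hΦ
  have hΦa : ∀ c k, ((Φ c k : UU 𝕜 (rep k).2 (RH (R (rep k).1) (rep k).2) n) :
      Ch 𝕜 (Subgroup G)) = ∑ x ∈ k.1, tl x.2 (c x.1).1 := by
    intro c k
    change (∑ x ∈ k.1, (tl x.2).comp ((Submodule.subtype _).comp (LinearMap.proj x.1)) :
      (∀ E : Subgroup G, UU 𝕜 E (R E) (n + 1)) →ₗ[𝕜] Ch 𝕜 (Subgroup G)) c = _
    rw [LinearMap.sum_apply]
    rfl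
  -- dimensions
  have hW : Module.finrank 𝕜 (∀ k : (P.image S : Finset (Finset (Subgroup G × Subgroup G))),
      UU 𝕜 (rep k).2 (RH (R (rep k).1) (rep k).2) n) ≤ (P.image S).card * w := by
    rw [Module.finrank_pi_fintype]
    refine (Finset.sum_le_card_nsmul _ _ w fun k _ => ?_).trans (le_of_eq ?_)
    · have h1 := (hPmem _).1 (hrepP k)
      rw [hReq _ h1.1]
      exact hw _ h1.1 _ h1.2
    · rw [Finset.card_univ, Fintype.card_coe, smul_eq_mul]
  have hV : O.card * m ≤ Module.finrank 𝕜 (∀ E : Subgroup G, UU 𝕜 E (R E) (n + 1)) := by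
    rw [Module.finrank_pi_fintype]
    refine le_trans ?_ (Finset.sum_le_sum_of_subset (Finset.subset_univ O))
    rw [← smul_eq_mul]
    refine Finset.card_nsmul_le_sum _ _ _ fun E hEO => ?_
    rw [hReq E hEO]
    exact hmE E hEO
  obtain ⟨c, hc0, hc⟩ : ∃ c : (∀ E : Subgroup G, UU 𝕜 E (R E) (n + 1)), c ≠ 0 ∧ Φ c = 0 := by
    by_contra hcon
    push Not at hcon
    have hinj : Function.Injective Φ := by
      intro a b hab
      by_contra hne
      have h1 := hcon (fun E => ⟨(a E).1 - (b E).1, Submodule.sub_mem _ (a E).2 (b E).2⟩) ?_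
      · apply h1
        funext k
        apply Subtype.ext
        rw [hΦa]
        have h2 : ∑ x ∈ k.1, tl x.2 (a x.1).1 = ∑ x ∈ k.1, tl x.2 (b x.1).1 := by
          rw [← hΦa, ← hΦa, hab]
        change ∑ x ∈ k.1, tl x.2 ((a x.1).1 - (b x.1).1) = 0
        simp only [map_sub, Finset.sum_sub_distrib]
        rw [h2, sub_self]
      · intro h2
        apply hne
        funext E
        apply Subtype.ext
        have h3 := congrArg Subtype.val (congrFun h2 E)
        exact sub_eq_zero.1 h3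
    have h1 : Module.finrank 𝕜 (∀ E : Subgroup G, UU 𝕜 E (R E) (n + 1)) + 1 ≤
        Module.finrank 𝕜 (∀ k : (P.image S : Finset (Finset (Subgroup G × Subgroup G))),
          UU 𝕜 (rep k).2 (RH (R (rep k).1) (rep k).2) n) := by
      set Ψ : (∀ k : (P.image S : Finset (Finset (Subgroup G × Subgroup G))),
          UU 𝕜 (rep k).2 (RH (R (rep k).1) (rep k).2) n) →ₗ[𝕜] Ch 𝕜 (Subgroup G) :=
        ∑ k, (Submodule.subtype _).comp (LinearMap.proj k) with hΨ
      have hΨa : ∀ d, Ψ d = ∑ k, (d k).1 := by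
        intro d
        rw [hΨ, LinearMap.sum_apply]
        rfl
      have hle : LinearMap.range Φ ≤ LinearMap.ker Ψ := by
        rintro _ ⟨c, rfl⟩
        rw [LinearMap.mem_ker, hΨa]
        have e0 : ∀ E, ∑ H, tl H (c E).1 = 0 := by
          intro E
          by_cases hEO : E ∈ O
          · exact (sum_tl_eq hp.out (hOc E hEO) (c E).2).1
          · have h3 : (c E).1 = 0 := UU_empty E _ (UU_mono (hRO E hEO).le _ (c E).2)
            rw [h3]
            exact Finset.sum_eq_zero fun H _ => map_zero _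
        have e1 : ∑ x ∈ P, tl x.2 (c x.1).1 = 0 := by
          have e2 : ∑ x : Subgroup G × Subgroup G, tl x.2 (c x.1).1 = 0 := by
            rw [Fintype.sum_prod_type]
            exact Finset.sum_eq_zero fun E _ => e0 E
          rw [← e2]
          refine Finset.sum_subset (Finset.subset_univ P) fun x _ hx => ?_
          rw [hPmem] at hx
          by_cases hEO : x.1 ∈ O
          · exact tl_eq_zero hp.out (hOc _ hEO) (c x.1).2 hx
          · have h3 : (c x.1).1 = 0 := UU_empty x.1 _ (UU_mono (hRO x.1 hEO).le _ (c x.1).2)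
            rw [h3, map_zero]
        have e3 : ∑ x ∈ P, tl x.2 (c x.1).1 =
            ∑ k ∈ P.image S, ∑ x ∈ P with S x = k, tl x.2 (c x.1).1 :=
          (Finset.sum_fiberwise_of_maps_to (fun x hx => Finset.mem_image_of_mem S hx) _).symm
        rw [← e1, e3, ← Finset.sum_coe_sort (P.image S)]
        refine Finset.sum_congr rfl fun k _ => ?_
        rw [hΦa]
        refine Finset.sum_congr ?_ fun _ _ => rfl
        ext z
        rw [Finset.mem_filter]
        constructor
        · intro hz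
          rw [← hrepS k] at hz
          have h3 := hS2' _ (hrepP k) z hz
          exact ⟨h3.1, h3.2.1.trans (hrepS k)⟩
        · rintro ⟨hz, hzx⟩
          rw [← hzx]
          exact hS1 z hz
      have h3 := LinearMap.finrank_range_of_inj hinj
      have hfk : Module.Finite 𝕜 (LinearMap.ker Ψ) :=
        FiniteDimensional.finiteDimensional_submodule (K := 𝕜)
          (V := ∀ k : (P.image S : Finset (Finset (Subgroup G × Subgroup G))),
            UU 𝕜 (rep k).2 (RH (R (rep k).1) (rep k).2) n) _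
      have hfr : Module.Finite 𝕜 (LinearMap.range Ψ) :=
        Module.Finite.of_surjective Ψ.rangeRestrict Ψ.surjective_rangeRestrict
      have h4 := Submodule.finrank_mono hle
      have h5 := LinearMap.finrank_range_add_finrank_ker (K := 𝕜)
        (V := ∀ k : (P.image S : Finset (Finset (Subgroup G × Subgroup G))),
          UU 𝕜 (rep k).2 (RH (R (rep k).1) (rep k).2) n) (V₂ := Ch 𝕜 (Subgroup G)) Ψ
      have h6 : 0 < Module.finrank 𝕜 (LinearMap.range Ψ) := by
        obtain ⟨d, hd0⟩ : ∃ d : (∀ k : (P.image S : Finset (Finset (Subgroup G × Subgroup G))),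
            UU 𝕜 (rep k).2 (RH (R (rep k).1) (rep k).2) n), d ≠ 0 := by
          have h7 : Nontrivial (∀ E : Subgroup G, UU 𝕜 E (R E) (n + 1)) := by
            refine Module.nontrivial_of_finrank_pos (R := 𝕜) (lt_of_lt_of_le ?_ hV)
            exact Nat.mul_pos hO1 hm
          obtain ⟨v, hv⟩ := exists_ne (0 : ∀ E : Subgroup G, UU 𝕜 E (R E) (n + 1))
          refine ⟨Φ v, fun h0 => hv (hinj ?_)⟩
          rw [h0, map_zero]
        obtain ⟨k, hk⟩ := Function.ne_iff.1 hd0
        have h8 : Ψ (Pi.single k (d k)) = (d k).1 := by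
          rw [hΨa, Finset.sum_eq_single k]
          · rw [Pi.single_eq_same]
          · intro k' _ hne
            rw [Pi.single_eq_of_ne hne]
            rfl
          · intro h9
            exact absurd (Finset.mem_univ _) h9
        rw [Nat.pos_iff_ne_zero]
        intro h9
        have h10 : LinearMap.range Ψ = ⊥ := Submodule.finrank_eq_zero.1 h9
        have h11 : Ψ (Pi.single k (d k)) ∈ LinearMap.range Ψ := LinearMap.mem_range_self _ _
        rw [h10, Submodule.mem_bot, h8] at h11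
        exact hk (Subtype.ext h11)
      omega
    have h2 : O.card * m + 1 ≤ (P.image S).card * w := (Nat.add_le_add_right hV 1).trans (h1.trans hW)
    have h3 : (O.card : ℚ) * m + 1 ≤ ((P.image S).card : ℚ) * w := by exact_mod_cast h2
    rw [← hclass] at h3
    nlinarith [h3, hsumP]
  -- the sum of the components
  have hcO : ∀ E, E ∉ O → (c E).1 = 0 := by
    intro E hEO
    exact UU_empty E _ (UU_mono (hRO E hEO).le _ (c E).2)
  have hcE : ∀ E, (c E).1 ≠ 0 → E ∈ O := by
    intro E h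
    by_contra hcon
    exact h (hcO E hcon)
  have hsum : ∑ E, (c E).1 = 0 := by
    have e1 : ∑ E, (c E).1 = ∑ x : Subgroup G × Subgroup G,
        Vale.Agent.P240.K.cons x.2 (tl x.2 (c x.1).1) := by
      rw [Fintype.sum_prod_type]
      exact Finset.sum_congr rfl fun E _ => sum_cons_tl (UU_nil (c E).2)
    have e2 : ∑ x : Subgroup G × Subgroup G, Vale.Agent.P240.K.cons x.2 (tl x.2 (c x.1).1) =
        ∑ x ∈ P, Vale.Agent.P240.K.cons x.2 (tl x.2 (c x.1).1) := by
      refine (Finset.sum_subset (Finset.subset_univ P) fun x _ hx => ?_).symm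
      rw [hPmem] at hx
      by_cases h0 : (c x.1).1 = 0
      · rw [h0, map_zero, map_zero]
      · rw [tl_eq_zero hp.out (hOc _ (hcE _ h0)) (c x.1).2 hx, map_zero]
    have e3 : ∑ x ∈ P, Vale.Agent.P240.K.cons x.2 (tl x.2 (c x.1).1) =
        ∑ k ∈ P.image S, ∑ x ∈ P with S x = k, Vale.Agent.P240.K.cons x.2 (tl x.2 (c x.1).1) :=
      (Finset.sum_fiberwise_of_maps_to (fun x hx => Finset.mem_image_of_mem S hx) _).symm
    rw [e1, e2, e3]
    refine Finset.sum_eq_zero fun k hk => ?_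
    have h1 : S (rep ⟨k, hk⟩) = k := hrepS ⟨k, hk⟩
    have h2 : ({x ∈ P | S x = k} : Finset (Subgroup G × Subgroup G)) = k := by
      ext z
      rw [Finset.mem_filter]
      constructor
      · rintro ⟨hz, hzx⟩
        rw [← hzx]
        exact hS1 z hz
      · intro hz
        rw [← h1] at hz
        have h3 := hS2' _ (hrepP ⟨k, hk⟩) z hz
        exact ⟨h3.1, h3.2.1.trans h1⟩
    rw [h2]
    have h3 : ∀ x ∈ k, Vale.Agent.P240.K.cons x.2 (tl x.2 (c x.1).1) =
        Vale.Agent.P240.K.cons (rep ⟨k, hk⟩).2 (tl x.2 (c x.1).1) := by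
      intro x hx
      rw [← h1] at hx
      rw [((hSmem _ _).1 hx).1]
    rw [Finset.sum_congr rfl h3, ← map_sum]
    have h4 := hΦa c ⟨k, hk⟩
    rw [hc] at h4
    change (0 : Ch 𝕜 (Subgroup G)) = ∑ x ∈ k, tl x.2 (c x.1).1 at h4
    rw [← h4, map_zero]
  -- the cycle
  obtain ⟨z, hz⟩ : ∃ z : Ch 𝕜 (Subgroup G), z = ∑ E, Vale.Agent.P240.K.cons E (c E).1 := ⟨_, rfl⟩
  have hbz : bd z = 0 := by
    rw [hz, map_sum]
    have h1 : ∀ E, bd (Vale.Agent.P240.K.cons E (c E).1) = (c E).1 := by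
      intro E
      rw [bd_cons, (mem_UU.1 (c E).2).2, map_zero, sub_zero]
    rw [Finset.sum_congr rfl fun E _ => h1 E, hsum]
  have htz : ∀ E, tl E z = (c E).1 := by
    intro E
    rw [hz, map_sum, Finset.sum_eq_single E]
    · exact tl_cons _ _
    · intro E' _ hne
      exact tl_cons_ne (Ne.symm hne) _
    · intro h
      exact absurd (Finset.mem_univ _) h
  obtain ⟨E, hcE0⟩ : ∃ E, (c E).1 ≠ 0 := by
    by_contra hcon
    push Not at hcon
    exact hc0 (funext fun E => Subtype.ext (hcon E))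
  have hEO := hcE E hcE0
  obtain ⟨l, hl⟩ := Finsupp.ne_iff.1 hcE0
  rw [Finsupp.zero_apply] at hl
  have hzl : z (E :: l) ≠ 0 := by
    rw [← tl_apply, htz]
    exact hl
  have hfl := ((mem_UU.1 (c E).2).1 l (Finsupp.mem_support_iff.2 hl)).1
  -- the support
  have hsupp : z ∈ Sp 𝕜 (fun m => st (Ain p M) m ∧ m.length = n + 2) := by
    rw [hz]
    refine Submodule.sum_mem _ fun E _ => ?_
    by_cases h0 : (c E).1 = 0
    · rw [h0, map_zero]
      exact Submodule.zero_mem _
    have hEO := hcE E h0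
    refine cons_mem (P := Fl E (n + 1)) (fun m hm => ⟨⟨hm.2.1, ?_⟩, ?_⟩)
      (mem_Sp.2 fun m hm => ((mem_UU.1 (c E).2).1 m hm).1)
    · intro K hK
      rcases List.mem_cons.1 hK with rfl | hK
      · exact ⟨hOa _ hEO, hOM _ hEO⟩
      · have h1 : K ≤ E := ((List.pairwise_cons.1 hm.2.1).1 K hK).le
        exact ⟨mem_ApS_of_le (hOa _ hEO) h1 (hm.2.2 K hK), h1.trans (hOM _ hEO)⟩
    · rw [List.length_cons, hm.1]
  refine ⟨E, hEO, z, E :: l, ?_, hbz, hzl, Or.inr ⟨l, rfl⟩, ?_⟩
  · have hlen : (E :: l).length = n + 2 := by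
      rw [List.length_cons, hfl.1]
    rw [hlen]
    exact hsupp
  · rw [hOc E hEO, List.length_cons, hfl.1]

end

end Vale.Agent.P240.R2.H487
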