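import Vale.Agent.P240.R2.H487.DD1
import Vale.Agent.P240.R2.H487.CF

/-!
The count lemma for conjugates, and images of top cycles.
-/

set_option linter.all false

namespace Vale.Agent.P240.R2.H487

open Finsupp hiding cons
open Subgroup Vale.Agent.P240.K

universe u v

section
variable {𝕜 : Type v} [Field 𝕜] {G : Type*} [Group G] {H : Type*} [Group H] {p : ℕ}

lemma map_injOn_sub {M : Subgroup H} {f : H →* G} (hf : ∀ x ∈ M, f x = 1 → x = 1)
    {A B : Subgroup H} (hA : A ≤ M) (hB : B ≤ M) (h : A.map f = B.map f) : A = B := by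
  have key : ∀ A B : Subgroup H, A ≤ M → B ≤ M → A.map f ≤ B.map f → A ≤ B := by
    intro A B hA hB h x hx
    obtain ⟨y, hy, hxy⟩ := h ⟨x, hx, rfl⟩
    have h1 : f (x * y⁻¹) = 1 := by rw [map_mul, map_inv, hxy, mul_inv_cancel]
    have h2 := hf _ (mul_mem (hA hx) (inv_mem (hB hy))) h1
    rw [mul_inv_eq_one.1 h2]
    exact hy
  exact le_antisymm (key A B hA hB h.le) (key B A hB hA h.ge)

lemma list_map_inj {M : Subgroup H} {f : H →* G} (hf : ∀ x ∈ M, f x = 1 → x = 1) :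
    ∀ {l m : List (Subgroup H)}, (∀ K ∈ l, K ≤ M) → (∀ K ∈ m, K ≤ M) →
      l.map (Subgroup.map f) = m.map (Subgroup.map f) → l = m := by
  intro l
  induction l with
  | nil =>
    intro m _ _ h
    rcases m with _ | ⟨b, m⟩
    · rfl
    · simp at h
  | cons a l ih =>
    intro m hl hm h
    rcases m with _ | ⟨b, m⟩
    · simp at h
    · rw [List.map_cons, List.map_cons, List.cons.injEq] at h
      rw [map_injOn_sub hf (hl a List.mem_cons_self) (hm b List.mem_cons_self) h.1,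
        ih (fun K hK => hl K (List.mem_cons_of_mem _ hK))
          (fun K hK => hm K (List.mem_cons_of_mem _ hK)) h.2]

/-- **Images of top cycles.** -/
theorem topCycle_map [Finite H] {M E : Subgroup H} {f : H →* G} (hf : ∀ x ∈ M, f x = 1 → x = 1)
    {α : Ch 𝕜 (Subgroup H)} {φ : List (Subgroup H)} (h : TopCycle 𝕜 p M E α φ) (hEM : E ≤ M) :
    TopCycle 𝕜 p (M.map f) (E.map f) (mp (Subgroup.map f) α) (φ.map (Subgroup.map f)) := by
  have hlt : ∀ {A B : Subgroup H}, A ≤ M → B ≤ M → A < B → A.map f < B.map f := by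
    intro A B hA hB hAB
    refine lt_of_le_of_ne (map_mono hAB.le) fun h0 => hAB.ne (map_injOn_sub hf hA hB h0)
  have hcard : ∀ {A : Subgroup H}, A ≤ M → Nat.card (A.map f) = Nat.card A := by
    intro A hA
    refine (Nat.card_eq_of_bijective (fun x : A => (⟨f x, x, x.2, rfl⟩ : A.map f)) ⟨?_, ?_⟩).symm
    · intro x y hxy
      have h1 : f x = f y := congrArg Subtype.val hxy
      have h2 : f ((x : H) * (y : H)⁻¹) = 1 := by rw [map_mul, map_inv, h1, mul_inv_cancel]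
      exact Subtype.ext (mul_inv_eq_one.1 (hf _ (mul_mem (hA x.2) (inv_mem (hA y.2))) h2))
    · rintro ⟨_, x, hx, rfl⟩
      exact ⟨⟨x, hx⟩, rfl⟩
  have hAp : ∀ K ∈ Ain p M, K.map f ∈ Ain p (M.map f) := by
    rintro K ⟨⟨h1, h2, h3⟩, h4⟩
    refine ⟨⟨fun h0 => h1 ?_, ?_, ?_⟩, map_mono h4⟩
    · exact map_injOn_sub hf h4 bot_le (by rw [h0, Subgroup.map_bot])
    · rintro _ ⟨x, hx, rfl⟩ _ ⟨y, hy, rfl⟩
      rw [← map_mul, h2 x hx y hy, map_mul]
    · rintro _ ⟨x, hx, rfl⟩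
      rw [← map_pow, h3 x hx, map_one]
  have hφM : ∀ K ∈ φ, K ≤ M := by
    have h1 := mem_Sp.1 h.mem φ (Finsupp.mem_support_iff.2 h.ne)
    exact fun K hK => (h1.1.2 K hK).2
  refine ⟨?_, ?_, ?_, ?_, ?_⟩
  · refine mp_mem (fun m hm => ⟨⟨?_, ?_⟩, by rw [List.length_map, List.length_map, hm.2]⟩) h.mem
    · rw [List.pairwise_map]
      have h1 := hm.1.2
      refine hm.1.1.imp_of_mem ?_
      intro a b ha hb hab
      exact hlt (h1 b hb).2 (h1 a ha).2 hab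
    · intro K hK
      obtain ⟨K', hK', rfl⟩ := List.mem_map.1 hK
      exact hAp K' (hm.1.2 K' hK')
  · rw [bd_mp, h.cyc, map_zero]
  · rw [mp, Finsupp.lmapDomain_apply]
    rw [Finsupp.mapDomain_apply' {l : List (Subgroup H) | ∀ K ∈ l, K ≤ M}]
    · exact h.ne
    · intro l hl
      have h1 := mem_Sp.1 h.mem l hl
      exact fun K hK => (h1.1.2 K hK).2
    · intro l hl m hm hlm
      exact list_map_inj hf hl hm hlm
    · exact hφM
  · rcases h.top with ⟨h1, h2⟩ | ⟨φ', h1⟩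
    · exact Or.inl ⟨by rw [h1]; rfl, by rw [h2, Subgroup.map_bot]⟩
    · exact Or.inr ⟨φ'.map (Subgroup.map f), by rw [h1]; rfl⟩
  · rw [hcard hEM, List.length_map, h.card]

end

section
variable {G : Type u} [Group G] [Finite G] {𝕜 : Type v} [Field 𝕜] {p : ℕ}

lemma topCycle_cj {M E : Subgroup G} {α : Ch 𝕜 (Subgroup G)} {φ : List (Subgroup G)}
    (h : TopCycle 𝕜 p M E α φ) (hEM : E ≤ M) (y : G) :
    ∃ (α' : Ch 𝕜 (Subgroup G)) (φ' : List (Subgroup G)),
      TopCycle 𝕜 p (cj y M) (cj y E) α' φ' :=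
  ⟨_, _, topCycle_map (f := (MulAut.conj y).toMonoidHom) (fun x _ hx =>
    (MulAut.conj y).injective (by rw [map_one]; exact hx)) h hEM⟩

/-- the conjugates of `E` under elements of `Y` that respect `H` and the arrangement on `H` -/
def orb' (Y : Subgroup G) (R₀ : Set (Subgroup G)) (H E : Subgroup G) : Set (Subgroup G) :=
  {E' | ∃ c ∈ Y, cj c H = H ∧ RH (cj c '' R₀) H = RH R₀ H ∧ E' = cj c E}

lemma orb'_self (Y : Subgroup G) (R₀ : Set (Subgroup G)) (H E : Subgroup G) :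
    E ∈ orb' Y R₀ H E := by
  refine ⟨1, one_mem Y, cj_one H, ?_, (cj_one E).symm⟩
  have : (fun K : Subgroup G => cj 1 K) = id := funext fun K => cj_one K
  rw [show (⇑(cj (1 : G)) : Subgroup G → Subgroup G) = id from this, Set.image_id]

open Classical in
/-- **The count lemma for conjugates.** -/
theorem count_conj [hp : Fact p.Prime] {E₀ M Y : Subgroup G} {n : ℕ}
    (hE : Nat.card E₀ = p ^ (n + 2)) (hEa : E₀ ∈ ApS p G) (R₀ : Finset (Subgroup G))
    (hinv : ∀ y ∈ Y, cj y E₀ = E₀ → ∀ H ∈ R₀, cj y H ∈ R₀) (w : ℕ)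
    (hw : ∀ H ∈ R₀, Module.finrank 𝕜 (UU 𝕜 H (RH (R₀ : Set (Subgroup G)) H) n) ≤ w)
    (hd : (w : ℚ) * ∑ H ∈ R₀, (1 / ((orb' Y (R₀ : Set (Subgroup G)) H E₀).ncard : ℚ)) ≤
      Module.finrank 𝕜 (UU 𝕜 E₀ (R₀ : Set (Subgroup G)) (n + 1)))
    (hpos : 0 < Module.finrank 𝕜 (UU 𝕜 E₀ (R₀ : Set (Subgroup G)) (n + 1)))
    (hEM : E₀ ≤ M) (hYM : ∀ y ∈ Y, cj y M = M) :
    ∃ (α : Ch 𝕜 (Subgroup G)) (φ : List (Subgroup G)), TopCycle 𝕜 p M E₀ α φ := by
  have : Fintype (Subgroup G) := Fintype.ofFinite _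
  set O : Finset (Subgroup G) := Finset.univ.filter fun E => ∃ y ∈ Y, E = cj y E₀ with hO
  have hOmem : ∀ E, E ∈ O ↔ ∃ y ∈ Y, E = cj y E₀ := fun E => by simp [hO]
  set R : Subgroup G → Finset (Subgroup G) := fun E =>
    (Set.toFinite (RR E₀ (R₀ : Set (Subgroup G)) Y E)).toFinset with hR
  have hRc : ∀ E, (R E : Set (Subgroup G)) = RR E₀ (R₀ : Set (Subgroup G)) Y E := fun E => by
    rw [hR]
    exact Set.Finite.coe_toFinset _
  have hReq : ∀ y ∈ Y, (R (cj y E₀) : Set (Subgroup G)) = cj y '' (R₀ : Set (Subgroup G)) :=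
    fun y hy => by
      rw [hRc]
      exact RR_eq (R₀ := (R₀ : Set (Subgroup G))) hinv hy
  have hRim : ∀ y ∈ Y, R (cj y E₀) = R₀.image (cj y) := by
    intro y hy
    rw [← Finset.coe_inj, hReq y hy, Finset.coe_image]
  suffices key : ∃ E ∈ O, ∃ (α : Ch 𝕜 (Subgroup G)) (φ : List (Subgroup G)),
      TopCycle 𝕜 p M E α φ by
    obtain ⟨E, hEO, α, φ, hT⟩ := key
    obtain ⟨y, hy, rfl⟩ := (hOmem E).1 hEO
    have h1 : cj y E₀ ≤ M := by
      have h2 := cj_mono (y := y) hEM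
      rwa [hYM y hy] at h2
    obtain ⟨α', φ', h3⟩ := topCycle_cj hT h1 y⁻¹
    rw [cj_inv, hYM _ (inv_mem hy)] at h3
    exact ⟨α', φ', h3⟩
  refine frames_lemma (𝕜 := 𝕜) (p := p) (M := M) (n := n) O R
    (Finset.card_pos.2 ⟨E₀, (hOmem _).2 ⟨1, one_mem Y, (cj_one E₀).symm⟩⟩) ?_ ?_ ?_ w
    (Module.finrank 𝕜 (UU 𝕜 E₀ (R₀ : Set (Subgroup G)) (n + 1))) hpos ?_ ?_ ?_
  · rintro E hE'
    obtain ⟨x, hx, rfl⟩ := (hOmem E).1 hE'
    obtain ⟨h1, h2, h3⟩ := hEa
    refine ⟨fun h => h1 ?_, fun a ha b hb => ?_, fun a ha => ?_⟩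
    · have h4 : cj x E₀ = cj x ⊥ := by rw [h, cj_bot]
      exact (cj x).injective h4
    · rw [mem_cj] at ha hb
      have h4 := h2 _ ha _ hb
      calc a * b = x * ((x⁻¹ * a * x) * (x⁻¹ * b * x)) * x⁻¹ := by group
        _ = x * ((x⁻¹ * b * x) * (x⁻¹ * a * x)) * x⁻¹ := by rw [h4]
        _ = b * a := by group
    · rw [mem_cj] at ha
      have h4 := h3 _ ha
      have h5 : x⁻¹ * a * x = x⁻¹ * a * x⁻¹⁻¹ := by rw [inv_inv]
      rw [h5, conj_pow, inv_inv] at h4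
      calc a ^ p = x * (x⁻¹ * a ^ p * x) * x⁻¹ := by group
        _ = 1 := by rw [h4]; group
  · rintro E hE'
    obtain ⟨y, hy, rfl⟩ := (hOmem E).1 hE'
    have h2 := cj_mono (y := y) hEM
    rwa [hYM y hy] at h2
  · rintro E hE'
    obtain ⟨y, hy, rfl⟩ := (hOmem E).1 hE'
    rw [card_cj, hE]
  · rintro E hE'
    obtain ⟨y, hy, rfl⟩ := (hOmem E).1 hE'
    rw [hReq y hy, finrank_map]
  · rintro E hE' H hH
    obtain ⟨y, hy, rfl⟩ := (hOmem E).1 hE'
    rw [hRim y hy, Finset.mem_image] at hH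
    obtain ⟨H₀, hH₀, rfl⟩ := hH
    rw [hReq y hy, RH_map, finrank_map]
    exact hw H₀ hH₀
  · rintro E hE'
    obtain ⟨y, hy, rfl⟩ := (hOmem E).1 hE'
    refine le_trans (mul_le_mul_of_nonneg_left ?_ (Nat.cast_nonneg w)) hd
    rw [hRim y hy, Finset.sum_image fun a _ b _ h => (cj y).injective h]
    refine Finset.sum_le_sum fun H₀ hH₀ => ?_
    have h1 : cj y '' orb' Y (R₀ : Set (Subgroup G)) H₀ E₀ ⊆ cls O R (cj y E₀) (cj y H₀) := by
      rintro _ ⟨_, ⟨c, hc, hcH, hcR, rfl⟩, rfl⟩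
      have h2 : cj y (cj c E₀) = cj (y * c) E₀ := (cj_mul _ _ _).symm
      have h3 : cj y H₀ = cj (y * c) H₀ := by rw [cj_mul, hcH]
      refine ⟨(hOmem _).2 ⟨y * c, mul_mem hy hc, h2⟩, ?_, ?_⟩
      · rw [h2, hRim _ (mul_mem hy hc), h3]
        exact Finset.mem_image_of_mem _ hH₀
      · rw [h2, hReq _ (mul_mem hy hc), hReq _ hy]
        have h4 : cj (y * c) '' (R₀ : Set (Subgroup G)) =
            cj y '' (cj c '' (R₀ : Set (Subgroup G))) := by
          rw [Set.image_image]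
          exact Set.image_congr fun K _ => cj_mul y c K
        rw [h4, RH_map, hcR, RH_map]
    have h2 : (orb' Y (R₀ : Set (Subgroup G)) H₀ E₀).ncard ≤
        (cls O R (cj y E₀) (cj y H₀)).ncard := by
      rw [← Set.ncard_image_of_injective _ (cj y).injective]
      exact Set.ncard_le_ncard h1 (Set.toFinite _)
    have h3 : 0 < (orb' Y (R₀ : Set (Subgroup G)) H₀ E₀).ncard := by
      rw [Set.ncard_pos (Set.toFinite _)]
      exact ⟨E₀, orb'_self _ _ _ _⟩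
    exact one_div_le_one_div_of_le (by exact_mod_cast h3) (by exact_mod_cast h2)

end

end Vale.Agent.P240.R2.H487
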