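import Vale.Agent.P240.R2.H487.DD2

/-!
Top cycles from arrangements, for conjugates under elements that normalize the ambient group.
-/

set_option linter.all false

namespace Vale.Agent.P240.R2.H487

open Finsupp hiding cons
open Subgroup Vale.Agent.P240.K

universe u v

section
variable {G : Type u} [Group G] {ι : Type*} [LinearOrder ι]
variable {E : Subgroup G} {s : Finset ι} {T : Finset (ZMod 2)} {χ : ι → G → ZMod 2}
  {ψ : G → ZMod 2}
variable [Finite G] {𝕜 : Type v} [Field 𝕜]

/-- **Top cycles from arrangements.** -/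
theorem head_conj (h : Bas E s T χ ψ) {n : ℕ} (hE : Nat.card E = 2 ^ (n + 2)) {Y M : Subgroup G}
    (hinv : ∀ y ∈ Y, cj y E = E → ∀ H ∈ RF E s T χ ψ, cj y H ∈ RF E s T χ ψ) (q : ℚ)
    (hq1 : ∀ i ∈ s, ∑ t ∈ T, (1 / ((orb' Y (RF E s T χ ψ : Set (Subgroup G)) (kr E (χ i + t • ψ)) E).ncard : ℚ)) ≤ q)
    (hq2 : ∀ i ∈ s, ∀ j ∈ s, i ≠ j →
      ∑ t ∈ T, (1 / ((orb' Y (RF E s T χ ψ : Set (Subgroup G)) (kr E (χ i + χ j + t • ψ)) E).ncard : ℚ)) ≤ q)
    (hnum : ((T.card ^ (s.card - 1) * (s.card - 1).factorial : ℕ) : ℚ) *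
      ((s.card + (prs s).card) * q) + (((T.card - 1) * s.card.factorial : ℕ) : ℚ) ≤
        ((T.card ^ s.card * s.card.factorial : ℕ) : ℚ))
    (hEM : E ≤ M) (hYM : ∀ y ∈ Y, cj y M = M) :
    ∃ (α : Ch 𝕜 (Subgroup G)) (φ : List (Subgroup G)), TopCycle 𝕜 2 M E α φ := by
  classical
  have : Fact (Nat.Prime 2) := ⟨Nat.prime_two⟩
  have hEa : E ∈ ApS 2 G := by
    refine ⟨?_, h.comm, h.sq⟩
    rintro rfl
    rw [Subgroup.card_bot] at hE
    exact absurd hE.symm (Nat.one_lt_pow (by omega) one_lt_two).ne'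
  have hlow : ((T.card ^ s.card * s.card.factorial : ℕ) : ℚ) ≤
      Module.finrank 𝕜 (UU 𝕜 E (RF E s T χ ψ : Set (Subgroup G)) (n + 1)) +
        (((T.card - 1) * s.card.factorial : ℕ) : ℚ) := by
    rcases h.hT with hT | hT
    · subst hT
      rw [RF_single h]
      have h1 := ar_lower (𝕜 := 𝕜) (n + 1) s E h hE
      rw [Finset.card_singleton, Nat.sub_self, zero_mul, Nat.cast_zero, add_zero]
      rw [Finset.card_singleton] at h1
      exact_mod_cast h1
    · subst hT
      rw [RF_univ h]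
      have h1 := dr_lower (𝕜 := 𝕜) h hE
      rw [Finset.card_univ, ZMod.card]
      have e : (2 - 1) * s.card.factorial = s.card.factorial := by norm_num
      rw [e]
      exact_mod_cast h1
  have hf : 0 < s.card.factorial := Nat.factorial_pos _
  have hgt : (T.card - 1) * s.card.factorial < T.card ^ s.card * s.card.factorial := by
    refine Nat.mul_lt_mul_of_pos_right ?_ hf
    rcases h.hT with hT | hT
    · rw [hT, Finset.card_singleton]
      simp
    · rw [hT, Finset.card_univ, ZMod.card]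
      have h1 := h.card
      rw [hE, hT, Finset.card_univ, ZMod.card] at h1
      have h2 : s.card ≠ 0 := by
        intro h0
        rw [h0, pow_zero, mul_one] at h1
        have h3 : 2 ^ (n + 2) = 4 * 2 ^ n := by ring
        have h4 : 0 < 2 ^ n := by positivity
        omega
      have h3 : 2 ^ 1 ≤ 2 ^ s.card := Nat.pow_le_pow_right (by norm_num) (by omega)
      omega
  have hgt' : (((T.card - 1) * s.card.factorial : ℕ) : ℚ) <
      ((T.card ^ s.card * s.card.factorial : ℕ) : ℚ) := by exact_mod_cast hgt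
  refine count_conj hE hEa (RF E s T χ ψ) hinv
    (T.card ^ (s.card - 1) * (s.card - 1).factorial) (fun H hH => ?_) ?_ ?_ hEM hYM
  · refine ar_contract h hE RF_sub (RF_sub (Finset.mem_coe.2 hH)) ?_
    by_cases hT : T = Finset.univ
    · subst hT
      left
      have h1 : H ∈ (RF E s Finset.univ χ ψ : Set (Subgroup G)) := Finset.mem_coe.2 hH
      rw [RF_univ h] at h1
      exact h1.2
    · exact Or.inr hT
  · have hsum := RF_sum (E := E) (s := s) (T := T) (χ := χ) (ψ := ψ)
      (fun H => 1 / ((orb' Y (RF E s T χ ψ : Set (Subgroup G)) H E).ncard : ℚ)) (fun H => div_nonneg zero_le_one (Nat.cast_nonneg _))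
      q hq1 hq2
    have hw : (0 : ℚ) ≤ ((T.card ^ (s.card - 1) * (s.card - 1).factorial : ℕ) : ℚ) :=
      Nat.cast_nonneg _
    have h6 := mul_le_mul_of_nonneg_left hsum hw
    linarith
  · have h7 : (0 : ℚ) < Module.finrank 𝕜 (UU 𝕜 E (RF E s T χ ψ : Set (Subgroup G)) (n + 1)) := by
      linarith
    exact_mod_cast h7

end

end Vale.Agent.P240.R2.H487
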