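import Vale.Agent.P240.R2.H487.DD3
import Vale.Agent.P240.R2.H487.CG

/-!
Blocks: an elementary abelian `2`-group acting on one-dimensional tori.
-/

set_option linter.all false

namespace Vale.Agent.P240.R2.H487.V

open Finsupp hiding cons
open Subgroup Vale.Agent.P240.K

universe u v

section
variable {G : Type u} [Group G] {ι : Type*} [LinearOrder ι] {W : Type*} [AddCommGroup W]

/-- `1` or `x` -/
def pw (x : G) (t : ZMod 2) : G := if t = 0 then 1 else x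

lemma pw_zero (x : G) : pw x 0 = 1 := rfl

lemma pw_one (x : G) : pw x 1 = x := rfl

/-- a block -/
structure Blk (N E : Subgroup G) (s : Finset ι) (T : Finset (ZMod 2))
    (V : W → ZMod 2 → Subgroup G) (P : W → G) (c : W → G → ZMod 2) (f : G → ZMod 2) (η : ZMod 2)
    (g : ι → W) : Prop where
  bas : Bas E s T (fun i => c (g i)) f
  addc : ∀ b ∈ VB s g, IsAdd E (c b)
  act : ∀ b ∈ VB s g, ∀ t ∈ T, ∀ v ∈ V b t, ∃ δ : ZMod 2, ∀ x ∈ E,
    x * v * x⁻¹ = pw (P b) (δ * f x) * v ^ sgn (c b x + t * f x)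
  rel : ∀ i ∈ s, ∀ j ∈ s, i ≠ j → ∀ x ∈ E, c (g i + g j) x = c (g i) x + c (g j) x + η * f x
  ηT : η ∈ T
  big : ∀ b ∈ VB s g, ∀ t ∈ T, ∃ v ∈ V b t, v ^ 4 ≠ 1
  VN : ∀ b ∈ VB s g, ∀ t ∈ T, V b t ≤ N
  PE : ∀ b ∈ VB s g, P b ∈ E ∧ P b ∈ N ∧ P b ≠ 1
  cPb : ∀ b ∈ VB s g, c b (P b) = 0
  fP : ∀ b ∈ VB s g, f (P b) = 0
  CL : ∀ x ∈ E, x ∈ N → x ≠ 1 → ∃ b ∈ VB s g, x = P b
  conj : ∀ y ∈ N, ∀ b ∈ VB s g, ∀ b' ∈ VB s g, y * P b * y⁻¹ = P b' →
    ∀ t ∈ T, ∀ v ∈ V b t, y * v * y⁻¹ ∈ V b' t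

namespace Blk
variable {N E : Subgroup G} {s : Finset ι} {T : Finset (ZMod 2)}
  {V : W → ZMod 2 → Subgroup G} {P : W → G} {c : W → G → ZMod 2} {f : G → ZMod 2} {η : ZMod 2}
  {g : ι → W}

lemma isAdd (h : Blk N E s T V P c f η g) {b : W} (hb : b ∈ VB s g) (t : ZMod 2) :
    IsAdd E (c b + t • f) := (h.addc b hb).add (h.bas.addψ.smul t)

lemma kr_two (h : Blk N E s T V P c f η g) {i j : ι} (hi : i ∈ s) (hj : j ∈ s) (hij : i ≠ j)
    (t : ZMod 2) : kr E (c (g i) + c (g j) + t • f) = kr E (c (g i + g j) + (t + η) • f) := by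
  have hb : g i + g j ∈ VB s g := Or.inr ⟨i, hi, j, hj, hij, rfl⟩
  ext x
  rw [mem_kr (h.bas.add2 hi hj t), mem_kr (h.isAdd hb (t + η))]
  refine and_congr_right fun hx => ?_
  simp only [Pi.add_apply, Pi.smul_apply, smul_eq_mul]
  rw [h.rel i hi j hj hij x hx]
  have e : c (g i) x + c (g j) x + η * f x + (t + η) * f x =
      c (g i) x + c (g j) x + t * f x + (η * f x + η * f x) := by ring
  rw [e, zmod2_self, add_zero]

lemma T_add (h : Blk N E s T V P c f η g) {t : ZMod 2} (ht : t ∈ T) : t + η ∈ T :=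
  h.bas.add_mem ht h.ηT

lemma eta2 (η t : ZMod 2) : t + η + η = t := by
  rw [add_assoc, zmod2_self, add_zero]

/-- the functionals of the arrangement -/
lemma mem_RF' (h : Blk N E s T V P c f η g) {H : Subgroup G} :
    H ∈ RF E s T (fun i => c (g i)) f ↔ ∃ b ∈ VB s g, ∃ t ∈ T, H = kr E (c b + t • f) := by
  rw [mem_RF]
  constructor
  · rintro (⟨i, hi, t, ht, rfl⟩ | ⟨i, hi, j, hj, hij, t, ht, rfl⟩)
    · exact ⟨_, Or.inl ⟨i, hi, rfl⟩, t, ht, rfl⟩
    · exact ⟨_, Or.inr ⟨i, hi, j, hj, hij, rfl⟩, t + η, h.T_add ht, h.kr_two hi hj hij t⟩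
  · rintro ⟨b, ⟨i, hi, rfl⟩ | ⟨i, hi, j, hj, hij, rfl⟩, t, ht, rfl⟩
    · exact Or.inl ⟨i, hi, t, ht, rfl⟩
    · refine Or.inr ⟨i, hi, j, hj, hij, t + η, h.T_add ht, ?_⟩
      rw [h.kr_two hi hj hij, eta2]

lemma card_kr (h : Blk N E s T V P c f η g) {n : ℕ} (hE : Nat.card E = 2 ^ (n + 2)) [Finite G]
    {b : W} (hb : b ∈ VB s g) {t : ZMod 2} (ht : t ∈ T) :
    Nat.card (kr E (c b + t • f)) = 2 ^ (n + 1) := by
  rcases hb with ⟨i, hi, rfl⟩ | ⟨i, hi, j, hj, hij, rfl⟩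
  · exact ar_card h.bas hE hi t
  · have h1 := h.kr_two hi hj hij (t + η)
    rw [eta2] at h1
    rw [← h1]
    exact ar_card2 h.bas hE hi hj hij (t + η)

lemma exists_one (h : Blk N E s T V P c f η g) {b : W} (hb : b ∈ VB s g) (t : ZMod 2) :
    ∃ x ∈ E, c b x + t * f x = 1 := by
  rcases hb with ⟨i, hi, rfl⟩ | ⟨i, hi, j, hj, hij, rfl⟩
  · obtain ⟨x, hx, h1, h2⟩ := h.bas.sur (fun _ => 1) 0 h.bas.zero_mem
    exact ⟨x, hx, by rw [h1 i hi, h2, mul_zero, add_zero]⟩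
  · obtain ⟨x, hx, h1, h2⟩ := h.bas.sur (fun k => if k = i then 1 else 0) 0 h.bas.zero_mem
    refine ⟨x, hx, ?_⟩
    rw [h.rel i hi j hj hij x hx, h1 i hi, h1 j hj, if_pos rfl, if_neg (Ne.symm hij), h2]
    simp

lemma pw_mem (h : Blk N E s T V P c f η g) {b : W} (hb : b ∈ VB s g) (t : ZMod 2) :
    pw (P b) t ∈ E := by
  rw [pw]
  split_ifs
  · exact one_mem E
  · exact (h.PE b hb).1

lemma pw_sq (h : Blk N E s T V P c f η g) {b : W} (hb : b ∈ VB s g) (t : ZMod 2) :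
    pw (P b) t * pw (P b) t = 1 := by
  rw [← pow_two]
  exact h.bas.sq _ (h.pw_mem hb t)

lemma pw_comm (h : Blk N E s T V P c f η g) {b : W} (hb : b ∈ VB s g) {t : ZMod 2} (ht : t ∈ T)
    {v : G} (hv : v ∈ V b t) (r : ZMod 2) : pw (P b) r * v = v * pw (P b) r := by
  rcases zmod2_cases r with rfl | rfl
  · rw [pw_zero, one_mul, mul_one]
  · rw [pw_one]
    obtain ⟨δ, hδ⟩ := h.act b hb t ht v hv
    have h1 := hδ _ (h.PE b hb).1
    rw [h.fP b hb, h.cPb b hb, mul_zero, mul_zero, add_zero, pw_zero, one_mul, sgn_zero,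
      zpow_one] at h1
    exact mul_inv_eq_iff_eq_mul.1 h1

/-- conjugation of elements of `E` by elements of a torus -/
lemma conj_x (h : Blk N E s T V P c f η g) {b : W} (hb : b ∈ VB s g) {t : ZMod 2} (ht : t ∈ T)
    {v : G} (hv : v ∈ V b t) : ∃ δ : ZMod 2, ∀ x ∈ E,
      (c b x + t * f x = 0 → v * x * v⁻¹ = pw (P b) (δ * f x) * x ∧
        v⁻¹ * x * v = pw (P b) (δ * f x) * x) ∧
      (c b x + t * f x = 1 → v * x * v⁻¹ = v ^ 2 * (pw (P b) (δ * f x) * x)) := by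
  obtain ⟨δ, hδ⟩ := h.act b hb t ht v hv
  refine ⟨δ, fun x hx => ⟨fun h0 => ?_, fun h1 => ?_⟩⟩
  · have h1 := hδ x hx
    rw [h0, sgn_zero, zpow_one] at h1
    have h2 := h.pw_comm hb ht hv (δ * f x)
    have h3 := h.pw_sq hb (δ * f x)
    obtain ⟨ε, hε⟩ : ∃ ε, ε = pw (P b) (δ * f x) := ⟨_, rfl⟩
    rw [← hε] at h1 h2 h3 ⊢
    have hεi : ε⁻¹ = ε := inv_eq_of_mul_eq_one_left h3
    have h4 : v * x * v⁻¹ = ε * x := by
      calc v * x * v⁻¹ = v * (x * v * x⁻¹)⁻¹ * x := by group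
        _ = v * (ε * v)⁻¹ * x := by rw [h1]
        _ = ε⁻¹ * x := by group
        _ = ε * x := by rw [hεi]
    refine ⟨h4, ?_⟩
    calc v⁻¹ * x * v = v⁻¹ * (ε * (ε * x)) * v := by rw [← mul_assoc ε, h3, one_mul]
      _ = v⁻¹ * (ε * (v * x * v⁻¹)) * v := by rw [h4]
      _ = v⁻¹ * (ε * v) * x := by group
      _ = v⁻¹ * (v * ε) * x := by rw [h2]
      _ = ε * x := by group
  · have h2 := hδ x hx
    rw [h1, sgn_one, zpow_neg_one] at h2
    have h3 := h.pw_comm hb ht hv (δ * f x)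
    have h4 := h.pw_sq hb (δ * f x)
    obtain ⟨ε, hε⟩ : ∃ ε, ε = pw (P b) (δ * f x) := ⟨_, rfl⟩
    rw [← hε] at h2 h3 h4 ⊢
    have hεi : ε⁻¹ = ε := inv_eq_of_mul_eq_one_left h4
    calc v * x * v⁻¹ = v * (x * v * x⁻¹)⁻¹ * x := by group
      _ = v * (ε * v⁻¹)⁻¹ * x := by rw [h2]
      _ = v * v * ε⁻¹ * x := by group
      _ = v ^ 2 * (ε * x) := by rw [hεi, pow_two, mul_assoc]

/-- conjugation by an element of a torus preserves the hyperplane -/
lemma cj_kr (h : Blk N E s T V P c f η g) [Finite G] {b : W} (hb : b ∈ VB s g) {t : ZMod 2}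
    (ht : t ∈ T) {v : G} (hv : v ∈ V b t) : cj v (kr E (c b + t • f)) = kr E (c b + t • f) := by
  obtain ⟨δ, hδ⟩ := h.conj_x hb ht hv
  refine (eq_of_le_of_card_ge (fun z hz => ?_) (by rw [card_cj])).symm
  rw [mem_cj]
  rw [mem_kr (h.isAdd hb t)] at hz ⊢
  have h1 : c b z + t * f z = 0 := hz.2
  rw [((hδ z hz.1).1 h1).2]
  refine ⟨mul_mem (h.pw_mem hb _) hz.1, ?_⟩
  rw [h.isAdd hb t _ (h.pw_mem hb _) _ hz.1, hz.2, add_zero]
  rcases zmod2_cases (δ * f z) with h2 | h2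
  · rw [h2, pw_zero, (h.isAdd hb t).one]
  · rw [h2, pw_one]
    change c b (P b) + t * f (P b) = 0
    rw [h.cPb b hb, h.fP b hb, mul_zero, add_zero]

lemma fzero (h : Blk N E s T V P c f η g) (hT : T ≠ Finset.univ) : ∀ x ∈ E, f x = 0 := by
  intro x hx
  rcases h.bas.hT with h1 | h1
  · have h2 := h.bas.val x hx
    rw [h1, Finset.mem_singleton] at h2
    exact h2
  · exact absurd h1 hT

/-- the intersections of a hyperplane with the conjugates of the hyperplanes -/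
lemma inf_cj (h : Blk N E s T V P c f η g) [Finite G] {b : W} (hb : b ∈ VB s g) {t : ZMod 2}
    (ht : t ∈ T) {v : G} (hv : v ∈ V b t) : ∃ δ : ZMod 2, ∀ b' ∈ VB s g, ∀ t' ∈ T,
      t' + δ * c b' (P b) ∈ T ∧ kr E (c b + t • f) ⊓ cj v (kr E (c b' + t' • f)) =
        kr E (c b + t • f) ⊓ kr E (c b' + (t' + δ * c b' (P b)) • f) := by
  obtain ⟨δ₀, hδ₀⟩ := h.conj_x hb ht hv
  obtain ⟨δ, hδT, hδ⟩ : ∃ δ : ZMod 2, (T ≠ Finset.univ → δ = 0) ∧ ∀ x ∈ E,
      c b x + t * f x = 0 → v⁻¹ * x * v = pw (P b) (δ * f x) * x := by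
    by_cases hT : T = Finset.univ
    · exact ⟨δ₀, fun h0 => absurd hT h0, fun x hx hx0 => ((hδ₀ x hx).1 hx0).2⟩
    · refine ⟨0, fun _ => rfl, fun x hx hx0 => ?_⟩
      have h1 := ((hδ₀ x hx).1 hx0).2
      rw [h.fzero hT x hx, mul_zero] at h1 ⊢
      exact h1
  refine ⟨δ, fun b' hb' t' ht' => ⟨?_, ?_⟩⟩
  · by_cases hT : T = Finset.univ
    · rw [hT]
      exact Finset.mem_univ _
    · rw [hδT hT, zero_mul, add_zero]
      exact ht'
  · ext z
    rw [mem_inf, mem_inf, mem_cj]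
    refine and_congr_right fun hz => ?_
    rw [mem_kr (h.isAdd hb t)] at hz
    rw [mem_kr (h.isAdd hb' _), mem_kr (h.isAdd hb' _), hδ z hz.1 hz.2]
    have h1 : pw (P b) (δ * f z) * z ∈ E ↔ z ∈ E :=
      ⟨fun _ => hz.1, fun _ => mul_mem (h.pw_mem hb _) hz.1⟩
    rw [h1]
    refine and_congr_right fun _ => ?_
    rw [h.isAdd hb' t' _ (h.pw_mem hb _) _ hz.1]
    have h2 : (c b' + t' • f) (pw (P b) (δ * f z)) = δ * f z * c b' (P b) := by
      rcases zmod2_cases (δ * f z) with h2 | h2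
      · rw [h2, pw_zero, (h.isAdd hb' t').one, zero_mul]
      · rw [h2, pw_one, one_mul]
        change c b' (P b) + t' * f (P b) = _
        rw [h.fP b hb, mul_zero, add_zero]
    rw [h2]
    simp only [Pi.add_apply, Pi.smul_apply, smul_eq_mul]
    have h3 : δ * f z * c b' (P b) + (c b' z + t' * f z) =
      c b' z + (t' + δ * c b' (P b)) * f z := by ring
    rw [h3]

lemma RH_eq (h : Blk N E s T V P c f η g) [Finite G] {n : ℕ} (hE : Nat.card E = 2 ^ (n + 2))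
    {b : W} (hb : b ∈ VB s g) {t : ZMod 2} (ht : t ∈ T) {v : G} (hv : v ∈ V b t) :
    RH (cj v '' (RF E s T (fun i => c (g i)) f : Set (Subgroup G))) (kr E (c b + t • f)) =
      RH (RF E s T (fun i => c (g i)) f : Set (Subgroup G)) (kr E (c b + t • f)) := by
  obtain ⟨δ, hδ⟩ := h.inf_cj hb ht hv
  have hH := h.card_kr hE hb ht
  -- a subgroup of the same order is different from `H` if the intersection is
  have key : ∀ K K' : Subgroup G, Nat.card K = 2 ^ (n + 1) → Nat.card K' = 2 ^ (n + 1) →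
      kr E (c b + t • f) ⊓ K = kr E (c b + t • f) ⊓ K' → K ≠ kr E (c b + t • f) →
        K' ≠ kr E (c b + t • f) := by
    intro K K' hK hK' he hne h0
    apply hne
    rw [h0, inf_idem] at he
    have h1 : kr E (c b + t • f) ≤ K := by rw [← he]; exact inf_le_right
    exact (eq_of_le_of_card_ge h1 (by rw [hK, hH])).symm
  ext M
  constructor
  · rintro ⟨_, ⟨K, hK, rfl⟩, hne, rfl⟩
    obtain ⟨b', hb', t', ht', rfl⟩ := h.mem_RF'.1 (Finset.mem_coe.1 hK)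
    obtain ⟨h1, h2⟩ := hδ b' hb' t' ht'
    refine ⟨kr E (c b' + (t' + δ * c b' (P b)) • f),
      Finset.mem_coe.2 (h.mem_RF'.2 ⟨b', hb', _, h1, rfl⟩), ?_, h2⟩
    exact key _ _ (by rw [card_cj]; exact h.card_kr hE hb' ht') (h.card_kr hE hb' h1) h2 hne
  · rintro ⟨K, hK, hne, rfl⟩
    obtain ⟨b', hb', t', ht', rfl⟩ := h.mem_RF'.1 (Finset.mem_coe.1 hK)
    have h1 := (hδ b' hb' t' ht').1
    obtain ⟨h2, h3⟩ := hδ b' hb' _ h1
    have h4 : t' + δ * c b' (P b) + δ * c b' (P b) = t' := by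
      rw [add_assoc, zmod2_self, add_zero]
    rw [h4] at h3
    refine ⟨cj v (kr E (c b' + (t' + δ * c b' (P b)) • f)),
      ⟨_, Finset.mem_coe.2 (h.mem_RF'.2 ⟨b', hb', _, h1, rfl⟩), rfl⟩, ?_, h3.symm⟩
    exact key _ _ (h.card_kr hE hb' ht') (by rw [card_cj]; exact h.card_kr hE hb' h1) h3.symm hne

/-- the orbit of `E` under a torus -/
lemma orb_count (h : Blk N E s T V P c f η g) [Finite G] {n : ℕ} (hE : Nat.card E = 2 ^ (n + 2))
    {Y : Subgroup G} {b : W}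
    (hb : b ∈ VB s g) {t : ZMod 2} (ht : t ∈ T) (hY : V b t ≤ Y) :
    Nat.card (V b t) ≤ Nat.card {v : G // v ∈ V b t ∧ v ^ 4 = 1} *
      (orb' Y (RF E s T (fun i => c (g i)) f : Set (Subgroup G)) (kr E (c b + t • f)) E).ncard := by
  classical
  have : Fintype G := Fintype.ofFinite _
  set UF : Finset G := Finset.univ.filter fun v => v ∈ V b t with hUF
  have hUc : Nat.card (V b t) = UF.card := by
    rw [hUF, Nat.card_eq_fintype_card, Fintype.card_subtype]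
  have hGc : Nat.card {v : G // v ∈ V b t ∧ v ^ 4 = 1} =
      (Finset.univ.filter fun v : G => v ∈ V b t ∧ v ^ 4 = 1).card := by
    rw [Nat.card_eq_fintype_card, Fintype.card_subtype]
  rw [hUc, hGc]
  obtain ⟨x, hx, hx1⟩ := h.exists_one hb t
  have hfix : ∀ v ∈ V b t, cj v E = E → v ^ 4 = 1 := by
    intro v hv he
    obtain ⟨δ, hδ⟩ := h.conj_x hb ht hv
    have h2 : v * x * v⁻¹ ∈ E := by
      rw [← he, mem_cj]
      have : v⁻¹ * (v * x * v⁻¹) * v = x := by group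
      rw [this]
      exact hx
    rw [(hδ x hx).2 hx1] at h2
    have h4 : v ^ 2 ∈ E := by
      have := E.mul_mem h2 (E.inv_mem (mul_mem (h.pw_mem hb (δ * f x)) hx))
      rwa [mul_inv_cancel_right] at this
    have h5 := h.bas.sq _ h4
    rw [← pow_mul] at h5
    exact h5
  have himg : (UF.image fun v => cj v E).card ≤
      (orb' Y (RF E s T (fun i => c (g i)) f : Set (Subgroup G)) (kr E (c b + t • f)) E).ncard := by
    rw [← Set.ncard_coe_finset]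
    refine Set.ncard_le_ncard ?_ (Set.toFinite _)
    intro E' hE'
    rw [Finset.coe_image] at hE'
    obtain ⟨v, hv, rfl⟩ := hE'
    have hv' : v ∈ V b t := by
      rw [Finset.mem_coe, hUF, Finset.mem_filter] at hv
      exact hv.2
    exact ⟨v, hY hv', h.cj_kr hb ht hv', h.RH_eq hE hb ht hv', rfl⟩
  refine (Finset.card_le_mul_card_image UF
    (Finset.univ.filter fun v : G => v ∈ V b t ∧ v ^ 4 = 1).card (f := fun v => cj v E)
    fun E' hE' => ?_).trans (Nat.mul_le_mul_left _ himg)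
  obtain ⟨v₀, hv₀, rfl⟩ := Finset.mem_image.1 hE'
  have hv₀' : v₀ ∈ V b t := (Finset.mem_filter.1 hv₀).2
  refine Finset.card_le_card_of_injOn (fun v => v₀⁻¹ * v) (fun v hv => ?_)
    (fun a _ b _ h => mul_left_cancel h)
  rw [Finset.mem_coe, Finset.mem_filter] at hv
  have hv' : v ∈ V b t := (Finset.mem_filter.1 hv.1).2
  have hm : v₀⁻¹ * v ∈ V b t := mul_mem (inv_mem hv₀') hv'
  rw [Finset.mem_coe, Finset.mem_filter]
  refine ⟨Finset.mem_univ _, hm, hfix _ hm ?_⟩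
  have h2 : cj v E = cj v₀ E := hv.2
  rw [cj_mul, h2, cj_inv]

/-- the ratio of a torus -/
noncomputable def rt (V : W → ZMod 2 → Subgroup G) (b : W) (t : ZMod 2) : ℚ :=
  (Nat.card {v : G // v ∈ V b t ∧ v ^ 4 = 1} : ℚ) / Nat.card (V b t)

lemma orb_le (h : Blk N E s T V P c f η g) [Finite G] {n : ℕ} (hE : Nat.card E = 2 ^ (n + 2))
    {Y : Subgroup G} {b : W}
    (hb : b ∈ VB s g) {t : ZMod 2} (ht : t ∈ T) (hY : V b t ≤ Y) :
    (1 / ((orb' Y (RF E s T (fun i => c (g i)) f : Set (Subgroup G)) (kr E (c b + t • f)) E).ncard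
      : ℚ)) ≤ rt V b t := by
  have h1 := h.orb_count hE hb ht hY
  have h2 : 0 < (orb' Y (RF E s T (fun i => c (g i)) f : Set (Subgroup G))
      (kr E (c b + t • f)) E).ncard := by
    rw [Set.ncard_pos (Set.toFinite _)]
    exact ⟨E, orb'_self _ _ _ _⟩
  have h3 : 0 < Nat.card (V b t) := Nat.card_pos
  rw [rt, div_le_div_iff₀ (by exact_mod_cast h2) (by exact_mod_cast h3), one_mul]
  exact_mod_cast h1

/-- invariance of the arrangement -/
lemma inv (h : Blk N E s T V P c f η g) [Finite G] {n : ℕ} (hE : Nat.card E = 2 ^ (n + 2))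
    {y : G} (hy : y ∈ N) (hyE : cj y E = E) {H : Subgroup G}
    (hH : H ∈ RF E s T (fun i => c (g i)) f) : cj y H ∈ RF E s T (fun i => c (g i)) f := by
  rw [h.mem_RF'] at hH ⊢
  obtain ⟨b, hb, t, ht, rfl⟩ := hH
  obtain ⟨hPE, hPN, hP1⟩ := h.PE b hb
  have h1 : y * P b * y⁻¹ ∈ E := by
    rw [← hyE, mem_cj]
    have : y⁻¹ * (y * P b * y⁻¹) * y = P b := by group
    rw [this]
    exact hPE
  have h2 : y * P b * y⁻¹ ∈ N := mul_mem (mul_mem hy hPN) (inv_mem hy)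
  have h3 : y * P b * y⁻¹ ≠ 1 := fun h0 => hP1 (conj_eq_one_iff.1 h0)
  obtain ⟨b', hb', h4⟩ := h.CL _ h1 h2 h3
  have hcj := h.conj y hy b hb b' hb' h4
  refine ⟨b', hb', t, ht, ?_⟩
  refine eq_of_le_of_card_ge (fun z hz => ?_) ?_
  · have hz' := mem_cj.1 hz
    have hzE : z ∈ E := by
      rw [← hyE, mem_cj]
      exact kr_le hz'
    rw [mem_kr (h.isAdd hb' t)]
    refine ⟨hzE, ?_⟩
    obtain ⟨v, hv, hv4⟩ := h.big b hb t ht
    obtain ⟨δ, hδ⟩ := h.act b hb t ht v hv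
    obtain ⟨δ', hδ'⟩ := h.act b' hb' t ht _ (hcj t ht v hv)
    rw [mem_kr (h.isAdd hb t)] at hz'
    have h5 := hδ _ hz'.1
    have h6 : c b (y⁻¹ * z * y) + t * f (y⁻¹ * z * y) = 0 := hz'.2
    rw [h6, sgn_zero, zpow_one] at h5
    have h7 : z * (y * v * y⁻¹) * z⁻¹ = (y * pw (P b) (δ * f (y⁻¹ * z * y)) * y⁻¹) *
        (y * v * y⁻¹) := by
      calc z * (y * v * y⁻¹) * z⁻¹ = y * ((y⁻¹ * z * y) * v * (y⁻¹ * z * y)⁻¹) * y⁻¹ := by group
        _ = y * (pw (P b) (δ * f (y⁻¹ * z * y)) * v) * y⁻¹ := by rw [h5]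
        _ = _ := by group
    have h8 : y * pw (P b) (δ * f (y⁻¹ * z * y)) * y⁻¹ = pw (P b') (δ * f (y⁻¹ * z * y)) := by
      rcases zmod2_cases (δ * f (y⁻¹ * z * y)) with h9 | h9
      · rw [h9, pw_zero, pw_zero, mul_one, mul_inv_cancel]
      · rw [h9, pw_one, pw_one, h4]
    rw [h8, hδ' z hzE] at h7
    rcases zmod2_cases (c b' z + t * f z) with h9 | h9
    · exact h9
    · exfalso
      rw [h9, sgn_one, zpow_neg_one] at h7
      have e1 := h.pw_comm hb' ht (hcj t ht v hv)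
      obtain ⟨u, hu⟩ : ∃ u, u = y * v * y⁻¹ := ⟨_, rfl⟩
      rw [← hu] at h7 e1
      -- `u² ∈ E`
      have h10 : u ^ 2 = (pw (P b') (δ * f (y⁻¹ * z * y)))⁻¹ * pw (P b') (δ' * f z) := by
        have h11 : pw (P b') (δ' * f z) = pw (P b') (δ * f (y⁻¹ * z * y)) * u * u := by
          rw [← h7]
          group
        rw [h11]
        have e5 : (pw (P b') (δ * f (y⁻¹ * z * y)))⁻¹ *
          (pw (P b') (δ * f (y⁻¹ * z * y)) * u * u) = u * u := by group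
        rw [e5, pow_two]
      have h12 : u ^ 2 ∈ E := by
        rw [h10]
        exact mul_mem (inv_mem (h.pw_mem hb' _)) (h.pw_mem hb' _)
      have h13 := h.bas.sq _ h12
      rw [← pow_mul, hu, conj_pow, conj_eq_one_iff] at h13
      exact hv4 h13
  · rw [card_cj, h.card_kr hE hb ht, h.card_kr hE hb' ht]

/-- **The block theorem.** -/
theorem top (h : Blk N E s T V P c f η g) [Finite G] {𝕜 : Type v} [Field 𝕜] {n : ℕ}
    (hE : Nat.card E = 2 ^ (n + 2)) (r : ZMod 2 → ℚ) (hr : ∀ b ∈ VB s g, ∀ t ∈ T, rt V b t ≤ r t)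
    (hnum : ((T.card ^ (s.card - 1) * (s.card - 1).factorial : ℕ) : ℚ) *
      ((s.card + (prs s).card) * ∑ t ∈ T, r t) + (((T.card - 1) * s.card.factorial : ℕ) : ℚ) ≤
        ((T.card ^ s.card * s.card.factorial : ℕ) : ℚ))
    {M : Subgroup G} (hEM : E ≤ M) (hM : ∀ b ∈ VB s g, ∀ t ∈ T, ∀ v ∈ V b t, cj v M = M) :
    ∃ (α : Ch 𝕜 (Subgroup G)) (φ : List (Subgroup G)), TopCycle 𝕜 2 M E α φ := by
  set Y : Subgroup G := closure {y | ∃ b ∈ VB s g, ∃ t ∈ T, y ∈ V b t} with hY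
  have hYm : ∀ b ∈ VB s g, ∀ t ∈ T, V b t ≤ Y := fun b hb t ht v hv =>
    subset_closure ⟨b, hb, t, ht, hv⟩
  have hYM : ∀ y ∈ Y, cj y M = M := by
    intro y hy
    refine closure_induction (p := fun y _ => cj y M = M) ?_ (cj_one M) ?_ ?_ hy
    · rintro y ⟨b, hb, t, ht, hy⟩
      exact hM b hb t ht y hy
    · intro x y _ _ hx hy
      rw [cj_mul, hy, hx]
    · intro x _ hx
      have h1 := cj_inv x M
      rwa [hx] at h1
  have hYN : Y ≤ N := by
    rw [hY, closure_le]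
    rintro y ⟨b, hb, t, ht, hy⟩
    exact h.VN b hb t ht hy
  refine head_conj h.bas hE (Y := Y) (M := M) (fun y hy hyE H hH => h.inv hE (hYN hy) hyE hH)
    (∑ t ∈ T, r t) (fun i hi => ?_) (fun i hi j hj hij => ?_) hnum hEM hYM
  · have hb : g i ∈ VB s g := Or.inl ⟨i, hi, rfl⟩
    exact Finset.sum_le_sum fun t ht => (h.orb_le hE hb ht (hYm _ hb t ht)).trans (hr _ hb t ht)
  · have hb : g i + g j ∈ VB s g := Or.inr ⟨i, hi, j, hj, hij, rfl⟩
    have h1 : ∑ t ∈ T, r t = ∑ t ∈ T, r (t + η) := by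
      refine (Finset.sum_nbij (fun t => t + η) (fun t ht => h.T_add ht) ?_ ?_ fun t _ => rfl).symm
      · intro a _ b _ hab
        exact add_right_cancel hab
      · intro t ht
        exact ⟨t + η, h.T_add ht, eta2 η t⟩
    rw [h1]
    refine Finset.sum_le_sum fun t ht => ?_
    have h2 := h.kr_two hi hj hij t
    have h3 := (h.orb_le hE hb (h.T_add ht) (hYm _ hb _ (h.T_add ht))).trans
      (hr _ hb _ (h.T_add ht))
    rw [← h2] at h3
    exact h3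

end Blk

end

end Vale.Agent.P240.R2.H487.V
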