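import Vale.Agent.P240.R2.H487.DG

/-!
The count lemma for the conjugates of `E` that lie in `M`.
-/

set_option linter.all false

namespace Vale.Agent.P240.R2.H487

open Finsupp hiding cons
open Subgroup Vale.Agent.P240.K

universe u v

section
variable {G : Type u} [Group G] [Finite G] {𝕜 : Type v} [Field 𝕜] {p : ℕ}

/-- the conjugates of `E` that respect `H` and the arrangement on `H`, with a conjugate in `M` -/
def orbM (Y M : Subgroup G) (R₀ : Set (Subgroup G)) (y : G) (H E : Subgroup G) :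
    Set (Subgroup G) :=
  {E' | ∃ c ∈ Y, cj c H = H ∧ RH (cj c '' R₀) H = RH R₀ H ∧ cj (y * c) E ≤ M ∧ E' = cj c E}

open Classical in
/-- **The count lemma for conjugates in `M`.** -/
theorem count_frames [hp : Fact p.Prime] {E₀ M Y : Subgroup G} {n : ℕ}
    (hE : Nat.card E₀ = p ^ (n + 2)) (hEa : E₀ ∈ ApS p G) (R₀ : Finset (Subgroup G))
    (hinv : ∀ y ∈ Y, cj y E₀ = E₀ → ∀ H ∈ R₀, cj y H ∈ R₀) (w m : ℕ) (hm : 0 < m)
    (hmE : m ≤ Module.finrank 𝕜 (UU 𝕜 E₀ (R₀ : Set (Subgroup G)) (n + 1)))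
    (hw : ∀ H ∈ R₀, Module.finrank 𝕜 (UU 𝕜 H (RH (R₀ : Set (Subgroup G)) H) n) ≤ w)
    (hd : ∀ y ∈ Y, cj y E₀ ≤ M → (w : ℚ) * ∑ H ∈ R₀,
      (1 / ((orbM Y M (R₀ : Set (Subgroup G)) y H E₀).ncard : ℚ)) ≤ m)
    (hEM : E₀ ≤ M) :
    ∃ y ∈ Y, cj y E₀ ≤ M ∧ ∃ (α : Ch 𝕜 (Subgroup G)) (φ : List (Subgroup G)),
      TopCycle 𝕜 p M (cj y E₀) α φ := by
  have : Fintype (Subgroup G) := Fintype.ofFinite _
  set O : Finset (Subgroup G) := Finset.univ.filter fun E => ∃ y ∈ Y, cj y E₀ ≤ M ∧ E = cj y E₀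
    with hO
  have hOmem : ∀ E, E ∈ O ↔ ∃ y ∈ Y, cj y E₀ ≤ M ∧ E = cj y E₀ := fun E => by simp [hO]
  set R : Subgroup G → Finset (Subgroup G) := fun E =>
    (Set.toFinite (RR E₀ (R₀ : Set (Subgroup G)) Y E)).toFinset with hR
  have hRc : ∀ E, (R E : Set (Subgroup G)) = RR E₀ (R₀ : Set (Subgroup G)) Y E := fun E => by
    rw [hR]
    exact Set.Finite.coe_toFinset _
  have hReq : ∀ y ∈ Y, (R (cj y E₀) : Set (Subgroup G)) = cj y '' (R₀ : Set (Subgroup G)) :=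
    fun y hy => by
      rw [hRc]
      exact RR_eq (R₀ := (R₀ : Set (Subgroup G))) hinv hy
  have hRim : ∀ y ∈ Y, R (cj y E₀) = R₀.image (cj y) := by
    intro y hy
    rw [← Finset.coe_inj, hReq y hy, Finset.coe_image]
  suffices key : ∃ E ∈ O, ∃ (α : Ch 𝕜 (Subgroup G)) (φ : List (Subgroup G)),
      TopCycle 𝕜 p M E α φ by
    obtain ⟨E, hEO, α, φ, hT⟩ := key
    obtain ⟨y, hy, hyM, rfl⟩ := (hOmem E).1 hEO
    exact ⟨y, hy, hyM, α, φ, hT⟩
  refine frames_lemma (𝕜 := 𝕜) (p := p) (M := M) (n := n) O R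
    (Finset.card_pos.2 ⟨E₀, (hOmem _).2 ⟨1, one_mem Y, by rw [cj_one]; exact hEM,
      (cj_one E₀).symm⟩⟩) ?_ ?_ ?_ w m hm ?_ ?_ ?_
  · rintro E hE'
    obtain ⟨x, hx, -, rfl⟩ := (hOmem E).1 hE'
    obtain ⟨h1, h2, h3⟩ := hEa
    refine ⟨fun h => h1 ?_, fun a ha b hb => ?_, fun a ha => ?_⟩
    · have h4 : cj x E₀ = cj x ⊥ := by rw [h, cj_bot]
      exact (cj x).injective h4
    · rw [mem_cj] at ha hb
      have h4 := h2 _ ha _ hb
      calc a * b = x * ((x⁻¹ * a * x) * (x⁻¹ * b * x)) * x⁻¹ := by group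
        _ = x * ((x⁻¹ * b * x) * (x⁻¹ * a * x)) * x⁻¹ := by rw [h4]
        _ = b * a := by group
    · rw [mem_cj] at ha
      have h4 := h3 _ ha
      have h5 : x⁻¹ * a * x = x⁻¹ * a * x⁻¹⁻¹ := by rw [inv_inv]
      rw [h5, conj_pow, inv_inv] at h4
      calc a ^ p = x * (x⁻¹ * a ^ p * x) * x⁻¹ := by group
        _ = 1 := by rw [h4]; group
  · rintro E hE'
    obtain ⟨y, hy, hyM, rfl⟩ := (hOmem E).1 hE'
    exact hyM
  · rintro E hE'
    obtain ⟨y, hy, -, rfl⟩ := (hOmem E).1 hE'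
    rw [card_cj, hE]
  · rintro E hE'
    obtain ⟨y, hy, -, rfl⟩ := (hOmem E).1 hE'
    rw [hReq y hy, finrank_map]
    exact hmE
  · rintro E hE' H hH
    obtain ⟨y, hy, -, rfl⟩ := (hOmem E).1 hE'
    rw [hRim y hy, Finset.mem_image] at hH
    obtain ⟨H₀, hH₀, rfl⟩ := hH
    rw [hReq y hy, RH_map, finrank_map]
    exact hw H₀ hH₀
  · rintro E hE'
    obtain ⟨y, hy, hyM, rfl⟩ := (hOmem E).1 hE'
    refine le_trans (mul_le_mul_of_nonneg_left ?_ (Nat.cast_nonneg w)) (hd y hy hyM)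
    rw [hRim y hy, Finset.sum_image fun a _ b _ h => (cj y).injective h]
    refine Finset.sum_le_sum fun H₀ hH₀ => ?_
    have h1 : cj y '' orbM Y M (R₀ : Set (Subgroup G)) y H₀ E₀ ⊆ cls O R (cj y E₀) (cj y H₀) := by
      rintro _ ⟨_, ⟨c, hc, hcH, hcR, hcM, rfl⟩, rfl⟩
      have h2 : cj y (cj c E₀) = cj (y * c) E₀ := (cj_mul _ _ _).symm
      have h3 : cj y H₀ = cj (y * c) H₀ := by rw [cj_mul, hcH]
      refine ⟨(hOmem _).2 ⟨y * c, mul_mem hy hc, hcM, h2⟩, ?_, ?_⟩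
      · rw [h2, hRim _ (mul_mem hy hc), h3]
        exact Finset.mem_image_of_mem _ hH₀
      · rw [h2, hReq _ (mul_mem hy hc), hReq _ hy]
        have h4 : cj (y * c) '' (R₀ : Set (Subgroup G)) =
            cj y '' (cj c '' (R₀ : Set (Subgroup G))) := by
          rw [Set.image_image]
          exact Set.image_congr fun K _ => cj_mul y c K
        rw [h4, RH_map, hcR, RH_map]
    have h2 : (orbM Y M (R₀ : Set (Subgroup G)) y H₀ E₀).ncard ≤
        (cls O R (cj y E₀) (cj y H₀)).ncard := by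
      rw [← Set.ncard_image_of_injective _ (cj y).injective]
      exact Set.ncard_le_ncard h1 (Set.toFinite _)
    have h3 : 0 < (orbM Y M (R₀ : Set (Subgroup G)) y H₀ E₀).ncard := by
      rw [Set.ncard_pos (Set.toFinite _)]
      refine ⟨E₀, 1, one_mem Y, cj_one H₀, ?_, by rw [mul_one]; exact hyM, (cj_one E₀).symm⟩
      rw [show (⇑(cj (1 : G)) : Subgroup G → Subgroup G) = id from funext fun K => cj_one K,
        Set.image_id]
    exact one_div_le_one_div_of_le (by exact_mod_cast h3) (by exact_mod_cast h2)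

end

namespace V

section
variable {G : Type u} [Group G] {ι : Type*} [LinearOrder ι] {W : Type*} [AddCommGroup W]

namespace Blk
variable {N E : Subgroup G} {s : Finset ι} {Tr : W → Subgroup G} {P : W → G}
  {c : W → G → ZMod 2} {f : G → ZMod 2} {g : ι → W}

/-- the orbit of `E` under a torus, conjugates in `M` -/
lemma orbM_count (h : Blk N E s {0} (fun b _ => Tr b) P c f 0 g) [Finite G] {n : ℕ}
    (hE : Nat.card E = 2 ^ (n + 2)) {Y M : Subgroup G} {b : W} (hb : b ∈ VB s g)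
    (hY : Tr b ≤ Y) {y : G} (hyM : cj y E ≤ M) :
    Nat.card {v : G // v ∈ Tr b ∧ y * v ^ 2 * y⁻¹ ∈ M} ≤
      Nat.card {v : G // v ∈ Tr b ∧ v ^ 4 = 1} *
      (orbM Y M (RF E s {0} (fun i => c (g i)) f : Set (Subgroup G)) y
        (kr E (c b + (0 : ZMod 2) • f)) E).ncard := by
  classical
  have : Fintype G := Fintype.ofFinite _
  have ht : (0 : ZMod 2) ∈ ({0} : Finset (ZMod 2)) := Finset.mem_singleton_self _
  set UF : Finset G := Finset.univ.filter fun v => v ∈ Tr b ∧ y * v ^ 2 * y⁻¹ ∈ M with hUF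
  have hUc : Nat.card {v : G // v ∈ Tr b ∧ y * v ^ 2 * y⁻¹ ∈ M} = UF.card := by
    rw [hUF, Nat.card_eq_fintype_card, Fintype.card_subtype]
  have hGc : Nat.card {v : G // v ∈ Tr b ∧ v ^ 4 = 1} =
      (Finset.univ.filter fun v : G => v ∈ Tr b ∧ v ^ 4 = 1).card := by
    rw [Nat.card_eq_fintype_card, Fintype.card_subtype]
  rw [hUc, hGc]
  have hf : ∀ x ∈ E, f x = 0 := h.fzero (by decide)
  obtain ⟨x, hx, hx1⟩ := h.exists_one hb 0
  have hcx : ∀ v ∈ Tr b, ∀ x ∈ E, (c b x = 0 → v * x * v⁻¹ = x) ∧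
      (c b x = 1 → v * x * v⁻¹ = v ^ 2 * x) := by
    intro v hv x hx
    obtain ⟨δ, hδ⟩ := h.conj_x hb ht hv
    refine ⟨fun h0 => ?_, fun h1 => ?_⟩
    · have := ((hδ x hx).1 (by rw [h0, zero_mul, add_zero])).1
      rwa [hf x hx, mul_zero, pw_zero, one_mul] at this
    · have := (hδ x hx).2 (by rw [h1, zero_mul, add_zero])
      rwa [hf x hx, mul_zero, pw_zero, one_mul] at this
  have hfix : ∀ v ∈ Tr b, cj v E = E → v ^ 4 = 1 := by
    intro v hv he
    have h2 : v * x * v⁻¹ ∈ E := by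
      rw [← he, mem_cj]
      have : v⁻¹ * (v * x * v⁻¹) * v = x := by group
      rw [this]
      exact hx
    rw [zero_mul, add_zero] at hx1
    rw [(hcx v hv x hx).2 hx1] at h2
    have h4 : v ^ 2 ∈ E := by
      have := E.mul_mem h2 (E.inv_mem hx)
      rwa [mul_inv_cancel_right] at this
    have h5 := h.bas.sq _ h4
    rw [← pow_mul] at h5
    exact h5
  have himg : (UF.image fun v => cj v E).card ≤
      (orbM Y M (RF E s {0} (fun i => c (g i)) f : Set (Subgroup G)) y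
        (kr E (c b + (0 : ZMod 2) • f)) E).ncard := by
    rw [← Set.ncard_coe_finset]
    refine Set.ncard_le_ncard ?_ (Set.toFinite _)
    intro E' hE'
    rw [Finset.coe_image] at hE'
    obtain ⟨v, hv, rfl⟩ := hE'
    obtain ⟨hv', hvM⟩ : v ∈ Tr b ∧ y * v ^ 2 * y⁻¹ ∈ M := by
      rw [Finset.mem_coe, hUF, Finset.mem_filter] at hv
      exact hv.2
    refine ⟨v, hY hv', h.cj_kr hb ht hv', h.RH_eq hE hb ht hv', fun z hz => ?_, rfl⟩
    rw [mem_cj] at hz
    obtain ⟨x', hx'⟩ : ∃ x', x' = (y * v)⁻¹ * z * (y * v) := ⟨_, rfl⟩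
    rw [← hx'] at hz
    have hz' : z = y * (v * x' * v⁻¹) * y⁻¹ := by
      rw [hx']
      group
    have hyx : y * x' * y⁻¹ ∈ M := hyM (by
      rw [mem_cj]
      have : y⁻¹ * (y * x' * y⁻¹) * y = x' := by group
      rwa [this])
    rw [hz']
    rcases zmod2_cases (c b x') with h1 | h1
    · rw [(hcx v hv' x' hz).1 h1]
      exact hyx
    · rw [(hcx v hv' x' hz).2 h1]
      have e1 : y * (v ^ 2 * x') * y⁻¹ = (y * v ^ 2 * y⁻¹) * (y * x' * y⁻¹) := by group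
      rw [e1]
      exact mul_mem hvM hyx
  refine (Finset.card_le_mul_card_image UF
    (Finset.univ.filter fun v : G => v ∈ Tr b ∧ v ^ 4 = 1).card (f := fun v => cj v E)
    fun E' hE' => ?_).trans (Nat.mul_le_mul_left _ himg)
  obtain ⟨v₀, hv₀, rfl⟩ := Finset.mem_image.1 hE'
  have hv₀' : v₀ ∈ Tr b := (Finset.mem_filter.1 hv₀).2.1
  refine Finset.card_le_card_of_injOn (fun v => v₀⁻¹ * v) (fun v hv => ?_)
    (fun a _ b _ h => mul_left_cancel h)
  rw [Finset.mem_coe, Finset.mem_filter] at hv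
  have hv' : v ∈ Tr b := (Finset.mem_filter.1 hv.1).2.1
  have hm : v₀⁻¹ * v ∈ Tr b := mul_mem (inv_mem hv₀') hv'
  rw [Finset.mem_coe, Finset.mem_filter]
  refine ⟨Finset.mem_univ _, hm, hfix _ hm ?_⟩
  have h2 : cj v E = cj v₀ E := hv.2
  rw [cj_mul, h2, cj_inv]

/-- **The block theorem for conjugates in `M`.** -/
theorem frames (h : Blk N E s {0} (fun b _ => Tr b) P c f 0 g) [Finite G] {𝕜 : Type v} [Field 𝕜]
    {n : ℕ} (hE : Nat.card E = 2 ^ (n + 2)) {Y M : Subgroup G} (hYN : Y ≤ N)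
    (hTY : ∀ b ∈ VB s g, Tr b ≤ Y) (hEM : E ≤ M) (ρ : ℚ) (hρ : 0 ≤ ρ)
    (hcnt : ∀ y ∈ Y, cj y E ≤ M → ∀ b ∈ VB s g,
      (Nat.card {v : G // v ∈ Tr b ∧ v ^ 4 = 1} : ℚ) ≤
        ρ * Nat.card {v : G // v ∈ Tr b ∧ y * v ^ 2 * y⁻¹ ∈ M})
    (hnum : (((s.card - 1).factorial : ℕ) : ℚ) * ((s.card + (prs s).card) * ρ) ≤
      ((s.card.factorial : ℕ) : ℚ)) :
    ∃ y ∈ Y, cj y E ≤ M ∧ ∃ (α : Ch 𝕜 (Subgroup G)) (φ : List (Subgroup G)),
      TopCycle 𝕜 2 M (cj y E) α φ := by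
  classical
  have : Fact (Nat.Prime 2) := ⟨Nat.prime_two⟩
  have hEa : E ∈ ApS 2 G := by
    refine ⟨?_, h.bas.comm, h.bas.sq⟩
    rintro rfl
    rw [Subgroup.card_bot] at hE
    exact absurd hE.symm (Nat.one_lt_pow (by omega) one_lt_two).ne'
  have hlow : s.card.factorial ≤
      Module.finrank 𝕜 (UU 𝕜 E (RF E s {0} (fun i => c (g i)) f : Set (Subgroup G)) (n + 1)) := by
    rw [RF_single h.bas]
    have h1 := ar_lower (𝕜 := 𝕜) (n + 1) s E h.bas hE
    rw [Finset.card_singleton, one_pow, one_mul] at h1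
    exact h1
  refine count_frames hE hEa (RF E s {0} (fun i => c (g i)) f)
    (fun y hy hyE H hH => h.inv hE (hYN hy) hyE hH)
    ((s.card - 1).factorial) s.card.factorial (Nat.factorial_pos _) hlow (fun H hH => ?_)
    (fun y hy hyM => ?_) hEM
  · have h1 := ar_contract (𝕜 := 𝕜) h.bas hE RF_sub (RF_sub (Finset.mem_coe.2 hH)) (Or.inr (by decide))
    rw [Finset.card_singleton, one_pow, one_mul] at h1
    exact h1
  · have hle : ∀ b ∈ VB s g, (1 / ((orbM Y M (RF E s {0} (fun i => c (g i)) f : Set (Subgroup G)) y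
        (kr E (c b + (0 : ZMod 2) • f)) E).ncard : ℚ)) ≤ ρ := by
      intro b hb
      have h1 := h.orbM_count hE hb (hTY b hb) hyM
      have h2 := hcnt y hy hyM b hb
      have h3 : 0 < Nat.card {v : G // v ∈ Tr b ∧ v ^ 4 = 1} := by
        have : Nonempty {v : G // v ∈ Tr b ∧ v ^ 4 = 1} := ⟨1, one_mem _, one_pow 4⟩
        exact Nat.card_pos
      have h4 : 0 < (orbM Y M (RF E s {0} (fun i => c (g i)) f : Set (Subgroup G)) y
        (kr E (c b + (0 : ZMod 2) • f)) E).ncard := by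
        have : Nonempty {v : G // v ∈ Tr b ∧ y * v ^ 2 * y⁻¹ ∈ M} :=
          ⟨1, one_mem _, by rw [one_pow, mul_one, mul_inv_cancel]; exact one_mem M⟩
        have h5 : 0 < Nat.card {v : G // v ∈ Tr b ∧ y * v ^ 2 * y⁻¹ ∈ M} := Nat.card_pos
        rcases Nat.eq_zero_or_pos (orbM Y M (RF E s {0} (fun i => c (g i)) f : Set (Subgroup G)) y
          (kr E (c b + (0 : ZMod 2) • f)) E).ncard with h6 | h6
        · rw [h6, mul_zero] at h1
          omega
        · exact h6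
      obtain ⟨A, hA⟩ : ∃ A, A = Nat.card {v : G // v ∈ Tr b ∧ v ^ 4 = 1} := ⟨_, rfl⟩
      obtain ⟨B, hB⟩ : ∃ B, B = Nat.card {v : G // v ∈ Tr b ∧ y * v ^ 2 * y⁻¹ ∈ M} := ⟨_, rfl⟩
      obtain ⟨C, hC⟩ : ∃ C, C = (orbM Y M (RF E s {0} (fun i => c (g i)) f : Set (Subgroup G)) y
        (kr E (c b + (0 : ZMod 2) • f)) E).ncard := ⟨_, rfl⟩
      rw [← hA] at h1 h2 h3
      rw [← hB] at h1 h2
      rw [← hC] at h1 h4 ⊢
      have h5 : (B : ℚ) ≤ A * C := by exact_mod_cast h1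
      have h6 : (0 : ℚ) < A := by exact_mod_cast h3
      have h7 : (0 : ℚ) < C := by exact_mod_cast h4
      rw [div_le_iff₀ h7]
      have h8 : (A : ℚ) ≤ ρ * (A * C) := h2.trans (mul_le_mul_of_nonneg_left h5 hρ)
      have h9 : (A : ℚ) * 1 ≤ A * (ρ * C) := by linarith
      exact le_of_mul_le_mul_left h9 h6
    have hsum := RF_sum (E := E) (s := s) (T := {0}) (χ := fun i => c (g i)) (ψ := f)
      (fun H => 1 / ((orbM Y M (RF E s {0} (fun i => c (g i)) f : Set (Subgroup G)) y H E).ncard :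
        ℚ)) (fun H => div_nonneg zero_le_one (Nat.cast_nonneg _)) ρ (fun i hi => by
          rw [Finset.sum_singleton]
          exact hle _ (Or.inl ⟨i, hi, rfl⟩)) (fun i hi j hj hij => by
          rw [Finset.sum_singleton]
          have h1 := h.kr_two hi hj hij 0
          rw [add_zero] at h1
          rw [h1]
          exact hle _ (Or.inr ⟨i, hi, j, hj, hij, rfl⟩))
    exact (mul_le_mul_of_nonneg_left hsum (Nat.cast_nonneg _)).trans hnum

end Blk

end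

end V

end Vale.Agent.P240.R2.H487
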