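import Vale.Agent.P240.R2.H487.DH
import Vale.Agent.P240.R2.H487.CO3

/-!
Systems of half tori attached to a Pauli group.
-/

set_option linter.all false

namespace Vale.Agent.P240.R2.H487

open Finsupp hiding cons
open Subgroup Vale.Agent.P240.K Vale.Agent.P240.H195

universe u v

section
variable {G : Type u} [Group G] {F : Type*} [Field F] {W : Type*} [AddCommGroup W]

/-- systems of half tori attached to a Pauli group -/
structure HTS (L N : Subgroup G) (a : ℕ) (ω : W → W → ZMod 2) (Q : W → ZMod 2)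
    (e : Fin a → Bool → W) (κ : RingAut F → ZMod 2) (ht : W → Fˣ →* G) (P : W → G) : Prop where
  card : Nat.card W = 4 ^ a
  two : ∀ w : W, w + w = 0
  ωadd : ∀ w w' v, ω (w + w') v = ω w v + ω w' v
  ωself : ∀ w, ω w w = 0
  ωsymm : ∀ w v, ω w v = ω v w
  Qadd : ∀ w w', Q (w + w') = Q w + Q w' + ω w w'
  ωe : ∀ j, ω (e j false) (e j true) = 1
  ωe' : ∀ j k α β, j ≠ k → ω (e j α) (e k β) = 0
  sep : ∀ w, (∀ j α, ω w (e j α) = 0) → w = 0
  κone : κ 1 = 0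
  LN : L ≤ N
  NL : N ≤ normalizer (L : Set G)
  htN : ∀ b μ, ht b μ ∈ N
  sqL : ∀ b μ, ht b (μ ^ 2) ∈ L
  ht1 : ∀ b, b ≠ 0 → ∀ μ, ht b μ = 1 ↔ μ = 1
  htP : ∀ b, b ≠ 0 → ht b (-1) = P b
  Pmul : ∀ w w', P (w + w') = P w * P w'
  PL : ∀ w, P w ∈ L
  P1 : ∀ w, P w = 1 → w = 0
  comm : ∀ b b', b ≠ 0 → b' ≠ 0 → ω b b' = 0 → ∀ μ μ', ht b μ * ht b' μ' = ht b' μ' * ht b μ
  Ptor : ∀ w b, b ≠ 0 → ∀ μ, P w * ht b μ * (P w)⁻¹ = ht b μ ^ sgn (ω w b)
  cent : ∀ x ∈ normalizer (L : Set G), (∀ w, x * P w = P w * x) → ∃ (w₀ : W) (ε : ZMod 2)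
    (τ : RingAut F), (∀ b, b ≠ 0 → ∀ μ, x * ht b μ * x⁻¹ =
      (ht b (um τ μ)) ^ sgn (ω w₀ b + ε * (Q b + 1) + κ τ * Q b)) ∧ (x ^ 2 = 1 → τ ^ 2 = 1) ∧
        (w₀ = 0 → ε = 0 → τ = 1 → x ∈ centralizer (L : Set G))
  CL : ∀ x ∈ N, (∀ w, x * P w = P w * x) → ∃ w, x = P w
  conj : ∀ y ∈ N, ∀ b b', b ≠ 0 → b' ≠ 0 → y * P b * y⁻¹ = P b' →
    ∃ e : ZMod 2, ∀ μ, y * ht b μ * y⁻¹ = (ht b' μ) ^ sgn e

/-- the torus of a half torus -/
def tr2 (ht : W → Fˣ →* G) (b : W) : Fˣ →* G := (ht b).comp (powMonoidHom 2)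

lemma tr2_apply (ht : W → Fˣ →* G) (b : W) (μ : Fˣ) : tr2 ht b μ = ht b (μ ^ 2) := rfl

variable {L N : Subgroup G} {a : ℕ} {ω : W → W → ZMod 2} {Q : W → ZMod 2} {e : Fin a → Bool → W}
  {κ : RingAut F → ZMod 2} {ht : W → Fˣ →* G} {P : W → G}

lemma HTS.toPTS (h : HTS L N a ω Q e κ ht P) : PTS L a ω Q e κ (tr2 ht) P where
  card := h.card
  two := h.two
  ωadd := h.ωadd
  ωself := h.ωself
  ωsymm := h.ωsymm
  Qadd := h.Qadd
  ωe := h.ωe
  ωe' := h.ωe'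
  sep := h.sep
  κone := h.κone
  torL := fun b μ => h.sqL b μ
  tor1 := fun b hb μ => h.ht1 b hb _
  Pmul := h.Pmul
  PL := h.PL
  P1 := h.P1
  comm := fun b b' hb hb' hω μ μ' => h.comm b b' hb hb' hω _ _
  Ptor := fun w b hb μ => h.Ptor w b hb _
  cent := fun x hx hP => by
    obtain ⟨w₀, ε, τ, h1, h2, h3⟩ := h.cent x hx hP
    refine ⟨w₀, ε, τ, fun b hb μ => ?_, h2, h3⟩
    rw [tr2_apply, tr2_apply, h1 b hb, map_pow (um τ)]
  CL := fun x hx hP => h.CL x (h.LN hx) hP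
  conj := fun y hy b b' hb hb' he => by
    obtain ⟨k, hk⟩ := h.conj y (h.LN hy) b b' hb hb' he
    exact ⟨k, fun μ => hk _⟩

/-- powers of a ring automorphism -/
def tp (τ : RingAut F) (t : ZMod 2) : RingAut F := if t = 0 then 1 else τ

lemma tp_zero (τ : RingAut F) : tp τ 0 = 1 := rfl

lemma tp_one (τ : RingAut F) : tp τ 1 = τ := rfl

open Classical in
/-- **The data on `E`.** -/
theorem HTS.edata0 [Finite F] (h : HTS L N a ω Q e κ ht P) {E : Subgroup G} (hE : E ∈ ApS 2 G)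
    (hEN : E ≤ normalizer (L : Set G))
    (hPE : ∀ w, P w ∈ E) (h4 : ∃ μ : Fˣ, μ ^ 4 ≠ 1) (hW : ∃ b : W, b ≠ 0)
    (hτ : ∀ τ : RingAut F, τ ≠ 1 → τ ^ 2 = 1 → ∀ t : ZMod 2,
      (∃ μ, μ ∉ Ut τ t) ∧ ∃ μ ∈ Ut τ t, μ ^ 4 ≠ 1) :
    ∃ (U : ZMod 2 → Subgroup Fˣ) (c : W → G → ZMod 2) (f : G → ZMod 2)
      (η : ZMod 2) (τ₀ : RingAut F), EData0 L ω Q (tr2 ht) P E U c f η ∧
        (∀ x ∈ E, ∀ b, b ≠ 0 → ∀ μ, x * ht b μ * x⁻¹ = (ht b (um (tp τ₀ (f x)) μ)) ^ sgn (c b x)) ∧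
        ((U = fun _ => ⊤) ∧ (∀ x ∈ E, f x = 0) ∨ (τ₀ ≠ 1 ∧ τ₀ ^ 2 = 1 ∧ U = Ut τ₀)) := by
  have hp := h.toPTS
  obtain ⟨b₀, hb₀⟩ := hW
  have hrep : ∀ x : G, ∃ (w₀ : W) (ε : ZMod 2) (τ : RingAut F), x ∈ E →
      ((∀ b, b ≠ 0 → ∀ μ, x * ht b μ * x⁻¹ =
        (ht b (um τ μ)) ^ sgn (ω w₀ b + ε * (Q b + 1) + κ τ * Q b)) ∧ τ ^ 2 = 1 ∧
          (w₀ = 0 → ε = 0 → τ = 1 → x ∈ centralizer (L : Set G))) := by
    intro x
    by_cases hx : x ∈ E
    · obtain ⟨w₀, ε, τ, h1, h2, h3⟩ := h.cent x (hEN hx) fun w => hE.2.1 x hx _ (hPE w)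
      exact ⟨w₀, ε, τ, fun _ => ⟨h1, h2 (hE.2.2 x hx), h3⟩⟩
    · exact ⟨0, 0, 1, fun h0 => absurd h0 hx⟩
  choose wx εx τx hx using hrep
  -- the possible field automorphisms
  obtain ⟨S, hS1, hSmul, hSu, hSE, hS⟩ : ∃ S : Set (RingAut F), (1 : RingAut F) ∈ S ∧
      (∀ τ ∈ S, ∀ σ ∈ S, τ * σ ∈ S) ∧
      (∀ τ ∈ S, ∀ σ ∈ S, τ ≠ σ → ∀ t : ZMod 2, ∃ μ : Fˣ,
        (um τ μ) ^ 2 ≠ (um σ μ ^ 2) ^ sgn t) ∧ (∀ x ∈ E, τx x ∈ S) ∧
      (S = {1} ∨ ∃ τ, S = {1, τ} ∧ τ ≠ 1 ∧ τ ^ 2 = 1 ∧ ∃ x ∈ E, τx x = τ) := by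
    by_cases hall : ∀ x ∈ E, τx x = 1
    · refine ⟨{1}, rfl, ?_, ?_, fun x hx => hall x hx, Or.inl rfl⟩
      · rintro τ hτ σ hσ
        rw [Set.mem_singleton_iff.1 hτ, Set.mem_singleton_iff.1 hσ, mul_one]
        rfl
      · rintro τ hτ σ hσ hne
        exact absurd ((Set.mem_singleton_iff.1 hτ).trans (Set.mem_singleton_iff.1 hσ).symm) hne
    · push Not at hall
      obtain ⟨x₁, hx₁, hne⟩ := hall
      have h2 := (hx x₁ hx₁).2.1
      have hsq : τx x₁ * τx x₁ = 1 := by rw [← pow_two, h2]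
      refine ⟨{1, τx x₁}, Or.inl rfl, ?_, ?_, ?_, Or.inr ⟨_, rfl, hne, h2, x₁, hx₁, rfl⟩⟩
      · rintro τ (rfl | hτ') σ (rfl | hσ)
        · exact Or.inl (mul_one _)
        · rw [Set.mem_singleton_iff.1 hσ, one_mul]
          exact Or.inr rfl
        · rw [Set.mem_singleton_iff.1 hτ', mul_one]
          exact Or.inr rfl
        · rw [Set.mem_singleton_iff.1 hτ', Set.mem_singleton_iff.1 hσ, hsq]
          exact Or.inl rfl
      · rintro τ (rfl | hτ') σ (rfl | hσ) hne' t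
        · exact absurd rfl hne'
        · rw [Set.mem_singleton_iff.1 hσ]
          obtain ⟨⟨μ, hμ⟩, -⟩ := hτ _ hne h2 t
          refine ⟨μ, fun h0 => hμ ?_⟩
          rw [mem_Ut]
          have h5 := congrArg (fun w => w ^ sgn t) h0
          simp only [← zpow_mul, sgn_mul_self, zpow_one] at h5
          rw [um_one] at h5
          exact h5.symm
        · rw [Set.mem_singleton_iff.1 hτ']
          obtain ⟨⟨μ, hμ⟩, -⟩ := hτ _ hne h2 t
          exact ⟨μ, fun h0 => hμ h0⟩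
        · exact absurd ((Set.mem_singleton_iff.1 hτ').trans (Set.mem_singleton_iff.1 hσ).symm) hne'
      · intro x hxE
        obtain ⟨k, hk⟩ := ff_prime Nat.prime_two h2 hne (hx x hxE).2.1
        rcases Nat.even_or_odd' k with ⟨j, hj | hj⟩
        · left
          rw [hk, hj, pow_mul, h2, one_pow]
        · right
          rw [hk, hj, pow_succ, pow_mul, h2, one_pow, one_mul]
          rfl
  obtain ⟨c, hc⟩ : ∃ c : W → G → ZMod 2, c = fun b x =>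
    ω (wx x) b + εx x * (Q b + 1) + κ (τx x) * Q b := ⟨_, rfl⟩
  have hactH : ∀ x ∈ E, ∀ b, b ≠ 0 → ∀ μ, x * ht b μ * x⁻¹ = (ht b (um (τx x) μ)) ^ sgn (c b x) :=
    fun x hxE b hb μ => by rw [hc]; exact (hx x hxE).1 b hb μ
  have hact : ∀ x ∈ E, ∀ b, b ≠ 0 → ∀ μ, x * tr2 ht b μ * x⁻¹ =
      (tr2 ht b (um (τx x) μ)) ^ sgn (c b x) :=
    fun x hxE b hb μ => by rw [tr2_apply, tr2_apply, hactH x hxE b hb, map_pow (um (τx x))]
  have hadd : ∀ x ∈ E, ∀ y ∈ E, ∀ b, b ≠ 0 → τx (x * y) = τx x * τx y ∧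
      c b (x * y) = c b x + c b y := by
    intro x hxE y hyE b hb
    exact hp.mul_act hSmul hSu h4 hb (hSE x hxE) (hSE y hyE) (hSE _ (mul_mem hxE hyE))
      (hact x hxE b hb) (hact y hyE b hb) (hact _ (mul_mem hxE hyE) b hb)
  have hP : ∀ w b, b ≠ 0 → τx (P w) = 1 ∧ c b (P w) = ω w b := by
    intro w b hb
    have h1 := hp.uniq hb (τ := τx (P w)) (σ := 1) (c := c b (P w)) (c' := ω w b) h4
      (hSu _ (hSE _ (hPE w)) _ hS1) fun μ => ?_
    · exact h1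
    · rw [← hact _ (hPE w) b hb, hp.Ptor w b hb, um_one]
  rcases hS with hS | ⟨τ₀, hS, hne, h2, x₁, hx₁, hx₁τ⟩
  · have hτ1 : ∀ x ∈ E, τx x = 1 := by
      intro x hxE
      have := hSE x hxE
      rw [hS] at this
      exact this
    refine ⟨fun _ => ⊤, c, fun _ => 0, 0, 1, ?_, fun x hxE b hb μ => ?_,
      Or.inl ⟨rfl, fun _ _ => rfl⟩⟩
    · exact {
      comm := hE.2.1
      sq := hE.2.2
      PE := hPE
      addc := fun b hb x hx y hy => (hadd x hx y hy b hb).2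
      addf := fun _ _ _ _ => by simp
      act := fun x hxE b hb t μ _ => by
        rw [hact x hxE b hb, hτ1 x hxE, um_one, mul_zero, add_zero]
      rep := fun x hxE => ⟨wx x, εx x, fun b hb => by
        rw [hc]
        simp only [hτ1 x hxE, h.κone]
        ring, fun e1 e2 _ => (hx x hxE).2.2 e1 e2 (hτ1 x hxE)⟩
      cP := fun w b hb => (hP w b hb).2
      fP := fun _ => rfl
      big := fun _ => by
        obtain ⟨μ, hμ⟩ := h4
        exact ⟨μ, mem_top μ, hμ⟩ }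
    · rw [tp_zero, hactH x hxE b hb, hτ1 x hxE]
  · have hτ1 : ∀ x ∈ E, τx x = 1 ∨ τx x = τ₀ := by
      intro x hxE
      have := hSE x hxE
      rw [hS] at this
      exact this
    have hsq : τ₀ * τ₀ = 1 := by rw [← pow_two, h2]
    refine ⟨Ut τ₀, c, fun x => if τx x = 1 then 0 else 1, κ τ₀, τ₀, ?_, fun x hxE b hb μ => ?_,
      Or.inr ⟨hne, h2, rfl⟩⟩
    · have hκ : ∀ x ∈ E, κ (τx x) = κ τ₀ * (if τx x = 1 then (0 : ZMod 2) else 1) := by
        intro x hxE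
        rcases hτ1 x hxE with h5 | h5
        · rw [h5, if_pos rfl, mul_zero, h.κone]
        · rw [h5, if_neg hne, mul_one]
      exact {
      comm := hE.2.1
      sq := hE.2.2
      PE := hPE
      addc := fun b hb x hx y hy => (hadd x hx y hy b hb).2
      addf := by
        intro x hxE y hyE
        change (if τx (x * y) = 1 then (0 : ZMod 2) else 1) = (if τx x = 1 then 0 else 1) +
          (if τx y = 1 then 0 else 1)
        rw [(hadd x hxE y hyE b₀ hb₀).1]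
        rcases hτ1 x hxE with h5 | h5 <;> rcases hτ1 y hyE with h6 | h6
        · rw [h5, h6, mul_one, if_pos rfl, add_zero]
        · rw [h5, h6, one_mul, if_neg hne, if_pos rfl, zero_add]
        · rw [h5, h6, mul_one, if_neg hne, if_pos rfl, add_zero]
        · rw [h5, h6, hsq, if_neg hne, if_pos rfl]
          decide
      act := fun x hxE b hb t μ hμ => by
        rw [hact x hxE b hb]
        rcases hτ1 x hxE with h5 | h5
        · simp only [h5, if_true]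
          rw [um_one, mul_zero, add_zero]
        · simp only [h5, if_neg hne]
          rw [mul_one, sgn_add, mul_comm (sgn (c b x)), zpow_mul]
          congr 1
          rw [mem_Ut] at hμ
          have h6 : tr2 ht b (um τ₀ μ * (μ ^ sgn t)⁻¹) = 1 := by
            rw [hp.tor1 b hb, mul_pow, inv_pow, hμ, ← zpow_natCast (μ ^ sgn t), ← zpow_mul,
              mul_comm (sgn t), zpow_mul, zpow_natCast, mul_inv_cancel]
          rw [map_mul, map_inv, map_zpow] at h6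
          exact mul_inv_eq_one.1 h6
      rep := fun x hxE => ⟨wx x, εx x, fun b hb => by
        rw [hc]
        simp only [hκ x hxE], fun e1 e2 e3 => (hx x hxE).2.2 e1 e2 (by
        by_contra h0
        rw [if_neg h0] at e3
        exact one_ne_zero e3)⟩
      cP := fun w b hb => (hP w b hb).2
      fP := fun w => by rw [(hP w b₀ hb₀).1, if_pos rfl]
      big := fun t => (hτ τ₀ hne h2 t).2 }
    · rw [hactH x hxE b hb]
      rcases hτ1 x hxE with h5 | h5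
      · simp only [h5, if_true]
        rw [tp_zero]
      · simp only [h5, if_neg hne]
        rw [tp_one]

end

end Vale.Agent.P240.R2.H487
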