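import Vale.Agent.P240.R2.H487.DI

/-!
Construction of blocks; the data of the head block with special elements.
-/

set_option linter.all false

namespace Vale.Agent.P240.R2.H487

open Finsupp hiding cons
open Subgroup Vale.Agent.P240.K Vale.Agent.P240.H195

universe u v

section
variable {G : Type u} [Group G] {F : Type*} [Field F] {W : Type*} [AddCommGroup W]
variable {L N : Subgroup G} {a : ℕ} {ω : W → W → ZMod 2} {Q : W → ZMod 2} {e : Fin a → Bool → W}
  {κ : RingAut F → ZMod 2} {ht : W → Fˣ →* G} {P : W → G}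
variable {E : Subgroup G} {T : Finset (ZMod 2)} {U : ZMod 2 → Subgroup Fˣ} {c : W → G → ZMod 2}
  {f : G → ZMod 2} {η : ZMod 2}

/-- construction of blocks -/
theorem mkBlkV (h : HTS L N a ω Q e κ ht P) (d : EData L ω Q (tr2 ht) P E T U c f η)
    {E' N' : Subgroup G} (hN : N' ≤ N)
    (hE' : E' ≤ E) {m : ℕ} {g : Fin m → W} {T' : Finset (ZMod 2)} {Z : W → ZMod 2 → Subgroup G}
    {η' : ZMod 2} (hg : ∀ i j, i ≠ j → ω (g i) (g j) = 1) (hg0 : ∀ i, g i ≠ 0)
    (bas : Bas E' Finset.univ T' (fun i => c (g i)) f)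
    (hη : η' ∈ T') (hη' : ∀ x ∈ E', η' * f x = η * f x)
    (hPE : ∀ b ∈ VB Finset.univ g, P b ∈ E' ∧ P b ∈ N')
    (hCL : ∀ w, w ≠ 0 → P w ∈ E' → w ∈ VB Finset.univ g)
    (hact : ∀ b ∈ VB Finset.univ g, ∀ t ∈ T', ∀ v ∈ Z b t, ∃ δ : ZMod 2, ∀ x ∈ E',
      x * v * x⁻¹ = V.pw (P b) (δ * f x) * v ^ sgn (c b x + t * f x))
    (hbig : ∀ b ∈ VB Finset.univ g, ∀ t ∈ T', ∃ v ∈ Z b t, v ^ 4 ≠ 1)
    (hVN : ∀ b ∈ VB Finset.univ g, ∀ t ∈ T', Z b t ≤ N')
    (hconj : ∀ y ∈ N', ∀ b ∈ VB Finset.univ g, ∀ b' ∈ VB Finset.univ g, y * P b * y⁻¹ = P b' →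
      ∀ t ∈ T', ∀ v ∈ Z b t, y * v * y⁻¹ ∈ Z b' t) :
    V.Blk N' E' Finset.univ T' Z P c f η' g := by
  have hp := h.toPTS
  have hne : ∀ b ∈ VB Finset.univ g, b ≠ 0 := by
    rintro b (⟨i, -, rfl⟩ | ⟨i, -, j, -, hij, rfl⟩)
    · exact hg0 i
    · exact (ne_of_ω hp (hg i j hij)).2.2
  exact {
    bas := bas
    addc := fun b hb => (d.addc b (hne b hb)).mono hE'
    act := hact
    rel := by
      intro i _ j _ hij x hx
      obtain ⟨h1, h2, h3⟩ := ne_of_ω hp (hg i j hij)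
      rw [c_add hp d h1 h2 h3 (hg i j hij) (hE' hx), hη' x hx]
    ηT := hη
    big := hbig
    VN := hVN
    PE := fun b hb => ⟨(hPE b hb).1, (hPE b hb).2, fun h0 => hne b hb (h.P1 b h0)⟩
    cPb := fun b hb => by rw [d.cP b b (hne b hb), h.ωself]
    fP := fun b _ => d.fP b
    CL := by
      intro x hx hxN hx1
      obtain ⟨w, rfl⟩ := h.CL x (hN hxN) fun w => d.comm x (hE' hx) _ (d.PE w)
      refine ⟨w, hCL w ?_ hx, rfl⟩
      rintro rfl
      exact hx1 hp.P0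
    conj := hconj }

/-- **The data of the head block with special elements.** -/
theorem head2_data [Finite G] {tor : W → Fˣ →* G} (h : PTS L a ω Q e κ tor P)
    (d : EData L ω Q tor P E T U c f η) (ha : 2 ≤ a)
    (hG : ∃ x ∈ E, x ≠ 1 ∧ f x = 0 ∧ ∀ j α, c (e j α) x = 0) :
    ∃ g : Fin 5 → W, (∀ i j, i ≠ j → ω (g i) (g j) = 1) ∧ (∀ i, g i ≠ 0) ∧
      (∀ i, ∀ j : Fin a, 2 ≤ (j : ℕ) → ∀ α, ω (g i) (e j α) = 0) ∧
      (∀ w, w ≠ 0 → (∀ j : Fin a, 2 ≤ (j : ℕ) → ∀ α, ω w (e j α) = 0) →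
        w ∈ VB Finset.univ g) ∧
      Bas (FK h d 2) Finset.univ T (fun i => c (g i)) f := by
  obtain ⟨y, hy⟩ : ∃ y : Fin a, (y : ℕ) = 0 := ⟨⟨0, by omega⟩, rfl⟩
  obtain ⟨z, hz⟩ : ∃ z : Fin a, (z : ℕ) = 1 := ⟨⟨1, by omega⟩, rfl⟩
  have hyz : y ≠ z := by
    intro h2
    have := congrArg Fin.val h2
    omega
  have hfar : ∀ j : Fin a, 2 ≤ (j : ℕ) → y ≠ j ∧ z ≠ j := by
    intro j hj
    constructor <;> rintro rfl <;> omega
  have hnear : ∀ j : Fin a, ¬ 2 ≤ (j : ℕ) → j = y ∨ j = z := by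
    intro j hj
    rcases Nat.eq_zero_or_pos (j : ℕ) with h2 | h2
    · exact Or.inl (Fin.ext (by rw [h2, hy]))
    · exact Or.inr (Fin.ext (by omega))
  set g : Fin 5 → W := fun i => cmb e y z (gam i) with hg
  have hgω : ∀ i j, i ≠ j → ω (g i) (g j) = 1 := fun i j hij => by
    rw [hg]
    change ω (cmb e y z (gam i)) (cmb e y z (gam j)) = 1
    rw [cmb_om h hyz, gam_om i j hij]
  have hg0 : ∀ i, g i ≠ 0 := by
    intro i
    obtain ⟨j, hij⟩ : ∃ j : Fin 5, i ≠ j := ⟨i + 1, by revert i; decide⟩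
    exact (ne_of_ω h (hgω i j hij)).1
  have hperp : ∀ i, ∀ j : Fin a, 2 ≤ (j : ℕ) → ∀ α, ω (g i) (e j α) = 0 := fun i j hj α =>
    cmb_far h (hfar j hj).1 (hfar j hj).2 _ α
  have hVB : ∀ v : Fin 4 → ZMod 2, v ≠ 0 → cmb e y z v ∈ VB Finset.univ g := by
    intro v hv
    rcases gam_cover v hv with ⟨i, rfl⟩ | ⟨i, j, hij, rfl⟩
    · exact Or.inl ⟨i, Finset.mem_univ _, rfl⟩
    · exact Or.inr ⟨i, Finset.mem_univ _, j, Finset.mem_univ _, hij, cmb_add h y z _ _⟩
  have hcmb0 : cmb e y z 0 = 0 := by simp [cmb, vs]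
  have hCL : ∀ w, w ≠ 0 → (∀ j : Fin a, 2 ≤ (j : ℕ) → ∀ α, ω w (e j α) = 0) →
      w ∈ VB Finset.univ g := by
    intro w hw hp
    obtain ⟨v, hv⟩ : ∃ v : Fin 4 → ZMod 2, v = ![ω w (e y true), ω w (e y false),
      ω w (e z true), ω w (e z false)] := ⟨_, rfl⟩
    have h2 : w + cmb e y z v = 0 := by
      refine h.sep _ fun j α => ?_
      rw [h.ωadd]
      obtain ⟨e1, e2, e3, e4⟩ := cmb_e h hyz v
      by_cases hj : 2 ≤ (j : ℕ)
      · rw [hp j hj α, cmb_far h (hfar j hj).1 (hfar j hj).2, add_zero]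
      · rcases hnear j hj with rfl | rfl <;> cases α
        · rw [e1, hv]; exact zmod2_self _
        · rw [e2, hv]; exact zmod2_self _
        · rw [e3, hv]; exact zmod2_self _
        · rw [e4, hv]; exact zmod2_self _
    have h3 := eq_of_add_zero h h2
    rw [h3]
    refine hVB v ?_
    rintro rfl
    rw [hcmb0] at h3
    exact hw h3
  have bas : Bas (FK h d 2) Finset.univ T (fun i => c (g i)) f := by
    refine Bas.mk' d.hT (fun x hx y hy => d.comm x (FK_le h d 2 hx) y (FK_le h d 2 hy))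
      (fun x hx => d.sq x (FK_le h d 2 hx))
      (fun i _ => (d.addc _ (hg0 i)).mono (FK_le h d 2)) (d.addf.mono (FK_le h d 2))
      (fun x hx => d.val x (FK_le h d 2 hx)) ?_ ?_
    · intro x hx h2 h3
      have hxE := FK_le h d 2 hx
      have hall : ∀ v : Fin 4 → ZMod 2, v ≠ 0 → cmb e y z v ≠ 0 ∧ c (cmb e y z v) x = 0 := by
        intro v hv
        rcases gam_cover v hv with ⟨i, rfl⟩ | ⟨i, j, hij, rfl⟩
        · exact ⟨hg0 i, h2 i (Finset.mem_univ _)⟩
        · obtain ⟨n1, n2, n3⟩ := ne_of_ω h (hgω i j hij)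
          rw [cmb_add h]
          refine ⟨n3, ?_⟩
          have h4 := c_add h d n1 n2 n3 (hgω i j hij) hxE
          rw [h2 i (Finset.mem_univ _), h2 j (Finset.mem_univ _), h3] at h4
          change c (g i + g j) x = 0
          rw [h4]
          ring
      obtain ⟨w₀, ε, h4, h5⟩ := d.rep x hxE
      have h6 : ∀ v : Fin 4 → ZMod 2, v ≠ 0 →
          ω w₀ (cmb e y z v) + ε * (Q (cmb e y z v) + 1) = 0 := by
        intro v hv
        obtain ⟨h7, h8⟩ := hall v hv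
        rw [h4 _ h7, h3, mul_zero, zero_mul, add_zero] at h8
        exact h8
      have q1 := h6 ![1, 0, 0, 0] (by decide)
      have q2 := h6 ![0, 0, 1, 0] (by decide)
      have q3 := h6 (![1, 0, 0, 0] + ![0, 0, 1, 0]) (by decide)
      rw [cmb_add h, h.ωadd', h.Qadd, cmb_om h hyz] at q3
      have q4 : om4 ![1, 0, 0, 0] ![0, 0, 1, 0] = 0 := by decide
      rw [q4, add_zero] at q3
      have hε : ε = 0 := by
        have e5 : ∀ p q r s t : ZMod 2, p + t * (r + 1) = 0 → q + t * (s + 1) = 0 →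
            p + q + t * (r + s + 1) = 0 → t = 0 := by decide
        exact e5 _ _ _ _ _ q1 q2 q3
      rw [hε] at h6 h4
      have h7 : ∀ v : Fin 4 → ZMod 2, v ≠ 0 → ω w₀ (cmb e y z v) = 0 := by
        intro v hv
        have := h6 v hv
        rwa [zero_mul, add_zero] at this
      have a1 : cmb e y z ![1, 0, 0, 0] = e y false := by simp [cmb, vs]
      have a2 : cmb e y z ![0, 1, 0, 0] = e y true := by simp [cmb, vs]
      have a3 : cmb e y z ![0, 0, 1, 0] = e z false := by simp [cmb, vs]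
      have a4 : cmb e y z ![0, 0, 0, 1] = e z true := by simp [cmb, vs]
      have b1 := h7 ![1, 0, 0, 0] (by decide)
      have b2 := h7 ![0, 1, 0, 0] (by decide)
      have b3 := h7 ![0, 0, 1, 0] (by decide)
      have b4 := h7 ![0, 0, 0, 1] (by decide)
      rw [a1] at b1
      rw [a2] at b2
      rw [a3] at b3
      rw [a4] at b4
      refine h5 (h.sep w₀ fun j α => ?_) hε h3
      by_cases hj : 2 ≤ (j : ℕ)
      · have h8 := hx.2 j hj α
        rw [chi, h3, mul_zero, add_zero, h4 _ (h.e_ne j α), h3, mul_zero, zero_mul, zero_mul,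
          add_zero, add_zero] at h8
        exact h8
      · rcases hnear j hj with rfl | rfl <;> cases α
        · exact b1
        · exact b2
        · exact b3
        · exact b4
    · rw [Finset.card_univ, Fintype.card_fin]
      obtain ⟨x, hx, hx1, hxf, hxc⟩ := hG
      have h2 := FK_card h d (a - 2) 2 (by omega)
      have h3 := E_card h d
      have h4 := kr_ge' h d hx hx1 hxf hxc
      have h5 : 4 ^ a = 4 ^ (a - 2) * 16 := by
        have : (16 : ℕ) = 4 ^ 2 := by norm_num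
        rw [this, ← pow_add]
        congr 1
        omega
      have h6 : T.card * (2 * 4 ^ a) ≤ 4 ^ (a - 2) * Nat.card (FK h d 2) :=
        (Nat.mul_le_mul_left _ h4).trans (h3.trans h2)
      rw [h5] at h6
      have h7 : 4 ^ (a - 2) * (T.card * 2 ^ 5) ≤ 4 ^ (a - 2) * Nat.card (FK h d 2) := by
        calc 4 ^ (a - 2) * (T.card * 2 ^ 5) = T.card * (2 * (4 ^ (a - 2) * 16)) := by ring
          _ ≤ _ := h6
      exact Nat.le_of_mul_le_mul_left h7 (by positivity)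
  exact ⟨g, hgω, hg0, hperp, hCL, bas⟩

end

end Vale.Agent.P240.R2.H487
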