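import Vale.Agent.P240.R2.H487.DJ

/-!
Assembly of the blocks with tori given as subgroups, without field automorphisms.
-/

set_option linter.all false

namespace Vale.Agent.P240.R2.H487

open Finsupp hiding cons
open Subgroup Vale.Agent.P240.K Vale.Agent.P240.H195

universe u v

section
variable {G : Type u} [Group G] {F : Type*} [Field F] {W : Type*} [AddCommGroup W]
variable {L N : Subgroup G} {a : ℕ} {ω : W → W → ZMod 2} {Q : W → ZMod 2} {e : Fin a → Bool → W}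
  {κ : RingAut F → ZMod 2} {ht : W → Fˣ →* G} {P : W → G}
variable {E X : Subgroup G} {U : ZMod 2 → Subgroup Fˣ} {c : W → G → ZMod 2}
  {f : G → ZMod 2} {η : ZMod 2} {Z : W → Subgroup G}

lemma cj_eq_self [Finite G] {y : G} {E : Subgroup G} (hy : y ∈ E) : cj y E = E := by
  refine (eq_of_le_of_card_ge (fun x hx => ?_) (by rw [card_cj])).symm
  rw [mem_cj]
  exact mul_mem (mul_mem (inv_mem hy) hx) hy

/-- the generators of the slots `j ≥ k` -/
def SSZ (Z : W → Subgroup G) (P : W → G) (e : Fin a → Bool → W) (k : ℕ) : Set G :=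
  {y | ∃ j : Fin a, k ≤ (j : ℕ) ∧ ∃ b ∈ VB Finset.univ (gS e j), y = P b ∨ y ∈ Z b}

/-- the group of a slot -/
def NKZ (Z : W → Subgroup G) (P : W → G) (e : Fin a → Bool → W) (k : Fin a) : Subgroup G :=
  closure {y | ∃ b ∈ VB Finset.univ (gS e k), y = P b ∨ y ∈ Z b}

/-- the group that commutes with the slots `j ≥ k` -/
def MKZ (X : Subgroup G) (Z : W → Subgroup G) (P : W → G) (e : Fin a → Bool → W) (k : ℕ) :
    Subgroup G := X ⊓ centralizer (SSZ Z P e k)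

/-- commutation of generators -/
lemma gen_commZ (h : HTS L N a ω Q e κ ht P) {b b' : W} (hb : b ≠ 0) (hb' : b' ≠ 0)
    (hω : ω b b' = 0) {y y' : G} (hy : y = P b ∨ ∃ μ, y = ht b μ)
    (hy' : y' = P b' ∨ ∃ μ, y' = ht b' μ) : y * y' = y' * y := by
  have hp := h.toPTS
  have hP : ∀ w b, b ≠ 0 → ω w b = 0 → ∀ μ, P w * ht b μ = ht b μ * P w := by
    intro w b hb hω μ
    have h1 := h.Ptor w b hb μ
    rw [hω, sgn_zero, zpow_one] at h1
    exact mul_inv_eq_iff_eq_mul.1 h1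
  rcases hy with rfl | ⟨μ, rfl⟩ <;> rcases hy' with rfl | ⟨μ', rfl⟩
  · exact hp.Pcomm _ _
  · exact hP _ _ hb' hω _
  · exact (hP _ _ hb (by rw [h.ωsymm]; exact hω) _).symm
  · exact h.comm b b' hb hb' hω _ _

lemma MKZ_mono {k l : ℕ} (hkl : k ≤ l) : MKZ X Z P e k ≤ MKZ X Z P e l := by
  refine inf_le_inf_left _ (centralizer_le ?_)
  rintro y ⟨j, hj, h⟩
  exact ⟨j, hkl.trans hj, h⟩

lemma cen_NKZ {k : Fin a} {l : ℕ} (hl : l ≤ (k : ℕ)) {x : G}
    (hx : x ∈ centralizer (SSZ Z P e l)) : ∀ y ∈ NKZ Z P e k, x * y = y * x := by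
  intro y hy
  have h1 : NKZ Z P e k ≤ centralizer {x} := by
    rw [NKZ, closure_le]
    rintro z ⟨b, hb, hz⟩
    rw [SetLike.mem_coe, mem_centralizer_singleton_iff]
    exact (mem_centralizer_iff.1 hx) z ⟨k, hl, b, hb, hz⟩
  exact (mem_centralizer_singleton_iff.1 (h1 hy)).symm

lemma NKZ_le (h : HTS L N a ω Q e κ ht P)
    (hZT : ∀ b, b ≠ 0 → ∀ v ∈ Z b, ∃ μ, v = ht b μ) (k : Fin a) : NKZ Z P e k ≤ N := by
  rw [NKZ, closure_le]
  rintro y ⟨b, hb, rfl | hy⟩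
  · exact h.LN (h.PL b)
  · obtain ⟨μ, rfl⟩ := hZT b (VB_ne h.toPTS hb) y hy
    exact h.htN b μ

lemma NKZ_le_MKZ (h : HTS L N a ω Q e κ ht P) (d : EData L ω Q (tr2 ht) P E {0} U c f η)
    (hEX : E ≤ X) (hZT : ∀ b, b ≠ 0 → ∀ v ∈ Z b, ∃ μ, v = ht b μ) (k : Fin a)
    (hZX : ∀ b ∈ VB Finset.univ (gS e k), Z b ≤ X) {l : ℕ} (hl : (k : ℕ) < l) :
    NKZ Z P e k ≤ MKZ X Z P e l := by
  have hp := h.toPTS
  rw [NKZ, closure_le]
  rintro y ⟨b, hb, hy⟩
  refine mem_inf.2 ⟨?_, ?_⟩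
  · rcases hy with rfl | hy
    · exact hEX (d.PE b)
    · exact hZX b hb hy
  · rw [mem_centralizer_iff]
    rintro y' ⟨j, hj, b', hb', hy'⟩
    have hjk : j ≠ k := by
      rintro rfl
      omega
    exact gen_commZ h (VB_ne hp hb') (VB_ne hp hb) (gS_perp hp hjk hb' hb)
      (hy'.imp id fun h1 => hZT b' (VB_ne hp hb') _ h1) (hy.imp id fun h1 => hZT b (VB_ne hp hb) _ h1)

/-- triviality of the intersection -/
lemma FK_NKZ (h : HTS L N a ω Q e κ ht P) (d : EData L ω Q (tr2 ht) P E {0} U c f η)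
    (hZT : ∀ b, b ≠ 0 → ∀ v ∈ Z b, ∃ μ, v = ht b μ) (k : Fin a) :
    FK h.toPTS d k ⊓ NKZ Z P e k = ⊥ := by
  have hp := h.toPTS
  rw [eq_bot_iff]
  rintro x ⟨hx, hxN⟩
  obtain ⟨w, rfl⟩ := h.CL x (NKZ_le h hZT k hxN) fun w => d.comm x (FK_le hp d _ hx) _ (d.PE w)
  rw [mem_bot]
  have hw : w = 0 := by
    refine h.sep w fun j α => ?_
    by_cases hjk : k ≤ j
    · exact (P_mem_FK hp d).1 hx j hjk α
    · -- `P w` commutes with the torus of `e j α`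
      have hlt : j ≠ k := by
        rintro rfl
        exact hjk le_rfl
      obtain ⟨μ, hμ, hμ4⟩ := d.big η d.ηT
      have h1 : NKZ Z P e k ≤ centralizer {tr2 ht (e j α) μ} := by
        rw [NKZ, closure_le]
        rintro z ⟨b, hb, hz⟩
        rw [SetLike.mem_coe, mem_centralizer_singleton_iff]
        have hje : e j α ∈ VB Finset.univ (gS e j) := by
          rw [mem_VB_gS]
          cases α
          · exact Or.inl rfl
          · exact Or.inr (Or.inl rfl)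
        exact gen_commZ h (VB_ne hp hb) (hp.e_ne j α) (gS_perp hp (Ne.symm hlt) hb hje)
          (hz.imp id fun h1 => hZT b (VB_ne hp hb) _ h1) (Or.inr ⟨μ ^ 2, rfl⟩)
      have h2 := mem_centralizer_singleton_iff.1 (h1 hxN)
      have h3 := hp.Ptor w _ (hp.e_ne j α) μ
      rw [h2, mul_inv_cancel_right] at h3
      rcases zmod2_cases (ω w (e j α)) with h4 | h4
      · exact h4
      · exfalso
        rw [h4, sgn_one, zpow_neg_one] at h3
        apply hμ4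
        have h5 : tr2 ht (e j α) (μ ^ 2) = 1 := by
          rw [map_pow, pow_two]
          nth_rewrite 1 [h3]
          exact inv_mul_cancel _
        have h6 := (hp.tor1 _ (hp.e_ne j α) _).1 h5
        rw [← pow_mul] at h6
        exact h6
  rw [hw, hp.P0]

/-- `F_k` lies in `M_k` -/
lemma FK_le_MKZ (h : HTS L N a ω Q e κ ht P) (d : EData L ω Q (tr2 ht) P E {0} U c f η)
    (hEX : E ≤ X) (hZT : ∀ b, b ≠ 0 → ∀ v ∈ Z b, ∃ μ, v = ht b μ)
    (hact : ∀ x ∈ E, ∀ b, b ≠ 0 → ∀ μ, x * ht b μ * x⁻¹ = (ht b μ) ^ sgn (c b x)) (k : ℕ) :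
    FK h.toPTS d k ≤ MKZ X Z P e k := by
  have hp := h.toPTS
  intro x hx
  have hxE := FK_le hp d k hx
  have hf0 : f x = 0 := Finset.mem_singleton.1 (d.val x hxE)
  refine mem_inf.2 ⟨hEX hxE, ?_⟩
  rw [mem_centralizer_iff]
  rintro y ⟨j, hj, b, hb, rfl | hy⟩
  · exact d.comm _ (d.PE b) x hxE
  · obtain ⟨μ, rfl⟩ := hZT b (VB_ne hp hb) y hy
    have hc0 : c b x = 0 := by
      have h1 := hx.2 j hj false
      have h2 := hx.2 j hj true
      rw [chi, hf0, mul_zero, add_zero] at h1 h2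
      rcases mem_VB_gS.1 hb with rfl | rfl | rfl
      · exact h1
      · exact h2
      · obtain ⟨e1, e2, e3⟩ := ne_of_ω hp (hp.ωe j)
        rw [c_add hp d e1 e2 e3 (hp.ωe j) hxE, hf0, h1, h2]
        ring
    have h3 := hact x hxE b (VB_ne hp hb) μ
    rw [hc0, sgn_zero, zpow_one] at h3
    exact (mul_inv_eq_iff_eq_mul.1 h3).symm

/-- the block of a slot -/
theorem slotTopZ [Finite G] {𝕜 : Type v} [Field 𝕜] (h : HTS L N a ω Q e κ ht P)
    (d : EData L ω Q (tr2 ht) P E {0} U c f η) (hEX : E ≤ X)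
    (hZT : ∀ b, b ≠ 0 → ∀ v ∈ Z b, ∃ μ, v = ht b μ)
    (hact : ∀ x ∈ E, ∀ b, b ≠ 0 → ∀ μ, x * ht b μ * x⁻¹ = (ht b μ) ^ sgn (c b x))
    (hZX : ∀ k, ∀ b ∈ VB Finset.univ (gS e k), Z b ≤ X)
    (hZc : ∀ y ∈ N, y ∈ X → ∀ b b', b ≠ 0 → b' ≠ 0 → y * P b * y⁻¹ = P b' →
      ∀ v ∈ Z b, y * v * y⁻¹ ∈ Z b')
    (hZr : ∀ k, ∀ b ∈ VB Finset.univ (gS e k),
      3 * Nat.card {v : G // v ∈ Z b ∧ v ^ 4 = 1} ≤ 2 * Nat.card (Z b))
    (hZb : ∀ k, ∀ b ∈ VB Finset.univ (gS e k), ∃ v ∈ Z b, v ^ 4 ≠ 1) (k : Fin a) :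
    ∃ (α : Ch 𝕜 (Subgroup G)) (φ : List (Subgroup G)),
      TopCycle 𝕜 2 (NKZ Z P e k) (SV h.toPTS k) α φ := by
  have hp := h.toPTS
  have hf := SV_f hp d k
  have hVne : ∀ b ∈ VB Finset.univ (gS e k), b ≠ 0 := fun b hb => VB_ne hp hb
  have hsub : SV hp k ≤ NKZ Z P e k := by
    rintro x hx
    by_cases hx1 : x = 1
    · rw [hx1]
      exact one_mem _
    · obtain ⟨s, t, rfl⟩ := id hx
      have hw : vs s (e k false) + vs t (e k true) ≠ 0 := fun h0 => hx1 (by rw [h0, hp.P0])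
      exact subset_closure ⟨_, (P_mem_SV hp hw).1 hx, Or.inl rfl⟩
  have hNX : NKZ Z P e k ≤ X :=
    (NKZ_le_MKZ h d hEX hZT k (hZX k) (Nat.lt_succ_self _)).trans inf_le_left
  have hNN := NKZ_le (k := k) h hZT
  have hB : V.Blk (NKZ Z P e k) (SV hp k) Finset.univ {0} (fun b _ => Z b) P c f 0 (gS e k) := by
    refine mkBlkV h d hNN (SV_le hp d k) (gS_ω hp k) (gS_ne hp k) (slotBlk hp d k).bas
      (Finset.mem_singleton_self _) (fun x hx => by rw [hf x hx, mul_zero, mul_zero])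
      (fun b hb => ?_) (fun w hw hPw => (P_mem_SV hp hw).1 hPw) (fun b hb t ht v hv => ?_)
      (fun b hb t ht => hZb k b hb) (fun b hb t ht v hv => subset_closure ⟨b, hb, Or.inr hv⟩)
      fun y hy b hb b' hb' he t ht v hv =>
        hZc y (hNN hy) (hNX hy) b b' (hVne b hb) (hVne b' hb') he v hv
    · exact ⟨(P_mem_SV hp (hVne b hb)).2 hb, subset_closure ⟨b, hb, Or.inl rfl⟩⟩
    · refine ⟨0, fun x hx => ?_⟩
      obtain ⟨μ, rfl⟩ := hZT b (hVne b hb) v hv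
      rw [zero_mul, V.pw_zero, one_mul, hf x hx, mul_zero, add_zero]
      exact hact x (SV_le hp d k hx) b (hVne b hb) μ
  refine hB.top (𝕜 := 𝕜) (n := 0) (by rw [SV_card]; norm_num) (fun _ => 2 / 3) (fun b hb t ht => ?_)
    ?_ hsub (fun b hb t ht v hv => ?_)
  · rw [V.Blk.rt, div_le_iff₀ (by exact_mod_cast (Nat.card_pos : 0 < Nat.card (Z b)))]
    have h1 := hZr k b hb
    have h2 : (3 : ℚ) * Nat.card {v : G // v ∈ Z b ∧ v ^ 4 = 1} ≤ 2 * Nat.card (Z b) := by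
      exact_mod_cast h1
    linarith
  · have e1 : ((Finset.univ : Finset (Fin 2)).card : ℕ) = 2 := by decide
    have e2 : (prs (Finset.univ : Finset (Fin 2))).card = 1 := by decide
    rw [e1, e2, Finset.card_singleton]
    norm_num
  · exact cj_eq_self (subset_closure ⟨b, hb, Or.inr hv⟩)

/-- **The induction over the slots.** -/
theorem assembleZ [Finite G] {𝕜 : Type v} [Field 𝕜] (h : HTS L N a ω Q e κ ht P)
    (d : EData L ω Q (tr2 ht) P E {0} U c f η) (hEX : E ≤ X)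
    (hZT : ∀ b, b ≠ 0 → ∀ v ∈ Z b, ∃ μ, v = ht b μ)
    (hact : ∀ x ∈ E, ∀ b, b ≠ 0 → ∀ μ, x * ht b μ * x⁻¹ = (ht b μ) ^ sgn (c b x))
    (hZX : ∀ k, ∀ b ∈ VB Finset.univ (gS e k), Z b ≤ X)
    (hZc : ∀ y ∈ N, y ∈ X → ∀ b b', b ≠ 0 → b' ≠ 0 → y * P b * y⁻¹ = P b' →
      ∀ v ∈ Z b, y * v * y⁻¹ ∈ Z b')
    (hZr : ∀ k, ∀ b ∈ VB Finset.univ (gS e k),
      3 * Nat.card {v : G // v ∈ Z b ∧ v ^ 4 = 1} ≤ 2 * Nat.card (Z b))
    (hZb : ∀ k, ∀ b ∈ VB Finset.univ (gS e k), ∃ v ∈ Z b, v ^ 4 ≠ 1) {k₀ : ℕ}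
    (hk₀ : k₀ ≤ a) {y : G} (hy : y ∈ centralizer (SSZ Z P e k₀))
    (hhead : ∃ (α : Ch 𝕜 (Subgroup G)) (φ : List (Subgroup G)),
      TopCycle 𝕜 2 (MKZ X Z P e k₀) (cj y (FK h.toPTS d k₀)) α φ) :
    ∃ (α : Ch 𝕜 (Subgroup G)) (φ : List (Subgroup G)), TopCycle 𝕜 2 X (cj y E) α φ := by
  have : Fact (Nat.Prime 2) := ⟨Nat.prime_two⟩
  have hp := h.toPTS
  have key : ∀ i, k₀ + i ≤ a → ∃ (α : Ch 𝕜 (Subgroup G)) (φ : List (Subgroup G)),
      TopCycle 𝕜 2 (MKZ X Z P e (k₀ + i)) (cj y (FK hp d (k₀ + i))) α φ := by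
    intro i
    induction i with
    | zero => exact fun _ => hhead
    | succ i ih =>
      intro hi
      obtain ⟨α, φ, hT⟩ := ih (by omega)
      obtain ⟨k, hk⟩ : ∃ k : Fin a, (k : ℕ) = k₀ + i := ⟨⟨k₀ + i, by omega⟩, rfl⟩
      rw [← hk] at hT
      obtain ⟨α', φ', hT'⟩ := slotTopZ (𝕜 := 𝕜) h d hEX hZT hact hZX hZc hZr hZb k
      have hyN : ∀ x ∈ NKZ Z P e k, y * x = x * y := cen_NKZ (l := k₀) (by omega) hy
      have hySV : cj y (SV hp k) = SV hp k := by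
        refine (eq_of_le_of_card_ge (fun x hx => ?_) (by rw [card_cj])).symm
        rw [mem_cj]
        have h1 : x ∈ NKZ Z P e k := by
          by_cases hx1 : x = 1
          · rw [hx1]
            exact one_mem _
          · obtain ⟨s, t, rfl⟩ := id hx
            have hw : vs s (e k false) + vs t (e k true) ≠ 0 := fun h0 => hx1 (by rw [h0, hp.P0])
            exact subset_closure ⟨_, (P_mem_SV hp hw).1 hx, Or.inl rfl⟩
        have h2 : y⁻¹ * x * y = x := by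
          rw [mul_assoc, ← hyN x h1, inv_mul_cancel_left]
        rw [h2]
        exact hx
      obtain ⟨α'', φ'', hT''⟩ := topCycle_join hT hT' (fun x hx z hz => by
        exact cen_NKZ (l := (k : ℕ)) le_rfl hx.2 z hz) (by
        rw [eq_bot_iff]
        rintro x ⟨hx, hxN⟩
        have h1 : x ∈ NKZ Z P e k := hxN
        have h2 : y⁻¹ * x * y = x := by
          rw [mul_assoc, ← hyN x h1, inv_mul_cancel_left]
        have h3 := mem_cj.1 hx
        rw [h2] at h3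
        rw [← FK_NKZ h d hZT k]
        exact ⟨h3, hxN⟩)
      have hsup : cj y (FK hp d k) ⊔ SV hp k = cj y (FK hp d (k + 1)) := by
        rw [← FK_sup, (cj y).map_sup, hySV]
      rw [hsup] at hT''
      refine ⟨α'', φ'', ?_⟩
      have h1 : k₀ + (i + 1) = (k : ℕ) + 1 := by omega
      rw [h1]
      exact r5_mono (sup_le (MKZ_mono (Nat.le_succ _))
        (NKZ_le_MKZ h d hEX hZT k (hZX k) (Nat.lt_succ_self _))) hT''
  obtain ⟨i, hi⟩ := Nat.exists_eq_add_of_le hk₀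
  obtain ⟨α, φ, hT⟩ := key i (by omega)
  rw [← hi, FK_top] at hT
  exact ⟨α, φ, r5_mono inf_le_left hT⟩

end

end Vale.Agent.P240.R2.H487
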