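import Vale.Agent.P240.R2.H487.DK

/-!
The head blocks: conjugates in `M`, and half tori.
-/

set_option linter.all false

namespace Vale.Agent.P240.R2.H487

open Finsupp hiding cons
open Subgroup Vale.Agent.P240.K Vale.Agent.P240.H195

universe u v

section
variable {G : Type u} [Group G] {F : Type*} [Field F] {W : Type*} [AddCommGroup W]
variable {L N : Subgroup G} {a : ℕ} {ω : W → W → ZMod 2} {Q : W → ZMod 2} {e : Fin a → Bool → W}
  {κ : RingAut F → ZMod 2} {ht : W → Fˣ →* G} {P : W → G}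
variable {E X : Subgroup G} {U : ZMod 2 → Subgroup Fˣ} {c : W → G → ZMod 2}
  {f : G → ZMod 2} {η : ZMod 2} {Z : W → Subgroup G}

lemma cj_SV [Finite G] (h : PTS L a ω Q e κ (tr2 ht) P) {k : Fin a} {l : ℕ} (hl : l ≤ (k : ℕ))
    {y : G} (hy : y ∈ centralizer (SSZ Z P e l)) : cj y (SV h k) = SV h k := by
  refine (eq_of_le_of_card_ge (fun x hx => ?_) (by rw [card_cj])).symm
  rw [mem_cj]
  have h1 : x ∈ NKZ Z P e k := by
    by_cases hx1 : x = 1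
    · rw [hx1]
      exact one_mem _
    · obtain ⟨s, t, rfl⟩ := id hx
      have hw : vs s (e k false) + vs t (e k true) ≠ 0 := fun h0 => hx1 (by rw [h0, h.P0])
      exact subset_closure ⟨_, (P_mem_SV h hw).1 hx, Or.inl rfl⟩
  have h2 : y⁻¹ * x * y = x := by
    rw [mul_assoc, ← cen_NKZ hl hy x h1, inv_mul_cancel_left]
  rw [h2]
  exact hx

/-- **Groups without field automorphisms, with special elements.** -/
theorem special0 [Finite G] {𝕜 : Type v} [Field 𝕜] (h : HTS L N a ω Q e κ ht P)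
    (d : EData L ω Q (tr2 ht) P E {0} U c f η) (hEX : E ≤ X) (ha : 2 ≤ a)
    (hG : ∃ x ∈ E, x ≠ 1 ∧ ∀ j α, c (e j α) x = 0)
    (hcnt : ∀ y ∈ N, cj y E ≤ X → ∀ b, b ≠ 0 →
      3 * Nat.card {v : G // v ∈ (ht b).range ∧ v ^ 4 = 1} ≤
        Nat.card {v : G // v ∈ (ht b).range ∧ y * v ^ 2 * y⁻¹ ∈ X})
    (hZT : ∀ b, b ≠ 0 → ∀ v ∈ Z b, ∃ μ, v = ht b μ)
    (hact : ∀ x ∈ E, ∀ b, b ≠ 0 → ∀ μ, x * ht b μ * x⁻¹ = (ht b μ) ^ sgn (c b x))
    (hZX : ∀ k, ∀ b ∈ VB Finset.univ (gS e k), Z b ≤ X)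
    (hZc : ∀ y ∈ N, y ∈ X → ∀ b b', b ≠ 0 → b' ≠ 0 → y * P b * y⁻¹ = P b' →
      ∀ v ∈ Z b, y * v * y⁻¹ ∈ Z b')
    (hZr : ∀ k, ∀ b ∈ VB Finset.univ (gS e k),
      3 * Nat.card {v : G // v ∈ Z b ∧ v ^ 4 = 1} ≤ 2 * Nat.card (Z b))
    (hZb : ∀ k, ∀ b ∈ VB Finset.univ (gS e k), ∃ v ∈ Z b, v ^ 4 ≠ 1) :
    ∃ y ∈ N, cj y E ≤ X ∧ ∃ (α : Ch 𝕜 (Subgroup G)) (φ : List (Subgroup G)),
      TopCycle 𝕜 2 X (cj y E) α φ := by
  have hp := h.toPTS
  have hf0 : ∀ x ∈ E, f x = 0 := fun x hx => Finset.mem_singleton.1 (d.val x hx)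
  obtain ⟨g, hgω, hg0, hperp, hCL, bas⟩ := head2_data hp d ha (by
    obtain ⟨x, hx, hx1, hxc⟩ := hG
    exact ⟨x, hx, hx1, hf0 x hx, hxc⟩)
  have hVB0 : ∀ b ∈ VB Finset.univ g, b ≠ 0 := by
    rintro b (⟨i, -, rfl⟩ | ⟨i, -, j, -, hij, rfl⟩)
    · exact hg0 i
    · exact (ne_of_ω hp (hgω i j hij)).2.2
  have hVBp : ∀ b ∈ VB Finset.univ g, ∀ j : Fin a, 2 ≤ (j : ℕ) → ∀ α, ω b (e j α) = 0 := by
    rintro b (⟨i, -, rfl⟩ | ⟨i, -, i', -, -, rfl⟩) j hj α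
    · exact hperp i j hj α
    · rw [h.ωadd, hperp i j hj α, hperp i' j hj α, add_zero]
  have hcomm : ∀ b ∈ VB Finset.univ g, ∀ μ, ht b μ ∈ centralizer (SSZ Z P e 2) := by
    intro b hb μ
    rw [mem_centralizer_iff]
    rintro y ⟨j, hj, b', hb', hy⟩
    refine gen_commZ h (VB_ne hp hb') (hVB0 b hb) ?_
      (hy.imp id fun h1 => hZT b' (VB_ne hp hb') _ h1) (Or.inr ⟨μ, rfl⟩)
    rw [mem_VB_gS] at hb'
    rw [h.ωsymm]
    rcases hb' with rfl | rfl | rfl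
    · exact hVBp b hb j hj _
    · exact hVBp b hb j hj _
    · rw [hp.ωadd', hVBp b hb j hj, hVBp b hb j hj, add_zero]
  have hB : V.Blk N (FK hp d 2) Finset.univ {0} (fun b _ => (ht b).range) P c f 0 g := by
    refine mkBlkV h d le_rfl (FK_le hp d 2) hgω hg0 bas (Finset.mem_singleton_self _)
      (fun x hx => by rw [hf0 x (FK_le hp d 2 hx), mul_zero, mul_zero])
      (fun b hb => ⟨(P_mem_FK hp d).2 (hVBp b hb), h.LN (h.PL b)⟩)
      (fun w hw hPw => hCL w hw ((P_mem_FK hp d).1 hPw)) (fun b hb t ht' v hv => ?_)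
      (fun b hb t ht' => ?_) (fun b hb t ht' => ?_) fun y hy b hb b' hb' he t ht' v hv => ?_
    · obtain ⟨μ, rfl⟩ := hv
      refine ⟨0, fun x hx => ?_⟩
      rw [zero_mul, V.pw_zero, one_mul, hf0 x (FK_le hp d 2 hx), mul_zero, add_zero]
      exact hact x (FK_le hp d 2 hx) b (hVB0 b hb) μ
    · obtain ⟨μ, -, hμ⟩ := d.big η d.ηT
      refine ⟨ht b μ, ⟨μ, rfl⟩, fun h0 => hμ ?_⟩
      rw [← map_pow] at h0
      exact (h.ht1 b (hVB0 b hb) _).1 h0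
    · rintro _ ⟨μ, rfl⟩
      exact h.htN b μ
    · obtain ⟨μ, rfl⟩ := hv
      obtain ⟨k, hk⟩ := h.conj y hy b b' (hVB0 b hb) (hVB0 b' hb') he
      rw [hk]
      exact zpow_mem (⟨μ, rfl⟩ : ht b' μ ∈ (ht b').range) _
  have hcard := bas.card
  rw [Finset.card_univ, Fintype.card_fin, Finset.card_singleton, one_mul] at hcard
  have hprs : (prs (Finset.univ : Finset (Fin 5))).card = 10 := by decide
  obtain ⟨y, hy, hyM, hT⟩ := hB.frames (𝕜 := 𝕜) (n := 3) (by rw [hcard])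
    (Y := N ⊓ centralizer (SSZ Z P e 2)) (M := MKZ X Z P e 2) inf_le_left
    (fun b hb => by
      rintro _ ⟨μ, rfl⟩
      exact ⟨h.htN b μ, hcomm b hb μ⟩)
    (FK_le_MKZ h d hEX hZT hact 2) (1 / 3) (by norm_num) (fun y hy hyM b hb => by
      have hyX : cj y E ≤ X := by
        have key : ∀ i, 2 + i ≤ a → cj y (FK hp d (2 + i)) ≤ X := by
          intro i
          induction i with
          | zero => exact fun _ => hyM.trans inf_le_left
          | succ i ih =>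
            intro hi
            obtain ⟨k, hk⟩ : ∃ k : Fin a, (k : ℕ) = 2 + i := ⟨⟨2 + i, by omega⟩, rfl⟩
            have h1 : 2 + (i + 1) = (k : ℕ) + 1 := by omega
            rw [h1, ← FK_sup, (cj y).map_sup, cj_SV hp (by omega) hy.2, hk]
            exact sup_le (ih (by omega)) ((SV_le hp d k).trans hEX)
        have h1 := key (a - 2) (by omega)
        have h2 : 2 + (a - 2) = a := by omega
        rw [h2, FK_top] at h1
        exact h1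
      have h1 := hcnt y hy.1 hyX b (hVB0 b hb)
      have h2 : Nat.card {v : G // v ∈ (ht b).range ∧ y * v ^ 2 * y⁻¹ ∈ X} ≤
          Nat.card {v : G // v ∈ (ht b).range ∧ y * v ^ 2 * y⁻¹ ∈ MKZ X Z P e 2} := by
        refine Nat.card_le_card_of_injective (fun v => (⟨v.1, v.2.1, mem_inf.2 ⟨v.2.2, ?_⟩⟩ :
          {v : G // v ∈ (ht b).range ∧ y * v ^ 2 * y⁻¹ ∈ MKZ X Z P e 2})) fun v w hvw => ?_
        · obtain ⟨μ, hμ⟩ := v.2.1
          rw [← hμ]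
          exact mul_mem (mul_mem hy.2 (pow_mem (hcomm b hb μ) 2)) (inv_mem hy.2)
        · have h5 := congrArg Subtype.val hvw
          exact Subtype.ext h5
      have h3 : (3 : ℚ) * Nat.card {v : G // v ∈ (ht b).range ∧ v ^ 4 = 1} ≤
          Nat.card {v : G // v ∈ (ht b).range ∧ y * v ^ 2 * y⁻¹ ∈ MKZ X Z P e 2} := by
        exact_mod_cast h1.trans h2
      linarith)
    (by
      rw [Finset.card_univ, Fintype.card_fin, hprs]
      norm_num [Nat.factorial])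
  obtain ⟨α, φ, hT'⟩ := assembleZ (𝕜 := 𝕜) h d hEX hZT hact hZX hZc hZr hZb ha hy.2 hT
  have hyX : cj y E ≤ X := by
    have key : ∀ i, 2 + i ≤ a → cj y (FK hp d (2 + i)) ≤ X := by
      intro i
      induction i with
      | zero => exact fun _ => hyM.trans inf_le_left
      | succ i ih =>
        intro hi
        obtain ⟨k, hk⟩ : ∃ k : Fin a, (k : ℕ) = 2 + i := ⟨⟨2 + i, by omega⟩, rfl⟩
        have h1 : 2 + (i + 1) = (k : ℕ) + 1 := by omega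
        rw [h1, ← FK_sup, (cj y).map_sup, cj_SV hp (by omega) hy.2, hk]
        exact sup_le (ih (by omega)) ((SV_le hp d k).trans hEX)
    have h1 := key (a - 2) (by omega)
    have h2 : 2 + (a - 2) = a := by omega
    rw [h2, FK_top] at h1
    exact h1
  exact ⟨y, hy.1, hyX, α, φ, hT'⟩

/-- **Groups without field automorphisms, without special elements.** -/
theorem slots0 [Finite G] {𝕜 : Type v} [Field 𝕜] (h : HTS L N a ω Q e κ ht P)
    (d : EData L ω Q (tr2 ht) P E {0} U c f η) (hEX : E ≤ X)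
    (hG : ∀ x ∈ E, (∀ j α, c (e j α) x = 0) → x = 1)
    (hZT : ∀ b, b ≠ 0 → ∀ v ∈ Z b, ∃ μ, v = ht b μ)
    (hact : ∀ x ∈ E, ∀ b, b ≠ 0 → ∀ μ, x * ht b μ * x⁻¹ = (ht b μ) ^ sgn (c b x))
    (hZX : ∀ k, ∀ b ∈ VB Finset.univ (gS e k), Z b ≤ X)
    (hZc : ∀ y ∈ N, y ∈ X → ∀ b b', b ≠ 0 → b' ≠ 0 → y * P b * y⁻¹ = P b' →
      ∀ v ∈ Z b, y * v * y⁻¹ ∈ Z b')
    (hZr : ∀ k, ∀ b ∈ VB Finset.univ (gS e k),
      3 * Nat.card {v : G // v ∈ Z b ∧ v ^ 4 = 1} ≤ 2 * Nat.card (Z b))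
    (hZb : ∀ k, ∀ b ∈ VB Finset.univ (gS e k), ∃ v ∈ Z b, v ^ 4 ≠ 1) :
    ∃ (α : Ch 𝕜 (Subgroup G)) (φ : List (Subgroup G)), TopCycle 𝕜 2 X E α φ := by
  have hp := h.toPTS
  have hf0 : ∀ x ∈ E, f x = 0 := fun x hx => Finset.mem_singleton.1 (d.val x hx)
  have h0 : FK hp d 0 = ⊥ := by
    rw [eq_bot_iff]
    intro x hx
    refine mem_bot.2 (hG x (FK_le hp d 0 hx) fun j α => ?_)
    have h1 := hx.2 j (Nat.zero_le _) α
    rwa [chi, hf0 x (FK_le hp d 0 hx), mul_zero, add_zero] at h1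
  obtain ⟨α, φ, hT⟩ := assembleZ (𝕜 := 𝕜) h d hEX hZT hact hZX hZc hZr hZb (k₀ := 0)
    (Nat.zero_le a) (y := 1) (one_mem _) (by
      rw [h0, cj_one]
      exact ⟨single [] 1, [], single_mem_Sp ⟨⟨List.Pairwise.nil, by simp⟩, rfl⟩ _, by simp,
        by simp, Or.inl ⟨rfl, rfl⟩, by simp⟩)
  rw [cj_one] at hT
  exact ⟨α, φ, hT⟩

/-- the ratio of a half torus -/
noncomputable def rat4 (U : ZMod 2 → Subgroup Fˣ) (t : ZMod 2) : ℚ :=
  (Nat.card {μ : Fˣ // μ ∈ U t ∧ μ ^ 4 = 1} : ℚ) / Nat.card (U t)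

/-- **The head block with field automorphisms and special elements.** -/
theorem headU [Finite G] [Finite F] {𝕜 : Type v} [Field 𝕜] (h : HTS L N a ω Q e κ ht P)
    {τ₀ : RingAut F}
    (d : EData L ω Q (tr2 ht) P E Finset.univ (Ut τ₀) c f η) (hEX : E ≤ X) (ha : 2 ≤ a)
    (hG : ∃ x ∈ E, x ≠ 1 ∧ f x = 0 ∧ ∀ j α, c (e j α) x = 0)
    (hact : ∀ x ∈ E, ∀ b, b ≠ 0 → ∀ μ, x * ht b μ * x⁻¹ =
      (ht b (um (tp τ₀ (f x)) μ)) ^ sgn (c b x))
    (hX : ∀ b, b ≠ 0 → ∀ t, ∀ μ ∈ Ut τ₀ t, cj (ht b μ) X = X)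
    (hnum : rat4 (Ut τ₀) 0 + rat4 (Ut τ₀) 1 ≤ 31 / 48) :
    ∃ (α : Ch 𝕜 (Subgroup G)) (φ : List (Subgroup G)),
      TopCycle 𝕜 2 (MK X (Ut τ₀) (tr2 ht) P η e 2) (FK h.toPTS d 2) α φ := by
  have hp := h.toPTS
  obtain ⟨g, hgω, hg0, hperp, hCL, bas⟩ := head2_data hp d ha hG
  have hVB0 : ∀ b ∈ VB Finset.univ g, b ≠ 0 := by
    rintro b (⟨i, -, rfl⟩ | ⟨i, -, j, -, hij, rfl⟩)
    · exact hg0 i
    · exact (ne_of_ω hp (hgω i j hij)).2.2
  have hVBp : ∀ b ∈ VB Finset.univ g, ∀ j : Fin a, 2 ≤ (j : ℕ) → ∀ α, ω b (e j α) = 0 := by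
    rintro b (⟨i, -, rfl⟩ | ⟨i, -, i', -, -, rfl⟩) j hj α
    · exact hperp i j hj α
    · rw [h.ωadd, hperp i j hj α, hperp i' j hj α, add_zero]
  have hcomm : ∀ b ∈ VB Finset.univ g, ∀ μ,
      ht b μ ∈ centralizer (SS (Ut τ₀) (tr2 ht) P η e 2) := by
    intro b hb μ
    rw [mem_centralizer_iff]
    rintro y ⟨j, hj, b', hb', hy⟩
    refine gen_commZ h (VB_ne hp hb') (hVB0 b hb) ?_
      (hy.imp id fun ⟨μ, _, h⟩ => ⟨μ ^ 2, h⟩) (Or.inr ⟨μ, rfl⟩)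
    rw [mem_VB_gS] at hb'
    rw [h.ωsymm]
    rcases hb' with rfl | rfl | rfl
    · exact hVBp b hb j hj _
    · exact hVBp b hb j hj _
    · rw [hp.ωadd', hVBp b hb j hj, hVBp b hb j hj, add_zero]
  -- the twist
  have htw : ∀ t : ZMod 2, ∀ μ ∈ Ut τ₀ t, ∃ δ : ZMod 2, um τ₀ μ = (-1) ^ δ.val * μ ^ sgn t := by
    intro t μ hμ
    rw [mem_Ut] at hμ
    obtain ⟨z, hz⟩ : ∃ z, z = um τ₀ μ * (μ ^ sgn t)⁻¹ := ⟨_, rfl⟩
    have h1 : z ^ 2 = 1 := by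
      rw [hz, mul_pow, inv_pow, hμ, ← zpow_natCast (μ ^ sgn t), ← zpow_mul,
        mul_comm (sgn t), zpow_mul, zpow_natCast, mul_inv_cancel]
    have h2 : z = 1 ∨ z = -1 := by
      have h3 : (z : F) * z = 1 := by
        rw [← Units.val_mul, ← pow_two, h1, Units.val_one]
      rcases mul_self_eq_one_iff.1 h3 with h4 | h4
      · exact Or.inl (Units.ext h4)
      · exact Or.inr (Units.ext (by rw [h4, Units.val_neg, Units.val_one]))
    have h4 : um τ₀ μ = z * μ ^ sgn t := by rw [hz, inv_mul_cancel_right]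
    rcases h2 with h2 | h2
    · refine ⟨0, ?_⟩
      rw [h4, h2, ZMod.val_zero, pow_zero]
    · refine ⟨1, ?_⟩
      have h5 : (1 : ZMod 2).val = 1 := rfl
      rw [h4, h2, h5, pow_one]
  have hB : V.Blk N (FK hp d 2) Finset.univ Finset.univ
      (fun b t => (Ut τ₀ t).map (ht b)) P c f η g := by
    refine mkBlkV h d le_rfl (FK_le hp d 2) hgω hg0 bas d.ηT
      (fun _ _ => rfl)
      (fun b hb => ⟨(P_mem_FK hp d).2 (hVBp b hb), h.LN (h.PL b)⟩)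
      (fun w hw hPw => hCL w hw ((P_mem_FK hp d).1 hPw)) (fun b hb t ht' v hv => ?_)
      (fun b hb t ht' => ?_) (fun b hb t ht' => ?_) fun y hy b hb b' hb' he t ht' v hv => ?_
    · obtain ⟨μ, hμ, rfl⟩ := hv
      obtain ⟨δ, hδ⟩ := htw t μ hμ
      refine ⟨δ, fun x hx => ?_⟩
      rw [hact x (FK_le hp d 2 hx) b (hVB0 b hb) μ]
      rcases zmod2_cases (f x) with h1 | h1
      · rw [h1, mul_zero, mul_zero, V.pw_zero, one_mul, tp_zero, um_one, add_zero]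
      · rw [h1, mul_one, mul_one, tp_one, hδ, map_mul, map_zpow, map_pow, h.htP b (hVB0 b hb),
          sgn_add]
        have h2 : P b ^ δ.val = V.pw (P b) δ := by
          rcases zmod2_cases δ with rfl | rfl
          · rw [ZMod.val_zero, pow_zero, V.pw_zero]
          · have h5 : (1 : ZMod 2).val = 1 := rfl
            rw [h5, pow_one, V.pw_one]
        rw [h2]
        have h3 : V.pw (P b) δ * ht b μ = ht b μ * V.pw (P b) δ := by
          rcases zmod2_cases δ with rfl | rfl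
          · rw [V.pw_zero, one_mul, mul_one]
          · rw [V.pw_one]
            exact gen_commZ h (hVB0 b hb) (hVB0 b hb) (h.ωself b) (Or.inl rfl) (Or.inr ⟨μ, rfl⟩)
        have h4 : V.pw (P b) δ * V.pw (P b) δ = 1 := by
          rcases zmod2_cases δ with rfl | rfl
          · rw [V.pw_zero, one_mul]
          · rw [V.pw_one]
            exact hp.Psq b
        have h5 : (V.pw (P b) δ) ^ sgn (c b x) = V.pw (P b) δ := by
          rcases zmod2_cases (c b x) with h6 | h6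
          · rw [h6, sgn_zero, zpow_one]
          · rw [h6, sgn_one, zpow_neg_one]
            exact inv_eq_of_mul_eq_one_left h4
        have h6 : Commute (V.pw (P b) δ) (ht b μ ^ sgn t) := (Commute.zpow_right h3 _)
        rw [h6.mul_zpow, h5, ← zpow_mul, mul_comm (sgn t)]
    · obtain ⟨μ, hμ, hμ4⟩ := d.big t ht'
      refine ⟨ht b μ, ⟨μ, hμ, rfl⟩, fun h0 => hμ4 ?_⟩
      rw [← map_pow] at h0
      exact (h.ht1 b (hVB0 b hb) _).1 h0
    · rintro _ ⟨μ, -, rfl⟩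
      exact h.htN b μ
    · obtain ⟨μ, hμ, rfl⟩ := hv
      obtain ⟨k, hk⟩ := h.conj y hy b b' (hVB0 b hb) (hVB0 b' hb') he
      rw [hk]
      exact zpow_mem (⟨μ, hμ, rfl⟩ : ht b' μ ∈ (Ut τ₀ t).map (ht b')) _
  have hcard := bas.card
  simp only [Finset.card_univ, Fintype.card_fin, ZMod.card] at hcard
  have hprs : (prs (Finset.univ : Finset (Fin 5))).card = 10 := by decide
  refine hB.top (𝕜 := 𝕜) (n := 4) (by rw [hcard]; rfl) (rat4 (Ut τ₀)) (fun b hb t ht' => ?_) ?_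
    ?_ ?_
  · rw [V.Blk.rt, rat4]
    refine le_of_eq ?_
    congr 1
    · norm_cast
      refine Nat.card_congr ?_
      refine (Equiv.ofBijective (fun μ : {μ : Fˣ // μ ∈ Ut τ₀ t ∧ μ ^ 4 = 1} =>
        (⟨ht b μ.1, ⟨μ.1, μ.2.1, rfl⟩, by rw [← map_pow, μ.2.2, map_one]⟩ :
          {v : G // v ∈ (Ut τ₀ t).map (ht b) ∧ v ^ 4 = 1})) ⟨?_, ?_⟩).symm
      · intro μ ν hμν
        have h1 : ht b μ.1 = ht b ν.1 := congrArg Subtype.val hμν
        have h2 : ht b (μ.1 * ν.1⁻¹) = 1 := by rw [map_mul, map_inv, h1, mul_inv_cancel]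
        exact Subtype.ext (mul_inv_eq_one.1 ((h.ht1 b (hVB0 b hb) _).1 h2))
      · rintro ⟨_, ⟨μ, hμ, rfl⟩, h4⟩
        rw [← map_pow] at h4
        exact ⟨⟨μ, hμ, (h.ht1 b (hVB0 b hb) _).1 h4⟩, rfl⟩
    · norm_cast
      refine Nat.card_congr ?_
      refine (Equiv.ofBijective (fun μ : Ut τ₀ t =>
        (⟨ht b μ.1, ⟨μ.1, μ.2, rfl⟩⟩ : (Ut τ₀ t).map (ht b))) ⟨?_, ?_⟩).symm
      · intro μ ν hμν
        have h1 : ht b μ.1 = ht b ν.1 := congrArg Subtype.val hμν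
        have h2 : ht b (μ.1 * ν.1⁻¹) = 1 := by rw [map_mul, map_inv, h1, mul_inv_cancel]
        exact Subtype.ext (mul_inv_eq_one.1 ((h.ht1 b (hVB0 b hb) _).1 h2))
      · rintro ⟨_, ⟨μ, hμ, rfl⟩⟩
        exact ⟨⟨μ, hμ⟩, rfl⟩
  · have e1 : ∑ t ∈ (Finset.univ : Finset (ZMod 2)), rat4 (Ut τ₀) t =
        rat4 (Ut τ₀) 0 + rat4 (Ut τ₀) 1 := Fin.sum_univ_two (fun t : Fin 2 => rat4 (Ut τ₀) t)
    rw [e1, hprs]
    simp only [Finset.card_univ, Fintype.card_fin, ZMod.card]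
    norm_num [Nat.factorial]
    linarith
  · exact FK_le_MK hp d hEX 2
  · rintro b hb t ht' _ ⟨μ, hμ, rfl⟩
    have h1 := hX b (hVB0 b hb) t μ hμ
    have h2 : cj (ht b μ) (centralizer (SS (Ut τ₀) (tr2 ht) P η e 2)) =
        centralizer (SS (Ut τ₀) (tr2 ht) P η e 2) := cj_eq_self (hcomm b hb μ)
    rw [MK, (cj (ht b μ)).map_inf, h1, h2]

end

end Vale.Agent.P240.R2.H487
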