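import Vale.Agent.P240.R2.H487.DL

/-!
Complements.
-/

set_option linter.all false

namespace Vale.Agent.P240.R2.H487

open Finsupp hiding cons
open Subgroup Vale.Agent.P240.K Vale.Agent.P240.H195

universe u v

section
variable {G : Type u} [Group G] {F : Type*} [Field F] {W : Type*} [AddCommGroup W]
variable {L N : Subgroup G} {a : ℕ} {ω : W → W → ZMod 2} {Q : W → ZMod 2} {e : Fin a → Bool → W}
  {κ : RingAut F → ZMod 2} {tor : W → Fˣ →* G} {P : W → G}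
variable {E E₁ : Subgroup G} {T : Finset (ZMod 2)} {U : ZMod 2 → Subgroup Fˣ}
  {c : W → G → ZMod 2} {f : G → ZMod 2} {η : ZMod 2}

/-- **The relative theorem** without special elements. -/
theorem rel_ns [Finite G] [Finite F] {𝕜 : Type v} [Field 𝕜] (h : PTS L a ω Q e κ tor P)
    (d : RData L ω Q tor P E E₁ T U c f η) (ha : 2 ≤ a)
    (hG : ¬ ∃ x ∈ E₁, x ≠ 1 ∧ f x = 0 ∧ ∀ j α, c (e j α) x = 0)
    (hη : rat U η < 2 / 3) (h0 : T = {0} → rat U 0 < 2 / 3)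
    (h1 : T = Finset.univ → rat U 0 + rat U 1 < 1) :
    ∃ B ≤ E, E₁ ⊔ B = E ∧ E₁ ⊓ B = ⊥ ∧ E ⊓ centralizer (L : Set G) ≤ B ∧
      ∃ (α : Ch 𝕜 (Subgroup G)) (φ : List (Subgroup G)),
        TopCycle 𝕜 2 ((L ⊔ E₁) ⊓ centralizer (B : Set G)) E₁ α φ := by
  have hcP : ∀ w b, b ≠ 0 → c b (P w) = ω w b := d.d.cP
  have hPE : ∀ w, P w ∈ E₁ := d.d.PE
  have hker : ∀ x ∈ E₁, f x = 0 → (∀ b ∈ {b : W | ∃ j α, b = e j α}, c b x = 0) → x = 1 := by
    intro x hx hfx hcx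
    by_contra hne
    exact hG ⟨x, hx, hne, hfx, fun j α => hcx _ ⟨j, α, rfl⟩⟩
  have hsur : ∀ x ∈ E, ∃ y ∈ E₁, f y = f x ∧
      ∀ b ∈ {b : W | ∃ j α, b = e j α}, c b y = c b x := by
    intro x hx
    obtain ⟨y₁, hy₁, hfy₁⟩ := d.sur x hx
    obtain ⟨w, hw⟩ := h.exists_w fun j α => c (e j α) x + c (e j α) y₁
    refine ⟨y₁ * P w, mul_mem hy₁ (hPE _), ?_, ?_⟩
    · rw [d.d.addf _ hy₁ _ (hPE _), d.d.fP, add_zero, hfy₁]
    · rintro b ⟨j, α, rfl⟩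
      rw [d.d.addc _ (h.e_ne j α) _ hy₁ _ (hPE _), hcP _ _ (h.e_ne j α), hw]
      have e2 : (2 : ZMod 2) = 0 := by decide
      linear_combination (c (e j α) y₁) * e2
  obtain ⟨B, hBE, hB1, hB2, hB3, hB4⟩ := rel_core h d (by omega)
    (V := {b | ∃ j α, b = e j α}) (fun b ⟨j, α, hb⟩ => by rw [hb]; exact h.e_ne j α) hker hsur
  refine ⟨B, hBE, hB1, hB2, hB3, ?_⟩
  have hsl : ∀ k, ∀ b ∈ VB Finset.univ (gS e k), ∀ t ∈ T, ∀ μ ∈ U t,
      tor b μ ∈ (L ⊔ E₁) ⊓ centralizer (B : Set G) := by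
    intro k b hk t ht μ hμ
    refine mem_inf.2 ⟨mem_sup_left (h.torL b μ), ?_⟩
    rw [mem_centralizer_iff]
    intro y hy
    have h2 := d.act y (hBE hy) b (VB_ne h hk) t ht μ hμ
    have h3 : c b y = 0 := by
      obtain ⟨h5, h6⟩ := hB4 y hy
      rcases mem_VB_gS.1 hk with rfl | rfl | rfl
      · exact h6 _ ⟨_, _, rfl⟩
      · exact h6 _ ⟨_, _, rfl⟩
      · obtain ⟨e1, e2, e3⟩ := ne_of_ω h (h.ωe k)
        rw [c_add' h d e1 e2 e3 (h.ωe k) (hBE hy), h5, h6 _ ⟨_, _, rfl⟩, h6 _ ⟨_, _, rfl⟩]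
        ring
    rw [h3, (hB4 y hy).1, mul_zero, add_zero, sgn_zero, zpow_one] at h2
    exact mul_inv_eq_iff_eq_mul.1 h2
  have hEX : E₁ ≤ (L ⊔ E₁) ⊓ centralizer (B : Set G) := le_inf le_sup_right fun x hx => by
    rw [mem_centralizer_iff]
    exact fun y hy => d.comm y (hBE hy) x (d.le hx)
  refine assemble h d.d hEX (fun k b hb => hsl k b hb η d.d.ηT) hη (k₀ := 1) (by omega)
    (head1 h d.d hEX (by omega) hsl ?_ h0 h1)
  intro x hx hf hc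
  by_contra hne
  exact hG ⟨x, hx, hne, hf, hc⟩

/-- Complements, with special elements. -/
theorem rel_sp (h : PTS L a ω Q e κ tor P)
    (d : RData L ω Q tor P E E₁ T U c f η) (ha : 2 ≤ a)
    (hG : ∃ x ∈ E₁, x ≠ 1 ∧ f x = 0 ∧ ∀ j α, c (e j α) x = 0) :
    ∃ B ≤ E, E₁ ⊔ B = E ∧ E₁ ⊓ B = ⊥ ∧ E ⊓ centralizer (L : Set G) ≤ B ∧
      ∀ x ∈ B, f x = 0 ∧ ∀ b, b ≠ 0 → c b x = 0 := by
  have hcP : ∀ w b, b ≠ 0 → c b (P w) = ω w b := d.d.cP
  have hPE : ∀ w, P w ∈ E₁ := d.d.PE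
  obtain ⟨y, hy⟩ : ∃ y : Fin a, (y : ℕ) = 0 := ⟨⟨0, by omega⟩, rfl⟩
  obtain ⟨z, hz⟩ : ∃ z : Fin a, (z : ℕ) = 1 := ⟨⟨1, by omega⟩, rfl⟩
  have hyz : y ≠ z := by
    intro h2
    have := congrArg Fin.val h2
    omega
  have hker : ∀ x ∈ E₁, f x = 0 → (∀ b ∈ {b : W | b ≠ 0}, c b x = 0) → x = 1 := by
    intro x hx hfx hcx
    obtain ⟨w₀, ε, h4, h5⟩ := d.d.rep x hx
    have h6 : ∀ b, b ≠ 0 → ω w₀ b + ε * (Q b + 1) = 0 := by
      intro b hb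
      have h7 := h4 b hb
      rw [hcx b hb, hfx, mul_zero, zero_mul, add_zero] at h7
      exact h7.symm
    have hne : e y false + e z false ≠ 0 := by
      intro h7
      have h8 := congrArg (fun v => ω v (e y true)) h7
      simp only [h.ωadd, h.ωe, h.ωe' z y _ _ (Ne.symm hyz), h.ωzero] at h8
      exact one_ne_zero h8
    have q1 := h6 _ (h.e_ne y false)
    have q2 := h6 _ (h.e_ne z false)
    have q3 := h6 _ hne
    rw [h.ωadd', h.Qadd, h.ωe' y z _ _ hyz, add_zero] at q3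
    have hε : ε = 0 := by
      have e5 : ∀ p q r s t : ZMod 2, p + t * (r + 1) = 0 → q + t * (s + 1) = 0 →
          p + q + t * (r + s + 1) = 0 → t = 0 := by decide
      exact e5 _ _ _ _ _ q1 q2 q3
    have hw : w₀ = 0 := h.sep w₀ fun j α => by
      have h7 := h6 _ (h.e_ne j α)
      rwa [hε, zero_mul, add_zero] at h7
    exact h5 hw hε hfx
  have hsur : ∀ x ∈ E, ∃ y ∈ E₁, f y = f x ∧ ∀ b ∈ {b : W | b ≠ 0}, c b y = c b x := by
    intro x hx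
    obtain ⟨g, hg, hg1, hgf, hgc⟩ := hG
    obtain ⟨w₁, ε₁, h4, h5⟩ := d.d.rep g hg
    have hε1 : ε₁ = 1 := by
      rcases zmod2_cases ε₁ with h6 | h6
      · exfalso
        refine hg1 (h5 (h.sep w₁ fun j α => ?_) h6 hgf)
        have h7 := h4 _ (h.e_ne j α)
        rw [hgc, hgf, h6, mul_zero, zero_mul, zero_mul, add_zero, add_zero] at h7
        exact h7.symm
      · exact h6
    obtain ⟨y₁, hy₁, hfy₁⟩ := d.sur x hx
    obtain ⟨w₂, ε₂, h6, -⟩ := d.d.rep y₁ hy₁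
    obtain ⟨w₀, ε, h7⟩ := d.rep x hx
    rcases zmod2_cases (ε + ε₂) with h8 | h8
    · refine ⟨y₁ * P (w₀ + w₂), mul_mem hy₁ (hPE _), ?_, fun b hb => ?_⟩
      · rw [d.d.addf _ hy₁ _ (hPE _), d.d.fP, add_zero, hfy₁]
      · rw [d.d.addc b hb _ hy₁ _ (hPE _), hcP _ b hb, h6 b hb, h7 b hb, h.ωadd, hfy₁]
        have h9 : ε = ε₂ := by
          have e1 : ε = ε + ε₂ + ε₂ := by rw [add_assoc, zmod2_self, add_zero]
          rw [e1, h8, zero_add]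
        rw [h9]
        have e2 : (2 : ZMod 2) = 0 := by decide
        linear_combination (ω w₂ b) * e2
    · refine ⟨y₁ * (g * P (w₀ + w₁ + w₂)), mul_mem hy₁ (mul_mem hg (hPE _)), ?_,
        fun b hb => ?_⟩
      · rw [d.d.addf _ hy₁ _ (mul_mem hg (hPE _)), d.d.addf _ hg _ (hPE _), d.d.fP, add_zero,
          hfy₁, hgf, add_zero]
      · rw [d.d.addc b hb _ hy₁ _ (mul_mem hg (hPE _)), d.d.addc b hb _ hg _ (hPE _),
          hcP _ b hb, h6 b hb, h7 b hb, h4 b hb, h.ωadd, h.ωadd, hfy₁, hgf, hε1]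
        have h9 : ε₂ = ε + 1 := by
          have e1 : ε₂ = ε + (ε + ε₂) := by rw [← add_assoc, zmod2_self, zero_add]
          rw [e1, h8]
        rw [h9]
        have e2 : (2 : ZMod 2) = 0 := by decide
        linear_combination (ω w₂ b + ω w₁ b + Q b + 1) * e2
  obtain ⟨B, hBE, hB1, hB2, hB3, hB4⟩ := rel_core h d (by omega) (V := {b | b ≠ 0})
    (fun b hb => hb) hker hsur
  exact ⟨B, hBE, hB1, hB2, hB3, fun x hx => ⟨(hB4 x hx).1, fun b hb => (hB4 x hx).2 b hb⟩⟩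

end

end Vale.Agent.P240.R2.H487
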