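import Vale.Agent.P240.R2.H487.DM

/-!
The relative theorem for systems of half tori.
-/

set_option linter.all false

namespace Vale.Agent.P240.R2.H487

open Finsupp hiding cons
open Subgroup Vale.Agent.P240.K Vale.Agent.P240.H195

universe u v

section
variable {G : Type u} [Group G] {F : Type*} [Field F]

lemma card_map2 {θ : Fˣ →* G} {V : Subgroup Fˣ} (hk : ∀ μ, θ μ = 1 ↔ μ ^ 2 = 1)
    (hV : ∀ μ : Fˣ, μ ^ 2 = 1 → μ ∈ V) :
    Nat.card V = Nat.card {μ : Fˣ // μ ^ 2 = 1} * Nat.card (V.map θ) := by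
  have h1 := Subgroup.card_mul_index (θ.comp V.subtype).ker
  rw [Subgroup.index_ker, MonoidHom.range_comp, Subgroup.range_subtype] at h1
  rw [← h1]
  congr 1
  refine Nat.card_congr (Equiv.ofBijective (fun x : (θ.comp V.subtype).ker =>
    (⟨(x.1 : Fˣ), (hk _).1 x.2⟩ : {μ : Fˣ // μ ^ 2 = 1})) ⟨?_, ?_⟩)
  · intro x y hxy
    have h2 := congrArg (fun z : {μ : Fˣ // μ ^ 2 = 1} => z.1) hxy
    exact Subtype.ext (Subtype.ext h2)
  · rintro ⟨μ, hμ⟩
    exact ⟨⟨⟨μ, hV μ hμ⟩, (hk μ).2 hμ⟩, rfl⟩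

lemma ratZ [Finite F] {θ : Fˣ →* G} {V : Subgroup Fˣ} (hk : ∀ μ, θ μ = 1 ↔ μ ^ 2 = 1)
    (hV : ∀ μ : Fˣ, μ ^ 2 = 1 → μ ∈ V)
    (hr : (Nat.card {μ : Fˣ // μ ∈ V ∧ μ ^ 8 = 1} : ℚ) / Nat.card V < 2 / 3) :
    3 * Nat.card {v : G // v ∈ V.map θ ∧ v ^ 4 = 1} ≤ 2 * Nat.card (V.map θ) := by
  have hV0 : 0 < Nat.card V := Nat.card_pos
  rw [div_lt_iff₀ (by exact_mod_cast hV0)] at hr
  have h1 : 3 * Nat.card {μ : Fˣ // μ ∈ V ∧ μ ^ 8 = 1} < 2 * Nat.card V := by
    have : (3 : ℚ) * Nat.card {μ : Fˣ // μ ∈ V ∧ μ ^ 8 = 1} < 2 * Nat.card V := by linarith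
    exact_mod_cast this
  obtain ⟨V₈, hV8⟩ : ∃ V₈ : Subgroup Fˣ, V₈ = V ⊓ (powMonoidHom 8 : Fˣ →* Fˣ).ker := ⟨_, rfl⟩
  have hmem : ∀ μ, μ ∈ V₈ ↔ μ ∈ V ∧ μ ^ 8 = 1 := by
    intro μ
    rw [hV8, mem_inf, MonoidHom.mem_ker]
    rfl
  have h2 : Nat.card V₈ = Nat.card {μ : Fˣ // μ ∈ V ∧ μ ^ 8 = 1} :=
    Nat.card_congr (Equiv.subtypeEquivRight hmem)
  have h3 := card_map2 (V := V) hk hV
  have h4 := card_map2 (V := V₈) hk (fun μ hμ => (hmem μ).2 ⟨hV μ hμ, by
    have : μ ^ 8 = (μ ^ 2) ^ 4 := by rw [← pow_mul]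
    rw [this, hμ, one_pow]⟩)
  have h5 : Nat.card (V₈.map θ) = Nat.card {v : G // v ∈ V.map θ ∧ v ^ 4 = 1} := by
    refine Nat.card_congr (Equiv.subtypeEquivRight fun v => ?_)
    constructor
    · rintro ⟨μ, hμ, rfl⟩
      have h6 := (hmem μ).1 hμ
      refine ⟨⟨μ, h6.1, rfl⟩, ?_⟩
      rw [← map_pow, hk, ← pow_mul]
      exact h6.2
    · rintro ⟨⟨μ, hμ, rfl⟩, h6⟩
      refine ⟨μ, (hmem μ).2 ⟨hμ, ?_⟩, rfl⟩
      rw [← map_pow, hk, ← pow_mul] at h6
      exact h6
  rw [h5, h2] at h4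
  rw [h4, h3] at h1
  have h6 : 0 < Nat.card {μ : Fˣ // μ ^ 2 = 1} := by
    rcases Nat.eq_zero_or_pos (Nat.card {μ : Fˣ // μ ^ 2 = 1}) with h7 | h7
    · rw [h7] at h1
      simp at h1
    · exact h7
  have h7 : Nat.card {μ : Fˣ // μ ^ 2 = 1} * (3 * Nat.card {v : G // v ∈ V.map θ ∧ v ^ 4 = 1}) <
      Nat.card {μ : Fˣ // μ ^ 2 = 1} * (2 * Nat.card (V.map θ)) := by
    calc _ = 3 * (Nat.card {μ : Fˣ // μ ^ 2 = 1} * Nat.card {v : G // v ∈ V.map θ ∧ v ^ 4 = 1}) := by
          ring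
      _ < 2 * (Nat.card {μ : Fˣ // μ ^ 2 = 1} * Nat.card (V.map θ)) := h1
      _ = _ := by ring
  exact (Nat.lt_of_mul_lt_mul_left h7).le

variable {W : Type*} [AddCommGroup W]
variable {L N : Subgroup G} {a : ℕ} {ω : W → W → ZMod 2} {Q : W → ZMod 2} {e : Fin a → Bool → W}
  {κ : RingAut F → ZMod 2} {ht : W → Fˣ →* G} {P : W → G}

/-- the numerical conditions -/
structure NumA (F : Type*) [Field F] : Prop where
  h4 : ∃ μ : Fˣ, μ ^ 4 ≠ 1
  hτ : ∀ τ : RingAut F, τ ≠ 1 → τ ^ 2 = 1 → ∀ t : ZMod 2,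
      (∃ μ, μ ∉ Ut τ t) ∧ ∃ μ ∈ Ut τ t, μ ^ 4 ≠ 1
  n0 : rat (fun _ => (⊤ : Subgroup Fˣ)) 0 < 2 / 3
  n1 : ∀ τ : RingAut F, τ ≠ 1 → τ ^ 2 = 1 → ∀ t, rat (Ut τ) t < 2 / 3
  n2 : ∀ τ : RingAut F, τ ≠ 1 → τ ^ 2 = 1 → rat (Ut τ) 0 + rat (Ut τ) 1 < 1
  n3 : ∀ τ : RingAut F, τ ≠ 1 → τ ^ 2 = 1 → rat4 (Ut τ) 0 + rat4 (Ut τ) 1 ≤ 31 / 48
  n4 : ∀ τ : RingAut F, τ ≠ 1 → τ ^ 2 = 1 → ∀ t, 12 ≤ Nat.card (Ut τ t)
  n5 : 12 ≤ Nat.card Fˣ

lemma card_four [Finite F] : Nat.card {μ : Fˣ // μ ^ 4 = 1} ≤ 4 := by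
  classical
  have : Fintype Fˣ := Fintype.ofFinite _
  rw [Nat.card_eq_fintype_card, Fintype.card_subtype]
  have h1 : (Finset.univ.filter fun μ : Fˣ => μ ^ 4 = 1).image (fun μ : Fˣ => (μ : F)) ⊆
      (Polynomial.nthRoots 4 (1 : F)).toFinset := by
    intro x hx
    obtain ⟨μ, hμ, rfl⟩ := Finset.mem_image.1 hx
    rw [Multiset.mem_toFinset, Polynomial.mem_nthRoots (by norm_num)]
    rw [Finset.mem_filter] at hμ
    rw [← Units.val_pow_eq_pow_val, hμ.2, Units.val_one]
  have h2 := Finset.card_le_card h1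
  rw [Finset.card_image_of_injective _ Units.val_injective] at h2
  exact h2.trans ((Multiset.toFinset_card_le _).trans (Polynomial.card_nthRoots 4 _))

/-- elements of order dividing `4` of a half torus -/
lemma ht_four [Finite F] (h : HTS L N a ω Q e κ ht P) {b : W} (hb : b ≠ 0) :
    Nat.card {v : G // v ∈ (ht b).range ∧ v ^ 4 = 1} ≤ 4 := by
  refine le_trans ?_ (card_four (F := F))
  refine Nat.card_le_card_of_surjective (fun μ : {μ : Fˣ // μ ^ 4 = 1} =>
    (⟨ht b μ.1, ⟨μ.1, rfl⟩, by rw [← map_pow, μ.2, map_one]⟩ :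
      {v : G // v ∈ (ht b).range ∧ v ^ 4 = 1})) ?_
  rintro ⟨_, ⟨μ, rfl⟩, h4⟩
  rw [← map_pow] at h4
  exact ⟨⟨μ, (h.ht1 b hb _).1 h4⟩, rfl⟩

lemma Ut_two {τ : RingAut F} {t : ZMod 2} (μ : Fˣ) (hμ : μ ^ 2 = 1) : μ ∈ Ut τ t := by
  rw [mem_Ut, ← map_pow, hμ, map_one, one_zpow]

/-- **The relative theorem**, tori in `N`. -/
theorem coreA [Finite G] [Finite F] {𝕜 : Type v} [Field 𝕜] (h : HTS L N a ω Q e κ ht P)
    (ha : 2 ≤ a) (hLC : centralizer (L : Set G) = ⊥)
    (hNn : ∀ x ∈ normalizer (L : Set G), ∀ y ∈ N, x * y * x⁻¹ ∈ N) (num : NumA F)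
    {E : Subgroup G} (hE : E ∈ ApS 2 G) (hEN : E ≤ normalizer (L : Set G)) {E₁ : Subgroup G}
    (hE₁ : E₁ ≤ E) (hPE : ∀ w, P w ∈ E₁) :
    ∃ B ≤ E, E₁ ⊔ B = E ∧ E₁ ⊓ B = ⊥ ∧ ∃ y ∈ N,
      cj y E₁ ≤ (L ⊔ E₁) ⊓ centralizer (B : Set G) ∧
      ∃ (α : Ch 𝕜 (Subgroup G)) (φ : List (Subgroup G)),
        TopCycle 𝕜 2 ((L ⊔ E₁) ⊓ centralizer (B : Set G)) (cj y E₁) α φ := by
  have hp := h.toPTS
  have hW : ∃ b : W, b ≠ 0 := ⟨_, hp.e_ne ⟨0, by omega⟩ false⟩
  have hEC : E₁ ⊓ centralizer (L : Set G) = ⊥ := by rw [hLC, inf_bot_eq]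
  obtain ⟨U, c, f, η, τ₀, d, hact, hU⟩ :=
    h.edata0 hE hEN (fun w => hE₁ (hPE w)) num.h4 hW num.hτ
  have hEX : ∀ B ≤ E, E₁ ≤ (L ⊔ E₁) ⊓ centralizer (B : Set G) := by
    intro B hB
    refine le_inf le_sup_right fun x hx => ?_
    rw [mem_centralizer_iff]
    exact fun y hy => d.comm y (hB hy) x (hE₁ hx)
  by_cases hf : ∃ x ∈ E₁, f x = 1
  · -- `E₁` contains elements with field part
    obtain ⟨hne, h2, rfl⟩ : τ₀ ≠ 1 ∧ τ₀ ^ 2 = 1 ∧ U = Ut τ₀ := by
      rcases hU with ⟨-, hU⟩ | hU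
      · obtain ⟨x, hx, hx1⟩ := hf
        rw [hU x (hE₁ hx)] at hx1
        exact absurd hx1 zero_ne_one
      · exact hU
    have r := d.rel1 hE₁ hPE hEC hf
    by_cases hG : ∃ x ∈ E₁, x ≠ 1 ∧ f x = 0 ∧ ∀ j α, c (e j α) x = 0
    · obtain ⟨B, hBE, hB1, hB2, hB3, hB4⟩ := rel_sp hp r ha hG
      have hB0 : B = ⊥ := by
        rw [eq_bot_iff]
        intro x hx
        obtain ⟨h3, h5⟩ := hB4 x hx
        obtain ⟨w₀, ε, h6, h7⟩ := d.rep x (hBE hx)
        rw [← hLC]
        have h8 : ∀ b, b ≠ 0 → ω w₀ b + ε * (Q b + 1) = 0 := by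
          intro b hb
          have h9 := h6 b hb
          rw [h5 b hb, h3, mul_zero, zero_mul, add_zero] at h9
          exact h9.symm
        obtain ⟨y, hy⟩ : ∃ y : Fin a, (y : ℕ) = 0 := ⟨⟨0, by omega⟩, rfl⟩
        obtain ⟨z, hz⟩ : ∃ z : Fin a, (z : ℕ) = 1 := ⟨⟨1, by omega⟩, rfl⟩
        have hyz : y ≠ z := by
          intro h2
          have := congrArg Fin.val h2
          omega
        have hne' : e y false + e z false ≠ 0 := by
          intro h7
          have h8 := congrArg (fun v => ω v (e y true)) h7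
          simp only [hp.ωadd, hp.ωe, hp.ωe' z y _ _ (Ne.symm hyz), hp.ωzero] at h8
          exact one_ne_zero h8
        have q1 := h8 _ (hp.e_ne y false)
        have q2 := h8 _ (hp.e_ne z false)
        have q3 := h8 _ hne'
        rw [hp.ωadd', h.Qadd, h.ωe' y z _ _ hyz, add_zero] at q3
        have hε : ε = 0 := by
          have e5 : ∀ p q r s t : ZMod 2, p + t * (r + 1) = 0 → q + t * (s + 1) = 0 →
              p + q + t * (r + s + 1) = 0 → t = 0 := by decide
          exact e5 _ _ _ _ _ q1 q2 q3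
        have hw : w₀ = 0 := h.sep w₀ fun j α => by
          have h7 := h8 _ (hp.e_ne j α)
          rwa [hε, zero_mul, add_zero] at h7
        exact h7 hw hε h3
      refine ⟨B, hBE, hB1, hB2, 1, one_mem N, by rw [cj_one]; exact hEX B hBE, ?_⟩
      rw [cj_one]
      have hX : (L ⊔ E₁) ⊓ centralizer (B : Set G) = L ⊔ E₁ := by
        refine inf_eq_left.2 fun x _ => ?_
        rw [mem_centralizer_iff]
        intro y hy
        rw [hB0] at hy
        have : y = 1 := hy
        rw [this, one_mul, mul_one]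
      rw [hX]
      have hEX' : E₁ ≤ L ⊔ E₁ := le_sup_right
      refine assemble hp r.d hEX' (fun k b hb μ _ => mem_sup_left (hp.torL b μ))
        (num.n1 τ₀ hne h2 η) ha
        (headU h r.d hEX' ha hG (fun x hx b hb μ => hact x (hE₁ hx) b hb μ)
          (fun b hb t μ hμ => ?_) (num.n3 τ₀ hne h2))
      -- half tori normalize `L ⊔ E₁`
      refine eq_of_le_of_card_ge ?_ (by rw [card_cj])
      rw [(cj (ht b μ)).map_sup]
      have hNL := h.NL (h.htN b μ)
      refine sup_le (fun x hx => mem_sup_left ?_) fun x hx => ?_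
      · rw [mem_cj] at hx
        have h3 := (mem_normalizer_iff.1 hNL _).1 hx
        have : ht b μ * ((ht b μ)⁻¹ * x * ht b μ) * (ht b μ)⁻¹ = x := by group
        rwa [this] at h3
      · rw [mem_cj] at hx
        obtain ⟨z, hz⟩ : ∃ z, z = (ht b μ)⁻¹ * x * ht b μ := ⟨_, rfl⟩
        rw [← hz] at hx
        have hx' : x = ht b μ * z * (ht b μ)⁻¹ := by rw [hz]; group
        -- `[v, z] ∈ L`
        have h3 : ∃ ν : Fˣ, z * ht b μ * z⁻¹ = ht b ν ∧ ht b (μ * ν⁻¹) ∈ L := by
          refine ⟨(um (tp τ₀ (f z)) μ) ^ sgn (c b z), ?_, ?_⟩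
          · rw [hact z (hE₁ hx) b hb, map_zpow]
          · rw [mem_Ut] at hμ
            have h5 : ∃ (s : Fˣ), (s = 1 ∨ s = -1) ∧ ∃ k : ℤ,
                μ * ((um (tp τ₀ (f z)) μ) ^ sgn (c b z))⁻¹ = s * (μ ^ 2) ^ k := by
              have h6 : ∃ (s : Fˣ) (t' : ZMod 2), (s = 1 ∨ s = -1) ∧
                  um (tp τ₀ (f z)) μ = s * μ ^ sgn t' := by
                rcases zmod2_cases (f z) with h7 | h7
                · refine ⟨1, 0, Or.inl rfl, ?_⟩
                  rw [h7, tp_zero, um_one, sgn_zero, zpow_one, one_mul]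
                · refine ⟨um τ₀ μ * (μ ^ sgn t)⁻¹, t, ?_, ?_⟩
                  · obtain ⟨z', hz'⟩ : ∃ z', z' = um τ₀ μ * (μ ^ sgn t)⁻¹ := ⟨_, rfl⟩
                    rw [← hz']
                    have h8 : z' ^ 2 = 1 := by
                      rw [hz', mul_pow, inv_pow, hμ, ← zpow_natCast (μ ^ sgn t), ← zpow_mul,
                        mul_comm (sgn t), zpow_mul, zpow_natCast, mul_inv_cancel]
                    have h9 : (z' : F) * z' = 1 := by
                      rw [← Units.val_mul, ← pow_two, h8, Units.val_one]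
                    rcases mul_self_eq_one_iff.1 h9 with h10 | h10
                    · exact Or.inl (Units.ext h10)
                    · exact Or.inr (Units.ext (by rw [h10, Units.val_neg, Units.val_one]))
                  · rw [h7, tp_one, inv_mul_cancel_right]
              obtain ⟨s, t', hs, h6⟩ := h6
              rw [h6]
              have h7 : (s * μ ^ sgn t') ^ sgn (c b z) = s * μ ^ (sgn t' * sgn (c b z)) := by
                rw [mul_zpow, ← zpow_mul]
                congr 1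
                rcases hs with rfl | rfl
                · rw [one_zpow]
                · rcases zmod2_cases (c b z) with h8 | h8
                  · rw [h8, sgn_zero, zpow_one]
                  · rw [h8, sgn_one, zpow_neg_one, inv_neg, inv_one]
              rw [h7, ← sgn_add]
              have hs' : s⁻¹ = s := by
                rcases hs with rfl | rfl
                · rw [inv_one]
                · rw [inv_neg, inv_one]
              rcases zmod2_cases (t' + c b z) with h8 | h8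
              · refine ⟨s, hs, 0, ?_⟩
                rw [h8, sgn_zero, zpow_one, zpow_zero, mul_one, mul_inv, hs', mul_comm s,
                  mul_inv_cancel_left]
              · refine ⟨s, hs, 1, ?_⟩
                rw [h8, sgn_one, zpow_neg_one, zpow_one, mul_inv, inv_inv, hs', pow_two]
                rw [mul_left_comm]
            obtain ⟨s, hs, k, h5⟩ := h5
            rw [h5, map_mul, map_zpow]
            refine mul_mem ?_ (zpow_mem (h.sqL b μ) k)
            rcases hs with rfl | rfl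
            · rw [map_one]
              exact one_mem L
            · rw [h.htP b hb]
              exact h.PL b
        obtain ⟨ν, h3, h5⟩ := h3
        have h6 : x = ht b (μ * ν⁻¹) * z := by
          rw [hx', map_mul, map_inv, ← h3]
          group
        rw [h6]
        exact mul_mem (mem_sup_left h5) (mem_sup_right hx)
    · obtain ⟨B, hBE, hB1, hB2, hB3, hT⟩ := rel_ns (𝕜 := 𝕜) hp r ha hG (num.n1 τ₀ hne h2 η)
        (fun h0 => absurd h0 (by decide)) fun _ => num.n2 τ₀ hne h2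
      exact ⟨B, hBE, hB1, hB2, 1, one_mem N, by rw [cj_one]; exact hEX B hBE, by
        rw [cj_one]; exact hT⟩
  · push Not at hf
    have hf' : ∀ x ∈ E₁, f x = 0 := fun x hx => (zmod2_cases _).resolve_right (hf x hx)
    have r := d.rel0 hE₁ hPE hEC hf'
    have hrat : rat (fun _ => U η) 0 < 2 / 3 := by
      rcases hU with ⟨rfl, -⟩ | ⟨h1, h2, rfl⟩
      · exact num.n0
      · exact num.n1 τ₀ h1 h2 η
    by_cases hG : ∃ x ∈ E₁, x ≠ 1 ∧ (fun _ : G => (0 : ZMod 2)) x = 0 ∧
        ∀ j α, (fun b x => c b x + η * f x) (e j α) x = 0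
    · obtain ⟨B, hBE, hB1, hB2, hB3, hB4⟩ := rel_sp hp r ha hG
      refine ⟨B, hBE, hB1, hB2, ?_⟩
      have hact0 : ∀ x ∈ E₁, ∀ b, b ≠ 0 → ∀ μ, x * ht b μ * x⁻¹ =
          (ht b μ) ^ sgn ((fun b x => c b x + η * f x) b x) := by
        intro x hx b hb μ
        change _ = (ht b μ) ^ sgn (c b x + η * f x)
        rw [hact x (hE₁ hx) b hb, hf' x hx, tp_zero, um_one, mul_zero, add_zero]
      have hUtwo : ∀ μ : Fˣ, μ ^ 2 = 1 → μ ∈ U η := by
        intro μ hμ
        rcases hU with ⟨rfl, -⟩ | ⟨h1, h2, rfl⟩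
        · exact mem_top μ
        · exact Ut_two μ hμ
      refine special0 h r.d (X := (L ⊔ E₁) ⊓ centralizer (B : Set G)) (hEX B hBE) ha
        (by
          obtain ⟨x, hx, hx1, -, hx2⟩ := hG
          exact ⟨x, hx, hx1, hx2⟩) ?_ (Z := fun b => (U η).map (tr2 ht b)) ?_ hact0 ?_ ?_ ?_ ?_
      · -- the count
        intro y hy hyX b hb
        have h4 := ht_four h hb
        refine (Nat.mul_le_mul_left 3 h4).trans ?_
        -- elements of `B`
        have hB1' : ∀ x ∈ B, f x = 0 → x = 1 := by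
          intro x hx hfx
          obtain ⟨w₀, ε, h6, h7⟩ := d.rep x (hBE hx)
          have h5 := (hB4 x hx).2
          have h8 : ∀ b, b ≠ 0 → ω w₀ b + ε * (Q b + 1) = 0 := by
            intro b hb
            have h9 := h6 b hb
            have h10 : c b x + η * f x = 0 := h5 b hb
            rw [hfx, mul_zero, add_zero] at h10
            rw [h10, hfx, mul_zero, zero_mul, add_zero] at h9
            exact h9.symm
          obtain ⟨y, hy⟩ : ∃ y : Fin a, (y : ℕ) = 0 := ⟨⟨0, by omega⟩, rfl⟩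
          obtain ⟨z, hz⟩ : ∃ z : Fin a, (z : ℕ) = 1 := ⟨⟨1, by omega⟩, rfl⟩
          have hyz : y ≠ z := by
            intro h2
            have := congrArg Fin.val h2
            omega
          have hne' : e y false + e z false ≠ 0 := by
            intro h7
            have h8 := congrArg (fun v => ω v (e y true)) h7
            simp only [hp.ωadd, hp.ωe, hp.ωe' z y _ _ (Ne.symm hyz), hp.ωzero] at h8
            exact one_ne_zero h8
          have q1 := h8 _ (hp.e_ne y false)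
          have q2 := h8 _ (hp.e_ne z false)
          have q3 := h8 _ hne'
          rw [hp.ωadd', h.Qadd, h.ωe' y z _ _ hyz, add_zero] at q3
          have hε : ε = 0 := by
            have e5 : ∀ p q r s t : ZMod 2, p + t * (r + 1) = 0 → q + t * (s + 1) = 0 →
                p + q + t * (r + s + 1) = 0 → t = 0 := by decide
            exact e5 _ _ _ _ _ q1 q2 q3
          have hw : w₀ = 0 := h.sep w₀ fun j α => by
            have h7 := h8 _ (hp.e_ne j α)
            rwa [hε, zero_mul, add_zero] at h7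
          have h9 := h7 hw hε hfx
          rw [hLC] at h9
          exact mem_bot.1 h9
        have hyL : ∀ μ, y * ht b μ ^ 2 * y⁻¹ ∈ L := by
          intro μ
          rw [← map_pow]
          exact (mem_normalizer_iff.1 (h.NL hy) _).1 (h.sqL b μ)
        by_cases hB0 : ∀ x ∈ B, f x = 0
        · -- `B` is trivial
          have h5 : Nat.card Fˣ ≤ Nat.card {v : G // v ∈ (ht b).range ∧
              y * v ^ 2 * y⁻¹ ∈ (L ⊔ E₁) ⊓ centralizer (B : Set G)} := by
            refine Nat.card_le_card_of_injective (fun μ : Fˣ => (⟨ht b μ, ⟨μ, rfl⟩, mem_inf.2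
              ⟨mem_sup_left (hyL μ), ?_⟩⟩ : {v : G // v ∈ (ht b).range ∧
                y * v ^ 2 * y⁻¹ ∈ (L ⊔ E₁) ⊓ centralizer (B : Set G)})) fun μ ν hμν => ?_
            · rw [mem_centralizer_iff]
              intro x hx
              rw [hB1' x hx (hB0 x hx), one_mul, mul_one]
            · have h6 : ht b μ = ht b ν := congrArg Subtype.val hμν
              have h7 : ht b (μ * ν⁻¹) = 1 := by rw [map_mul, map_inv, h6, mul_inv_cancel]
              exact mul_inv_eq_one.1 ((h.ht1 b hb _).1 h7)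
          exact le_trans num.n5 h5
        · push Not at hB0
          obtain ⟨x₀, hx₀, hfx₀⟩ := hB0
          have hfx1 : f x₀ = 1 := (zmod2_cases _).resolve_left hfx₀
          obtain ⟨hne, h2, hUt⟩ : τ₀ ≠ 1 ∧ τ₀ ^ 2 = 1 ∧ U = Ut τ₀ := by
            rcases hU with ⟨-, hU⟩ | hU
            · exact absurd (hU x₀ (hBE hx₀)) hfx₀
            · exact hU
          have hBx : ∀ x ∈ B, x = 1 ∨ x = x₀ := by
            intro x hx
            rcases zmod2_cases (f x) with h5 | h5
            · exact Or.inl (hB1' x hx h5)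
            · right
              have h6 : x * x₀ = 1 := by
                refine hB1' _ (mul_mem hx hx₀) ?_
                rw [d.addf x (hBE hx) x₀ (hBE hx₀), h5, hfx1]
                decide
              have h7 : x₀ * x₀ = 1 := by
                rw [← pow_two]
                exact d.sq x₀ (hBE hx₀)
              exact mul_right_cancel (h6.trans h7.symm)
          have hx₀P : ∀ w, x₀ * P w * x₀⁻¹ = P w := fun w => by
            rw [d.comm x₀ (hBE hx₀) _ (hE₁ (hPE w)), mul_inv_cancel_right]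
          have hcy : ∀ w, x₀ * (y * P w * y⁻¹) = y * P w * y⁻¹ * x₀ := by
            intro w
            have h5 : y * P w * y⁻¹ ∈ cj y E₁ := by
              rw [mem_cj]
              have : y⁻¹ * (y * P w * y⁻¹) * y = P w := by group
              rw [this]
              exact hPE w
            exact (mem_centralizer_iff.1 (mem_inf.1 (hyX h5)).2) x₀ hx₀
          have hzN : y⁻¹ * (x₀ * y * x₀⁻¹) ∈ N :=
            mul_mem (inv_mem hy) (hNn x₀ (hEN (hBE hx₀)) y hy)
          obtain ⟨w', hw'⟩ := h.CL _ hzN fun w => by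
            have h5 := hx₀P w
            have h6 := hcy w
            calc y⁻¹ * (x₀ * y * x₀⁻¹) * P w = y⁻¹ * x₀ * y * (x₀⁻¹ * P w) := by group
              _ = y⁻¹ * x₀ * y * (P w * x₀⁻¹) := by
                  congr 1
                  nth_rewrite 1 [← h5]
                  group
              _ = y⁻¹ * (x₀ * (y * P w * y⁻¹)) * y * x₀⁻¹ := by group
              _ = y⁻¹ * (y * P w * y⁻¹ * x₀) * y * x₀⁻¹ := by rw [h6]
              _ = P w * (y⁻¹ * (x₀ * y * x₀⁻¹)) := by group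
          have hxy : x₀ * y * x₀⁻¹ = y * P w' := by rw [← hw', mul_inv_cancel_left]
          obtain ⟨t, ht'⟩ : ∃ t, t = c b x₀ + ω w' b := ⟨_, rfl⟩
          have hfix : ∀ μ ∈ Ut τ₀ t, x₀ * (y * ht b μ ^ 2 * y⁻¹) =
              y * ht b μ ^ 2 * y⁻¹ * x₀ := by
            intro μ hμ
            rw [mem_Ut] at hμ
            have h5 : x₀ * ht b (μ ^ 2) * x₀⁻¹ = ht b (μ ^ 2) ^ (sgn t * sgn (c b x₀)) := by
              rw [hact x₀ (hBE hx₀) b hb, hfx1, tp_one, map_pow (um τ₀), hμ, map_zpow, ← zpow_mul]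
            have h6 : P w' * ht b (μ ^ 2) ^ (sgn t * sgn (c b x₀)) * (P w')⁻¹ = ht b (μ ^ 2) := by
              rw [← conj_zpow, h.Ptor w' b hb, ← zpow_mul]
              have h7 : sgn (ω w' b) * (sgn t * sgn (c b x₀)) = 1 := by
                rw [ht', sgn_add]
                have h8 := sgn_mul_self (ω w' b)
                have h9 := sgn_mul_self (c b x₀)
                linear_combination (sgn (ω w' b) * sgn (ω w' b)) * h9 + h8
              rw [h7, zpow_one]
            have h7 : x₀ * (y * ht b μ ^ 2 * y⁻¹) * x₀⁻¹ = y * ht b μ ^ 2 * y⁻¹ := by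
              rw [← map_pow]
              calc x₀ * (y * ht b (μ ^ 2) * y⁻¹) * x₀⁻¹ = (x₀ * y * x₀⁻¹) *
                    (x₀ * ht b (μ ^ 2) * x₀⁻¹) * (x₀ * y * x₀⁻¹)⁻¹ := by group
                _ = y * (P w' * ht b (μ ^ 2) ^ (sgn t * sgn (c b x₀)) * (P w')⁻¹) * y⁻¹ := by
                    rw [hxy, h5]
                    group
                _ = _ := by rw [h6]
            exact mul_inv_eq_iff_eq_mul.1 h7
          have h5 : Nat.card (Ut τ₀ t) ≤ Nat.card {v : G // v ∈ (ht b).range ∧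
              y * v ^ 2 * y⁻¹ ∈ (L ⊔ E₁) ⊓ centralizer (B : Set G)} := by
            refine Nat.card_le_card_of_injective (fun μ : Ut τ₀ t => (⟨ht b μ.1, ⟨μ.1, rfl⟩,
              mem_inf.2 ⟨mem_sup_left (hyL μ.1), ?_⟩⟩ : {v : G // v ∈ (ht b).range ∧
                y * v ^ 2 * y⁻¹ ∈ (L ⊔ E₁) ⊓ centralizer (B : Set G)})) fun μ ν hμν => ?_
            · rw [mem_centralizer_iff]
              intro x hx
              rcases hBx x hx with rfl | rfl
              · rw [one_mul, mul_one]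
              · exact hfix μ.1 μ.2
            · have h6 : ht b μ.1 = ht b ν.1 := congrArg Subtype.val hμν
              have h7 : ht b (μ.1 * ν.1⁻¹) = 1 := by rw [map_mul, map_inv, h6, mul_inv_cancel]
              exact Subtype.ext (mul_inv_eq_one.1 ((h.ht1 b hb _).1 h7))
          exact le_trans (num.n4 τ₀ hne h2 t) h5
      · rintro b hb _ ⟨μ, -, rfl⟩
        exact ⟨μ ^ 2, rfl⟩
      · rintro k b hb _ ⟨μ, hμ, rfl⟩
        refine mem_inf.2 ⟨mem_sup_left (hp.torL b μ), ?_⟩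
        rw [mem_centralizer_iff]
        intro x hx
        have h5 := d.act x (hBE hx) b (VB_ne hp hb) η μ hμ
        have h6 : c b x + η * f x = 0 := (hB4 x hx).2 b (VB_ne hp hb)
        rw [h6, sgn_zero, zpow_one] at h5
        exact mul_inv_eq_iff_eq_mul.1 h5
      · rintro y hy hyX b b' hb hb' he _ ⟨μ, hμ, rfl⟩
        obtain ⟨k, hk⟩ := h.conj y hy b b' hb hb' he
        rw [tr2_apply, hk]
        exact zpow_mem (⟨μ, hμ, rfl⟩ : tr2 ht b' μ ∈ (U η).map (tr2 ht b')) _
      · intro k b hb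
        exact ratZ (hp.tor1 b (VB_ne hp hb)) hUtwo hrat
      · intro k b hb
        -- a torus whose ratio is less than one
        by_contra hcon
        push Not at hcon
        have h5 := ratZ (hp.tor1 b (VB_ne hp hb)) hUtwo hrat
        have h6 : Nat.card {v : G // v ∈ (U η).map (tr2 ht b) ∧ v ^ 4 = 1} =
            Nat.card ((U η).map (tr2 ht b)) := by
          refine Nat.card_congr (Equiv.subtypeEquivRight fun v => ?_)
          exact ⟨fun h => h.1, fun h => ⟨h, hcon v h⟩⟩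
        rw [h6] at h5
        have h7 : 0 < Nat.card ((U η).map (tr2 ht b)) := Nat.card_pos
        omega
    · obtain ⟨B, hBE, hB1, hB2, hB3, hT⟩ := rel_ns (𝕜 := 𝕜) hp r ha hG hrat
        (fun _ => hrat) fun h0 => absurd h0 (by decide)
      exact ⟨B, hBE, hB1, hB2, 1, one_mem N, by rw [cj_one]; exact hEX B hBE, by
        rw [cj_one]; exact hT⟩

end

end Vale.Agent.P240.R2.H487
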