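import Vale.Agent.P240.R2.H487.DO1
import Vale.Agent.P240.R2.H487.DN

/-!
Half tori in the automorphism group of `PSL_n(F)`.
-/

set_option linter.all false

namespace Vale.Agent.P240.R2.H487

open Matrix Subgroup Vale.Agent.P240.K Vale.Agent.P240.H195

section
variable {F : Type*} [Field F] {a : ℕ} {ι : Type*} [Fintype ι] [DecidableEq ι]

lemma HM_conj {i0 : F} {σ : ι ≃ Vv a} {w w' : Ww a} {M : Matrix ι ι F} {e : ZMod 2}
    (h : M * PP i0 σ w = s2 F e • (PP i0 σ w' * M)) (μ : Fˣ) :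
    ∃ c : F, M * HM i0 σ w μ = c • (HM i0 σ w' (μ ^ sgn e) * M) := by
  rcases zmod2_cases e with rfl | rfl
  · refine ⟨1, ?_⟩
    rw [s2_zero, one_smul] at h
    rw [sgn_zero, zpow_one, one_smul]
    simp only [HM, Matrix.add_mul, Matrix.mul_add, Matrix.smul_mul, Matrix.mul_smul,
      Matrix.one_mul, Matrix.mul_one, h]
  · refine ⟨(μ : F), ?_⟩
    rw [s2_one] at h
    have hμ : (μ : F) ≠ 0 := μ.ne_zero
    rw [sgn_one, zpow_neg_one]
    simp only [HM, Matrix.add_mul, Matrix.mul_add, Matrix.smul_mul, Matrix.mul_smul,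
      Matrix.one_mul, Matrix.mul_one, h, Units.val_inv_eq_inv_val]
    match_scalars
    · field_simp
      ring
    · field_simp
      ring

lemma HM_tr (i0 : F) (σ : ι ≃ Vv a) (w : Ww a) (μ : Fˣ) :
    ∃ c : F, (HM i0 σ w μ)ᵀ = c • HM i0 σ w (μ ^ sgn (Qf w)) := by
  rcases zmod2_cases (Qf w) with h | h
  · refine ⟨1, ?_⟩
    simp only [HM, Matrix.transpose_add, Matrix.transpose_smul, Matrix.transpose_one, PP_tr, h,
      s2_zero, one_smul, sgn_zero, zpow_one]
  · refine ⟨(μ : F), ?_⟩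
    have hμ : (μ : F) ≠ 0 := μ.ne_zero
    rw [h, sgn_one, zpow_neg_one]
    simp only [HM, Matrix.transpose_add, Matrix.transpose_smul, Matrix.transpose_one, PP_tr, h,
      s2_one, Units.val_inv_eq_inv_val]
    match_scalars
    · field_simp
      ring
    · field_simp
      ring

lemma PP_map {K : Type*} [Field K] (τ : F →+* K) (i0 : F) (σ : ι ≃ Vv a) (w : Ww a) :
    (PP i0 σ w).map τ = PP (τ i0) σ w := by
  have hb : τ (bt i0 w) = bt (τ i0) w := by
    rcases zmod2_cases (Qf w) with h | h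
    · rw [bt, bt, if_pos h, if_pos h, map_one]
    · rw [bt, bt, if_neg (by rw [h]; exact one_ne_zero), if_neg (by rw [h]; exact one_ne_zero)]
  have hp := PM_map τ σ w
  ext i j
  have hp' := congrFun (congrFun hp i) j
  rw [Matrix.map_apply] at hp'
  simp only [Matrix.map_apply, PP, Matrix.smul_apply, smul_eq_mul, map_mul, map_inv₀, hb, hp']

lemma HM_map {K : Type*} [Field K] (τ : F →+* K) (i0 : F) (σ : ι ≃ Vv a) (w : Ww a) (μ : Fˣ) :
    (HM i0 σ w μ).map τ = HM (τ i0) σ w (Units.map (τ : F →* K) μ) := by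
  have hp := PP_map τ i0 σ w
  ext i j
  have hp' := congrFun (congrFun hp i) j
  rw [Matrix.map_apply] at hp'
  simp only [Matrix.map_apply, HM, Matrix.add_apply, Matrix.smul_apply, smul_eq_mul, map_add,
    map_mul, map_div₀, map_sub, map_one, map_ofNat, hp', Matrix.one_apply, Units.coe_map,
    MonoidHom.coe_coe]
  congr 2
  split_ifs
  · rw [map_one]
  · rw [map_zero]

lemma PP_i0 {i0 : F} {k : ZMod 2} (σ : ι ≃ Vv a) (w : Ww a) :
    PP (s2 F k * i0) σ w = s2 F (k * Qf w) • PP i0 σ w := by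
  have h1 : (bt (s2 F k * i0) w)⁻¹ = s2 F (k * Qf w) * (bt i0 w)⁻¹ := by
    rcases zmod2_cases (Qf w) with h | h
    · rw [bt, bt, if_pos h, if_pos h, h, mul_zero, s2_zero, one_mul]
    · rw [bt, bt, if_neg (by rw [h]; exact one_ne_zero), if_neg (by rw [h]; exact one_ne_zero),
        h, mul_one, mul_inv]
      congr 1
      exact inv_eq_of_mul_eq_one_left (s2_sq F k)
  rw [PP, PP, h1, mul_smul]

end

section
variable {F : Type*} [Field F] {a m : ℕ}

/-- equality of semilinear automorphisms -/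
lemma sem_congr {X Y : GLm m F} {τ : RingAut F} {c : F} (h : X.1 = c • Y.1) : sem X τ = sem Y τ := by
  have h1 : sem (X * Y⁻¹) 1 = 1 := by
    refine sem_scalar (c := c) ?_
    rw [Units.val_mul, h, Matrix.smul_mul, mul_inv_val, Algebra.algebraMap_eq_smul_one]
  have h2 : sem (X * Y⁻¹) 1 * sem Y τ = sem X τ := by
    rw [sem_mul, gla_one, one_mul, inv_mul_cancel_right]
  rw [← h2, h1, one_mul]

/-- relations -/
lemma sem_rel {A M M' : GLm m F} {τ : RingAut F} {c : F}
    (h : A.1 * M.1.map τ = c • (M'.1 * A.1)) :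
    sem A τ * sem M 1 * (sem A τ)⁻¹ = sem M' 1 := by
  rw [mul_inv_eq_iff_eq_mul, sem_mul, sem_mul, gla_one, mul_one, one_mul]
  exact sem_congr (c := c) (by rw [Units.val_mul, gla_val, h, Units.val_mul])

/-- the projective general linear group -/
def pgl (m : ℕ) (F : Type*) [Field F] : GLm m F →* MulAut (PL m F) where
  toFun M := sem M 1
  map_one' := by rw [sem, act_one, ind_one]
  map_mul' M M' := by rw [sem_mul, gla_one, one_mul]

lemma pgl_apply (M : GLm m F) : pgl m F M = sem M 1 := rfl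

variable (h2 : (2 : F) ≠ 0) {i : Fˣ} (hi : (i : F) * i = -1) (σ : Fin (m + 1) ≃ Vv a)

/-- the half tori as invertible matrices -/
def HG (w : Ww a) : Fˣ →* GLm m F where
  toFun μ := ⟨HM (i : F) σ w μ, HM (i : F) σ w μ⁻¹,
    by rw [← HM_mul h2 hi, mul_inv_cancel, HM_one h2],
    by rw [← HM_mul h2 hi, inv_mul_cancel, HM_one h2]⟩
  map_one' := Units.ext (HM_one h2 _ σ w)
  map_mul' := fun μ ν => Units.ext (HM_mul h2 hi σ w μ ν)

lemma HG_val (w : Ww a) (μ : Fˣ) : (HG h2 hi σ w μ).1 = HM (i : F) σ w μ := rfl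

open Classical in
/-- the half tori -/
noncomputable def hT (w : Ww a) : Fˣ →* MulAut (PL m F) :=
  if w = 0 then 1 else (pgl m F).comp (HG h2 hi σ w)

lemma hT_zero (μ : Fˣ) : hT (m := m) h2 hi σ 0 μ = 1 := by
  rw [hT, if_pos rfl]
  rfl

lemma hT_val {w : Ww a} (hw : w ≠ 0) (μ : Fˣ) :
    hT (m := m) h2 hi σ w μ = sem (HG h2 hi σ w μ) 1 := by
  rw [hT, if_neg hw]
  rfl

/-- the Pauli elements -/
noncomputable def pT (w : Ww a) : MulAut (PL m F) := MulAut.conj (pr m F (TS h2 hi σ w i))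

lemma pT_val (w : Ww a) : pT (m := m) h2 hi σ w = sem (tog (TS h2 hi σ w i)) 1 := conj_eq_sem _

lemma TS_i' (w : Ww a) : ∃ c : F, c ≠ 0 ∧ (tog (TS h2 hi σ w i)).1 = c • PP (i : F) σ w := by
  obtain ⟨c, hc, h3⟩ := TS_i h2 hi σ w
  have h5 : (tog (TS h2 hi σ w i)).1 = (TS h2 hi σ w i).1 := rfl
  refine ⟨c * bt (i : F) w, mul_ne_zero hc (bt_ne hi w), ?_⟩
  rw [h5, h3, PM_eq hi σ w, smul_smul]

lemma PP_map_id (w : Ww a) : (PP (i : F) σ w).map (1 : RingAut F) = PP (i : F) σ w := by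
  ext u v
  rfl

include hi in
lemma PP_mapτ (τ : RingAut F) (w : Ww a) :
    (PP (i : F) σ w).map τ = s2 F (kapF i τ * Qf w) • PP (i : F) σ w := by
  have h4 := PP_map (τ : F →+* F) (i : F) σ w
  have h5 : ((τ : F →+* F) (i : F)) = s2 F (kapF i τ) * i := kapF_spec hi τ
  rw [h5, PP_i0] at h4
  exact h4

/-- the relation between a semilinear map and the half tori -/
lemma sem_hT {A : GLm m F} (τ : RingAut F) {b b' : Ww a} (hb : b ≠ 0) (hb' : b' ≠ 0) {l : ZMod 2}
    (h : A.1 * PP (i : F) σ b = s2 F l • (PP (i : F) σ b' * A.1)) (μ : Fˣ) :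
    sem A τ * hT h2 hi σ b μ * (sem A τ)⁻¹ =
      (hT h2 hi σ b' (um τ μ)) ^ sgn (l + kapF i τ * Qf b) := by
  rw [hT_val h2 hi σ hb, ← map_zpow, hT_val h2 hi σ hb']
  have h3 : (HM (i : F) σ b μ).map τ = HM (s2 F (kapF i τ) * i) σ b (um τ μ) := by
    have h4 := HM_map (τ : F →+* F) (i : F) σ b μ
    have h5 : ((τ : F →+* F) (i : F)) = s2 F (kapF i τ) * i := kapF_spec hi τ
    rw [h5] at h4
    exact h4
  have h4 : A.1 * PP (s2 F (kapF i τ) * i) σ b =
      s2 F (l + kapF i τ * Qf b) • (PP (i : F) σ b' * A.1) := by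
    rw [PP_i0, Matrix.mul_smul, h, smul_smul, s2_add, mul_comm]
  -- the conjugation relation for the modified matrices
  obtain ⟨c, hc⟩ : ∃ c : F, A.1 * HM (s2 F (kapF i τ) * i) σ b (um τ μ) =
      c • (HM (i : F) σ b' ((um τ μ) ^ sgn (l + kapF i τ * Qf b)) * A.1) := by
    rcases zmod2_cases (l + kapF i τ * Qf b) with h5 | h5
    · refine ⟨1, ?_⟩
      rw [h5] at h4 ⊢
      rw [s2_zero, one_smul] at h4
      rw [sgn_zero, zpow_one, one_smul]
      simp only [HM, Matrix.add_mul, Matrix.mul_add, Matrix.smul_mul, Matrix.mul_smul,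
        Matrix.one_mul, Matrix.mul_one, h4]
    · refine ⟨((um τ μ : Fˣ) : F), ?_⟩
      rw [h5] at h4 ⊢
      rw [s2_one] at h4
      have hμ : ((um τ μ : Fˣ) : F) ≠ 0 := (um τ μ).ne_zero
      rw [sgn_one, zpow_neg_one]
      simp only [HM, Matrix.add_mul, Matrix.mul_add, Matrix.smul_mul, Matrix.mul_smul,
        Matrix.one_mul, Matrix.mul_one, h4, Units.val_inv_eq_inv_val]
      match_scalars
      · field_simp
        ring
      · field_simp
        ring
  refine sem_rel (c := c) ?_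
  rw [HG_val, HG_val, h3, hc]

/-- the relation between the graph automorphism and the half tori -/
lemma it_hT {b : Ww a} (hb : b ≠ 0) (μ : Fˣ) :
    ind (itA m F) * hT h2 hi σ b μ * (ind (itA m F))⁻¹ = (hT h2 hi σ b μ) ^ sgn (Qf b + 1) := by
  have hinv : (ind (itA m F))⁻¹ = ind (itA m F) := inv_eq_of_mul_eq_one_left itA_sq
  rw [hinv, ← map_zpow, hT_val h2 hi σ hb, hT_val h2 hi σ hb, it_sem]
  obtain ⟨c, hc⟩ := HM_tr (i : F) σ b μ⁻¹
  refine sem_congr (c := c) ?_
  have h3 : (gt (HG h2 hi σ b μ)).1 = (HM (i : F) σ b μ⁻¹)ᵀ := rfl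
  rw [h3, hc, HG_val, sgn_add, sgn_one, inv_zpow', mul_neg_one]

end

end Vale.Agent.P240.R2.H487
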