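import Vale.Agent.P240.R2.H487.DO2

/-!
The system of half tori of `PGL_n(F)`, `n` a power of `2`, `F` containing a square root of `-1`.
-/

set_option linter.all false

namespace Vale.Agent.P240.R2.H487

open Matrix Subgroup Vale.Agent.P240.K Vale.Agent.P240.H195

section
variable {F : Type*} [Field F] {a m : ℕ}

/-- equality of linear automorphisms -/
lemma sem_inj {r : ℕ} [Fact r.Prime] [CharP F r] (hm : 1 ≤ m) {X Y : GLm m F} {τ : RingAut F}
    (h : sem X τ = sem Y τ) : ∃ c : F, c ≠ 0 ∧ X.1 = c • Y.1 := by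
  have h1 : sem (Y⁻¹ * X) 1 * sem 1 τ = sem 1 τ := by
    have h2 : sem Y⁻¹ 1 * sem X τ = sem Y⁻¹ 1 * sem Y τ := by rw [h]
    rw [sem_mul, sem_mul, gla_one, gla_one, inv_mul_cancel, one_mul] at h2
    rw [sem_mul, gla_one, mul_one, one_mul, h2]
  have h2 : sem (Y⁻¹ * X) 1 = 1 := mul_eq_right.1 h1
  obtain ⟨-, c, hc, h3⟩ := sem_trivial (r := r) h2 hm
  refine ⟨c, hc, ?_⟩
  have h4 : Y.1 * (Y⁻¹ * X).1 = X.1 := by
    rw [← Units.val_mul, mul_inv_cancel_left]
  rw [← h4, h3, Algebra.algebraMap_eq_smul_one, Matrix.mul_smul, Matrix.mul_one]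

/-- relations between matrices from relations between automorphisms -/
lemma rel_of_conj {r : ℕ} [Fact r.Prime] [CharP F r] (hm : 1 ≤ m) {A X Y : GLm m F}
    {τ : RingAut F} (h : sem A τ * sem X 1 * (sem A τ)⁻¹ = sem Y 1) :
    ∃ c : F, c ≠ 0 ∧ A.1 * X.1.map τ = c • (Y.1 * A.1) := by
  rw [mul_inv_eq_iff_eq_mul, sem_mul, sem_mul, gla_one, mul_one, one_mul] at h
  obtain ⟨c, hc, h1⟩ := sem_inj (r := r) hm h
  exact ⟨c, hc, by rw [← gla_val, ← Units.val_mul, h1, Units.val_mul]⟩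

lemma conj_aut {H : Type*} [Group H] (f : MulAut H) (y : H) :
    f * MulAut.conj y * f⁻¹ = MulAut.conj (f y) := by
  ext x
  simp [MulAut.mul_apply]

/-- the embedding of `SL` in `GL` -/
def togH (m : ℕ) (F : Type*) [Field F] : SLm m F →* GLm m F where
  toFun := tog
  map_one' := Units.ext rfl
  map_mul' := fun _ _ => Units.ext rfl

lemma togH_apply (X : SLm m F) : togH m F X = tog X := rfl

lemma tog_conj (M : GLm m F) (X : SLm m F) : M * tog X * M⁻¹ = tog (actf M 1 X) := by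
  apply Units.ext
  have h1 : (tog (actf M 1 X)).1 = M.1 * X.1.map (1 : RingAut F) * (M⁻¹).1 := actf_val M 1 X
  have h2 : X.1.map (1 : RingAut F) = X.1 := by
    ext u v
    rfl
  rw [h1, h2]
  rfl

variable (h2 : (2 : F) ≠ 0) {i : Fˣ} (hi : (i : F) * i = -1) (σ : Fin (m + 1) ≃ Vv a)

lemma hT_neg_one {w : Ww a} (hw : w ≠ 0) :
    hT (m := m) h2 hi σ w (-1) = pT h2 hi σ w := by
  obtain ⟨c, hc, h3⟩ := TS_i' h2 hi σ w
  rw [hT_val h2 hi σ hw, pT_val]
  refine sem_congr (c := c⁻¹) ?_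
  rw [HG_val, HM_neg_one h2, h3, smul_smul, inv_mul_cancel₀ hc, one_smul]

lemma pT_it (w : Ww a) : ind (itA m F) * pT h2 hi σ w = pT h2 hi σ w * ind (itA m F) := by
  have h3 := conj_aut (ind (itA m F)) (pr m F (TS h2 hi σ w i))
  rw [it_fix] at h3
  exact mul_inv_eq_iff_eq_mul.1 h3

include h2 hi in
lemma HM_scalar {w : Ww a} (hw : w ≠ 0) {μ : Fˣ} {c : F} (h : HM (i : F) σ w μ = c • 1) :
    μ = 1 := by
  by_contra hμ
  have h3 : (1 - (μ : F)) ≠ 0 := by
    intro h4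
    exact hμ (Units.ext (by rw [Units.val_one]; exact (sub_eq_zero.1 h4).symm))
  have h4 : ((1 - (μ : F)) / 2 * (bt (i : F) w)⁻¹) • PM F σ w = (c - (1 + (μ : F)) / 2) • 1 := by
    rw [HM, PP, smul_smul] at h
    rw [sub_smul, ← h, add_sub_cancel_left]
  have h5 : (1 - (μ : F)) / 2 * (bt (i : F) w)⁻¹ ≠ 0 :=
    mul_ne_zero (div_ne_zero h3 h2) (inv_ne_zero (bt_ne hi w))
  refine PM_not_scalar h2 σ hw
    (((1 - (μ : F)) / 2 * (bt (i : F) w)⁻¹)⁻¹ * (c - (1 + (μ : F)) / 2)) ?_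
  rw [mul_smul, ← h4, smul_smul, inv_mul_cancel₀ h5, one_smul]

/-- elements commuting with the Pauli group -/
lemma fix_rel {r : ℕ} [Fact r.Prime] [CharP F r] (hm : 1 ≤ m) {M : GLm m F} {τ : RingAut F}
    (h : ∀ w, sem M τ * pT h2 hi σ w = pT h2 hi σ w * sem M τ) :
    ∃ w₀ : Ww a, ∀ w, M.1 * PM F σ w = s2 F (wf w₀ w) • (PM F σ w * M.1) := by
  have key : ∀ w, sem M τ (pr m F (TS h2 hi σ w i)) = pr m F (TS h2 hi σ w i) := by
    intro w
    have h3 : sem M τ * sem (tog (TS h2 hi σ w i)) 1 * (sem M τ)⁻¹ =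
        sem (tog (TS h2 hi σ w i)) 1 := by
      have h4 := h w
      rw [pT_val] at h4
      exact mul_inv_eq_iff_eq_mul.2 h4
    obtain ⟨c, hc, h5⟩ := rel_of_conj (r := r) hm h3
    exact sem_pr_iff.2 ⟨c, hc, h5⟩
  exact sem_fix h2 hi σ key

lemma PP_of_PM {M : GLm m F} {b : Ww a} {l : ZMod 2}
    (h : M.1 * PM F σ b = s2 F l • (PM F σ b * M.1)) :
    M.1 * PP (i : F) σ b = s2 F l • (PP (i : F) σ b * M.1) := by
  rw [PP, Matrix.mul_smul, h, Matrix.smul_mul, smul_comm]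

variable {G : Type*} [Group G] (ψ : G →* MulAut (PL m F)) (j : GLm m F →* G)

open Classical in
/-- the half tori -/
noncomputable def hJ (w : Ww a) : Fˣ →* G := if w = 0 then 1 else j.comp (HG h2 hi σ w)

/-- the Pauli elements -/
noncomputable def pJ (w : Ww a) : G := j (tog (TS h2 hi σ w i))

lemma hJ_val {w : Ww a} (hw : w ≠ 0) (μ : Fˣ) : hJ h2 hi σ j w μ = j (HG h2 hi σ w μ) := by
  rw [hJ, if_neg hw]
  rfl

lemma hJ_zero (μ : Fˣ) : hJ h2 hi σ j 0 μ = 1 := by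
  rw [hJ, if_pos rfl]
  rfl

variable {ψ j} (hj : ∀ M, ψ (j M) = sem M 1)

include hj in
lemma ψ_hJ (w : Ww a) (μ : Fˣ) : ψ (hJ h2 hi σ j w μ) = hT h2 hi σ w μ := by
  by_cases hw : w = 0
  · subst hw
    rw [hJ_zero, hT_zero, map_one]
  · rw [hJ_val h2 hi σ j hw, hT_val h2 hi σ hw, hj]

include hj in
lemma ψ_pJ (w : Ww a) : ψ (pJ h2 hi σ j w) = pT h2 hi σ w := by
  rw [pJ, hj, pT_val]

/-- **The system of half tori.** -/
theorem hts {r : ℕ} [hr : Fact r.Prime] [CharP F r] (hm : 2 ≤ m) (hψ : Function.Injective ψ)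
    (hj : ∀ M, ψ (j M) = sem M 1)
    (haut : ∀ g, ∃ M τ, ψ g = sem M τ ∨ ψ g = sem M τ * ind (itA m F)) :
    HTS (j.comp (togH m F)).range j.range a wf Qf be (kapF i) (hJ h2 hi σ j) (pJ h2 hi σ j) where
  card := by
    rw [Nat.card_prod, Nat.card_fun, Nat.card_eq_fintype_card, Nat.card_eq_fintype_card, ZMod.card,
      Fintype.card_fin, ← mul_pow]
    norm_num
  two := ww_two
  ωadd := wf_add
  ωself := wf_self
  ωsymm := wf_symm
  Qadd := Qf_add
  ωe := fun j => by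
    rw [wf_be_true]
    simp [be]
  ωe' := fun j k α β hjk => by
    cases β with
    | false =>
      rw [wf_be_false]
      cases α <;> simp [be, Pi.single_eq_of_ne (Ne.symm hjk)]
    | true =>
      rw [wf_be_true]
      cases α <;> simp [be, Pi.single_eq_of_ne (Ne.symm hjk)]
  sep := fun w h => wf_sep h
  κone := kapF_one
  LN := by
    rintro _ ⟨X, rfl⟩
    exact ⟨tog X, rfl⟩
  NL := by
    have key : ∀ M : GLm m F, ∀ x ∈ (j.comp (togH m F)).range, j M * x * (j M)⁻¹ ∈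
        (j.comp (togH m F)).range := by
      rintro M _ ⟨X, rfl⟩
      refine ⟨actf M 1 X, ?_⟩
      rw [MonoidHom.comp_apply, MonoidHom.comp_apply, togH_apply, togH_apply, ← tog_conj, map_mul,
        map_mul, map_inv]
    rintro _ ⟨M, rfl⟩
    rw [mem_normalizer_iff]
    intro x
    refine ⟨fun hx => key M x hx, fun hx => ?_⟩
    have h3 := key M⁻¹ _ hx
    have h4 : j M⁻¹ * (j M * x * (j M)⁻¹) * (j M⁻¹)⁻¹ = x := by
      rw [map_inv]
      group
    rwa [h4] at h3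
  htN := fun b μ => by
    by_cases hb : b = 0
    · subst hb
      rw [hJ_zero]
      exact one_mem _
    · rw [hJ_val h2 hi σ j hb]
      exact ⟨_, rfl⟩
  sqL := fun b μ => by
    by_cases hb : b = 0
    · subst hb
      rw [hJ_zero]
      exact one_mem _
    · refine ⟨TS h2 hi σ b μ, ?_⟩
      apply hψ
      rw [ψ_hJ h2 hi σ hj, hT_val h2 hi σ hb, MonoidHom.comp_apply, togH_apply, hj]
      refine sem_congr (c := ((μ : F))⁻¹) ?_
      have h5 : (tog (TS h2 hi σ b μ)).1 = (TS h2 hi σ b μ).1 := rfl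
      rw [h5, TS_val h2 hi σ hb, HG_val, HM_sq h2, smul_smul, inv_mul_cancel₀ μ.ne_zero, one_smul]
  ht1 := fun b hb μ => by
    constructor
    · intro h
      have h3 : sem (HG h2 hi σ b μ) 1 = 1 := by
        rw [← hT_val h2 hi σ hb, ← ψ_hJ h2 hi σ hj, h, map_one]
      obtain ⟨-, c, -, h4⟩ := sem_trivial (r := r) h3 (by omega)
      rw [Algebra.algebraMap_eq_smul_one] at h4
      exact HM_scalar h2 hi σ hb h4
    · rintro rfl
      rw [map_one]
  htP := fun b hb => by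
    apply hψ
    rw [ψ_hJ h2 hi σ hj, ψ_pJ h2 hi σ hj, hT_neg_one h2 hi σ hb]
  Pmul := fun w w' => by
    apply hψ
    rw [map_mul, ψ_pJ h2 hi σ hj, ψ_pJ h2 hi σ hj, ψ_pJ h2 hi σ hj, pT, pT, pT, torP_add, map_mul]
  PL := fun w => ⟨TS h2 hi σ w i, rfl⟩
  P1 := fun w h => by
    by_contra hw
    have h3 : sem (tog (TS h2 hi σ w i)) 1 = 1 := by
      rw [← pT_val, ← ψ_pJ h2 hi σ hj, h, map_one]
    obtain ⟨-, c, -, h4⟩ := sem_trivial (r := r) h3 (by omega)
    obtain ⟨d, hd, h5⟩ := TS_i h2 hi σ w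
    have h6 : (tog (TS h2 hi σ w i)).1 = (TS h2 hi σ w i).1 := rfl
    refine PM_not_scalar h2 σ hw (d⁻¹ * c) ?_
    rw [h6, h5, Algebra.algebraMap_eq_smul_one] at h4
    rw [mul_smul, ← h4, smul_smul, inv_mul_cancel₀ hd, one_smul]
  comm := fun b b' hb hb' h μ μ' => by
    rw [hJ_val h2 hi σ j hb, hJ_val h2 hi σ j hb', ← map_mul, ← map_mul]
    congr 1
    apply Units.ext
    rw [Units.val_mul, Units.val_mul, HG_val, HG_val, HM, HM]
    have h3 := PP_comm (i : F) σ b b'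
    rw [h, s2_zero, one_smul] at h3
    simp only [Matrix.add_mul, Matrix.mul_add, Matrix.smul_mul, Matrix.mul_smul, Matrix.one_mul,
      Matrix.mul_one, h3]
    module
  Ptor := fun w b hb μ => by
    apply hψ
    rw [map_mul, map_mul, map_inv, map_zpow, ψ_hJ h2 hi σ hj, ψ_pJ h2 hi σ hj, pT_val]
    obtain ⟨c, hc, h3⟩ := TS_i' h2 hi σ w
    have h4 : (tog (TS h2 hi σ w i)).1 * PP (i : F) σ b =
        s2 F (wf w b) • (PP (i : F) σ b * (tog (TS h2 hi σ w i)).1) := by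
      rw [h3, Matrix.smul_mul, PP_comm, Matrix.mul_smul, smul_comm]
    rw [sem_hT h2 hi σ 1 hb hb h4, um_one, kapF_one, zero_mul, add_zero]
  cent := by
    intro x hx hxP
    have hxψ : ∀ w, ψ x * pT h2 hi σ w = pT h2 hi σ w * ψ x := by
      intro w
      rw [← ψ_pJ h2 hi σ hj, ← map_mul, ← map_mul, hxP]
    obtain ⟨M, τ, hf⟩ := haut x
    have hsem : ∀ w, sem M τ * pT h2 hi σ w = pT h2 hi σ w * sem M τ := by
      intro w
      have h4 := hxψ w
      rcases hf with hf | hf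
      · rwa [hf] at h4
      · rw [hf, mul_assoc, pT_it, ← mul_assoc, ← mul_assoc] at h4
        exact mul_right_cancel h4
    obtain ⟨w₀, hw₀⟩ := fix_rel (r := r) h2 hi σ (by omega) hsem
    rcases hf with hf | hf
    · refine ⟨w₀, 0, τ, fun b hb μ => ?_, fun hx2 => ?_, fun e1 _ e3 => ?_⟩
      · apply hψ
        rw [map_mul, map_mul, map_inv, map_zpow, ψ_hJ h2 hi σ hj, ψ_hJ h2 hi σ hj, hf,
          sem_hT h2 hi σ τ hb hb (PP_of_PM σ (hw₀ b)), zero_mul, add_zero]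
      · have h4 : sem M τ ^ 2 = 1 := by rw [← hf, ← map_pow, hx2, map_one]
        obtain ⟨N, hN⟩ := sem_pow' M τ 2
        rw [hN] at h4
        exact (sem_trivial (r := r) h4 (by omega)).1
      · subst e1
        subst e3
        have h4 : sem M 1 = 1 := sem_trivial' σ (fun w => by
          rw [hw₀, wf_zero, s2_zero, one_smul]) h2
        have h5 : x = 1 := hψ (by rw [hf, h4, map_one])
        rw [h5]
        exact one_mem _
    · refine ⟨w₀, 1, τ, fun b hb μ => ?_, fun hx2 => ?_, fun _ e2 _ => absurd e2 one_ne_zero⟩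
      · apply hψ
        rw [map_mul, map_mul, map_inv, map_zpow, ψ_hJ h2 hi σ hj, ψ_hJ h2 hi σ hj, hf]
        have h6 : sem M τ * ind (itA m F) * hT h2 hi σ b μ * (sem M τ * ind (itA m F))⁻¹ =
            sem M τ * (ind (itA m F) * hT h2 hi σ b μ * (ind (itA m F))⁻¹) * (sem M τ)⁻¹ := by
          group
        rw [h6, it_hT h2 hi σ hb, ← conj_zpow, sem_hT h2 hi σ τ hb hb (PP_of_PM σ (hw₀ b)),
          ← zpow_mul, ← sgn_add, one_mul]
        congr 2
        ring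
      · have h4 : (sem M τ * ind (itA m F)) ^ 2 = 1 := by rw [← hf, ← map_pow, hx2, map_one]
        have h5 : (sem M τ * ind (itA m F)) ^ 2 = sem (M * gla τ (gt M)) (τ ^ 2) := by
          rw [pow_two τ, ← sem_mul, ← it_sem, pow_two]
          group
        rw [h5] at h4
        exact (sem_trivial (r := r) h4 (by omega)).1
  CL := by
    rintro _ ⟨M, rfl⟩ hxP
    have hsem : ∀ w, sem M 1 * pT h2 hi σ w = pT h2 hi σ w * sem M 1 := by
      intro w
      rw [← hj, ← ψ_pJ h2 hi σ hj, ← map_mul, ← map_mul, hxP]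
    obtain ⟨w₀, hw₀⟩ := fix_rel (r := r) h2 hi σ (by omega) hsem
    obtain ⟨c, hc⟩ := PM_scalar h2 σ (A := PM F σ w₀ * M.1) (by
      intro w
      rw [Matrix.mul_assoc, hw₀, Matrix.mul_smul, ← Matrix.mul_assoc, PM_comm σ w₀ w,
        Matrix.smul_mul, smul_smul, s2_sq, one_smul, Matrix.mul_assoc])
    obtain ⟨d, hd, h3⟩ := TS_i h2 hi σ w₀
    refine ⟨w₀, hψ ?_⟩
    rw [hj, pJ, hj]
    refine sem_congr (c := s2 F (Qf w₀) * c * d⁻¹) ?_
    have h6 : (tog (TS h2 hi σ w₀ i)).1 = (TS h2 hi σ w₀ i).1 := rfl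
    have h4 : PM F σ w₀ * (PM F σ w₀ * M.1) = c • PM F σ w₀ := by
      rw [hc, Matrix.mul_smul, Matrix.mul_one]
    rw [← Matrix.mul_assoc, PM_sq, Matrix.smul_mul, Matrix.one_mul] at h4
    rw [h6, h3, smul_smul, mul_assoc _ d⁻¹ d, inv_mul_cancel₀ hd, mul_one, mul_smul, ← h4,
      smul_smul, s2_sq, one_smul]
  conj := by
    rintro _ ⟨M, rfl⟩ b b' hb hb' h
    have h3 : sem M 1 * sem (tog (TS h2 hi σ b i)) 1 * (sem M 1)⁻¹ =
        sem (tog (TS h2 hi σ b' i)) 1 := by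
      rw [← pT_val, ← pT_val, ← ψ_pJ h2 hi σ hj, ← ψ_pJ h2 hi σ hj, ← h, map_mul, map_mul, map_inv,
        hj]
    obtain ⟨c, hc, h4⟩ := rel_of_conj (r := r) (by omega) h3
    obtain ⟨d, hd, h5⟩ := TS_i' h2 hi σ b
    obtain ⟨d', hd', h6⟩ := TS_i' h2 hi σ b'
    have h7 : M.1 * PP (i : F) σ b = (d⁻¹ * (c * d')) • (PP (i : F) σ b' * M.1) := by
      have h8 : d • (M.1 * PP (i : F) σ b) = (c * d') • (PP (i : F) σ b' * M.1) := by
        rw [mul_smul, ← Matrix.smul_mul d', ← h6, ← h4, h5]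
        have h9 : ((d • PP (i : F) σ b).map (1 : RingAut F)) = d • PP (i : F) σ b := by
          ext u v
          rfl
        rw [h9, Matrix.mul_smul]
      rw [mul_smul, ← h8, smul_smul, inv_mul_cancel₀ hd, one_smul]
    obtain ⟨D, hD⟩ : ∃ D : F, D = d⁻¹ * (c * d') := ⟨_, rfl⟩
    rw [← hD] at h7
    have h8 : D * D = 1 := by
      have h9 : M.1 * (PP (i : F) σ b * PP (i : F) σ b) =
          (D * D) • ((PP (i : F) σ b' * PP (i : F) σ b') * M.1) := by
        rw [← Matrix.mul_assoc, h7, Matrix.smul_mul, Matrix.mul_assoc, h7, Matrix.mul_smul,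
          smul_smul, ← Matrix.mul_assoc]
      rw [PP_sq hi, PP_sq hi, Matrix.mul_one, Matrix.one_mul] at h9
      have h10 : (1 - D * D) • M.1 = 0 := by rw [sub_smul, one_smul, ← h9, sub_self]
      rcases smul_eq_zero.1 h10 with h11 | h11
      · exact (sub_eq_zero.1 h11).symm
      · exfalso
        have h12 := mul_inv_val M
        rw [h11, Matrix.zero_mul] at h12
        exact zero_ne_one h12
    obtain ⟨e, he⟩ := exists_s2 h8
    rw [he] at h7
    refine ⟨e, fun μ => hψ ?_⟩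
    rw [map_mul, map_mul, map_inv, map_zpow, ψ_hJ h2 hi σ hj, ψ_hJ h2 hi σ hj, hj,
      sem_hT h2 hi σ 1 hb hb' h7, um_one, kapF_one, zero_mul, add_zero]

end

end Vale.Agent.P240.R2.H487
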