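import Vale.Agent.P240.R2.H487.DO3
import Vale.Agent.P240.R2.H487.EDefs
import Vale.Agent.P240.R2.H979.Num
import Vale.Agent.P240.R2.H979.AutT

/-!
The property `AutTop` for `PSL_n(F)`, `n` a power of `2`, `|F| = 1` modulo `4`.
-/

set_option linter.all false

namespace Vale.Agent.P240.R2.H487

open Finsupp hiding cons
open Subgroup Vale.Agent.P240.K Vale.Agent.P240.H195

universe u v

section
variable {G : Type u} [Group G]

lemma cj_centralizer (y : G) (B : Subgroup G) :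
    cj y (centralizer (B : Set G)) = centralizer ((cj y B : Subgroup G) : Set G) := by
  ext x
  rw [mem_cj, mem_centralizer_iff, mem_centralizer_iff]
  constructor
  · intro h z hz
    have h1 := h _ (mem_cj.1 hz)
    calc z * x = y * ((y⁻¹ * z * y) * (y⁻¹ * x * y)) * y⁻¹ := by group
      _ = y * ((y⁻¹ * x * y) * (y⁻¹ * z * y)) * y⁻¹ := by rw [h1]
      _ = x * z := by group
  · intro h z hz
    have h1 := h (y * z * y⁻¹) (mem_cj.2 (by
      have : y⁻¹ * (y * z * y⁻¹) * y = z := by group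
      rwa [this]))
    calc z * (y⁻¹ * x * y) = y⁻¹ * ((y * z * y⁻¹) * x) * y := by group
      _ = y⁻¹ * (x * (y * z * y⁻¹)) * y := by rw [h1]
      _ = y⁻¹ * x * y * z := by group

lemma cj_normal {L : Subgroup G} (hL : L.Normal) (y : G) : cj y L = L := by
  ext x
  rw [mem_cj]
  refine ⟨fun h => ?_, fun h => ?_⟩
  · have h1 := hL.conj_mem _ h y
    have h2 : y * (y⁻¹ * x * y) * y⁻¹ = x := by group
    rwa [h2] at h1
  · have h1 := hL.conj_mem _ h y⁻¹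
    rwa [inv_inv] at h1

lemma cj_ApS {p : ℕ} {y : G} {E : Subgroup G} (h : E ∈ ApS p G) : cj y E ∈ ApS p G := by
  obtain ⟨h1, h2, h3⟩ := h
  refine ⟨fun h0 => h1 ?_, fun x hx z hz => ?_, fun x hx => ?_⟩
  · rw [← cj_inv y E, h0, cj_bot]
  · have h4 := h2 _ (mem_cj.1 hx) _ (mem_cj.1 hz)
    calc x * z = y * ((y⁻¹ * x * y) * (y⁻¹ * z * y)) * y⁻¹ := by group
      _ = y * ((y⁻¹ * z * y) * (y⁻¹ * x * y)) * y⁻¹ := by rw [h4]
      _ = z * x := by group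
  · have h4 := h3 _ (mem_cj.1 hx)
    have h5 : x = y * (y⁻¹ * x * y) * y⁻¹ := by group
    rw [h5, conj_pow, h4]
    group

end

section
variable {𝕜 : Type v} [Field 𝕜] {Λ : Type u} [Group Λ]

/-- the property `AutTop` from a relative theorem for one subgroup -/
theorem autTop_of [Finite Λ] {A₀ : Subgroup (MulAut Λ)}
    (hA0 : A₀ ≤ (MulAut.conj (G := Λ)).range) (hA1 : A₀ ∈ ApS 2 (MulAut Λ))
    (hA2 : ∀ x ∈ (MulAut.conj (G := Λ)).range, (∀ y ∈ A₀, x * y = y * x) → x ∈ A₀)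
    (hcore : ∀ E ∈ ApS 2 (MulAut Λ), ∀ E₁ ≤ E, A₀ ≤ E₁ → ∃ B ≤ E, E₁ ⊔ B = E ∧ E₁ ⊓ B = ⊥ ∧
      ∃ y : MulAut Λ, cj y E₁ ≤ ((MulAut.conj (G := Λ)).range ⊔ E₁) ⊓
          centralizer (B : Set (MulAut Λ)) ∧
        ∃ (α : Ch 𝕜 (Subgroup (MulAut Λ))) (φ : List (Subgroup (MulAut Λ))),
          TopCycle 𝕜 2 (((MulAut.conj (G := Λ)).range ⊔ E₁) ⊓
            centralizer (B : Set (MulAut Λ))) (cj y E₁) α φ) : AutTop 𝕜 Λ := by
  have hLn : (MulAut.conj (G := Λ)).range.Normal := by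
    constructor
    rintro _ ⟨x, rfl⟩ f
    exact ⟨f x, (conj_aut f x).symm⟩
  refine ⟨{A | ∃ y : MulAut Λ, A = cj y A₀}, ⟨A₀, 1, (cj_one _).symm⟩, ?_, ?_⟩
  · rintro _ ⟨y, rfl⟩
    refine ⟨?_, cj_ApS hA1, fun x hx hxy => ?_⟩
    · rw [← cj_normal hLn y]
      exact cj_mono hA0
    · rw [mem_cj]
      refine hA2 _ ?_ fun z hz => ?_
      · have h1 := hLn.conj_mem _ hx y⁻¹
        rwa [inv_inv] at h1
      · have h1 := hxy (y * z * y⁻¹) (mem_cj.2 (by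
          have : y⁻¹ * (y * z * y⁻¹) * y = z := by group
          rwa [this]))
        calc y⁻¹ * x * y * z = y⁻¹ * (x * (y * z * y⁻¹)) * y := by group
          _ = y⁻¹ * ((y * z * y⁻¹) * x) * y := by rw [h1]
          _ = z * (y⁻¹ * x * y) := by group
  · rintro E hab h2 E₁ hE₁ ⟨_, ⟨y, rfl⟩, hyE⟩
    have hA' : A₀ ≤ cj y⁻¹ E₁ := by
      rw [← cj_inv y A₀]
      exact cj_mono hyE
    have hE : E ∈ ApS 2 (MulAut Λ) := by
      refine ⟨fun h0 => ?_, hab, h2⟩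
      rw [h0] at hE₁
      rw [le_bot_iff.1 hE₁, cj_bot] at hA'
      exact hA1.1 (le_bot_iff.1 hA')
    obtain ⟨B, hBE, hB1, hB2, z, hz, α, φ, hT⟩ :=
      hcore (cj y⁻¹ E) (cj_ApS hE) (cj y⁻¹ E₁) (cj_mono hE₁) hA'
    have hE₁' : E₁ ∈ ApS 2 (MulAut Λ) := by
      refine ⟨fun h0 => ?_, fun x hx w hw => hab x (hE₁ hx) w (hE₁ hw), fun x hx => h2 x (hE₁ hx)⟩
      rw [h0, cj_bot] at hA'
      exact hA1.1 (le_bot_iff.1 hA')
    have hM : cj y (((MulAut.conj (G := Λ)).range ⊔ cj y⁻¹ E₁) ⊓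
        centralizer (B : Set (MulAut Λ))) = ((MulAut.conj (G := Λ)).range ⊔ E₁) ⊓
          centralizer ((cj y B : Subgroup (MulAut Λ)) : Set (MulAut Λ)) := by
      rw [(cj y).map_inf, (cj y).map_sup, cj_inv', cj_normal hLn, cj_centralizer]
    have hw : cj y (cj z (cj y⁻¹ E₁)) = cj (y * z * y⁻¹) E₁ := by
      rw [cj_mul, cj_mul]
    have hle : cj (y * z * y⁻¹) E₁ ≤ ((MulAut.conj (G := Λ)).range ⊔ E₁) ⊓
          centralizer ((cj y B : Subgroup (MulAut Λ)) : Set (MulAut Λ)) := by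
      rw [← hM, ← hw]
      exact cj_mono hz
    refine ⟨cj y B, ?_, ?_, ?_, cj (y * z * y⁻¹) E₁, hle, cj_ApS hE₁',
      ⟨cj (y * z) A₀, ⟨_, rfl⟩, ?_⟩, ?_, (card_cj _ _).ge, ?_⟩
    · rw [← cj_inv' y E]
      exact cj_mono hBE
    · rw [← cj_inv' y E, ← hB1, (cj y).map_sup, cj_inv']
    · rw [← cj_bot y, ← hB2, (cj y).map_inf, cj_inv']
    · rw [← hw, cj_mul]
      exact cj_mono (cj_mono hA')
    · refine eq_of_le_of_card_ge (sup_le le_sup_left (hle.trans inf_le_left)) ?_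
      have h1 : cj (y * z * y⁻¹) ((MulAut.conj (G := Λ)).range ⊔ E₁) =
          (MulAut.conj (G := Λ)).range ⊔ cj (y * z * y⁻¹) E₁ := by
        rw [(cj _).map_sup, cj_normal hLn]
      rw [← h1, card_cj]
    · rw [← hM, ← hw]
      exact topCycle_cj hT hz y

end

end Vale.Agent.P240.R2.H487
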