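import Vale.Agent.P240.R2.H487.DO4
import Vale.Agent.P240.R2.H487.CO4

/-!
The property `AutTop` for `PSL_n(F)`, `n` a power of `2`, `|F| = 1` modulo `4`.
-/

set_option linter.all false

namespace Vale.Agent.P240.R2.H487

open Matrix hiding single
open Finsupp hiding cons
open Subgroup Vale.Agent.P240.K Vale.Agent.P240.H195

universe u v w

section
variable {G : Type u} [Group G] {F : Type*} [Field F] {W : Type*} [AddCommGroup W]
variable {L : Subgroup G} {a : ℕ} {ω : W → W → ZMod 2} {Q : W → ZMod 2} {e : Fin a → Bool → W}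
  {κ : RingAut F → ZMod 2} {tor : W → Fˣ →* G} {P : W → G}

lemma PG_ApS (h : PTS L a ω Q e κ tor P) (ha : 2 ≤ a) : PG h ∈ ApS 2 G := by
  refine ⟨?_, ?_, ?_⟩
  · intro h0
    have h1 := PG_card h
    rw [h0, Subgroup.card_bot] at h1
    have h2 : 1 < 4 ^ a := Nat.one_lt_pow (by omega) (by norm_num)
    omega
  · rintro _ ⟨w, rfl⟩ _ ⟨w', rfl⟩
    exact h.Pcomm w w'
  · rintro _ ⟨w, rfl⟩
    rw [pow_two, h.Psq]

end

section
variable {F : Type w} [Field F] {a m : ℕ}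

lemma range_tog : ((pgl m F).comp (togH m F)).range = (MulAut.conj (G := PL m F)).range := by
  ext x
  constructor
  · rintro ⟨X, rfl⟩
    exact ⟨pr m F X, conj_eq_sem X⟩
  · rintro ⟨y, rfl⟩
    obtain ⟨X, rfl⟩ := QuotientGroup.mk'_surjective _ y
    exact ⟨X, (conj_eq_sem X).symm⟩

lemma sem_conj_sem (M A : GLm m F) (τ : RingAut F) :
    sem M τ * sem A 1 * (sem M τ)⁻¹ = sem (M * gla τ A * M⁻¹) 1 := by
  rw [mul_inv_eq_iff_eq_mul, sem_mul, sem_mul, gla_one, mul_one, one_mul, inv_mul_cancel_right]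

lemma it_conj_sem (A : GLm m F) :
    ind (itA m F) * sem A 1 * (ind (itA m F))⁻¹ = sem (gt A) 1 := by
  have hinv : (ind (itA m F))⁻¹ = ind (itA m F) := inv_eq_of_mul_eq_one_left itA_sq
  rw [hinv, it_sem]

/-- the linear automorphisms form a normal subgroup -/
lemma pgl_conj (haut : ∀ g : MulAut (PL m F), ∃ M τ, g = sem M τ ∨ g = sem M τ * ind (itA m F))
    (x : MulAut (PL m F)) {y : MulAut (PL m F)} (hy : y ∈ (pgl m F).range) :
    x * y * x⁻¹ ∈ (pgl m F).range := by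
  obtain ⟨A, rfl⟩ := hy
  obtain ⟨M, τ, rfl | rfl⟩ := haut x
  · exact ⟨_, (sem_conj_sem M A τ).symm⟩
  · refine ⟨M * gla τ (gt A) * M⁻¹, ?_⟩
    rw [pgl_apply, pgl_apply, ← sem_conj_sem, ← it_conj_sem]
    group

/-- the centralizer of the inner automorphisms -/
lemma cen_inn {Λ : Type*} [Group Λ] (hc : ∀ x : Λ, (∀ y, x * y = y * x) → x = 1) :
    centralizer ((MulAut.conj (G := Λ)).range : Set (MulAut Λ)) = ⊥ := by
  rw [eq_bot_iff]
  intro f hf
  rw [mem_bot]
  have key : ∀ y z : Λ, MulAut.conj y = MulAut.conj z → y = z := by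
    intro y z hyz
    rw [← inv_mul_eq_one]
    have h1 : z⁻¹ * y = 1 := by
      apply hc
      intro x
      have h3 := congrArg (fun g : MulAut Λ => g x) hyz
      simp only [MulAut.conj_apply] at h3
      have h4 : y * x = z * x * z⁻¹ * y := by rw [← h3]; group
      calc z⁻¹ * y * x = z⁻¹ * (y * x) := by group
        _ = z⁻¹ * (z * x * z⁻¹ * y) := by rw [h4]
        _ = x * (z⁻¹ * y) := by group
    rw [← inv_eq_one, _root_.mul_inv_rev, inv_inv]
    exact h1
  ext y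
  rw [MulAut.one_apply]
  apply key
  rw [← conj_aut]
  have h1 := (mem_centralizer_iff.1 hf) (MulAut.conj y) ⟨y, rfl⟩
  rw [← h1, mul_inv_cancel_right]

/-- **The property `AutTop` for `PSL_n(F)`**, `n` a power of `2`, `|F| = 1` modulo `4`. -/
theorem psl_autTop1 [Finite F] {𝕜 : Type v} [Field 𝕜] (hm : m + 1 = 2 ^ a)
    (ha : 2 ≤ a) (h4 : Nat.card F % 4 = 1)
    (hq : Nat.card F ≠ 5 ∧ Nat.card F ≠ 9 ∧ Nat.card F ≠ 25) (hsimple : IsSimpleGroup (PL m F))
    (hc : ∀ x : PL m F, (∀ y, x * y = y * x) → x = 1) : AutTop 𝕜 (PL m F) := by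
  obtain ⟨r, hr, hchar⟩ := exists_char F
  have := Fintype.ofFinite F
  have hm2 : 2 ≤ m := by
    have : 2 ^ 2 ≤ 2 ^ a := Nat.pow_le_pow_right (by norm_num) ha
    omega
  have hodd : Odd (Nat.card F) := Nat.odd_iff.2 (by omega)
  obtain ⟨n, -, hn⟩ := FiniteField.card F r
  have hrodd : Odd r := by
    rw [← Nat.card_eq_fintype_card] at hn
    rw [hn] at hodd
    exact (Nat.odd_pow_iff n.ne_zero).1 hodd
  have h2 : (2 : F) ≠ 0 := by
    intro h0
    have h1 : r ∣ 2 := (CharP.cast_eq_zero_iff F r 2).1 (by exact_mod_cast h0)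
    have h3 : r = 2 := (Nat.prime_dvd_prime_iff_eq hr.out Nat.prime_two).1 h1
    rw [h3] at hrodd
    exact absurd hrodd (by decide)
  obtain ⟨i0, hi0⟩ : IsSquare (-1 : F) := by
    rw [FiniteField.isSquare_neg_one_iff, ← Nat.card_eq_fintype_card, h4]
    decide
  have hi00 : i0 ≠ 0 := by
    rintro rfl
    rw [mul_zero, neg_eq_zero] at hi0
    exact one_ne_zero hi0
  have hi : ((Units.mk0 i0 hi00 : Fˣ) : F) * (Units.mk0 i0 hi00 : Fˣ) = -1 := hi0.symm
  have σ : Fin (m + 1) ≃ Vv a := (Fintype.equivFinOfCardEq (by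
    rw [Fintype.card_fun, ZMod.card, Fintype.card_fin, hm])).symm
  have haut : ∀ g : MulAut (PL m F), ∃ M τ, g = sem M τ ∨ g = sem M τ * ind (itA m F) :=
    fun g => aut_psl (r := r) hm2 hsimple g
  have h := hts h2 hi σ (r := r) (ψ := MonoidHom.id (MulAut (PL m F))) (j := pgl m F) hm2
    (fun _ _ hx => hx) (fun M => rfl) haut
  rw [range_tog] at h
  have hp := h.toPTS
  refine autTop_of (A₀ := PG hp) ?_ (PG_ApS hp ha) ?_ ?_
  · rintro _ ⟨w, rfl⟩
    exact h.PL w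
  · intro x hx hxy
    obtain ⟨w, rfl⟩ := hp.CL x hx fun w => hxy _ ⟨w, rfl⟩
    exact ⟨w, rfl⟩
  · intro E hE E₁ hE₁ hA
    have hLn : (MulAut.conj (G := PL m F)).range.Normal := by
      constructor
      rintro _ ⟨x, rfl⟩ f
      exact ⟨f x, (conj_aut f x).symm⟩
    have hnorm : normalizer ((MulAut.conj (G := PL m F)).range : Set (MulAut (PL m F))) = ⊤ :=
      normalizer_eq_top_iff.2 hLn
    obtain ⟨B, hB, hB1, hB2, y, -, hy, hT⟩ := coreA (𝕜 := 𝕜) h ha (cen_inn hc)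
      (fun x _ y hy => pgl_conj haut x hy) (H979.numA h4 hq) hE
      (by rw [hnorm]; exact le_top) hE₁ fun w => hA ⟨w, rfl⟩
    exact ⟨B, hB, hB1, hB2, y, hy, hT⟩

end

end Vale.Agent.P240.R2.H487
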