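import Vale.Agent.P240.R2.H487.EDefs

/-!
The property `AutTop`, relative form.
-/

set_option linter.all false

namespace Vale.Agent.P240.R2.H487

open Finsupp hiding cons
open Subgroup Vale.Agent.P240.K Vale.Agent.P240.H195

universe u v

/-- the relative form of `AutTop`: a subgroup `L` of `G` with a family of elementary abelian
subgroups of `L`, equal to their centralizers in `L` -/
def RelTop {G : Type u} [Group G] (𝕜 : Type v) [Field 𝕜] (L : Subgroup G) : Prop :=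
  ∃ 𝒜 : Set (Subgroup G), 𝒜.Nonempty ∧
    (∀ A ∈ 𝒜, A ≤ L ∧ A ∈ ApS 2 G ∧ ∀ x ∈ L, (∀ y ∈ A, x * y = y * x) → x ∈ A) ∧
    ∀ E ≤ normalizer (L : Set G), (∀ x ∈ E, ∀ y ∈ E, x * y = y * x) → (∀ x ∈ E, x ^ 2 = 1) →
      ∀ E₁ ≤ E, (∃ A ∈ 𝒜, A ≤ E₁) → ∃ B ≤ E, E₁ ⊔ B = E ∧ E₁ ⊓ B = ⊥ ∧
        ∃ E' ≤ (L ⊔ E₁) ⊓ centralizer (B : Set G),
          E' ∈ ApS 2 G ∧ (∃ A ∈ 𝒜, A ≤ E') ∧ L ⊔ E' = L ⊔ E₁ ∧ Nat.card E₁ ≤ Nat.card E' ∧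
          ∃ (α : Ch 𝕜 (Subgroup G)) (φ : List (Subgroup G)),
            TopCycle 𝕜 2 ((L ⊔ E₁) ⊓ centralizer (B : Set G)) E' α φ

end Vale.Agent.P240.R2.H487
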