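import Vale.Agent.P240.R2.H487.DO4
import Vale.Agent.P240.R2.H487.RDefs

/-!
Subgroups of systems of half tori.
-/

set_option linter.all false

namespace Vale.Agent.P240.R2.H487

open Finsupp hiding cons
open Subgroup Vale.Agent.P240.K Vale.Agent.P240.H195

universe u v

section
variable {G : Type u} [Group G] {F : Type*} [Field F] {W : Type*} [AddCommGroup W]
variable {L N : Subgroup G} {a : ℕ} {ω : W → W → ZMod 2} {Q : W → ZMod 2} {e : Fin a → Bool → W}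
  {κ : RingAut F → ZMod 2} {ht : W → Fˣ →* G} {P : W → G}

/-- the counts for a subgroup of a system of half tori -/
def MXP (N : Subgroup G) (ht : W → Fˣ →* G) (P : W → G) (L₀ : Subgroup G) : Prop :=
  ∀ y ∈ N, ∀ b, b ≠ 0 → y * P b * y⁻¹ ∈ L₀ →
    12 ≤ Nat.card {μ : Fˣ // y * ht b (μ ^ 2) * y⁻¹ ∈ L₀} ∧
    3 * Nat.card {μ : Fˣ // y * ht b μ * y⁻¹ ∈ L₀ ∧ μ ^ 4 = 1} ≤
      2 * Nat.card {μ : Fˣ // y * ht b μ * y⁻¹ ∈ L₀} ∧
    ∃ μ : Fˣ, y * ht b μ * y⁻¹ ∈ L₀ ∧ μ ^ 4 ≠ 1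

lemma MXP.conj {L₀ : Subgroup G} (h : MXP N ht P L₀) {z : G} (hz : z ∈ N) :
    MXP N ht P (cj z⁻¹ L₀) := by
  intro y hy b hb hyb
  have key : ∀ v : G, y * v * y⁻¹ ∈ cj z⁻¹ L₀ ↔ (z * y) * v * (z * y)⁻¹ ∈ L₀ := by
    intro v
    rw [mem_cj, inv_inv]
    have : z * (y * v * y⁻¹) * z⁻¹ = (z * y) * v * (z * y)⁻¹ := by group
    rw [this]
  simp only [key] at hyb ⊢
  exact h _ (mul_mem hz hy) b hb hyb

/-- vanishing of the representations -/
lemma rep_zero (hp : PTS L a ω Q e κ (tr2 ht) P) (ha : 2 ≤ a) {w : W} {ε : ZMod 2}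
    (h8 : ∀ b, b ≠ 0 → ω w b + ε * (Q b + 1) = 0) : ε = 0 ∧ w = 0 := by
  obtain ⟨y, hy⟩ : ∃ y : Fin a, (y : ℕ) = 0 := ⟨⟨0, by omega⟩, rfl⟩
  obtain ⟨z, hz⟩ : ∃ z : Fin a, (z : ℕ) = 1 := ⟨⟨1, by omega⟩, rfl⟩
  have hyz : y ≠ z := by
    intro h2
    have := congrArg Fin.val h2
    omega
  have hne' : e y false + e z false ≠ 0 := by
    intro h7
    have h8 := congrArg (fun v => ω v (e y true)) h7
    simp only [hp.ωadd, hp.ωe, hp.ωe' z y _ _ (Ne.symm hyz), hp.ωzero] at h8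
    exact one_ne_zero h8
  have q1 := h8 _ (hp.e_ne y false)
  have q2 := h8 _ (hp.e_ne z false)
  have q3 := h8 _ hne'
  rw [hp.ωadd', hp.Qadd, hp.ωe' y z _ _ hyz, add_zero] at q3
  have hε : ε = 0 := by
    have e5 : ∀ p q r s t : ZMod 2, p + t * (r + 1) = 0 → q + t * (s + 1) = 0 →
        p + q + t * (r + s + 1) = 0 → t = 0 := by decide
    exact e5 _ _ _ _ _ q1 q2 q3
  refine ⟨hε, hp.sep w fun j α => ?_⟩
  have h7 := h8 _ (hp.e_ne j α)
  rwa [hε, zero_mul, add_zero] at h7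

lemma ratW [Finite F] (h : HTS L N a ω Q e κ ht P) {b : W} (hb : b ≠ 0) {Z L₁ : Subgroup G}
    (hZr : Z ≤ (ht b).range) (hZ : ∀ μ, ht b μ ∈ Z ↔ ht b μ ∈ L₁)
    (hr : 3 * Nat.card {μ : Fˣ // 1 * ht b μ * 1⁻¹ ∈ L₁ ∧ μ ^ 4 = 1} ≤
      2 * Nat.card {μ : Fˣ // 1 * ht b μ * 1⁻¹ ∈ L₁}) :
    3 * Nat.card {v : G // v ∈ Z ∧ v ^ 4 = 1} ≤ 2 * Nat.card Z := by
  have hinj : ∀ μ ν, ht b μ = ht b ν → μ = ν := by
    intro μ ν h6
    have h7 : ht b (μ * ν⁻¹) = 1 := by rw [map_mul, map_inv, h6, mul_inv_cancel]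
    exact mul_inv_eq_one.1 ((h.ht1 b hb _).1 h7)
  have e0 : ∀ v : G, 1 * v * 1⁻¹ = v := fun v => by group
  simp only [e0] at hr
  have h1 : Nat.card {μ : Fˣ // ht b μ ∈ L₁} = Nat.card Z := by
    refine Nat.card_eq_of_bijective (fun μ : {μ : Fˣ // ht b μ ∈ L₁} =>
      (⟨ht b μ.1, (hZ _).2 μ.2⟩ : Z)) ⟨fun μ ν hμν => ?_, fun v => ?_⟩
    · exact Subtype.ext (hinj _ _ (congrArg Subtype.val hμν))
    · obtain ⟨v, hv⟩ := v
      obtain ⟨μ, rfl⟩ := hZr hv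
      exact ⟨⟨μ, (hZ μ).1 hv⟩, rfl⟩
  have h2 : Nat.card {μ : Fˣ // ht b μ ∈ L₁ ∧ μ ^ 4 = 1} = Nat.card {v : G // v ∈ Z ∧ v ^ 4 = 1} := by
    refine Nat.card_eq_of_bijective (fun μ : {μ : Fˣ // ht b μ ∈ L₁ ∧ μ ^ 4 = 1} =>
      (⟨ht b μ.1, (hZ _).2 μ.2.1, by rw [← map_pow, μ.2.2, map_one]⟩ :
        {v : G // v ∈ Z ∧ v ^ 4 = 1})) ⟨fun μ ν hμν => ?_, fun v => ?_⟩
    · exact Subtype.ext (hinj _ _ (congrArg Subtype.val hμν))
    · obtain ⟨v, hv, h4⟩ := v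
      obtain ⟨μ, rfl⟩ := hZr hv
      rw [← map_pow] at h4
      exact ⟨⟨μ, (hZ μ).1 hv, (h.ht1 b hb _).1 h4⟩, rfl⟩
  rw [← h1, ← h2]
  exact hr

/-- **The relative theorem for a subgroup of a system of half tori.** -/
theorem coreB1 [Finite G] [Finite F] {𝕜 : Type v} [Field 𝕜] (h : HTS L N a ω Q e κ ht P)
    (ha : 2 ≤ a) (hLC : centralizer (L : Set G) = ⊥) (hnorm : normalizer (L : Set G) = ⊤)
    (num : NumA F)
    (hcent : ∀ x : G, (∀ w, x * P w = P w * x) → ∃ (w₀ : W) (ε : ZMod 2), ∀ b, b ≠ 0 → ∀ μ,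
      x * ht b μ * x⁻¹ = ht b μ ^ sgn (ω w₀ b + ε * (Q b + 1)))
    {L₁ : Subgroup G} (hP1 : ∀ w, P w ∈ L₁) (hL1 : L₁ ≤ N) (mx : MXP N ht P L₁)
    {E : Subgroup G} (hE : E ∈ ApS 2 G) (hEN : E ≤ normalizer (L₁ : Set G)) {E₁ : Subgroup G}
    (hE₁ : E₁ ≤ E) (hPE : ∀ w, P w ∈ E₁) :
    ∃ B ≤ E, E₁ ⊔ B = E ∧ E₁ ⊓ B = ⊥ ∧ ∃ y ∈ N,
      cj y E₁ ≤ (L₁ ⊔ E₁) ⊓ centralizer (B : Set G) ∧ (∀ w, y * P w * y⁻¹ ∈ L₁) ∧
      L₁ ⊔ cj y E₁ = L₁ ⊔ E₁ ∧
      ∃ (α : Ch 𝕜 (Subgroup G)) (φ : List (Subgroup G)),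
        TopCycle 𝕜 2 ((L₁ ⊔ E₁) ⊓ centralizer (B : Set G)) (cj y E₁) α φ := by
  have hp := h.toPTS
  have hW : ∃ b : W, b ≠ 0 := ⟨_, hp.e_ne ⟨0, by omega⟩ false⟩
  have hEC : E₁ ⊓ centralizer (L : Set G) = ⊥ := by rw [hLC, inf_bot_eq]
  obtain ⟨U, c, f, η, τ₀, d, hact, hU⟩ :=
    h.edata0 hE (by rw [hnorm]; exact le_top) (fun w => hE₁ (hPE w)) num.h4 hW num.hτ
  -- no field automorphisms
  have hf0 : ∀ x ∈ E, f x = 0 := by
    rcases hU with ⟨-, hU⟩ | ⟨hne, h2, -⟩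
    · exact hU
    · intro x hx
      by_contra hfx
      have hfx1 : f x = 1 := (zmod2_cases _).resolve_left hfx
      obtain ⟨w₀, ε, h3⟩ := hcent x fun w => d.comm x hx _ (hE₁ (hPE w))
      obtain ⟨b, hb⟩ := hW
      obtain ⟨t, ht'⟩ : ∃ t, t = ω w₀ b + ε * (Q b + 1) := ⟨_, rfl⟩
      obtain ⟨⟨μ, hμ⟩, -⟩ := num.hτ τ₀ hne h2 (t + c b x)
      apply hμ
      rw [mem_Ut]
      have h4 := hact x hx b hb μ
      rw [h3 b hb, ← ht', hfx1, tp_one] at h4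
      have h5 : ht b (um τ₀ μ) = ht b μ ^ sgn (t + c b x) := by
        rw [sgn_add, zpow_mul, h4, ← zpow_mul, sgn_mul_self, zpow_one]
      have h6 : um τ₀ μ = μ ^ sgn (t + c b x) := by
        rw [← mul_inv_eq_one, ← h.ht1 b hb, map_mul, map_inv, h5, map_zpow, mul_inv_cancel]
      rw [h6, ← zpow_natCast (μ ^ sgn (t + c b x)), ← zpow_mul, mul_comm (sgn _), zpow_mul,
        zpow_natCast]
  have r := d.rel0 hE₁ hPE hEC fun x hx => hf0 x (hE₁ hx)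
  have hact0 : ∀ x ∈ E, ∀ b, b ≠ 0 → ∀ μ, x * ht b μ * x⁻¹ =
      (ht b μ) ^ sgn ((fun b x => c b x + η * f x) b x) := by
    intro x hx b hb μ
    change _ = (ht b μ) ^ sgn (c b x + η * f x)
    rw [hact x hx b hb, hf0 x hx, tp_zero, um_one, mul_zero, add_zero]
  obtain ⟨c', hc'⟩ : ∃ c' : W → G → ZMod 2, c' = fun b x => c b x + η * f x := ⟨_, rfl⟩
  rw [← hc'] at r hact0
  -- elements of `E₁` in `N`
  have hnormE : ∀ b ∈ E₁, ∀ a ∈ L₁, b * a * b⁻¹ ∈ L₁ := fun b hb a ha =>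
    (mem_normalizer_iff.1 (hEN (hE₁ hb)) a).1 ha
  have hEP : ∀ x ∈ E₁, x ∈ N → ∃ w, x = P w := fun x hx hxN =>
    h.CL x hxN fun w => d.comm x (hE₁ hx) _ (hE₁ (hPE w))
  have hsupN : ∀ x ∈ L₁ ⊔ E₁, x ∈ N → x ∈ L₁ := by
    intro x hx hxN
    obtain ⟨l, hl, g, hg, rfl⟩ := mem_sup_norm hnormE hx
    obtain ⟨w, rfl⟩ := hEP g hg (by
      have h1 := mul_mem (inv_mem (hL1 hl)) hxN
      rwa [inv_mul_cancel_left] at h1)
    exact mul_mem hl (hP1 w)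
  -- elements with vanishing character part
  have hrep0 : ∀ x ∈ E₁, ∀ w, (∀ b, b ≠ 0 → c' b x = ω w b) → x = P w := by
    intro x hx w hw
    have h1 : x * P w ∈ E₁ := mul_mem hx (hPE w)
    obtain ⟨w₁, ε₁, h2, h3⟩ := r.d.rep _ h1
    have h4 : ∀ b, b ≠ 0 → ω w₁ b + ε₁ * (Q b + 1) = 0 := by
      intro b hb
      have h5 := h2 b hb
      rw [r.d.addc b hb x hx _ (hPE w), r.d.cP w b hb, hw b hb, zmod2_self, mul_zero, zero_mul,
        add_zero] at h5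
      exact h5.symm
    obtain ⟨h5, h6⟩ := rep_zero hp ha h4
    have h7 := h3 h6 h5 rfl
    have h8 : P w * P w = 1 := hp.Psq w
    exact mul_right_cancel (h7.trans h8.symm)
  by_cases hG : ∃ x ∈ E₁, x ≠ 1 ∧ (fun _ : G => (0 : ZMod 2)) x = 0 ∧ ∀ j α, c' (e j α) x = 0
  · -- a special element
    obtain ⟨B, hBE, hB1, hB2, hB3, hB4⟩ := rel_sp hp r ha hG
    have hB0 : B = ⊥ := by
      rw [eq_bot_iff]
      intro x hx
      obtain ⟨w₀, ε, h6, h7⟩ := d.rep x (hBE hx)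
      have h8 : ∀ b, b ≠ 0 → ω w₀ b + ε * (Q b + 1) = 0 := by
        intro b hb
        have h9 := h6 b hb
        have h10 : c' b x = 0 := (hB4 x hx).2 b hb
        rw [hc'] at h10
        change c b x + η * f x = 0 at h10
        rw [hf0 x (hBE hx), mul_zero, add_zero] at h10
        rw [h10, hf0 x (hBE hx), mul_zero, zero_mul, add_zero] at h9
        exact h9.symm
      obtain ⟨h9, h10⟩ := rep_zero hp ha h8
      rw [← hLC]
      exact h7 h10 h9 (hf0 x (hBE hx))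
    have hX' : (L₁ ⊔ E₁) ⊓ centralizer (B : Set G) = L₁ ⊔ E₁ := by
      refine inf_eq_left.2 fun x _ => ?_
      rw [mem_centralizer_iff]
      intro y hy
      rw [hB0] at hy
      have : y = 1 := hy
      rw [this, one_mul, mul_one]
    have hZmem : ∀ b μ, ht b μ ∈ (ht b).range ⊓ (L₁ ⊔ E₁) ↔ ht b μ ∈ L₁ := by
      intro b μ
      refine ⟨fun h1 => hsupN _ (mem_inf.1 h1).2 (h.htN b μ), fun h1 =>
        mem_inf.2 ⟨⟨μ, rfl⟩, mem_sup_left h1⟩⟩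
    obtain ⟨g, hgE, hg1, -, hgc⟩ := hG
    have hgN : g ∉ N := by
      intro hgN
      obtain ⟨w, rfl⟩ := hEP g hgE hgN
      apply hg1
      have h1 : w = 0 := h.sep w fun j α => by
        rw [← r.d.cP w _ (hp.e_ne j α)]
        exact hgc j α
      rw [h1, hp.P0]
    -- elements outside of `L₁`
    have hidx : ∀ x ∈ E₁, ∀ y ∈ E₁, x ∉ L₁ → y ∉ L₁ → x * y ∈ L₁ := by
      have hε : ∀ x ∈ E₁, x ∉ L₁ → ∃ w, ∀ b, b ≠ 0 → c' b x = ω w b + (Q b + 1) := by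
        intro x hx hxL
        obtain ⟨w₀, ε, h1, -⟩ := r.d.rep x hx
        rcases zmod2_cases ε with h2 | h2
        · exfalso
          apply hxL
          rw [hrep0 x hx w₀ fun b hb => by
            rw [h1 b hb, h2, zero_mul, mul_zero, zero_mul, add_zero, add_zero]]
          exact hP1 w₀
        · exact ⟨w₀, fun b hb => by rw [h1 b hb, h2, one_mul, mul_zero, zero_mul, add_zero]⟩
      intro x hx y hy hxL hyL
      obtain ⟨w, hw⟩ := hε x hx hxL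
      obtain ⟨w', hw'⟩ := hε y hy hyL
      rw [hrep0 (x * y) (mul_mem hx hy) (w + w') fun b hb => by
        rw [r.d.addc b hb x hx y hy, hw b hb, hw' b hb, h.ωadd]
        have e2 : (2 : ZMod 2) = 0 := by decide
        linear_combination (Q b + 1) * e2]
      exact hP1 _
    have hS : ∃ y ∈ N, cj y E₁ ≤ L₁ ⊔ E₁ ∧ ∃ (α : Ch 𝕜 (Subgroup G)) (φ : List (Subgroup G)),
        TopCycle 𝕜 2 (L₁ ⊔ E₁) (cj y E₁) α φ := by
      refine special0 (𝕜 := 𝕜) h r.d (X := L₁ ⊔ E₁) le_sup_right ha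
        ⟨g, hgE, hg1, hgc⟩ (fun y hy hyX b hb => ?_) (Z := fun b => (ht b).range ⊓ (L₁ ⊔ E₁))
        (fun b _ v hv => by
          obtain ⟨μ, hμ⟩ := (mem_inf.1 hv).1
          exact ⟨μ, hμ.symm⟩) (fun x hx => hact0 x (hE₁ hx)) (fun k b _ => inf_le_right)
        (fun y hy hyX b b' hb hb' he v hv => ?_) (fun k b hb => ?_) (fun k b hb => ?_)
      · -- the count
        refine (Nat.mul_le_mul_left 3 (ht_four h hb)).trans ?_
        have h1 : y * P b * y⁻¹ ∈ L₁ := by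
          refine hsupN _ (hyX ?_) (mul_mem (mul_mem hy (hL1 (hP1 b))) (inv_mem hy))
          rw [mem_cj]
          have : y⁻¹ * (y * P b * y⁻¹) * y = P b := by group
          rw [this]
          exact hPE b
        refine (mx y hy b hb h1).1.trans ?_
        refine Nat.card_le_card_of_injective (fun μ : {μ : Fˣ // y * ht b (μ ^ 2) * y⁻¹ ∈ L₁} =>
          (⟨ht b μ.1, ⟨μ.1, rfl⟩, by
            rw [← map_pow]
            exact mem_sup_left μ.2⟩ : {v : G // v ∈ (ht b).range ∧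
            y * v ^ 2 * y⁻¹ ∈ L₁ ⊔ E₁})) fun μ ν hμν => ?_
        have h6 : ht b μ.1 = ht b ν.1 := congrArg Subtype.val hμν
        have h7 : ht b (μ.1 * ν.1⁻¹) = 1 := by rw [map_mul, map_inv, h6, mul_inv_cancel]
        exact Subtype.ext (mul_inv_eq_one.1 ((h.ht1 b hb _).1 h7))
      · obtain ⟨⟨μ, rfl⟩, hv⟩ := mem_inf.1 hv
        obtain ⟨k, hk⟩ := h.conj y hy b b' hb hb' he
        refine mem_inf.2 ⟨?_, mul_mem (mul_mem hyX hv) (inv_mem hyX)⟩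
        rw [hk]
        exact zpow_mem (⟨μ, rfl⟩ : ht b' μ ∈ (ht b').range) _
      · exact ratW h (VB_ne hp hb) inf_le_left (hZmem b) (mx 1 (one_mem N) b (VB_ne hp hb) (by
          rw [one_mul, inv_one, mul_one]; exact hP1 b)).2.1
      · obtain ⟨μ, h1, h2⟩ := (mx 1 (one_mem N) b (VB_ne hp hb) (by
          rw [one_mul, inv_one, mul_one]; exact hP1 b)).2.2
        rw [one_mul, inv_one, mul_one] at h1
        refine ⟨ht b μ, (hZmem b μ).2 h1, fun h3 => h2 ?_⟩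
        rw [← map_pow] at h3
        exact (h.ht1 b (VB_ne hp hb) _).1 h3
    obtain ⟨y, hy, hyX, α, φ, hT⟩ := hS
    refine ⟨B, hBE, hB1, hB2, y, hy, by rw [hX']; exact hyX, fun w => ?_, ?_, α, φ,
      by rw [hX']; exact hT⟩
    · refine hsupN _ (hyX ?_) (mul_mem (mul_mem hy (hL1 (hP1 w))) (inv_mem hy))
      rw [mem_cj]
      have : y⁻¹ * (y * P w * y⁻¹) * y = P w := by group
      rw [this]
      exact hPE w
    · refine le_antisymm (sup_le le_sup_left hyX) (sup_le le_sup_left fun x hx => ?_)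
      have hg' : y * g * y⁻¹ ∈ cj y E₁ := by
        rw [mem_cj]
        have : y⁻¹ * (y * g * y⁻¹) * y = g := by group
        rwa [this]
      have hg'N : y * g * y⁻¹ ∉ N := by
        intro hcon
        apply hgN
        have h1 := mul_mem (mul_mem (inv_mem hy) hcon) hy
        have : y⁻¹ * (y * g * y⁻¹) * y = g := by group
        rwa [this] at h1
      obtain ⟨l, hl, g₁, hg₁, hlg⟩ := mem_sup_norm hnormE (hyX hg')
      have hg₁L : g₁ ∉ L₁ := by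
        intro hcon
        apply hg'N
        rw [← hlg]
        exact hL1 (mul_mem hl hcon)
      by_cases hxL : x ∈ L₁
      · exact mem_sup_left hxL
      · have h1 := hidx x hx g₁⁻¹ (inv_mem hg₁) hxL fun hcon => hg₁L (by
          rw [← inv_inv g₁]
          exact inv_mem hcon)
        have h2 : x = (x * g₁⁻¹) * (l⁻¹ * (y * g * y⁻¹)) := by
          rw [← hlg]
          group
        rw [h2]
        exact mul_mem (mem_sup_left h1) (mul_mem (mem_sup_left (inv_mem hl)) (mem_sup_right hg'))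
  · -- no special element
    have hcP : ∀ w b, b ≠ 0 → c' b (P w) = ω w b := r.d.cP
    have hker : ∀ x ∈ E₁, (fun _ : G => (0 : ZMod 2)) x = 0 →
        (∀ b ∈ {b : W | ∃ j α, b = e j α}, c' b x = 0) → x = 1 := by
      intro x hx hfx hcx
      by_contra hne
      exact hG ⟨x, hx, hne, hfx, fun j α => hcx _ ⟨j, α, rfl⟩⟩
    have hsur : ∀ x ∈ E, ∃ y ∈ E₁, (fun _ : G => (0 : ZMod 2)) y = (fun _ : G => (0 : ZMod 2)) x ∧
        ∀ b ∈ {b : W | ∃ j α, b = e j α}, c' b y = c' b x := by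
      intro x hx
      obtain ⟨w, hw⟩ := hp.exists_w fun j α => c' (e j α) x
      refine ⟨P w, hPE w, rfl, ?_⟩
      rintro b ⟨j, α, rfl⟩
      rw [hcP _ _ (hp.e_ne j α), hw]
    obtain ⟨B, hBE, hB1, hB2, hB3, hB4⟩ := rel_core hp r (by omega)
      (V := {b | ∃ j α, b = e j α}) (fun b ⟨j, α, hb⟩ => by rw [hb]; exact hp.e_ne j α) hker hsur
    obtain ⟨X, hX⟩ : ∃ X, X = (L₁ ⊔ E₁) ⊓ centralizer (B : Set G) := ⟨_, rfl⟩
    have hEX : E₁ ≤ X := by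
      rw [hX]
      refine le_inf le_sup_right fun x hx => ?_
      rw [mem_centralizer_iff]
      exact fun y hy => d.comm y (hBE hy) x (hE₁ hx)
    have hZmem : ∀ k, ∀ b ∈ VB Finset.univ (gS e k), ∀ μ, ht b μ ∈ (ht b).range ⊓ X ↔
        ht b μ ∈ L₁ := by
      intro k b hk μ
      refine ⟨fun h1 => hsupN _ ?_ (h.htN b μ), fun h1 => mem_inf.2 ⟨⟨μ, rfl⟩, ?_⟩⟩
      · have h2 := (mem_inf.1 h1).2
        rw [hX] at h2
        exact (mem_inf.1 h2).1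
      · rw [hX]
        refine mem_inf.2 ⟨mem_sup_left h1, ?_⟩
        rw [mem_centralizer_iff]
        intro y hy
        have h2 := hact0 y (hBE hy) b (VB_ne hp hk) μ
        have h3 : c' b y = 0 := by
          obtain ⟨h5, h6⟩ := hB4 y hy
          rcases mem_VB_gS.1 hk with rfl | rfl | rfl
          · exact h6 _ ⟨_, _, rfl⟩
          · exact h6 _ ⟨_, _, rfl⟩
          · obtain ⟨e1, e2, e3⟩ := ne_of_ω hp (h.ωe k)
            rw [c_add' hp r e1 e2 e3 (h.ωe k) (hBE hy), h6 _ ⟨_, _, rfl⟩, h6 _ ⟨_, _, rfl⟩]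
            ring
        rw [h3, sgn_zero, zpow_one] at h2
        exact mul_inv_eq_iff_eq_mul.1 h2
    obtain ⟨α, φ, hT⟩ := slots0 (𝕜 := 𝕜) h r.d (X := X) hEX
      (fun x hx hc => hker x hx rfl fun b ⟨j, α, hb⟩ => by rw [hb]; exact hc j α)
      (Z := fun b => (ht b).range ⊓ X) (fun b _ v hv => by
        obtain ⟨μ, hμ⟩ := (mem_inf.1 hv).1
        exact ⟨μ, hμ.symm⟩) (fun x hx => hact0 x (hE₁ hx)) (fun k b _ => inf_le_right)
      (fun y hy hyX b b' hb hb' he v hv => by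
        obtain ⟨⟨μ, rfl⟩, hv⟩ := mem_inf.1 hv
        obtain ⟨k, hk⟩ := h.conj y hy b b' hb hb' he
        refine mem_inf.2 ⟨?_, mul_mem (mul_mem hyX hv) (inv_mem hyX)⟩
        rw [hk]
        exact zpow_mem (⟨μ, rfl⟩ : ht b' μ ∈ (ht b').range) _)
      (fun k b hb => ratW h (VB_ne hp hb) inf_le_left (hZmem k b hb)
        (mx 1 (one_mem N) b (VB_ne hp hb) (by
          rw [one_mul, inv_one, mul_one]; exact hP1 b)).2.1)
      (fun k b hb => by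
        obtain ⟨μ, h1, h2⟩ := (mx 1 (one_mem N) b (VB_ne hp hb) (by
          rw [one_mul, inv_one, mul_one]; exact hP1 b)).2.2
        rw [one_mul, inv_one, mul_one] at h1
        refine ⟨ht b μ, (hZmem k b hb μ).2 h1, fun h3 => h2 ?_⟩
        rw [← map_pow] at h3
        exact (h.ht1 b (VB_ne hp hb) _).1 h3)
    refine ⟨B, hBE, hB1, hB2, 1, one_mem N, ?_, fun w => ?_, ?_, ?_⟩
    · rw [cj_one, ← hX]
      exact hEX
    · rw [one_mul, inv_one, mul_one]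
      exact hP1 w
    · rw [cj_one]
    · rw [cj_one, ← hX]
      exact ⟨α, φ, hT⟩

end

end Vale.Agent.P240.R2.H487
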