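import Vale.Agent.P240.R2.H487.DP1
import Vale.Agent.P240.R2.H487.DO5

/-!
The property `RelTop` for subgroups of systems of half tori.
-/

set_option linter.all false

namespace Vale.Agent.P240.R2.H487

open Finsupp hiding cons
open Subgroup Vale.Agent.P240.K Vale.Agent.P240.H195

universe u v

section
variable {G : Type u} [Group G] {F : Type*} [Field F] {W : Type*} [AddCommGroup W]
variable {L N : Subgroup G} {a : ℕ} {ω : W → W → ZMod 2} {Q : W → ZMod 2} {e : Fin a → Bool → W}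
  {κ : RingAut F → ZMod 2} {ht : W → Fˣ →* G} {P : W → G}

lemma cj_mem_of (N : Subgroup G) {y : G} (hy : y ∈ N) : cj y N = N := by
  ext x
  rw [mem_cj]
  refine ⟨fun h => ?_, fun h => mul_mem (mul_mem (inv_mem hy) h) hy⟩
  have h1 := mul_mem (mul_mem hy h) (inv_mem hy)
  have h2 : y * (y⁻¹ * x * y) * y⁻¹ = x := by group
  rwa [h2] at h1

lemma cj_normalizer_le {y : G} {L E : Subgroup G} (h : E ≤ normalizer (L : Set G)) :
    cj y E ≤ normalizer ((cj y L : Subgroup G) : Set G) := by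
  intro x hx
  rw [mem_cj] at hx
  have h1 := h hx
  rw [mem_normalizer_iff] at h1 ⊢
  intro z
  change z ∈ cj y L ↔ x * z * x⁻¹ ∈ cj y L
  rw [mem_cj, mem_cj]
  have h2 := h1 (y⁻¹ * z * y)
  have h3 : y⁻¹ * x * y * (y⁻¹ * z * y) * (y⁻¹ * x * y)⁻¹ = y⁻¹ * (x * z * x⁻¹) * y := by group
  rw [h3] at h2
  exact h2

/-- **`RelTop` for a subgroup of a system of half tori.** -/
theorem relTop_of [Finite G] [Finite F] {𝕜 : Type v} [Field 𝕜] (h : HTS L N a ω Q e κ ht P)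
    (ha : 2 ≤ a) (hLC : centralizer (L : Set G) = ⊥) (hnorm : normalizer (L : Set G) = ⊤)
    (num : NumA F)
    (hcent : ∀ x : G, (∀ w, x * P w = P w * x) → ∃ (w₀ : W) (ε : ZMod 2), ∀ b, b ≠ 0 → ∀ μ,
      x * ht b μ * x⁻¹ = ht b μ ^ sgn (ω w₀ b + ε * (Q b + 1)))
    {L₀ : Subgroup G} (hP0 : ∀ w, P w ∈ L₀) (hL0 : L₀ ≤ N) (mx : MXP N ht P L₀) :
    RelTop 𝕜 L₀ := by
  have hp := h.toPTS
  refine ⟨{A | ∃ y ∈ N, A = cj y (PG hp) ∧ A ≤ L₀}, ⟨PG hp, 1, one_mem _, (cj_one _).symm, ?_⟩,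
    ?_, ?_⟩
  · rintro _ ⟨w, rfl⟩
    exact hP0 w
  · rintro _ ⟨y, hy, rfl, hA⟩
    refine ⟨hA, cj_ApS (PG_ApS hp ha), fun x hx hxy => ?_⟩
    rw [mem_cj]
    obtain ⟨w, hw⟩ := h.CL (y⁻¹ * x * y) (mul_mem (mul_mem (inv_mem hy) (hL0 hx)) hy) fun w => by
      have h1 := hxy (y * P w * y⁻¹) (mem_cj.2 (by
        have : y⁻¹ * (y * P w * y⁻¹) * y = P w := by group
        rw [this]
        exact ⟨w, rfl⟩))
      calc y⁻¹ * x * y * P w = y⁻¹ * (x * (y * P w * y⁻¹)) * y := by group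
        _ = y⁻¹ * ((y * P w * y⁻¹) * x) * y := by rw [h1]
        _ = P w * (y⁻¹ * x * y) := by group
    exact ⟨w, hw.symm⟩
  · rintro E hEN hab h2 E₁ hE₁ ⟨_, ⟨y, hy, rfl, hAL⟩, hyE⟩
    have hA' : PG hp ≤ cj y⁻¹ E₁ := by
      rw [← cj_inv y (PG hp)]
      exact cj_mono hyE
    have hAL' : PG hp ≤ cj y⁻¹ L₀ := by
      rw [← cj_inv y (PG hp)]
      exact cj_mono hAL
    have hA1 := PG_ApS hp ha
    have hE₁' : E₁ ∈ ApS 2 G := by
      refine ⟨fun h0 => ?_, fun x hx w hw => hab x (hE₁ hx) w (hE₁ hw), fun x hx => h2 x (hE₁ hx)⟩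
      rw [h0, cj_bot] at hA'
      exact hA1.1 (le_bot_iff.1 hA')
    have hE : E ∈ ApS 2 G := by
      refine ⟨fun h0 => hE₁'.1 ?_, hab, h2⟩
      rw [h0] at hE₁
      exact le_bot_iff.1 hE₁
    obtain ⟨B, hBE, hB1, hB2, z, hz, hle, hPz, hsup, α, φ, hT⟩ := coreB1 (𝕜 := 𝕜) h ha hLC hnorm
      num hcent (L₁ := cj y⁻¹ L₀) (fun w => hAL' ⟨w, rfl⟩) (by
        rw [← cj_mem_of N (inv_mem hy)]
        exact cj_mono hL0) (mx.conj hy) (E := cj y⁻¹ E) (cj_ApS hE) (cj_normalizer_le hEN)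
      (E₁ := cj y⁻¹ E₁) (cj_mono hE₁) fun w => hA' ⟨w, rfl⟩
    have hM : cj y ((cj y⁻¹ L₀ ⊔ cj y⁻¹ E₁) ⊓ centralizer (B : Set G)) = (L₀ ⊔ E₁) ⊓
        centralizer ((cj y B : Subgroup G) : Set G) := by
      rw [(cj y).map_inf, (cj y).map_sup, cj_inv', cj_inv', cj_centralizer]
    have hw : cj y (cj z (cj y⁻¹ E₁)) = cj (y * z * y⁻¹) E₁ := by
      rw [cj_mul, cj_mul]
    refine ⟨cj y B, ?_, ?_, ?_, cj (y * z * y⁻¹) E₁, ?_, cj_ApS hE₁',
      ⟨cj (y * z) (PG hp), ⟨y * z, mul_mem hy hz, rfl, ?_⟩, ?_⟩, ?_, (card_cj _ _).ge, ?_⟩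
    · rw [← cj_inv' y E]
      exact cj_mono hBE
    · rw [← cj_inv' y E, ← hB1, (cj y).map_sup, cj_inv']
    · rw [← cj_bot y, ← hB2, (cj y).map_inf, cj_inv']
    · rw [← hM, ← hw]
      exact cj_mono hle
    · intro x hx
      rw [mem_cj] at hx
      obtain ⟨w, hw'⟩ := hx
      have h3 := hPz w
      rw [mem_cj, inv_inv] at h3
      have h4 : y * (z * P w * z⁻¹) * y⁻¹ = x := by
        rw [hw']
        group
      rwa [h4] at h3
    · rw [← hw, cj_mul]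
      exact cj_mono (cj_mono hA')
    · rw [← hw, ← cj_inv' y L₀, ← (cj y).map_sup, hsup, (cj y).map_sup, cj_inv' y E₁]
    · rw [← hM, ← hw]
      exact topCycle_cj hT hle y

end

end Vale.Agent.P240.R2.H487
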