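import Vale.Agent.P240.R2.H487.DP2

/-!
The group generated by the linear automorphisms and the graph automorphism of `PSL_n(K)`, and the
subgroup `PSL_n(F)`, where `F` is a subfield of `K`.
-/

set_option linter.all false

namespace Vale.Agent.P240.R2.H487

open Matrix hiding single
open Finsupp hiding cons
open Subgroup Vale.Agent.P240.K Vale.Agent.P240.H195

universe u v w

section
variable {K : Type w} [Field K] {a m : ℕ}

/-- the group generated by the linear automorphisms and the graph automorphism -/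
def lin1 (m : ℕ) (K : Type w) [Field K] : Subgroup (MulAut (PL m K)) where
  carrier := {f | ∃ M, f = sem M 1 ∨ f = sem M 1 * ind (itA m K)}
  one_mem' := ⟨1, Or.inl (map_one (pgl m K)).symm⟩
  mul_mem' := by
    have hm : ∀ M M' : GLm m K, sem M 1 * sem M' 1 = sem (M * M') 1 := fun M M' =>
      ((pgl m K).map_mul M M').symm
    have hit : ∀ M : GLm m K, ind (itA m K) * sem M 1 = sem (gt M) 1 * ind (itA m K) := fun M =>
      mul_inv_eq_iff_eq_mul.1 (it_conj_sem M)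
    rintro _ _ ⟨M, rfl | rfl⟩ ⟨M', rfl | rfl⟩
    · exact ⟨M * M', Or.inl (hm M M')⟩
    · exact ⟨M * M', Or.inr (by rw [← mul_assoc, hm])⟩
    · exact ⟨M * gt M', Or.inr (by rw [mul_assoc, hit, ← mul_assoc, hm])⟩
    · exact ⟨M * gt M', Or.inl (by
        rw [mul_assoc, ← mul_assoc (ind (itA m K)), hit, mul_assoc (sem (gt M') 1), itA_sq,
          mul_one, hm])⟩
  inv_mem' := by
    have hit : ∀ M : GLm m K, ind (itA m K) * sem M 1 = sem (gt M) 1 * ind (itA m K) := fun M =>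
      mul_inv_eq_iff_eq_mul.1 (it_conj_sem M)
    have hinv : ∀ M : GLm m K, (sem M 1)⁻¹ = sem M⁻¹ 1 := fun M =>
      ((pgl m K).map_inv M).symm
    rintro _ ⟨M, rfl | rfl⟩
    · exact ⟨M⁻¹, Or.inl (hinv M)⟩
    · refine ⟨gt M⁻¹, Or.inr ?_⟩
      have h1 : (ind (itA m K))⁻¹ = ind (itA m K) := inv_eq_of_mul_eq_one_left itA_sq
      rw [_root_.mul_inv_rev, h1, hinv, hit]

lemma mem_lin1 {f : MulAut (PL m K)} :
    f ∈ lin1 m K ↔ ∃ M, f = sem M 1 ∨ f = sem M 1 * ind (itA m K) := Iff.rfl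

/-- the projective general linear group in `lin1` -/
def jL (m : ℕ) (K : Type w) [Field K] : GLm m K →* lin1 m K :=
  (pgl m K).codRestrict (lin1 m K) fun M => ⟨M, Or.inl rfl⟩

lemma jL_val (M : GLm m K) : ((jL m K M : lin1 m K) : MulAut (PL m K)) = sem M 1 := rfl

/-- the graph automorphism in `lin1` -/
def gL (m : ℕ) (K : Type w) [Field K] : lin1 m K :=
  ⟨ind (itA m K), 1, Or.inr (by
    have h1 : sem (1 : GLm m K) 1 = 1 := map_one (pgl m K)
    rw [h1, one_mul])⟩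

lemma gL_val : ((gL m K : lin1 m K) : MulAut (PL m K)) = ind (itA m K) := rfl

lemma gL_conj (M : GLm m K) : gL m K * jL m K M * (gL m K)⁻¹ = jL m K (gt M) :=
  Subtype.ext (it_conj_sem M)

lemma lin1_cases (x : lin1 m K) : ∃ M, x = jL m K M ∨ x = jL m K M * gL m K := by
  obtain ⟨x, M, h | h⟩ := x
  · exact ⟨M, Or.inl (Subtype.ext h)⟩
  · exact ⟨M, Or.inr (Subtype.ext h)⟩

variable (h2 : (2 : K) ≠ 0) {i : Kˣ} (hi : (i : K) * i = -1) (σ : Fin (m + 1) ≃ Vv a)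

/-- elements commuting with the Pauli group -/
lemma cent1 {r : ℕ} [hr : Fact r.Prime] [CharP K r] (hm : 2 ≤ m) (x : lin1 m K)
    (hxP : ∀ w, x * pJ h2 hi σ (jL m K) w = pJ h2 hi σ (jL m K) w * x) :
    ∃ (w₀ : Ww a) (ε : ZMod 2), (∀ b, b ≠ 0 → ∀ μ,
      x * hJ h2 hi σ (jL m K) b μ * x⁻¹ =
        (hJ h2 hi σ (jL m K) b μ) ^ sgn (wf w₀ b + ε * (Qf b + 1))) ∧
      (w₀ = 0 → ε = 0 → x = 1) := by
  obtain ⟨ψ, hψd⟩ : ∃ ψ, ψ = (lin1 m K).subtype := ⟨_, rfl⟩
  have hψ : Function.Injective ψ := by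
    rw [hψd]
    exact Subtype.val_injective
  have hj : ∀ M, ψ (jL m K M) = sem M 1 := fun M => by
    rw [hψd]
    rfl
  have hxψ : ∀ w, ψ x * pT h2 hi σ w = pT h2 hi σ w * ψ x := by
    intro w
    rw [← ψ_pJ h2 hi σ hj, ← map_mul, ← map_mul, hxP]
  obtain ⟨M, hf⟩ : ∃ M, ψ x = sem M 1 ∨ ψ x = sem M 1 * ind (itA m K) := by
    rw [hψd]
    exact x.2
  have hsem : ∀ w, sem M 1 * pT h2 hi σ w = pT h2 hi σ w * sem M 1 := by
    intro w
    have h4 := hxψ w
    rcases hf with hf | hf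
    · rwa [hf] at h4
    · rw [hf, mul_assoc, pT_it, ← mul_assoc, ← mul_assoc] at h4
      exact mul_right_cancel h4
  obtain ⟨w₀, hw₀⟩ := fix_rel (r := r) h2 hi σ (by omega) hsem
  rcases hf with hf | hf
  · refine ⟨w₀, 0, fun b hb μ => ?_, fun e1 _ => ?_⟩
    · apply hψ
      rw [map_mul, map_mul, map_inv, map_zpow, ψ_hJ h2 hi σ hj, hf,
        sem_hT h2 hi σ 1 hb hb (PP_of_PM σ (hw₀ b)), zero_mul, add_zero, kapF_one, zero_mul,
        add_zero, um_one]
    · subst e1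
      have h4 : sem M 1 = 1 := sem_trivial' σ (fun w => by
        rw [hw₀, wf_zero, s2_zero, one_smul]) h2
      exact hψ (by rw [hf, h4, map_one])
  · refine ⟨w₀, 1, fun b hb μ => ?_, fun _ e2 => absurd e2 one_ne_zero⟩
    apply hψ
    rw [map_mul, map_mul, map_inv, map_zpow, ψ_hJ h2 hi σ hj, hf]
    have h6 : sem M 1 * ind (itA m K) * hT h2 hi σ b μ * (sem M 1 * ind (itA m K))⁻¹ =
        sem M 1 * (ind (itA m K) * hT h2 hi σ b μ * (ind (itA m K))⁻¹) * (sem M 1)⁻¹ := by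
      group
    rw [h6, it_hT h2 hi σ hb, ← conj_zpow, sem_hT h2 hi σ 1 hb hb (PP_of_PM σ (hw₀ b)),
      ← zpow_mul, ← sgn_add, one_mul, kapF_one, zero_mul, add_zero, um_one]

lemma htsL {r : ℕ} [hr : Fact r.Prime] [CharP K r] (hm : 2 ≤ m) :
    HTS ((jL m K).comp (togH m K)).range (jL m K).range a wf Qf be (kapF i)
      (hJ h2 hi σ (jL m K)) (pJ h2 hi σ (jL m K)) :=
  hts h2 hi σ (r := r) (ψ := (lin1 m K).subtype) hm Subtype.val_injective (fun M => rfl)
    fun g => by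
      obtain ⟨M, h⟩ := g.2
      exact ⟨M, 1, h⟩

lemma it_tog (X : SLm m K) : gt (tog X) = tog (itf X) := by
  apply Units.ext
  rfl

/-- the special linear group is normal -/
lemma norm1 : normalizer (((jL m K).comp (togH m K)).range : Set (lin1 m K)) = ⊤ := by
  refine normalizer_eq_top_iff.2 ⟨?_⟩
  rintro _ ⟨X, rfl⟩ g
  obtain ⟨M, rfl | rfl⟩ := lin1_cases g
  · refine ⟨actf M 1 X, ?_⟩
    rw [MonoidHom.comp_apply, MonoidHom.comp_apply, togH_apply, togH_apply, ← tog_conj, map_mul,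
      map_mul, map_inv]
  · refine ⟨actf M 1 (itf X), ?_⟩
    rw [MonoidHom.comp_apply, MonoidHom.comp_apply, togH_apply, togH_apply, ← tog_conj, map_mul,
      map_mul, map_inv, ← it_tog, ← gL_conj]
    group

/-- elements with given centralizers -/
lemma cen_of {r : ℕ} [hr : Fact r.Prime] [CharP K r] (hm : 2 ≤ m) (ha : 2 ≤ a) (x : lin1 m K)
    (hxP : ∀ w, x * pJ h2 hi σ (jL m K) w = pJ h2 hi σ (jL m K) w * x)
    (hx : ∀ b, b ≠ 0 → ∃ μ : Kˣ, μ ^ 2 ≠ 1 ∧
      x * hJ h2 hi σ (jL m K) b μ = hJ h2 hi σ (jL m K) b μ * x) : x = 1 := by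
  have h := htsL (a := a) h2 hi σ (r := r) hm
  obtain ⟨w₀, ε, h3, h4⟩ := cent1 h2 hi σ (r := r) hm x hxP
  have h5 : ∀ b : Ww a, b ≠ 0 → wf w₀ b + ε * (Qf b + 1) = 0 := by
    intro b hb
    rcases zmod2_cases (wf w₀ b + ε * (Qf b + 1)) with h6 | h6
    · exact h6
    · exfalso
      obtain ⟨μ, hμ, h7⟩ := hx b hb
      apply hμ
      have h8 := h3 b hb μ
      rw [h7, mul_inv_cancel_right, h6, sgn_one, zpow_neg_one, eq_inv_iff_mul_eq_one,
        ← map_mul, h.ht1 b hb, ← pow_two] at h8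
      exact h8
  obtain ⟨h6, h7⟩ := rep_zero h.toPTS ha h5
  exact h4 h7 h6

include h2 hi σ in
/-- the centralizer of the special linear group -/
lemma cenL {r : ℕ} [hr : Fact r.Prime] [CharP K r] (hm : 2 ≤ m) (ha : 2 ≤ a)
    (h4 : ∃ μ : Kˣ, μ ^ 4 ≠ 1) :
    centralizer (((jL m K).comp (togH m K)).range : Set (lin1 m K)) = ⊥ := by
  have h := htsL (a := a) h2 hi σ (r := r) hm
  rw [eq_bot_iff]
  intro x hx
  rw [mem_centralizer_iff] at hx
  rw [mem_bot]
  refine cen_of h2 hi σ (r := r) hm ha x (fun w => (hx _ (h.PL w)).symm) fun b hb => ?_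
  obtain ⟨μ, hμ⟩ := h4
  exact ⟨μ ^ 2, by rwa [← pow_mul], (hx _ (h.sqL b μ)).symm⟩

end

end Vale.Agent.P240.R2.H487
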