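import Vale.Agent.P240.R2.H487.DP3

/-!
The subgroup `PSL_n(F)` of the automorphism group of `PSL_n(K)`, where `F` is a subfield of `K`.
-/

set_option linter.all false

namespace Vale.Agent.P240.R2.H487

open Matrix hiding single
open Finsupp hiding cons
open Subgroup Vale.Agent.P240.K Vale.Agent.P240.H195

universe u v w

section
variable {F : Type u} [Field F] {K : Type w} [Field K] {a m : ℕ} (φ : F →+* K)

/-- the map of special linear groups -/
def mapS (m : ℕ) (φ : F →+* K) : SLm m F →* SLm m K := Matrix.SpecialLinearGroup.map φ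

lemma mapS_val (X : SLm m F) : (mapS m φ X).1 = X.1.map φ := rfl

/-- the map of general linear groups -/
def mapG (m : ℕ) (φ : F →+* K) : GLm m F →* GLm m K :=
  Matrix.GeneralLinearGroup.map φ

lemma mapG_val (M : GLm m F) : (mapG m φ M).1 = M.1.map φ := rfl

lemma mapG_inv_val (M : GLm m F) : ((mapG m φ M)⁻¹).1 = (M⁻¹).1.map φ := by
  rw [← map_inv]
  rfl

lemma mapG_gt (M : GLm m F) : mapG m φ (gt M) = gt (mapG m φ M) := by
  apply Units.ext
  have h1 : (gt (mapG m φ M)).1 = (((mapG m φ M)⁻¹).1)ᵀ := rfl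
  rw [h1, mapG_inv_val]
  rfl

lemma mapG_tog (X : SLm m F) : mapG m φ (tog X) = tog (mapS m φ X) := by
  apply Units.ext
  rfl

/-- the homomorphism from the special linear group -/
def tS (m : ℕ) (φ : F →+* K) : SLm m F →* lin1 m K :=
  (jL m K).comp ((togH m K).comp (mapS m φ))

lemma tS_apply (X : SLm m F) : tS m φ X = jL m K (tog (mapS m φ X)) := rfl

lemma smul_of_map {X : Matrix (Fin (m + 1)) (Fin (m + 1)) F} {c : K}
    (h : X.map φ = c • (1 : Matrix (Fin (m + 1)) (Fin (m + 1)) K)) : ∃ d : F, X = d • 1 := by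
  refine ⟨X 0 0, ?_⟩
  have h0 : c = φ (X 0 0) := by
    have h1 := congrFun (congrFun h 0) 0
    rw [Matrix.map_apply, Matrix.smul_apply, Matrix.one_apply_eq, smul_eq_mul, mul_one] at h1
    exact h1.symm
  ext u v
  apply φ.injective
  have h1 := congrFun (congrFun h u) v
  rw [Matrix.map_apply] at h1
  rw [h1, h0, Matrix.smul_apply, Matrix.smul_apply, smul_eq_mul, smul_eq_mul, map_mul]
  congr 1
  by_cases huv : u = v
  · subst huv
    rw [Matrix.one_apply_eq, Matrix.one_apply_eq, map_one]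
  · rw [Matrix.one_apply_ne huv, Matrix.one_apply_ne huv, map_zero]

lemma tS_eq_one {r : ℕ} [hr : Fact r.Prime] [CharP K r] (hm : 1 ≤ m) (X : SLm m F) :
    tS m φ X = 1 ↔ X ∈ center (SLm m F) := by
  rw [Matrix.SpecialLinearGroup.mem_center_iff]
  constructor
  · intro h
    have h1 : sem (tog (mapS m φ X)) 1 = 1 := congrArg Subtype.val h
    obtain ⟨-, c, -, h3⟩ := sem_trivial (r := r) h1 hm
    rw [Algebra.algebraMap_eq_smul_one] at h3
    have h4 : X.1.map φ = c • (1 : Matrix (Fin (m + 1)) (Fin (m + 1)) K) := h3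
    obtain ⟨d, hd⟩ := smul_of_map φ h4
    refine ⟨d, ?_, ?_⟩
    · have h5 : X.1.det = 1 := X.2
      rwa [hd, Matrix.det_smul, Matrix.det_one, mul_one] at h5
    · rw [Matrix.scalar_apply, ← Matrix.smul_one_eq_diagonal]
      exact hd.symm
  · rintro ⟨d, -, hd⟩
    rw [Matrix.scalar_apply, ← Matrix.smul_one_eq_diagonal] at hd
    apply Subtype.ext
    have h1 : sem (tog (mapS m φ X)) 1 = 1 := by
      refine sem_scalar (c := φ d) ?_
      have h3 : (tog (mapS m φ X)).1 = X.1.map φ := rfl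
      rw [h3, ← hd, Algebra.algebraMap_eq_smul_one]
      ext u v
      rw [Matrix.map_apply, Matrix.smul_apply, Matrix.smul_apply, smul_eq_mul, smul_eq_mul, map_mul]
      congr 1
      by_cases huv : u = v
      · subst huv
        rw [Matrix.one_apply_eq, Matrix.one_apply_eq, map_one]
      · rw [Matrix.one_apply_ne huv, Matrix.one_apply_ne huv, map_zero]
    exact h1

/-- the subgroup `PSL_n(F)` -/
def LS (m : ℕ) (φ : F →+* K) : Subgroup (lin1 m K) := (tS m φ).range

/-- the isomorphism -/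
noncomputable def eS {r : ℕ} [hr : Fact r.Prime] [CharP K r] (hm : 1 ≤ m) : PL m F ≃* LS m φ :=
  (QuotientGroup.quotientMulEquivOfEq (by
    ext X
    rw [MonoidHom.mem_ker]
    exact (tS_eq_one φ (r := r) hm X).symm)).trans
      (QuotientGroup.quotientKerEquivRange (tS m φ))

lemma eS_apply {r : ℕ} [hr : Fact r.Prime] [CharP K r] (hm : 1 ≤ m) (X : SLm m F) :
    ((eS φ (r := r) hm (pr m F X) : LS m φ) : lin1 m K) = tS m φ X := rfl

/-- linear automorphisms are induced -/
lemma ind_lin {r : ℕ} [hr : Fact r.Prime] [CharP K r] (hm : 1 ≤ m) (M : GLm m F) (y : PL m F) :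
    ((eS φ (r := r) hm (sem M 1 y) : LS m φ) : lin1 m K) =
      jL m K (mapG m φ M) * (eS φ (r := r) hm y : LS m φ) * (jL m K (mapG m φ M))⁻¹ := by
  obtain ⟨X, rfl⟩ := QuotientGroup.mk'_surjective _ y
  have h1 : sem M 1 (pr m F X) = pr m F (actf M 1 X) := rfl
  rw [h1, eS_apply, eS_apply, tS_apply, tS_apply, ← mapG_tog, ← mapG_tog, ← tog_conj, map_mul,
    map_mul, map_inv, map_mul, map_mul, map_inv]

/-- the graph automorphism is induced -/
lemma ind_it {r : ℕ} [hr : Fact r.Prime] [CharP K r] (hm : 1 ≤ m) (y : PL m F) :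
    ((eS φ (r := r) hm (ind (itA m F) y) : LS m φ) : lin1 m K) =
      gL m K * (eS φ (r := r) hm y : LS m φ) * (gL m K)⁻¹ := by
  obtain ⟨X, rfl⟩ := QuotientGroup.mk'_surjective _ y
  have h1 : ind (itA m F) (pr m F X) = pr m F (itf X) := rfl
  rw [h1, eS_apply, eS_apply, tS_apply, tS_apply, ← mapG_tog, ← mapG_tog, gL_conj, ← mapG_gt,
    it_tog]

lemma norm_of {G : Type*} [Group G] {Λ : Type*} [Group Λ] {L : Subgroup G} (e : Λ ≃* L)
    {f : MulAut Λ} {x : G} (h : ∀ y : Λ, ((e (f y) : L) : G) = x * (e y : L) * x⁻¹) :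
    x ∈ normalizer (L : Set G) := by
  rw [mem_normalizer_iff]
  intro z
  constructor
  · intro hz
    have h1 := h (e.symm ⟨z, hz⟩)
    rw [MulEquiv.apply_symm_apply] at h1
    rw [← h1]
    exact SetLike.coe_mem _
  · intro hz
    have h1 := h (f⁻¹ (e.symm ⟨_, hz⟩))
    rw [MulAut.apply_inv_self, MulEquiv.apply_symm_apply] at h1
    have h3 : z = (e (f⁻¹ (e.symm ⟨_, hz⟩)) : L) := by
      have h4 : x * z * x⁻¹ = x * (e (f⁻¹ (e.symm ⟨_, hz⟩)) : L) * x⁻¹ := h1
      exact mul_left_cancel (mul_right_cancel h4)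
    rw [h3]
    exact SetLike.coe_mem _

end

end Vale.Agent.P240.R2.H487
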