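import Vale.Agent.P240.R2.H487.RDefs
import Vale.Agent.P240.R2.H979.AutT

/-!
`AutTop` from its relative form.
-/

set_option linter.all false

namespace Vale.Agent.P240.R2.H487

open Finsupp hiding cons
open Subgroup Vale.Agent.P240.K Vale.Agent.P240.R2.H979

universe u v w

section
variable {G : Type u} [Group G] {Q : Type*} [Group Q] {N : Subgroup G}

lemma im_ApS {π : N →* Q} (hπ : Function.Injective π) {p : ℕ} {K : Subgroup G} (hKN : K ≤ N)
    (hK : K ∈ ApS p G) : im π K ∈ ApS p Q := by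
  obtain ⟨h1, h2, h3⟩ := hK
  refine ⟨fun h0 => h1 ?_, fun x hx y hy => ?_, fun x hx => ?_⟩
  · rw [eq_bot_iff]
    intro x hx
    have h4 : π ⟨x, hKN hx⟩ ∈ im π K := mem_im.2 ⟨x, hKN hx, hx, rfl⟩
    rw [h0, mem_bot] at h4
    have h5 : (⟨x, hKN hx⟩ : N) = 1 := hπ (by rw [h4, map_one])
    exact mem_bot.2 (congrArg Subtype.val h5)
  · obtain ⟨a, ha, haK, rfl⟩ := mem_im.1 hx
    obtain ⟨b, hb, hbK, rfl⟩ := mem_im.1 hy
    rw [← map_mul, ← map_mul]
    exact congrArg π (Subtype.ext (h2 a haK b hbK))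
  · obtain ⟨a, ha, haK, rfl⟩ := mem_im.1 hx
    rw [← map_pow]
    have h4 : (⟨a, ha⟩ : N) ^ p = 1 := Subtype.ext (h3 a haK)
    rw [h4, map_one]

/-- images of top cycles -/
theorem topCycle_im [Finite G] {𝕜 : Type v} [Field 𝕜] {p : ℕ} {π : N →* Q}
    (hπ : Function.Injective π) {M E : Subgroup G} (hMN : M ≤ N) {α : Ch 𝕜 (Subgroup G)}
    {φ : List (Subgroup G)} (hT : TopCycle 𝕜 p M E α φ) (hE : E ≤ M) :
    ∃ (α' : Ch 𝕜 (Subgroup Q)) (φ' : List (Subgroup Q)),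
      TopCycle 𝕜 p (im π M) (im π E) α' φ' := by
  have h0 : (M.subgroupOf N).map N.subtype = M := by
    rw [subgroupOf_map_subtype, inf_eq_left.2 hMN]
  rw [← h0] at hT
  have h1 := topCycle_comap (𝕜 := 𝕜) (p := p) (M := M.subgroupOf N) (f := N.subtype)
    (fun x _ hx1 => Subtype.ext hx1) hT (by rw [h0]; exact hE)
  have h2 := topCycle_map (f := π) (fun x _ hx => hπ (by rw [hx, map_one])) h1 pb_le
  have h3 : (pb N.subtype (M.subgroupOf N) E).map π = im π E := by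
    have h4 : pb N.subtype (M.subgroupOf N) E = E.subgroupOf N := by
      ext x
      rw [H979.mem_pb, mem_subgroupOf, mem_subgroupOf]
      exact ⟨fun h => h.1, fun h => ⟨h, hE h⟩⟩
    rw [h4]
    rfl
  rw [h3] at h2
  exact ⟨_, _, h2⟩

end

section
variable {𝕜 : Type v} [Field 𝕜] {G : Type u} [Group G]

/-- **`AutTop` from its relative form.** -/
theorem autTop_of_rel [Finite G] {L : Subgroup G} {Λ : Type w} [Group Λ] (e : Λ ≃* L)
    (hC : centralizer (L : Set G) = ⊥)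
    (hE : ∀ f : MulAut Λ, f ^ 2 = 1 → ∃ x ∈ normalizer (L : Set G), ∀ y : Λ,
      ((e (f y) : L) : G) = x * (e y : L) * x⁻¹)
    (h : RelTop 𝕜 L) : AutTop 𝕜 Λ := by
  have hLN : L ≤ normalizer (L : Set G) := le_normalizer
  obtain ⟨π, hπd⟩ : ∃ π : normalizer (L : Set G) →* MulAut Λ, π =
    (MulAut.congr e.symm).toMonoidHom.comp L.normalizerMonoidHom := ⟨_, rfl⟩
  have hπ : ∀ (n : normalizer (L : Set G)) (x : Λ),
      ((e (π n x) : L) : G) = n * (e x : G) * (n : G)⁻¹ := by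
    intro n x
    have h1 : π n x = e.symm (L.normalizerMonoidHom n (e x)) := by
      rw [hπd]
      rfl
    rw [h1, MulEquiv.apply_symm_apply]
    rfl
  have hconj : ∀ x : Λ, π ⟨e x, hLN (e x).2⟩ = MulAut.conj x := by
    intro x
    refine MulEquiv.ext fun y => e.injective (Subtype.ext ?_)
    rw [hπ, MulAut.conj_apply, map_mul, map_mul, map_inv]
    rfl
  have hinj : Function.Injective π := by
    rw [injective_iff_map_eq_one]
    intro n hn
    have h1 : (n : G) ∈ centralizer (L : Set G) := by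
      rw [mem_centralizer_iff]
      intro l hl
      have h2 := hπ n (e.symm ⟨l, hl⟩)
      rw [hn, MulAut.one_apply, MulEquiv.apply_symm_apply] at h2
      have h3 : l = n * l * (n : G)⁻¹ := h2
      rw [eq_mul_inv_iff_mul_eq] at h3
      exact h3
    rw [hC, mem_bot] at h1
    exact Subtype.ext h1
  have hI : InjOn π (⊤ : Subgroup G) := fun x hx _ h1 =>
    congrArg Subtype.val (hinj (h1.trans (map_one π).symm))
  have hL : im π L = (MulAut.conj (G := Λ)).range := by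
    ext q
    rw [mem_im]
    constructor
    · rintro ⟨x, hx, hxL, rfl⟩
      refine ⟨e.symm ⟨x, hxL⟩, ?_⟩
      rw [← hconj]
      refine congrArg π (Subtype.ext ?_)
      show ((e (e.symm ⟨x, hxL⟩) : L) : G) = x
      rw [MulEquiv.apply_symm_apply]
    · rintro ⟨x, rfl⟩
      exact ⟨e x, hLN (e x).2, (e x).2, hconj x⟩
  have hinv : ∀ f : MulAut Λ, f ^ 2 = 1 → ∃ x, ∃ hx : x ∈ normalizer (L : Set G),
      π ⟨x, hx⟩ = f := by
    intro f hf
    obtain ⟨x, hx, h1⟩ := hE f hf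
    refine ⟨x, hx, MulEquiv.ext fun y => e.injective (Subtype.ext ?_)⟩
    rw [hπ, h1]
  have hup : ∀ R : Subgroup (MulAut Λ), (∀ x ∈ R, x ^ 2 = 1) → im π (up π ⊤ R) = R := by
    intro R hR
    refine im_up fun f hf => ?_
    obtain ⟨x, hx, h1⟩ := hinv f (hR f hf)
    exact mem_im.2 ⟨x, hx, mem_top x, h1⟩
  obtain ⟨𝒜, ⟨A₀, hA₀⟩, h𝒜, hmain⟩ := h
  refine ⟨{A | ∃ B ∈ 𝒜, A = im π B}, ⟨im π A₀, A₀, hA₀, rfl⟩, ?_, ?_⟩
  · rintro _ ⟨A, hA, rfl⟩
    obtain ⟨h1, h2, h3⟩ := h𝒜 A hA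
    refine ⟨?_, im_ApS hinj (h1.trans hLN) h2, fun x hx hxy => ?_⟩
    · rw [← hL]
      exact im_mono h1
    · rw [← hL] at hx
      obtain ⟨l, hlN, hl, rfl⟩ := mem_im.1 hx
      refine mem_im.2 ⟨l, hlN, h3 l hl fun y hy => ?_, rfl⟩
      exact hI.comm hlN (hLN (h1 hy)) (mem_top _) (mem_top _)
        (hxy _ (mem_im.2 ⟨y, hLN (h1 hy), hy, rfl⟩))
  · rintro E hab hexp E₁ hE₁ ⟨_, ⟨A, hA, rfl⟩, hAE⟩
    have hEi := hup E hexp
    have hE₁i := hup E₁ fun x hx => hexp x (hE₁ hx)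
    have hle : up π ⊤ E₁ ≤ up π ⊤ E := fun x hx => by
      obtain ⟨h1, h2, h3⟩ := mem_up.1 hx
      exact mem_up.2 ⟨h1, h2, hE₁ h3⟩
    have hAN := (h𝒜 A hA).1.trans hLN
    obtain ⟨B, hBE, hB1, hB2, E', hE', hE'S, ⟨A', hA', hA'E⟩, hE'L, hcard, α, φ, hT⟩ :=
      hmain (up π ⊤ E) up_le_N (fun x hx y hy => by
        obtain ⟨h1, h2, h3⟩ := mem_up.1 hx
        obtain ⟨h1', h2', h3'⟩ := mem_up.1 hy
        exact hI.comm h1 h1' h2 h2' (hab _ h3 _ h3')) (fun x hx => by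
        obtain ⟨h1, h2, h3⟩ := mem_up.1 hx
        refine hI _ (pow_mem h1 2) (mem_top _) ?_
        have h4 : (⟨x ^ 2, pow_mem h1 2⟩ : normalizer (L : Set G)) = ⟨x, h1⟩ ^ 2 := rfl
        rw [h4, map_pow]
        exact hexp _ h3) (up π ⊤ E₁) hle ⟨A, hA, fun x hx => mem_up.2 ⟨hAN hx, mem_top x,
          hAE (mem_im.2 ⟨x, hAN hx, hx, rfl⟩)⟩⟩
    have hBN : B ≤ normalizer (L : Set G) := hBE.trans up_le_N
    have hKN : L ⊔ up π ⊤ E₁ ≤ normalizer (L : Set G) := sup_le hLN up_le_N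
    have hMN : (L ⊔ up π ⊤ E₁) ⊓ centralizer (B : Set G) ≤ normalizer (L : Set G) :=
      inf_le_left.trans hKN
    have hM : im π ((L ⊔ up π ⊤ E₁) ⊓ centralizer (B : Set G)) =
        ((MulAut.conj (G := Λ)).range ⊔ E₁) ⊓
          centralizer ((im π B : Subgroup (MulAut Λ)) : Set (MulAut Λ)) := by
      refine le_antisymm (fun q hq => ?_) fun q hq => ?_
      · obtain ⟨x, hx, hxM, rfl⟩ := mem_im.1 hq
        obtain ⟨hx1, hx2⟩ := mem_inf.1 hxM
        refine mem_inf.2 ⟨?_, mem_centralizer_iff.2 fun b hb => ?_⟩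
        · rw [← hL, ← hE₁i, ← im_sup hLN up_le_N]
          exact mem_im.2 ⟨x, hx, hx1, rfl⟩
        · obtain ⟨y, hy, hyB, rfl⟩ := mem_im.1 hb
          rw [← map_mul, ← map_mul]
          exact congrArg π (Subtype.ext (mem_centralizer_iff.1 hx2 y hyB))
      · obtain ⟨hq1, hq2⟩ := mem_inf.1 hq
        rw [← hL, ← hE₁i, ← im_sup hLN up_le_N] at hq1
        obtain ⟨x, hx, hxK, rfl⟩ := mem_im.1 hq1
        refine mem_im.2 ⟨x, hx, mem_inf.2 ⟨hxK, mem_centralizer_iff.2 fun b hb => ?_⟩, rfl⟩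
        exact hI.comm (hBN hb) hx (mem_top _) (mem_top _) (mem_centralizer_iff.1 hq2 _
          (mem_im.2 ⟨b, hBN hb, hb, rfl⟩))
    refine ⟨im π B, ?_, ?_, ?_, im π E', ?_, im_ApS hinj (hE'.trans hMN) hE'S,
      ⟨im π A', ⟨A', hA', rfl⟩, im_mono hA'E⟩, ?_, ?_, ?_⟩
    · rw [← hEi]
      exact im_mono hBE
    · rw [← hE₁i, ← im_sup up_le_N hBN, hB1, hEi]
    · rw [eq_bot_iff]
      intro z hz
      obtain ⟨h1, h2⟩ := mem_inf.1 hz
      obtain ⟨b, hb, hbB, rfl⟩ := mem_im.1 h2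
      have h3 : b ∈ up π ⊤ E₁ ⊓ B := mem_inf.2 ⟨mem_up.2 ⟨hb, mem_top b, h1⟩, hbB⟩
      rw [hB2, mem_bot] at h3
      subst h3
      exact mem_bot.2 (map_one π)
    · rw [← hM]
      exact im_mono hE'
    · rw [← hL, ← im_sup hLN (hE'.trans hMN), hE'L, im_sup hLN up_le_N, hE₁i]
    · rw [← (hI.mono le_top).card (hE'.trans hMN), ← (hI.mono le_top).card (K := up π ⊤ E₁)
        up_le_N, hE₁i] at hcard
      exact hcard
    · rw [← hM]
      exact topCycle_im hinj hMN hT hE'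

end

end Vale.Agent.P240.R2.H487
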