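import Vale.Agent.P240.R2.H487.DP4
import Vale.Agent.P240.R2.H487.DP5

/-!
The counts for the subgroup `PSL_n(F)`.
-/

set_option linter.all false

namespace Vale.Agent.P240.R2.H487

open Matrix hiding single
open Finsupp hiding cons
open Subgroup Vale.Agent.P240.K Vale.Agent.P240.H195

universe u v w

section
variable {F : Type u} [Field F] {K : Type w} [Field K] {a m : ℕ} (φ : F →+* K)

/-- the elements of a half torus whose conjugates are in `PSL_n(F)` -/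
def mT (φ : F →+* K) (i0 : K) (σ : Fin (m + 1) ≃ Vv a) (b : Ww a) (Z : GLm m K) : Set Kˣ :=
  {la | ∃ V : SLm m F, ∃ d : K, V.1.map φ * Z.1 = d • (Z.1 * HM i0 σ b la)}

/-- the counts -/
def MXS (φ : F →+* K) (i0 : K) (σ : Fin (m + 1) ≃ Vv a) : Prop :=
  ∀ (b : Ww a) (Z : GLm m K) (X : SLm m F) (c : K), b ≠ 0 →
    X.1.map φ * Z.1 = c • (Z.1 * PP i0 σ b) →
      12 ≤ Nat.card {la : Kˣ // la ^ 2 ∈ mT φ i0 σ b Z} ∧
      3 * Nat.card {la : Kˣ // la ∈ mT φ i0 σ b Z ∧ la ^ 4 = 1} ≤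
        2 * Nat.card {la : Kˣ // la ∈ mT φ i0 σ b Z} ∧
      ∃ la ∈ mT φ i0 σ b Z, la ^ 4 ≠ 1

variable (h2 : (2 : K) ≠ 0) {i : Kˣ} (hi : (i : K) * i = -1) (σ : Fin (m + 1) ≃ Vv a)

lemma mem_mT {r : ℕ} [hr : Fact r.Prime] [CharP K r] (hm : 1 ≤ m) {b : Ww a} (hb : b ≠ 0)
    (Z : GLm m K) (μ : Kˣ) :
    jL m K Z * hJ h2 hi σ (jL m K) b μ * (jL m K Z)⁻¹ ∈ LS m φ ↔ μ ∈ mT φ (i : K) σ b Z := by
  rw [hJ_val h2 hi σ _ hb]
  constructor
  · rintro ⟨V, hV⟩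
    have h1 : sem Z 1 * sem (HG h2 hi σ b μ) 1 * (sem Z 1)⁻¹ = sem (tog (mapS m φ V)) 1 :=
      (congrArg Subtype.val hV).symm
    obtain ⟨c, hc, h3⟩ := rel_of_conj (r := r) hm h1
    refine ⟨V, c⁻¹, ?_⟩
    have h4 : (HG h2 hi σ b μ).1.map (1 : RingAut K) = HM (i : K) σ b μ := by
      ext u v
      rfl
    rw [h4] at h3
    rw [h3, smul_smul, inv_mul_cancel₀ hc, one_smul]
    rfl
  · rintro ⟨V, d, h3⟩
    refine ⟨V, ?_⟩
    have hd : d ≠ 0 := by
      rintro rfl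
      rw [zero_smul] at h3
      have h4 : ((tog (mapS m φ V) * Z : GLm m K)).1 = 0 := h3
      have h5 := mul_inv_val (tog (mapS m φ V) * Z)
      rw [h4, Matrix.zero_mul] at h5
      exact zero_ne_one h5
    have h4 : (HG h2 hi σ b μ).1.map (1 : RingAut K) = HM (i : K) σ b μ := by
      ext u v
      rfl
    have h5 : sem Z 1 * sem (HG h2 hi σ b μ) 1 * (sem Z 1)⁻¹ = sem (tog (mapS m φ V)) 1 := by
      refine sem_rel (c := d⁻¹) ?_
      have h6 : (tog (mapS m φ V)).1 * Z.1 = V.1.map φ * Z.1 := rfl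
      rw [h4, h6, h3, smul_smul, inv_mul_cancel₀ hd, one_smul]
    exact Subtype.ext h5.symm

/-- the counts for `PSL_n(F)` -/
theorem mxp_of {r : ℕ} [hr : Fact r.Prime] [CharP K r] (hm : 2 ≤ m) (hx : MXS φ (i : K) σ) :
    MXP (jL m K).range (hJ h2 hi σ (jL m K)) (pJ h2 hi σ (jL m K)) (LS m φ) := by
  have h := htsL (a := a) h2 hi σ (r := r) hm
  rintro _ ⟨Z, rfl⟩ b hb hyb
  rw [← h.htP b hb, mem_mT φ h2 hi σ (r := r) (by omega) hb] at hyb
  obtain ⟨X, c, h3⟩ := hyb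
  rw [HM_neg_one h2] at h3
  obtain ⟨h4, h5, h6⟩ := hx b Z X c hb h3
  simp only [mem_mT φ h2 hi σ (r := r) (by omega : 1 ≤ m) hb]
  exact ⟨h4, h5, h6⟩

include h2 hi in
lemma PM_det (ha : 2 ≤ a) (hma : m + 1 = 2 ^ a) (w : Ww a) : (PM K σ w).det = 1 := by
  by_cases hw : w = 0
  · rw [hw, PM_zero, Matrix.det_one]
  have hinv : ((i⁻¹ : Kˣ) : K) = -i := by
    have h1 : i * (-i) = 1 := by
      apply Units.ext
      rw [Units.val_mul, Units.val_neg, mul_neg, hi, neg_neg, Units.val_one]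
    rw [← eq_inv_of_mul_eq_one_right h1, Units.val_neg]
  have hc : cc i = 0 := by
    rw [cc, hinv, neg_add_cancel, zero_div]
  have hs : ss i = -i := by
    rw [ss, hinv]
    field_simp
    ring
  have h1 := TM_det h2 hi σ hw i
  obtain ⟨k, hk⟩ : 4 ∣ m + 1 := by
    rw [hma]
    exact pow_dvd_pow 2 ha
  have h4 : ∀ x : K, x ^ 4 = 1 → x ^ (m + 1) = 1 := by
    intro x hx
    rw [hk, pow_mul, hx, one_pow]
  have hi4 : (i : K) ^ 4 = 1 := by
    have : (i : K) ^ 4 = ((i : K) * i) * (i * i) := by ring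
    rw [this, hi]
    ring
  have hb4 : ((bt (i : K) w)⁻¹) ^ 4 = 1 := by
    rcases zmod2_cases (Qf w) with h | h
    · rw [bt, if_pos h, inv_one, one_pow]
    · rw [bt, if_neg (by rw [h]; exact one_ne_zero), inv_pow, hi4, inv_one]
  rw [TM, hc, hs, zero_smul, zero_add, PP, smul_smul, Matrix.det_smul, Fintype.card_fin, mul_pow,
    h4 _ (by rw [Even.neg_pow (by decide), hi4]), h4 _ hb4, one_mul, one_mul] at h1
  exact h1

include h2 hi in
lemma pJ_mem (ha : 2 ≤ a) (hma : m + 1 = 2 ^ a) (w : Ww a) :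
    pJ h2 hi σ (jL m K) w ∈ LS m φ := by
  have h1 : (PM F σ w).det = 1 := by
    apply φ.injective
    have h3 := PM_det h2 hi σ ha hma w
    rw [← PM_map φ σ w] at h3
    rw [map_one, ← h3]
    exact RingHom.map_det φ _
  refine ⟨⟨PM F σ w, h1⟩, ?_⟩
  obtain ⟨c, hc, h3⟩ := TS_i h2 hi σ w
  apply Subtype.ext
  have h5 : sem (tog (mapS m φ ⟨PM F σ w, h1⟩)) 1 = sem (tog (TS h2 hi σ w i)) 1 := by
    refine sem_congr (c := c⁻¹) ?_
    have h6 : (tog (TS h2 hi σ w i)).1 = (TS h2 hi σ w i).1 := rfl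
    have h7 : (tog (mapS m φ ⟨PM F σ w, h1⟩)).1 = (PM F σ w).map φ := rfl
    rw [h6, h7, h3, smul_smul, inv_mul_cancel₀ hc, one_smul, PM_map]
  exact h5

include h2 hi in
/-- **The property `AutTop` from the counts.** -/
theorem autTop_of_mx [Finite F] [Finite K] {𝕜 : Type v} [Field 𝕜] {r : ℕ} [hr : Fact r.Prime]
    [CharP K r] (ha : 2 ≤ a) (hma : m + 1 = 2 ^ a) (num : NumA K) (hx : MXS φ (i : K) σ)
    (hinv : ∀ f : MulAut (PL m F), f ^ 2 = 1 → ∃ M, f = sem M 1 ∨ f = sem M 1 * ind (itA m F)) :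
    AutTop 𝕜 (PL m F) := by
  have hm : 2 ≤ m := by
    have : 2 ^ 2 ≤ 2 ^ a := Nat.pow_le_pow_right (by norm_num) ha
    omega
  have h := htsL (a := a) h2 hi σ (r := r) hm
  have hmx := mxp_of φ h2 hi σ (r := r) hm hx
  have hR : RelTop 𝕜 (LS m φ) := by
    refine relTop_of h ha (cenL h2 hi σ (r := r) hm ha num.h4) norm1 num (fun x hx => ?_)
      (pJ_mem φ h2 hi σ ha hma) ?_ hmx
    · obtain ⟨w₀, ε, h3, -⟩ := cent1 h2 hi σ (r := r) hm x hx
      exact ⟨w₀, ε, h3⟩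
    · rintro _ ⟨X, rfl⟩
      exact ⟨_, rfl⟩
  refine autTop_of_rel (eS φ (r := r) (m := m) (by omega)) ?_ (fun f hf => ?_) hR
  · rw [eq_bot_iff]
    intro x hx'
    rw [mem_centralizer_iff] at hx'
    rw [mem_bot]
    refine cen_of h2 hi σ (r := r) hm ha x (fun w => (hx' _ (pJ_mem φ h2 hi σ ha hma w)).symm)
      fun b hb => ?_
    obtain ⟨μ, h3, h4⟩ := (hmx 1 (one_mem _) b hb (by
      rw [one_mul, inv_one, mul_one]
      exact pJ_mem φ h2 hi σ ha hma b)).2.2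
    rw [one_mul, inv_one, mul_one] at h3
    refine ⟨μ, fun h5 => h4 ?_, (hx' _ h3).symm⟩
    have : μ ^ 4 = (μ ^ 2) ^ 2 := by rw [← pow_mul]
    rw [this, h5, one_pow]
  · obtain ⟨M, rfl | rfl⟩ := hinv f hf
    · have h3 := ind_lin φ (r := r) (m := m) (by omega) M
      exact ⟨_, norm_of _ h3, h3⟩
    · have h3 : ∀ y : PL m F, ((eS φ (r := r) (m := m) (by omega)
          ((sem M 1 * ind (itA m F)) y) : LS m φ) : lin1 m K) =
          (jL m K (mapG m φ M) * gL m K) * (eS φ (r := r) (m := m) (by omega) y : LS m φ) *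
            (jL m K (mapG m φ M) * gL m K)⁻¹ := by
        intro y
        rw [MulAut.mul_apply, ind_lin, ind_it]
        group
      exact ⟨_, norm_of _ h3, h3⟩

end

end Vale.Agent.P240.R2.H487
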