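import Vale.Agent.P240.R2.H487.DP8
import Vale.Agent.P240.R2.H487.PDefs
import Vale.Agent.P240.R2.H938.FamF

/-!
The property `LocTopF` for `PSL_n(F)`, `n` a power of `2`, `|F|` odd.
-/

set_option linter.all false

namespace Vale.Agent.P240.R2.H487

open Subgroup Vale.Agent.P240.K Vale.Agent.P240.H195

universe u v w

/-- the centre of `PSL_n(F)` is trivial -/
lemma psl_centreless {F : Type w} [Field F] {m : ℕ} {r : ℕ} [hr : Fact r.Prime] [CharP F r]
    (hm : 1 ≤ m) (x : PL m F) (hx : ∀ y, x * y = y * x) : x = 1 := by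
  obtain ⟨X, rfl⟩ := QuotientGroup.mk'_surjective _ x
  have h1 : sem (tog X) 1 = 1 := by
    rw [← conj_eq_sem]
    ext1 y
    rw [MulAut.conj_apply, MulAut.one_apply]
    have h2 := hx y
    exact mul_inv_eq_iff_eq_mul.2 h2
  obtain ⟨-, c, -, h3⟩ := sem_trivial (r := r) h1 hm
  rw [Algebra.algebraMap_eq_smul_one] at h3
  have h4 : pr m F X = pr m F 1 := pr_smul (c := c) h3
  rw [map_one] at h4
  exact h4

lemma PauliPSL.congr {L : Type*} {M : Type*} [Group L] [Group M] (h : PauliPSL L) (e : L ≃* M) :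
    PauliPSL M := by
  obtain ⟨n, a, F, hF1, hF2, h1, h2, h3, h4, ⟨e'⟩⟩ := h
  exact ⟨n, a, F, hF1, hF2, h1, h2, h3, h4, ⟨e'.trans e⟩⟩

/-- **`LocTopF` for `PSL_n(F)`**, `n` a power of `2`. -/
theorem pauli_locTopF {G : Type u} [Group G] [Finite G] {𝕜 : Type v} [Field 𝕜] {L : Subgroup G}
    (hs : IsSimpleGroup L) (h : PauliPSL L) : LocTopF 𝕜 2 L := by
  obtain ⟨n, a, F, hF1, hF2, hn, ha, h2, hq, ⟨e⟩⟩ := h
  obtain ⟨m, rfl⟩ : ∃ m, n = m + 1 := ⟨n - 1, by
    have : 0 < n := by rw [hn]; positivity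
    omega⟩
  have hm : 2 ≤ m := by
    have : 2 ^ 2 ≤ 2 ^ a := Nat.pow_le_pow_right (by norm_num) ha
    omega
  obtain ⟨r, hr, hchar⟩ := exists_char F
  have hs' : IsSimpleGroup (PL m F) := e.isSimpleGroup
  have hc := psl_centreless (F := F) (m := m) (r := r) (by omega)
  simp only [Set.mem_insert_iff, Set.mem_singleton_iff, not_or] at hq
  obtain ⟨h3, h5, h9, h25⟩ := hq
  refine H979.locTopF_of_autTop e hc ?_
  have h4 : Nat.card F % 4 = 1 ∨ Nat.card F % 4 = 3 := by omega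
  rcases h4 with h4 | h4
  · exact psl_autTop1 hn ha h4 ⟨h5, h9, h25⟩ hs' hc
  · exact psl_autTop3 hn ha h4 (by omega) hs'

end Vale.Agent.P240.R2.H487
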