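import Vale.Agent.P240.R2.H487.DP2

/-!
Conjugates of subgroups satisfying `LocTopF`.
-/

set_option linter.all false

namespace Vale.Agent.P240.R2.H487

open Finsupp hiding cons
open Subgroup Vale.Agent.P240.K Vale.Agent.P240.H195

universe u v

section
variable {G : Type u} [Group G]

lemma kcj_eq (g : G) (L : Subgroup G) : K.cj g L = cj g L := rfl

theorem LocTopF.cj [Finite G] {𝕜 : Type v} [Field 𝕜] {p : ℕ} {L : Subgroup G}
    (h : LocTopF 𝕜 p L) (g : G) : LocTopF 𝕜 p (K.cj g L) := by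
  obtain ⟨𝒜, ⟨A₀, hA₀⟩, h𝒜, hmain⟩ := h
  rw [kcj_eq]
  refine ⟨{A | ∃ B ∈ 𝒜, A = H487.cj g B}, ⟨H487.cj g A₀, A₀, hA₀, rfl⟩, ?_, ?_⟩
  · rintro _ ⟨A, hA, rfl⟩
    exact ⟨cj_mono (h𝒜 A hA).1, cj_ApS (h𝒜 A hA).2⟩
  · rintro E hE hEN E₁ hE₁ ⟨_, ⟨A, hA, rfl⟩, hAE⟩ hEC
    have hEC' : H487.cj g⁻¹ E₁ ⊓ centralizer (L : Set G) = ⊥ := by
      rw [← cj_bot g⁻¹, ← hEC, (H487.cj g⁻¹).map_inf, cj_centralizer, cj_inv]
    have hEN' : H487.cj g⁻¹ E ≤ normalizer (L : Set G) := by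
      have h1 := cj_normalizer_le (y := g⁻¹) hEN
      rwa [cj_inv] at h1
    have hAE' : A ≤ H487.cj g⁻¹ E₁ := by
      have h1 := cj_mono (y := g⁻¹) hAE
      rwa [cj_inv] at h1
    obtain ⟨B, hBE, hB1, hB2, hB3, E', hE', hE'S, ⟨A', hA', hA'E⟩, hE'C, hE'L, hcard, α, φ, hT⟩ :=
      hmain (H487.cj g⁻¹ E) (cj_ApS hE) hEN' (H487.cj g⁻¹ E₁) (cj_mono hE₁) ⟨A, hA, hAE'⟩ hEC'
    have hM : H487.cj g ((L ⊔ H487.cj g⁻¹ E₁) ⊓ centralizer (B : Set G)) =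
        (H487.cj g L ⊔ E₁) ⊓ centralizer ((H487.cj g B : Subgroup G) : Set G) := by
      rw [(H487.cj g).map_inf, (H487.cj g).map_sup, cj_inv', cj_centralizer]
    refine ⟨H487.cj g B, ?_, ?_, ?_, ?_, H487.cj g E', ?_, cj_ApS hE'S,
      ⟨H487.cj g A', ⟨A', hA', rfl⟩, cj_mono hA'E⟩, ?_, ?_, ?_, ?_⟩
    · rw [← cj_inv' g E]
      exact cj_mono hBE
    · rw [← cj_inv' g E, ← hB1, (H487.cj g).map_sup, cj_inv']
    · rw [← cj_bot g, ← hB2, (H487.cj g).map_inf, cj_inv']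
    · have h1 := cj_mono (y := g) hB3
      rwa [(H487.cj g).map_inf, cj_inv', cj_centralizer] at h1
    · rw [← hM]
      exact cj_mono hE'
    · rw [← cj_bot g, ← hE'C, (H487.cj g).map_inf, (H487.cj g).map_sup, cj_centralizer]
    · rw [← (H487.cj g).map_sup, hE'L, (H487.cj g).map_sup, cj_inv']
    · rw [card_cj] at hcard ⊢
      exact hcard
    · rw [← hM]
      exact topCycle_cj hT hE' g

lemma locTopF_cj_iff [Finite G] {𝕜 : Type v} [Field 𝕜] {p : ℕ} {L : Subgroup G} {g : G} :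
    LocTopF 𝕜 p (K.cj g L) ↔ LocTopF 𝕜 p L := by
  refine ⟨fun h => ?_, fun h => h.cj g⟩
  have h1 := h.cj g⁻¹
  rwa [cj_inv_cj] at h1

end

end Vale.Agent.P240.R2.H487
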