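import Vale.Agent.P240.H148.Defs
import Vale.Agent.P240.H195.CF
import Vale.Agent.P240.V.QDefs

/-!
The conditions on the components used in the main theorem.
-/

namespace Vale.Agent.P240.R2.H487

open Subgroup Vale.Agent.P240.K Vale.Agent.P240.H195

section
variable {G : Type*} [Group G]

/-- The elements of `G` that centralize all members of `S`. -/
def CenAll (S : Set (Subgroup G)) : Subgroup G := ⨅ L ∈ S, centralizer (L : Set G)

/-- Some power `x ^ (p ^ k)` lies in `M`: `x` is a `p`-element modulo `M`. -/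
def PMod (p : ℕ) (M : Subgroup G) (x : G) : Prop := ∃ k : ℕ, x ^ p ^ k ∈ M

/-- The products of elements `y ∈ K` with `y ^ p = 1` are `p`-elements modulo `M`. If `M` is a normal
subgroup of `K` and `K / M` has a normal Sylow `p`-subgroup, this holds. -/
def OmegaMod (p : ℕ) (K M : Subgroup G) : Prop :=
  ∀ x ∈ Subgroup.closure {y | y ∈ K ∧ y ^ p = 1}, PMod p M x

/-- For a labelling `l` of the components by numbers: the centralizer `N_q` of all components with
labels `≠ q`. It contains the components with label `q`. -/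
def NClass (l : Subgroup G → ℕ) (q : ℕ) : Subgroup G := CenAll {L | L ∈ Q.Comp G ∧ l L ≠ q}

end

/-- `L` is alternating, or satisfies `RigidLie p`, or satisfies `EuFree p` and has order divisible by
`p`, or has an `l`-subgroup as in `AutFree p l`. -/
def GoodFor (p l : ℕ) (L : Type*) [Group L] : Prop :=
  (∃ n : ℕ, 5 ≤ n ∧ Nonempty (L ≃* alternatingGroup (Fin n))) ∨ RigidLie p L ∨
    (EuFree p L ∧ p ∣ Nat.card L) ∨ AutFree p l L

/-- The field `𝕜` has characteristic `p`, and `S` is a conjugation-stable set of components that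
satisfy `Removable` or `RigidLie p`; in the centralizer `K` of the members of `S`, the products of
elements of order `p` are `p`-elements modulo the product of the other components; the other
components satisfy `AlmostSimpleHQ`. -/
def Separated (𝕜 : Type*) [Field 𝕜] (p : ℕ) (G : Type*) [Group G] : Prop :=
  (p : 𝕜) = 0 ∧ ∃ S : Set (Subgroup G), S ⊆ Q.Comp G ∧
    (∀ L ∈ S, ∀ g : G, L.map (MulAut.conj g).toMonoidHom ∈ S) ∧
    (∀ L ∈ S, Removable 𝕜 p L ∨ RigidLie p L) ∧
    OmegaMod p (CenAll S) (⨆ L ∈ Q.Comp G \ S, L) ∧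
    ∀ L ∈ Q.Comp G, L ∉ S → AlmostSimpleHQ 𝕜 p L

/-- Components labelled by natural numbers `l L`, the same for conjugate components: the components
with label `0` satisfy `Removable` or `RigidLie p`; every label `q ≠ 0` of a component `L` is a prime
with `GoodFor p q L`. For the labels `q ∈ B`, the normal subgroup `N_q` satisfies `FewOuter`. Either
all components with labels `≠ 0` outside `B` have the same label, or `𝕜` has characteristic `p` and,
in the centralizer of the components with label `0` or in `B`, the products of elements of order `p`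
are `p`-elements modulo the product of the subgroups `N_q` for the labels `q ≠ 0` outside `B`. -/
def Labelled (𝕜 : Type*) [Field 𝕜] (p : ℕ) (G : Type*) [Group G] : Prop :=
  ∃ (l : Subgroup G → ℕ) (B : Set ℕ),
    (∀ L ∈ Q.Comp G, ∀ g : G, l (L.map (MulAut.conj g).toMonoidHom) = l L) ∧
    (∀ L ∈ Q.Comp G, l L = 0 → Removable 𝕜 p L ∨ RigidLie p L) ∧
    (∀ L ∈ Q.Comp G, l L ≠ 0 → (l L).Prime ∧ GoodFor p (l L) L) ∧
    (∀ L ∈ Q.Comp G, l L ≠ 0 → l L ∈ B → FewOuter p (NClass l (l L))) ∧
    ((∀ L ∈ Q.Comp G, ∀ M ∈ Q.Comp G, l L ≠ 0 → l L ∉ B → l M ≠ 0 → l M ∉ B → l L = l M) ∨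
      ((p : 𝕜) = 0 ∧ OmegaMod p (CenAll {L | L ∈ Q.Comp G ∧ (l L = 0 ∨ l L ∈ B)})
        (⨆ L ∈ {L | L ∈ Q.Comp G ∧ l L ≠ 0 ∧ l L ∉ B}, NClass l (l L))))

/-- Alternating groups, groups `PSL_n(F)` for finite fields `F`, groups with a split BN-pair of
characteristic `r ≠ p`, and groups with a rigid split BN-pair of characteristic `p`. -/
def KnownType (p : ℕ) (L : Type*) [Group L] : Prop :=
  (∃ n : ℕ, 5 ≤ n ∧ Nonempty (L ≃* alternatingGroup (Fin n))) ∨
    (∃ r : ℕ, r.Prime ∧ H148.IsPSL r L) ∨ (∃ r : ℕ, r.Prime ∧ r ≠ p ∧ LieType r L) ∨ RigidLie p L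

end Vale.Agent.P240.R2.H487
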