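import Vale.Agent.P240.R2.H487.Loc

/-!
`HQ(Γ)`.
-/

namespace Vale.Agent.P240.R2.H487

set_option linter.unusedSectionVars false

open Subgroup Vale.Agent.P240.K Vale.Agent.P240.H195

universe u v

variable {𝕜 : Type v} [Field 𝕜]

lemma NA_empty {α : Type*} [PartialOrder α] : NA 𝕜 (∅ : Set α) := by
  by_contra h
  exact Set.not_nonempty_empty (nonempty_of_ac h)

/-- A family whose members have no outer automorphisms induced by `G`. -/
theorem HQ_of_family {G : Type u} [Group G] [Finite G] {p : ℕ} [Fact p.Prime]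
    {F : Set (Subgroup G)} (hF : Family p F)
    (hn : ∀ L ∈ F, normalizer (L : Set G) ≤ L ⊔ centralizer (L : Set G))
    (hL : ∀ L ∈ F, HQ 𝕜 p L) (hC : NA 𝕜 (Ain p (Cen F))) : HQ 𝕜 p G := by
  rw [HQ_iff]
  refine remove hF (T := F) (fun _ h => h) (fun L hLF => Or.inl ⟨⟨?_, Or.inl ?_⟩, ?_⟩) hC
  · intro x _ _ hx _ _
    exact absurd (hn L hLF hx.1) hx.2.2
  · intro x _ hx _
    exact absurd (hn L hLF hx.1) hx.2.2
  · intro A hA hinn
    have h1 : L.normalizerMonoidHom.range ≤ (MulAut.conj (G := L)).range := by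
      rintro _ ⟨n, rfl⟩
      obtain ⟨l, hl, c, hc, h2⟩ := mem_sup_cent (hn L hLF n.2)
      refine ⟨⟨l, hl⟩, ?_⟩
      ext x
      change (l : G) * (x : G) * l⁻¹ = (n : G) * (x : G) * (n : G)⁻¹
      have h3 := Subgroup.mem_centralizer_iff.1 hc x x.2
      rw [h2]
      calc l * (x : G) * l⁻¹ = l * ((x : G) * c) * c⁻¹ * l⁻¹ := by group
        _ = l * (c * (x : G)) * c⁻¹ * l⁻¹ := by rw [h3]
        _ = l * c * (x : G) * (l * c)⁻¹ := by group
    have h2 : A = (MulAut.conj (G := L)).range := by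
      refine le_antisymm (hA.trans h1) ?_
      rintro _ ⟨l, rfl⟩
      exact hinn l
    subst h2
    have h3 : Function.Injective (MulAut.conj (G := L)) := by
      rw [injective_iff_map_eq_one]
      intro x hx
      have h4 : (x : G) ∈ L ⊓ centralizer (L : Set G) := by
        refine Subgroup.mem_inf.2 ⟨x.2, Subgroup.mem_centralizer_iff.2 fun y hy => ?_⟩
        have h5 : (x * ⟨y, hy⟩ * x⁻¹ : L) = ⟨y, hy⟩ := congrArg (fun f : MulAut L => f ⟨y, hy⟩) hx
        have h6 : (x : G) * y * (x : G)⁻¹ = y := congrArg Subtype.val h5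
        calc y * (x : G) = (x : G) * y * (x : G)⁻¹ * x := by rw [h6]
          _ = x * y := by group
      rw [hF.centre L hLF, Subgroup.mem_bot] at h4
      exact Subtype.ext h4
    exact (HQ_congr (MonoidHom.ofInjective h3)).1 (hL L hLF)

section
variable {G : Type u} [Group G] [Finite G] {p : ℕ} {C : Set (Subgroup G)} {T : Subgroup G}
  {hC : ∀ L ∈ C, ∀ g ∈ T, cj g L ∈ C}

lemma loc_dvd (hF : Family p C) (hT : ∀ L ∈ C, L ≤ T) {L : Subgroup G} (hL : L ∈ C) :
    p ∣ Nat.card (Loc hC L) := by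
  let f : L →* Loc hC L :=
    ((kapG hC L).codRestrict (Loc hC L) kapG_mem).comp
      ((Subgroup.inclusion (Subgroup.le_normalizer (H := L))).codRestrict
        (T.subgroupOf (normalizer (L : Set G))) fun x => hT L hL x.2)
  have hf : Function.Injective f := by
    rw [injective_iff_map_eq_one]
    intro x hx
    have h1 : kap C L (Subgroup.inclusion (Subgroup.le_normalizer (H := L)) x) = 1 := by
      have h2 := congrArg (fun a : Loc hC L => a.1.1) hx
      exact h2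
    rw [kap_eq_one_iff hL] at h1
    have h4 : (x : G) ∈ L ⊓ centralizer (L : Set G) := Subgroup.mem_inf.2 ⟨x.2, h1⟩
    rw [hF.centre L hL, Subgroup.mem_bot] at h4
    exact Subtype.ext h4
  exact (hF.dvd L hL).trans (Subgroup.card_dvd_of_injective f hf)

lemma loc_ne [hp : Fact p.Prime] (hF : Family p C) (hT : ∀ L ∈ C, L ≤ T) {L : Subgroup G}
    (hL : L ∈ C) : Loc hC L ≠ ⊥ := by
  intro h
  have h1 := loc_dvd (hC := hC) hF hT hL
  rw [h, Subgroup.card_bot] at h1
  exact hp.out.one_lt.ne' (Nat.dvd_one.1 h1)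

/-- elements normalizing `Loc L` preserve the block of `L` -/
lemma block_of_cj [Fact p.Prime] (hF : Family p C) (hT : ∀ L ∈ C, L ≤ T) {L : Subgroup G}
    (hL : L ∈ C) {φ : Gam C T hC} (hφ : cj φ (Loc hC L) = Loc hC L) :
    ∀ y : Y C, y.1.1 = L → (φ.1 y).1.1 = L := by
  obtain ⟨g, hg, hb⟩ := blk φ.2
  intro y hy
  rw [hb, hy]
  by_contra hne
  rw [cj_Loc hb] at hφ
  have h1 := loc_inf (hC := hC) hne
  rw [hφ, inf_idem] at h1
  exact loc_ne hF hT hL h1

/-- the family of the local subgroups -/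
def LocF (hC : ∀ L ∈ C, ∀ g ∈ T, cj g L ∈ C) : Set (Subgroup (Gam C T hC)) := Loc hC '' C

lemma family_LocF [Fact p.Prime] (hF : Family p C) (hT : ∀ L ∈ C, L ≤ T) :
    Family p (LocF hC) where
  conj := by
    rintro _ ⟨L, hL, rfl⟩ φ
    obtain ⟨g, hg, hb⟩ := blk φ.2
    exact ⟨cj g L, hC L hL g hg, (cj_Loc hb L).symm⟩
  comm := by
    rintro _ ⟨L, hL, rfl⟩ _ ⟨M, hM, rfl⟩ hLM x hx y hy
    exact loc_comm (fun h => hLM (by rw [h])) hx hy
  centre := by
    rintro _ ⟨L, hL, rfl⟩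
    rw [eq_bot_iff]
    intro φ hφ
    obtain ⟨h1, h2⟩ := Subgroup.mem_inf.1 hφ
    rw [Subgroup.mem_bot]
    apply Subtype.ext
    ext1 y
    by_cases hy : y.1.1 = L
    · exact fix_block hL (hT L hL) (hF.centre L hL) (loc_block h1)
        (fun a ha => Subgroup.mem_centralizer_iff.1 h2 a ha) y hy
    · exact h1 y hy
  dvd := by
    rintro _ ⟨L, hL, rfl⟩
    exact loc_dvd hF hT hL

lemma normalizer_Loc [hp : Fact p.Prime] (hF : Family p C) (hT : ∀ L ∈ C, L ≤ T) {L : Subgroup G}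
    (hL : L ∈ C) : normalizer (Loc hC L : Set (Gam C T hC)) ≤
      Loc hC L ⊔ centralizer (Loc hC L : Set (Gam C T hC)) := by
  intro φ hφ
  have h1 := block_of_cj hF hT hL (cj_eq_iff.2 hφ)
  obtain ⟨k, hk, hk1⟩ := gam_agree hL h1
  set a : Gam C T hC := kapG hC L ⟨k, hk⟩ with ha
  have haL : a ∈ Loc hC L := kapG_mem _
  have h2 : ∀ y : Y C, y.1.1 = L → (a⁻¹ * φ).1 y = y := by
    intro y hy
    change a.1⁻¹ (φ.1 y) = y
    rw [Equiv.Perm.inv_eq_iff_eq]
    exact ag_ext hk1 (Ag_kap k) hy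
  have h3 : a⁻¹ * φ ∈ centralizer (Loc hC L : Set (Gam C T hC)) := by
    rw [Subgroup.mem_centralizer_iff]
    intro b hb
    apply Subtype.ext
    have : Equiv.Perm.Disjoint b.1 (a⁻¹ * φ).1 := by
      intro y
      by_cases hy : y.1.1 = L
      · exact Or.inr (h2 y hy)
      · exact Or.inl (hb y hy)
    exact this.commute.eq
  have h4 : φ = a * (a⁻¹ * φ) := by group
  rw [h4]
  exact Subgroup.mul_mem _ (Subgroup.mem_sup_left haL) (Subgroup.mem_sup_right h3)

lemma cen_LocF [hp : Fact p.Prime] (hF : Family p C) (hT : ∀ L ∈ C, L ≤ T) :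
    Cen (LocF hC) = ⊥ := by
  rw [eq_bot_iff]
  intro φ hφ
  rw [mem_Cen] at hφ
  rw [Subgroup.mem_bot]
  apply Subtype.ext
  ext1 y
  have hL := y.2.1
  have h1 := hφ (Loc hC y.1.1) ⟨_, hL, rfl⟩
  have h2 : cj φ (Loc hC y.1.1) = Loc hC y.1.1 :=
    cj_eq_iff.2 (Subgroup.centralizer_le_normalizer _ h1)
  exact fix_block hL (hT _ hL) (hF.centre _ hL) (block_of_cj hF hT hL h2)
    (fun a ha => Subgroup.mem_centralizer_iff.1 h1 a ha) y rfl

/-- **The group `Γ` satisfies `HQ`** over every field. -/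
theorem HQ_Gam [hp : Fact p.Prime] (hF : Family p C) (hT : ∀ L ∈ C, L ≤ T)
    (hA : ∀ L ∈ C, HQ 𝕜 p ((T.subgroupOf (normalizer (L : Set G))).map L.normalizerMonoidHom)) :
    HQ 𝕜 p (Gam C T hC) := by
  refine HQ_of_family (family_LocF hF hT) ?_ ?_ ?_
  · rintro _ ⟨L, hL, rfl⟩
    exact normalizer_Loc hF hT hL
  · rintro _ ⟨L, hL, rfl⟩
    obtain ⟨e⟩ := loc_equiv (hC := hC) hL
    exact (HQ_congr e).2 (hA L hL)
  · rw [cen_LocF hF hT]
    have : Ain p (⊥ : Subgroup (Gam C T hC)) = ∅ := by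
      ext E
      constructor
      · rintro ⟨h1, h2⟩
        exact absurd (le_bot_iff.1 h2) h1.1
      · intro h
        exact h.elim
    rw [this]
    exact NA_empty

end

end Vale.Agent.P240.R2.H487
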