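import Vale.Agent.P240.R2.H487.T1

/-!
Transfer: quotients by normal subgroups of order prime to `p` and invertible in the field.
-/

namespace Vale.Agent.P240.R2.H487

set_option linter.unusedSectionVars false

open Finsupp Subgroup Vale.Agent.P240.K Vale.Agent.P240.H195

universe u v w

section
variable {𝕜 : Type v} [Field 𝕜] {α β ι : Type*} [PartialOrder α] [PartialOrder β] [Fintype ι]

/-- the sum of the images of a list -/
noncomputable def avgL (𝕜 : Type v) [Field 𝕜] (a : ι → α → α) (m : List α) : Ch 𝕜 α :=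
  ∑ i, single (m.map (a i)) (1 : 𝕜)

/-- the lift of a list -/
def Lf (lf : β → β → α) : List β → List α
  | [] => []
  | X :: r => (X :: r).map (lf X)

/-- the lift of a chain -/
noncomputable def Sg (𝕜 : Type v) [Field 𝕜] (a : ι → α → α) (lf : β → β → α) : Ch 𝕜 β →ₗ[𝕜] Ch 𝕜 α :=
  Finsupp.linearCombination 𝕜 fun l => avgL 𝕜 a (Lf lf l)

lemma Sg_single (a : ι → α → α) (lf : β → β → α) (l : List β) :
    Sg 𝕜 a lf (single l (1 : 𝕜)) = avgL 𝕜 a (Lf lf l) := by
  rw [Sg, Finsupp.linearCombination_single, one_smul]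

lemma bd_avgL (a : ι → α → α) (m : List α) :
    bd (avgL 𝕜 a m) = ∑ k ∈ Finset.range m.length, (-1 : 𝕜) ^ k • avgL 𝕜 a (m.eraseIdx k) := by
  rw [avgL, map_sum]
  have h1 : ∀ i, bd (single (m.map (a i)) (1 : 𝕜)) =
      ∑ k ∈ Finset.range m.length, (-1 : 𝕜) ^ k • single ((m.eraseIdx k).map (a i)) (1 : 𝕜) := by
    intro i
    rw [bd_single, one_smul, List.length_map]
    exact Finset.sum_congr rfl fun k _ => by rw [List.eraseIdx_map]
  simp only [h1]
  rw [Finset.sum_comm]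
  refine Finset.sum_congr rfl fun k _ => ?_
  rw [avgL, Finset.smul_sum]

/-- **Transfer** for posets. -/
theorem transfer {S : Set α} {S' : Set β} (a : ι → α → α) (π : α → β) (lf : β → β → α)
    (h1 : ∀ X ∈ S', ∀ Z ∈ S', Z ≤ X → lf X Z ∈ S)
    (h2 : ∀ X ∈ S', ∀ Z ∈ S', ∀ Z' ∈ S', Z < Z' → Z' ≤ X → lf X Z < lf X Z')
    (h3 : ∀ i, ∀ X ∈ S', ∀ Z ∈ S', Z ≤ X → π (a i (lf X Z)) = Z)
    (h4 : ∀ i, ∀ x ∈ S, a i x ∈ S) (h4' : ∀ i, ∀ x ∈ S, ∀ y ∈ S, x < y → a i x < a i y)
    (h5 : ∀ X ∈ S', ∀ Y ∈ S', Y < X → ∃ e : ι ≃ ι, ∀ i, ∀ Z ∈ S', Z ≤ Y →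
      a i (lf X Z) = a (e i) (lf Y Z))
    (h6 : ∀ x ∈ S, π x ∈ S') (h6' : ∀ x ∈ S, ∀ y ∈ S, x < y → π x < π y)
    (hcard : ((Fintype.card ι : ℕ) : 𝕜) ≠ 0) (h : NA 𝕜 S') : NA 𝕜 S := by
  obtain ⟨z, hz, hbz, hne⟩ := h
  by_contra hac
  -- lists below their head
  have hle : ∀ {X : β} {r : List β}, st S' (X :: r) → ∀ Z ∈ X :: r, Z ∈ S' ∧ Z ≤ X := by
    intro X r hl Z hZ
    refine ⟨hl.2 Z hZ, ?_⟩
    rcases List.mem_cons.1 hZ with h | h
    · exact h.le
    · exact le_of_lt ((List.pairwise_cons.1 hl.1).1 Z h)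
  have hmem : ∀ l, st S' l → Sg 𝕜 a lf (single l (1 : 𝕜)) ∈ Sp 𝕜 (st S) := by
    intro l hl
    rw [Sg_single, avgL]
    refine Submodule.sum_mem _ fun i _ => single_mem_Sp ?_ _
    rcases l with _ | ⟨X, r⟩
    · exact ⟨List.Pairwise.nil, fun b hb => by simp [Lf] at hb⟩
    · have hX := (hle hl X (by simp)).1
      refine ⟨?_, ?_⟩
      · rw [Lf, List.map_map, List.pairwise_map]
        refine hl.1.imp_of_mem fun {Z' Z} hZ' hZ hlt => ?_
        have hZ1 := hle hl Z hZ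
        have hZ2 := hle hl Z' hZ'
        exact h4' i _ (h1 X hX Z hZ1.1 hZ1.2) _ (h1 X hX Z' hZ2.1 hZ2.2)
          (h2 X hX Z hZ1.1 Z' hZ2.1 hlt hZ2.2)
      · intro b hb
        rw [Lf, List.map_map] at hb
        obtain ⟨Z, hZ, rfl⟩ := List.mem_map.1 hb
        have hZ1 := hle hl Z hZ
        exact h4 i _ (h1 X hX Z hZ1.1 hZ1.2)
  have hbd : ∀ l, st S' l → bd (Sg 𝕜 a lf (single l (1 : 𝕜))) =
      Sg 𝕜 a lf (bd (single l (1 : 𝕜))) := by
    intro l hl
    rw [Sg_single, bd_avgL, bd_single, one_smul, map_sum]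
    rcases l with _ | ⟨X, r⟩
    · simp [Lf]
    · have hlen : (Lf lf (X :: r)).length = (X :: r).length := by rw [Lf, List.length_map]
      rw [hlen]
      refine Finset.sum_congr rfl fun k hk => ?_
      rw [map_smul, Sg_single]
      congr 1
      rcases k with _ | k
      · -- the head
        rw [List.eraseIdx_zero, List.eraseIdx_zero, List.tail_cons]
        rcases r with _ | ⟨Y, r⟩
        · simp [Lf]
        · have e1 : (Lf lf (X :: Y :: r)).tail = (Y :: r).map (lf X) := rfl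
          have e2 : Lf lf (Y :: r) = (Y :: r).map (lf Y) := rfl
          rw [e1, e2]
          have hX := (hle hl X (by simp)).1
          have hYX : Y < X := (List.pairwise_cons.1 hl.1).1 Y (by simp)
          have hY := (hle hl Y (by simp)).1
          have hl' : st S' (Y :: r) :=
            ⟨(List.pairwise_cons.1 hl.1).2, fun b hb => hl.2 b (List.mem_cons_of_mem _ hb)⟩
          obtain ⟨e, he⟩ := h5 X hX Y hY hYX
          rw [avgL, avgL, ← Equiv.sum_comp e fun i => single (((Y :: r).map (lf Y)).map (a i)) (1 : 𝕜)]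
          refine Finset.sum_congr rfl fun i _ => ?_
          rw [List.map_map, List.map_map]
          congr 1
          refine List.map_congr_left fun Z hZ => ?_
          have hZ1 := hle hl' Z hZ
          exact he i Z hZ1.1 hZ1.2
      · have e1 : (X :: r).eraseIdx (k + 1) = X :: r.eraseIdx k := List.eraseIdx_cons_succ
        rw [e1]
        have e2 : Lf lf (X :: r.eraseIdx k) = (X :: r.eraseIdx k).map (lf X) := rfl
        have e3 : Lf lf (X :: r) = (X :: r).map (lf X) := rfl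
        rw [e2, e3, List.eraseIdx_map, e1]
  have hbd' : ∀ c ∈ Sp 𝕜 (st S'), bd (Sg 𝕜 a lf c) = Sg 𝕜 a lf (bd c) := by
    intro c hc
    have := eq_of_Sp (F := bd.comp (Sg 𝕜 a lf)) (G := (Sg 𝕜 a lf).comp bd)
      (fun l hl => hbd l hl) hc
    exact this
  have hmem' : ∀ c ∈ Sp 𝕜 (st S'), Sg 𝕜 a lf c ∈ Sp 𝕜 (st S) := fun c hc =>
    map_mem (Sg 𝕜 a lf) hmem hc
  have hpi : ∀ c ∈ Sp 𝕜 (st S'), mp π (Sg 𝕜 a lf c) = ((Fintype.card ι : ℕ) : 𝕜) • c := by
    intro c hc
    have := eq_of_Sp (F := (mp π).comp (Sg 𝕜 a lf))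
      (G := ((Fintype.card ι : ℕ) : 𝕜) • LinearMap.id) (fun l hl => ?_) hc
    · exact this
    · rw [LinearMap.comp_apply, Sg_single, avgL, map_sum, LinearMap.smul_apply, LinearMap.id_apply]
      have h7 : ∀ i, mp π (single ((Lf lf l).map (a i)) (1 : 𝕜)) = single l (1 : 𝕜) := by
        intro i
        rw [mp_single]
        congr 1
        rcases l with _ | ⟨X, r⟩
        · rfl
        · rw [Lf, List.map_map, List.map_map]
          conv_rhs => rw [← List.map_id (X :: r)]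
          refine List.map_congr_left fun Z hZ => ?_
          have hZ1 := hle hl Z hZ
          exact h3 i X (hle hl X (by simp)).1 Z hZ1.1 hZ1.2
      simp only [h7]
      rw [Finset.sum_const, Finset.card_univ, Nat.cast_smul_eq_nsmul]
  obtain ⟨c, hc, hcz⟩ := not_NA_iff.1 hac _ (hmem' z hz) (by rw [hbd' z hz, hbz, map_zero])
  have hπc : mp π c ∈ Sp 𝕜 (st S') := mp_mem (st_map (T := S') h6 h6') hc
  refine hne (((Fintype.card ι : ℕ) : 𝕜)⁻¹ • mp π c) (Submodule.smul_mem _ _ hπc) ?_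
  rw [map_smul, bd_mp, hcz, hpi z hz, smul_smul, inv_mul_cancel₀ hcard, one_smul]

end

section
variable {G : Type u} [Group G] {p : ℕ} {N : Subgroup G} [hNn : N.Normal]

lemma inf_N [hp : Fact p.Prime] [Finite G] (hN : ¬ p ∣ Nat.card N) {E : Subgroup G}
    (hE : IsPGroup p E) {x : G} (hx : x ∈ E) (hxN : x ∈ N) : x = 1 := by
  obtain ⟨n, hn⟩ := IsPGroup.iff_orderOf.1 hE ⟨x, hx⟩
  rw [Subgroup.orderOf_mk] at hn
  have h1 : orderOf x ∣ Nat.card N := by
    have : orderOf (⟨x, hxN⟩ : N) ∣ Nat.card N := orderOf_dvd_natCard _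
    rwa [Subgroup.orderOf_mk] at this
  rcases n with _ | n
  · rw [pow_zero] at hn
    exact orderOf_eq_one_iff.1 hn
  · exact absurd ((dvd_pow_self p (Nat.succ_ne_zero n)).trans (hn ▸ h1)) hN

/-- lifts exist -/
lemma exists_lift_ap [hp : Fact p.Prime] [Finite G] (hN : ¬ p ∣ Nat.card N)
    {X : Subgroup (G ⧸ N)} (hX : X ∈ ApS p (G ⧸ N)) :
    ∃ E ∈ ApS p G, E.map (QuotientGroup.mk' N) = X := by
  have hXp : IsPGroup p X := fun x => ⟨1, by rw [pow_one]; exact Subtype.ext (hX.2.2 x x.2)⟩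
  set P : Subgroup G := X.comap (QuotientGroup.mk' N) with hP
  let f : P →* X := (QuotientGroup.mk' N).subgroupComap X
  have hf : Function.Surjective f := by
    rintro ⟨x, hx⟩
    obtain ⟨y, rfl⟩ := QuotientGroup.mk'_surjective N x
    exact ⟨⟨y, hx⟩, rfl⟩
  obtain ⟨S⟩ : Nonempty (Sylow p P) := inferInstance
  have h1 : ((S.mapSurjective hf : Sylow p X) : Subgroup X) = ⊤ := by
    have h2 : IsPGroup p (⊤ : Subgroup X) := hXp.to_subgroup ⊤
    exact ((S.mapSurjective hf).is_maximal' h2 le_top).symm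
  have hmap : ((S : Subgroup P).map P.subtype).map (QuotientGroup.mk' N) = X := by
    apply le_antisymm
    · rintro _ ⟨_, ⟨y, hy, rfl⟩, rfl⟩
      exact y.2
    · intro x hx
      have h3 : (⟨x, hx⟩ : X) ∈ ((S.mapSurjective hf : Sylow p X) : Subgroup X) := by
        rw [h1]
        exact mem_top _
      obtain ⟨y, hy, hyx⟩ := h3
      exact ⟨y, ⟨y, hy, rfl⟩, congrArg Subtype.val hyx⟩
  have hEp : IsPGroup p ((S : Subgroup P).map P.subtype) := S.isPGroup'.map _
  refine ⟨(S : Subgroup P).map P.subtype, ⟨?_, ?_, ?_⟩, hmap⟩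
  · intro h
    apply hX.1
    rw [← hmap, h, Subgroup.map_bot]
  · intro x hx y hy
    have h2 : QuotientGroup.mk' N x ∈ X := by rw [← hmap]; exact ⟨x, hx, rfl⟩
    have h3 : QuotientGroup.mk' N y ∈ X := by rw [← hmap]; exact ⟨y, hy, rfl⟩
    have h4 : (y * x)⁻¹ * (x * y) ∈ N := by
      rw [← QuotientGroup.eq]
      have := hX.2.1 _ h3 _ h2
      rw [← map_mul, ← map_mul] at this
      exact this
    have h5 := inf_N hN hEp (Subgroup.mul_mem _ (Subgroup.inv_mem _ (Subgroup.mul_mem _ hy hx))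
      (Subgroup.mul_mem _ hx hy)) h4
    exact (inv_mul_eq_one.1 h5).symm
  · intro x hx
    have h2 : QuotientGroup.mk' N x ∈ X := by rw [← hmap]; exact ⟨x, hx, rfl⟩
    have h4 : x ^ p ∈ N := by
      rw [← QuotientGroup.eq_one_iff]
      have := hX.2.2 _ h2
      rw [← map_pow] at this
      exact this
    exact inf_N hN hEp (Subgroup.pow_mem _ hx p) h4

lemma card_of_map [hp : Fact p.Prime] [Finite G] (hN : ¬ p ∣ Nat.card N) {E : Subgroup G}
    (hE : E ∈ ApS p G) : Nat.card (E.map (QuotientGroup.mk' N)) = Nat.card E := by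
  have h1 : Function.Injective ((QuotientGroup.mk' N).subgroupMap E) := by
    rw [injective_iff_map_eq_one]
    intro x hx
    have h2 : QuotientGroup.mk' N (x : G) = 1 := congrArg Subtype.val hx
    exact Subtype.ext (inf_N hN (isPGroup_of_ApS hE) x.2 ((QuotientGroup.eq_one_iff _).1 h2))
  exact (Nat.card_congr (Equiv.ofBijective _ ⟨h1,
    (QuotientGroup.mk' N).subgroupMap_surjective E⟩)).symm

/-- lifts are conjugate -/
lemma lift_conj [hp : Fact p.Prime] [Finite G] (hN : ¬ p ∣ Nat.card N) {E E' : Subgroup G}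
    (hE : E ∈ ApS p G) (hE' : E' ∈ ApS p G)
    (h : E.map (QuotientGroup.mk' N) = E'.map (QuotientGroup.mk' N)) : ∃ n : N, cj (n : G) E = E' := by
  set Y := E.map (QuotientGroup.mk' N) with hY
  set P : Subgroup G := Y.comap (QuotientGroup.mk' N) with hP
  have hEP : E ≤ P := Subgroup.le_comap_map _ _
  have hEP' : E' ≤ P := by
    rw [hP, h]
    exact Subgroup.le_comap_map _ _
  -- the index of a lift in `P` is prime to `p`
  have hidx : ∀ F : Subgroup G, F ≤ P → F.map (QuotientGroup.mk' N) = Y →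
      ¬ p ∣ (F.subgroupOf P).index := by
    intro F hF hFY hd
    apply hN
    have h2 : P = F ⊔ N := by
      rw [hP, ← hFY, Subgroup.comap_map_eq, QuotientGroup.ker_mk']
    have h3 : Nat.card N * N.relIndex P = Nat.card P := by
      rw [← relIndex_bot_left, ← relIndex_bot_left]
      exact relIndex_mul_relIndex _ _ _ bot_le (by rw [h2]; exact le_sup_right)
    have h4 : Nat.card F * F.relIndex P = Nat.card P := by
      rw [← relIndex_bot_left, ← relIndex_bot_left]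
      exact relIndex_mul_relIndex _ _ _ bot_le (by rw [h2]; exact le_sup_left)
    have h5 : N.relIndex P = N.relIndex F := by
      rw [h2]
      exact relIndex_sup_right F N
    obtain ⟨m, hm⟩ : N.relIndex F ∣ Nat.card F := relIndex_dvd_card _ _
    have h6 : m * F.relIndex P = Nat.card N := by
      have h7 : N.relIndex F * (m * F.relIndex P) = N.relIndex F * Nat.card N := by
        rw [← mul_assoc, ← hm, h4, ← h3, h5, mul_comm]
      have h8 : 0 < N.relIndex F := Nat.pos_of_ne_zero fun h0 => by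
        rw [h0, zero_mul] at hm
        exact Nat.card_pos.ne' hm
      exact Nat.eq_of_mul_eq_mul_left h8 h7
    exact hd.trans (Dvd.intro_left m h6)
  have hpE : ∀ F ∈ ApS p G, IsPGroup p (F.subgroupOf P) := fun F hF =>
    (isPGroup_of_ApS hF).comap_of_injective P.subtype P.subtype_injective
  let S₁ : Sylow p P := (hpE E hE).toSylow (hidx E hEP rfl)
  let S₂ : Sylow p P := (hpE E' hE').toSylow (hidx E' hEP' h.symm)
  obtain ⟨g, hg⟩ := MulAction.exists_smul_eq P S₁ S₂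
  have h1 : cj (g : G) E ≤ E' := by
    rintro _ ⟨e, he, rfl⟩
    have h2 : (⟨e, hEP he⟩ : P) ∈ E.subgroupOf P := he
    have h3 : g * ⟨e, hEP he⟩ * g⁻¹ ∈ (S₂ : Subgroup P) := by
      rw [← hg]
      exact Subgroup.smul_mem_pointwise_smul _ (MulAut.conj g) (S₁ : Subgroup P) h2
    exact h3
  have h2 : cj (g : G) E = E' := by
    refine Subgroup.eq_of_le_of_card_ge h1 ?_
    have h3 : Nat.card (cj (g : G) E) = Nat.card E :=
      Subgroup.card_map_of_injective (MulAut.conj (g : G)).injective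
    rw [h3, ← card_of_map hN hE, ← card_of_map hN hE', ← hY, ← h]
  obtain ⟨e, he, heg⟩ : QuotientGroup.mk' N (g : G) ∈ Y := g.2
  have h3 : (g : G) * e⁻¹ ∈ N := by
    rw [← QuotientGroup.eq_one_iff]
    change QuotientGroup.mk' N ((g : G) * e⁻¹) = 1
    rw [map_mul, map_inv, heg, mul_inv_cancel]
  refine ⟨⟨_, h3⟩, ?_⟩
  change cj ((g : G) * e⁻¹) E = E'
  rw [cj_mul]
  have h4 : cj e⁻¹ E = E := cj_eq_iff.2 (Subgroup.le_normalizer (E.inv_mem he))
  rw [h4, h2]

/-- **Quotients**: if `N` is a normal subgroup of order prime to `p` and invertible in `𝕜`, then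
`HQ(G/N)` implies `HQ(G)`. -/
theorem HQ_quot {𝕜 : Type v} [Field 𝕜] [hp : Fact p.Prime] [Finite G] (hN : ¬ p ∣ Nat.card N)
    (hN' : ((Nat.card N : ℕ) : 𝕜) ≠ 0) (h : HQ 𝕜 p (G ⧸ N)) : HQ 𝕜 p G := by
  classical
  rw [HQ_iff] at h ⊢
  have : Fintype N := Fintype.ofFinite N
  choose! s hs hsm using fun (X : Subgroup (G ⧸ N)) (hX : X ∈ ApS p (G ⧸ N)) =>
    exists_lift_ap hN hX
  have him : ∀ X ∈ ApS p (G ⧸ N), ∀ Z ≤ X,
      (s X ⊓ Z.comap (QuotientGroup.mk' N)).map (QuotientGroup.mk' N) = Z := by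
    intro X hX Z hZX
    apply le_antisymm
    · rintro _ ⟨x, hx, rfl⟩
      exact (Subgroup.mem_inf.1 hx).2
    · intro z hz
      have h1 : z ∈ (s X).map (QuotientGroup.mk' N) := by
        rw [hsm X hX]
        exact hZX hz
      obtain ⟨x, hx, rfl⟩ := h1
      exact ⟨x, Subgroup.mem_inf.2 ⟨hx, hz⟩, rfl⟩
  have hA : ∀ X ∈ ApS p (G ⧸ N), ∀ Z ∈ ApS p (G ⧸ N), Z ≤ X →
      s X ⊓ Z.comap (QuotientGroup.mk' N) ∈ ApS p G := by
    intro X hX Z hZ hZX
    refine mem_ApS_of_le (hs X hX) inf_le_left fun h0 => hZ.1 ?_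
    rw [← him X hX Z hZX, h0, Subgroup.map_bot]
  have hcjm : ∀ (n : N) (E : Subgroup G), (cj (n : G) E).map (QuotientGroup.mk' N) =
      E.map (QuotientGroup.mk' N) := by
    intro n E
    have hn : QuotientGroup.mk' N (n : G) = 1 := (QuotientGroup.eq_one_iff _).2 n.2
    rw [cj, Subgroup.map_map]
    congr 1
    ext x
    change QuotientGroup.mk' N ((n : G) * x * (n : G)⁻¹) = QuotientGroup.mk' N x
    rw [map_mul, map_mul, map_inv, hn, one_mul, inv_one, mul_one]
  have hcjA : ∀ (g : G), ∀ E ∈ ApS p G, cj g E ∈ ApS p G := fun g E hE =>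
    (map_mem_ApS (MulAut.conj g).injective).2 hE
  refine transfer (S := ApS p G) (S' := ApS p (G ⧸ N)) (ι := N) (fun n E => cj (n : G) E)
    (fun E => E.map (QuotientGroup.mk' N)) (fun X Z => s X ⊓ Z.comap (QuotientGroup.mk' N))
    ?_ ?_ ?_ ?_ ?_ ?_ ?_ ?_ ?_ h
  · exact hA
  · intro X hX Z hZ Z' hZ' hlt hZX
    refine lt_of_le_of_ne (inf_le_inf_left _ (Subgroup.comap_mono hlt.le)) fun h0 => hlt.ne ?_
    rw [← him X hX Z (hlt.le.trans hZX), h0, him X hX Z' hZX]
  · intro n X hX Z _ hZX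
    rw [hcjm, him X hX Z hZX]
  · intro n E hE
    exact hcjA _ E hE
  · intro n E _ F _ hEF
    exact cj_lt.2 hEF
  · intro X hX Y hY hYX
    obtain ⟨n₀, hn₀⟩ := lift_conj hN (hs Y hY) (hA X hX Y hY hYX.le) (by
      rw [hsm Y hY, him X hX Y hYX.le])
    refine ⟨Equiv.mulRight n₀, fun n Z _ hZY => ?_⟩
    change cj (n : G) (s X ⊓ Z.comap (QuotientGroup.mk' N)) =
      cj ((n * n₀ : N) : G) (s Y ⊓ Z.comap (QuotientGroup.mk' N))
    rw [Subgroup.coe_mul, cj_mul]
    congr 1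
    ext x
    have hn1 : QuotientGroup.mk' N (n₀ : G) = 1 := (QuotientGroup.eq_one_iff _).2 n₀.2
    have h1 : ∀ W : Subgroup (G ⧸ N), (n₀ : G)⁻¹ * x * n₀ ∈ W.comap (QuotientGroup.mk' N) ↔
        x ∈ W.comap (QuotientGroup.mk' N) := by
      intro W
      rw [Subgroup.mem_comap, Subgroup.mem_comap, map_mul, map_mul, map_inv, hn1, inv_one,
        one_mul, mul_one]
    rw [mem_cj, Subgroup.mem_inf, Subgroup.mem_inf, h1]
    have h2 : (n₀ : G)⁻¹ * x * n₀ ∈ s Y ↔ x ∈ s X ⊓ Y.comap (QuotientGroup.mk' N) := by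
      rw [← hn₀, mem_cj]
    rw [h2, Subgroup.mem_inf]
    constructor
    · rintro ⟨h3, h4⟩
      exact ⟨⟨h3, Subgroup.comap_mono hZY h4⟩, h4⟩
    · rintro ⟨⟨h3, -⟩, h4⟩
      exact ⟨h3, h4⟩
  · intro E hE
    exact r8a_map_mem hN hE
  · intro E hE F hF hEF
    refine lt_of_le_of_ne (Subgroup.map_mono hEF.le) fun h0 => hEF.ne ?_
    exact Subgroup.eq_of_le_of_card_ge hEF.le (by
      rw [← card_of_map hN hE, ← card_of_map hN hF, h0])
  · rwa [← Nat.card_eq_fintype_card]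

end

end Vale.Agent.P240.R2.H487
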