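import Vale.Agent.P240.R2.H487.Gen2
import Vale.Agent.P240.R2.H487.Tr
import Vale.Agent.P240.H195.SLK

/-!
The theorems for components.
-/

namespace Vale.Agent.P240.R2.H487

set_option linter.unusedSectionVars false

open Subgroup Vale.Agent.P240.K Vale.Agent.P240.H195

universe u v w

section
variable {G : Type u} [Group G] {p : ℕ}

/-- removing a conjugation-stable set of members -/
theorem HQ_elim [hp : Fact p.Prime] {𝕜 : Type v} [Field 𝕜] [Finite G] {C S : Set (Subgroup G)}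
    (hF : Family p C) (hS : S ⊆ C) (hSc : ∀ L ∈ S, ∀ g : G, cj g L ∈ S)
    (h0 : ∀ L ∈ S, Removable 𝕜 p L ∨ RigidLie p L) (h : HQ 𝕜 p (Cen S)) : HQ 𝕜 p G := by
  rw [HQ_sub_iff] at h
  rw [HQ_iff]
  refine remove hF (T := {L | L ∈ S ∧ ¬ RigidLie p L}) (fun L hL => hS hL.1) ?_ ?_
  · rintro L ⟨hL, hLr⟩
    exact (h0 L hL).resolve_right hLr
  · refine rigid_step (R := {L | L ∈ S ∧ RigidLie p L}) ?_ ?_ ?_ ?_ ?_
    · exact fun L hL => hF.le_Cen (fun M hM => hS hM.1) (hS hL.1) fun hcon => hcon.2 hL.2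
    · exact fun g _ M hM => ⟨hSc M hM.1 g, rigidLie_cj hM.2⟩
    · exact fun L hL M hM => hF.comm L (hS hL.1) M (hS hM.1)
    · exact fun L hL => hL.2
    · rw [← Cen_union]
      have hC : {L | L ∈ S ∧ ¬ RigidLie p L} ∪ {L | L ∈ S ∧ RigidLie p L} = S := by
        ext L
        by_cases hr : RigidLie p L <;> simp [hr]
      rw [hC]
      exact h

/-- the automorphisms induced on a simple subgroup -/
theorem autG_good [hp : Fact p.Prime] {𝕜 : Type v} [Field 𝕜] [Finite G] {L : Subgroup G}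
    (hs : IsSimpleGroup L) (hc : L ⊓ centralizer (L : Set G) = ⊥) (hd : p ∣ Nat.card L) {l : ℕ}
    (hl : l.Prime) (hg : GoodFactor 𝕜 p l L) : HQ 𝕜 p L.normalizerMonoidHom.range := by
  set N := normalizer (L : Set G) with hN
  have hLN : L ≤ N := le_normalizer
  have e : L.subgroupOf N ≃* L := Subgroup.subgroupOfEquivOfLe hLN
  have hD : Family p ({L.subgroupOf N} : Set (Subgroup N)) :=
    { conj := by
        rintro M hM g
        rw [Set.mem_singleton_iff] at hM ⊢
        subst hM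
        change cj g (L.subgroupOf N) = _
        rw [cj_sub, cj_eq_iff.2 g.2]
      comm := fun A hA B hB hAB => absurd (hA.trans hB.symm) hAB
      centre := by
        rintro M hM
        rw [Set.mem_singleton_iff] at hM
        subst hM
        rw [eq_bot_iff]
        intro x hx
        obtain ⟨h1, h2⟩ := Subgroup.mem_inf.1 hx
        have h3 : (x : G) ∈ L ⊓ centralizer (L : Set G) :=
          Subgroup.mem_inf.2 ⟨h1, (mem_cent_sub hLN x).1 h2⟩
        rw [hc, Subgroup.mem_bot] at h3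
        exact Subgroup.mem_bot.2 (Subtype.ext h3)
      dvd := by
        rintro M hM
        rw [Set.mem_singleton_iff] at hM
        subst hM
        rw [Nat.card_congr e.toEquiv]
        exact hd }
  refine HQ_img hl hD ?_ L.normalizerMonoidHom.rangeRestrict_surjective ?_ ?_
  · rintro M hM
    rw [Set.mem_singleton_iff] at hM
    subst hM
    exact e.isSimpleGroup
  · intro g
    have h1 : L.normalizerMonoidHom.rangeRestrict g = 1 ↔ (g : G) ∈ centralizer (L : Set G) := by
      rw [← MonoidHom.mem_ker, MonoidHom.ker_rangeRestrict, normalizerMonoidHom_ker,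
        Subgroup.mem_subgroupOf]
    rw [h1]
    constructor
    · rintro h M hM
      rw [Set.mem_singleton_iff] at hM
      subst hM
      exact (mem_cent_sub hLN g).2 h
    · intro h
      exact (mem_cent_sub hLN g).1 (h _ rfl)
  · rintro M hM M' ⟨e'⟩
    rw [Set.mem_singleton_iff] at hM
    subst hM
    have e1 : L ≃* M' := e.symm.trans e'
    refine (goodFactor_tr e1 hg).treated ?_
    rw [← Nat.card_congr e1.toEquiv]
    exact hd

/-- **Components, `p`-closed quotient.** -/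
theorem family_closed [hp : Fact p.Prime] {𝕜 : Type v} [Field 𝕜] [Finite G] (hchar : (p : 𝕜) = 0)
    {C S : Set (Subgroup G)} (hF : Family p C) (hs : ∀ L ∈ C, IsSimpleGroup L)
    (hR : ∀ t : G, (∀ L ∈ C, t ∈ centralizer (L : Set G)) → t = 1)
    (hS : S ⊆ C) (hSc : ∀ L ∈ S, ∀ g : G, cj g L ∈ S)
    (h0 : ∀ L ∈ S, Removable 𝕜 p L ∨ RigidLie p L)
    (h : PClosed p (Cen S) (Gen (C \ S)))
    (hA : ∀ L ∈ C \ S, (∃ l : ℕ, l.Prime ∧ GoodFactor 𝕜 p l L) ∨
      HQ 𝕜 p (L.subgroupOf (Cen S)).normalizerMonoidHom.range) : HQ 𝕜 p G := by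
  refine HQ_elim hF hS hSc h0 ?_
  have hD : Family p (C \ S) :=
    { conj := fun L hL g => ⟨hF.conj L hL.1 g, fun hcon => hL.2 (by
        have h1 := hSc _ hcon g⁻¹
        rwa [show (L.map (MulAut.conj g).toMonoidHom) = cj g L from rfl, cj_inv_cj] at h1)⟩
      comm := fun L hL M hM => hF.comm L hL.1 M hM.1
      centre := fun L hL => hF.centre L hL.1
      dvd := fun L hL => hF.dvd L hL.1 }
  have hle : ∀ L ∈ C \ S, L ≤ Cen S := fun L hL => hF.le_Cen hS hL.1 hL.2
  have hM : (Gen (C \ S)).Normal := Gen_normal hD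
  refine HQ_closed (C := SubF (Cen S) (C \ S)) (T := pcl h) hchar (family_sub hD hle)
    (pcl_normal h hM) (pcl_index h hM) ?_ ?_ ?_ ?_
  · refine iSup₂_le ?_
    rintro _ ⟨L, hL, rfl⟩ x hx
    refine ⟨0, ?_⟩
    rw [pow_zero, pow_one]
    exact le_Gen hL hx
  · rintro t ⟨k, hk⟩
    refine ⟨k, ?_⟩
    have h1 : Gen (C \ S) ≤ (Gen (SubF (Cen S) (C \ S))).map (Cen S).subtype := by
      refine iSup₂_le fun L hL x hx => ?_
      refine ⟨⟨x, hle L hL hx⟩, ?_, rfl⟩
      have h3 : L.subgroupOf (Cen S) ∈ SubF (Cen S) (C \ S) := ⟨L, hL, rfl⟩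
      exact le_Gen h3 hx
    obtain ⟨y, hy, hyt⟩ := h1 hk
    have h3 : y = t ^ p ^ k := Subtype.ext hyt
    rwa [h3] at hy
  · intro t ht
    refine Subtype.ext (hR t fun L hL => ?_)
    by_cases h1 : L ∈ S
    · exact mem_Cen.1 t.2 L h1
    · exact (mem_cent_sub (hle L ⟨hL, h1⟩) t).1 (ht _ ⟨L, ⟨hL, h1⟩, rfl⟩)
  · rintro _ ⟨L, hL, rfl⟩
    rcases hA L hL with ⟨l, hl, hg⟩ | h1
    · have e : L.subgroupOf (Cen S) ≃* L := Subgroup.subgroupOfEquivOfLe (hle L hL)
      have := hs L hL.1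
      refine autG_good (e.isSimpleGroup) ?_ ?_ hl (goodFactor_tr e.symm hg)
      · exact (family_sub hD hle).centre _ ⟨L, hL, rfl⟩
      · exact (family_sub hD hle).dvd _ ⟨L, hL, rfl⟩
    · exact h1

end

section
variable {G : Type u} [Group G] {p : ℕ} [hp : Fact p.Prime] [Finite G]

theorem comp_simple (hO : OpTrivial p G) (hO' : OpPrimeTrivial p G) {L : Subgroup G}
    (hL : L ∈ Q.Comp G) : IsSimpleGroup L := (comp_factor hO hO' hL).1

theorem comp_faithful (hO : OpTrivial p G) (hO' : OpPrimeTrivial p G) (t : G)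
    (h : ∀ L ∈ Q.Comp G, t ∈ centralizer (L : Set G)) : t = 1 := by
  have h1 : t ∈ Rest (Q.Comp G) (∅ : Set (Subgroup G)) := mem_Rest.2 fun M hM _ => h M hM
  rw [show Rest (Q.Comp G) ∅ = ⊥ from comp_rest hO hO'] at h1
  exact Subgroup.mem_bot.1 h1

end

end Vale.Agent.P240.R2.H487
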