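import Vale.Agent.P240.R2.H487.T1

/-!
The group `Γ` of all permutations of the disjoint union of the members of a family `C` of subgroups
that act on each member as conjugation by an element of `T`, and permute the members as some element
of `T` does.
-/

namespace Vale.Agent.P240.R2.H487

open Subgroup Vale.Agent.P240.K

universe u v

section
variable {G : Type u} [Group G]

/-- Pairs `(L, x)` with `x ∈ L ∈ C`. -/
abbrev Y (C : Set (Subgroup G)) : Type u := {y : Subgroup G × G // y.1 ∈ C ∧ y.2 ∈ y.1}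

variable {C : Set (Subgroup G)}

/-- `φ` acts on the member `L` as conjugation by `h`. -/
def Ag (φ : Equiv.Perm (Y C)) (h : G) (L : Subgroup G) : Prop :=
  ∀ y : Y C, y.1.1 = L → (φ y).1 = (cj h y.1.1, h * y.1.2 * h⁻¹)

lemma conj_mem_cj {h x : G} {L : Subgroup G} (hx : x ∈ L) : h * x * h⁻¹ ∈ cj h L := by
  rw [mem_cj]
  have : h⁻¹ * (h * x * h⁻¹) * h = x := by group
  rwa [this]

lemma Ag.one (L : Subgroup G) : Ag (1 : Equiv.Perm (Y C)) 1 L := by
  intro y _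
  rw [Equiv.Perm.one_apply, cj_one, one_mul, inv_one, mul_one]

lemma Ag.mul {φ ψ : Equiv.Perm (Y C)} {h k : G} {L : Subgroup G} (hφ : Ag φ h (cj k L))
    (hψ : Ag ψ k L) : Ag (φ * ψ) (h * k) L := by
  intro y hy
  have h1 := hψ y hy
  have h2 := hφ (ψ y) (by rw [h1, hy])
  rw [Equiv.Perm.mul_apply, h2, h1]
  simp only [Prod.mk.injEq]
  refine ⟨(cj_mul _ _ _).symm, by group⟩

/-- the submonoid -/
def GamM (C : Set (Subgroup G)) (T : Subgroup G) (hC : ∀ L ∈ C, ∀ g ∈ T, cj g L ∈ C) :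
    Submonoid (Equiv.Perm (Y C)) where
  carrier := {φ | ∃ g ∈ T, ∀ L ∈ C, ∃ h ∈ T, Ag φ h L ∧ cj h L = cj g L}
  one_mem' := ⟨1, T.one_mem, fun L _ => ⟨1, T.one_mem, Ag.one L, rfl⟩⟩
  mul_mem' := by
    rintro φ ψ ⟨g, hg, hφ⟩ ⟨g', hg', hψ⟩
    refine ⟨g * g', T.mul_mem hg hg', fun L hL => ?_⟩
    obtain ⟨k, hk, hk1, hk2⟩ := hψ L hL
    obtain ⟨h, hh, hh1, hh2⟩ := hφ (cj k L) (hC L hL k hk)
    refine ⟨h * k, T.mul_mem hh hk, hh1.mul hk1, ?_⟩
    rw [cj_mul, hh2, hk2, cj_mul]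

lemma mem_GamM {T : Subgroup G} {hC : ∀ L ∈ C, ∀ g ∈ T, cj g L ∈ C} {φ : Equiv.Perm (Y C)} :
    φ ∈ GamM C T hC ↔ ∃ g ∈ T, ∀ L ∈ C, ∃ h ∈ T, Ag φ h L ∧ cj h L = cj g L := Iff.rfl

/-- The group `Γ`. -/
def Gam [Finite G] (C : Set (Subgroup G)) (T : Subgroup G) (hC : ∀ L ∈ C, ∀ g ∈ T, cj g L ∈ C) :
    Subgroup (Equiv.Perm (Y C)) :=
  { GamM C T hC with
    inv_mem' := by
      intro φ hφ
      have h1 : φ ^ (orderOf φ - 1) ∈ GamM C T hC := Submonoid.pow_mem _ hφ _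
      have h2 : φ⁻¹ = φ ^ (orderOf φ - 1) := by
        rw [inv_eq_iff_mul_eq_one, ← pow_succ']
        have : 0 < orderOf φ := orderOf_pos φ
        rw [Nat.sub_add_cancel this, pow_orderOf_eq_one]
      rw [h2]
      exact h1 }

lemma mem_Gam [Finite G] {T : Subgroup G} {hC : ∀ L ∈ C, ∀ g ∈ T, cj g L ∈ C}
    {φ : Equiv.Perm (Y C)} :
    φ ∈ Gam C T hC ↔ ∃ g ∈ T, ∀ L ∈ C, ∃ h ∈ T, Ag φ h L ∧ cj h L = cj g L := Iff.rfl

/-- the block of the image -/
lemma blk [Finite G] {T : Subgroup G} {hC : ∀ L ∈ C, ∀ g ∈ T, cj g L ∈ C}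
    {φ : Equiv.Perm (Y C)} (hφ : φ ∈ Gam C T hC) :
    ∃ g ∈ T, ∀ y : Y C, (φ y).1.1 = cj g y.1.1 := by
  obtain ⟨g, hg, h⟩ := mem_Gam.1 hφ
  refine ⟨g, hg, fun y => ?_⟩
  obtain ⟨k, -, hk1, hk2⟩ := h y.1.1 y.2.1
  rw [hk1 y rfl, hk2]

open Classical in
/-- conjugation by `h ∈ N_G(L)` on the block of `L`, trivial on the other blocks -/
noncomputable def kapFun (L : Subgroup G) (h : normalizer (L : Set G)) (y : Y C) : Y C :=
  if hy : y.1.1 = L then ⟨(y.1.1, (h : G) * y.1.2 * (h : G)⁻¹), y.2.1, by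
    have h1 := Subgroup.mem_normalizer_iff.1 h.2 y.1.2
    have h2 : y.1.2 ∈ L := hy ▸ y.2.2
    have h3 := h1.1 h2
    change (h : G) * y.1.2 * (h : G)⁻¹ ∈ y.1.1
    rw [hy]
    exact h3⟩ else y

lemma kapFun_eq {L : Subgroup G} (h : normalizer (L : Set G)) {y : Y C} (hy : y.1.1 = L) :
    (kapFun L h y).1 = (y.1.1, (h : G) * y.1.2 * (h : G)⁻¹) := by
  rw [kapFun, dif_pos hy]

lemma kapFun_ne {L : Subgroup G} (h : normalizer (L : Set G)) {y : Y C} (hy : y.1.1 ≠ L) :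
    kapFun L h y = y := by
  rw [kapFun, dif_neg hy]

/-- the action by `kapFun` -/
@[reducible] noncomputable def kapAct (C : Set (Subgroup G)) (L : Subgroup G) :
    MulAction (normalizer (L : Set G)) (Y C) where
  smul h y := kapFun L h y
  one_smul := by
    intro y
    change kapFun L 1 y = y
    by_cases hy : y.1.1 = L
    · apply Subtype.ext
      rw [kapFun_eq _ hy]
      simp
    · rw [kapFun_ne _ hy]
  mul_smul := by
    intro a b y
    change kapFun L (a * b) y = kapFun L a (kapFun L b y)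
    by_cases hy : y.1.1 = L
    · apply Subtype.ext
      have h1 : (kapFun L b y).1.1 = L := by rw [kapFun_eq _ hy]; exact hy
      rw [kapFun_eq _ hy, kapFun_eq _ h1, kapFun_eq _ hy]
      simp only [Subgroup.coe_mul, Prod.mk.injEq, true_and]
      group
    · rw [kapFun_ne _ hy, kapFun_ne _ hy, kapFun_ne _ hy]

/-- the homomorphism given by `kapAct` -/
noncomputable def kap (C : Set (Subgroup G)) (L : Subgroup G) :
    normalizer (L : Set G) →* Equiv.Perm (Y C) :=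
  @MulAction.toPermHom _ _ _ (kapAct C L)

lemma kap_apply {L : Subgroup G} (h : normalizer (L : Set G)) (y : Y C) :
    kap C L h y = kapFun L h y := rfl

lemma Ag_kap {L : Subgroup G} (h : normalizer (L : Set G)) : Ag (kap C L h) (h : G) L := by
  intro y hy
  rw [kap_apply, kapFun_eq _ hy]
  have : cj (h : G) y.1.1 = y.1.1 := by
    rw [hy]
    exact cj_eq_iff.2 h.2
  rw [this]

lemma kap_ne {L : Subgroup G} (h : normalizer (L : Set G)) {y : Y C} (hy : y.1.1 ≠ L) :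
    kap C L h y = y := by rw [kap_apply, kapFun_ne _ hy]

lemma kap_mem [Finite G] {T : Subgroup G} {hC : ∀ L ∈ C, ∀ g ∈ T, cj g L ∈ C} {L : Subgroup G}
    (h : normalizer (L : Set G)) (hT : (h : G) ∈ T) : kap C L h ∈ Gam C T hC := by
  refine mem_Gam.2 ⟨1, T.one_mem, fun M hM => ?_⟩
  by_cases hML : M = L
  · subst hML
    refine ⟨h, hT, Ag_kap h, ?_⟩
    rw [cj_one]
    exact cj_eq_iff.2 h.2
  · refine ⟨1, T.one_mem, ?_, rfl⟩
    intro y hy
    rw [kap_ne h (by rw [hy]; exact hML), cj_one, one_mul, inv_one, mul_one]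

/-- the action of `G` by conjugation -/
@[reducible] def actAct (C : Set (Subgroup G)) (hC : ∀ L ∈ C, ∀ g : G, cj g L ∈ C) :
    MulAction G (Y C) where
  smul g y := ⟨(cj g y.1.1, g * y.1.2 * g⁻¹), hC _ y.2.1 g, conj_mem_cj y.2.2⟩
  one_smul := by
    intro y
    apply Subtype.ext
    change (cj 1 y.1.1, 1 * y.1.2 * 1⁻¹) = y.1
    rw [cj_one, one_mul, inv_one, mul_one]
  mul_smul := by
    intro a b y
    apply Subtype.ext
    change (cj (a * b) y.1.1, a * b * y.1.2 * (a * b)⁻¹) =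
      (cj a (cj b y.1.1), a * (b * y.1.2 * b⁻¹) * a⁻¹)
    rw [cj_mul]
    simp only [Prod.mk.injEq, true_and]
    group

/-- the homomorphism given by `actAct` -/
def act (C : Set (Subgroup G)) (hC : ∀ L ∈ C, ∀ g : G, cj g L ∈ C) : G →* Equiv.Perm (Y C) :=
  @MulAction.toPermHom _ _ _ (actAct C hC)

lemma act_apply (hC : ∀ L ∈ C, ∀ g : G, cj g L ∈ C) (g : G) (y : Y C) :
    (act C hC g y).1 = (cj g y.1.1, g * y.1.2 * g⁻¹) := rfl

lemma act_mem [Finite G] {T : Subgroup G} (hC : ∀ L ∈ C, ∀ g : G, cj g L ∈ C) {t : G}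
    (ht : t ∈ T) : act C hC t ∈ Gam C T (fun L hL g _ => hC L hL g) :=
  mem_Gam.2 ⟨t, ht, fun _ _ => ⟨t, ht, fun y _ => act_apply hC t y, rfl⟩⟩

end

end Vale.Agent.P240.R2.H487
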