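import Vale.Agent.P240.R2.H487.Part

/-!
The general theorem for families of simple subgroups: classes with few outer subgroups are removed,
the remaining ones form one class or are coupled by a `p`-closed group in characteristic `p`.
-/

namespace Vale.Agent.P240.R2.H487

set_option linter.unusedSectionVars false

open Subgroup Vale.Agent.P240.K Vale.Agent.P240.H195

universe u v w

section
variable {G : Type u} [Group G] {p : ℕ} {D : Set (Subgroup G)}

/-- the members of a family, as subgroups of a subgroup containing them -/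
def SubF (T : Subgroup G) (D : Set (Subgroup G)) : Set (Subgroup T) :=
  (fun L => L.subgroupOf T) '' D

lemma mem_cent_sub {T L : Subgroup G} (hLT : L ≤ T) (t : T) :
    t ∈ centralizer (L.subgroupOf T : Set T) ↔ (t : G) ∈ centralizer (L : Set G) := by
  rw [Subgroup.mem_centralizer_iff, Subgroup.mem_centralizer_iff]
  constructor
  · intro h y hy
    exact congrArg Subtype.val (h ⟨y, hLT hy⟩ hy)
  · intro h y hy
    exact Subtype.ext (h y hy)

lemma cj_sub {T L : Subgroup G} (t : T) : cj t (L.subgroupOf T) = (cj (t : G) L).subgroupOf T := by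
  ext x
  rw [mem_cj, Subgroup.mem_subgroupOf, Subgroup.mem_subgroupOf, mem_cj]
  rfl

theorem family_sub {T : Subgroup G} (hD : Family p D) (hT : ∀ L ∈ D, L ≤ T) :
    Family p (SubF T D) where
  conj := by
    rintro _ ⟨L, hL, rfl⟩ t
    exact ⟨cj (t : G) L, hD.conj L hL t, (cj_sub t).symm⟩
  comm := by
    rintro _ ⟨L, hL, rfl⟩ _ ⟨M, hM, rfl⟩ hLM x hx y hy
    exact Subtype.ext (hD.comm L hL M hM (fun h => hLM (by rw [h])) x hx y hy)
  centre := by
    rintro _ ⟨L, hL, rfl⟩
    rw [eq_bot_iff]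
    intro x hx
    obtain ⟨h1, h2⟩ := Subgroup.mem_inf.1 hx
    have h3 : (x : G) ∈ L ⊓ centralizer (L : Set G) :=
      Subgroup.mem_inf.2 ⟨h1, (mem_cent_sub (hT L hL) x).1 h2⟩
    rw [hD.centre L hL, Subgroup.mem_bot] at h3
    exact Subgroup.mem_bot.2 (Subtype.ext h3)
  dvd := by
    rintro _ ⟨L, hL, rfl⟩
    rw [Nat.card_congr (Subgroup.subgroupOfEquivOfLe (hT L hL)).toEquiv]
    exact hD.dvd L hL

/-- **One prime**, for the image of a subgroup `T` containing the members. -/
theorem HQ_img_sub [hp : Fact p.Prime] {𝕜 : Type v} [Field 𝕜] [Finite G] {X : Type w} [Group X]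
    [Finite X] {l : ℕ} (hl : l.Prime) (hD : Family p D) (hs : ∀ L ∈ D, IsSimpleGroup L)
    {T : Subgroup G} (hT : ∀ L ∈ D, L ≤ T) {π : T →* X} (hπ : Function.Surjective π)
    (hk : ∀ t : T, π t = 1 ↔ ∀ L ∈ D, (t : G) ∈ centralizer (L : Set G))
    (hg : ∀ L ∈ D, GoodFactor 𝕜 p l L) : HQ 𝕜 p X := by
  refine HQ_img (D := SubF T D) hl (family_sub hD hT) ?_ hπ ?_ ?_
  · rintro _ ⟨L, hL, rfl⟩
    have := hs L hL
    exact (Subgroup.subgroupOfEquivOfLe (hT L hL)).isSimpleGroup
  · intro t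
    rw [hk]
    constructor
    · rintro h _ ⟨L, hL, rfl⟩
      exact (mem_cent_sub (hT L hL) t).2 (h L hL)
    · intro h L hL
      exact (mem_cent_sub (hT L hL) t).1 (h _ ⟨L, hL, rfl⟩)
  · rintro _ ⟨L, hL, rfl⟩ M ⟨e⟩
    have e' : L ≃* M := (Subgroup.subgroupOfEquivOfLe (hT L hL)).symm.trans e
    refine (goodFactor_tr e' (hg L hL)).treated ?_
    rw [← Nat.card_congr e'.toEquiv]
    exact hD.dvd L hL

end

section
variable {G : Type u} [Group G] {p : ℕ} {C : Set (Subgroup G)} {l : Subgroup G → ℕ}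

lemma class_family (hF : Family p C) (hlc : ∀ L ∈ C, ∀ g : G, l (cj g L) = l L) (q : ℕ) :
    Family p {M | M ∈ C ∧ l M = q} where
  conj := fun M hM g => ⟨hF.conj M hM.1 g, by
    rw [← hM.2, ← hlc M hM.1 g]
    rfl⟩
  comm := fun M hM M' hM' => hF.comm M hM.1 M' hM'.1
  centre := fun M hM => hF.centre M hM.1
  dvd := fun M hM => hF.dvd M hM.1

variable (hF : Family p C) (hs : ∀ L ∈ C, IsSimpleGroup L)
  (hR : ∀ t : G, (∀ L ∈ C, t ∈ centralizer (L : Set G)) → t = 1)
  (hlc : ∀ L ∈ C, ∀ g : G, l (cj g L) = l L)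

include hF hs hR hlc in
/-- the groups of automorphisms of `N_q` induced by a subgroup `T ≥ N_q` -/
theorem HQ_class [hp : Fact p.Prime] {𝕜 : Type v} [Field 𝕜] [Finite G] {q : ℕ} (hq : q.Prime)
    (hg : ∀ L ∈ C, l L = q → GoodFactor 𝕜 p q L) {T : Subgroup G} (hT : Nq C l q ≤ T)
    {X : Type w} [Group X] [Finite X] {π : T →* X} (hπ : Function.Surjective π)
    (hk : ∀ t : T, π t = 1 ↔ (t : G) ∈ centralizer (Nq C l q : Set G)) : HQ 𝕜 p X := by
  refine HQ_img_sub (D := {M | M ∈ C ∧ l M = q}) hq (class_family hF hlc q)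
    (fun L hL => hs L hL.1) (T := T) ?_ hπ ?_ ?_
  · rintro L ⟨hL, rfl⟩
    exact (le_Nq hF hL).trans hT
  · intro t
    rw [hk, Nq_cent hF hR hlc]
  · rintro L ⟨hL, hLq⟩
    exact hg L hL hLq

include hF hs hR hlc in
/-- `AlmostSimpleHQ` for `N_q` -/
theorem almost_Nq [hp : Fact p.Prime] {𝕜 : Type v} [Field 𝕜] [Finite G] {q : ℕ} (hq : q.Prime)
    (hg : ∀ L ∈ C, l L = q → GoodFactor 𝕜 p q L) : AlmostSimpleHQ 𝕜 p (Nq C l q) := by
  intro A hA hinn
  have hN := Nq_normal hF hlc q
  -- the preimage of `A`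
  set A' : Subgroup G := (A.subgroupOf (Nq C l q).normalizerMonoidHom.range).comap
    (toAut (Nq C l q)) with hA'
  let π : A' →* A :=
    (Subgroup.subgroupOfEquivOfLe hA).toMonoidHom.comp ((toAut (Nq C l q)).subgroupComap _)
  refine HQ_class hF hs hR hlc hq hg (T := A') (π := π) ?_ ?_ ?_
  · intro x hx
    have h1 := hinn ⟨x, hx⟩
    have h2 : ((toAut (Nq C l q) x : (Nq C l q).normalizerMonoidHom.range) :
        MulAut (Nq C l q)) = MulAut.conj ⟨x, hx⟩ := by
      ext y
      rfl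
    change ((toAut (Nq C l q) x : (Nq C l q).normalizerMonoidHom.range) :
      MulAut (Nq C l q)) ∈ A
    rw [h2]
    exact h1
  · refine (Subgroup.subgroupOfEquivOfLe hA).surjective.comp ?_
    rintro ⟨y, hy⟩
    obtain ⟨x, rfl⟩ := toAut_surjective _ y
    exact ⟨⟨x, hy⟩, rfl⟩
  · intro t
    rw [← toAut_eq_one_iff]
    have hval : ((π t : A) : MulAut (Nq C l q)) =
        ((toAut (Nq C l q) t : (Nq C l q).normalizerMonoidHom.range) : MulAut (Nq C l q)) := rfl
    constructor
    · intro h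
      refine Subtype.ext ?_
      rw [← hval, h]
      rfl
    · intro h
      refine Subtype.ext ?_
      rw [hval, h]
      rfl

end

end Vale.Agent.P240.R2.H487
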