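import Vale.Agent.P240.R2.H487.Sub

/-!
Normal subgroups of index prime to `p`; the embedding theorem for groups that are `p`-closed modulo
the members of the family.
-/

namespace Vale.Agent.P240.R2.H487

set_option linter.unusedSectionVars false

open Subgroup Vale.Agent.P240.K Vale.Agent.P240.H195

universe u v

variable {𝕜 : Type v} [Field 𝕜]

lemma mem_of_pow {G : Type*} [Group G] {p m : ℕ} [hp : Fact p.Prime] (hm : ¬ p ∣ m)
    {H : Subgroup G} {x : G} (hx : x ^ p = 1) (hxm : x ^ m ∈ H) : x ∈ H := by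
  have hc : Nat.Coprime m p := ((Nat.Prime.coprime_iff_not_dvd hp.out).2 hm).symm
  have h1 : (x : G) ^ (m : ℤ) ∈ H := by rw [zpow_natCast]; exact hxm
  have h2 : x = (x ^ (m : ℤ)) ^ (Nat.gcdA m p) := by
    have h3 : ((1 : ℕ) : ℤ) = m * Nat.gcdA m p + p * Nat.gcdB m p := by
      rw [← Nat.gcd_eq_gcd_ab, hc]
    have h4 : x = x ^ (((1 : ℕ) : ℤ)) := by simp
    conv_lhs => rw [h4, h3, zpow_add, zpow_mul, zpow_mul, zpow_natCast x p, hx, one_zpow, mul_one]
  rw [h2]
  exact H.zpow_mem h1 _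

lemma Ain_eq_of_pow {G : Type u} [Group G] {p m : ℕ} [Fact p.Prime] (hm : ¬ p ∣ m)
    {H K : Subgroup G} (hHK : H ≤ K) (h : ∀ x ∈ K, x ^ m ∈ H) : Ain p H = Ain p K := by
  ext E
  constructor
  · rintro ⟨h1, h2⟩
    exact ⟨h1, h2.trans hHK⟩
  · rintro ⟨h1, h2⟩
    exact ⟨h1, fun x hx => mem_of_pow hm (h1.2.2 x hx) (h x (h2 hx))⟩

lemma Ain_top (p : ℕ) (G : Type u) [Group G] : Ain p (⊤ : Subgroup G) = ApS p G := by
  ext E
  exact ⟨fun h => h.1, fun h => ⟨h, le_top⟩⟩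

/-- normal subgroups of index prime to `p` -/
theorem HQ_index {G : Type u} [Group G] [Finite G] {p : ℕ} [Fact p.Prime] (T : Subgroup G)
    [T.Normal] (hT : ¬ p ∣ T.index) : HQ 𝕜 p T ↔ HQ 𝕜 p G := by
  rw [HQ_sub_iff, HQ_iff, ← Ain_top,
    Ain_eq_of_pow hT (le_top (a := T)) fun x _ => T.pow_index_mem x]

section
variable {G : Type u} [Group G] [Finite G] {p : ℕ} {C : Set (Subgroup G)} {T : Subgroup G}

/-- **Embedding theorem**, for a group that is `p`-closed modulo the members of the family. -/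
theorem HQ_closed [hp : Fact p.Prime] (hchar : (p : 𝕜) = 0) (hF : Family p C) (hTn : T.Normal)
    (hidx : ¬ p ∣ T.index) (hT : Gen C ≤ T) (hpow : ∀ t ∈ T, ∃ k : ℕ, t ^ p ^ k ∈ Gen C)
    (hR : ∀ t : G, (∀ L ∈ C, t ∈ centralizer (L : Set G)) → t = 1)
    (hA : ∀ L ∈ C, HQ 𝕜 p L.normalizerMonoidHom.range) : HQ 𝕜 p G := by
  rw [← HQ_index T hidx]
  refine HQ_pfam hchar hF hT hpow (fun t _ => hR t) fun L hL => ?_
  have h1 := hA L hL
  rw [HQ_sub_iff] at h1 ⊢
  have h2 : Ain p ((T.subgroupOf (normalizer (L : Set G))).map L.normalizerMonoidHom) =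
      Ain p L.normalizerMonoidHom.range := by
    refine Ain_eq_of_pow hidx ?_ ?_
    · rw [MonoidHom.range_eq_map]
      exact Subgroup.map_mono le_top
    · rintro _ ⟨n, rfl⟩
      refine ⟨n ^ T.index, ?_, map_pow _ _ _⟩
      change ((n ^ T.index : normalizer (L : Set G)) : G) ∈ T
      rw [Subgroup.coe_pow]
      exact T.pow_index_mem _
  rw [h2]
  exact h1

end

end Vale.Agent.P240.R2.H487
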