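import Vale.Agent.P240.R2.H487.Gen1
import Vale.Agent.P240.R2.H487.Idx
import Vale.Agent.P240.H195.Elim
import Vale.Agent.P240.R2.H487.Defs

/-!
The main theorem for families of simple subgroups with labels.
-/

namespace Vale.Agent.P240.R2.H487

set_option linter.unusedSectionVars false

open Subgroup Vale.Agent.P240.K Vale.Agent.P240.H195

universe u v w

section
variable {G : Type u} [Group G] {p : ℕ}

/-- `K` is `p`-closed modulo `M`: the elements of `K` with `x ^ (p ^ k) ∈ M` for some `k` are closed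
under products -/
def PClosed (p : ℕ) (K M : Subgroup G) : Prop :=
  ∀ x ∈ K, ∀ y ∈ K, PMod p M x → PMod p M y → PMod p M (x * y)

lemma PMod.of_pow {M : Subgroup G} {x : G} (h : PMod p M (x ^ p)) : PMod p M x := by
  obtain ⟨k, hk⟩ := h
  refine ⟨k + 1, ?_⟩
  rwa [pow_succ', pow_mul]

lemma PMod.conj {M : Subgroup G} (hM : M.Normal) {x : G} (h : PMod p M x) (g : G) :
    PMod p M (g * x * g⁻¹) := by
  obtain ⟨k, hk⟩ := h
  refine ⟨k, ?_⟩
  rw [conj_pow]
  exact hM.conj_mem _ hk g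

lemma PMod.inv {M : Subgroup G} {x : G} (h : PMod p M x) : PMod p M x⁻¹ := by
  obtain ⟨k, hk⟩ := h
  refine ⟨k, ?_⟩
  rw [inv_pow]
  exact M.inv_mem hk

/-- the subgroup of `K` given by `PClosed` -/
def pcl {K M : Subgroup G} (h : PClosed p K M) : Subgroup K where
  carrier := {x | PMod p M (x : G)}
  mul_mem' := fun {x y} hx hy => h x x.2 y y.2 hx hy
  one_mem' := ⟨0, by simp⟩
  inv_mem' := fun {_} hx => hx.inv

lemma mem_pcl {K M : Subgroup G} (h : PClosed p K M) {x : K} : x ∈ pcl h ↔ PMod p M (x : G) :=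
  Iff.rfl

lemma pcl_normal {K M : Subgroup G} (h : PClosed p K M) (hM : M.Normal) : (pcl h).Normal :=
  ⟨fun _ hx g => PMod.conj hM hx (g : G)⟩

lemma pcl_index [hp : Fact p.Prime] [Finite G] {K M : Subgroup G} (h : PClosed p K M)
    (hM : M.Normal) : ¬ p ∣ (pcl h).index := by
  intro hd
  have hn := pcl_normal h hM
  rw [Subgroup.index_eq_card] at hd
  obtain ⟨x, hx⟩ := exists_prime_orderOf_dvd_card' p hd
  obtain ⟨y, rfl⟩ := QuotientGroup.mk_surjective x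
  have h1 : y ^ p ∈ pcl h := by
    rw [← QuotientGroup.eq_one_iff]
    have h2 := pow_orderOf_eq_one (y : K ⧸ pcl h)
    rw [hx] at h2
    exact h2
  have h2 : y ∈ pcl h := PMod.of_pow h1
  have h3 : (y : K ⧸ pcl h) = 1 := (QuotientGroup.eq_one_iff y).2 h2
  rw [h3, orderOf_one] at hx
  exact hp.out.one_lt.ne hx

end

section
variable {G : Type u} [Group G] {p : ℕ} {C : Set (Subgroup G)} {l : Subgroup G → ℕ}

/-- the members with label `0` and the subgroups `N_q` for the other labels -/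
def NZ (C : Set (Subgroup G)) (l : Subgroup G → ℕ) : Set (Subgroup G) :=
  {L | L ∈ C ∧ l L = 0} ∪ {N | ∃ L ∈ C, l L ≠ 0 ∧ N = Nq C l (l L)}

variable (hF : Family p C) (hs : ∀ L ∈ C, IsSimpleGroup L)
  (hR : ∀ t : G, (∀ L ∈ C, t ∈ centralizer (L : Set G)) → t = 1)
  (hlc : ∀ L ∈ C, ∀ g : G, l (cj g L) = l L)

lemma comm_zero {L : Subgroup G} (hL : L ∈ C) {q : ℕ} (hq : l L ≠ q) {x y : G} (hx : x ∈ L)
    (hy : y ∈ Nq C l q) : x * y = y * x := by
  rw [Nq, mem_Cen] at hy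
  exact Subgroup.mem_centralizer_iff.1 (hy L ⟨hL, hq⟩) x hx

include hF hR hlc in
lemma NZ_family : Family p (NZ C l) where
  conj := by
    rintro L (⟨hL, h0⟩ | h) g
    · exact Or.inl ⟨hF.conj L hL g, (hlc L hL g).trans h0⟩
    · obtain ⟨M, hM, h0, rfl⟩ := h
      refine Or.inr ⟨M, hM, h0, ?_⟩
      have := Nq_normal hF hlc (l M)
      exact cj_eq_iff.2 (by rw [Subgroup.normalizer_eq_top]; exact Subgroup.mem_top g)
  comm := by
    rintro L (⟨hL, h0⟩ | ⟨L', hL', h0, rfl⟩) M (⟨hM, h1⟩ | ⟨M', hM', h1, rfl⟩) hLM x hx y hy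
    · exact hF.comm L hL M hM hLM x hx y hy
    · exact comm_zero hL (by rw [h0]; exact h1.symm) hx hy
    · exact (comm_zero hM (by rw [h1]; exact h0.symm) hy hx).symm
    · exact Nq_comm hF hR hlc (fun h => hLM (by rw [h])) hx hy
  centre := by
    rintro L (⟨hL, h0⟩ | ⟨L', hL', h0, rfl⟩)
    · exact hF.centre L hL
    · exact (NF_family hF hR hlc).centre _ ⟨L', hL', rfl⟩
  dvd := by
    rintro L (⟨hL, h0⟩ | ⟨L', hL', h0, rfl⟩)
    · exact hF.dvd L hL
    · exact (NF_family hF hR hlc).dvd _ ⟨L', hL', rfl⟩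

/-- the members whose label is neither `0` nor in `B` -/
def Left (C : Set (Subgroup G)) (l : Subgroup G → ℕ) (B : Set ℕ) : Set (Subgroup G) :=
  {L | L ∈ C ∧ l L ≠ 0 ∧ l L ∉ B}

/-- the centralizer of the members whose label is `0` or in `B` -/
def KB (C : Set (Subgroup G)) (l : Subgroup G → ℕ) (B : Set ℕ) : Subgroup G :=
  Cen {L | L ∈ C ∧ (l L = 0 ∨ l L ∈ B)}

include hF hlc in
lemma left_family (B : Set ℕ) : Family p (Left C l B) where
  conj := fun L hL g => ⟨hF.conj L hL.1 g, by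
    have h1 := hlc L hL.1 g
    exact ⟨fun h => hL.2.1 (h1.symm.trans h), fun h => hL.2.2 (h1 ▸ h)⟩⟩
  comm := fun L hL M hM => hF.comm L hL.1 M hM.1
  centre := fun L hL => hF.centre L hL.1
  dvd := fun L hL => hF.dvd L hL.1

include hF in
lemma left_le {B : Set ℕ} {L : Subgroup G} (hL : L ∈ Left C l B) : L ≤ KB C l B := by
  intro x hx
  rw [KB, mem_Cen]
  rintro M ⟨hM, hMl⟩
  rw [Subgroup.mem_centralizer_iff]
  refine fun y hy => hF.comm M hM L hL.1 ?_ y hy x hx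
  rintro rfl
  rcases hMl with h | h
  · exact hL.2.1 h
  · exact hL.2.2 h

lemma Nq_le_KB {B : Set ℕ} {q : ℕ} (h0 : q ≠ 0) (hB : q ∉ B) : Nq C l q ≤ KB C l B := by
  intro x hx
  rw [Nq, mem_Cen] at hx
  rw [KB, mem_Cen]
  rintro M ⟨hM, hMl⟩
  refine hx M ⟨hM, ?_⟩
  rintro rfl
  rcases hMl with h | h
  · exact h0 h
  · exact hB h

include hR in
lemma KB_faithful {B : Set ℕ} {t : G} (ht : t ∈ KB C l B)
    (h : ∀ L ∈ Left C l B, t ∈ centralizer (L : Set G)) : t = 1 := by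
  rw [KB, mem_Cen] at ht
  refine hR t fun L hL => ?_
  by_cases h1 : l L = 0 ∨ l L ∈ B
  · exact ht L ⟨hL, h1⟩
  · exact h L ⟨hL, fun h2 => h1 (Or.inl h2), fun h2 => h1 (Or.inr h2)⟩

/-- the label on the subgroups of `K` -/
def lK (l : Subgroup G → ℕ) (K : Subgroup G) : Subgroup K → ℕ := fun M => l (M.map K.subtype)

lemma lK_sub {K L : Subgroup G} (h : L ≤ K) : lK l K (L.subgroupOf K) = l L := by
  rw [lK, Subgroup.subgroupOf_map_subtype, inf_eq_left.2 h]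

include hF in
lemma Nq_sub {B : Set ℕ} {q : ℕ} :
    Nq (SubF (KB C l B) (Left C l B)) (lK l (KB C l B)) q =
      (Nq C l q).subgroupOf (KB C l B) := by
  ext x
  rw [Nq, mem_Cen, Subgroup.mem_subgroupOf, Nq, mem_Cen]
  constructor
  · rintro h L ⟨hL, hLq⟩
    by_cases h1 : l L = 0 ∨ l L ∈ B
    · have hx : (x : G) ∈ Cen {L | L ∈ C ∧ (l L = 0 ∨ l L ∈ B)} := x.2
      exact mem_Cen.1 hx L ⟨hL, h1⟩
    · have hL1 : L ∈ Left C l B := ⟨hL, fun h2 => h1 (Or.inl h2), fun h2 => h1 (Or.inr h2)⟩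
      refine (mem_cent_sub (left_le hF hL1) x).1 (h _ ⟨⟨L, hL1, rfl⟩, ?_⟩)
      rw [lK_sub (left_le hF hL1)]
      exact hLq
  · rintro h _ ⟨⟨L, hL, rfl⟩, hLq⟩
    rw [lK_sub (left_le hF hL)] at hLq
    exact (mem_cent_sub (left_le hF hL) x).2 (h L ⟨hL.1, hLq⟩)

/-- the product of the `N_q` for the labels that are left -/
def NP (C : Set (Subgroup G)) (l : Subgroup G → ℕ) (B : Set ℕ) : Subgroup G :=
  ⨆ L ∈ Left C l B, Nq C l (l L)

include hF hlc in
lemma NP_normal (B : Set ℕ) : (NP C l B).Normal :=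
  Subgroup.biSup_normal _ _ fun L _ => Nq_normal hF hlc (l L)

include hF hs hR hlc in
/-- the group that is left: one prime -/
theorem HQ_left_one [hp : Fact p.Prime] {𝕜 : Type v} [Field 𝕜] [Finite G]
    (hg : ∀ L ∈ C, l L ≠ 0 → (l L).Prime ∧ GoodFactor 𝕜 p (l L) L) {B : Set ℕ}
    (h : ∀ L ∈ Left C l B, ∀ M ∈ Left C l B, l L = l M) : HQ 𝕜 p (KB C l B) := by
  obtain ⟨q, hq, hall⟩ : ∃ q : ℕ, q.Prime ∧ ∀ L ∈ Left C l B, l L = q := by
    by_cases hne : (Left C l B).Nonempty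
    · obtain ⟨L, hL⟩ := hne
      exact ⟨l L, (hg L hL.1 hL.2.1).1, fun M hM => h M hM L hL⟩
    · exact ⟨p, hp.out, fun L hL => absurd ⟨L, hL⟩ hne⟩
  refine HQ_img_sub (D := Left C l B) hq (left_family hF hlc B) (fun L hL => hs L hL.1)
    (T := KB C l B) (fun L hL => left_le hF hL) (π := MonoidHom.id _) Function.surjective_id ?_ ?_
  · intro t
    constructor
    · intro ht L _
      have h1 : (t : G) = 1 := congrArg Subtype.val ht
      rw [h1]
      exact Subgroup.one_mem _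
    · intro ht
      exact Subtype.ext (KB_faithful hR t.2 ht)
  · intro L hL
    have h1 := (hg L hL.1 hL.2.1).2
    rwa [hall L hL] at h1

include hF hs hR hlc in
/-- the group that is left: `p`-closed -/
theorem HQ_left_closed [hp : Fact p.Prime] {𝕜 : Type v} [Field 𝕜] [Finite G] (hchar : (p : 𝕜) = 0)
    (hg : ∀ L ∈ C, l L ≠ 0 → (l L).Prime ∧ GoodFactor 𝕜 p (l L) L) {B : Set ℕ}
    (h : PClosed p (KB C l B) (NP C l B)) : HQ 𝕜 p (KB C l B) := by
  set K := KB C l B with hK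
  have hlK : ∀ L ∈ Left C l B, lK l K (L.subgroupOf K) = l L := fun L hL =>
    lK_sub (left_le hF hL)
  have hNK : ∀ L ∈ Left C l B, Nq C l (l L) ≤ K := fun L hL => Nq_le_KB hL.2.1 hL.2.2
  have hNs : ∀ q, Nq (SubF K (Left C l B)) (lK l K) q = (Nq C l q).subgroupOf K :=
    fun q => Nq_sub hF
  refine HQ_partition (C := SubF K (Left C l B)) (T := pcl h) hchar
    (family_sub (left_family hF hlc B) fun L hL => left_le hF hL) ?_ ?_ (lK l K) ?_ ?_ ?_
    (pcl_normal h (NP_normal hF hlc B)) (pcl_index h (NP_normal hF hlc B)) ?_ ?_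
  · rintro _ ⟨L, hL, rfl⟩
    have := hs L hL.1
    exact (Subgroup.subgroupOfEquivOfLe (left_le hF hL)).isSimpleGroup
  · intro t ht
    refine Subtype.ext (KB_faithful hR t.2 fun L hL => ?_)
    exact (mem_cent_sub (left_le hF hL) t).1 (ht _ ⟨L, hL, rfl⟩)
  · rintro _ ⟨L, hL, rfl⟩ g
    have h1 : cj (g : G) L ∈ Left C l B := (left_family hF hlc B).conj L hL (g : G)
    have h2 := hlK L hL
    have h3 := hlK _ h1
    rw [cj_sub, h3, hlc L hL.1]
    exact h2.symm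
  · rintro _ ⟨L, hL, rfl⟩
    have h2 := hlK L hL
    change (lK l K (L.subgroupOf K)).Prime
    rw [h2]
    exact (hg L hL.1 hL.2.1).1
  · rintro _ ⟨L, hL, rfl⟩
    have h2 := hlK L hL
    change GoodFactor 𝕜 p (lK l K (L.subgroupOf K)) (L.subgroupOf K)
    rw [h2]
    exact goodFactor_tr (Subgroup.subgroupOfEquivOfLe (left_le hF hL)).symm
      (hg L hL.1 hL.2.1).2
  · rintro _ ⟨L, hL, rfl⟩ x hx
    rw [hNs, show lK l K ((fun L => L.subgroupOf K) L) = l L from hlK L hL] at hx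
    refine ⟨0, ?_⟩
    rw [pow_zero, pow_one]
    exact (le_iSup₂ (f := fun (L : Subgroup G) (_ : L ∈ Left C l B) => Nq C l (l L)) L hL) hx
  · intro t ht
    obtain ⟨k, hk⟩ := ht
    refine ⟨k, ?_⟩
    have h1 : NP C l B ≤ (Gen (NF (SubF K (Left C l B)) (lK l K))).map K.subtype := by
      refine iSup₂_le fun L hL x hx => ?_
      refine ⟨⟨x, hNK L hL hx⟩, ?_, rfl⟩
      have h2 : (⟨x, hNK L hL hx⟩ : K) ∈ Nq (SubF K (Left C l B)) (lK l K)
          (lK l K (L.subgroupOf K)) := by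
        rw [hNs, hlK L hL]
        exact hx
      have h3 : Nq (SubF K (Left C l B)) (lK l K) (lK l K (L.subgroupOf K)) ∈
          NF (SubF K (Left C l B)) (lK l K) := ⟨_, ⟨L, hL, rfl⟩, rfl⟩
      exact le_Gen h3 h2
    obtain ⟨y, hy, hyt⟩ := h1 hk
    have h3 : y = t ^ p ^ k := Subtype.ext hyt
    rwa [h3] at hy

include hF hs hR hlc in
/-- removing the members with label `0` and the classes in `B` -/
theorem HQ_remove [hp : Fact p.Prime] {𝕜 : Type v} [Field 𝕜] [Finite G]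
    (h0 : ∀ L ∈ C, l L = 0 → Removable 𝕜 p L ∨ RigidLie p L)
    (hg : ∀ L ∈ C, l L ≠ 0 → (l L).Prime ∧ GoodFactor 𝕜 p (l L) L) {B : Set ℕ}
    (hB : ∀ L ∈ C, l L ≠ 0 → l L ∈ B → FewOuter p (Nq C l (l L)))
    (h : HQ 𝕜 p (KB C l B)) : HQ 𝕜 p G := by
  set T : Set (Subgroup G) := {L | L ∈ C ∧ l L = 0 ∧ ¬ RigidLie p L} ∪
    {N | ∃ L ∈ C, l L ≠ 0 ∧ l L ∈ B ∧ N = Nq C l (l L)} with hT
  rw [HQ_sub_iff] at h
  rw [HQ_iff]
  refine remove (NZ_family hF hR hlc) (T := T) ?_ ?_ ?_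
  · rintro L (⟨hL, hL0, -⟩ | ⟨M, hM, hM0, -, rfl⟩)
    · exact Or.inl ⟨hL, hL0⟩
    · exact Or.inr ⟨M, hM, hM0, rfl⟩
  · rintro L (⟨hL, hL0, hLr⟩ | ⟨M, hM, hM0, hMB, rfl⟩)
    · exact (h0 L hL hL0).resolve_right hLr
    · refine Or.inl ⟨hB M hM hM0 hMB, almost_Nq hF hs hR hlc (hg M hM hM0).1 ?_⟩
      intro L hL hLM
      have h1 := (hg L hL (hLM ▸ hM0)).2
      rwa [hLM] at h1
  · refine rigid_step (R := {L | L ∈ C ∧ l L = 0 ∧ RigidLie p L}) ?_ ?_ ?_ ?_ ?_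
    · intro L hL x hx
      rw [mem_Cen]
      rintro M (⟨hM, hM0, hMr⟩ | ⟨M', hM, hM0, -, rfl⟩)
      · rw [Subgroup.mem_centralizer_iff]
        refine fun y hy => hF.comm M hM L hL.1 ?_ y hy x hx
        rintro rfl
        exact hMr hL.2.2
      · rw [Subgroup.mem_centralizer_iff]
        exact fun y hy => (comm_zero hL.1 (by rw [hL.2.1]; exact hM0.symm) hx hy).symm
    · exact fun g _ M hM => ⟨hF.conj M hM.1 g, (hlc M hM.1 g).trans hM.2.1, rigidLie_cj hM.2.2⟩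
    · exact fun L hL M hM => hF.comm L hL.1 M hM.1
    · exact fun L hL => hL.2.2
    · rw [← Cen_union]
      have hC : Cen (T ∪ {L | L ∈ C ∧ l L = 0 ∧ RigidLie p L}) = KB C l B := by
        ext x
        rw [mem_Cen, KB, mem_Cen]
        constructor
        · rintro h1 L ⟨hL, hLl⟩
          by_cases hL0 : l L = 0
          · by_cases hr : RigidLie p L
            · exact h1 L (Or.inr ⟨hL, hL0, hr⟩)
            · exact h1 L (Or.inl (Or.inl ⟨hL, hL0, hr⟩))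
          · have h2 := h1 _ (Or.inl (Or.inr ⟨L, hL, hL0, hLl.resolve_left hL0, rfl⟩))
            exact Subgroup.centralizer_le (le_Nq hF hL) h2
        · rintro h1 L ((⟨hL, hL0, -⟩ | ⟨M, hM, hM0, hMB, rfl⟩) | ⟨hL, hL0, -⟩)
          · exact h1 L ⟨hL, Or.inl hL0⟩
          · rw [Nq_cent hF hR hlc]
            rintro L ⟨hL, hLM⟩
            exact h1 L ⟨hL, Or.inr (hLM ▸ hMB)⟩
          · exact h1 L ⟨hL, Or.inl hL0⟩
      rw [hC]
      exact h

include hF hs hR hlc in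
/-- **Main theorem** for families of simple subgroups. -/
theorem family_main [hp : Fact p.Prime] {𝕜 : Type v} [Field 𝕜] [Finite G]
    (h0 : ∀ L ∈ C, l L = 0 → Removable 𝕜 p L ∨ RigidLie p L)
    (hg : ∀ L ∈ C, l L ≠ 0 → (l L).Prime ∧ GoodFactor 𝕜 p (l L) L) {B : Set ℕ}
    (hB : ∀ L ∈ C, l L ≠ 0 → l L ∈ B → FewOuter p (Nq C l (l L)))
    (h : (∀ L ∈ Left C l B, ∀ M ∈ Left C l B, l L = l M) ∨
      ((p : 𝕜) = 0 ∧ PClosed p (KB C l B) (NP C l B))) : HQ 𝕜 p G := by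
  refine HQ_remove hF hs hR hlc h0 hg hB ?_
  rcases h with h | ⟨hchar, h⟩
  · exact HQ_left_one hF hs hR hlc hg h
  · exact HQ_left_closed hF hs hR hlc hchar hg h

end

end Vale.Agent.P240.R2.H487
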