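import Vale.Agent.P240.R2.H487.Om
import Vale.Agent.P240.R2.H487.Fin1

/-!
The main theorems for families, with the condition on the subgroup generated by the elements of order
`p`.
-/

namespace Vale.Agent.P240.R2.H487

set_option linter.unusedSectionVars false

open Subgroup Vale.Agent.P240.K Vale.Agent.P240.H195

universe u v w

section
variable {G : Type u} [Group G] {p : ℕ} {C : Set (Subgroup G)} {l : Subgroup G → ℕ}
  (hF : Family p C) (hs : ∀ L ∈ C, IsSimpleGroup L)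
  (hR : ∀ t : G, (∀ L ∈ C, t ∈ centralizer (L : Set G)) → t = 1)
  (hlc : ∀ L ∈ C, ∀ g : G, l (cj g L) = l L)

include hF hs hR hlc in
/-- the group that is left -/
theorem HQ_left_omega [hp : Fact p.Prime] {𝕜 : Type v} [Field 𝕜] [Finite G] (hchar : (p : 𝕜) = 0)
    (hg : ∀ L ∈ C, l L ≠ 0 → (l L).Prime ∧ GoodFactor 𝕜 p (l L) L) {B : Set ℕ}
    (h : OmegaMod p (KB C l B) (NP C l B)) : HQ 𝕜 p (KB C l B) := by
  set K := KB C l B with hK
  have hlK : ∀ L ∈ Left C l B, lK l K (L.subgroupOf K) = l L := fun L hL =>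
    lK_sub (left_le hF hL)
  have hNK : ∀ L ∈ Left C l B, Nq C l (l L) ≤ K := fun L hL => Nq_le_KB hL.2.1 hL.2.2
  have hNs : ∀ q, Nq (SubF K (Left C l B)) (lK l K) q = (Nq C l q).subgroupOf K :=
    fun q => Nq_sub hF
  refine HQ_part_omega (C := SubF K (Left C l B)) (l := lK l K)
    (Ω := (Subgroup.closure {y | y ∈ K ∧ y ^ p = 1}).subgroupOf K)
    (family_sub (left_family hF hlc B) fun L hL => left_le hF hL) ?_ ?_ ?_ hchar ?_ ?_
    (omega_top fun x hx hxp => Subgroup.subset_closure ⟨hx, hxp⟩) ?_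
  · rintro _ ⟨L, hL, rfl⟩
    have := hs L hL.1
    exact (Subgroup.subgroupOfEquivOfLe (left_le hF hL)).isSimpleGroup
  · intro t ht
    refine Subtype.ext (KB_faithful hR t.2 fun L hL => ?_)
    exact (mem_cent_sub (left_le hF hL) t).1 (ht _ ⟨L, hL, rfl⟩)
  · rintro _ ⟨L, hL, rfl⟩ g
    have h1 : cj (g : G) L ∈ Left C l B := (left_family hF hlc B).conj L hL (g : G)
    have h2 := hlK L hL
    have h3 := hlK _ h1
    rw [cj_sub, h3, hlc L hL.1]
    exact h2.symm
  · rintro _ ⟨L, hL, rfl⟩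
    have h2 := hlK L hL
    change (lK l K (L.subgroupOf K)).Prime
    rw [h2]
    exact (hg L hL.1 hL.2.1).1
  · rintro _ ⟨L, hL, rfl⟩
    have h2 := hlK L hL
    change GoodFactor 𝕜 p (lK l K (L.subgroupOf K)) (L.subgroupOf K)
    rw [h2]
    exact goodFactor_tr (Subgroup.subgroupOfEquivOfLe (left_le hF hL)).symm
      (hg L hL.1 hL.2.1).2
  · intro t ht
    obtain ⟨k, hk⟩ := h t ht
    refine ⟨k, ?_⟩
    have h1 : NP C l B ≤ (Gen (NF (SubF K (Left C l B)) (lK l K))).map K.subtype := by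
      refine iSup₂_le fun L hL x hx => ?_
      refine ⟨⟨x, hNK L hL hx⟩, ?_, rfl⟩
      have h2 : (⟨x, hNK L hL hx⟩ : K) ∈ Nq (SubF K (Left C l B)) (lK l K)
          (lK l K (L.subgroupOf K)) := by
        rw [hNs, hlK L hL]
        exact hx
      have h3 : Nq (SubF K (Left C l B)) (lK l K) (lK l K (L.subgroupOf K)) ∈
          NF (SubF K (Left C l B)) (lK l K) := ⟨_, ⟨L, hL, rfl⟩, rfl⟩
      exact le_Gen h3 h2
    obtain ⟨y, hy, hyt⟩ := h1 hk
    have h3 : y = t ^ p ^ k := Subtype.ext hyt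
    rwa [h3] at hy

include hF hs hR hlc in
/-- **Main theorem** for families of simple subgroups. -/
theorem family_main_omega [hp : Fact p.Prime] {𝕜 : Type v} [Field 𝕜] [Finite G]
    (h0 : ∀ L ∈ C, l L = 0 → Removable 𝕜 p L ∨ RigidLie p L)
    (hg : ∀ L ∈ C, l L ≠ 0 → (l L).Prime ∧ GoodFactor 𝕜 p (l L) L) {B : Set ℕ}
    (hB : ∀ L ∈ C, l L ≠ 0 → l L ∈ B → FewOuter p (Nq C l (l L)))
    (h : (∀ L ∈ Left C l B, ∀ M ∈ Left C l B, l L = l M) ∨
      ((p : 𝕜) = 0 ∧ OmegaMod p (KB C l B) (NP C l B))) : HQ 𝕜 p G := by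
  refine HQ_remove hF hs hR hlc h0 hg hB ?_
  rcases h with h | ⟨hchar, h⟩
  · exact HQ_left_one hF hs hR hlc hg h
  · exact HQ_left_omega hF hs hR hlc hchar hg h

end

section
variable {G : Type u} [Group G] {p : ℕ}

/-- `AlmostSimpleHQ` in a subgroup -/
lemma almost_sub {𝕜 : Type v} [Field 𝕜] {K L : Subgroup G} (hLK : L ≤ K)
    (h : AlmostSimpleHQ 𝕜 p L) : AlmostSimpleHQ 𝕜 p (L.subgroupOf K) := by
  intro A hA hinn
  set e : L.subgroupOf K ≃* L := Subgroup.subgroupOfEquivOfLe hLK with he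
  have h1 : HQ 𝕜 p (A.map (MulAut.congr e).toMonoidHom) := by
    refine h _ ?_ ?_
    · rintro _ ⟨a, ha, rfl⟩
      obtain ⟨x, rfl⟩ := hA ha
      have hx : ((x : K) : G) ∈ normalizer (L : Set G) := by
        rw [← cj_eq_iff]
        have h2 : cj (x : K) (L.subgroupOf K) = L.subgroupOf K := cj_eq_iff.2 x.2
        rw [cj_sub] at h2
        have h3 := congrArg (fun M => M.map K.subtype) h2
        simp only [Subgroup.subgroupOf_map_subtype] at h3
        rw [inf_eq_left.2 hLK] at h3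
        have h4 : cj ((x : K) : G) L ≤ K := by
          intro y hy
          rw [mem_cj] at hy
          have h5 := K.mul_mem (K.mul_mem (x : K).2 (hLK hy)) (K.inv_mem (x : K).2)
          have h6 : ((x : K) : G) * (((x : K) : G)⁻¹ * y * ((x : K) : G)) * ((x : K) : G)⁻¹ = y := by
            group
          rwa [h6] at h5
        rwa [inf_eq_left.2 h4] at h3
      refine ⟨⟨_, hx⟩, ?_⟩
      apply MulEquiv.ext
      intro y
      rfl
    · intro y
      refine ⟨MulAut.conj (e.symm y), hinn _, ?_⟩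
      apply MulEquiv.ext
      intro z
      change e (e.symm y * e.symm z * (e.symm y)⁻¹) = y * z * y⁻¹
      rw [map_mul, map_mul, map_inv, e.apply_symm_apply, e.apply_symm_apply]
  exact (HQ_map (MulAut.congr e).injective A).1 h1

/-- **Components, elements of order `p` generating a `p`-group modulo the components.** -/
theorem family_omega [hp : Fact p.Prime] {𝕜 : Type v} [Field 𝕜] [Finite G] (hchar : (p : 𝕜) = 0)
    {C S : Set (Subgroup G)} (hF : Family p C) (hs : ∀ L ∈ C, IsSimpleGroup L)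
    (hR : ∀ t : G, (∀ L ∈ C, t ∈ centralizer (L : Set G)) → t = 1)
    (hS : S ⊆ C) (hSc : ∀ L ∈ S, ∀ g : G, cj g L ∈ S)
    (h0 : ∀ L ∈ S, Removable 𝕜 p L ∨ RigidLie p L)
    (h : OmegaMod p (Cen S) (Gen (C \ S)))
    (hA : ∀ L ∈ C \ S, (∃ l : ℕ, l.Prime ∧ GoodFactor 𝕜 p l L) ∨ AlmostSimpleHQ 𝕜 p L) :
    HQ 𝕜 p G := by
  refine HQ_elim hF hS hSc h0 ?_
  have hD : Family p (C \ S) :=
    { conj := fun L hL g => ⟨hF.conj L hL.1 g, fun hcon => hL.2 (by
        have h1 := hSc _ hcon g⁻¹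
        rwa [show (L.map (MulAut.conj g).toMonoidHom) = cj g L from rfl, cj_inv_cj] at h1)⟩
      comm := fun L hL M hM => hF.comm L hL.1 M hM.1
      centre := fun L hL => hF.centre L hL.1
      dvd := fun L hL => hF.dvd L hL.1 }
  have hle : ∀ L ∈ C \ S, L ≤ Cen S := fun L hL => hF.le_Cen hS hL.1 hL.2
  refine HQ_omega (C := SubF (Cen S) (C \ S))
    (Ω := (Subgroup.closure {y | y ∈ Cen S ∧ y ^ p = 1}).subgroupOf (Cen S)) hchar
    (family_sub hD hle)
    (omega_top fun x hx hxp => Subgroup.subset_closure ⟨hx, hxp⟩) ?_ ?_ ?_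
  · intro t ht
    obtain ⟨k, hk⟩ := h t ht
    refine ⟨k, ?_⟩
    have h1 : Gen (C \ S) ≤ (Gen (SubF (Cen S) (C \ S))).map (Cen S).subtype := by
      refine iSup₂_le fun L hL x hx => ?_
      refine ⟨⟨x, hle L hL hx⟩, ?_, rfl⟩
      have h3 : L.subgroupOf (Cen S) ∈ SubF (Cen S) (C \ S) := ⟨L, hL, rfl⟩
      exact le_Gen h3 hx
    obtain ⟨y, hy, hyt⟩ := h1 hk
    have h3 : y = t ^ p ^ k := Subtype.ext hyt
    rwa [h3] at hy
  · intro t ht
    refine Subtype.ext (hR t fun L hL => ?_)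
    by_cases h1 : L ∈ S
    · exact mem_Cen.1 t.2 L h1
    · exact (mem_cent_sub (hle L ⟨hL, h1⟩) t).1 (ht _ ⟨L, ⟨hL, h1⟩, rfl⟩)
  · rintro _ ⟨L, hL, rfl⟩
    have hAL : AlmostSimpleHQ 𝕜 p L := by
      rcases hA L hL with ⟨l, hl, hg⟩ | h1
      · exact goodFactor_almost (hs L hL.1) (hF.centre L hL.1) (hF.dvd L hL.1) hl hg
      · exact h1
    refine almost_sub (hle L hL) hAL _ ?_ ?_
    · rw [MonoidHom.range_eq_map]
      exact Subgroup.map_mono le_top
    · intro x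
      have h3 : L.subgroupOf (Cen S) ∈ SubF (Cen S) (C \ S) := ⟨L, hL, rfl⟩
      refine ⟨⟨x, le_normalizer x.2⟩, ?_, ?_⟩
      · exact Subgroup.mem_sup_right (le_Gen h3 x.2)
      · apply MulEquiv.ext
        intro y
        rfl

end

end Vale.Agent.P240.R2.H487
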