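import Vale.Agent.P240.MathlibUsed
import Vale.Agent.P240.K.FamDefs

/-!
Components `L` with an elementary abelian subgroup `A` such that all elementary abelian groups of
automorphisms containing `A` act faithfully on solvable `p'`-subgroups of `L`.
-/

namespace Vale.Agent.P240.R2.H487

open Subgroup Vale.Agent.P240.K

/-- `L` has a nontrivial elementary abelian `p`-subgroup `A` such that every elementary abelian
`p`-subgroup `E ≥ A` of `N_G(L)` normalizes a solvable `p'`-subgroup `W` of `L` with the property that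
the elements of `E` centralizing `W` centralize `L`. -/
def LocSub (p : ℕ) {G : Type*} [Group G] (L : Subgroup G) : Prop :=
  ∃ A ≤ L, ElemAb p A ∧ ∀ E ≤ normalizer (L : Set G), ElemAb p E → A ≤ E →
    ∃ W ≤ L, Group.IsSolvable W ∧ ¬ p ∣ Nat.card W ∧ (∀ x ∈ E, ∀ w ∈ W, x * w * x⁻¹ ∈ W) ∧
      ∀ x ∈ E, (∀ w ∈ W, x * w = w * x) → x ∈ centralizer (L : Set G)

/-- `L` has a nontrivial elementary abelian `p`-subgroup `A` such that every elementary abelian
`p`-group `E` of automorphisms of `L` that contains the inner automorphisms given by `A` leaves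
invariant and acts faithfully on a solvable `p'`-subgroup `W` of `L`. -/
def LocAut (p : ℕ) (L : Type*) [Group L] : Prop :=
  ∃ A : Subgroup L, ElemAb p A ∧ ∀ E : Subgroup (MulAut L), ElemAb p E →
    A.map MulAut.conj ≤ E → ∃ W : Subgroup L, Group.IsSolvable W ∧ ¬ p ∣ Nat.card W ∧
      (∀ f ∈ E, ∀ w ∈ W, f w ∈ W) ∧ ∀ f ∈ E, (∀ w ∈ W, f w = w) → f = 1

end Vale.Agent.P240.R2.H487
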