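import Vale.Agent.P240.H195.RLink

/-!
Local elimination: a subgroup `C` of `X`, an elementary abelian subgroup `A` of `X` centralizing `C`, and
top cycles for the elementary abelian subgroups of `X` containing `A`.
-/

namespace Vale.Agent.P240.R2.H487

open Finsupp Subgroup Vale.Agent.P240.K Vale.Agent.P240.H195

universe u v

section
variable {𝕜 : Type v} [Field 𝕜] {G : Type u} [Group G] {p : ℕ}

/-- **Local elimination**, with top cycles. -/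
theorem local_top [hp : Fact p.Prime] [Finite G] {X C A : Subgroup G} (hCX : C ≤ X)
    (hAX : A ≤ X) (hA : A ∈ ApB p G) (hAC : A ⊓ C = ⊥) (hcen : C ≤ centralizer (A : Set G))
    (hα : ∀ F ∈ ApB p G, F ≤ X → A ≤ F → F ⊓ C = ⊥ →
      NA 𝕜 (Ain p (C ⊓ centralizer (F : Set G))) →
      ∃ (H : Subgroup G) (α : Ch 𝕜 (Subgroup G)) (φ : List (Subgroup G)), TopCycle 𝕜 p H F α φ ∧
        H ≤ X ∧ ∀ x ∈ H, ∀ y ∈ C ⊓ centralizer (F : Set G), x * y = y * x)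
    (h : NA 𝕜 (Ain p C)) : NA 𝕜 (Ain p X) := by
  have hne : A ∈ {F : Subgroup G | F ∈ ApB p G ∧ F ≤ X ∧ A ≤ F ∧ F ⊓ C = ⊥ ∧
      NA 𝕜 (Ain p (C ⊓ centralizer (F : Set G)))} := by
    refine ⟨hA, hAX, le_rfl, hAC, ?_⟩
    rwa [inf_eq_left.2 hcen]
  obtain ⟨F, hF⟩ := (Set.toFinite {F : Subgroup G | F ∈ ApB p G ∧ F ≤ X ∧ A ≤ F ∧ F ⊓ C = ⊥ ∧
    NA 𝕜 (Ain p (C ⊓ centralizer (F : Set G)))}).exists_maximal ⟨A, hne⟩
  obtain ⟨hFB, hFX, hAF, hFC, hNA⟩ := hF.prop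
  obtain ⟨H, α, φ, hT, hHX, hcomm⟩ := hα F hFB hFX hAF hFC hNA
  obtain ⟨y, hy, hyb, hyc⟩ := join_cycle (𝒮 := Ain p X) C (fun E hE => hE.1)
    (fun E hE E' hE' h0 => ⟨mem_ApS_of_le hE.1 hE' h0, hE'.trans hE.2⟩)
    (fun F' hF' B hB => by
      have hBX : B ≤ X := hB.2.trans (inf_le_left.trans hCX)
      rcases hF' with h0 | hF'
      · rw [h0, bot_sup_eq]
        exact ⟨hB.1, hBX⟩
      · refine ⟨sup_mem_ApS hF'.1 hB.1 fun x hx y hy => ?_, sup_le hF'.2 hBX⟩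
        exact (mem_centralizer_iff.1 (mem_inf.1 (hB.2 hy)).2) x hx)
    (hFB.imp id fun h => ⟨h, hFX⟩) hFC
    (fun T hT hFT hTC hna =>
      hF.not_gt (y := T) ⟨Or.inr hT.1, hT.2, hAF.trans hFT.le, hTC, hna⟩ hFT)
    hT (fun E hE => ⟨hE.1, hE.2.trans hHX⟩)
    (fun E hE E' hE' => ⟨sup_mem_ApS hE.1 hE'.1 fun x hx y hy => hcomm x (hE.2 hx) y (hE'.2 hy),
      sup_le (hE.2.trans hHX) (hE'.2.trans (inf_le_left.trans hCX))⟩)
    hNA
  exact ⟨y, Sp_mono (st_mono fun E hE => hE.1) hy, hyb, hyc⟩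

/-- **Local elimination**, with solvable `p'`-subgroups. -/
theorem local_elim [hp : Fact p.Prime] [Finite G] {X C A : Subgroup G} (hCX : C ≤ X)
    (hAX : A ≤ X) (hA : A ∈ ApB p G) (hAC : A ⊓ C = ⊥) (hcen : C ≤ centralizer (A : Set G))
    (hW : ∀ E ∈ ApB p G, E ≤ X → A ≤ E → E ⊓ C = ⊥ →
      NA 𝕜 (Ain p (C ⊓ centralizer (E : Set G))) →
      ∃ W ≤ X, Group.IsSolvable W ∧ ¬ p ∣ Nat.card W ∧
        (∀ x ∈ E, ∀ w ∈ W, x * w * x⁻¹ ∈ W) ∧ (∀ x ∈ E, (∀ w ∈ W, x * w = w * x) → x = 1) ∧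
        ∀ w ∈ W, ∀ y ∈ C ⊓ centralizer (E : Set G), w * y = y * w)
    (h : NA 𝕜 (Ain p C)) : NA 𝕜 (Ain p X) := by
  refine local_top hCX hAX hA hAC hcen (fun F hF hFX hAF hFC hNA => ?_) h
  obtain ⟨W, hWX, hs, hW', hn, hf, hc⟩ := hW F hF hFX hAF hFC hNA
  obtain ⟨α, φ, hα⟩ := quillen_cycle (𝕜 := 𝕜) hF hs hW' hn hf
  refine ⟨W ⊔ F, α, φ, hα, sup_le hWX hFX, fun x hx y hy => ?_⟩
  have h1 : W ⊔ F ≤ centralizer {y} := by
    refine sup_le (fun a ha => ?_) fun a ha => ?_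
    · rw [mem_centralizer_singleton_iff]
      exact hc a ha y hy
    · rw [mem_centralizer_singleton_iff]
      exact (mem_centralizer_iff.1 (mem_inf.1 hy).2) a ha
  exact mem_centralizer_singleton_iff.1 (h1 hx)

end

end Vale.Agent.P240.R2.H487
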