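import Vale.Agent.P240.R2.H487.Quo

/-!
Families whose members are grouped into classes, each class with its own prime.
-/

namespace Vale.Agent.P240.R2.H487

set_option linter.unusedSectionVars false

open Subgroup Vale.Agent.P240.K Vale.Agent.P240.H195

universe u v w

theorem goodFactor_tr {𝕜 : Type*} [Field 𝕜] {p l : ℕ} {L : Type u} {L' : Type v} [Group L]
    [Group L'] [Finite L] (e : L ≃* L') (h : GoodFactor 𝕜 p l L) : GoodFactor 𝕜 p l L' := by
  have hc : Nat.card L = Nat.card L' := Nat.card_congr e.toEquiv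
  rcases h with ⟨n, h5, ⟨f⟩⟩ | h | ⟨h, hd⟩ | ⟨r, hr, h, h1⟩ | ⟨h1, h, hd⟩
  · exact Or.inl ⟨n, h5, ⟨e.symm.trans f⟩⟩
  · exact Or.inr (Or.inl (h.tr e))
  · exact Or.inr (Or.inr (Or.inl ⟨h.congr e, hc ▸ hd⟩))
  · refine Or.inr (Or.inr (Or.inr (Or.inl ⟨r, hr, h.congr e, ?_⟩)))
    rcases h1 with h1 | h1 | h1 | h1
    · exact Or.inl h1
    · exact Or.inr (Or.inl h1)
    · exact Or.inr (Or.inr (Or.inl (h1.congr e)))
    · exact Or.inr (Or.inr (Or.inr (hc ▸ h1)))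
  · exact Or.inr (Or.inr (Or.inr (Or.inr ⟨h1, h.congr e, hc ▸ hd⟩)))

section
variable {G : Type u} [Group G] {p : ℕ} {C : Set (Subgroup G)}

/-- the centralizer of the members `L` with `l L ≠ q` -/
def Nq (C : Set (Subgroup G)) (l : Subgroup G → ℕ) (q : ℕ) : Subgroup G :=
  Cen {L | L ∈ C ∧ l L ≠ q}

lemma Cen_normal {D : Set (Subgroup G)} (hD : ∀ L ∈ D, ∀ g : G, cj g L ∈ D) : (Cen D).Normal := by
  refine ⟨fun x hx g => ?_⟩
  rw [mem_Cen] at hx ⊢
  intro L hL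
  rw [Subgroup.mem_centralizer_iff]
  intro y hy
  have h1 : g⁻¹ * y * g ∈ cj g⁻¹ L := by
    rw [mem_cj]
    have : g⁻¹⁻¹ * (g⁻¹ * y * g) * g⁻¹ = y := by group
    rwa [this]
  have h2 := Subgroup.mem_centralizer_iff.1 (hx (cj g⁻¹ L) (hD L hL g⁻¹)) _ h1
  calc y * (g * x * g⁻¹) = g * (g⁻¹ * y * g * x) * g⁻¹ := by group
    _ = g * (x * (g⁻¹ * y * g)) * g⁻¹ := by rw [h2]
    _ = g * x * g⁻¹ * y := by group

section
variable {l : Subgroup G → ℕ} (hF : Family p C)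
  (hR : ∀ t : G, (∀ L ∈ C, t ∈ centralizer (L : Set G)) → t = 1)
  (hlc : ∀ L ∈ C, ∀ g : G, l (cj g L) = l L)

include hF hlc in
lemma Nq_normal (q : ℕ) : (Nq C l q).Normal :=
  Cen_normal fun L hL g => ⟨hF.conj L hL.1 g, by
    rw [hlc L hL.1 g]
    exact hL.2⟩

include hF in
lemma le_Nq {L : Subgroup G} (hL : L ∈ C) : L ≤ Nq C l (l L) := by
  intro x hx
  rw [Nq, mem_Cen]
  rintro M ⟨hM, hMq⟩
  rw [Subgroup.mem_centralizer_iff]
  exact fun y hy => hF.comm M hM L hL (fun h => hMq (by rw [h])) y hy x hx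

lemma mul_comm_of {x y : G} (h : x * y * x⁻¹ * y⁻¹ = 1) : x * y = y * x := by
  calc x * y = x * y * x⁻¹ * y⁻¹ * (y * x) := by group
    _ = y * x := by rw [h, one_mul]

include hF hR hlc in
lemma Nq_comm {q q' : ℕ} (hqq : q ≠ q') {x y : G} (hx : x ∈ Nq C l q) (hy : y ∈ Nq C l q') :
    x * y = y * x := by
  have h1 := Nq_normal hF hlc q
  have h2 := Nq_normal hF hlc q'
  apply mul_comm_of
  refine hR _ fun L hL => ?_
  have h3 : x * y * x⁻¹ * y⁻¹ ∈ Nq C l q := by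
    have : x * y * x⁻¹ * y⁻¹ = x * (y * x⁻¹ * y⁻¹) := by group
    rw [this]
    exact Subgroup.mul_mem _ hx (h1.conj_mem _ (Subgroup.inv_mem _ hx) y)
  have h4 : x * y * x⁻¹ * y⁻¹ ∈ Nq C l q' :=
    Subgroup.mul_mem _ (h2.conj_mem _ hy x) (Subgroup.inv_mem _ hy)
  rw [Nq, mem_Cen] at h3 h4
  by_cases h : l L = q
  · exact h4 L ⟨hL, by rw [h]; exact hqq⟩
  · exact h3 L ⟨hL, h⟩

/-- the family of the subgroups `N_q` -/
def NF (C : Set (Subgroup G)) (l : Subgroup G → ℕ) : Set (Subgroup G) :=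
  {N | ∃ L ∈ C, N = Nq C l (l L)}

include hF hR hlc in
lemma NF_family : Family p (NF C l) where
  conj := by
    rintro _ ⟨L, hL, rfl⟩ g
    refine ⟨L, hL, ?_⟩
    have := Nq_normal hF hlc (l L)
    exact cj_eq_iff.2 (by rw [Subgroup.normalizer_eq_top]; exact Subgroup.mem_top g)
  comm := by
    rintro _ ⟨L, hL, rfl⟩ _ ⟨M, hM, rfl⟩ hLM x hx y hy
    exact Nq_comm hF hR hlc (fun h => hLM (by rw [h])) hx hy
  centre := by
    rintro _ ⟨L, hL, rfl⟩
    rw [eq_bot_iff]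
    intro x hx
    obtain ⟨h1, h2⟩ := Subgroup.mem_inf.1 hx
    rw [Subgroup.mem_bot]
    refine hR x fun M hM => ?_
    by_cases h : l M = l L
    · have h3 : M ≤ Nq C l (l L) := h ▸ le_Nq hF hM
      exact Subgroup.centralizer_le h3 h2
    · rw [Nq, mem_Cen] at h1
      exact h1 M ⟨hM, h⟩
  dvd := by
    rintro _ ⟨L, hL, rfl⟩
    exact (hF.dvd L hL).trans (Subgroup.card_dvd_of_le (le_Nq hF hL))

include hF hR hlc in
lemma Nq_cent {q : ℕ} (g : G) : g ∈ centralizer (Nq C l q : Set G) ↔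
    ∀ L ∈ {L | L ∈ C ∧ l L = q}, g ∈ centralizer (L : Set G) := by
  constructor
  · rintro h L ⟨hL, rfl⟩
    exact Subgroup.centralizer_le (le_Nq hF hL) h
  · intro h
    have h1 := Nq_normal hF hlc q
    have h2 : (Cen {L | L ∈ C ∧ l L = q}).Normal :=
      Cen_normal fun L hL g => ⟨hF.conj L hL.1 g, by
        rw [hlc L hL.1 g]
        exact hL.2⟩
    have hg : g ∈ Cen {L | L ∈ C ∧ l L = q} := mem_Cen.2 h
    rw [Subgroup.mem_centralizer_iff]
    intro n hn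
    refine (mul_comm_of ?_).symm
    refine hR _ fun L hL => ?_
    by_cases hq : l L = q
    · have h3 : g * n * g⁻¹ * n⁻¹ ∈ Cen {L | L ∈ C ∧ l L = q} := by
        have : g * n * g⁻¹ * n⁻¹ = g * (n * g⁻¹ * n⁻¹) := by group
        rw [this]
        exact Subgroup.mul_mem _ hg (h2.conj_mem _ (Subgroup.inv_mem _ hg) n)
      exact mem_Cen.1 h3 L ⟨hL, hq⟩
    · have h3 : g * n * g⁻¹ * n⁻¹ ∈ Nq C l q :=
        Subgroup.mul_mem _ (h1.conj_mem _ hn g) (Subgroup.inv_mem _ hn)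
      exact mem_Cen.1 h3 L ⟨hL, hq⟩

end

/-- the homomorphism to the automorphism group of a normal subgroup -/
def toAut (N : Subgroup G) [hN : N.Normal] : G →* N.normalizerMonoidHom.range :=
  N.normalizerMonoidHom.rangeRestrict.comp
    ((MonoidHom.id G).codRestrict (normalizer (N : Set G)) fun g => by
      rw [Subgroup.normalizer_eq_top]
      exact Subgroup.mem_top _)

lemma toAut_surjective (N : Subgroup G) [hN : N.Normal] : Function.Surjective (toAut N) := by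
  rintro ⟨_, ⟨g, rfl⟩⟩
  exact ⟨g.1, rfl⟩

lemma toAut_eq_one_iff (N : Subgroup G) [hN : N.Normal] (g : G) :
    toAut N g = 1 ↔ g ∈ centralizer (N : Set G) := by
  have h1 : toAut N g = 1 ↔ N.normalizerMonoidHom ⟨g, by
      rw [Subgroup.normalizer_eq_top]
      exact Subgroup.mem_top _⟩ = 1 := by
    rw [Subtype.ext_iff]
    rfl
  rw [h1, ← MonoidHom.mem_ker, normalizerMonoidHom_ker, Subgroup.mem_subgroupOf]

/-- **Partition theorem.** -/
theorem HQ_partition [hp : Fact p.Prime] {𝕜 : Type v} [Field 𝕜] [Finite G]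
    (hchar : (p : 𝕜) = 0) (hF : Family p C) (hs : ∀ L ∈ C, IsSimpleGroup L)
    (hR : ∀ t : G, (∀ L ∈ C, t ∈ centralizer (L : Set G)) → t = 1) (l : Subgroup G → ℕ)
    (hlc : ∀ L ∈ C, ∀ g : G, l (cj g L) = l L) (hl : ∀ L ∈ C, (l L).Prime)
    (hg : ∀ L ∈ C, GoodFactor 𝕜 p (l L) L) {T : Subgroup G} (hTn : T.Normal)
    (hidx : ¬ p ∣ T.index) (hT : ∀ L ∈ C, Nq C l (l L) ≤ T)
    (hpow : ∀ t ∈ T, ∃ k : ℕ, t ^ p ^ k ∈ Gen (NF C l)) : HQ 𝕜 p G := by
  refine HQ_closed hchar (NF_family hF hR hlc) hTn hidx ?_ hpow ?_ ?_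
  · refine iSup₂_le ?_
    rintro _ ⟨L, hL, rfl⟩
    exact hT L hL
  · intro t ht
    refine hR t fun L hL => ?_
    exact Subgroup.centralizer_le (le_Nq hF hL) (ht _ ⟨L, hL, rfl⟩)
  · rintro _ ⟨L, hL, rfl⟩
    have hN := Nq_normal hF hlc (l L)
    have hD : Family p {M | M ∈ C ∧ l M = l L} :=
      { conj := fun M hM g => ⟨hF.conj M hM.1 g, by
          change l (cj g M) = l L
          rw [hlc M hM.1 g]
          exact hM.2⟩
        comm := fun M hM M' hM' => hF.comm M hM.1 M' hM'.1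
        centre := fun M hM => hF.centre M hM.1
        dvd := fun M hM => hF.dvd M hM.1 }
    refine HQ_img (hl L hL) hD (fun M hM => hs M hM.1) (toAut_surjective (Nq C l (l L))) ?_ ?_
    · intro g
      rw [toAut_eq_one_iff, Nq_cent hF hR hlc]
    · rintro M ⟨hM, hML⟩ M' ⟨e⟩
      refine (goodFactor_tr e (hML ▸ hg M hM)).treated ?_
      rw [← Nat.card_congr e.toEquiv]
      exact hF.dvd M hM

end

end Vale.Agent.P240.R2.H487
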