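import Vale.Agent.P240.R2.H487.LE1
import Vale.Agent.P240.R2.H487.LDefs
import Vale.Agent.P240.R2.H487.Part

/-!
Elimination of families of commuting subgroups satisfying `LocSub`.
-/

namespace Vale.Agent.P240.R2.H487

open Finsupp Subgroup Vale.Agent.P240.K Vale.Agent.P240.H195

universe u v

section
variable {G : Type u} [Group G]

lemma mem_sup_comm {A B : Subgroup G} (h : ∀ a ∈ A, ∀ b ∈ B, a * b = b * a) {x : G}
    (hx : x ∈ A ⊔ B) : ∃ a ∈ A, ∃ b ∈ B, a * b = x := by
  have hc : ∀ (a : A) (b : B), Commute (A.subtype a) (B.subtype b) := fun a b => h a a.2 b b.2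
  have h1 : (MonoidHom.noncommCoprod A.subtype B.subtype hc).range = A ⊔ B := by
    rw [MonoidHom.noncommCoprod_range, Subgroup.range_subtype, Subgroup.range_subtype]
  rw [← h1] at hx
  obtain ⟨⟨a, b⟩, rfl⟩ := hx
  exact ⟨a, a.2, b, b.2, rfl⟩

/-- induction for the product of commuting subgroups -/
lemma fam_induction [Finite G] {D : Set (Subgroup G)} {P : Subgroup G → Prop} (h0 : P ⊥)
    (hs : ∀ A B : Subgroup G, (∀ a ∈ A, ∀ b ∈ B, a * b = b * a) → P A → P B → P (A ⊔ B))
    (hcomm : ∀ L ∈ D, ∀ M ∈ D, L ≠ M → ∀ x ∈ L, ∀ y ∈ M, x * y = y * x)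
    {f : Subgroup G → Subgroup G} (hf : ∀ L ∈ D, f L ≤ L ∧ P (f L)) : P (⨆ L ∈ D, f L) := by
  have key : ∀ s : Set (Subgroup G), s.Finite → s ⊆ D → P (⨆ L ∈ s, f L) := by
    intro s hs'
    induction s, hs' using Set.Finite.induction_on with
    | empty =>
      intro _
      simpa using h0
    | @insert a s ha _ ih =>
      intro hsD
      rw [iSup_insert]
      refine hs _ _ (fun x hx y hy => ?_) (hf a (hsD (Set.mem_insert a s))).2
        (ih fun L hL => hsD (Set.mem_insert_of_mem a hL))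
      have h1 : ⨆ L ∈ s, f L ≤ centralizer {x} := by
        refine iSup₂_le fun L hL z hz => ?_
        rw [mem_centralizer_singleton_iff]
        refine hcomm L (hsD (Set.mem_insert_of_mem a hL)) a (hsD (Set.mem_insert a s))
          (fun h => ha (h ▸ hL)) z ((hf L (hsD (Set.mem_insert_of_mem a hL))).1 hz) x
          ((hf a (hsD (Set.mem_insert a s))).1 hx)
      exact (mem_centralizer_singleton_iff.1 (h1 hy)).symm
  exact key D (Set.toFinite D) subset_rfl

/-- the product of commuting centreless subgroups has trivial centre -/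
lemma fam_centre [Finite G] {D : Set (Subgroup G)}
    (hcomm : ∀ L ∈ D, ∀ M ∈ D, L ≠ M → ∀ x ∈ L, ∀ y ∈ M, x * y = y * x)
    (hc : ∀ L ∈ D, L ⊓ centralizer (L : Set G) = ⊥) {x : G} (hx : x ∈ ⨆ L ∈ D, L)
    (hxc : ∀ L ∈ D, x ∈ centralizer (L : Set G)) : x = 1 := by
  have key : ∀ s : Set (Subgroup G), s.Finite → s ⊆ D → ∀ x ∈ ⨆ L ∈ s, L,
      (∀ L ∈ s, x ∈ centralizer (L : Set G)) → x = 1 := by
    intro s hs'
    induction s, hs' using Set.Finite.induction_on with
    | empty =>
      intro _ x hx _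
      have h : (⨆ L ∈ (∅ : Set (Subgroup G)), L) = (⊥ : Subgroup G) := by simp
      rw [h] at hx
      exact mem_bot.1 hx
    | @insert a s ha _ ih =>
      intro hsD x hx hxc
      rw [iSup_insert] at hx
      have hcm : ∀ y ∈ ⨆ L ∈ s, L, ∀ z ∈ a, y * z = z * y := by
        intro y hy z hz
        have h1 : ⨆ L ∈ s, L ≤ centralizer {z} := by
          refine iSup₂_le fun L hL w hw => ?_
          rw [mem_centralizer_singleton_iff]
          exact hcomm L (hsD (Set.mem_insert_of_mem a hL)) a (hsD (Set.mem_insert a s))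
            (fun h => ha (h ▸ hL)) w hw z hz
        exact mem_centralizer_singleton_iff.1 (h1 hy)
      obtain ⟨y, hy, z, hz, rfl⟩ := mem_sup_comm (fun y hy z hz => (hcm z hz y hy).symm) hx
      have hy1 : y = 1 := by
        have h2 : y ∈ a ⊓ centralizer (a : Set G) := by
          refine mem_inf.2 ⟨hy, mem_centralizer_iff.2 fun w hw => ?_⟩
          have h3 := (mem_centralizer_iff.1 (hxc a (Set.mem_insert a s))) w hw
          have h4 := hcm z hz w hw
          have h5 : w * y * z = y * w * z := by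
            rw [mul_assoc, h3, mul_assoc, h4, mul_assoc]
          exact mul_right_cancel h5
        rw [hc a (hsD (Set.mem_insert a s))] at h2
        exact mem_bot.1 h2
      subst hy1
      rw [one_mul] at hxc ⊢
      exact ih (fun L hL => hsD (Set.mem_insert_of_mem a hL)) z hz
        fun L hL => hxc L (Set.mem_insert_of_mem a hL)
  exact key D (Set.toFinite D) subset_rfl x hx hxc

end

section
variable {𝕜 : Type v} [Field 𝕜] {G : Type u} [Group G] {p : ℕ}

/-- **Elimination** of a set `D` of commuting subgroups of `X` satisfying `LocSub`. -/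
theorem loc_step [hp : Fact p.Prime] [Finite G] {X : Subgroup G} {D : Set (Subgroup G)}
    (hDX : ∀ L ∈ D, L ≤ X) (hconj : ∀ g ∈ X, ∀ L ∈ D, cj g L ∈ D)
    (hcomm : ∀ L ∈ D, ∀ M ∈ D, L ≠ M → ∀ x ∈ L, ∀ y ∈ M, x * y = y * x)
    (hc : ∀ L ∈ D, L ⊓ centralizer (L : Set G) = ⊥) (hloc : ∀ L ∈ D, LocSub p L)
    (hC : NA 𝕜 (Ain p (X ⊓ Cen D))) : NA 𝕜 (Ain p X) := by
  choose! A hAL hAE hAW using hloc
  have hAD : ⨆ L ∈ D, A L ≤ ⨆ L ∈ D, L := iSup₂_mono fun L hL => hAL L hL
  have hDX' : ⨆ L ∈ D, L ≤ X := iSup₂_le hDX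
  have hcen : ∀ x ∈ ⨆ L ∈ D, L, ∀ y ∈ Cen D, x * y = y * x := by
    intro x hx y hy
    have h1 : ⨆ L ∈ D, L ≤ centralizer {y} := by
      refine iSup₂_le fun L hL z hz => ?_
      rw [mem_centralizer_singleton_iff]
      exact (mem_centralizer_iff.1 (mem_Cen.1 hy L hL)) z hz
    exact mem_centralizer_singleton_iff.1 (h1 hx)
  have hApB : (⨆ L ∈ D, A L) ∈ ApB p G := by
    refine fam_induction (P := fun B => B ∈ ApB p G) (Or.inl rfl) ?_ hcomm
      (fun L hL => ⟨hAL L hL, Or.inr (hAE L hL)⟩)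
    intro B B' h hB hB'
    rcases hB with hB | hB
    · rwa [hB, bot_sup_eq]
    · rcases hB' with hB' | hB'
      · rw [hB', sup_bot_eq]
        exact Or.inr hB
      · exact Or.inr (sup_mem_ApS hB hB' h)
  refine local_elim (C := X ⊓ Cen D) (A := ⨆ L ∈ D, A L) inf_le_left (hAD.trans hDX') hApB ?_ ?_
    (fun E hE hEX hAE' hEC _ => ?_) hC
  · rw [eq_bot_iff]
    intro x hx
    obtain ⟨h1, h2⟩ := mem_inf.1 hx
    exact mem_bot.2 (fam_centre hcomm hc (hAD h1) fun L hL => mem_Cen.1 (mem_inf.1 h2).2 L hL)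
  · intro y hy
    rw [mem_centralizer_iff]
    exact fun x hx => hcen x (hAD hx) y (mem_inf.1 hy).2
  · -- `E` normalizes the members of `D`
    have hEn : ∀ L ∈ D, E ≤ normalizer (L : Set G) := by
      intro L hL x hx
      rw [← cj_eq_iff]
      by_contra hne
      have h1 := hconj x (hEX hx) L hL
      have hALE : A L ≤ E := (le_biSup A hL).trans hAE'
      have hEab : ∀ a ∈ E, ∀ b ∈ E, a * b = b * a := by
        rcases hE with h | h
        · intro a ha b hb
          rw [h, mem_bot] at ha hb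
          rw [ha, hb]
        · exact h.2.1
      apply (hAE L hL).1
      rw [eq_bot_iff, ← hc L hL]
      intro a ha
      refine mem_inf.2 ⟨hAL L hL ha, mem_centralizer_iff.2 fun y hy => ?_⟩
      have h2 : a ∈ cj x L := by
        rw [mem_cj]
        have : x⁻¹ * a * x = a := by
          rw [mul_assoc, hEab a (hALE ha) x hx, inv_mul_cancel_left]
        rw [this]
        exact hAL L hL ha
      exact hcomm L hL _ h1 (Ne.symm hne) y hy a h2
    by_cases hE0 : E = ⊥
    · refine ⟨⊥, bot_le, inferInstance, ?_, ?_, ?_, ?_⟩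
      · rw [Subgroup.card_bot]
        exact fun h => hp.out.one_lt.ne' (Nat.dvd_one.1 h)
      · intro x _ w hw
        rw [mem_bot] at hw ⊢
        rw [hw]
        group
      · intro x hx _
        rw [hE0, mem_bot] at hx
        exact hx
      · intro w hw y _
        rw [mem_bot] at hw
        rw [hw, one_mul, mul_one]
    have hES : ElemAb p E := hE.resolve_left hE0
    have hW := fun L hL => hAW L hL E (hEn L hL) hES ((le_biSup A hL).trans hAE')
    choose! W hWL hWs hWp hWn hWf using hW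
    have hWD : ⨆ L ∈ D, W L ≤ ⨆ L ∈ D, L := iSup₂_mono fun L hL => hWL L hL
    have hP : Group.IsSolvable (⨆ L ∈ D, W L : Subgroup G) ∧
        ¬ p ∣ Nat.card (⨆ L ∈ D, W L : Subgroup G) := by
      refine fam_induction (P := fun B => Group.IsSolvable B ∧ ¬ p ∣ Nat.card B)
        ⟨inferInstance, ?_⟩ ?_ hcomm (fun L hL => ⟨hWL L hL, hWs L hL, hWp L hL⟩)
      · rw [Subgroup.card_bot]
        exact fun h => hp.out.one_lt.ne' (Nat.dvd_one.1 h)
      · rintro B B' h ⟨h1, h2⟩ ⟨h3, h4⟩
        obtain ⟨f, hf⟩ := range_sup_of_comm h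
        rw [← hf]
        refine ⟨Group.isSolvable_of_surjective f.rangeRestrict_surjective, fun hd => ?_⟩
        have h5 := hd.trans (Subgroup.card_dvd_of_surjective f.rangeRestrict
          f.rangeRestrict_surjective)
        rw [Nat.card_prod] at h5
        exact (hp.out.dvd_mul.1 h5).elim h2 h4
    refine ⟨⨆ L ∈ D, W L, hWD.trans hDX', hP.1, hP.2, ?_, ?_, ?_⟩
    · intro x hx
      have h1 : ⨆ L ∈ D, W L ≤ (⨆ L ∈ D, W L : Subgroup G).comap (MulAut.conj x).toMonoidHom := by
        refine iSup₂_le fun L hL w hw => ?_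
        exact (le_biSup W hL : W L ≤ _) (hWn L hL x hx w hw)
      exact fun w hw => h1 hw
    · intro x hx hxW
      have h1 : x ∈ E ⊓ (X ⊓ Cen D) := by
        refine mem_inf.2 ⟨hx, mem_inf.2 ⟨hEX hx, mem_Cen.2 fun L hL => ?_⟩⟩
        exact hWf L hL x hx fun w hw => hxW w ((le_biSup W hL : W L ≤ _) hw)
      rw [hEC] at h1
      exact mem_bot.1 h1
    · intro w hw y hy
      exact hcen w (hWD hw) y (mem_inf.1 (mem_inf.1 hy).1).2

end

end Vale.Agent.P240.R2.H487
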