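import Vale.Agent.P240.H195.SN7
import Vale.Agent.P240.R2.H487.LP3

/-!
Diagonal elements with a largest eigenspace, for `p = 2`.
-/

namespace Vale.Agent.P240.R2.H487

open Matrix Vale.Agent.P240.K Vale.Agent.P240.H195

section
variable {F : Type*} [Field F] {m : ℕ}

/-- the diagonal elements -/
def dS (d : Fin (m + 1) → F) (h : ∏ i, d i = 1) : SLm m F :=
  ⟨Matrix.diagonal d, by rw [Matrix.det_diagonal, h]⟩

lemma dS_val (d : Fin (m + 1) → F) (h : ∏ i, d i = 1) : (dS d h).1 = Matrix.diagonal d := rfl

lemma mem_Eg_dS {d : Fin (m + 1) → F} {h : ∏ i, d i = 1} {c : F} {v : Fin (m + 1) → F} :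
    v ∈ Eg (dS d h) c ↔ ∀ i, d i ≠ c → v i = 0 := by
  rw [mem_Eg, dS_val]
  constructor
  · intro h1 i hi
    have h2 := congrFun h1 i
    rw [Matrix.mulVec_diagonal, Pi.smul_apply, smul_eq_mul] at h2
    have h3 : (d i - c) * v i = 0 := by rw [sub_mul, h2, sub_self]
    rcases mul_eq_zero.1 h3 with h4 | h4
    · exact absurd (sub_eq_zero.1 h4) hi
    · exact h4
  · intro h1
    ext i
    rw [Matrix.mulVec_diagonal, Pi.smul_apply, smul_eq_mul]
    by_cases hi : d i = c
    · rw [hi]
    · rw [h1 i hi, mul_zero, mul_zero]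

open Classical in
lemma card_Eg [Finite F] (d : Fin (m + 1) → F) (h : ∏ i, d i = 1) (c : F) :
    Nat.card (Eg (dS d h) c) = Nat.card F ^ (Finset.univ.filter fun i => d i = c).card := by
  have e : Eg (dS d h) c ≃ ({i // d i = c} → F) :=
    { toFun := fun v i => v.1 i.1
      invFun := fun w => ⟨fun i => if hi : d i = c then w ⟨i, hi⟩ else 0, by
        rw [mem_Eg_dS]
        intro i hi
        rw [dif_neg hi]⟩
      left_inv := by
        rintro ⟨v, hv⟩
        apply Subtype.ext
        ext i
        change (if hi : d i = c then v i else 0) = v i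
        by_cases hi : d i = c
        · rw [dif_pos hi]
        · rw [dif_neg hi, mem_Eg_dS.1 hv i hi]
      right_inv := by
        intro w
        ext i
        change (if hi : d i.1 = c then w ⟨i.1, hi⟩ else 0) = w i
        rw [dif_pos i.2] }
  rw [Nat.card_congr e, Nat.card_fun]
  congr 1
  rw [Nat.card_eq_fintype_card, Fintype.card_subtype]

/-- powers of diagonal elements that are scalars -/
lemma pr_dS_pow {d : Fin (m + 1) → F} {h : ∏ i, d i = 1} {p : ℕ} {c : F} (hc : ∀ i, d i ^ p = c) :
    pr m F (dS d h) ^ p = 1 := by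
  rw [← map_pow]
  refine (QuotientGroup.eq_one_iff _).2 ?_
  rw [Subgroup.mem_center_iff]
  intro g
  apply Subtype.ext
  change g.1 * (dS d h ^ p).1 = (dS d h ^ p).1 * g.1
  have h1 : (dS d h ^ p).1 = algebraMap F (Matrix (Fin (m + 1)) (Fin (m + 1)) F) c := by
    rw [val_pow, dS_val, Matrix.diagonal_pow, Matrix.algebraMap_eq_diagonal]
    congr 1
    ext i
    rw [Pi.pow_apply, hc]
    rfl
  rw [h1, Algebra.commutes]

lemma pr_dS_ne {d : Fin (m + 1) → F} {h : ∏ i, d i = 1} {i j : Fin (m + 1)} (hij : d i ≠ d j) :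
    pr m F (dS d h) ≠ 1 := by
  intro h1
  obtain ⟨c, -, h2⟩ := center_val (mem_center_pr h1)
  rw [dS_val, Matrix.algebraMap_eq_diagonal] at h2
  have h3 := Matrix.diagonal_injective h2
  exact hij (by rw [h3]; rfl)

open Classical in
/-- a criterion -/
theorem exists_of_diag [Finite F] {p : ℕ} {d : Fin (m + 1) → F} (h : ∏ i, d i = 1) {c b : F}
    (hc : ∀ i, d i ^ p = c) {i j : Fin (m + 1)} (hij : d i ≠ d j)
    (hb : ∀ c, c ≠ b → (Finset.univ.filter fun i => d i = c).card <
      (Finset.univ.filter fun i => d i = b).card) :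
    ∃ (t : SLm m F) (b : F), pr m F t ^ p = 1 ∧ pr m F t ≠ 1 ∧ Eg t b ≠ ⊥ ∧
      ∀ c, c ≠ b → Nat.card (Eg t c) < Nat.card (Eg t b) := by
  have h1 : ∀ c, c ≠ b → Nat.card (Eg (dS d h) c) < Nat.card (Eg (dS d h) b) := by
    intro c hcb
    rw [card_Eg, card_Eg]
    exact Nat.pow_lt_pow_right Finite.one_lt_card (hb c hcb)
  refine ⟨dS d h, b, pr_dS_pow hc, pr_dS_ne hij, ?_, h1⟩
  intro h2
  obtain ⟨c', hc'⟩ := exists_ne b
  have h3 := h1 c' hc'
  rw [h2] at h3
  have h4 : Nat.card (⊥ : Submodule F (Fin (m + 1) → F)) = 1 := Nat.card_unique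
  rw [h4] at h3
  have h5 : 0 < Nat.card (Eg (dS d h) c') := Nat.card_pos
  omega

open Classical in
/-- elements of order `2` with a largest eigenspace -/
theorem exists_two [Finite F] (hm : 2 ≤ m) (h2 : (2 : F) ≠ 0)
    (h8 : m = 3 → ∃ μ : F, μ ^ 4 = -1) :
    ∃ (t : SLm m F) (b : F), pr m F t ^ 2 = 1 ∧ pr m F t ≠ 1 ∧ Eg t b ≠ ⊥ ∧
      ∀ c, c ≠ b → Nat.card (Eg t c) < Nat.card (Eg t b) := by
  have hne : (-1 : F) ≠ 1 := by
    intro h
    apply h2
    have : (1 : F) + 1 = 0 := by
      nth_rewrite 1 [← h]
      rw [neg_add_cancel]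
    rw [← one_add_one_eq_two, this]
  by_cases hm3 : m = 3
  · subst hm3
    obtain ⟨μ, hμ⟩ := h8 rfl
    have hμ0 : μ ≠ 0 := by
      rintro rfl
      rw [zero_pow (by norm_num)] at hμ
      have : (1 : F) = 0 := by
        have h3 := congrArg Neg.neg hμ
        rw [neg_zero, neg_neg] at h3
        exact h3.symm
      exact one_ne_zero this
    have hμn : -μ ≠ μ := by
      intro h
      have h3 : (-1) * μ = 1 * μ := by rw [neg_one_mul, one_mul, h]
      exact hne (mul_right_cancel₀ hμ0 h3)
    have hcard : ∀ c, (Finset.univ.filter fun i : Fin (3 + 1) =>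
        (if i = 0 then -μ else μ) = c).card = (if -μ = c then 1 else 0) + (if μ = c then 3 else 0) := by
      intro c
      rw [Finset.card_filter, Fin.sum_univ_four]
      simp only [Fin.isValue, if_true]
      have e1 : ((1 : Fin (3 + 1)) = 0) = False := by simp
      have e2 : ((2 : Fin (3 + 1)) = 0) = False := by simp
      have e3 : ((3 : Fin (3 + 1)) = 0) = False := by simp
      simp only [e1, e2, e3, if_false]
      split_ifs <;> rfl
    refine exists_of_diag (d := fun i => if i = 0 then -μ else μ) (b := μ) (c := μ ^ 2) (i := 0)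
      (j := 1) ?_ ?_ ?_ ?_
    · rw [Fin.prod_univ_four]
      have e1 : ((1 : Fin (3 + 1)) = 0) = False := by simp
      have e2 : ((2 : Fin (3 + 1)) = 0) = False := by simp
      have e3 : ((3 : Fin (3 + 1)) = 0) = False := by simp
      simp only [e1, e2, e3, if_false, if_true]
      calc -μ * μ * μ * μ = -(μ ^ 4) := by ring
        _ = 1 := by rw [hμ, neg_neg]
    · intro i
      by_cases hi : i = 0
      · rw [if_pos hi, neg_pow, neg_one_sq, one_mul]
      · rw [if_neg hi]
    · have e1 : ((1 : Fin (3 + 1)) = 0) = False := by simp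
      simp only [e1, if_false, if_true]
      exact hμn
    · intro c hc
      rw [hcard, hcard, if_neg hμn, if_pos rfl, if_neg (Ne.symm hc)]
      split_ifs <;> omega
  · have hcard : ∀ c : F, (Finset.univ.filter fun i : Fin (m + 1) =>
        (if i.val < 2 then (-1 : F) else 1) = c).card =
          (if -1 = c then 2 else 0) + (if 1 = c then m - 1 else 0) := by
      intro c
      have hlt : (Finset.univ.filter fun i : Fin (m + 1) => i.val < 2).card = 2 := by
        rw [Fin.card_filter_val_lt]
        omega
      have hge : (Finset.univ.filter fun i : Fin (m + 1) => ¬ i.val < 2).card = m - 1 := by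
        have h3 := Finset.card_filter_add_card_filter_not (s := Finset.univ)
          (fun i : Fin (m + 1) => i.val < 2)
        rw [hlt, Finset.card_univ, Fintype.card_fin] at h3
        omega
      by_cases h1 : -1 = c
      · have h3 : (1 : F) ≠ c := fun h => hne (h1.trans h.symm)
        rw [if_pos h1, if_neg h3, add_zero]
        refine (congrArg Finset.card ?_).trans hlt
        ext i
        simp only [Finset.mem_filter, Finset.mem_univ, true_and]
        by_cases hi : i.val < 2
        · simp [hi, h1]
        · simp [hi, h3]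
      · rw [if_neg h1, zero_add]
        by_cases h3 : (1 : F) = c
        · rw [if_pos h3]
          refine (congrArg Finset.card ?_).trans hge
          ext i
          simp only [Finset.mem_filter, Finset.mem_univ, true_and]
          by_cases hi : i.val < 2
          · simp [hi, h1]
          · simp [hi, h3]
        · rw [if_neg h3]
          rw [Finset.card_eq_zero, Finset.filter_eq_empty_iff]
          intro i _
          split_ifs
          · exact h1
          · exact h3
    have hprod : ∏ i : Fin (m + 1), (if i.val < 2 then (-1 : F) else 1) = 1 := by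
      rw [Finset.prod_ite, Finset.prod_const, Finset.prod_const_one, Fin.card_filter_val_lt]
      have : min (m + 1) 2 = 2 := by omega
      rw [this, neg_one_sq, one_mul]
    have hpow : ∀ i : Fin (m + 1), (if i.val < 2 then (-1 : F) else 1) ^ 2 = 1 := by
      intro i
      split_ifs
      · exact neg_one_sq
      · exact one_pow 2
    have hij : (fun i : Fin (m + 1) => if i.val < 2 then (-1 : F) else 1) ⟨0, by omega⟩ ≠
        (fun i : Fin (m + 1) => if i.val < 2 then (-1 : F) else 1) ⟨2, by omega⟩ := by
      simp only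
      rw [if_pos (by norm_num), if_neg (by norm_num)]
      exact hne
    by_cases hm2 : m = 2
    · refine exists_of_diag (b := -1) hprod hpow hij fun c hc => ?_
      rw [hcard, hcard, if_pos rfl, if_neg (Ne.symm hc), if_neg (Ne.symm hne)]
      split_ifs <;> omega
    · refine exists_of_diag (b := 1) hprod hpow hij fun c hc => ?_
      rw [hcard, hcard, if_pos rfl, if_neg hne, if_neg (Ne.symm hc)]
      split_ifs <;> omega

end

end Vale.Agent.P240.R2.H487
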