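import Vale.Agent.P240.R2.H487.LP4

/-!
Groups `PSL_4(F)` with `-1` not a fourth power: few outer elements of order `2`.
-/

namespace Vale.Agent.P240.R2.H487

open Matrix Subgroup Vale.Agent.P240.K Vale.Agent.P240.H195

section
variable {F : Type*} [Field F] {m : ℕ}

lemma det_ne' (M : GLm m F) : M.1.det ≠ 0 :=
  ((Matrix.isUnit_iff_isUnit_det _).1 M.isUnit).ne_zero

lemma inner_of_det {M : GLm m F} {d : F} (hd : M.1.det = d ^ (m + 1)) :
    ∃ y, sem M 1 = MulAut.conj y := by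
  have hd0 : d ≠ 0 := by
    rintro rfl
    exact det_ne' M (by rw [hd, zero_pow (by omega)])
  have hdet : (d⁻¹ • M.1).det = 1 := by
    rw [Matrix.det_smul, hd, Fintype.card_fin, ← mul_pow, inv_mul_cancel₀ hd0, one_pow]
  obtain ⟨z, hz⟩ : ∃ z : SLm m F, z.1 = d⁻¹ • M.1 := ⟨⟨_, hdet⟩, rfl⟩
  refine ⟨pr m F z, ?_⟩
  rw [conj_eq_sem]
  ext1 y
  obtain ⟨y, rfl⟩ := QuotientGroup.mk'_surjective _ y
  change pr m F (actf M 1 y) = pr m F (actf (tog z) 1 y)
  congr 1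
  apply Subtype.ext
  have hinv : ((tog z)⁻¹).1 = d • (M⁻¹).1 := by
    have h1 : (tog z).1 * (d • (M⁻¹).1) = 1 := by
      change z.1 * (d • (M⁻¹).1) = 1
      rw [hz, Matrix.smul_mul, Matrix.mul_smul, smul_smul, inv_mul_cancel₀ hd0, one_smul,
        ← Units.val_mul, mul_inv_cancel, Units.val_one]
    have h2 : ((tog z)⁻¹).1 * ((tog z).1 * (d • (M⁻¹).1)) = ((tog z)⁻¹).1 := by
      rw [h1, Matrix.mul_one]
    rw [← Matrix.mul_assoc, ← Units.val_mul, inv_mul_cancel, Units.val_one, Matrix.one_mul] at h2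
    exact h2.symm
  rw [actf_val, actf_val, hinv]
  change _ = z.1 * _ * (d • (M⁻¹).1)
  rw [hz, Matrix.smul_mul, Matrix.smul_mul, Matrix.mul_smul, smul_smul, inv_mul_cancel₀ hd0,
    one_smul]

variable [Finite F]

/-- in a finite field in which the square root of the order is an integer, `-1` is a fourth power -/
lemma fourth_of_invol {r : ℕ} [hr : Fact r.Prime] [CharP F r] (hr2 : r ≠ 2) {τ : RingAut F}
    (h1 : τ ≠ 1) (h2 : τ ^ 2 = 1) : ∃ μ : F, μ ^ 4 = -1 := by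
  classical
  have := Fintype.ofFinite F
  obtain ⟨k, hk, hcard, -⟩ := ff_quad (r := r) h1 h2
  obtain ⟨j, hj⟩ : Odd (r ^ k) := (hr.out.odd_of_ne_two hr2).pow
  have h8 : 8 ∣ Nat.card F - 1 := by
    rw [hcard, hj]
    have h3 : 2 ∣ j * (j + 1) := (Nat.even_mul_succ_self j).two_dvd
    obtain ⟨l, hl⟩ := h3
    refine ⟨l, ?_⟩
    have : (2 * j + 1) ^ 2 = 4 * (j * (j + 1)) + 1 := by ring
    rw [this, hl]
    omega
  obtain ⟨l, hl⟩ := h8
  have hcu : Nat.card Fˣ = 8 * l := by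
    rw [Nat.card_units, hl]
  obtain ⟨g, hg⟩ := IsCyclic.exists_ofOrder_eq_natCard (α := Fˣ)
  have hl0 : 0 < l := by
    rcases Nat.eq_zero_or_pos l with h | h
    · rw [h, mul_zero] at hcu
      exact absurd hcu Nat.card_pos.ne'
    · exact h
  have h4 : orderOf (g ^ l) = 8 := by
    rw [orderOf_pow, hg, hcu, Nat.gcd_eq_right (Dvd.intro_left 8 rfl), Nat.mul_div_cancel _ hl0]
  have h5 : ((g ^ l) ^ 4) ^ 2 = 1 := by
    rw [← pow_mul, ← orderOf_dvd_iff_pow_eq_one, h4]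
  have h6 : (g ^ l) ^ 4 ≠ 1 := by
    rw [Ne, ← orderOf_dvd_iff_pow_eq_one, h4]
    norm_num
  refine ⟨((g ^ l : Fˣ) : F), ?_⟩
  have h7 : (((g ^ l : Fˣ) : F) ^ 4) ^ 2 = 1 := by
    rw [← Units.val_pow_eq_pow_val, ← Units.val_pow_eq_pow_val, h5, Units.val_one]
  rw [pow_two] at h7
  rcases mul_self_eq_one_iff.1 h7 with h | h
  · exfalso
    apply h6
    apply Units.ext
    rw [Units.val_pow_eq_pow_val, h, Units.val_one]
  · exact h

/-- the determinant classes of order two -/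
lemma fourth_mul {a b c d : F} (ha : a ^ 2 = c ^ 4) (hb : b ^ 2 = d ^ 4)
    (han : ∀ x : F, a ≠ x ^ 4) (hbn : ∀ x : F, b ≠ x ^ 4) : ∃ w : F, a * b = w ^ 4 := by
  have h1 : a = c ^ 2 ∨ a = -c ^ 2 := sq_eq_sq_iff_eq_or_eq_neg.1 (by rw [ha]; ring)
  have h2 : b = d ^ 2 ∨ b = -d ^ 2 := sq_eq_sq_iff_eq_or_eq_neg.1 (by rw [hb]; ring)
  by_cases hsq : IsSquare (-1 : F)
  · obtain ⟨i, hi⟩ := hsq
    obtain ⟨x, hx⟩ : ∃ x : F, a = x ^ 2 := by
      rcases h1 with h | h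
      · exact ⟨c, h⟩
      · exact ⟨i * c, by rw [h, mul_pow, pow_two i, ← hi]; ring⟩
    obtain ⟨y, hy⟩ : ∃ y : F, b = y ^ 2 := by
      rcases h2 with h | h
      · exact ⟨d, h⟩
      · exact ⟨i * d, by rw [h, mul_pow, pow_two i, ← hi]; ring⟩
    have hxn : ¬ IsSquare x := by
      rintro ⟨z, hz⟩
      exact han z (by rw [hx, hz]; ring)
    have hyn : ¬ IsSquare y := by
      rintro ⟨z, hz⟩
      exact hbn z (by rw [hy, hz]; ring)
    obtain ⟨w, hw⟩ := sq_mul_of_not hxn hyn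
    refine ⟨w, ?_⟩
    rw [hx, hy, ← mul_pow, hw]
    ring
  · have hsq2 : ∀ z : F, ∃ w : F, z ^ 2 = w ^ 4 := by
      intro z
      by_cases hz : IsSquare z
      · obtain ⟨w, hw⟩ := hz
        exact ⟨w, by rw [hw]; ring⟩
      · obtain ⟨w, hw⟩ := sq_mul_of_not hsq hz
        refine ⟨w, ?_⟩
        have : z ^ 2 = (-1 * z) ^ 2 := by ring
        rw [this, hw]
        ring
    have h3 : a = -c ^ 2 := by
      rcases h1 with h | h
      · obtain ⟨w, hw⟩ := hsq2 c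
        exact absurd (h.trans hw) (han w)
      · exact h
    have h4 : b = -d ^ 2 := by
      rcases h2 with h | h
      · obtain ⟨w, hw⟩ := hsq2 d
        exact absurd (h.trans hw) (hbn w)
      · exact h
    obtain ⟨w, hw⟩ := hsq2 (c * d)
    exact ⟨w, by rw [h3, h4, ← hw]; ring⟩

end

section
variable {F : Type*} [Field F] [Finite F] {G : Type*} [Group G]

/-- subgroups `PSL_4(F)` on which no graph automorphisms are induced by elements of order `2`, with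
`-1` not a fourth power in `F` -/
theorem few_four {r : ℕ} [hr : Fact r.Prime] [CharP F r] (hr2 : r ≠ 2)
    (hno : ∀ μ : F, μ ^ 4 ≠ -1) {L : Subgroup G} (e : PL 3 F ≃* L)
    (hlin : ∀ x ∈ normalizer (L : Set G), x ^ 2 ∈ centralizer (L : Set G) →
      ∃ (M : GLm 3 F) (τ : RingAut F), ∀ y : PL 3 F, x * (e y : G) * x⁻¹ = e (sem M τ y)) :
    FewOuter 2 L := by
  -- the linear maps
  have hM : ∀ x, Outer 2 L x → ∃ M : GLm 3 F, (∀ y : PL 3 F, x * (e y : G) * x⁻¹ = e (sem M 1 y)) ∧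
      ∃ c : F, M.1.det ^ 2 = c ^ 4 := by
    intro x hx
    obtain ⟨M, τ, h1⟩ := hlin x hx.1 hx.2.1
    have h2 : sem M τ ^ 2 = 1 := by
      ext1 y
      have e1 : (sem M τ ^ 2) y = sem M τ (sem M τ y) := by rw [pow_two]; rfl
      refine e.injective (Subtype.ext ?_)
      rw [e1, ← h1, ← h1]
      have h3 := hx.2.1
      rw [mem_centralizer_iff] at h3
      have h4 := h3 (e y : G) (e y).2
      have h5 : x * (x * (e y : G) * x⁻¹) * x⁻¹ = x ^ 2 * (e y : G) * (x ^ 2)⁻¹ := by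
        rw [pow_two]; group
      rw [h5, ← h4, mul_inv_cancel_right]
      rfl
    obtain ⟨M', h3, h4⟩ := sem_pow M τ 2
    obtain ⟨h5, a, ha0, ha⟩ := sem_trivial (r := r) (h3.symm.trans h2) (by norm_num)
    have hτ : τ = 1 := by
      by_contra hne
      obtain ⟨μ, hμ⟩ := fourth_of_invol (r := r) hr2 hne h5
      exact hno μ hμ
    subst hτ
    refine ⟨M, h1, a, ?_⟩
    rw [ha, Finset.prod_range_succ, Finset.prod_range_one] at h4
    have h6 : (1 : RingAut F) M.1.det = M.1.det := rfl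
    rw [pow_zero, pow_one, h6, ← pow_two] at h4
    rw [← h4, Matrix.algebraMap_eq_diagonal, Matrix.det_diagonal]
    change ∏ _i : Fin (3 + 1), a = a ^ 4
    rw [Finset.prod_const, Finset.card_univ, Fintype.card_fin]
  have hinner : ∀ x ∈ normalizer (L : Set G), ∀ M : GLm 3 F,
      (∀ y : PL 3 F, x * (e y : G) * x⁻¹ = e (sem M 1 y)) → (∃ w, M.1.det = w ^ 4) →
      x ∈ L ⊔ centralizer (L : Set G) := by
    rintro x hx M h1 ⟨w, hw⟩
    obtain ⟨y, hy⟩ := inner_of_det (m := 3) hw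
    refine mem_sup_of_inner hx (e y) ?_
    ext l
    obtain ⟨z, rfl⟩ := e.surjective l
    change x * (e z : G) * x⁻¹ = (e y : G) * (e z : G) * (e y : G)⁻¹
    rw [h1, hy, MulAut.conj_apply, map_mul, map_mul, map_inv]
    rfl
  refine fewOuter_of_same fun x y hx hy => ?_
  obtain ⟨M, h1, c, hc⟩ := hM x hx
  obtain ⟨N, h2, d, hd⟩ := hM y hy
  obtain ⟨w, hw⟩ := fourth_mul hc hd
    (fun w hw => hx.2.2 (hinner x hx.1 M h1 ⟨w, hw⟩))
    (fun w hw => hy.2.2 (hinner y hy.1 N h2 ⟨w, hw⟩))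
  have h3 : x * y ∈ L ⊔ centralizer (L : Set G) := by
    refine hinner (x * y) (mul_mem hx.1 hy.1) (M * N) (fun z => ?_) ⟨w, ?_⟩
    · have h4 : sem (M * N) 1 = sem M 1 * sem N 1 := by
        rw [sem_mul, gla_one, mul_one]
      rw [h4, MulAut.mul_apply, ← h1, ← h2]
      group
    · rw [Units.val_mul, Matrix.det_mul, hw]
  rw [SameOuter]
  have h4 : y = x⁻¹ * (x * y) := by group
  rw [h4]
  exact mul_mem ((le_sup_left : zpowers x ≤ _) (inv_mem (mem_zpowers x)))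
    ((le_sup_right : L ⊔ centralizer (L : Set G) ≤ _) h3)

end

end Vale.Agent.P240.R2.H487
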