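import Vale.Agent.P240.R2.H487.LP5

/-!
Automorphisms of odd order of `PSL_n(F)` are semilinear; few outer automorphisms of order `p > n`.
-/

namespace Vale.Agent.P240.R2.H487

open Matrix Subgroup Vale.Agent.P240.K Vale.Agent.P240.H195

section
variable {F : Type*} [Field F] {m : ℕ}

/-- the inverse transpose of an invertible matrix -/
def gt (M : GLm m F) : GLm m F := ⟨(M⁻¹).1ᵀ, M.1ᵀ, by
    rw [← Matrix.transpose_mul, mul_inv_val, Matrix.transpose_one], by
    rw [← Matrix.transpose_mul, inv_mul_val, Matrix.transpose_one]⟩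

lemma itf_act (M : GLm m F) (τ : RingAut F) (x : SLm m F) :
    itf (actf M τ (itf x)) = actf (gt M) τ x := by
  apply Subtype.ext
  rw [itf_val]
  have h1 : (actf M τ (itf x))⁻¹ = actf M τ (itf x)⁻¹ := (map_inv (act M τ) (itf x)).symm
  rw [h1, actf_val, actf_val, itf_inv, Matrix.transpose_mul, Matrix.transpose_mul,
    ← Matrix.mul_assoc, Matrix.transpose_map]
  rfl

lemma it_sem (M : GLm m F) (τ : RingAut F) :
    ind (itA m F) * sem M τ * ind (itA m F) = sem (gt M) τ := by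
  rw [← ind_mul, ← ind_mul]
  congr 1
  ext1 x
  exact itf_act M τ x

lemma graph_sq (M : GLm m F) (τ : RingAut F) :
    ∃ (N : GLm m F) (σ : RingAut F), (sem M τ * ind (itA m F)) ^ 2 = sem N σ := by
  refine ⟨_, _, (?_ : _ = sem (M * gla τ (gt M)) (τ * τ))⟩
  rw [← sem_mul, ← it_sem, pow_two]
  group

lemma sem_pow' (M : GLm m F) (τ : RingAut F) (k : ℕ) :
    ∃ N : GLm m F, sem M τ ^ k = sem N (τ ^ k) := by
  obtain ⟨N, h, -⟩ := sem_pow M τ k
  exact ⟨N, h⟩

/-- automorphisms of odd order are semilinear -/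
theorem lin_of_odd [Finite F] {r : ℕ} [hr : Fact r.Prime] [CharP F r] (hm : 2 ≤ m)
    (hsimple : IsSimpleGroup (PL m F)) {p : ℕ} (hp : Odd p) {f : MulAut (PL m F)} (hf : f ^ p = 1) :
    ∃ (M : GLm m F) (τ : RingAut F), f = sem M τ := by
  obtain ⟨M, τ, h | h⟩ := aut_psl (r := r) hm hsimple f
  · exact ⟨M, τ, h⟩
  · obtain ⟨N, σ, h1⟩ := graph_sq M τ
    obtain ⟨k, hk⟩ := hp
    obtain ⟨N', h2⟩ := sem_pow' N σ (k + 1)
    refine ⟨N', σ ^ (k + 1), ?_⟩
    rw [← h2, ← h1, ← h, ← pow_mul]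
    have h3 : 2 * (k + 1) = p + 1 := by omega
    rw [h3, pow_succ, hf, one_mul]

/-- the class of the determinant -/
lemma det_class [Finite F] {r : ℕ} [hr : Fact r.Prime] [CharP F r] (hm : 1 ≤ m) {p : ℕ}
    (hp : p.Prime) (hpm : m + 1 < p) {M : GLm m F} {τ : RingAut F} (h : sem M τ ^ p = 1) :
    τ ^ p = 1 ∧ ∃ w : F, M.1.det = w ^ (m + 1) := by
  classical
  have := Fintype.ofFinite F
  obtain ⟨M', h1, h2⟩ := sem_pow M τ p
  obtain ⟨hτ, a, ha0, ha⟩ := sem_trivial (r := r) (h1.symm.trans h) hm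
  refine ⟨hτ, ?_⟩
  have h3 : M'.1.det = a ^ (m + 1) := by
    rw [ha, Matrix.algebraMap_eq_diagonal, Matrix.det_diagonal]
    change ∏ _i : Fin (m + 1), a = a ^ (m + 1)
    rw [Finset.prod_const, Finset.card_univ, Fintype.card_fin]
  rw [h2] at h3
  -- the group of units
  set d := Nat.gcd (m + 1) (Nat.card Fˣ) with hd
  have hdpos : 0 < d := Nat.gcd_pos_of_pos_left _ (by omega)
  have hdle : d ≤ m + 1 := Nat.gcd_le_left _ (by omega)
  obtain ⟨n, k, hkn, hcard, hτk, -⟩ := ff_aut' (r := r) τ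
  have hpow : ∀ (i : ℕ) (x : F), (τ ^ i) x = x ^ (r ^ k) ^ i := by
    intro i
    induction i with
    | zero => intro x; rw [pow_zero, pow_zero, pow_one]; rfl
    | succ i ih =>
      intro x
      have e1 : (τ ^ (i + 1)) x = (τ ^ i) (τ x) := by rw [pow_succ]; rfl
      rw [e1, ih, hτk, ← pow_mul, ← pow_succ']
  obtain ⟨g, hg⟩ := IsCyclic.exists_ofOrder_eq_natCard (α := Fˣ)
  -- the number `r ^ k` is `1` modulo `d`
  have hmod : (r ^ k : ℕ) ≡ 1 [MOD d] := by
    have hN : Nat.card Fˣ ∣ (r ^ k) ^ p - 1 := by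
      rw [← hg, orderOf_dvd_iff_pow_eq_one]
      have h4 : (g : F) ^ (r ^ k) ^ p = g := by
        rw [← hpow, hτ]
        rfl
      have hpos : 1 ≤ (r ^ k) ^ p := Nat.one_le_pow _ _ (Nat.pow_pos hr.out.pos)
      have h5 : g ^ (r ^ k) ^ p = g := Units.ext (by rw [Units.val_pow_eq_pow_val, h4])
      have h6 : g ^ ((r ^ k) ^ p - 1) * g = 1 * g := by
        rw [← pow_succ, Nat.sub_add_cancel hpos, h5, one_mul]
      exact mul_right_cancel h6
    have hdN : d ∣ (r ^ k) ^ p - 1 := (Nat.gcd_dvd_right _ _).trans hN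
    have hpos : 1 ≤ (r ^ k) ^ p := Nat.one_le_pow _ _ (Nat.pow_pos hr.out.pos)
    have h4 : (r ^ k) ^ p ≡ 1 [MOD d] := ((Nat.modEq_iff_dvd' hpos).2 hdN).symm
    have hcop : Nat.Coprime (r ^ k) d := by
      have h5 : Nat.Coprime ((r ^ k) ^ p) d := by
        rw [Nat.coprime_iff_gcd_eq_one, h4.gcd_eq, Nat.gcd_one_left]
      exact Nat.Coprime.coprime_dvd_left (dvd_pow_self _ hp.ne_zero) h5
    have : NeZero d := ⟨hdpos.ne'⟩
    set u : (ZMod d)ˣ := ZMod.unitOfCoprime (r ^ k) hcop with hu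
    have hup : u ^ p = 1 := by
      apply Units.ext
      rw [Units.val_pow_eq_pow_val, hu, ZMod.coe_unitOfCoprime, Units.val_one, ← Nat.cast_pow]
      have := (ZMod.natCast_eq_natCast_iff _ _ _).2 h4
      rwa [Nat.cast_one] at this
    have hu1 : u = 1 := by
      rw [← orderOf_eq_one_iff]
      rcases (Nat.dvd_prime hp).1 (orderOf_dvd_of_pow_eq_one hup) with h5 | h5
      · exact h5
      · exfalso
        have h6 : orderOf u ≤ Fintype.card (ZMod d)ˣ := orderOf_le_card_univ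
        rw [ZMod.card_units_eq_totient] at h6
        have h7 := Nat.totient_le d
        omega
    have h5 := congrArg Units.val hu1
    rw [hu, ZMod.coe_unitOfCoprime, Units.val_one] at h5
    exact (ZMod.natCast_eq_natCast_iff _ _ _).1 (by rw [h5, Nat.cast_one])
  -- units that are `d`-th powers are `(m + 1)`-th powers
  have hroot : ∀ j : ℕ, d ∣ j → ∃ w : F, (g : F) ^ j = w ^ (m + 1) := by
    intro j hj
    obtain ⟨c, rfl⟩ := hj
    have hb := Nat.gcd_eq_gcd_ab (m + 1) (Nat.card Fˣ)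
    rw [← hd] at hb
    refine ⟨((g ^ ((m + 1).gcdA (Nat.card Fˣ) * c) : Fˣ) : F), ?_⟩
    rw [← Units.val_pow_eq_pow_val, ← Units.val_pow_eq_pow_val]
    congr 1
    rw [← zpow_natCast, ← zpow_natCast, ← zpow_mul]
    have h4 : (((d * c : ℕ)) : ℤ) = (m + 1).gcdA (Nat.card Fˣ) * c * ((m + 1 : ℕ) : ℤ) +
        (Nat.card Fˣ : ℤ) * ((m + 1).gcdB (Nat.card Fˣ) * c) := by
      rw [Nat.cast_mul, hb]
      ring
    rw [h4, zpow_add, zpow_mul g (Nat.card Fˣ : ℤ), zpow_natCast, ← hg, pow_orderOf_eq_one,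
      one_zpow, mul_one]
  -- the determinant
  obtain ⟨j, hj⟩ : ∃ j : ℕ, g ^ j = Units.mk0 _ (det_ne' M) := by
    have h4 : Units.mk0 _ (det_ne' M) ∈ Submonoid.powers g := by
      rw [mem_powers_iff_mem_zpowers]
      have h5 : zpowers g = ⊤ := by
        rw [← Subgroup.card_eq_iff_eq_top, Nat.card_zpowers, hg]
      rw [h5]
      trivial
    exact h4
  have hjF : (g : F) ^ j = M.1.det := by
    rw [← Units.val_pow_eq_pow_val, hj, Units.val_mk0]
  obtain ⟨b, hb⟩ : ∃ b : ℕ, g ^ b = Units.mk0 a ha0 := by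
    have h4 : Units.mk0 a ha0 ∈ Submonoid.powers g := by
      rw [mem_powers_iff_mem_zpowers]
      have h5 : zpowers g = ⊤ := by
        rw [← Subgroup.card_eq_iff_eq_top, Nat.card_zpowers, hg]
      rw [h5]
      trivial
    exact h4
  have hbF : (g : F) ^ b = a := by
    rw [← Units.val_pow_eq_pow_val, hb, Units.val_mk0]
  have hsum : ∏ i ∈ Finset.range p, (τ ^ i) M.1.det =
      (g : F) ^ (j * ∑ i ∈ Finset.range p, (r ^ k) ^ i) := by
    rw [Finset.mul_sum, ← Finset.prod_pow_eq_pow_sum]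
    refine Finset.prod_congr rfl fun i _ => ?_
    rw [hpow, ← hjF, ← pow_mul]
  rw [hsum, ← hbF, ← pow_mul] at h3
  have h4 : g ^ (j * ∑ i ∈ Finset.range p, (r ^ k) ^ i) = g ^ (b * (m + 1)) :=
    Units.ext (by rw [Units.val_pow_eq_pow_val, Units.val_pow_eq_pow_val, h3])
  have h5 : j * ∑ i ∈ Finset.range p, (r ^ k) ^ i ≡ b * (m + 1) [MOD Nat.card Fˣ] := by
    rw [← hg]
    exact (pow_eq_pow_iff_modEq).1 h4
  have h6 : j * ∑ i ∈ Finset.range p, (r ^ k) ^ i ≡ b * (m + 1) [MOD d] :=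
    h5.of_dvd (Nat.gcd_dvd_right _ _)
  have h7 : b * (m + 1) ≡ 0 [MOD d] :=
    (Nat.modEq_zero_iff_dvd).2 (Dvd.dvd.mul_left (Nat.gcd_dvd_left _ _) _)
  have h8 : ∑ i ∈ Finset.range p, (r ^ k) ^ i ≡ p [MOD d] := by
    have h9 : ∀ s : ℕ, ∑ i ∈ Finset.range s, (r ^ k) ^ i ≡ s [MOD d] := by
      intro s
      induction s with
      | zero => exact Nat.ModEq.refl _
      | succ s ih =>
        rw [Finset.sum_range_succ]
        have := hmod.pow s
        rw [one_pow] at this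
        exact ih.add this
    exact h9 p
  have h9 : d ∣ j * p := by
    rw [← Nat.modEq_zero_iff_dvd]
    exact ((h8.mul_left j).symm.trans h6).trans h7
  have h10 : Nat.Coprime d p := ((Nat.Prime.coprime_iff_not_dvd hp).2 fun hpd => by
    have := Nat.le_of_dvd hdpos hpd
    omega).symm
  obtain ⟨w, hw⟩ := hroot j (h10.dvd_of_dvd_mul_right h9)
  exact ⟨w, by rw [← hjF, hw]⟩

end

end Vale.Agent.P240.R2.H487
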