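import Vale.Agent.P240.R2.H487.Gam

/-!
The local subgroups of `Γ`.
-/

namespace Vale.Agent.P240.R2.H487

set_option linter.unusedSectionVars false

open Subgroup Vale.Agent.P240.K

universe u v

/-- two surjective homomorphisms with the same kernel -/
lemma equiv_of_surj {N A B : Type*} [Group N] [Group A] [Group B] (f : N →* A) (g : N →* B)
    (hf : Function.Surjective f) (hg : Function.Surjective g) (h : ∀ n, f n = 1 ↔ g n = 1) :
    Nonempty (A ≃* B) := by
  have hk : f.ker = g.ker := by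
    ext n
    rw [MonoidHom.mem_ker, MonoidHom.mem_ker, h]
  exact ⟨(QuotientGroup.quotientKerEquivOfSurjective f hf).symm.trans
    ((QuotientGroup.quotientMulEquivOfEq hk).trans
      (QuotientGroup.quotientKerEquivOfSurjective g hg))⟩

section
variable {G : Type u} [Group G] [Finite G] {C : Set (Subgroup G)} {T : Subgroup G}
  {hC : ∀ L ∈ C, ∀ g ∈ T, cj g L ∈ C}

/-- the elements of `Γ` that fix all blocks other than that of `L` pointwise -/
def Loc (hC : ∀ L ∈ C, ∀ g ∈ T, cj g L ∈ C) (L : Subgroup G) : Subgroup (Gam C T hC) where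
  carrier := {φ | ∀ y : Y C, y.1.1 ≠ L → φ.1 y = y}
  one_mem' := fun y _ => rfl
  mul_mem' := by
    intro a b ha hb y hy
    change a.1 (b.1 y) = y
    rw [hb y hy, ha y hy]
  inv_mem' := by
    intro a ha y hy
    change a.1⁻¹ y = y
    rw [Equiv.Perm.inv_eq_iff_eq]
    exact (ha y hy).symm

lemma mem_Loc {L : Subgroup G} {φ : Gam C T hC} :
    φ ∈ Loc hC L ↔ ∀ y : Y C, y.1.1 ≠ L → φ.1 y = y := Iff.rfl

lemma gam_agree {L : Subgroup G} (hL : L ∈ C) {φ : Gam C T hC}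
    (h : ∀ y : Y C, y.1.1 = L → (φ.1 y).1.1 = L) :
    ∃ k : normalizer (L : Set G), (k : G) ∈ T ∧ Ag φ.1 (k : G) L := by
  obtain ⟨g, hg, h1⟩ := mem_Gam.1 φ.2
  obtain ⟨k, hk, hk1, hk2⟩ := h1 L hL
  have h2 := hk1 ⟨(L, 1), hL, L.one_mem⟩ rfl
  have h3 := h ⟨(L, 1), hL, L.one_mem⟩ rfl
  rw [h2] at h3
  exact ⟨⟨k, cj_eq_iff.1 h3⟩, hk, hk1⟩

lemma loc_block {L : Subgroup G} {φ : Gam C T hC} (hφ : φ ∈ Loc hC L) (y : Y C)
    (hy : y.1.1 = L) : (φ.1 y).1.1 = L := by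
  by_contra h
  have h1 := hφ (φ.1 y) h
  have h2 : φ.1 y = y := φ.1.injective h1
  rw [h2] at h
  exact h hy

lemma ag_ext {L : Subgroup G} {φ ψ : Equiv.Perm (Y C)} {k : G} (hφ : Ag φ k L) (hψ : Ag ψ k L)
    {y : Y C} (hy : y.1.1 = L) : φ y = ψ y := Subtype.ext (by rw [hφ y hy, hψ y hy])

lemma loc_kap {L : Subgroup G} (hL : L ∈ C) {φ : Gam C T hC} (hφ : φ ∈ Loc hC L) :
    ∃ k : normalizer (L : Set G), (k : G) ∈ T ∧ φ.1 = kap C L k := by
  obtain ⟨k, hk, hk1⟩ := gam_agree hL (loc_block hφ)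
  refine ⟨k, hk, ?_⟩
  ext1 y
  by_cases hy : y.1.1 = L
  · exact ag_ext hk1 (Ag_kap k) hy
  · rw [hφ y hy, kap_ne k hy]

/-- `kap` as an element of `Γ` -/
noncomputable def kapG (hC : ∀ L ∈ C, ∀ g ∈ T, cj g L ∈ C) (L : Subgroup G) :
    (T.subgroupOf (normalizer (L : Set G))) →* Gam C T hC where
  toFun k := ⟨kap C L k.1, kap_mem k.1 k.2⟩
  map_one' := Subtype.ext (by simp)
  map_mul' a b := Subtype.ext (by simp)

lemma kapG_coe {L : Subgroup G} (k : T.subgroupOf (normalizer (L : Set G))) :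
    (kapG hC L k).1 = kap C L k.1 := rfl

lemma kapG_mem {L : Subgroup G} (k : T.subgroupOf (normalizer (L : Set G))) :
    kapG hC L k ∈ Loc hC L := fun _ hy => kap_ne k.1 hy

lemma kap_eq_one_iff {L : Subgroup G} (hL : L ∈ C) (k : normalizer (L : Set G)) :
    kap C L k = 1 ↔ (k : G) ∈ centralizer (L : Set G) := by
  rw [Subgroup.mem_centralizer_iff]
  constructor
  · intro h x hx
    have h1 := Ag_kap (C := C) k ⟨(L, x), hL, hx⟩ rfl
    rw [h] at h1
    have h2 : x = (k : G) * x * (k : G)⁻¹ := congrArg Prod.snd h1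
    calc x * (k : G) = (k : G) * x * (k : G)⁻¹ * k := by rw [← h2]
      _ = (k : G) * x := by group
  · intro h
    ext1 y
    by_cases hy : y.1.1 = L
    · apply Subtype.ext
      rw [Ag_kap k y hy, Equiv.Perm.one_apply]
      have h1 : cj (k : G) y.1.1 = y.1.1 := by
        rw [hy]
        exact cj_eq_iff.2 k.2
      have h2 : (k : G) * y.1.2 * (k : G)⁻¹ = y.1.2 := by
        have h3 := h y.1.2 (by rw [← hy]; exact y.2.2)
        rw [← h3]
        group
      rw [h1, h2]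
    · rw [kap_ne k hy, Equiv.Perm.one_apply]

lemma loc_equiv {L : Subgroup G} (hL : L ∈ C) :
    Nonempty (Loc hC L ≃* (T.subgroupOf (normalizer (L : Set G))).map L.normalizerMonoidHom) := by
  refine equiv_of_surj ((kapG hC L).codRestrict (Loc hC L) kapG_mem)
    (L.normalizerMonoidHom.subgroupMap (T.subgroupOf (normalizer (L : Set G)))) ?_
    (MonoidHom.subgroupMap_surjective _ _) ?_
  · rintro ⟨φ, hφ⟩
    obtain ⟨k, hk, hk1⟩ := loc_kap hL hφ
    exact ⟨⟨k, hk⟩, Subtype.ext (Subtype.ext hk1.symm)⟩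
  · intro k
    have h1 : (kapG hC L).codRestrict (Loc hC L) kapG_mem k = 1 ↔ kap C L k.1 = 1 := by
      rw [Subtype.ext_iff, Subtype.ext_iff]
      rfl
    have h2 : L.normalizerMonoidHom.subgroupMap (T.subgroupOf (normalizer (L : Set G))) k = 1 ↔
        L.normalizerMonoidHom k.1 = 1 := by
      rw [Subtype.ext_iff]
      rfl
    rw [h1, h2, kap_eq_one_iff hL, ← MonoidHom.mem_ker, normalizerMonoidHom_ker,
      Subgroup.mem_subgroupOf]

lemma cj_Loc {φ : Gam C T hC} {g : G} (hg : ∀ y : Y C, (φ.1 y).1.1 = cj g y.1.1)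
    (L : Subgroup G) : cj φ (Loc hC L) = Loc hC (cj g L) := by
  ext a
  rw [mem_cj, mem_Loc, mem_Loc]
  have key : ∀ y : Y C, (φ⁻¹ * a * φ).1 y = y ↔ a.1 (φ.1 y) = φ.1 y := by
    intro y
    change φ.1⁻¹ (a.1 (φ.1 y)) = y ↔ _
    rw [Equiv.Perm.inv_eq_iff_eq]
  constructor
  · intro h y hy
    have h1 : φ.1 (φ.1⁻¹ y) = y := φ.1.apply_symm_apply y
    have h2 := (key (φ.1⁻¹ y)).1 (h _ (by
      intro h3
      apply hy
      rw [← h3, ← hg, h1]))
    rwa [h1] at h2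
  · intro h y hy
    rw [key]
    apply h
    rw [hg]
    intro h3
    exact hy (cj_injective g h3)

lemma loc_comm {L M : Subgroup G} (hLM : L ≠ M) {a b : Gam C T hC} (ha : a ∈ Loc hC L)
    (hb : b ∈ Loc hC M) : a * b = b * a := by
  apply Subtype.ext
  have : Equiv.Perm.Disjoint a.1 b.1 := by
    intro y
    by_cases hy : y.1.1 = L
    · exact Or.inr (hb y (by rw [hy]; exact hLM))
    · exact Or.inl (ha y hy)
  exact this.commute.eq

lemma loc_inf {L M : Subgroup G} (hLM : L ≠ M) : Loc hC L ⊓ Loc hC M = ⊥ := by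
  rw [eq_bot_iff]
  rintro a ⟨ha, hb⟩
  rw [Subgroup.mem_bot]
  apply Subtype.ext
  ext1 y
  by_cases hy : y.1.1 = L
  · exact hb y (by rw [hy]; exact hLM)
  · exact ha y hy

/-- An element commuting with the inner automorphisms of `L` and preserving the block of `L` fixes
it pointwise. -/
lemma fix_block {L : Subgroup G} (hL : L ∈ C) (hLT : L ≤ T)
    (hcen : L ⊓ centralizer (L : Set G) = ⊥) {φ : Gam C T hC}
    (hb : ∀ y : Y C, y.1.1 = L → (φ.1 y).1.1 = L) (hc : ∀ a ∈ Loc hC L, a * φ = φ * a) :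
    ∀ y : Y C, y.1.1 = L → φ.1 y = y := by
  obtain ⟨k, hk, hk1⟩ := gam_agree hL hb
  have hkN := k.2
  rw [Subgroup.mem_normalizer_iff] at hkN
  have key : ∀ x ∈ L, (k : G) * x * (k : G)⁻¹ = x := by
    intro x hx
    have hxN : x ∈ normalizer (L : Set G) := Subgroup.le_normalizer hx
    have hxT : (⟨x, hxN⟩ : normalizer (L : Set G)) ∈ T.subgroupOf (normalizer (L : Set G)) :=
      hLT hx
    have h1 := hc (kapG hC L ⟨⟨x, hxN⟩, hxT⟩) (kapG_mem _)
    have h2 : x⁻¹ * ((k : G) * x * (k : G)⁻¹) ∈ L ⊓ centralizer (L : Set G) := by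
      refine Subgroup.mem_inf.2 ⟨L.mul_mem (L.inv_mem hx) ((hkN x).1 hx), ?_⟩
      rw [Subgroup.mem_centralizer_iff]
      intro w hw
      -- `w = k z k⁻¹`
      have hz : (k : G)⁻¹ * w * (k : G) ∈ L := by
        rw [hkN]
        have : (k : G) * ((k : G)⁻¹ * w * (k : G)) * (k : G)⁻¹ = w := by group
        rwa [this]
      set y : Y C := ⟨(L, (k : G)⁻¹ * w * (k : G)), hL, hz⟩ with hy
      have h3 : (kapG hC L ⟨⟨x, hxN⟩, hxT⟩).1 (φ.1 y) = φ.1 ((kapG hC L ⟨⟨x, hxN⟩, hxT⟩).1 y) :=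
        congrArg (fun a : Gam C T hC => a.1 y) h1
      have h4 : (φ.1 y).1 = (L, w) := by
        rw [hk1 y rfl]
        have : cj (k : G) y.1.1 = L := cj_eq_iff.2 k.2
        rw [this]
        simp only [hy, Prod.mk.injEq, true_and]
        group
      have h5 : ((kapG hC L ⟨⟨x, hxN⟩, hxT⟩).1 y).1 = (L, x * ((k : G)⁻¹ * w * (k : G)) * x⁻¹) := by
        rw [kapG_coe, Ag_kap _ y rfl]
        have : cj x L = L := cj_eq_iff.2 hxN
        simp only [hy, this]
      have h6 : ((kapG hC L ⟨⟨x, hxN⟩, hxT⟩).1 (φ.1 y)).1 = (L, x * w * x⁻¹) := by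
        rw [kapG_coe, Ag_kap _ _ (by rw [h4]), h4]
        have : cj x L = L := cj_eq_iff.2 hxN
        simp only [this]
      have h7 : (φ.1 ((kapG hC L ⟨⟨x, hxN⟩, hxT⟩).1 y)).1 =
          (L, (k : G) * (x * ((k : G)⁻¹ * w * (k : G)) * x⁻¹) * (k : G)⁻¹) := by
        rw [hk1 _ (by rw [h5]), h5]
        have : cj (k : G) L = L := cj_eq_iff.2 k.2
        simp only [this]
      rw [h3] at h6
      have h8 : x * w * x⁻¹ = (k : G) * (x * ((k : G)⁻¹ * w * (k : G)) * x⁻¹) * (k : G)⁻¹ := by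
        have := h6.symm.trans h7
        exact congrArg Prod.snd this
      have h9 : x * w * x⁻¹ = ((k : G) * x * (k : G)⁻¹) * w * ((k : G) * x * (k : G)⁻¹)⁻¹ := by
        rw [h8]
        group
      calc w * (x⁻¹ * ((k : G) * x * (k : G)⁻¹))
          = x⁻¹ * (x * w * x⁻¹) * ((k : G) * x * (k : G)⁻¹) := by group
        _ = x⁻¹ * (((k : G) * x * (k : G)⁻¹) * w * ((k : G) * x * (k : G)⁻¹)⁻¹) *
            ((k : G) * x * (k : G)⁻¹) := by rw [h9]
        _ = x⁻¹ * ((k : G) * x * (k : G)⁻¹) * w := by group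
    rw [hcen, Subgroup.mem_bot] at h2
    exact (inv_mul_eq_one.1 h2).symm
  intro y hy
  apply Subtype.ext
  rw [hk1 y hy]
  have h1 : cj (k : G) y.1.1 = y.1.1 := by
    rw [hy]
    exact cj_eq_iff.2 k.2
  rw [h1, key _ (by rw [← hy]; exact y.2.2)]

end

end Vale.Agent.P240.R2.H487
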