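import Vale.Agent.P240.R2.H487.Gen2

/-!
The embedding theorem when the elements of order `p` generate a group that is a `p`-group modulo the
members of the family.
-/

namespace Vale.Agent.P240.R2.H487

set_option linter.unusedSectionVars false

open Subgroup Vale.Agent.P240.K Vale.Agent.P240.H195

universe u v w

section
variable {G : Type u} [Group G] {p : ℕ}

lemma Ain_of_contains {H T : Subgroup G} (hTH : T ≤ H) (h : ∀ x ∈ H, x ^ p = 1 → x ∈ T) :
    Ain p T = Ain p H := by
  ext E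
  exact ⟨fun hE => ⟨hE.1, hE.2.trans hTH⟩, fun hE => ⟨hE.1, fun x hx => h x (hE.2 hx)
    (hE.1.2.2 x hx)⟩⟩

lemma HQ_contains {𝕜 : Type v} [Field 𝕜] {T : Subgroup G} (h : ∀ x : G, x ^ p = 1 → x ∈ T) :
    HQ 𝕜 p T ↔ HQ 𝕜 p G := by
  rw [HQ_sub_iff, HQ_iff, ← Ain_top, Ain_of_contains le_top fun x _ => h x]

lemma PMod.sup {H M : Subgroup G} [hM : M.Normal] (h : ∀ x ∈ H, PMod p M x) {x : G}
    (hx : x ∈ H ⊔ M) : PMod p M x := by
  obtain ⟨y, hy, z, hz, rfl⟩ := Subgroup.mem_sup_of_normal_right.1 hx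
  obtain ⟨k, hk⟩ := h y hy
  refine ⟨k, ?_⟩
  rw [← QuotientGroup.eq_one_iff] at hk hz ⊢
  rw [QuotientGroup.mk_pow, QuotientGroup.mk_mul, hz, mul_one, ← QuotientGroup.mk_pow, hk]

variable {C : Set (Subgroup G)}

/-- **Embedding theorem**, for a group whose elements of order `p` generate a `p`-group modulo the
members of the family. -/
theorem HQ_omega [hp : Fact p.Prime] {𝕜 : Type v} [Field 𝕜] [Finite G] (hchar : (p : 𝕜) = 0)
    (hF : Family p C) {Ω : Subgroup G} (hΩ : ∀ x : G, x ^ p = 1 → x ∈ Ω)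
    (hpow : ∀ x ∈ Ω, PMod p (Gen C) x)
    (hR : ∀ t : G, (∀ L ∈ C, t ∈ centralizer (L : Set G)) → t = 1)
    (hA : ∀ L ∈ C, HQ 𝕜 p (((Ω ⊔ Gen C).subgroupOf (normalizer (L : Set G))).map
      L.normalizerMonoidHom)) : HQ 𝕜 p G := by
  have hn : (Gen C).Normal := Gen_normal hF
  rw [← HQ_contains (T := Ω ⊔ Gen C) fun x hx => Subgroup.mem_sup_left (hΩ x hx)]
  exact HQ_pfam hchar hF le_sup_right (fun t ht => PMod.sup hpow ht) (fun t _ => hR t) hA

lemma omega_top {Ω K : Subgroup G} (h : ∀ x ∈ K, x ^ p = 1 → x ∈ Ω) :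
    ∀ x : K, x ^ p = 1 → x ∈ Ω.subgroupOf K := by
  intro x hx
  refine h x x.2 ?_
  rw [← Subgroup.coe_pow, hx, Subgroup.coe_one]

end

section
variable {G : Type u} [Group G] {p : ℕ} {C : Set (Subgroup G)}

/-- groups between `Inn(L)` and `Aut(L)` -/
theorem aut_good [hp : Fact p.Prime] {𝕜 : Type v} [Field 𝕜] {L : Type u} [Group L] [Finite L]
    (hs : IsSimpleGroup L) (hc : ∀ x : L, (∀ y, x * y = y * x) → x = 1) (hd : p ∣ Nat.card L)
    {l : ℕ} (hl : l.Prime) (hg : GoodFactor 𝕜 p l L) (A : Subgroup (MulAut L))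
    (hA : ∀ x : L, MulAut.conj x ∈ A) : HQ 𝕜 p A := by
  set φ : L →* A := (MulAut.conj (G := L)).codRestrict A hA with hφ
  have hφv : ∀ x : L, ((φ x : A) : MulAut L) = MulAut.conj x := fun x => rfl
  have hinj : Function.Injective φ := by
    rw [injective_iff_map_eq_one]
    intro x hx
    refine hc x fun y => ?_
    have h1 : (MulAut.conj x) y = y := by
      rw [← hφv, hx]
      rfl
    rw [MulAut.conj_apply, mul_inv_eq_iff_eq_mul] at h1
    exact h1
  have e : L ≃* φ.range := MonoidHom.ofInjective hinj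
  have key : ∀ (a : A) (x : L), a * φ x * a⁻¹ = φ ((a : MulAut L) x) := by
    intro a x
    apply Subtype.ext
    apply MulEquiv.ext
    intro y
    change (a : MulAut L) (x * ((a : MulAut L)⁻¹ y) * x⁻¹) = _
    rw [map_mul, map_mul, MulAut.apply_inv_self, map_inv]
    rfl
  have hcen : ∀ a : A, a ∈ centralizer (φ.range : Set A) ↔ a = 1 := by
    intro a
    constructor
    · intro ha
      rw [Subgroup.mem_centralizer_iff] at ha
      apply Subtype.ext
      apply MulEquiv.ext
      intro x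
      have h1 := ha (φ x) ⟨x, rfl⟩
      have h2 : a * φ x * a⁻¹ = φ x := by rw [← h1, mul_inv_cancel_right]
      rw [key] at h2
      exact hinj h2
    · rintro rfl
      exact Subgroup.one_mem _
  have hD : Family p ({φ.range} : Set (Subgroup A)) :=
    { conj := by
        rintro M hM g
        rw [Set.mem_singleton_iff] at hM ⊢
        subst hM
        ext y
        constructor
        · rintro ⟨_, ⟨x, rfl⟩, rfl⟩
          exact ⟨_, (key g x).symm⟩
        · rintro ⟨x, rfl⟩
          refine ⟨φ ((g : MulAut L)⁻¹ x), ⟨_, rfl⟩, ?_⟩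
          change g * φ _ * g⁻¹ = _
          rw [key, MulAut.apply_inv_self]
      comm := fun A hA B hB hAB => absurd (hA.trans hB.symm) hAB
      centre := by
        rintro M hM
        rw [Set.mem_singleton_iff] at hM
        subst hM
        rw [eq_bot_iff]
        intro x hx
        exact Subgroup.mem_bot.2 ((hcen x).1 (Subgroup.mem_inf.1 hx).2)
      dvd := by
        rintro M hM
        rw [Set.mem_singleton_iff] at hM
        subst hM
        rw [← Nat.card_congr e.toEquiv]
        exact hd }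
  refine HQ_img (π := MonoidHom.id A) hl hD ?_ Function.surjective_id ?_ ?_
  · rintro M hM
    rw [Set.mem_singleton_iff] at hM
    subst hM
    exact e.symm.isSimpleGroup
  · intro g
    constructor
    · rintro h M hM
      rw [Set.mem_singleton_iff] at hM
      subst hM
      exact (hcen g).2 h
    · intro h
      exact (hcen g).1 (h _ rfl)
  · rintro M hM M' ⟨e'⟩
    rw [Set.mem_singleton_iff] at hM
    subst hM
    have e1 : L ≃* M' := e.trans e'
    refine (goodFactor_tr e1 hg).treated ?_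
    rw [← Nat.card_congr e1.toEquiv]
    exact hd

theorem goodFactor_almost [hp : Fact p.Prime] {𝕜 : Type v} [Field 𝕜] [Finite G] {L : Subgroup G}
    (hs : IsSimpleGroup L) (hc : L ⊓ centralizer (L : Set G) = ⊥) (hd : p ∣ Nat.card L)
    {l : ℕ} (hl : l.Prime) (hg : GoodFactor 𝕜 p l L) : AlmostSimpleHQ 𝕜 p L := by
  intro A _ hA
  refine aut_good hs (fun x hx => ?_) hd hl hg A hA
  have h1 : (x : G) ∈ L ⊓ centralizer (L : Set G) := by
    refine Subgroup.mem_inf.2 ⟨x.2, Subgroup.mem_centralizer_iff.2 fun y hy => ?_⟩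
    exact (congrArg Subtype.val (hx ⟨y, hy⟩)).symm
  rw [hc, Subgroup.mem_bot] at h1
  exact Subtype.ext h1

variable {l : Subgroup G → ℕ} (hF : Family p C) (hs : ∀ L ∈ C, IsSimpleGroup L)
  (hR : ∀ t : G, (∀ L ∈ C, t ∈ centralizer (L : Set G)) → t = 1)
  (hlc : ∀ L ∈ C, ∀ g : G, l (cj g L) = l L)

include hF hs hR hlc in
/-- **Partition theorem**, for the subgroup generated by the elements of order `p`. -/
theorem HQ_part_omega [hp : Fact p.Prime] {𝕜 : Type v} [Field 𝕜] [Finite G] (hchar : (p : 𝕜) = 0)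
    (hl : ∀ L ∈ C, (l L).Prime) (hg : ∀ L ∈ C, GoodFactor 𝕜 p (l L) L) {Ω : Subgroup G}
    (hΩ : ∀ x : G, x ^ p = 1 → x ∈ Ω) (hpow : ∀ x ∈ Ω, PMod p (Gen (NF C l)) x) : HQ 𝕜 p G := by
  refine HQ_omega hchar (NF_family hF hR hlc) hΩ hpow ?_ ?_
  · intro t ht
    refine hR t fun L hL => ?_
    exact Subgroup.centralizer_le (le_Nq hF hL) (ht _ ⟨L, hL, rfl⟩)
  · rintro _ ⟨L, hL, rfl⟩
    have hN := Nq_normal hF hlc (l L)
    set N := Nq C l (l L) with hNdef
    set T := Ω ⊔ Gen (NF C l) with hT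
    have hTN : T ≤ normalizer (N : Set G) := by
      rw [Subgroup.normalizer_eq_top]
      exact le_top
    have hNT : N ≤ T := (le_Gen (C := NF C l) ⟨L, hL, rfl⟩).trans le_sup_right
    refine HQ_class hF hs hR hlc (hl L hL) (fun M hM hML => hML ▸ hg M hM) (T := T) hNT
      (π := (N.normalizerMonoidHom.subgroupMap (T.subgroupOf (normalizer (N : Set G)))).comp
        (Subgroup.subgroupOfEquivOfLe hTN).symm.toMonoidHom) ?_ ?_
    · exact (MonoidHom.subgroupMap_surjective _ _).comp
        (Subgroup.subgroupOfEquivOfLe hTN).symm.surjective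
    · intro t
      have h1 : ((N.normalizerMonoidHom.subgroupMap (T.subgroupOf (normalizer (N : Set G)))).comp
        (Subgroup.subgroupOfEquivOfLe hTN).symm.toMonoidHom) t = 1 ↔
          N.normalizerMonoidHom ⟨t, hTN t.2⟩ = 1 := by
        rw [Subtype.ext_iff]
        rfl
      rw [h1, ← MonoidHom.mem_ker, normalizerMonoidHom_ker, Subgroup.mem_subgroupOf]

end

end Vale.Agent.P240.R2.H487
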