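import Vale.Agent.P240.R2.H487.Str

/-!
Images of a family under a homomorphism whose kernel is the centralizer of the family.
-/

namespace Vale.Agent.P240.R2.H487

set_option linter.unusedSectionVars false

open Subgroup Vale.Agent.P240.K Vale.Agent.P240.H195

universe u v w

section
variable {G : Type u} [Group G] {X : Type w} [Group X] {p : ℕ} {D : Set (Subgroup G)}

/-- the images of the members -/
def Img (π : G →* X) (D : Set (Subgroup G)) : Set (Subgroup X) := (fun L => L.map π) '' D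

lemma img_inj (hD : Family p D) {π : G →* X}
    (hk : ∀ g : G, π g = 1 ↔ ∀ L ∈ D, g ∈ centralizer (L : Set G)) {L : Subgroup G} (hL : L ∈ D)
    {x : G} (hx : x ∈ L) (h : π x = 1) : x = 1 := by
  have h1 : x ∈ L ⊓ centralizer (L : Set G) := Subgroup.mem_inf.2 ⟨hx, (hk x).1 h L hL⟩
  rwa [hD.centre L hL, Subgroup.mem_bot] at h1

/-- the restriction to a member is injective -/
lemma img_equiv (hD : Family p D) {π : G →* X}
    (hk : ∀ g : G, π g = 1 ↔ ∀ L ∈ D, g ∈ centralizer (L : Set G)) {L : Subgroup G} (hL : L ∈ D) :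
    Nonempty (L ≃* L.map π) := by
  have h1 : Function.Injective (π.subgroupMap L) := by
    rw [injective_iff_map_eq_one]
    intro x hx
    exact Subtype.ext (img_inj hD hk hL x.2 (congrArg Subtype.val hx))
  exact ⟨MulEquiv.ofBijective (π.subgroupMap L) ⟨h1, π.subgroupMap_surjective L⟩⟩

lemma img_cent (hD : Family p D) (hp : 1 < p) {π : G →* X} [Finite G]
    (hk : ∀ g : G, π g = 1 ↔ ∀ L ∈ D, g ∈ centralizer (L : Set G)) {L : Subgroup G} (hL : L ∈ D)
    {g : G} (h : ∀ x ∈ L, π (g * x) = π (x * g)) : g ∈ centralizer (L : Set G) := by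
  have key : ∀ x ∈ L, ∀ M ∈ D, g * x * g⁻¹ * x⁻¹ ∈ centralizer (M : Set G) := by
    intro x hx M hM
    refine (hk _).1 ?_ M hM
    have h1 : g * x * g⁻¹ * x⁻¹ = (g * x) * (x * g)⁻¹ := by group
    rw [h1, map_mul, map_inv, h x hx, mul_inv_cancel]
  have hgL : cj g L = L := by
    by_contra hne
    -- then `x` centralizes `L`
    have h2 : ∀ x ∈ L, x = 1 := by
      intro x hx
      have h3 : x⁻¹ ∈ L ⊓ centralizer (L : Set G) := by
        refine Subgroup.mem_inf.2 ⟨L.inv_mem hx, ?_⟩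
        have h4 : g * x * g⁻¹ ∈ centralizer (L : Set G) := by
          rw [Subgroup.mem_centralizer_iff]
          exact fun y hy => hD.comm L hL (cj g L) (hD.conj L hL g) (Ne.symm hne) y hy _
            (conj_mem_cj hx)
        have h5 := (centralizer (L : Set G)).mul_mem
          ((centralizer (L : Set G)).inv_mem h4) (key x hx L hL)
        have h6 : (g * x * g⁻¹)⁻¹ * (g * x * g⁻¹ * x⁻¹) = x⁻¹ := by group
        rwa [h6] at h5
      rw [hD.centre L hL, Subgroup.mem_bot] at h3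
      exact inv_eq_one.1 h3
    have h3 : L = ⊥ := eq_bot_iff.2 fun x hx => Subgroup.mem_bot.2 (h2 x hx)
    have h4 := hD.dvd L hL
    rw [h3, Subgroup.card_bot] at h4
    exact hp.ne' (Nat.dvd_one.1 h4)
  rw [Subgroup.mem_centralizer_iff]
  intro x hx
  have h1 : g * x * g⁻¹ * x⁻¹ ∈ L ⊓ centralizer (L : Set G) := by
    refine Subgroup.mem_inf.2 ⟨L.mul_mem ?_ (L.inv_mem hx), key x hx L hL⟩
    have h2 : g * x * g⁻¹ ∈ cj g L := conj_mem_cj hx
    rwa [hgL] at h2
  rw [hD.centre L hL, Subgroup.mem_bot] at h1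
  have h2 : g * x = x * g := by
    calc g * x = g * x * g⁻¹ * x⁻¹ * (x * g) := by group
      _ = x * g := by rw [h1, one_mul]
  exact h2.symm

theorem img_family [hp : Fact p.Prime] [Finite G] (hD : Family p D) {π : G →* X}
    (hπ : Function.Surjective π) (hk : ∀ g : G, π g = 1 ↔ ∀ L ∈ D, g ∈ centralizer (L : Set G)) :
    Family p (Img π D) where
  conj := by
    rintro _ ⟨L, hL, rfl⟩ x
    obtain ⟨g, rfl⟩ := hπ x
    refine ⟨cj g L, hD.conj L hL g, ?_⟩
    change (L.map (MulAut.conj g).toMonoidHom).map π = (L.map π).map (MulAut.conj (π g)).toMonoidHom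
    rw [Subgroup.map_map, Subgroup.map_map]
    congr 1
    ext y
    simp
  comm := by
    rintro _ ⟨L, hL, rfl⟩ _ ⟨M, hM, rfl⟩ hLM
    rintro _ ⟨x, hx, rfl⟩ _ ⟨y, hy, rfl⟩
    rw [← map_mul, ← map_mul, hD.comm L hL M hM (fun h => hLM (by rw [h])) x hx y hy]
  centre := by
    rintro _ ⟨L, hL, rfl⟩
    rw [eq_bot_iff]
    intro y hy
    obtain ⟨⟨x, hx, rfl⟩, h2⟩ := Subgroup.mem_inf.1 hy
    rw [Subgroup.mem_centralizer_iff] at h2
    have h3 : x ∈ centralizer (L : Set G) := img_cent hD hp.out.one_lt hk hL fun z hz => by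
      rw [map_mul, map_mul]
      exact (h2 (π z) ⟨z, hz, rfl⟩).symm
    have h4 : x ∈ L ⊓ centralizer (L : Set G) := Subgroup.mem_inf.2 ⟨hx, h3⟩
    rw [hD.centre L hL, Subgroup.mem_bot] at h4
    rw [h4, map_one]
    exact Subgroup.one_mem _
  dvd := by
    rintro _ ⟨L, hL, rfl⟩
    obtain ⟨e⟩ := img_equiv hD hk hL
    rw [← Nat.card_congr e.toEquiv]
    exact hD.dvd L hL

theorem img_rest [hp : Fact p.Prime] [Finite G] (hD : Family p D) {π : G →* X}
    (hπ : Function.Surjective π) (hk : ∀ g : G, π g = 1 ↔ ∀ L ∈ D, g ∈ centralizer (L : Set G))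
    (x : X) (hx : ∀ M ∈ Img π D, x ∈ centralizer (M : Set X)) : x = 1 := by
  obtain ⟨g, rfl⟩ := hπ x
  refine (hk g).2 fun L hL => img_cent hD hp.out.one_lt hk hL fun z hz => ?_
  have h1 := Subgroup.mem_centralizer_iff.1 (hx (L.map π) ⟨L, hL, rfl⟩) (π z) ⟨z, hz, rfl⟩
  rw [map_mul, map_mul]
  exact h1.symm

/-- **One prime**: the image of `G` in the automorphism group of the product of the members of a
conjugation-stable set of simple subgroups satisfying `GoodFactor 𝕜 p l`. -/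
theorem HQ_img [hp : Fact p.Prime] {𝕜 : Type v} [Field 𝕜] [Finite G] [Finite X] {l : ℕ}
    (hl : l.Prime) (hD : Family p D)
    (hs : ∀ L ∈ D, IsSimpleGroup L) {π : G →* X} (hπ : Function.Surjective π)
    (hk : ∀ g : G, π g = 1 ↔ ∀ L ∈ D, g ∈ centralizer (L : Set G))
    (hg : ∀ L ∈ D, ∀ M : Subgroup X, Nonempty (L ≃* M) → GoodComp 𝕜 p l M) : HQ 𝕜 p X := by
  have hF := img_family hD hπ hk
  have hR := img_rest hD hπ hk
  have hsi : ∀ L ∈ Img π D, IsSimpleGroup L := by
    rintro _ ⟨L, hL, rfl⟩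
    obtain ⟨e⟩ := img_equiv hD hk hL
    have := hs L hL
    exact e.symm.isSimpleGroup
  refine all_good (str_op hF hsi hR) (str_op' hF hsi hR) hl fun M hM => ?_
  obtain ⟨L, hL, rfl⟩ := str_comp hF hsi hR hM
  exact hg L hL _ (img_equiv hD hk hL)

end

end Vale.Agent.P240.R2.H487
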