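import Vale.Agent.P240.R2.H487.Idx
import Vale.Agent.P240.H195.Elim

/-!
Groups with a family of simple subgroups with trivial centralizer: `O_p`, `O_{p'}` and components.
-/

namespace Vale.Agent.P240.R2.H487

set_option linter.unusedSectionVars false

open Subgroup Vale.Agent.P240.K Vale.Agent.P240.H195

universe u v

section
variable {X : Type u} [Group X] {p : ℕ} {F : Set (Subgroup X)}

lemma Gen_normal [Finite X] (hF : Family p F) : (Gen F).Normal := by
  refine ⟨fun x hx g => ?_⟩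
  have h1 : (Gen F).map (MulAut.conj g).toMonoidHom ≤ Gen F := by
    rw [Gen, Subgroup.map_iSup]
    refine iSup_le fun L => ?_
    rw [Subgroup.map_iSup]
    exact iSup_le fun hL => le_Gen (hF.conj L hL g)
  exact h1 ⟨x, hx, rfl⟩

/-- a subgroup normalized by the member `L` and not centralizing it contains it -/
lemma le_of_not_cent (hF : Family p F) (hs : ∀ L ∈ F, IsSimpleGroup L) {Z L : Subgroup X}
    (hL : L ∈ F) (hn : ∀ x ∈ L, ∀ z ∈ Z, x * z * x⁻¹ ∈ Z)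
    (hc : ∃ z ∈ Z, z ∉ centralizer (L : Set X)) : L ≤ Z := by
  have key : ∃ w ∈ Z ⊓ L, w ≠ 1 := by
    obtain ⟨z, hz, hzL⟩ := hc
    rw [Subgroup.mem_centralizer_iff] at hzL
    push Not at hzL
    obtain ⟨x, hx, hxz⟩ := hzL
    by_cases h : cj z L = L
    · refine ⟨z * x * z⁻¹ * x⁻¹, Subgroup.mem_inf.2 ⟨?_, ?_⟩, ?_⟩
      · have h1 := Z.mul_mem hz (hn x hx z⁻¹ (Z.inv_mem hz))
        have h2 : z * (x * z⁻¹ * x⁻¹) = z * x * z⁻¹ * x⁻¹ := by group
        rwa [h2] at h1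
      · refine L.mul_mem ?_ (L.inv_mem hx)
        have h1 : z * x * z⁻¹ ∈ cj z L := conj_mem_cj hx
        rwa [h] at h1
      · intro h1
        apply hxz
        have h2 : z * x = x * z := by
          calc z * x = z * x * z⁻¹ * x⁻¹ * (x * z) := by group
            _ = x * z := by rw [h1, one_mul]
        exact h2.symm
    · have hx1 : x ≠ 1 := by
        rintro rfl
        exact hxz (by simp)
      have hxc : x ∉ centralizer (L : Set X) := by
        intro h1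
        have h2 : x ∈ L ⊓ centralizer (L : Set X) := Subgroup.mem_inf.2 ⟨hx, h1⟩
        rw [hF.centre L hL, Subgroup.mem_bot] at h2
        exact hx1 h2
      rw [Subgroup.mem_centralizer_iff] at hxc
      push Not at hxc
      obtain ⟨y, hy, hyx⟩ := hxc
      have hu : z * x⁻¹ * z⁻¹ ∈ cj z L := conj_mem_cj (L.inv_mem hx)
      have hcomm := hF.comm L hL (cj z L) (hF.conj L hL z) (Ne.symm h) y hy _ hu
      have hcZ : x * z * x⁻¹ * z⁻¹ ∈ Z := Z.mul_mem (hn x hx z hz) (Z.inv_mem hz)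
      have hdZ := Z.mul_mem (hn y hy _ hcZ) (Z.inv_mem hcZ)
      have he : y * (x * z * x⁻¹ * z⁻¹) * y⁻¹ * (x * z * x⁻¹ * z⁻¹)⁻¹ = y * x * y⁻¹ * x⁻¹ := by
        have h1 : x * z * x⁻¹ * z⁻¹ = x * (z * x⁻¹ * z⁻¹) := by group
        rw [h1]
        calc y * (x * (z * x⁻¹ * z⁻¹)) * y⁻¹ * (x * (z * x⁻¹ * z⁻¹))⁻¹
            = y * x * y⁻¹ * (y * (z * x⁻¹ * z⁻¹)) * y⁻¹ * (z * x⁻¹ * z⁻¹)⁻¹ * x⁻¹ := by group
          _ = y * x * y⁻¹ * ((z * x⁻¹ * z⁻¹) * y) * y⁻¹ * (z * x⁻¹ * z⁻¹)⁻¹ * x⁻¹ := by rw [hcomm]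
          _ = y * x * y⁻¹ * x⁻¹ := by group
      rw [he] at hdZ
      refine ⟨y * x * y⁻¹ * x⁻¹, Subgroup.mem_inf.2 ⟨hdZ,
        L.mul_mem (L.mul_mem (L.mul_mem hy hx) (L.inv_mem hy)) (L.inv_mem hx)⟩, ?_⟩
      intro h1
      apply hyx
      calc y * x = y * x * y⁻¹ * x⁻¹ * (x * y) := by group
        _ = x * y := by rw [h1, one_mul]
  rcases simple_sub (A := L) (B := Z ⊓ L) (hs L hL) inf_le_right (by
    intro a ha b hb
    obtain ⟨hb1, hb2⟩ := Subgroup.mem_inf.1 hb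
    exact Subgroup.mem_inf.2 ⟨hn a ha b hb1, L.mul_mem (L.mul_mem ha hb2) (L.inv_mem ha)⟩)
    with h | h
  · obtain ⟨w, hw, hw1⟩ := key
    rw [h, Subgroup.mem_bot] at hw
    exact absurd hw hw1
  · rw [← h]
    exact inf_le_left

lemma exists_le_of_ne [Finite X] (hF : Family p F) (hs : ∀ L ∈ F, IsSimpleGroup L)
    (hR : ∀ x : X, (∀ L ∈ F, x ∈ centralizer (L : Set X)) → x = 1) {Z : Subgroup X}
    (hZ : Z.Normal) (hne : Z ≠ ⊥) : ∃ L ∈ F, L ≤ Z := by
  obtain ⟨z, hz, hz1⟩ : ∃ z ∈ Z, z ≠ 1 := by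
    by_contra hcon
    push Not at hcon
    exact hne (eq_bot_iff.2 fun z hz => Subgroup.mem_bot.2 (hcon z hz))
  by_contra hcon
  push Not at hcon
  apply hz1
  refine hR z fun L hL => ?_
  by_contra h
  exact hcon L hL (le_of_not_cent hF hs hL (fun x _ z hz => hZ.conj_mem z hz x) ⟨z, hz, h⟩)

theorem str_op [hp : Fact p.Prime] [Finite X] (hF : Family p F) (hs : ∀ L ∈ F, IsSimpleGroup L)
    (hR : ∀ x : X, (∀ L ∈ F, x ∈ centralizer (L : Set X)) → x = 1) : OpTrivial p X := by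
  intro Z hZ hZp
  by_contra hne
  obtain ⟨L, hL, hLZ⟩ := exists_le_of_ne hF hs hR hZ hne
  have hLp : IsPGroup p L := hZp.to_le hLZ
  have hLnt : Nontrivial L := (hs L hL).toNontrivial
  have h1 := hLp.center_nontrivial
  obtain ⟨x, hx⟩ := exists_ne (1 : center L)
  apply hx
  apply Subtype.ext
  apply Subtype.ext
  have h2 : ((x : L) : X) ∈ L ⊓ centralizer (L : Set X) := by
    refine Subgroup.mem_inf.2 ⟨x.1.2, Subgroup.mem_centralizer_iff.2 fun y hy => ?_⟩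
    have h3 := (Subgroup.mem_center_iff.1 x.2) ⟨y, hy⟩
    exact congrArg Subtype.val h3
  rw [hF.centre L hL, Subgroup.mem_bot] at h2
  exact h2

theorem str_op' [Finite X] (hF : Family p F) (hs : ∀ L ∈ F, IsSimpleGroup L)
    (hR : ∀ x : X, (∀ L ∈ F, x ∈ centralizer (L : Set X)) → x = 1) : OpPrimeTrivial p X := by
  intro Z hZ hZp
  by_contra hne
  obtain ⟨L, hL, hLZ⟩ := exists_le_of_ne hF hs hR hZ hne
  exact hZp ((hF.dvd L hL).trans (Subgroup.card_dvd_of_le hLZ))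

theorem str_comp [Finite X] (hF : Family p F) (hs : ∀ L ∈ F, IsSimpleGroup L)
    (hR : ∀ x : X, (∀ L ∈ F, x ∈ centralizer (L : Set X)) → x = 1) : Q.Comp X ⊆ F := by
  rintro _ ⟨M, hM, J, hJ, rfl⟩
  have hMn := hM.1
  have hne : J.map M.subtype ≠ ⊥ := fun h =>
    hJ.2.1 ((map_eq_bot_iff_of_injective J M.subtype_injective).1 h)
  obtain ⟨z, hz, hz1⟩ : ∃ z ∈ J.map M.subtype, z ≠ 1 := by
    by_contra hcon
    push Not at hcon
    exact hne (eq_bot_iff.2 fun z hz => Subgroup.mem_bot.2 (hcon z hz))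
  obtain ⟨L, hL, hLz⟩ : ∃ L ∈ F, z ∉ centralizer (L : Set X) := by
    by_contra hcon
    push Not at hcon
    exact hz1 (hR z hcon)
  have hLM : L ≤ M := le_of_not_cent hF hs hL (fun x _ w hw => hMn.conj_mem w hw x)
    ⟨z, map_subtype_le J hz, hLz⟩
  have hJn := hJ.1
  have hLJ : L ≤ J.map M.subtype := by
    refine le_of_not_cent hF hs hL ?_ ⟨z, hz, hLz⟩
    rintro x hx _ ⟨w, hw, rfl⟩
    exact ⟨⟨x, hLM hx⟩ * w * (⟨x, hLM hx⟩)⁻¹, hJn.conj_mem w hw _, rfl⟩
  -- `L` is normal in `M`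
  have hg : (Gen F).Normal := Gen_normal hF
  have hLne : L ≠ ⊥ := by
    intro h
    apply hLz
    rw [Subgroup.mem_centralizer_iff, h]
    intro y hy
    rw [Subgroup.mem_bot.1 hy, one_mul, mul_one]
  have hMG : M ≤ Gen F := by
    rcases hM.2.2 (Gen F ⊓ M) inferInstance inf_le_right with h | h
    · exfalso
      apply hLne
      rw [eq_bot_iff, ← h]
      exact le_inf (le_Gen hL) hLM
    · rw [← h]
      exact inf_le_left
  have hLn : (L.subgroupOf M).Normal := by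
    refine ⟨fun x hx m => ?_⟩
    rw [Subgroup.mem_subgroupOf] at hx ⊢
    have h1 := cj_eq_iff.1 (Gen_normalizer hF hL (hMG m.2))
    exact (Subgroup.mem_normalizer_iff.1 h1 _).1 hx
  have hLJ' : L.subgroupOf M ≤ J := by
    intro x hx
    obtain ⟨w, hw, hwx⟩ := hLJ hx
    have : w = x := Subtype.ext hwx
    rwa [← this]
  rcases hJ.2.2 _ hLn hLJ' with h | h
  · exfalso
    apply hLne
    rw [eq_bot_iff]
    intro x hx
    have h1 : (⟨x, hLM hx⟩ : M) ∈ L.subgroupOf M := hx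
    rw [h, Subgroup.mem_bot] at h1
    exact Subgroup.mem_bot.2 (congrArg Subtype.val h1)
  · have h1 : J.map M.subtype = L := by
      rw [← h, Subgroup.map_subgroupOf_eq_of_le hLM]
    rw [h1]
    exact hL

end

end Vale.Agent.P240.R2.H487
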