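import Vale.Agent.P240.R2.H487.FamG

/-!
Subnormality of the image of `T` in `Γ` when `T` modulo the subgroup generated by the family is a
`p`-group; the main embedding theorem.
-/

namespace Vale.Agent.P240.R2.H487

set_option linter.unusedSectionVars false

open Subgroup Vale.Agent.P240.K Vale.Agent.P240.H195

universe u v

variable {𝕜 : Type v} [Field 𝕜]

/-- subgroups of finite nilpotent groups are subnormal -/
lemma subnormal_of_nilpotent {Q : Type*} [Group Q] [Finite Q] [Group.IsNilpotent Q]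
    (H : Subgroup Q) : H.IsSubnormal := by
  induction H using WellFoundedGT.induction with
  | ind H ih =>
    by_cases hH : H = ⊤
    · rw [hH]
      exact IsSubnormal.top
    · have h1 := Group.normalizerCondition_of_isNilpotent (G := Q) H (lt_top_iff_ne_top.2 hH)
      exact IsSubnormal.step H (normalizer (H : Set Q)) h1.le (ih _ h1) normal_in_normalizer

/-- subgroups containing a normal subgroup with `p`-group quotient are subnormal -/
lemma subnormal_of_pgroup {Q : Type*} [Group Q] [Finite Q] {p : ℕ} [hp : Fact p.Prime]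
    {I H : Subgroup Q} (hI : I.Normal) (hIH : I ≤ H) (h : ∀ g : Q, ∃ k : ℕ, g ^ p ^ k ∈ I) :
    H.IsSubnormal := by
  have h1 : IsPGroup p (Q ⧸ I) := by
    intro x
    obtain ⟨g, rfl⟩ := QuotientGroup.mk'_surjective I x
    obtain ⟨k, hk⟩ := h g
    refine ⟨k, ?_⟩
    rw [← map_pow]
    exact (QuotientGroup.eq_one_iff _).2 hk
  have h2 : Group.IsNilpotent (Q ⧸ I) := h1.isNilpotent
  have h3 := (subnormal_of_nilpotent (H.map (QuotientGroup.mk' I))).comap (QuotientGroup.mk' I)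
  have h4 : (H.map (QuotientGroup.mk' I)).comap (QuotientGroup.mk' I) = H := by
    rw [Subgroup.comap_map_eq, QuotientGroup.ker_mk', sup_eq_left]
    exact hIH
  rwa [h4] at h3

/-- **Heredity for subnormal subgroups.** -/
theorem HQ_subnormal {G : Type u} [Group G] [Finite G] {p : ℕ} [hp : Fact p.Prime]
    (hchar : (p : 𝕜) = 0) {H : Subgroup G} (hH : H.IsSubnormal) (h : HQ 𝕜 p G) : HQ 𝕜 p H := by
  induction hH with
  | top =>
    exact (HQ_congr Subgroup.topEquiv).2 h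
  | step H K hHK _ hN ih =>
    have h1 : HQ 𝕜 p (H.subgroupOf K) := HQ_normal hchar (H.subgroupOf K) ih
    exact (HQ_congr (Subgroup.subgroupOfEquivOfLe hHK)).1 h1

section
variable {G : Type u} [Group G] [Finite G] {p : ℕ} {C : Set (Subgroup G)} {T : Subgroup G}

lemma Ag.inv {φ : Equiv.Perm (Y C)} {h : G} {L : Subgroup G} (hL : L ∈ C) (hφ : Ag φ h L)
    (hh : cj h L = L) : Ag φ⁻¹ h⁻¹ L := by
  intro y hy
  have h1 : h⁻¹ * y.1.2 * h ∈ L := by
    have h2 : y.1.2 ∈ cj h L := by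
      rw [hh, ← hy]
      exact y.2.2
    exact mem_cj.1 h2
  have h2 : φ ⟨(L, h⁻¹ * y.1.2 * h), hL, h1⟩ = y := by
    apply Subtype.ext
    rw [hφ _ rfl]
    refine Prod.ext ?_ ?_
    · rw [hy]
      exact hh
    · change h * (h⁻¹ * y.1.2 * h) * h⁻¹ = y.1.2
      group
  have h3 : φ⁻¹ y = ⟨(L, h⁻¹ * y.1.2 * h), hL, h1⟩ := by
    rw [Equiv.Perm.inv_eq_iff_eq]
    exact h2.symm
  rw [h3, hy]
  refine Prod.ext ?_ ?_
  · have h4 : cj h⁻¹ (cj h L) = L := by rw [← cj_mul, inv_mul_cancel, cj_one]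
    rw [hh] at h4
    exact h4.symm
  · change h⁻¹ * y.1.2 * h = h⁻¹ * y.1.2 * h⁻¹⁻¹
    rw [inv_inv]

lemma Ag.pow {φ : Equiv.Perm (Y C)} {h : G} {L : Subgroup G} (hφ : Ag φ h L)
    (hh : cj h L = L) (n : ℕ) : Ag (φ ^ n) (h ^ n) L ∧ cj (h ^ n) L = L := by
  induction n with
  | zero => rw [pow_zero, pow_zero]; exact ⟨Ag.one L, cj_one L⟩
  | succ n ih =>
    rw [pow_succ', pow_succ']
    refine ⟨?_, by rw [cj_mul, ih.2, hh]⟩
    refine Ag.mul ?_ ih.1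
    rwa [ih.2]

lemma cj_of_mem {L : Subgroup G} {a : G} (ha : a ∈ L) : cj a L = L :=
  cj_eq_iff.2 (Subgroup.le_normalizer ha)

/-- the elements of `Γ` acting on each member `L` as an element of `L` -/
def InnG (hC : ∀ L ∈ C, ∀ g ∈ T, cj g L ∈ C) : Subgroup (Gam C T hC) where
  carrier := {φ | ∀ L ∈ C, ∃ a ∈ L, Ag φ.1 a L}
  one_mem' := fun L _ => ⟨1, L.one_mem, Ag.one L⟩
  mul_mem' := by
    intro φ ψ hφ hψ L hL
    obtain ⟨a, ha, ha1⟩ := hφ L hL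
    obtain ⟨b, hb, hb1⟩ := hψ L hL
    refine ⟨a * b, L.mul_mem ha hb, Ag.mul ?_ hb1⟩
    rwa [cj_of_mem hb]
  inv_mem' := by
    intro φ hφ L hL
    obtain ⟨a, ha, ha1⟩ := hφ L hL
    exact ⟨a⁻¹, L.inv_mem ha, ha1.inv hL (cj_of_mem ha)⟩

lemma mem_InnG {hC : ∀ L ∈ C, ∀ g ∈ T, cj g L ∈ C} {φ : Gam C T hC} :
    φ ∈ InnG hC ↔ ∀ L ∈ C, ∃ a ∈ L, Ag φ.1 a L := Iff.rfl

lemma InnG_normal (hC : ∀ L ∈ C, ∀ g ∈ T, cj g L ∈ C) : (InnG hC).Normal := by
  constructor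
  intro φ hφ ψ M hM
  obtain ⟨g, hg, hψ⟩ := mem_Gam.1 (ψ⁻¹).2
  obtain ⟨h, hh, h1, h2⟩ := hψ M hM
  have hLC : cj h M ∈ C := hC M hM h hh
  obtain ⟨a, ha, ha1⟩ := mem_InnG.1 hφ (cj h M) hLC
  have ha' : h⁻¹ * a * h ∈ M := mem_cj.1 ha
  refine ⟨h⁻¹ * a * h, ha', ?_⟩
  intro y hy
  have hyM : y.1.2 ∈ M := hy ▸ y.2.2
  have hwM : h⁻¹ * a * h * y.1.2 * (h⁻¹ * a * h)⁻¹ ∈ M :=
    M.mul_mem (M.mul_mem ha' hyM) (M.inv_mem ha')
  set w : Y C := ⟨(M, h⁻¹ * a * h * y.1.2 * (h⁻¹ * a * h)⁻¹), hM, hwM⟩ with hw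
  have e1 : ((ψ⁻¹).1 y).1 = (cj h M, h * y.1.2 * h⁻¹) := by rw [h1 y hy, hy]
  have e2 : (φ.1 ((ψ⁻¹).1 y)).1 = (cj h M, a * (h * y.1.2 * h⁻¹) * a⁻¹) := by
    rw [ha1 _ (by rw [e1]), e1]
    refine Prod.ext ?_ rfl
    exact cj_of_mem ha
  have e3 : ((ψ⁻¹).1 w).1 = (cj h M, a * (h * y.1.2 * h⁻¹) * a⁻¹) := by
    rw [h1 w rfl]
    refine Prod.ext rfl ?_
    change h * (h⁻¹ * a * h * y.1.2 * (h⁻¹ * a * h)⁻¹) * h⁻¹ = a * (h * y.1.2 * h⁻¹) * a⁻¹
    group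
  have e4 : φ.1 ((ψ⁻¹).1 y) = (ψ⁻¹).1 w := Subtype.ext (e2.trans e3.symm)
  have e5 : (ψ * φ * ψ⁻¹).1 y = w := by
    change ψ.1 (φ.1 ((ψ⁻¹).1 y)) = w
    rw [e4]
    change ψ.1 (ψ.1⁻¹ w) = w
    exact ψ.1.apply_symm_apply w
  rw [e5]
  refine Prod.ext ?_ rfl
  rw [hy]
  exact (cj_of_mem ha').symm

/-- the subgroup generated by the members -/
def Gen (C : Set (Subgroup G)) : Subgroup G := ⨆ L ∈ C, L

lemma le_Gen {L : Subgroup G} (hL : L ∈ C) : L ≤ Gen C := le_biSup (fun L => L) hL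

lemma Gen_le (hF : Family p C) {L : Subgroup G} (hL : L ∈ C) :
    Gen C ≤ L ⊔ centralizer (L : Set G) := by
  refine iSup₂_le fun M hM => ?_
  by_cases h : M = L
  · rw [h]
    exact le_sup_left
  · refine le_trans (fun x hx => ?_) le_sup_right
    rw [Subgroup.mem_centralizer_iff]
    exact fun y hy => hF.comm L hL M hM (Ne.symm h) y hy x hx

lemma Gen_normalizer (hF : Family p C) {L : Subgroup G} (hL : L ∈ C) {e : G} (he : e ∈ Gen C) :
    cj e L = L :=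
  cj_eq_iff.2 ((sup_le Subgroup.le_normalizer (Subgroup.centralizer_le_normalizer _))
    (Gen_le hF hL he))

/-- an element of `L C_G(L)` acts on `L` as an element of `L` -/
lemma Ag.of_sup {φ : Equiv.Perm (Y C)} {e : G} {L : Subgroup G} (hφ : Ag φ e L)
    (he : e ∈ L ⊔ centralizer (L : Set G)) : ∃ a ∈ L, Ag φ a L := by
  obtain ⟨l, hl, c, hc, rfl⟩ := mem_sup_cent he
  refine ⟨l, hl, fun y hy => ?_⟩
  rw [hφ y hy]
  have hyL : y.1.2 ∈ L := hy ▸ y.2.2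
  have h1 := Subgroup.mem_centralizer_iff.1 hc y.1.2 hyL
  refine Prod.ext ?_ ?_
  · change cj (l * c) y.1.1 = cj l y.1.1
    rw [cj_mul, hy]
    have : cj c L = L := cj_eq_iff.2 (Subgroup.centralizer_le_normalizer _ hc)
    rw [this]
  · change l * c * y.1.2 * (l * c)⁻¹ = l * y.1.2 * l⁻¹
    calc l * c * y.1.2 * (l * c)⁻¹ = l * (c * y.1.2) * c⁻¹ * l⁻¹ := by group
      _ = l * (y.1.2 * c) * c⁻¹ * l⁻¹ := by rw [h1]
      _ = l * y.1.2 * l⁻¹ := by group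

/-- a uniform exponent -/
lemma uniform {T E : Subgroup G} (h : ∀ t ∈ T, ∃ k : ℕ, t ^ p ^ k ∈ E) :
    ∃ k : ℕ, ∀ t ∈ T, t ^ p ^ k ∈ E := by
  classical
  have : Fintype T := Fintype.ofFinite T
  choose k hk using fun t : T => h t.1 t.2
  refine ⟨∑ t, k t, fun t ht => ?_⟩
  have h1 : k ⟨t, ht⟩ ≤ ∑ t, k t := Finset.single_le_sum (fun _ _ => Nat.zero_le _)
    (Finset.mem_univ (⟨t, ht⟩ : T))
  obtain ⟨m, hm⟩ := Nat.exists_eq_add_of_le h1
  rw [hm, pow_add, pow_mul]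
  exact E.pow_mem (hk ⟨t, ht⟩) _

lemma pow_mem_InnG (hF : Family p C) {hC : ∀ L ∈ C, ∀ g ∈ T, cj g L ∈ C}
    (hp : ∀ t ∈ T, ∃ k : ℕ, t ^ p ^ k ∈ Gen C) (φ : Gam C T hC) :
    ∃ k : ℕ, φ ^ p ^ k ∈ InnG hC := by
  obtain ⟨k, hk⟩ := uniform hp
  obtain ⟨g, hg, hb⟩ := blk φ.2
  have hbn : ∀ (n : ℕ) (y : Y C), ((φ ^ n).1 y).1.1 = cj (g ^ n) y.1.1 := by
    intro n
    induction n with
    | zero => intro y; rw [pow_zero, pow_zero, cj_one]; rfl
    | succ n ih =>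
      intro y
      rw [pow_succ', pow_succ', cj_mul, ← ih]
      exact hb _
  set ψ := φ ^ p ^ k with hψ
  have h1 : ∀ L ∈ C, ∀ y : Y C, y.1.1 = L → (ψ.1 y).1.1 = L := by
    intro L hL y hy
    rw [hψ, hbn, hy]
    exact Gen_normalizer hF hL (hk g hg)
  refine ⟨k + k, fun L hL => ?_⟩
  obtain ⟨t, ht, ht1⟩ := gam_agree hL (h1 L hL)
  have h2 := (ht1.pow (cj_eq_iff.2 t.2) (p ^ k)).1
  have h3 : (φ ^ p ^ (k + k)).1 = ψ.1 ^ p ^ k := by
    rw [pow_add, pow_mul, ← hψ]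
    rfl
  rw [h3]
  exact h2.of_sup (Gen_le hF hL (hk _ ht))

/-- the homomorphism from `T` to `Γ` -/
def actT (hC : ∀ L ∈ C, ∀ g : G, cj g L ∈ C) (T : Subgroup G) :
    T →* Gam C T (fun L hL g _ => hC L hL g) where
  toFun t := ⟨act C hC t, act_mem hC t.2⟩
  map_one' := Subtype.ext (by simp)
  map_mul' a b := Subtype.ext (by simp)

lemma Ag_act (hC : ∀ L ∈ C, ∀ g : G, cj g L ∈ C) (g : G) (L : Subgroup G) :
    Ag (act C hC g) g L := fun y _ => act_apply hC g y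

lemma Ag.mul_cent {φ : Equiv.Perm (Y C)} {e a : G} {L : Subgroup G} (hφ : Ag φ e L)
    (ha : a ∈ centralizer (L : Set G)) : Ag φ (e * a) L := by
  intro y hy
  rw [hφ y hy]
  have hyL : y.1.2 ∈ L := hy ▸ y.2.2
  have h1 := Subgroup.mem_centralizer_iff.1 ha y.1.2 hyL
  refine Prod.ext ?_ ?_
  · change cj e y.1.1 = cj (e * a) y.1.1
    rw [cj_mul, hy]
    have : cj a L = L := cj_eq_iff.2 (Subgroup.centralizer_le_normalizer _ ha)
    rw [this]
  · change e * y.1.2 * e⁻¹ = e * a * y.1.2 * (e * a)⁻¹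
    calc e * y.1.2 * e⁻¹ = e * (y.1.2 * a) * a⁻¹ * e⁻¹ := by group
      _ = e * (a * y.1.2) * a⁻¹ * e⁻¹ := by rw [h1]
      _ = e * a * y.1.2 * (e * a)⁻¹ := by group

lemma Ag.cent_mul {φ : Equiv.Perm (Y C)} {e a : G} {L : Subgroup G} (hφ : Ag φ a L)
    (haL : a ∈ L) (he : e ∈ centralizer (L : Set G)) : Ag φ (e * a) L := by
  have h1 : e * a = a * e := (Subgroup.mem_centralizer_iff.1 he a haL).symm
  rw [h1]
  exact hφ.mul_cent he

lemma InnG_le (hF : Family p C) (hC : ∀ L ∈ C, ∀ g : G, cj g L ∈ C) (hT : Gen C ≤ T) :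
    InnG (fun L hL g _ => hC L hL g) ≤ (actT hC T).range := by
  intro φ hφ
  have key : ∀ S : Set (Subgroup G), S.Finite → S ⊆ C → ∃ e ∈ Gen C,
      (∀ L ∈ S, Ag φ.1 e L) ∧ ∀ L ∈ C, L ∉ S → e ∈ centralizer (L : Set G) := by
    intro S hS
    induction S, hS using Set.Finite.induction_on with
    | empty =>
      intro _
      exact ⟨1, Subgroup.one_mem _, fun L hL => hL.elim, fun L _ _ => Subgroup.one_mem _⟩
    | @insert M S hMS _ ih =>
      intro hsub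
      obtain ⟨e, he, h1, h2⟩ := ih fun L hL => hsub (Set.mem_insert_of_mem _ hL)
      have hM : M ∈ C := hsub (Set.mem_insert _ _)
      obtain ⟨a, ha, ha1⟩ := mem_InnG.1 hφ M hM
      have hac : ∀ L ∈ C, L ≠ M → a ∈ centralizer (L : Set G) := by
        intro L hL hLM
        rw [Subgroup.mem_centralizer_iff]
        exact fun y hy => hF.comm L hL M hM hLM y hy a ha
      refine ⟨e * a, Subgroup.mul_mem _ he (le_Gen hM ha), ?_, ?_⟩
      · intro L hL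
        rcases Set.mem_insert_iff.1 hL with rfl | hLS
        · exact ha1.cent_mul ha (h2 L hM hMS)
        · refine (h1 L hLS).mul_cent (hac L (hsub (Set.mem_insert_of_mem _ hLS)) ?_)
          rintro rfl
          exact hMS hLS
      · intro L hL hLS
        refine Subgroup.mul_mem _ (h2 L hL fun h => hLS (Set.mem_insert_of_mem _ h))
          (hac L hL ?_)
        rintro rfl
        exact hLS (Set.mem_insert _ _)
  obtain ⟨e, he, h1, -⟩ := key C (Set.toFinite _) (fun _ h => h)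
  refine ⟨⟨e, hT he⟩, Subtype.ext ?_⟩
  ext1 y
  exact ag_ext (Ag_act hC e y.1.1) (h1 _ y.2.1) rfl

lemma actT_injective (hC : ∀ L ∈ C, ∀ g : G, cj g L ∈ C)
    (hR : ∀ t ∈ T, (∀ L ∈ C, t ∈ centralizer (L : Set G)) → t = 1) :
    Function.Injective (actT hC T) := by
  rw [injective_iff_map_eq_one]
  intro t ht
  apply Subtype.ext
  refine hR t.1 t.2 fun L hL => ?_
  rw [Subgroup.mem_centralizer_iff]
  intro x hx
  have h1 : act C hC t.1 = 1 := congrArg Subtype.val ht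
  have h2 := act_apply hC t.1 ⟨(L, x), hL, hx⟩
  rw [h1] at h2
  have h3 : x = t.1 * x * t.1⁻¹ := congrArg Prod.snd h2
  calc x * t.1 = t.1 * x * t.1⁻¹ * t.1 := by rw [← h3]
    _ = t.1 * x := by group

/-- **Embedding theorem**, for a group that is a `p`-group modulo the members of the family. -/
theorem HQ_pfam [hp : Fact p.Prime] (hchar : (p : 𝕜) = 0) (hF : Family p C) (hT : Gen C ≤ T)
    (hpow : ∀ t ∈ T, ∃ k : ℕ, t ^ p ^ k ∈ Gen C)
    (hR : ∀ t ∈ T, (∀ L ∈ C, t ∈ centralizer (L : Set G)) → t = 1)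
    (hA : ∀ L ∈ C, HQ 𝕜 p ((T.subgroupOf (normalizer (L : Set G))).map L.normalizerMonoidHom)) :
    HQ 𝕜 p T := by
  have hC : ∀ L ∈ C, ∀ g : G, cj g L ∈ C := hF.conj
  have h1 : HQ 𝕜 p (Gam C T (fun L hL g _ => hC L hL g)) :=
    HQ_Gam hF (fun L hL => (le_Gen hL).trans hT) hA
  have h2 : (actT hC T).range.IsSubnormal :=
    subnormal_of_pgroup (InnG_normal _) (InnG_le hF hC hT) (pow_mem_InnG hF hpow)
  exact (HQ_congr (MonoidHom.ofInjective (actT_injective hC hR))).2 (HQ_subnormal hchar h2 h1)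

end

end Vale.Agent.P240.R2.H487
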