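import Vale.Agent.P240.H195.THom
import Mathlib.GroupTheory.IsSubnormal

/-!
Heredity in characteristic `p`: if `N` is a subnormal subgroup of the finite group `G` and `𝒜ₚ(N)` is
acyclic over a field of characteristic `p`, then so is `𝒜ₚ(G)`.
-/

namespace Vale.Agent.P240.R2.H487

open Finsupp Subgroup Vale.Agent.P240.K Vale.Agent.P240.H195

universe u v

variable {𝕜 : Type v} [Field 𝕜] {G : Type u} [Group G] {p : ℕ}

lemma not_NA_retract {α : Type*} [PartialOrder α] {S R : Set α} {ρ : α → α} (hRS : R ⊆ S)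
    (hρ : ∀ x ∈ S, ρ x ∈ R) (hmono : ∀ x ∈ S, ∀ y ∈ S, x ≤ y → ρ x ≤ ρ y)
    (hid : ∀ x ∈ R, ρ x = x) (hac : ¬ NA 𝕜 S) : ¬ NA 𝕜 R := by
  rw [not_NA_iff] at hac ⊢
  intro z hz hb
  obtain ⟨c, hc, hcz⟩ := hac z (Sp_mono (st_mono hRS) hz) hb
  exact push_retr hρ hmono hid hz hc hcz

lemma isPGroup_of_ApS {F : Subgroup G} (hF : F ∈ ApS p G) : IsPGroup p F := fun x =>
  ⟨1, by rw [pow_one]; exact Subtype.ext (hF.2.2 x x.2)⟩

lemma exists_card_of_ApS [hp : Fact p.Prime] [Finite G] {F : Subgroup G} (hF : F ∈ ApS p G) :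
    ∃ n, Nat.card F = p ^ n := IsPGroup.iff_card.1 (isPGroup_of_ApS hF)

lemma dvd_card_of_ApS [hp : Fact p.Prime] [Finite G] {F : Subgroup G} (hF : F ∈ ApS p G) :
    p ∣ Nat.card F := by
  obtain ⟨n, hn⟩ := exists_card_of_ApS hF
  rcases n with _ | n
  · exact absurd (Subgroup.card_eq_one.1 (by rw [hn, pow_zero])) hF.1
  · rw [hn]
    exact dvd_pow_self p (Nat.succ_ne_zero n)

/-- A `p`-group `F` normalizing `N`: if `𝒜ₚ(N)` is acyclic in characteristic `p`, so is
`𝒜ₚ(C_N(F))`. -/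
theorem cent_acyclic [hp : Fact p.Prime] [Finite G] (hchar : (p : 𝕜) = 0) {N F : Subgroup G}
    (hFN : F ≤ normalizer (N : Set G)) (hF : F ∈ ApS p G) (hac : ¬ NA 𝕜 (Ain p N)) :
    ¬ NA 𝕜 (Ain p (N ⊓ centralizer (F : Set G))) := by
  obtain ⟨n, hn⟩ := exists_card_of_ApS hF
  have h1 : ¬ NA 𝕜 {E | E ∈ Ain p N ∧ F ≤ normalizer (E : Set G)} := by
    refine smith_group (r := p) hchar n F hn ?_ hac
    rintro u hu E ⟨hE, hEN⟩
    refine ⟨⟨?_, ?_, ?_⟩, ?_⟩
    · intro h
      apply hE.1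
      rw [eq_bot_iff]
      intro x hx
      have h2 : u * x * u⁻¹ ∈ cj u E := by
        rw [mem_cj]
        have : u⁻¹ * (u * x * u⁻¹) * u = x := by group
        rw [this]
        exact hx
      rw [h, Subgroup.mem_bot] at h2
      rw [Subgroup.mem_bot]
      have : x = u⁻¹ * (u * x * u⁻¹) * u := by group
      rw [this, h2]
      group
    · intro x hx y hy
      rw [mem_cj] at hx hy
      have h2 := hE.2.1 _ hx _ hy
      have h3 : u⁻¹ * (x * y) * u = u⁻¹ * (y * x) * u := by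
        calc u⁻¹ * (x * y) * u = (u⁻¹ * x * u) * (u⁻¹ * y * u) := by group
          _ = (u⁻¹ * y * u) * (u⁻¹ * x * u) := h2
          _ = u⁻¹ * (y * x) * u := by group
      exact mul_left_cancel (mul_right_cancel h3)
    · intro x hx
      rw [mem_cj] at hx
      have h2 := hE.2.2 _ hx
      have h3 : (u⁻¹ * x * u) ^ p = u⁻¹ * x ^ p * u := by
        have := conj_pow (i := p) (a := u⁻¹) (b := x)
        rwa [inv_inv] at this
      rw [h3] at h2
      have : x ^ p = u * (u⁻¹ * x ^ p * u) * u⁻¹ := by group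
      rw [this, h2]
      group
    · intro x hx
      rw [mem_cj] at hx
      have h2 := hEN hx
      have h3 := (Subgroup.mem_normalizer_iff.1 (hFN hu) (u⁻¹ * x * u)).1 h2
      have : u * (u⁻¹ * x * u) * u⁻¹ = x := by group
      rwa [this] at h3
  refine not_NA_retract (S := {E | E ∈ Ain p N ∧ F ≤ normalizer (E : Set G)})
    (ρ := fun E => E ⊓ centralizer (F : Set G)) ?_ ?_ ?_ ?_ h1
  · rintro E ⟨hE, hEN⟩
    refine ⟨⟨hE, hEN.trans inf_le_left⟩, ?_⟩
    intro f hf
    rw [Subgroup.mem_normalizer_iff]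
    intro x
    constructor
    · intro hx
      have h2 := Subgroup.mem_centralizer_iff.1 (hEN hx).2 f hf
      have : f * x * f⁻¹ = x := by rw [h2]; group
      rwa [this]
    · intro hx
      have h2 := Subgroup.mem_centralizer_iff.1 (hEN hx).2 f hf
      have : f * x * f⁻¹ = x := by
        have h4 : f * (f * x * f⁻¹) = f * x * f⁻¹ * f := h2
        have h5 : f * (f * x * f⁻¹) = f * x := by rw [h4]; group
        exact mul_left_cancel h5
      rwa [this] at hx
  · rintro E ⟨⟨hE, hEN⟩, hFE⟩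
    have h2 : p ∣ Nat.card (E ⊓ centralizer (F : Set G) : Subgroup G) :=
      dvd_card_inf_centralizer (isPGroup_of_ApS hF) hFE (dvd_card_of_ApS hE)
    have h3 : E ⊓ centralizer (F : Set G) ≠ ⊥ := by
      intro h
      rw [h, Subgroup.card_bot] at h2
      exact hp.out.one_lt.ne' (Nat.dvd_one.1 h2)
    exact ⟨mem_ApS_of_le hE inf_le_left h3, inf_le_inf_right _ hEN⟩
  · intro X _ Y _ hXY
    exact inf_le_inf_right _ hXY
  · rintro E ⟨hE, hEN⟩
    exact inf_eq_left.2 (hEN.trans inf_le_right)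

/-- The general attaching statement: `𝒜ₚ(G)` is acyclic if `𝒜ₚ(C_H(F))` is acyclic for `F = 1` and
all elementary abelian `p`-subgroups `F` with `F ∩ H = 1`. -/
theorem attach_acyclic [Finite G] (H : Subgroup G)
    (h : ∀ F : Subgroup G, F ∈ ApB p G → F ⊓ H = ⊥ →
      ¬ NA 𝕜 (Ain p (H ⊓ centralizer (F : Set G)))) : ¬ NA 𝕜 (ApS p G) := by
  have hlk : ∀ T : Subgroup G, T ∈ ApB p G → T ⊓ H = ⊥ → ¬ NA 𝕜 {X | X ∈ ApS p G ∧ T < X} := by
    intro T
    induction T using WellFoundedGT.induction with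
    | ind T ih =>
      intro hT hTH
      exact link_acyclic H hT hTH (fun T' hT' hTT' hT'H => ih T' hTT' (Or.inr hT') hT'H)
        (h T hT hTH)
  have h1 := hlk ⊥ (Or.inl rfl) (bot_inf_eq H)
  have h2 : {X | X ∈ ApS p G ∧ (⊥ : Subgroup G) < X} = ApS p G := by
    ext X
    exact ⟨fun hX => hX.1, fun hX => ⟨hX, bot_lt_iff_ne_bot.2 hX.1⟩⟩
  rwa [h2] at h1

lemma inf_centralizer_bot (H : Subgroup G) : H ⊓ centralizer ((⊥ : Subgroup G) : Set G) = H := by
  refine inf_eq_left.2 fun x _ => ?_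
  rw [Subgroup.mem_centralizer_iff]
  intro y hy
  have hy1 : y = 1 := by simpa using hy
  rw [hy1, one_mul, mul_one]

/-- **Heredity for normal subgroups.** -/
theorem normal_acyclic [hp : Fact p.Prime] [Finite G] (hchar : (p : 𝕜) = 0) (N : Subgroup G)
    [N.Normal] (hac : ¬ NA 𝕜 (Ain p N)) : ¬ NA 𝕜 (ApS p G) := by
  refine attach_acyclic N fun F hF _ => ?_
  rcases hF with h | hF
  · subst h
    rwa [inf_centralizer_bot]
  · refine cent_acyclic hchar ?_ hF hac
    rw [Subgroup.normalizer_eq_top]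
    exact le_top

theorem HQ_normal [hp : Fact p.Prime] [Finite G] (hchar : (p : 𝕜) = 0) (N : Subgroup G)
    [N.Normal] (h : HQ 𝕜 p G) : HQ 𝕜 p N := by
  rw [HQ_sub_iff]
  rw [HQ_iff] at h
  by_contra hn
  exact normal_acyclic hchar N hn h

end Vale.Agent.P240.R2.H487
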